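import Vale.Agent.P202.M.SpecT

/-! Module AI: almost integral closedness of the untilt. -/

open Finset

namespace Vale.Agent.P202.Mx

universe u

namespace Aim

open WittVector

variable {p : ℕ} [hp : Fact p.Prime] {P : Type u} [CommRing P]

theorem tm_mul (t a b : P) : tm p t (a * b) = tm p t a * tm p t b := by
  simp [tm]

theorem tm_pow (t a : P) (n : ℕ) : tm p t (a ^ n) = tm p t a ^ n := by
  simp [tm]

theorem tm_self (t : P) : tm p t t = p := by
  rw [tm, ← map_natCast (Ideal.Quotient.mk _), eq_comm, Ideal.Quotient.eq]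
  exact Ideal.mem_span_singleton_self _

theorem mk_eq {t : P} {x y : WittVector p P} :
    (Ideal.Quotient.mk _ x : OO p t) = Ideal.Quotient.mk _ y ↔
      ∃ z, x - y = ((p : WittVector p P) - teichmuller p t) * z := by
  rw [Ideal.Quotient.eq, Ideal.mem_span_singleton]
  rfl

theorem c0_tei (a : P) : constantCoeff (teichmuller p a) = a := rfl

theorem nzd_pow {R : Type u} [CommRing R] {a : R} (h : Nzd a) (n : ℕ) : Nzd (a ^ n) := by
  induction n with
  | zero => intro b hb; simpa using hb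
  | succ n ih => intro b hb; exact h b (ih _ (by rw [← hb]; ring))

theorem nzd_of_pow {R : Type u} [CommRing R] {a : R} {n : ℕ} (h : Nzd (a ^ n)) (hn : n ≠ 0) :
    Nzd a := fun b hb => h b (by
  obtain ⟨m, rfl⟩ := Nat.exists_eq_succ_of_ne_zero hn
  rw [pow_succ, mul_assoc, hb, mul_zero])

theorem nzd_cancel {R : Type u} [CommRing R] {a b c : R} (h : Nzd a) (e : a * b = a * c) : b = c :=
  sub_eq_zero.1 (h _ (by rw [mul_sub, e, sub_self]))

variable [CharP P p]

theorem c0_p : constantCoeff (p : WittVector p P) = 0 := by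
  rw [map_natCast, CharP.cast_eq_zero]

variable [PerfectRing P p]

theorem rt_pow (j : ℕ) (a : P) : rt p j a ^ p ^ j = a :=
  (iterateFrobeniusEquiv P p j).apply_symm_apply a

theorem pow_inj (j : ℕ) {a b : P} (h : a ^ p ^ j = b ^ p ^ j) : a = b :=
  (iterateFrobeniusEquiv P p j).injective h

theorem rt_add_pow (j l : ℕ) (a : P) : rt p (j + l) a ^ p ^ l = rt p j a :=
  pow_inj (p := p) j (by rw [← pow_mul, ← pow_add, add_comm l, rt_pow, rt_pow])

theorem rt_mul (j : ℕ) (a b : P) : rt p j (a * b) = rt p j a * rt p j b :=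
  map_mul (iterateFrobeniusEquiv P p j).symm a b

theorem dvd_of_pow (j : ℕ) {a b : P} (h : a ^ p ^ j ∣ b ^ p ^ j) : a ∣ b := by
  obtain ⟨c, hc⟩ := h
  exact ⟨rt p j c, pow_inj (p := p) j (by rw [mul_pow, rt_pow, hc])⟩

theorem p_dvd {x : WittVector p P} (h : constantCoeff x = 0) : (p : WittVector p P) ∣ x :=
  Ideal.mem_span_singleton.1 ((mem_span_p_iff_coeff_zero_eq_zero x).2 h)

theorem p_nzd : Nzd (p : WittVector p P) := fun b hb =>
  eq_zero_of_p_mul_eq_zero b (by rwa [mul_comm])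

theorem nzd_W {w : WittVector p P} (h : Nzd (constantCoeff w)) : Nzd w := by
  have key : ∀ n, ∀ x, w * x = 0 → (p : WittVector p P) ^ n ∣ x := fun n => by
    induction n with
    | zero => simp
    | succ n ih =>
      intro x hx
      obtain ⟨y, rfl⟩ := p_dvd (x := x) (h _ (by rw [← map_mul, hx, map_zero]))
      rw [pow_succ']
      exact mul_dvd_mul_left _ (ih y (p_nzd _ (by rw [← hx]; ring)))
  intro x hx
  ext m
  rw [zero_coeff]
  exact (mem_span_p_pow_iff_le_coeff_eq_zero x (m + 1)).1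
    (Ideal.mem_span_singleton.2 (key _ x hx)) m m.lt_succ_self

/-- divisibility by `p` in the untilt -/
theorem dvd_mk {t : P} {w : WittVector p P} :
    (p : OO p t) ∣ Ideal.Quotient.mk _ w ↔ t ∣ constantCoeff w := by
  constructor
  · rintro ⟨z, hz⟩
    obtain ⟨z, rfl⟩ := Ideal.Quotient.mk_surjective z
    rw [← map_natCast (Ideal.Quotient.mk _), ← map_mul, mk_eq] at hz
    obtain ⟨e, he⟩ := hz
    have := congrArg constantCoeff he
    rw [map_sub, map_mul, map_mul, map_sub, c0_p, c0_tei] at this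
    exact ⟨-constantCoeff e, by linear_combination this⟩
  · rintro ⟨r, hr⟩
    obtain ⟨e, he⟩ := p_dvd (x := w - teichmuller p (t * r)) (by rw [map_sub, c0_tei, hr, sub_self])
    refine ⟨tm p t r + Ideal.Quotient.mk _ e, ?_⟩
    rw [sub_eq_iff_eq_add] at he
    rw [he, map_add, map_mul, map_natCast, mul_add, add_comm]
    congr 1
    rw [← tm_self, ← tm_mul]
    rfl

theorem p_nzd_O {t : P} (ht : Nzd t) : Nzd (p : OO p t) := by
  intro y hy
  obtain ⟨y, rfl⟩ := Ideal.Quotient.mk_surjective y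
  rw [← map_natCast (Ideal.Quotient.mk _), ← map_mul, ← map_zero (Ideal.Quotient.mk _), mk_eq] at hy
  obtain ⟨z, hz⟩ := hy
  have h0 := congrArg constantCoeff hz
  rw [sub_zero, map_mul, map_mul, map_sub, c0_p, c0_tei] at h0
  obtain ⟨z', rfl⟩ := p_dvd (x := z) (ht _ (by linear_combination h0))
  rw [← map_zero (Ideal.Quotient.mk _), mk_eq]
  exact ⟨z', nzd_cancel p_nzd (by linear_combination hz)⟩

theorem tm_nzd {t u : P} (ht : Nzd t) (h : u ∣ t) : Nzd (tm p t u) := by
  obtain ⟨s, hs⟩ := h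
  intro y hy
  refine p_nzd_O ht y ?_
  have : tm p t t = tm p t u * tm p t s := by rw [← tm_mul, ← hs]
  rw [← tm_self, this, mul_comm (tm p t u), mul_assoc, hy, mul_zero]

theorem tm_dvd {t u : P} (h : u ∣ t) {w : WittVector p P} (hw : u ∣ constantCoeff w) :
    tm p t u ∣ Ideal.Quotient.mk _ w := by
  obtain ⟨s, hs⟩ := h
  obtain ⟨r, hr⟩ := hw
  obtain ⟨e, he⟩ := p_dvd (x := w - teichmuller p (u * r)) (by rw [map_sub, c0_tei, hr, sub_self])
  refine ⟨tm p t r + tm p t s * Ideal.Quotient.mk _ e, ?_⟩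
  rw [sub_eq_iff_eq_add] at he
  rw [he, map_add, map_mul, map_natCast, mul_add, add_comm, ← mul_assoc, ← tm_mul, ← tm_mul, ← hs,
    tm_self]
  rfl

theorem root {t u : P} (l : ℕ) (h : u ^ p ^ l ∣ t) {y : OO p t}
    (hy : tm p t u ^ p ^ l ∣ y ^ p ^ l) : tm p t u ∣ y := by
  obtain ⟨w, rfl⟩ := Ideal.Quotient.mk_surjective y
  refine tm_dvd ((dvd_pow_self u (pow_ne_zero _ hp.out.ne_zero)).trans h) (dvd_of_pow (p := p) l ?_)
  obtain ⟨z, hz⟩ := hy
  obtain ⟨z, rfl⟩ := Ideal.Quotient.mk_surjective z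
  rw [← tm_pow, tm, ← map_mul, ← map_pow, mk_eq] at hz
  obtain ⟨e, he⟩ := hz
  have h0 := congrArg constantCoeff he
  rw [map_sub, map_mul, map_mul, map_sub, c0_p, c0_tei, c0_tei, map_pow] at h0
  obtain ⟨s, hs⟩ := h
  exact ⟨constantCoeff z - s * constantCoeff e, by rw [hs] at h0; linear_combination h0⟩

theorem step {R : Type u} [CommRing R] {U y : R} (hU : Nzd U) {A n i q : ℕ} (hi : i + q ≤ A)
    (h : Idp (Ideal.span {U ^ A}) ⊥ n (U ^ i * y)) : U ^ q ∣ y ^ n := by
  obtain ⟨c, hc, he⟩ := h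
  rw [Ideal.mem_bot, sub_eq_zero, mul_pow, ← pow_mul] at he
  have : U ^ (i * n) * U ^ q ∣ U ^ (i * n) * y ^ n := by
    rw [he, ← pow_add]
    refine dvd_sum fun m hm => ?_
    have hm' := mem_range.1 hm
    have h1 := hc m hm'
    rw [Ideal.span_singleton_pow, Ideal.mem_span_singleton, ← pow_mul] at h1
    rw [mul_pow, ← mul_assoc, ← pow_mul]
    refine Dvd.dvd.mul_right ((pow_dvd_pow U ?_).trans
      (pow_add U (A * (n - m)) (i * m) ▸ mul_dvd_mul_right h1 _)) _
    obtain ⟨d, rfl⟩ := Nat.exists_eq_add_of_lt hm'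
    rw [show m + d + 1 - m = d + 1 by omega]
    nlinarith [Nat.mul_le_mul_right (d + 1) hi, Nat.zero_le (q * d)]
  obtain ⟨e, he⟩ := this
  exact ⟨e, nzd_cancel (nzd_pow hU _) (by rw [he, mul_assoc])⟩

theorem main {t v : P} {k0 : ℕ} (ht : Nzd t) (hv : rt p k0 v ∣ t) (a n : ℕ) (y : OO p t)
    (h : Idp (Ideal.span {tm p t v ^ a}) ⊥ n y) (j : ℕ) :
    tm p t (rt p j v) ^ (a * p ^ j - 1) ∣ y := by
  set u := rt p (k0 + j + n) v with hu
  have h1 : u ^ p ^ n ∣ t := by
    rw [hu, rt_add_pow]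
    refine Dvd.dvd.trans ?_ hv
    rw [← rt_add_pow (p := p) k0 j v]
    exact dvd_pow_self _ (pow_ne_zero _ hp.out.ne_zero)
  have hU : Nzd (tm p t u) :=
    tm_nzd ht ((dvd_pow_self u (pow_ne_zero _ hp.out.ne_zero)).trans h1)
  have h2 : tm p t v ^ a = tm p t u ^ (p ^ (k0 + j + n) * a) := by
    rw [pow_mul, ← tm_pow t u, hu, rt_pow]
  have h3 : tm p t (rt p j v) = tm p t u ^ p ^ (k0 + n) := by
    rw [← tm_pow, hu, show k0 + j + n = j + (k0 + n) by ring, rt_add_pow]
  rw [h2] at h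
  have key : ∀ i, i + p ^ n ≤ p ^ (k0 + j + n) * a ∨ i = 0 → tm p t u ^ i ∣ y := fun i => by
    induction i with
    | zero => simp
    | succ i ih =>
      intro hi
      have hi' : i + p ^ n ≤ p ^ (k0 + j + n) * a := by omega
      obtain ⟨y1, rfl⟩ := ih (Or.inl hi')
      rw [pow_succ]
      refine mul_dvd_mul_left _ (root n h1 ((step hU hi' h).trans (pow_dvd_pow _ ?_)))
      exact (Nat.lt_pow_self hp.out.one_lt).le
  rw [h3, ← pow_mul]
  refine key _ ?_
  rcases Nat.eq_zero_or_pos (a * p ^ j) with c | c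
  · right
    rw [c]
    simp
  · left
    obtain ⟨d, hd⟩ : ∃ d, a * p ^ j = 1 + d := Nat.exists_eq_add_of_le c
    have h4 : p ^ n ≤ p ^ (k0 + n) := Nat.pow_le_pow_right hp.out.pos (by omega)
    have h5 : p ^ (k0 + j + n) * a = p ^ (k0 + n) * (a * p ^ j) := by ring
    rw [h5, hd, Nat.add_sub_cancel_left, mul_add, mul_one]
    omega

omit [PerfectRing P p] in
theorem last0 {t w : P} {y z : WittVector p P} (ht : t ∈ (Ideal.span {w}).radical)
    (h : (p : WittVector p P) - teichmuller p w * y = (p - teichmuller p t) * z) : w ∣ t := by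
  have h0 := congrArg constantCoeff h
  rw [map_sub, map_mul, map_mul, map_sub, c0_p, c0_tei, c0_tei] at h0
  have h1 : 1 - constantCoeff z ∈ (Ideal.span {w}).radical := by
    set I := (Ideal.span {w}).radical with hI
    rcases subsingleton_or_nontrivial (P ⧸ I) with c | c
    · exact Ideal.Quotient.eq_zero_iff_mem.1 (Subsingleton.elim _ _)
    have hq : (p : P ⧸ I) = 0 := by
      rw [← map_natCast (Ideal.Quotient.mk I), CharP.cast_eq_zero, map_zero]
    have : CharP (P ⧸ I) p := (CharP.charP_iff_prime_eq_zero hp.out).2 hq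
    have h2 := congrArg (WittVector.map (Ideal.Quotient.mk I)) h
    rw [map_sub, map_mul, map_mul, map_sub, map_teichmuller, map_teichmuller,
      Ideal.Quotient.eq_zero_iff_mem.2 ht, Ideal.Quotient.eq_zero_iff_mem.2
        (Ideal.le_radical (Ideal.mem_span_singleton_self w)), teichmuller_zero, map_natCast] at h2
    have h3 : WittVector.map (Ideal.Quotient.mk I) (1 - z) * (p : WittVector p (P ⧸ I)) = 0 := by
      rw [map_sub, map_one]
      linear_combination h2
    have h4 := mul_charP_coeff_succ (WittVector.map (Ideal.Quotient.mk I) (1 - z)) 0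
    rw [h3, zero_coeff, map_coeff, ← map_pow, eq_comm, Ideal.Quotient.eq_zero_iff_mem] at h4
    have h5 : (1 - z).coeff 0 = 1 - constantCoeff z := by
      rw [← map_one (constantCoeff (p := p) (R := P)), ← map_sub]
      rfl
    rw [h5] at h4
    exact Ideal.radical_isRadical _ ⟨p, h4⟩
  obtain ⟨m, hm⟩ := h1
  obtain ⟨r, hr⟩ := Ideal.mem_span_singleton.1 hm
  obtain ⟨g, hg⟩ := sub_dvd_pow_sub_pow 1 (1 - constantCoeff z) m
  rw [one_pow, sub_sub_cancel, hr] at hg
  exact ⟨t * r + constantCoeff y * g, by linear_combination t * hg + g * h0⟩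

theorem last {t v : P} {k0 : ℕ} (hv : rt p k0 v ∣ t) (j N : ℕ)
    (h : tm p t (rt p j v) ^ N ∣ (p : OO p t)) : rt p j v ^ N ∣ t := by
  obtain ⟨y, hy⟩ := h
  obtain ⟨y, rfl⟩ := Ideal.Quotient.mk_surjective y
  rw [← tm_pow, tm, ← map_mul, ← map_natCast (Ideal.Quotient.mk _), mk_eq] at hy
  obtain ⟨z, hz⟩ := hy
  refine last0 ⟨p ^ k0 * N, Ideal.mem_span_singleton.2 ?_⟩ hz
  rw [pow_mul]
  refine pow_dvd_pow_of_dvd (Dvd.dvd.trans ?_ (pow_dvd_pow_of_dvd hv _)) _
  rw [rt_pow]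
  conv_rhs => rw [← rt_pow (p := p) j v]
  exact dvd_pow_self _ (pow_ne_zero _ hp.out.ne_zero)

end Aim

theorem aiStmt : AiStmt.{u} := fun _ _ _ _ _ _ _ ht =>
  ⟨Aim.p_nzd_O ht, fun _ _ _ hv => ⟨Aim.main ht hv, Aim.last hv⟩⟩

end Vale.Agent.P202.Mx
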