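import Vale.Agent.P202.M.SpecI
import Vale.Agent.P202.Bc
import Vale.Agent.P202.Gon
import Vale.Agent.P202.Lc

/-! Module BW: completed base change of the coefficient ring. -/

open Finset Matrix MvPowerSeries Filter Topology IsLocalRing
open scoped Kronecker Nat TensorProduct

namespace Vale.Agent.P202.Mx

universe u

namespace BwM

open Bcm

theorem inj {p : ℕ} {C W : Type u} [CommRing C] [IsDomain C] [IsDiscreteValuationRing C]
    [CommRing W] [IsDomain W] (f : C →+* W) (hC : maximalIdeal C = Ideal.span {(p : C)})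
    (hW : (p : W) ≠ 0) : Function.Injective f := by
  refine (injective_iff_map_eq_zero f).2 fun c hc => by_contra fun h => ?_
  obtain ⟨n, w, rfl⟩ := IsDiscreteValuationRing.eq_unit_mul_pow_irreducible h
    ((IsDiscreteValuationRing.irreducible_iff_uniformizer _).2 hC)
  rw [map_mul, map_pow, map_natCast] at hc
  exact mul_ne_zero (w.isUnit.map f).ne_zero (pow_ne_zero _ hW) hc

theorem ne_zero {p : ℕ} {W : Type u} [CommRing W] [IsDomain W] [IsDiscreteValuationRing W]
    (hW : maximalIdeal W = Ideal.span {(p : W)}) : (p : W) ≠ 0 :=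
  ((IsDiscreteValuationRing.irreducible_iff_uniformizer _).2 hW).ne_zero

theorem isMax {W T : Type*} [CommRing W] [IsLocalRing W] [CommRing T] [Algebra W T] {J : Ideal T}
    (hne : J ≠ ⊤) (hloc : ∀ a ∈ maximalIdeal W, algebraMap W T a ∈ J)
    (hres : ∀ t : T, ∃ a : W, t - algebraMap W T a ∈ J) : J.IsMaximal := by
  refine Ideal.isMaximal_iff.2 ⟨(Ideal.ne_top_iff_one J).1 hne, fun I x hI hx hxI => ?_⟩
  obtain ⟨a, ha⟩ := hres x
  have ha0 : IsUnit a := by
    by_contra h
    exact hx (by simpa using add_mem ha (hloc a h))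
  have h1 : algebraMap W T a ∈ I := by simpa using I.sub_mem hxI (hI ha)
  exact (Ideal.eq_top_iff_one I).1 (I.eq_top_of_isUnit_mem h1 (ha0.map _))

theorem abstr (W R T : Type u) [CommRing W] [IsLocalRing W] [IsNoetherianRing W] [CommRing R]
    [IsLocalRing R] [IsNoetherianRing R] [CommRing T] [Algebra W T] [Algebra R T]
    [Module.Flat R T] (hne : (maximalIdeal R).map (algebraMap R T) ≠ ⊤)
    (hl : ∀ a ∈ maximalIdeal W, algebraMap W T a ∈ (maximalIdeal R).map (algebraMap R T))
    (hres : ∀ t : T, ∃ a : W, t - algebraMap W T a ∈ (maximalIdeal R).map (algebraMap R T)) :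
    ∃ (R' : Type u) (_ : CommRing R') (_ : IsLocalRing R') (_ : Algebra W R') (a : R →+* R'),
      CW W R' ∧ Unr a := by
  set J := (maximalIdeal R).map (algebraMap R T) with hJ
  have fg : J.FG := (maximalIdeal R).fg_of_isNoetherianRing.map _
  have hmax : J.IsMaximal := isMax hne hl hres
  have hmax' := AdicCompletion.isMaximal_map_of_le J J le_rfl fg
  have hc := AdicCompletion.isAdicComplete_self J fg
  have hloc : IsLocalRing (AdicCompletion J T) :=
    isLocalRing_of_isAdicComplete_maximal (J.map (algebraMap T (AdicCompletion J T)))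
  have hm : J.map (algebraMap T (AdicCompletion J T)) = maximalIdeal _ := eq_maximalIdeal hmax'
  have hres' : ∀ b : AdicCompletion J T, ∃ a : W,
      b - algebraMap W _ a ∈ J.map (algebraMap T (AdicCompletion J T)) := fun b => by
    obtain ⟨t, ht⟩ := approx J fg 1 b
    obtain ⟨a, ha⟩ := hres t
    rw [pow_one] at ht
    have h1 := Ideal.add_mem _ ht (Ideal.mem_map_of_mem (algebraMap T (AdicCompletion J T)) ha)
    rw [map_sub, sub_add_sub_cancel] at h1
    exact ⟨a, h1⟩
  have hno : IsNoetherianRing (AdicCompletion J T) := Gon.noeth _ (fg.map _) _ hres'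
  have hpow : ∀ N, (maximalIdeal R ^ N).map
      ((algebraMap T (AdicCompletion J T)).comp (algebraMap R T)) =
      (J ^ N).map (algebraMap T (AdicCompletion J T)) := fun N => by
    rw [← Ideal.map_map, Ideal.map_pow (algebraMap R T)]
  have hm1 : (maximalIdeal R).map ((algebraMap T (AdicCompletion J T)).comp (algebraMap R T)) =
      maximalIdeal _ := by rw [← Ideal.map_map, hm]
  refine ⟨AdicCompletion J T, inferInstance, hloc, inferInstance,
    (algebraMap T _).comp (algebraMap R T), ⟨hno, hm ▸ hc, hm ▸ hres', fun a ha => hm ▸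
      Ideal.mem_map_of_mem (algebraMap T (AdicCompletion J T)) (hl a ha)⟩, ?_, hm1⟩
  refine lcStmt R T (AdicCompletion J T) (maximalIdeal R) (algebraMap T _) ?_ (fun N b => ?_)
    fun N t ht => ?_
  · rw [hm1]; exact (maximalIdeal.isMaximal _).ne_top
  · rw [hpow]; exact approx J fg N b
  · rw [hpow] at ht
    rw [Ideal.map_pow]
    exact detect J fg N t ht

end BwM

theorem bcWStmt : BcWStmt.{u} := by
  intro p C W R _ _ _ _ _ _ _ _ _ _ hC hW hR
  have := hR.noeth
  have hi := BwM.inj (algebraMap C W) hC.max (BwM.ne_zero hW.max)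
  have : Module.IsTorsionFree C W := Module.isTorsionFree_iff_algebraMap_injective.2 hi
  have : IsLocalHom (algebraMap C W) := ⟨fun c hc => by_contra fun h => by
    obtain ⟨d, rfl⟩ := Ideal.mem_span_singleton.1 (hC.max ▸ (show c ∈ maximalIdeal C from h))
    rw [map_mul, map_natCast] at hc
    exact (show (p : W) ∈ maximalIdeal W from hW.max ▸ Ideal.mem_span_singleton_self _)
      (isUnit_of_mul_isUnit_left hc)⟩
  have : Module.FaithfullyFlat C W := Module.FaithfullyFlat.of_flat_of_isLocalHom
  let iK : W →+* R ⊗[C] W := (Algebra.TensorProduct.includeRight (R := C) (A := R)).toRingHom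
  let _ : Algebra W (R ⊗[C] W) := iK.toAlgebra
  have hiK : ∀ a : W, algebraMap W (R ⊗[C] W) a = (1 : R) ⊗ₜ a := fun a => rfl
  have hiR : ∀ a : R, algebraMap R (R ⊗[C] W) a = a ⊗ₜ (1 : W) := fun a => rfl
  refine BwM.abstr W R (R ⊗[C] W) (fun h => ?_) (fun a ha => ?_) fun t => ?_
  · have hf : Module.FaithfullyFlat R (R ⊗[C] W) := inferInstance
    have := Module.FaithfullyFlat.submodule_ne_top (R := R) (M := R ⊗[C] W)
      (maximalIdeal.isMaximal R)
    rw [Ideal.smul_top_eq_map, h] at this
    exact this rfl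
  · obtain ⟨d, rfl⟩ := Ideal.mem_span_singleton.1 (hW.max ▸ ha)
    have h1 := Ideal.mem_map_of_mem (algebraMap R (R ⊗[C] W))
      (hR.loc p (hC.max ▸ Ideal.mem_span_singleton_self _))
    rw [map_natCast, map_natCast] at h1
    rw [map_mul, map_natCast]
    exact Ideal.mul_mem_right _ _ h1
  · induction t using TensorProduct.induction_on with
    | zero => exact ⟨0, by simp⟩
    | tmul r a =>
      obtain ⟨c, hc⟩ := hR.res r
      refine ⟨c • a, ?_⟩
      have h1 := Ideal.mul_mem_right ((1 : R) ⊗ₜ[C] a) _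
        (Ideal.mem_map_of_mem (algebraMap R (R ⊗[C] W)) hc)
      rw [hiR, Algebra.TensorProduct.tmul_mul_tmul, mul_one, one_mul, TensorProduct.sub_tmul,
        Algebra.algebraMap_eq_smul_one, TensorProduct.smul_tmul] at h1
      rwa [hiK]
    | add x y hx hy =>
      obtain ⟨a, ha⟩ := hx
      obtain ⟨b, hb⟩ := hy
      refine ⟨a + b, ?_⟩
      have := Ideal.add_mem _ ha hb
      rwa [map_add, add_sub_add_comm]

end Vale.Agent.P202.Mx
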