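import Vale.Agent.P202.M.SpecI
import Vale.Agent.P202.Unr

open Finset Filter Topology IsLocalRing
open scoped Nat

namespace Vale.Agent.P202.Mx

universe u

namespace BE

open Polynomial

lemma hs_equiv {A B : Type u} [CommRing A] [IsLocalRing A] [CommRing B] [IsLocalRing B]
    (e : A ≃+* B) (N : ℕ) : hs B N = hs A N :=
  (unrStmt.2.1 A B (e : A →+* B) ⟨RingHom.Flat.of_bijective e.bijective,
    map_maximalIdeal_of_surjective _ e.surjective⟩).2.1 N

lemma hs_loc {A B : Type u} [CommRing A] [CommRing B] [Algebra A B] (M : Submonoid A)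
    [IsLocalization M B] (P : Ideal A) [hP : P.IsPrime] (hd : Disjoint (M : Set A) P)
    [(P.map (algebraMap A B)).IsPrime] (N : ℕ) :
    hs (Localization.AtPrime (P.map (algebraMap A B))) N = hs (Localization.AtPrime P) N := by
  have h1 := IsLocalization.isLocalization_isLocalization_atPrime_isLocalization M
    (Localization.AtPrime (P.map (algebraMap A B))) (P.map (algebraMap A B))
  have h2 : (P.map (algebraMap A B)).comap (algebraMap A B) = P :=
    IsLocalization.under_map_of_isPrime_disjoint M B hP hd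
  have h3 : IsLocalization P.primeCompl (Localization.AtPrime (P.map (algebraMap A B))) := by
    convert h1 using 1
    ext x
    rw [Ideal.mem_primeCompl_iff, Ideal.mem_primeCompl_iff, h2]
  exact hs_equiv (IsLocalization.algEquiv P.primeCompl (Localization.AtPrime P)
    (Localization.AtPrime (P.map (algebraMap A B)))).toRingEquiv N

lemma cplQ {S : Type u} [CommRing S] [IsLocalRing S] [IsNoetherianRing S]
    (h : IsAdicComplete (maximalIdeal S) S) (P : Ideal S) [IsLocalRing (S ⧸ P)] :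
    IsAdicComplete (maximalIdeal (S ⧸ P)) (S ⧸ P) := by
  have h2 : IsPrecomplete (maximalIdeal S) (S ⧸ P) := by
    rw [← AdicCompletion.of_surjective_iff]
    intro y
    obtain ⟨z, rfl⟩ := AdicCompletion.ofTensorProduct_surjective_of_finite (maximalIdeal S)
      (S ⧸ P) y
    induction z with
    | zero => exact ⟨0, by simp⟩
    | add a b ha hb =>
      obtain ⟨a', ha⟩ := ha
      obtain ⟨b', hb⟩ := hb
      exact ⟨a' + b', by rw [map_add, map_add, ha, hb]⟩
    | tmul r x =>
      obtain ⟨r, rfl⟩ := AdicCompletion.of_surjective (maximalIdeal S) S r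
      refine ⟨r • x, ?_⟩
      rw [AdicCompletion.ofTensorProduct_tmul, map_smul]
      exact (algebraMap_smul (AdicCompletion (maximalIdeal S) S) r _).symm
  have h3 : IsAdicComplete (maximalIdeal S) (S ⧸ P) := {}
  rw [← map_maximalIdeal_of_surjective (algebraMap S (S ⧸ P)) Ideal.Quotient.mk_surjective]
  exact (IsAdicComplete.map_algebraMap_iff _ _).2 h3

/-- a prime of `T[X]` containing the maximal ideal of `T` and `X - c` -/
lemma eq_pt {T : Type u} [CommRing T] [IsLocalRing T] (I : Ideal T[X]) (hI : I ≠ ⊤) (c : T)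
    (h1 : ∀ t ∈ maximalIdeal T, C t ∈ I) (h2 : X - C c ∈ I) :
    I = (maximalIdeal T).map C ⊔ Ideal.span {X - C c} := by
  apply le_antisymm
  · intro g hg
    obtain ⟨q, hq⟩ := X_sub_C_dvd_sub_C_eval (a := c) (p := g)
    have h3 : g = C (g.eval c) + (X - C c) * q := by rw [← hq]; ring
    have h4 : C (g.eval c) ∈ I := by
      have : C (g.eval c) = g - (X - C c) * q := by rw [← hq]; ring
      rw [this]
      exact sub_mem hg (Ideal.mul_mem_right _ _ h2)
    have h5 : g.eval c ∈ maximalIdeal T := fun hu =>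
      hI (Ideal.eq_top_of_isUnit_mem _ h4 (hu.map C))
    rw [h3]
    exact add_mem (Ideal.mem_sup_left (Ideal.mem_map_of_mem _ h5))
      (Ideal.mem_sup_right (Ideal.mul_mem_right _ _ (Ideal.subset_span rfl)))
  · refine sup_le (Ideal.map_le_iff_le_comap.2 h1) ?_
    rw [Ideal.span_le, Set.singleton_subset_iff]
    exact h2

attribute [local instance] Polynomial.algebra in
/-- the localization at the generic point -/
lemma gen (hp : PolStmt.{u}) {S : Type u} [CommRing S] [IsNoetherianRing S] (P : Ideal S)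
    [P.IsPrime] (P' : Ideal S[X]) [hP' : P'.IsPrime] (h1 : ∀ s, C s ∈ P' ↔ s ∈ P) (a b : S)
    (hb : b ∉ P) (hab : C b * X - C a ∈ P') (N : ℕ) :
    hs (Localization.AtPrime P') N = ∑ i ∈ range (N + 1), hs (Localization.AtPrime P) i := by
  set T := Localization.AtPrime P
  have hl := Polynomial.isLocalization P.primeCompl T
  have hd : Disjoint ((P.primeCompl.map (C : S →+* S[X]) : Submonoid S[X]) : Set S[X]) P' := by
    rw [Set.disjoint_left]
    rintro _ ⟨s, hs, rfl⟩ h
    exact hs ((h1 s).1 h)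
  have hpr := IsLocalization.isPrime_of_isPrime_disjoint _ T[X] P' hP' hd
  rw [← hs_loc (B := T[X]) _ P' hd N]
  have hC : ∀ s : S, algebraMap S[X] T[X] (C s) = C (algebraMap S T s) := fun s =>
    Polynomial.map_C _
  have hX : algebraMap S[X] T[X] X = X := Polynomial.map_X _
  obtain ⟨v, hv⟩ := (IsLocalization.map_units T (⟨b, hb⟩ : P.primeCompl)).exists_left_inv
  refine hp T _ (v * algebraMap S T a) (P'.map (algebraMap S[X] T[X])) (eq_pt _ hpr.ne_top _ ?_ ?_) N
  · rw [← Localization.AtPrime.map_eq_maximalIdeal]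
    change P.map (algebraMap S T) ≤ (P'.map (algebraMap S[X] T[X])).comap C
    rw [Ideal.map_le_iff_le_comap]
    intro s hs
    rw [Ideal.mem_comap, Ideal.mem_comap, ← hC]
    exact Ideal.mem_map_of_mem _ ((h1 s).2 hs)
  · have h2 := Ideal.mul_mem_left _ (C v) (Ideal.mem_map_of_mem (algebraMap S[X] T[X]) hab)
    rwa [map_sub, map_mul, hC, hC, hX, mul_sub, ← mul_assoc, ← C_mul, ← C_mul, hv, C_1,
      one_mul] at h2

lemma ineq (hb : BnStmt.{u}) (hp : PolStmt.{u}) {S V : Type u} [CommRing S] [IsLocalRing S]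
    [IsNoetherianRing S] (P : Ideal S) [P.IsPrime] [CommRing V] [IsDomain V]
    [IsDiscreteValuationRing V] (j : S →+* V) (τ : V) (hk : ∀ s, j s = 0 ↔ s ∈ P)
    (hl : ∀ s ∈ maximalIdeal S, j s ∈ maximalIdeal V) (hτ : Irreducible τ) (a b : S) (hb' : b ∉ P)
    (hab : j b * τ = j a) (hsu : Function.Surjective (eval₂RingHom j τ)) (N : ℕ) :
    ∑ i ∈ range (N + 1), ∑ l ∈ range (i + 1), hs (Localization.AtPrime P) l ≤
      ∑ i ∈ range (N + 1), hs S i := by
  set ψ := eval₂RingHom j τ with hψ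
  have hC : ∀ s, ψ (C s) = j s := fun s => eval₂_C _ _
  have hX : ψ X = τ := eval₂_X _ _
  have hm : maximalIdeal V = Ideal.span {τ} := hτ.maximalIdeal_eq
  let 𝔐 : Ideal S[X] := (maximalIdeal V).comap ψ
  let P' : Ideal S[X] := RingHom.ker ψ
  have : P'.IsPrime := RingHom.ker_isPrime ψ
  have h𝔐 : 𝔐.IsPrime := Ideal.comap_isPrime ψ _
  have hXm : (X : S[X]) ∈ 𝔐 := by
    rw [Ideal.mem_comap, hX, hm]
    exact Ideal.subset_span rfl
  have h1 : 𝔐 = (maximalIdeal S).map C ⊔ Ideal.span {X - C 0} :=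
    eq_pt _ h𝔐.ne_top _ (fun t ht => by rw [Ideal.mem_comap, hC]; exact hl t ht)
      (by rwa [C_0, sub_zero])
  have h2 : 𝔐 = P' ⊔ Ideal.span {X} := by
    apply le_antisymm
    · intro g hg
      rw [Ideal.mem_comap, hm, Ideal.mem_span_singleton] at hg
      obtain ⟨z, hz⟩ := hg
      obtain ⟨q, rfl⟩ := hsu z
      rw [← sub_add_cancel g (X * q)]
      refine add_mem (Ideal.mem_sup_left ?_)
        (Ideal.mem_sup_right (Ideal.mul_mem_right _ _ (Ideal.subset_span rfl)))
      rw [RingHom.mem_ker, map_sub, map_mul, hX, hz, sub_self]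
    · refine sup_le (fun g hg => ?_) ?_
      · rw [Ideal.mem_comap, RingHom.mem_ker.1 hg]
        exact zero_mem _
      · rwa [Ideal.span_le, Set.singleton_subset_iff]
  set Q := Localization.AtPrime 𝔐
  have hd : Disjoint (𝔐.primeCompl : Set S[X]) P' := by
    rw [Set.disjoint_left]
    intro g hg h
    exact hg (h2 ▸ Ideal.mem_sup_left h)
  have hpr := IsLocalization.isPrime_of_isPrime_disjoint _ Q P' this hd
  have h3 := hb Q (P'.map (algebraMap S[X] Q)) (algebraMap S[X] Q X) (by
    rw [← Localization.AtPrime.map_eq_maximalIdeal, ← Set.image_singleton, ← Ideal.map_span,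
      ← Ideal.map_sup, ← h2]) (by
    rw [← Ideal.mem_comap]
    change X ∉ (P'.map (algebraMap S[X] Q)).under S[X]
    rw [IsLocalization.under_map_of_isPrime_disjoint _ Q this hd, RingHom.mem_ker, hX]
    exact hτ.ne_zero) N
  rw [hp S Q 0 𝔐 h1 N] at h3
  refine le_trans (le_of_eq (sum_congr rfl fun i _ => ?_)) h3
  rw [hs_loc _ P' hd i, gen hp P P' (fun s => by rw [RingHom.mem_ker, hC, hk]) a b hb' (by
    rw [RingHom.mem_ker, map_sub, map_mul, hC, hC, hX, hab, sub_self]) i]

end BE

open BE Polynomial in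
theorem benStmt (h1 : Nrm1Stmt.{u}) (hb : BnStmt.{u}) (hp : PolStmt.{u}) (hs' : SumStmt) :
    BenStmt.{u} := by
  intro p W S _ _ _ _ _ _ P _ D hW hk hS hpP hdim e e' he he'
  have := hS.noeth
  have : IsLocalRing (S ⧸ P) :=
    IsLocalRing.of_surjective' (Ideal.Quotient.mk P) Ideal.Quotient.mk_surjective
  have hmap := map_maximalIdeal_of_surjective (Ideal.Quotient.mk P) Ideal.Quotient.mk_surjective
  let g : ResidueField W →+* S ⧸ P := Ideal.Quotient.lift (maximalIdeal W)
    ((Ideal.Quotient.mk P).comp (algebraMap W S)) (fun a ha => by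
      rw [hW.max, Ideal.mem_span_singleton] at ha
      obtain ⟨c, rfl⟩ := ha
      rw [map_mul, map_natCast, ← map_natCast (Ideal.Quotient.mk P),
        Ideal.Quotient.eq_zero_iff_mem.2 hpP, zero_mul])
  let : Algebra (ResidueField W) (S ⧸ P) := g.toAlgebra
  have hCL : CL (ResidueField W) (S ⧸ P) := ⟨inferInstance, cplQ hS.cpl P, fun b => by
    obtain ⟨b, rfl⟩ := Ideal.Quotient.mk_surjective b
    obtain ⟨a, ha⟩ := hS.res b
    refine ⟨residue W a, ?_⟩
    rw [← hmap]
    exact Ideal.mem_map_of_mem (Ideal.Quotient.mk P) ha⟩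
  obtain ⟨V, _, _, _, j, τ, hj, hl, hτ, ⟨a, b, hb0, hab⟩, hsu⟩ :=
    h1 (ResidueField W) (S ⧸ P) hCL hdim
  obtain ⟨a, rfl⟩ := Ideal.Quotient.mk_surjective a
  obtain ⟨b, rfl⟩ := Ideal.Quotient.mk_surjective b
  have key := ineq hb hp P (j.comp (Ideal.Quotient.mk P)) τ
    (fun s => by rw [RingHom.comp_apply, map_eq_zero_iff j hj, Ideal.Quotient.eq_zero_iff_mem])
    (fun s h => map_nonunit j _ (hmap ▸ Ideal.mem_map_of_mem _ h)) hτ a b
    (fun h => hb0 (Ideal.Quotient.eq_zero_iff_mem.2 h)) hab (fun z => by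
      obtain ⟨q, rfl⟩ := hsu z
      obtain ⟨q, rfl⟩ := map_surjective (Ideal.Quotient.mk P) Ideal.Quotient.mk_surjective q
      exact ⟨q, (eval₂_map _ _ _).symm⟩)
  have t1 := hs' _ _ _ (hs' (fun N => (hs (Localization.AtPrime P) N : ℝ)) D e he)
  have t2 := hs' (fun N => (hs S N : ℝ)) (D + 1) e' he'
  refine le_of_tendsto_of_tendsto' t1 t2 fun N => ?_
  refine div_le_div_of_nonneg_right (mul_le_mul_of_nonneg_left ?_ (Nat.cast_nonneg _))
    (by positivity)
  exact_mod_cast key N

end Vale.Agent.P202.Mx
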