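import Vale.Agent.P202.M.SpecE
import Vale.Agent.P202.Base

/-! Shared lemmas for the Cech part over a chain ring. -/

open Finset Matrix MvPowerSeries Filter Topology IsLocalRing
open scoped Kronecker Nat

namespace Vale.Agent.P202.Mx

universe u

section rl
variable {k : Type*} [CommRing k] {E E' : Type*} [AddCommGroup E] [Module k E] [AddCommGroup E']
  [Module k E']

theorem rl_eq_zero {P Q : Submodule k E} : rl P Q = 0 ↔ Q ≤ P := by
  rw [rl, Module.length_eq_zero_iff, Submodule.subsingleton_iff_eq_bot, eq_bot_iff,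
    Submodule.map_le_iff_le_comap, Submodule.comap_bot, Submodule.ker_mkQ]

/-- comparison through a linear map -/
theorem rl_le_of_map (f : E →ₗ[k] E') {P Q : Submodule k E} {P' Q' : Submodule k E'}
    (h : ∀ x ∈ P, f x ∈ P') (h' : Q' ≤ P' ⊔ Q.map f) : rl P' Q' ≤ rl P Q := by
  let F := P.mapQ P' f h
  have : Q'.map P'.mkQ ≤ (Q.map P.mkQ).map F := by
    rintro _ ⟨y, hy, rfl⟩
    obtain ⟨a, ha, _, ⟨x, hx, rfl⟩, rfl⟩ := Submodule.mem_sup.1 (h' hy)
    refine ⟨P.mkQ x, ⟨x, hx, rfl⟩, ?_⟩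
    simp [F, (Submodule.Quotient.mk_eq_zero _).2 ha]
  refine (Module.length_le_of_injective _ (Submodule.inclusion_injective this)).trans ?_
  exact Module.length_le_of_surjective _ (F.submoduleMap_surjective _)

theorem rl_mono {P Q P' Q' : Submodule k E} (h : P ≤ P') (h' : Q' ≤ P' ⊔ Q) :
    rl P' Q' ≤ rl P Q :=
  rl_le_of_map LinearMap.id h (by simpa using h')

/-- comparison through a linear map that detects `P` on `Q` -/
theorem rl_le_of_comap (f : E →ₗ[k] E') {P Q : Submodule k E} {P' Q' : Submodule k E'}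
    (h : ∀ x ∈ Q, f x ∈ P' → x ∈ P) (h' : ∀ x ∈ Q, f x ∈ P' ⊔ Q') : rl P Q ≤ rl P' Q' := by
  let a : Q →ₗ[k] Q.map P.mkQ := P.mkQ.submoduleMap Q
  have hb : ∀ x : Q, (P'.mkQ ∘ₗ f ∘ₗ Q.subtype) x ∈ Q'.map P'.mkQ := fun x => by
    obtain ⟨y, hy, z, hz, e⟩ := Submodule.mem_sup.1 (h' x x.2)
    refine ⟨z, hz, ?_⟩
    simp [← e, (Submodule.Quotient.mk_eq_zero _).2 hy]
  let b : Q →ₗ[k] Q'.map P'.mkQ := LinearMap.codRestrict _ _ hb
  have hk : LinearMap.ker b ≤ LinearMap.ker a := fun x hx => by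
    have h1 : f x ∈ P' := by simpa [b, Subtype.ext_iff] using hx
    simpa [a, Subtype.ext_iff] using h x x.2 h1
  have h1 := Module.length_le_of_surjective ((LinearMap.ker b).liftQ a hk) fun y => by
    obtain ⟨x, rfl⟩ := P.mkQ.submoduleMap_surjective Q y
    exact ⟨Submodule.Quotient.mk x, rfl⟩
  refine h1.trans ?_
  exact Module.length_le_of_injective ((LinearMap.ker b).liftQ b le_rfl)
    (LinearMap.ker_eq_bot.1 (Submodule.ker_liftQ_eq_bot _ _ _ le_rfl))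

theorem rl_add {P Q R : Submodule k E} (h : P ≤ Q) (h' : Q ≤ R) : rl P R = rl P Q + rl Q R := by
  let F := P.mapQ Q LinearMap.id h
  have hm : (R.map P.mkQ).map F = R.map Q.mkQ := by
    rw [← Submodule.map_comp]; congr 1
  unfold rl
  rw [← hm]
  refine Module.length_eq_add_of_exact (Submodule.inclusion (Submodule.map_mono h'))
    (F.submoduleMap _) (Submodule.inclusion_injective _) (F.submoduleMap_surjective _) ?_
  rintro ⟨_, x, hx, rfl⟩
  constructor
  · intro e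
    have : x ∈ Q := by simpa [F, Subtype.ext_iff] using e
    exact ⟨⟨_, x, this, rfl⟩, rfl⟩
  · rintro ⟨⟨_, y, hy, rfl⟩, e⟩
    rw [← e]
    simpa [F, Subtype.ext_iff] using hy

theorem rl_le_add (P Q R : Submodule k E) : rl P R ≤ rl P Q + rl Q R := by
  calc rl P R ≤ rl P (P ⊔ Q ⊔ R) := rl_mono le_rfl (le_sup_right.trans le_sup_right)
    _ = rl P (P ⊔ Q) + rl (P ⊔ Q) (P ⊔ Q ⊔ R) := rl_add le_sup_left le_sup_left
    _ ≤ _ := add_le_add (rl_mono le_rfl le_rfl) (rl_mono le_sup_right le_rfl)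

theorem rl_sup_le (P Q R : Submodule k E) : rl P (Q ⊔ R) ≤ rl P Q + rl P R :=
  (rl_le_add P (P ⊔ Q) _).trans (add_le_add (rl_mono le_rfl le_rfl)
    (rl_mono le_sup_left (sup_le_sup_right le_sup_right _)))

theorem rl_iSup_le {γ : Type*} [Fintype γ] (P : Submodule k E) (Q : γ → Submodule k E) :
    rl P (⨆ i, Q i) ≤ ∑ i, rl P (Q i) := by
  classical
  have : ∀ s : Finset γ, rl P (s.sup Q) ≤ ∑ i ∈ s, rl P (Q i) := fun s => by
    induction s using Finset.induction_on with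
    | empty => simp [rl_eq_zero]
    | insert a s ha ih =>
      rw [sup_insert, sum_insert ha]
      exact (rl_sup_le _ _ _).trans (add_le_add le_rfl ih)
  simpa [Finset.sup_eq_iSup] using this univ

theorem rl_top (P : Submodule k E) : rl P ⊤ = Module.length k (E ⧸ P) := by
  rw [rl, Submodule.map_top, Submodule.range_mkQ, Module.length_top]

theorem cl_eq {A M : Type*} [CommRing A] [Algebra k A] [AddCommGroup M] [Module A M] [Module k M]
    [IsScalarTower k A M] (N : Submodule A M) :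
    Module.length k (M ⧸ N) = rl (N.restrictScalars k) ⊤ := by
  rw [rl_top, (Submodule.Quotient.restrictScalarsEquiv k N).length_eq]

theorem cx_bot (D g : Module.End k E) : Cx D g fun _ => ⊥ :=
  ⟨fun _ x hx => by simp [(Submodule.mem_bot k).1 hx], fun _ x hx => by
    simp [(Submodule.mem_bot k).1 hx]⟩

end rl

section pv
variable {V : Type u} [CommRing V] {v : V} {r : ℕ}

theorem mem_span_pow {γ : Type*} (m : γ → ℕ) (T : Set γ) (x : V) :
    x ∈ Ideal.span ((fun e => v ^ m e) '' T) ↔ x = 0 ∨ ∃ e ∈ T, v ^ m e ∣ x := by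
  constructor
  · intro hx
    induction hx using Submodule.span_induction with
    | mem x hx =>
      obtain ⟨e, he, rfl⟩ := hx
      exact Or.inr ⟨e, he, dvd_rfl⟩
    | zero => exact Or.inl rfl
    | add x y _ _ hx hy =>
      rcases hx with rfl | ⟨e, he, h⟩
      · simpa using hy
      rcases hy with rfl | ⟨e', he', h'⟩
      · exact Or.inr ⟨e, he, by simpa using h⟩
      rcases le_total (m e) (m e') with c | c
      · exact Or.inr ⟨e, he, dvd_add h ((pow_dvd_pow v c).trans h')⟩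
      · exact Or.inr ⟨e', he', dvd_add ((pow_dvd_pow v c).trans h) h'⟩
    | smul a x _ hx =>
      rcases hx with rfl | ⟨e, he, h⟩
      · exact Or.inl (smul_zero _)
      · exact Or.inr ⟨e, he, h.mul_left a⟩
  · rintro (rfl | ⟨e, he, c, rfl⟩)
    · exact zero_mem _
    · exact Ideal.mul_mem_right _ _ (Ideal.subset_span ⟨e, he, rfl⟩)

theorem mem_Pv_span {S : Set (Mon r)} {f : LL V r} : f ∈ Pv v S ↔ ∀ e', coeff e' f ∈
    Ideal.span ((fun e : Mon r => v ^ e none) '' {e | e ∈ S ∧ e.some = e'}) := by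
  simp only [Pv, Submodule.mem_iInf, Submodule.mem_comap]

theorem mem_Pv {S : Set (Mon r)} {f : LL V r} : f ∈ Pv v S ↔
    ∀ e', coeff e' f = 0 ∨ ∃ e ∈ S, e.some = e' ∧ v ^ e none ∣ coeff e' f := by
  rw [mem_Pv_span]
  refine forall_congr' fun e' => ?_
  rw [mem_span_pow (fun e : Mon r => e none)]
  simp only [Set.mem_ofPred_eq, and_assoc]

theorem Pv_mono {S T : Set (Mon r)} (h : S ⊆ T) : Pv v S ≤ Pv v T := fun _ hf =>
  mem_Pv.2 fun e' => (mem_Pv.1 hf e').imp id fun ⟨e, he, h'⟩ => ⟨e, h he, h'⟩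

theorem some_add' (a b : Mon r) : (a + b).some = a.some + b.some := by
  ext c; simp

theorem mul_mem_Pv {S T U : Set (Mon r)} {f g : LL V r} (hf : f ∈ Pv v S)
    (hg : g ∈ Pv v T) (h : ∀ a ∈ S, ∀ b ∈ T, a + b ∈ U) : f * g ∈ Pv v U := by
  refine mem_Pv_span.2 fun e => ?_
  rw [coeff_mul]
  refine sum_mem fun p hp => (mem_span_pow (fun e : Mon r => e none) _ _).2 ?_
  rcases mem_Pv.1 hf p.1 with h1 | ⟨a, ha, e1, h1⟩
  · exact Or.inl (by rw [h1, zero_mul])
  rcases mem_Pv.1 hg p.2 with h2 | ⟨b, hb, e2, h2⟩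
  · exact Or.inl (by rw [h2, mul_zero])
  refine Or.inr ⟨a + b, ⟨h a ha b hb, ?_⟩, ?_⟩
  · rw [some_add', e1, e2, mem_antidiagonal.1 hp]
  · rw [Finsupp.add_apply, pow_add]; exact mul_dvd_mul h1 h2

theorem intCast_mul_mem_Pv {S : Set (Mon r)} {f : LL V r} (hf : f ∈ Pv v S) (z : ℤ) :
    (z : LL V r) * f ∈ Pv v S := by
  rw [← zsmul_eq_mul]; exact zsmul_mem hf z

theorem C_mul_mem_Pv {S : Set (Mon r)} {f : LL V r} (hf : f ∈ Pv v S) (c : V) :
    C c * f ∈ Pv v S := by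
  rw [← smul_eq_C_mul]; exact Submodule.smul_mem _ c hf

theorem Pv_empty : Pv v (∅ : Set (Mon r)) = ⊥ :=
  eq_bot_iff.2 fun f hf => by
    ext e
    simpa using mem_Pv.1 hf e

theorem Pv_union (S T : Set (Mon r)) : Pv v (S ∪ T) = Pv v S ⊔ Pv v T := by
  classical
  refine le_antisymm (fun f hf => ?_)
    (sup_le (Pv_mono Set.subset_union_left) (Pv_mono Set.subset_union_right))
  let p : (Fin r →₀ ℕ) → Prop := fun e' => ∃ e ∈ S, e.some = e' ∧ v ^ e none ∣ coeff e' f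
  let g : LL V r := fun e' => if p e' then coeff e' f else 0
  have hg : ∀ e', coeff e' g = if p e' then coeff e' f else 0 := fun _ => rfl
  refine Submodule.mem_sup.2 ⟨g, mem_Pv.2 fun e' => ?_, f - g, mem_Pv.2 fun e' => ?_, by ring⟩
  · rw [hg]
    split_ifs with h
    · exact Or.inr h
    · exact Or.inl rfl
  · rw [map_sub, hg]
    split_ifs with h
    · exact Or.inl (sub_self _)
    · rw [sub_zero]
      rcases mem_Pv.1 hf e' with h1 | ⟨e, he | he, h1⟩
      · exact Or.inl h1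
      · exact absurd ⟨e, he, h1⟩ h
      · exact Or.inr ⟨e, he, h1⟩

theorem C_dvd_iff {σ : Type*} {c : V} {f : MvPowerSeries σ V} :
    C c ∣ f ↔ ∀ e, c ∣ coeff e f := by
  constructor
  · rintro ⟨g, rfl⟩ e
    rw [coeff_C_mul]; exact dvd_mul_right _ _
  · intro h
    choose g hg using h
    let g' : MvPowerSeries σ V := g
    exact ⟨g', by ext e; rw [coeff_C_mul, hg e]; rfl⟩

theorem pow_dvd_of_mem {S : Set (Mon r)} {l : ℕ} (h : ∀ e ∈ S, l ≤ e none) {f : LL V r}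
    (hf : f ∈ Pv v S) (e' : Fin r →₀ ℕ) : v ^ l ∣ coeff e' f := by
  rcases mem_Pv.1 hf e' with h1 | ⟨e, he, -, h1⟩
  · rw [h1]; exact dvd_zero _
  · exact (pow_dvd_pow v (h e he)).trans h1

theorem C_pow_dvd_of_mem {S : Set (Mon r)} {l : ℕ} (h : ∀ e ∈ S, l ≤ e none) {f : LL V r}
    (hf : f ∈ Pv v S) : C v ^ l ∣ f := by
  rw [← map_pow]; exact C_dvd_iff.2 (pow_dvd_of_mem h hf)

/-- everything above the level `n0` is zero -/
theorem eq_zero_of_mem {S : Set (Mon r)} {n0 : ℕ} (hv : v ^ n0 = 0) (h : ∀ e ∈ S, n0 ≤ e none)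
    {f : LL V r} (hf : f ∈ Pv v S) : f = 0 := by
  ext e'
  have := pow_dvd_of_mem h hf e'
  rwa [hv, zero_dvd_iff] at this

theorem Up.add {S : Set (Mon r)} (hS : Up S) {e : Mon r} (he : e ∈ S) (m : ℕ) :
    e + Finsupp.single none m ∈ S := by
  induction m with
  | zero => simpa using he
  | succ m ih => rw [Finsupp.single_add, ← add_assoc]; exact hS _ ih

theorem mon_ext {a b : Mon r} (h : a none = b none) (h' : a.some = b.some) : a = b := by
  ext c
  cases c with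
  | none => exact h
  | some c => simpa using DFunLike.congr_fun h' c

theorem Up.of_le {S : Set (Mon r)} (hS : Up S) {e e' : Mon r} (he : e ∈ S) (h : e.some = e'.some)
    (h' : e none ≤ e' none) : e' ∈ S := by
  have : e' = e + Finsupp.single none (e' none - e none) :=
    mon_ext (by simp; omega) (by rw [some_add', h]; ext c; simp)
  rw [this]; exact hS.add he _

theorem mem_Pv_level {S : Set (Mon r)} (hS : Up S) {f : LL V r} (hf : f ∈ Pv v S) {a : ℕ}
    (h : ∀ e', v ^ a ∣ coeff e' f) : f ∈ Pv v (S ∩ {e | a ≤ e none}) := by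
  refine mem_Pv.2 fun e' => (mem_Pv.1 hf e').imp id ?_
  rintro ⟨e, he, h1, h2⟩
  rcases le_total a (e none) with c | c
  · exact ⟨e, ⟨he, c⟩, h1, h2⟩
  · have h3 : (e + Finsupp.single none (a - e none) : Mon r) none = a := by simp; omega
    refine ⟨e + Finsupp.single none (a - e none), ⟨hS.add he _, h3.ge⟩, ?_, ?_⟩
    · rw [some_add', h1]; ext c; simp
    · rw [h3]; exact h e'

theorem monomial_mem_Pv {S : Set (Mon r)} {e : Mon r} (he : e ∈ S) {c : V} (hc : v ^ e none ∣ c) :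
    monomial e.some c ∈ Pv v S := by
  refine mem_Pv.2 fun e' => ?_
  rw [coeff_monomial]
  split_ifs with h
  · exact Or.inr ⟨e, he, h.symm, hc⟩
  · exact Or.inl rfl

theorem Up.inter {S T : Set (Mon r)} (hS : Up S) (hT : Up T) : Up (S ∩ T) := fun e he =>
  ⟨hS e he.1, hT e he.2⟩

theorem Up.union {S T : Set (Mon r)} (hS : Up S) (hT : Up T) : Up (S ∪ T) := fun e he =>
  he.imp (hS e) (hT e)

theorem up_level (a : ℕ) : Up {e : Mon r | a ≤ e none} := fun e he => by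
  simp only [Set.mem_ofPred_eq, Finsupp.add_apply] at he ⊢; omega

theorem single_mem_SB (r s : ℕ) : Finsupp.single none s ∈ SB r s := ⟨by simp, by simp⟩

theorem SB_mono {s s' : ℕ} (h : s ≤ s') : SB r s' ⊆ SB r s := fun _ he => ⟨h.trans he.1, he.2⟩

theorem add_mem_SB {s t : ℕ} {a b : Mon r} (ha : a ∈ SB r s) (hb : b ∈ SB r t) :
    a + b ∈ SB r (s + t) :=
  ⟨add_le_add ha.1 hb.1, fun c => add_le_add (ha.2 c) (hb.2 c)⟩

theorem up_SB (s : ℕ) : Up (SB r s) := fun e he => by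
  rw [add_comm]
  exact SB_mono (Nat.le_add_left _ _) (add_mem_SB (single_mem_SB r 1) he)

theorem up_Om (N0 : ℕ) (ν : Fin r → ℤ) (N l : ℕ) : Up (Om N0 ν N l) := fun e he => by
  rw [add_comm]
  exact add_mem_Om (single_mem_SB r 1) he (Nat.le_add_right _ _)

theorem up_cond (N0 : ℕ) (ν : Fin r → ℤ) (J : FJ r) : Up (cond N0 ν J) := fun e he => by
  rw [add_comm]
  exact add_mem_cond (single_mem_SB r 1) he

theorem C_mem_SB {s : ℕ} {c : V} (h : v ^ s ∣ c) : (C c : LL V r) ∈ Pv v (SB r s) := by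
  have := monomial_mem_Pv (v := v) (single_mem_SB r s) (c := c) (by simpa using h)
  have e : (Finsupp.single none s : Mon r).some = 0 := by ext c; simp
  rwa [e] at this

theorem one_mem_SB : (1 : LL V r) ∈ Pv v (SB r 0) := by
  simpa using C_mem_SB (r := r) (v := v) (s := 0) (c := 1) (by simp)

theorem mul_mem_SB {s t : ℕ} {f g : LL V r} (hf : f ∈ Pv v (SB r s)) (hg : g ∈ Pv v (SB r t)) :
    f * g ∈ Pv v (SB r (s + t)) := mul_mem_Pv hf hg fun _ ha _ hb => add_mem_SB ha hb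

theorem pow_mem_SB {s : ℕ} {f : LL V r} (hf : f ∈ Pv v (SB r s)) (m : ℕ) :
    f ^ m ∈ Pv v (SB r (m * s)) := by
  induction m with
  | zero => simpa using one_mem_SB
  | succ m ih => rw [pow_succ, add_mul, one_mul]; exact mul_mem_SB ih hf

end pv

section cech
variable {V : Type u} [CommRing V] {v : V} {r : ℕ} {ι ι' ι'' : Type} [Fintype ι] [DecidableEq ι]
  [Fintype ι'] [DecidableEq ι'] [Fintype ι''] [DecidableEq ι'']

omit [Fintype ι] [DecidableEq ι] in
theorem mem_XX' {deg : ι → ℕ} {Ω : ℕ → FJ r → Set (Mon r)} {n : ℤ} {x : ι × FJ r → LL V r} :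
    x ∈ XX v deg Ω n ↔ ∀ i J, x (i, J) ∈
      Pv v {e | (deg i : ℤ) + r - J.card = n ∧ e ∈ Ω (deg i) J} :=
  ⟨fun h i J => h (i, J) trivial, fun h p _ => h p.1 p.2⟩

omit [Fintype ι] [DecidableEq ι] in
theorem mem_XX {deg : ι → ℕ} {Ω : ℕ → FJ r → Set (Mon r)} {n : ℤ} {x : ι × FJ r → LL V r} :
    x ∈ XX v deg Ω n ↔ ∀ i J, x (i, J) ∈ Pv v (Ω (deg i) J) ∧
      ((deg i : ℤ) + r - J.card ≠ n → x (i, J) = 0) := by
  rw [mem_XX']
  refine forall₂_congr fun i J => ?_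
  by_cases h : (deg i : ℤ) + r - J.card = n
  · simp [h]
  · simp only [h, false_and, Set.ofPred_false, Pv_empty, Submodule.mem_bot, ne_eq,
      not_false_eq_true, forall_const]
    exact ⟨fun e => ⟨by rw [e]; exact zero_mem _, e⟩, And.right⟩

omit [Fintype ι] [DecidableEq ι] in
theorem XX_mono {deg : ι → ℕ} {Ω Ω' : ℕ → FJ r → Set (Mon r)} (h : ∀ p J, Ω p J ⊆ Ω' p J) (n : ℤ) :
    XX v deg Ω n ≤ XX v deg Ω' n := fun _ hx =>
  mem_XX.2 fun i J => ⟨Pv_mono (h _ _) (mem_XX.1 hx i J).1, (mem_XX.1 hx i J).2⟩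

omit [Fintype ι] [DecidableEq ι] in
theorem XS_mono {N0 : ℕ} {ν : Fin r → ℤ} {deg : ι → ℕ} {Ω Ω' : ℕ → Set (Mon r)}
    (h : ∀ p, Ω p ⊆ Ω' p) : XS v N0 ν deg Ω ≤ XS v N0 ν deg Ω' := fun n =>
  XX_mono (fun p _ => Set.inter_subset_inter_left _ (h p)) n

omit [Fintype ι] [DecidableEq ι] in
theorem XF_mono {N0 : ℕ} {ν : Fin r → ℤ} {deg : ι → ℕ} {N N' : ℕ} {l l' : ℕ → ℕ} (h : N ≤ N')
    (h' : ∀ p, l' p ≤ l p) : XF v N0 ν N l deg ≤ XF v N0 ν N' l' deg :=
  XS_mono fun p => Om_mono h (h' p)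

omit [Fintype ι] [DecidableEq ι] in
theorem XE_mono {s L : ℕ} {κ : Fin (r + 1)} {deg : ι → ℕ} {l l' : ℕ → ℕ} (h' : ∀ p, l' p ≤ l p) :
    XE v s L κ l deg ≤ XE v s L κ l' deg := XF_mono le_rfl h'

theorem sg_sq : sg V r * sg V r = 1 := by
  rw [sg, diagonal_mul_diagonal, ← diagonal_one]
  congr 1; ext1 J; rw [← mul_pow]; simp

theorem sg_cb : sg V r * cb V r + cb V r * sg V r = 0 := by
  ext1 J J'
  rw [Matrix.add_apply, sg, diagonal_mul, mul_diagonal, cb, Matrix.sum_apply, mul_sum, sum_mul,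
    ← sum_add_distrib]
  refine sum_eq_zero fun b _ => ?_
  by_cases h : ct b J' J = 0
  · simp [h]
  · rw [ct_card h, pow_succ]; ring

theorem cb_sq : cb V r * cb V r = 0 := by
  unfold cb
  rw [sum_mul_sum]
  exact sum_anti _ (fun j => ep_sq _ j) fun j l => ep_anti _ j l

/-- contraction is a homotopy for the Cech differential -/
theorem io_cb (b : Fin r × Bool) : io (LL V r) b * cb V r + cb V r * io (LL V r) b = 1 := by
  unfold cb
  rw [mul_sum, sum_mul, ← sum_add_distrib, sum_congr rfl fun l _ => io_ep (LL V r) b l]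
  simp

omit [DecidableEq ι] [Fintype ι'] [DecidableEq ι'] in
theorem LM_apply (P : Matrix ι' ι (LL V r)) (T : Matrix (FJ r) (FJ r) (LL V r))
    (x : ι × FJ r → LL V r) (i : ι') (J : FJ r) :
    LM P T x (i, J) = ∑ j, ∑ J', P i j * T J J' * x (j, J') := by
  simp [LM, mulVec, dotProduct, Fintype.sum_prod_type]

omit [DecidableEq ι] [Fintype ι'] [DecidableEq ι'] in
theorem LM_one_apply (P : Matrix ι' ι (LL V r)) (x : ι × FJ r → LL V r) (i : ι') (J : FJ r) :
    LM P 1 x (i, J) = ∑ j, P i j * x (j, J) := by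
  simp [LM_apply, one_apply]

omit [DecidableEq ι] [Fintype ι'] [DecidableEq ι'] in
theorem LM_sg_apply (P : Matrix ι' ι (LL V r)) (x : ι × FJ r → LL V r) (i : ι') (J : FJ r) :
    LM P (sg V r) x (i, J) = (-1) ^ J.card * ∑ j, P i j * x (j, J) := by
  simp [LM_apply, sg, diagonal_apply, mul_sum, mul_assoc, mul_left_comm]

theorem LM_cb_apply (x : ι × FJ r → LL V r) (i : ι) (J : FJ r) :
    LM 1 (cb V r) x (i, J) = ∑ b, ∑ J', (ct b J' J : LL V r) * x (i, J') := by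
  rw [sum_comm]
  simp [LM_apply, one_apply, cb, Matrix.sum_apply, sum_mul]

omit [DecidableEq ι] [DecidableEq ι'] [Fintype ι''] [DecidableEq ι''] in
theorem LM_mul (P : Matrix ι'' ι' (LL V r)) (Q : Matrix ι' ι (LL V r))
    (T U : Matrix (FJ r) (FJ r) (LL V r)) (x : ι × FJ r → LL V r) :
    LM P T (LM Q U x) = LM (P * Q) (T * U) x := by
  simp [LM, mul_kronecker_mul]

omit [DecidableEq ι] [Fintype ι'] [DecidableEq ι'] in
theorem LM_add (P Q : Matrix ι' ι (LL V r)) (T : Matrix (FJ r) (FJ r) (LL V r))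
    (x : ι × FJ r → LL V r) : LM (P + Q) T x = LM P T x + LM Q T x := by
  ext1 ⟨i, J⟩
  simp [LM_apply, add_mul, sum_add_distrib]

omit [DecidableEq ι] [Fintype ι'] [DecidableEq ι'] in
theorem LM_add' (P : Matrix ι' ι (LL V r)) (T U : Matrix (FJ r) (FJ r) (LL V r))
    (x : ι × FJ r → LL V r) : LM P (T + U) x = LM P T x + LM P U x := by
  ext1 ⟨i, J⟩
  simp [LM_apply, add_mul, mul_add, sum_add_distrib]

omit [DecidableEq ι] [Fintype ι'] [DecidableEq ι'] in
theorem LM_zero (T : Matrix (FJ r) (FJ r) (LL V r)) (x : ι × FJ r → LL V r) :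
    LM (0 : Matrix ι' ι _) T x = 0 := by
  ext1 ⟨i, J⟩; simp [LM_apply]

omit [DecidableEq ι] [Fintype ι'] [DecidableEq ι'] in
theorem LM_zero' (P : Matrix ι' ι (LL V r)) (x : ι × FJ r → LL V r) : LM P 0 x = 0 := by
  ext1 ⟨i, J⟩; simp [LM_apply]

omit [DecidableEq ι] [Fintype ι'] [DecidableEq ι'] in
theorem LM_smul (a : LL V r) (P : Matrix ι' ι (LL V r)) (T : Matrix (FJ r) (FJ r) (LL V r))
    (x : ι × FJ r → LL V r) : LM (a • P) T x = a • LM P T x := by
  ext1 ⟨i, J⟩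
  simp [LM_apply, mul_sum, mul_assoc]

omit [DecidableEq ι] [Fintype ι'] [DecidableEq ι'] in
theorem LM_map_smul (a : LL V r) (P : Matrix ι' ι (LL V r)) (T : Matrix (FJ r) (FJ r) (LL V r))
    (x : ι × FJ r → LL V r) : LM P T (a • x) = a • LM P T x := by
  ext1 ⟨i, J⟩
  simp [LM_apply, mul_sum, mul_left_comm]

theorem LM_one_one (x : ι × FJ r → LL V r) : LM (1 : Matrix ι ι (LL V r)) 1 x = x := by
  ext1 ⟨i, J⟩
  simp [LM_one_apply, one_apply]

omit [DecidableEq ι] in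
theorem gg_eq (Γ : Matrix ι ι (LL V r)) (x : ι × FJ r → LL V r) : gg Γ x = LM Γ 1 x := rfl

omit [DecidableEq ι] in
theorem gg_apply (Γ : Matrix ι ι (LL V r)) (x : ι × FJ r → LL V r) (i : ι) (J : FJ r) :
    gg Γ x (i, J) = ∑ j, Γ i j * x (j, J) := LM_one_apply Γ x i J

theorem gg_pow_eq (Γ : Matrix ι ι (LL V r)) (c : ℕ) (x : ι × FJ r → LL V r) :
    (gg Γ ^ c) x = LM (Γ ^ c) 1 x := by
  induction c with
  | zero => simp [LM_one_one]
  | succ c ih => rw [pow_succ', Module.End.mul_apply, ih, gg_eq, LM_mul, ← pow_succ', mul_one]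

theorem gg_pow_apply (Γ : Matrix ι ι (LL V r)) (c : ℕ) (x : ι × FJ r → LL V r) (i : ι)
    (J : FJ r) : (gg Γ ^ c) x (i, J) = ∑ j, (Γ ^ c) i j * x (j, J) := by
  rw [gg_pow_eq, LM_one_apply]

omit [DecidableEq ι] [DecidableEq ι'] in
theorem LM_gg {Γ : Matrix ι ι (LL V r)} {Γ' : Matrix ι' ι' (LL V r)} {P : Matrix ι' ι (LL V r)}
    (h : Γ' * P = P * Γ) (T : Matrix (FJ r) (FJ r) (LL V r)) (x : ι × FJ r → LL V r) :
    gg Γ' (LM P T x) = LM P T (gg Γ x) := by
  rw [gg_eq, gg_eq, LM_mul, LM_mul, h, mul_one, one_mul]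

omit [DecidableEq ι] [DecidableEq ι'] in
theorem LM_gg_pow {Γ : Matrix ι ι (LL V r)} {Γ' : Matrix ι' ι' (LL V r)}
    {P : Matrix ι' ι (LL V r)} (h : Γ' * P = P * Γ) (T : Matrix (FJ r) (FJ r) (LL V r)) (c : ℕ)
    (x : ι × FJ r → LL V r) : (gg Γ' ^ c) (LM P T x) = LM P T ((gg Γ ^ c) x) := by
  induction c with
  | zero => simp
  | succ c ih => rw [pow_succ', pow_succ', Module.End.mul_apply, ih, LM_gg h, Module.End.mul_apply]

theorem DD_eq (D : Matrix ι ι (LL V r)) (x : ι × FJ r → LL V r) :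
    DD D x = LM D (sg V r) x + LM 1 (cb V r) x := rfl

theorem DD_apply (D : Matrix ι ι (LL V r)) (x : ι × FJ r → LL V r) (i : ι) (J : FJ r) :
    DD D x (i, J) = (-1) ^ J.card * ∑ j, D i j * x (j, J) +
      ∑ b, ∑ J', (ct b J' J : LL V r) * x (i, J') := by
  rw [DD_eq, Pi.add_apply, LM_sg_apply, LM_cb_apply]

theorem DD_map_smul (D : Matrix ι ι (LL V r)) (a : LL V r) (x : ι × FJ r → LL V r) :
    DD D (a • x) = a • DD D x := by
  rw [DD_eq, DD_eq, LM_map_smul, LM_map_smul, smul_add]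

/-- chain maps lift -/
theorem DD_LM {D : Matrix ι ι (LL V r)} {D' : Matrix ι' ι' (LL V r)}
    {P : Matrix ι' ι (LL V r)} (h : D' * P = P * D) (x : ι × FJ r → LL V r) :
    DD D' (LM P 1 x) = LM P 1 (DD D x) := by
  simp [DD_eq, LM_mul, h]

/-- homotopies lift -/
theorem DD_LM_sg (D : Matrix ι ι (LL V r)) (D' : Matrix ι' ι' (LL V r))
    (H : Matrix ι' ι (LL V r)) (x : ι × FJ r → LL V r) :
    DD D' (LM H (sg V r) x) + LM H (sg V r) (DD D x) = LM (D' * H + H * D) 1 x := by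
  have := LM_add' H (sg V r * cb V r) (cb V r * sg V r) x
  rw [sg_cb, LM_zero'] at this
  simp only [DD_eq, LM_mul, map_add, sg_sq, Matrix.one_mul, Matrix.mul_one, LM_add]
  rw [← sub_eq_zero, this]; abel

theorem DD_sq {D : Matrix ι ι (LL V r)} (h : D * D = 0) : DD D * DD D = 0 := by
  refine LinearMap.ext fun x => ?_
  have := LM_add' D (sg V r * cb V r) (cb V r * sg V r) x
  rw [sg_cb, LM_zero'] at this
  simp only [Module.End.mul_apply, DD_eq, LM_mul, map_add, h, cb_sq, LM_zero, LM_zero',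
    Matrix.one_mul, Matrix.mul_one, LinearMap.zero_apply]
  rw [zero_add, add_zero, add_comm, ← this]

theorem DD_DD {D : Matrix ι ι (LL V r)} (h : D * D = 0) (x : ι × FJ r → LL V r) :
    DD D (DD D x) = 0 := LinearMap.congr_fun (DD_sq h) x

theorem DD_comm {D Γ : Matrix ι ι (LL V r)} (h : D * Γ = Γ * D) : Commute (DD D) (gg Γ) :=
  LinearMap.ext fun x => DD_LM h x

theorem DD_gg_pow {D Γ : Matrix ι ι (LL V r)} (h : D * Γ = Γ * D) (c : ℕ)
    (x : ι × FJ r → LL V r) : DD D ((gg Γ ^ c) x) = (gg Γ ^ c) (DD D x) :=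
  LinearMap.congr_fun ((DD_comm h).pow_right c).eq x

omit [Fintype ι] [DecidableEq ι] [Fintype ι'] [DecidableEq ι'] in
theorem Ent.mono {σ σ' : ℕ} {P : Matrix ι' ι (LL V r)} (h : Ent v σ P) (h' : σ' ≤ σ) :
    Ent v σ' P := fun i j => Pv_mono (SB_mono h') (h i j)

omit [Fintype ι] [DecidableEq ι] [DecidableEq ι'] [Fintype ι''] [DecidableEq ι''] in
theorem Ent.mul {σ σ' : ℕ} {P : Matrix ι'' ι' (LL V r)} {Q : Matrix ι' ι (LL V r)}
    (h : Ent v σ P) (h' : Ent v σ' Q) : Ent v (σ + σ') (P * Q) := fun i j => by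
  rw [mul_apply]
  exact sum_mem fun a _ => mul_mem_SB (h i a) (h' a j)

omit [Fintype ι] [DecidableEq ι] [Fintype ι'] [DecidableEq ι'] in
theorem Ent.add {σ : ℕ} {P Q : Matrix ι' ι (LL V r)} (h : Ent v σ P) (h' : Ent v σ Q) :
    Ent v σ (P + Q) := fun i j => add_mem (h i j) (h' i j)

omit [Fintype ι] [DecidableEq ι] [Fintype ι'] [DecidableEq ι'] in
theorem Ent.neg {σ : ℕ} {P : Matrix ι' ι (LL V r)} (h : Ent v σ P) : Ent v σ (-P) :=
  fun i j => neg_mem (h i j)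

omit [Fintype ι] [DecidableEq ι] [Fintype ι'] [DecidableEq ι'] in
theorem Ent.zero {σ : ℕ} : Ent v σ (0 : Matrix ι' ι (LL V r)) := fun _ _ => zero_mem _

omit [Fintype ι] [DecidableEq ι] [Fintype ι'] [DecidableEq ι'] in
theorem Ent.smul {σ σ' : ℕ} {a : LL V r} {P : Matrix ι' ι (LL V r)} (ha : a ∈ Pv v (SB r σ))
    (h : Ent v σ' P) : Ent v (σ + σ') (a • P) := fun i j => mul_mem_SB ha (h i j)

omit [Fintype ι] in
theorem Ent.one : Ent v 0 (1 : Matrix ι ι (LL V r)) := fun i j => by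
  rw [one_apply]
  split_ifs
  · exact one_mem_SB
  · exact zero_mem _

theorem Ent.pow {Γ : Matrix ι ι (LL V r)} (h : Ent v 0 Γ) (c : ℕ) : Ent v 0 (Γ ^ c) := by
  induction c with
  | zero => simpa using Ent.one
  | succ c ih => rw [pow_succ]; exact Ent.mul (σ := 0) (σ' := 0) ih h

variable {N0 : ℕ} {ν : Fin r → ℤ} {deg : ι → ℕ} {deg' : ι' → ℕ}

omit [DecidableEq ι] [Fintype ι'] [DecidableEq ι'] in
/-- graded matrices act on the strands; `σ` is a lower bound for the levels of the entries -/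
theorem LM_one_mem {P : Matrix ι' ι (LL V r)} {j : ℤ} (hP : Gr deg deg' j P)
    {σ N : ℕ} (hσ : Ent v σ P) {l l' : ℕ → ℕ}
    (hl : ∀ p p' : ℕ, (p' : ℤ) = p + j → l' p' ≤ l p + σ) {n : ℤ} {x : ι × FJ r → LL V r}
    (hx : x ∈ XF v N0 ν N l deg n) : LM P 1 x ∈ XF v N0 ν N l' deg' (n + j) := by
  rintro ⟨i, J⟩ -
  rw [LM_one_apply]
  refine sum_mem fun b _ => ?_
  by_cases h : P i b = 0
  · simp [h]
  have h1 := hP _ _ h
  refine mul_mem_Pv (hσ i b) (hx (b, J) trivial) fun a ha c hc => ?_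
  exact ⟨by have := hc.1; simp only at this ⊢; omega, add_mem_Om ha hc.2.1 (hl _ _ h1),
    add_mem_cond ha hc.2.2⟩

omit [DecidableEq ι] [Fintype ι'] [DecidableEq ι'] in
theorem LM_sg_mem {P : Matrix ι' ι (LL V r)} {j : ℤ} (hP : Gr deg deg' j P)
    {σ N : ℕ} (hσ : Ent v σ P) {l l' : ℕ → ℕ}
    (hl : ∀ p p' : ℕ, (p' : ℤ) = p + j → l' p' ≤ l p + σ) {n : ℤ} {x : ι × FJ r → LL V r}
    (hx : x ∈ XF v N0 ν N l deg n) : LM P (sg V r) x ∈ XF v N0 ν N l' deg' (n + j) := by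
  rintro ⟨i, J⟩ -
  have := intCast_mul_mem_Pv (LM_one_mem hP hσ hl hx (i, J) trivial) ((-1) ^ J.card)
  rw [LM_sg_apply, ← LM_one_apply]
  simpa using this

/-- the Cech differential preserves every `XS` -/
theorem LM_cb_mem {Ω : ℕ → Set (Mon r)} {n : ℤ} {x : ι × FJ r → LL V r}
    (hx : x ∈ XS v N0 ν deg Ω n) : LM 1 (cb V r) x ∈ XS v N0 ν deg Ω (n - 1) := by
  rintro ⟨i, J⟩ -
  rw [LM_cb_apply]
  refine sum_mem fun b _ => sum_mem fun J' _ => ?_
  by_cases h : ct b J' J = 0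
  · simp [h]
  refine intCast_mul_mem_Pv (Pv_mono ?_ (hx (i, J') trivial)) _
  rintro e ⟨h1, h2, h3⟩
  have := ct_card h
  exact ⟨by simp only at h1 ⊢; omega, h2,
    cond_mono (by rw [(ct_ne' h).2]; exact subset_insert _ _) h3⟩

omit [Fintype ι] [DecidableEq ι] in
theorem smul_mem_XF {f : LL V r} (hf : f ∈ Pv v (SB r 0)) {N : ℕ} {l : ℕ → ℕ} {n : ℤ}
    {x : ι × FJ r → LL V r} (hx : x ∈ XF v N0 ν N l deg n) : f • x ∈ XF v N0 ν N l deg n :=
  fun p _ => mul_mem_Pv hf (hx p trivial) fun _ ha _ hc =>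
    ⟨hc.1, add_mem_Om ha hc.2.1 le_rfl, add_mem_cond ha hc.2.2⟩

omit [DecidableEq ι] in
theorem gg_mem_XF {Γ : Matrix ι ι (LL V r)} (h0 : Gr deg deg 0 Γ) (he : Ent v 0 Γ) {N : ℕ}
    {l : ℕ → ℕ} {n : ℤ} {x : ι × FJ r → LL V r} (hx : x ∈ XF v N0 ν N l deg n) :
    gg Γ x ∈ XF v N0 ν N l deg n := by
  have := LM_one_mem h0 he (l' := l) (fun p p' e => by
    obtain rfl : p' = p := by omega
    exact le_rfl) hx
  rwa [add_zero] at this

omit [DecidableEq ι] in
theorem gg_pow_mem_XF {Γ : Matrix ι ι (LL V r)} (h0 : Gr deg deg 0 Γ) (he : Ent v 0 Γ) (c : ℕ)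
    {N : ℕ} {l : ℕ → ℕ} {n : ℤ} {x : ι × FJ r → LL V r} (hx : x ∈ XF v N0 ν N l deg n) :
    (gg Γ ^ c) x ∈ XF v N0 ν N l deg n := by
  induction c with
  | zero => simpa using hx
  | succ c ih => rw [pow_succ', Module.End.mul_apply]; exact gg_mem_XF h0 he ih

theorem XF_cxD {D : Matrix ι ι (LL V r)} (hD : Gr deg deg (-1) D) (N : ℕ) {l : ℕ → ℕ}
    (hl : Slope v D l) : CxD (DD D) (XF v N0 ν N l deg) := by
  obtain ⟨-, σ, h1, h2⟩ := hl
  intro n x hx
  rw [DD_eq]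
  refine add_mem (LM_sg_mem hD h1 (fun p p' e => ?_) hx) (LM_cb_mem hx)
  obtain rfl : p = p' + 1 := by omega
  exact h2 _

theorem XF_cx {Γ D : Matrix ι ι (LL V r)} (h : Cpx v Γ deg D) (N : ℕ) {l : ℕ → ℕ}
    (hl : Slope v D l) : Cx (DD D) (gg Γ) (XF v N0 ν N l deg) :=
  ⟨XF_cxD h.gr N hl, fun _ _ hx => gg_mem_XF h.g0 h.ge hx⟩

omit [Fintype ι] [DecidableEq ι] in
theorem slope_const {D : Matrix ι ι (LL V r)} (h : Ent v 0 D) (c : ℕ) : Slope v D fun _ => c :=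
  ⟨antitone_const, 0, h, by simp⟩

omit [Fintype ι] [DecidableEq ι] in
theorem Slope.add {D : Matrix ι ι (LL V r)} {l : ℕ → ℕ} (h : Slope v D l) (c : ℕ) :
    Slope v D fun p => l p + c := by
  obtain ⟨h0, σ, h1, h2⟩ := h
  exact ⟨fun a b e => by have := h0 e; simp only; omega, σ, h1, fun p => by
    have := h2 p; simp only; omega⟩

omit [Fintype ι] [DecidableEq ι] in
theorem Slope.sub {D : Matrix ι ι (LL V r)} {l : ℕ → ℕ} (h : Slope v D l) (c : ℕ) :
    Slope v D fun p => l p - c := by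
  obtain ⟨h0, σ, h1, h2⟩ := h
  exact ⟨fun a b e => by have := h0 e; simp only; omega, σ, h1, fun p => by
    have := h2 p; simp only; omega⟩

omit [Fintype ι] [DecidableEq ι] in
theorem XS_bd (h : ∀ i, deg i ≤ r + 1) (Ω : ℕ → Set (Mon r)) {n : ℤ}
    (hn : ((r + 1 : ℕ) : ℤ) < |n|) : XS v N0 ν deg Ω n = ⊥ := by
  refine eq_bot_iff.2 fun x hx => ?_
  ext ⟨i, J⟩ e
  rcases mem_Pv.1 (mem_XX'.1 hx i J) e with h0 | ⟨a, ⟨h1, -, h2⟩, -⟩
  · simpa using h0
  have := cond_card h2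
  have := FJ_card J
  have := h i
  rcases abs_cases n with c | c <;> omega

omit [DecidableEq ι] in
theorem Sm.mono {n0 o o' : ℕ} {Γ : Matrix ι ι (LL V r)} (h : Sm v n0 Γ o deg) (h' : o ≤ o') :
    Sm v n0 Γ o' deg := fun N0 ν N l l' w h1 h2 h3 n =>
  ⟨(h N0 ν N l l' w h1 h2 h3 n).1, (h N0 ν N l l' w h1 h2 h3 n).2.trans
    (by exact_mod_cast Nat.mul_le_mul_right _ h')⟩

end cech

end Vale.Agent.P202.Mx
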