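import Vale.Agent.P202.M.SpecI
import Vale.Agent.P202.M.Base
import Vale.Agent.P202.Red

open Finset Matrix MvPowerSeries Filter Topology IsLocalRing
open scoped Kronecker Nat

namespace Vale.Agent.P202.Mx

universe u

namespace Bnx

theorem sup_pow {R : Type u} [CommRing R] (I J : Ideal R) (N k : ℕ) :
    (I ⊔ J) ^ N ≤ I ^ (N - k) ⊔ J ^ (k + 1) := by
  rw [← Ideal.add_eq_sup, add_pow, Ideal.sum_eq_sup]
  refine Finset.sup_le fun i _ => Ideal.mul_le_left.trans ?_
  by_cases h : N - k ≤ i
  · exact le_sup_of_le_left (Ideal.mul_le_left.trans (Ideal.pow_le_pow_right h))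
  · exact le_sup_of_le_right (Ideal.mul_le_right.trans (Ideal.pow_le_pow_right (by omega)))

end Bnx

open Bnx in
theorem bnStmt : BnStmt.{u} := by
  intro Q _ _ _ P _ x hm hx N
  set L := Localization.AtPrime P
  have hu : IsUnit (algebraMap Q L x) := IsLocalization.map_units L (⟨x, hx⟩ : P.primeCompl)
  have sat : ∀ (I : Ideal L) (k : ℕ) z, z * x ^ k ∈ I.comap (algebraMap Q L) →
      z ∈ I.comap (algebraMap Q L) := fun I k z h => by
    rw [Ideal.mem_comap, map_mul, map_pow] at h
    exact (I.mul_unit_mem_iff_mem (hu.pow k)).1 h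
  have hj : Ideal.span {x} ≤ Ideal.jacobson ⊥ := by
    rw [jacobson_eq_maximalIdeal _ bot_ne_top, hm]; exact le_sup_right
  let f : Ideal L → Ideal Q := fun I => I.comap (algebraMap Q L) ⊔ Ideal.span {x}
  have hf : StrictMono f := fun I I' h => by
    refine lt_of_le_not_ge (sup_le_sup_right (Ideal.comap_mono h.le) _) fun c => h.not_ge ?_
    refine (IsLocalization.orderEmbedding P.primeCompl L).le_iff_le.1
      (Submodule.le_of_le_smul_of_le_jacobson_bot (IsNoetherian.noetherian _) hj fun y hy => ?_)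
    obtain ⟨a, ha, b, hb, rfl⟩ := Submodule.mem_sup.1 (c (Ideal.mem_sup_left hy))
    obtain ⟨z, rfl⟩ := Ideal.mem_span_singleton'.1 hb
    refine Submodule.add_mem_sup ha ?_
    rw [mul_comm]
    refine Submodule.smul_mem_smul (Ideal.mem_span_singleton_self x) (sat I' 1 z ?_)
    rw [pow_one]
    exact (Submodule.add_mem_iff_right (I'.comap (algebraMap Q L)) (Ideal.comap_mono h.le ha)).1 hy
  let K : ℕ → Ideal Q := fun k => maximalIdeal Q ^ N ⊔ Ideal.span {x} ^ k
  have step : ∀ k, Module.length L (L ⧸ maximalIdeal L ^ (N - k)) ≤ rl (K (k + 1)) (K k) := by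
    intro k
    rw [Module.length_quotient]
    refine (Order.coheight_le_coheight_apply_of_strictMono f hf _).trans ?_
    rw [← Module.length_quotient, ← rl_top]
    refine rl_le_of_comap (LinearMap.mulRight Q (x ^ k)) (fun y _ hy => ?_) fun y _ =>
      Ideal.mem_sup_right (Ideal.mem_sup_right
        (Ideal.mul_mem_left _ _ (Ideal.pow_mem_pow (Ideal.mem_span_singleton_self x) k)))
    have h1 : K (k + 1) ≤ (maximalIdeal L ^ (N - k)).comap (algebraMap Q L) ⊔
        Ideal.span {x ^ (k + 1)} := by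
      rw [← Ideal.span_singleton_pow]
      refine sup_le (hm ▸ (sup_pow _ _ N k).trans (sup_le_sup_right ?_ _)) le_sup_right
      rw [← Ideal.map_le_iff_le_comap, Ideal.map_pow, Localization.AtPrime.map_eq_maximalIdeal]
    obtain ⟨a, ha, b, hb, e⟩ := Submodule.mem_sup.1 (h1 hy)
    obtain ⟨z, rfl⟩ := Ideal.mem_span_singleton'.1 hb
    have e' : a + z * x ^ (k + 1) = y * x ^ k := e
    refine Submodule.mem_sup.2 ⟨y - z * x, sat _ k _ ?_, z * x,
      Ideal.mul_mem_left _ _ (Ideal.mem_span_singleton_self x), by ring⟩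
    rwa [show (y - z * x) * x ^ k = a by linear_combination -e']
  have tot : ∀ n, ∑ k ∈ range n, rl (K (k + 1)) (K k) = rl (K n) (K 0) := fun n => by
    induction n with
    | zero => simp [rl_eq_zero.2 le_rfl]
    | succ n ih =>
      rw [sum_range_succ, ih, add_comm]
      exact (rl_add (sup_le_sup_left (Ideal.pow_le_pow_right n.le_succ) _)
        (sup_le_sup_left (Ideal.pow_le_pow_right n.zero_le) _)).symm
  have h1 : ∑ k ∈ range (N + 1), Module.length L (L ⧸ maximalIdeal L ^ (N - k)) ≤
      Module.length Q (Q ⧸ maximalIdeal Q ^ N) := by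
    rw [sum_range_succ, Nat.sub_self, pow_zero, Ideal.one_eq_top, ← rl_top, rl_eq_zero.2 le_rfl,
      add_zero, ← rl_top]
    refine (sum_le_sum fun k _ => step k).trans ((tot N).le.trans (rl_mono ?_ ?_))
    · exact le_sup_left
    · exact le_sup_of_le_right le_top |>.trans le_rfl
  rw [← sum_range_reflect]
  refine le_trans (le_of_eq ?_) (ENat.toNat_le_toNat h1 (Rd.finlen _ N))
  rw [← ENat.toNat_natCast (∑ _ ∈ _, _), Nat.cast_sum]
  exact congrArg _ (sum_congr rfl fun k _ => ENat.natCast_toNat (Rd.finlen _ _))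

end Vale.Agent.P202.Mx
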