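import Vale.Agent.P202.M.SpecE
import Vale.Agent.P202.Seg1

/-! Module BP: the Segre monomials are in the radical of the elementary symmetric functions. -/

open Finset Matrix MvPowerSeries Filter Topology IsLocalRing
open scoped Kronecker Nat

namespace Vale.Agent.P202.Mx

universe u

namespace Bp

variable {r : ℕ}

abbrev ZP (r : ℕ) := MvPolynomial (Option (Fin r)) ℤ

/-- integral polynomials supported in the Segre cone -/
def BB (r : ℕ) : Subring (ZP r) where
  carrier := {p | ∀ e, p.coeff e ≠ 0 → e ∈ SB r 0}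
  mul_mem' {a b} ha hb e he := by
    classical
    rw [MvPolynomial.coeff_mul] at he
    obtain ⟨p, hp, hne⟩ := exists_ne_zero_of_sum_ne_zero he
    rw [← mem_antidiagonal.1 hp]
    refine ⟨Nat.zero_le _, fun c => ?_⟩
    simp only [Finsupp.add_apply]
    exact add_le_add ((ha _ (left_ne_zero_of_mul hne)).2 c) ((hb _ (right_ne_zero_of_mul hne)).2 c)
  one_mem' e he := by
    classical
    rw [MvPolynomial.coeff_one] at he
    split_ifs at he with h
    · subst h
      exact ⟨le_rfl, fun _ => le_rfl⟩
    · exact absurd rfl he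
  add_mem' {a b} ha hb e he := by
    rw [MvPolynomial.coeff_add] at he
    by_cases h : a.coeff e = 0
    · rw [h, zero_add] at he
      exact hb e he
    · exact ha e h
  zero_mem' e he := absurd rfl he
  neg_mem' {a} ha e he := ha e (by simpa using he)

noncomputable def mz (I : Finset (Fin r)) : ZP r :=
  MvPolynomial.X none * ∏ a ∈ I, MvPolynomial.X (some a)

theorem mz_mem (I : Finset (Fin r)) : mz I ∈ BB r := by
  classical
  have h : ∏ a ∈ I, (MvPolynomial.X (some a) : ZP r) =
      MvPolynomial.monomial (∑ a ∈ I, Finsupp.single (some a) 1) 1 := by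
    induction I using Finset.induction_on with
    | empty => simp
    | insert a s ha ih =>
      rw [prod_insert ha, sum_insert ha, ih, MvPolynomial.X, MvPolynomial.monomial_mul, one_mul]
  rw [mz, h, MvPolynomial.X, MvPolynomial.monomial_mul]
  intro e he
  rw [MvPolynomial.coeff_monomial] at he
  split_ifs at he with h'
  · subst h'
    refine ⟨Nat.zero_le _, fun a => ?_⟩
    simp only [Finsupp.add_apply, Finsupp.finsetSum_apply, Finsupp.single_apply]
    simp
    split_ifs <;> simp
  · exact absurd rfl he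

noncomputable def xz (r : ℕ) (j : Fin (r + 1)) : ZP r := ∑ I ∈ powersetCard j univ, mz I

noncomputable def muB (I : Finset (Fin r)) : BB r := ⟨mz I, mz_mem I⟩

noncomputable def xsB (r : ℕ) (j : Fin (r + 1)) : BB r :=
  ⟨xz r j, sum_mem fun I _ => mz_mem I⟩

theorem mu_insert (I : Finset (Fin r)) (a : Fin r) :
    mz (insert a I) = mz (I.erase a) * MvPolynomial.X (some a) := by
  have : insert a I = insert a (I.erase a) := by ext; simp; tauto
  rw [this, mz, mz, prod_insert (notMem_erase a I)]
  ring

theorem mu_prod (I : Finset (Fin r)) :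
    mz I * ∏ a, mz (I.erase a) = mz I ^ r * MvPolynomial.X none := by
  have h1 : ∀ a, mz (I.erase a) * (if a ∈ I then MvPolynomial.X (some a) else 1) = mz I :=
    fun a => by
      split_ifs with h
      · rw [← mu_insert, insert_eq_of_mem h]
      · rw [erase_eq_of_notMem h, mul_one]
  have h2 := prod_congr (s₁ := univ) rfl fun a _ => h1 a
  rw [prod_mul_distrib, prod_const, card_univ, Fintype.card_fin, prod_ite_mem, univ_inter] at h2
  rw [← h2]
  unfold mz
  ring

theorem poly_id (I : Finset (Fin r)) :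
    Polynomial.C (muB I) ^ r * ∑ j : Fin (r + 1), Polynomial.C (xsB r j) * Polynomial.X ^ (j : ℕ)
      = Polynomial.C (muB I) * ∏ a, (Polynomial.C (muB (I.erase a)) +
        Polynomial.C (muB (insert a I)) * Polynomial.X) := by
  apply Polynomial.map_injective (BB r).subtype Subtype.val_injective
  simp only [Polynomial.map_mul, Polynomial.map_pow, Polynomial.map_sum, Polynomial.map_prod,
    Polynomial.map_add, Polynomial.map_C, Polynomial.map_X, muB, xsB, Subring.coe_subtype,
    mu_insert]
  have h1 : ∀ a, Polynomial.C (mz (I.erase a)) +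
      Polynomial.C (mz (I.erase a) * MvPolynomial.X (some a)) * Polynomial.X =
      Polynomial.C (mz (I.erase a)) *
        (1 + Polynomial.C (MvPolynomial.X (some a)) * Polynomial.X) := fun a => by
    rw [map_mul]; ring
  simp only [h1]
  rw [prod_mul_distrib, ← mul_assoc, ← map_prod, ← map_mul, mu_prod, map_mul, map_pow, mul_assoc,
    prod_one_add, sum_powerset, card_univ, Fintype.card_fin, ← Fin.sum_univ_eq_sum_range
      (fun j => ∑ t ∈ powersetCard j univ, ∏ i ∈ t,
        Polynomial.C (MvPolynomial.X (some i) : ZP r) * Polynomial.X),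
    mul_sum _ _ (Polynomial.C (MvPolynomial.X none))]
  refine congrArg _ (sum_congr rfl fun j _ => ?_)
  rw [xz, map_sum, sum_mul, mul_sum]
  refine sum_congr rfl fun t ht => ?_
  rw [prod_mul_distrib, prod_const, (mem_powersetCard.1 ht).2, mz, map_mul, map_prod, mul_assoc]

theorem mu_rad (I : Finset (Fin r)) : muB I ∈ (Ideal.span (Set.range (xsB r))).radical := by
  rw [Ideal.radical_eq_sInf, Ideal.mem_sInf]
  rintro P ⟨hP, hP'⟩
  rw [← Ideal.Quotient.eq_zero_iff_mem]
  rcases S1.dom_aux (Ideal.Quotient.mk P) (fun j => Ideal.Quotient.eq_zero_iff_mem.2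
    (hP (Ideal.subset_span ⟨j, rfl⟩))) (poly_id I) with h | ⟨a, h, h'⟩
  · exact h
  · by_cases hI : a ∈ I
    · rwa [insert_eq_of_mem hI] at h'
    · rwa [erase_eq_of_notMem hI] at h

theorem bpf (r : ℕ) : ∃ c : ℕ, ∀ (M : ℕ) (I : Finset (Fin r)),
    muB I ^ (c * M) ∈ Ideal.span (Set.range fun j => xsB r j ^ M) := by
  choose n hn using fun I => Ideal.mem_radical_iff.1 (mu_rad (r := r) I)
  refine ⟨(∑ I, n I) * (r + 1), fun M I => ?_⟩
  rcases M with _ | M
  · exact Ideal.subset_span ⟨0, by simp⟩
  obtain ⟨g, hg⟩ := Ideal.mem_span_range_iff_exists_fun.1 (Ideal.pow_mem_of_pow_mem _ (hn I)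
    (single_le_sum (fun _ _ => Nat.zero_le _) (mem_univ I)))
  rw [mul_assoc, pow_mul, ← hg]
  refine Ideal.pow_mem_of_pow_mem _ (Ideal.span_le.2 ?_ (Ideal.sum_pow_mem_span_pow univ _ M)) ?_
  · rintro _ ⟨j, -, rfl⟩
    simp only [mul_pow]
    exact Ideal.mul_mem_left _ _ (Ideal.subset_span ⟨j, rfl⟩)
  · simp only [card_univ, Fintype.card_fin]
    nlinarith

variable {V : Type u} [CommRing V]

/-- specialise the level variable to `v` -/
noncomputable def ev (v : V) (r : ℕ) : ZP r →+* LL V r :=
  MvPolynomial.eval₂Hom (Int.castRingHom _) fun o => o.elim (C v) X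

theorem ev_mz (v : V) (I : Finset (Fin r)) : ev v r (mz I) = mu v I := by
  simp [ev, mz, mu]

theorem ev_xz (v : V) (j : Fin (r + 1)) : ev v r (xz r j) = th v r j := by
  rw [xz, map_sum, th, MvPolynomial.esymm, ← MvPolynomial.coeToMvPowerSeries.ringHom_apply, map_sum,
    mul_sum]
  refine sum_congr rfl fun t _ => ?_
  rw [ev_mz, mu, map_prod]
  simp

theorem prod_X (e : Fin r →₀ ℕ) : ∏ a, (X a : LL V r) ^ e a = monomial e 1 := by
  have h : ∀ s : Finset (Fin r), ∏ a ∈ s, (X a : LL V r) ^ e a =
      monomial (∑ a ∈ s, Finsupp.single a (e a)) 1 := by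
    intro s
    induction s using Finset.induction_on with
    | empty => simp
    | insert a s ha ih =>
      rw [prod_insert ha, sum_insert ha, ih, X_pow_eq, monomial_mul_monomial, one_mul]
  rw [h, Finsupp.univ_sum_single]

theorem ev_mem (v : V) (p : BB r) : ev v r p ∈ Pv v (SB r 0) := by
  classical
  rw [(p : ZP r).as_sum, map_sum]
  refine sum_mem fun e he => ?_
  have h1 := p.2 e (MvPolynomial.mem_support_iff.1 he)
  rw [ev, MvPolynomial.eval₂Hom_monomial, Finsupp.prod_fintype _ _ (by simp), Fintype.prod_option]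
  simp only [Option.elim]
  have h2 := prod_X (V := V) e.some
  simp only [Finsupp.some_apply] at h2
  rw [h2, eq_intCast, ← zsmul_eq_mul]
  refine zsmul_mem ?_ _
  rw [Pv, Submodule.mem_iInf]
  intro e'
  rw [Submodule.mem_comap, ← map_pow, coeff_C_mul, coeff_monomial]
  split_ifs with h
  · rw [mul_one]
    exact Ideal.subset_span ⟨e, ⟨h1, h.symm⟩, rfl⟩
  · rw [mul_zero]
    exact zero_mem _

end Bp

open Bp

theorem bpfStmt : BpfStmt.{u} := by
  intro r
  obtain ⟨c, hc⟩ := bpf r
  refine ⟨c, fun V _ v M I => ?_⟩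
  obtain ⟨g, hg⟩ := Ideal.mem_span_range_iff_exists_fun.1 (hc M I)
  refine ⟨fun j => ev v r (g j), fun j => ev_mem v (g j), ?_⟩
  have := congrArg (fun x : BB r => ev v r x) hg
  simpa [muB, xsB, ev_mz, ev_xz] using this.symm

end Vale.Agent.P202.Mx
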