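import Vale.Agent.P202.M.SpecI

/-! Module BT: flat base change of a presentation. -/

open Finset TensorProduct

namespace Vale.Agent.P202.Mx

universe u

theorem btMStmt : BtMStmt.{u} := by
  intro A A' R T _ _ _ _ _ _ _ _ _ _ _ _ _ h u F δ hker hδ
  let P := MvPolynomial (Fin h) A
  let ev : P →ₐ[A] R := MvPolynomial.aeval u
  let ev' : MvPolynomial (Fin h) A' →ₐ[A'] T := MvPolynomial.aeval fun i => algebraMap R T (u i)
  let e1 := MvPolynomial.algebraTensorAlgEquiv (σ := Fin h) A A'
  let e2 := Algebra.IsPushout.equiv A A' R T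
  have hm : ∀ g : P, ev' (MvPolynomial.map (algebraMap A A') g) = algebraMap R T (ev g) := by
    intro g
    simp only [ev, ev', MvPolynomial.aeval_map_algebraMap]
    exact MvPolynomial.aeval_algebraMap_apply T u g
  have he2 : ∀ (a : A') (r : R), e2 (a ⊗ₜ r) = a • algebraMap R T r := fun a r => by
    rw [Algebra.smul_def]; exact Algebra.IsPushout.equiv_tmul A A' R T a r
  have hc : ∀ x, ev' (e1 x) = e2 (ev.toLinearMap.lTensor A' x) := by
    intro x
    induction x with
    | zero => simp
    | add x y hx hy => simp only [map_add, hx, hy]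
    | tmul a g =>
      rw [LinearMap.lTensor_tmul, he2, MvPolynomial.algebraTensorAlgEquiv_tmul, map_smul, hm]
      rfl
  refine ⟨le_antisymm (fun g hg => ?_) ?_, ?_, fun b => ?_⟩
  · obtain ⟨x, rfl⟩ := e1.surjective g
    have h1 : ev.toLinearMap.lTensor A' x = 0 :=
      e2.injective (by rw [← hc, map_zero]; exact hg)
    obtain ⟨y, rfl⟩ := (Module.Flat.lTensor_exact A' ev.toLinearMap.exact_subtype_ker_map x).1 h1
    clear hg h1
    induction y with
    | zero => simp
    | add x y hx hy => rw [map_add, map_add]; exact add_mem hx hy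
    | tmul a k =>
      rw [LinearMap.lTensor_tmul, MvPolynomial.algebraTensorAlgEquiv_tmul]
      refine Submodule.smul_of_tower_mem _ a ?_
      have h2 : (k : P) ∈ Ideal.span (Set.range F) := hker ▸ k.2
      have h3 := Ideal.mem_map_of_mem (MvPolynomial.map (σ := Fin h) (algebraMap A A')) h2
      rwa [Ideal.map_span, ← Set.range_comp] at h3
  · rw [Ideal.span_le]
    rintro _ ⟨i, rfl⟩
    have h1 : F i ∈ RingHom.ker ev := hker ▸ Ideal.subset_span ⟨i, rfl⟩
    change ev' _ = 0
    rw [hm, RingHom.mem_ker.1 h1, map_zero]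
  · unfold jac
    rw [RingHom.map_det]
    congr 1
    ext i j
    simp only [Matrix.of_apply, RingHom.mapMatrix_apply, Matrix.map_apply, MvPolynomial.pderiv_map]
    exact hm _
  · obtain ⟨x, rfl⟩ := e2.surjective b
    induction x with
    | zero => exact ⟨0, by simp⟩
    | add x y hx hy =>
      obtain ⟨g, hg⟩ := hx
      obtain ⟨g', hg'⟩ := hy
      exact ⟨g + g', by rw [map_add, hg, hg', map_add, mul_add]⟩
    | tmul a r =>
      obtain ⟨g, hg⟩ := hδ r
      refine ⟨a • MvPolynomial.map (algebraMap A A') g, ?_⟩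
      change ev' _ = _
      rw [map_smul, hm, he2, show ev g = _ from hg, map_mul, ← IsScalarTower.algebraMap_apply,
        mul_smul_comm]

end Vale.Agent.P202.Mx
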