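import Vale.Agent.P202.M.SpecE
import Vale.Agent.P202.Cb

open Finset Matrix MvPowerSeries Filter Topology IsLocalRing
open scoped Kronecker Nat

namespace Vale.Agent.P202.Mx

universe u

namespace Cbx

section rl
variable {k : Type*} [CommRing k] {E E' : Type*} [AddCommGroup E] [Module k E] [AddCommGroup E']
  [Module k E']

theorem rl_eq_zero {P Q : Submodule k E} : rl P Q = 0 ↔ Q ≤ P := by
  rw [rl, Module.length_eq_zero_iff, Submodule.subsingleton_iff_eq_bot, eq_bot_iff,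
    Submodule.map_le_iff_le_comap, Submodule.comap_bot, Submodule.ker_mkQ]

/-- comparison through a linear map -/
theorem rl_le_of_map (f : E →ₗ[k] E') {P Q : Submodule k E} {P' Q' : Submodule k E'}
    (h : ∀ x ∈ P, f x ∈ P') (h' : Q' ≤ P' ⊔ Q.map f) : rl P' Q' ≤ rl P Q := by
  let F := P.mapQ P' f h
  have : Q'.map P'.mkQ ≤ (Q.map P.mkQ).map F := by
    rintro _ ⟨y, hy, rfl⟩
    obtain ⟨a, ha, _, ⟨x, hx, rfl⟩, rfl⟩ := Submodule.mem_sup.1 (h' hy)
    refine ⟨P.mkQ x, ⟨x, hx, rfl⟩, ?_⟩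
    simp [F, (Submodule.Quotient.mk_eq_zero _).2 ha]
  refine (Module.length_le_of_injective _ (Submodule.inclusion_injective this)).trans ?_
  exact Module.length_le_of_surjective _ (F.submoduleMap_surjective _)

/-- comparison through a linear map that detects `P` on `Q` -/
theorem rl_le_of_comap (f : E →ₗ[k] E') {P Q : Submodule k E} {P' Q' : Submodule k E'}
    (h : ∀ x ∈ Q, f x ∈ P' → x ∈ P) (h' : ∀ x ∈ Q, f x ∈ P' ⊔ Q') : rl P Q ≤ rl P' Q' := by
  let a : Q →ₗ[k] Q.map P.mkQ := P.mkQ.submoduleMap Q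
  have hb : ∀ x : Q, (P'.mkQ ∘ₗ f ∘ₗ Q.subtype) x ∈ Q'.map P'.mkQ := fun x => by
    obtain ⟨y, hy, z, hz, e⟩ := Submodule.mem_sup.1 (h' x x.2)
    refine ⟨z, hz, ?_⟩
    simp [← e, (Submodule.Quotient.mk_eq_zero _).2 hy]
  let b : Q →ₗ[k] Q'.map P'.mkQ := LinearMap.codRestrict _ _ hb
  have hk : LinearMap.ker b ≤ LinearMap.ker a := fun x hx => by
    have h1 : f x ∈ P' := by simpa [b, Subtype.ext_iff] using hx
    simpa [a, Subtype.ext_iff] using h x x.2 h1
  have h1 := Module.length_le_of_surjective ((LinearMap.ker b).liftQ a hk) fun y => by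
    obtain ⟨x, rfl⟩ := P.mkQ.submoduleMap_surjective Q y
    exact ⟨Submodule.Quotient.mk x, rfl⟩
  refine h1.trans ?_
  exact Module.length_le_of_injective ((LinearMap.ker b).liftQ b le_rfl)
    (LinearMap.ker_eq_bot.1 (Submodule.ker_liftQ_eq_bot _ _ _ le_rfl))

theorem rl_top (P : Submodule k E) : rl P ⊤ = Module.length k (E ⧸ P) := by
  rw [rl, Submodule.map_top, Submodule.range_mkQ, Module.length_top]

theorem hh0 (D g : Module.End k E) (X X' : ℤ → Submodule k E) (n : ℤ) :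
    hh D g 0 X X' n = rl (Bc D X X' n) (Zc D X X' n) := by
  simp [hh, Module.End.one_eq_id]

end rl

section pv
variable {V : Type u} [CommRing V] {r : ℕ} {v : V}

/-- allowed coefficients -/
def Ic (v : V) (S : Set (Mon r)) (e' : Fin r →₀ ℕ) : Ideal V :=
  Ideal.span ((fun e : Mon r => v ^ e none) '' {e | e ∈ S ∧ e.some = e'})

theorem mem_Pv {S : Set (Mon r)} {f : LL V r} : f ∈ Pv v S ↔ ∀ e', coeff e' f ∈ Ic v S e' :=
  Submodule.mem_iInf _

theorem Ic_mono {S T : Set (Mon r)} {e' : Fin r →₀ ℕ} {c : V} (hc : c ∈ Ic v S e') (h : S ⊆ T) :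
    c ∈ Ic v T e' :=
  (show Ic v S e' ≤ Ic v T e' from
    Ideal.span_mono (Set.image_mono fun _ he => ⟨h he.1, he.2⟩)) hc

theorem mem_Ic {S : Set (Mon r)} {e : Mon r} (he : e ∈ S) {c : V} (h : v ^ e none ∣ c) :
    c ∈ Ic v S e.some :=
  Ideal.mem_of_dvd _ h (Ideal.subset_span ⟨e, ⟨he, rfl⟩, rfl⟩)

theorem dvd_of_not {S : Set (Mon r)} (hS : Up S) {e : Mon r} (he : e ∉ S) {c : V}
    (h : c ∈ Ic v S e.some) : v ^ (e none + 1) ∣ c := by
  refine Ideal.mem_span_singleton.1 (Ideal.span_le.2 ?_ h)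
  rintro _ ⟨e1, ⟨h1, h2⟩, rfl⟩
  refine Ideal.mem_span_singleton.2 (pow_dvd_pow _ ?_)
  by_contra c
  have key : ∀ m : ℕ, e1 + Finsupp.single none m ∈ S := fun m => by
    induction m with
    | zero => simpa using h1
    | succ m ih => simpa [Finsupp.single_add, add_assoc] using hS _ ih
  have e2 : e1 + Finsupp.single none (e none - e1 none) = e := by
    ext (_ | a)
    · simp; omega
    · simpa using DFunLike.congr_fun h2 a
  exact he (e2 ▸ key _)

/-- all coefficients are divisible by `v ^ m` -/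
def Dv (v : V) (r m : ℕ) : Ideal (LL V r) where
  carrier := {f | ∀ e', v ^ m ∣ coeff e' f}
  add_mem' hf hg e := by rw [map_add]; exact dvd_add (hf e) (hg e)
  zero_mem' e := by simp
  smul_mem' c f hf e := by
    classical
    rw [smul_eq_mul, coeff_mul]
    exact dvd_sum fun p _ => (hf _).mul_left _

variable {ι : Type} [Fintype ι] [DecidableEq ι] {deg : ι → ℕ} {D : Matrix ι ι (LL V r)}

omit [Fintype ι] [DecidableEq ι] in
theorem mem_XX {Ω : ℕ → FJ r → Set (Mon r)} {n : ℤ} {x : ι × FJ r → LL V r} :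
    x ∈ XX v deg Ω n ↔ ∀ i J e', coeff e' (x (i, J)) ∈
      Ic v {e | (deg i : ℤ) + r - J.card = n ∧ e ∈ Ω (deg i) J} e' :=
  ⟨fun h i J => mem_Pv.1 (h (i, J) trivial), fun h p _ => mem_Pv.2 (h p.1 p.2)⟩

omit [Fintype ι] [DecidableEq ι] in
theorem XX_mono {Ω Ω' : ℕ → FJ r → Set (Mon r)} (h : ∀ p J, Ω p J ⊆ Ω' p J) (n : ℤ) :
    XX v deg Ω n ≤ XX v deg Ω' n := fun _ hx =>
  mem_XX.2 fun i J e => Ic_mono (mem_XX.1 hx i J e) fun _ he => ⟨he.1, h _ _ he.2⟩

omit [Fintype ι] [DecidableEq ι] in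
theorem XX_dvd {Ω : ℕ → FJ r → Set (Mon r)} (hΩ : ∀ p J, Up (Ω p J)) {n : ℤ}
    {x : ι × FJ r → LL V r} (hx : x ∈ XX v deg Ω n) (i : ι) (J : FJ r) (e : Mon r)
    (h : ¬v ^ (e none + 1) ∣ coeff e.some (x (i, J))) :
    (deg i : ℤ) + r - J.card = n ∧ e ∈ Ω (deg i) J := by
  by_contra c
  exact h (dvd_of_not (S := {e | (deg i : ℤ) + r - J.card = n ∧ e ∈ Ω (deg i) J})
    (fun e he => ⟨he.1, hΩ _ _ e he.2⟩) c (mem_XX.1 hx i J _))

theorem DD_apply (x : ι × FJ r → LL V r) (i : ι) (J : FJ r) :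
    DD D x (i, J) = (-1) ^ J.card * ∑ j, D i j * x (j, J) +
      ∑ b, ∑ J', (ct b J' J : LL V r) * x (i, J') := by
  rw [sum_comm (s := univ) (t := univ) (f := fun b J' => (ct b J' J : LL V r) * x (i, J'))]
  simp [DD, LM, mulVec, dotProduct, Fintype.sum_prod_type, sg, cb, diagonal_apply, one_apply,
    mul_sum, mul_assoc, mul_left_comm, Matrix.sum_apply, sum_mul, add_mul]

theorem DD_sq (h : D * D = 0) : DD D * DD D = 0 := by
  have h1 : sg V r * cb V r + cb V r * sg V r = 0 := by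
    ext1 J J'
    rw [Matrix.add_apply, sg, diagonal_mul, mul_diagonal, cb, Matrix.sum_apply, mul_sum, sum_mul,
      ← sum_add_distrib]
    refine sum_eq_zero fun b _ => ?_
    by_cases h : ct b J' J = 0
    · simp [h]
    · rw [ct_card h, pow_succ]; ring
  have h2 : cb V r * cb V r = 0 := by
    unfold cb
    rw [sum_mul_sum]
    exact sum_anti _ (fun j => ep_sq _ j) fun j l => ep_anti _ j l
  have h3 : (D ⊗ₖ sg V r + (1 : Matrix ι ι (LL V r)) ⊗ₖ cb V r) *
      (D ⊗ₖ sg V r + (1 : Matrix ι ι (LL V r)) ⊗ₖ cb V r) = 0 := by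
    simp only [Matrix.add_mul, Matrix.mul_add, ← mul_kronecker_mul, h, h2, Matrix.one_mul,
      Matrix.mul_one, zero_kronecker, kronecker_zero, zero_add, add_zero]
    rw [add_comm, ← kronecker_add, h1, kronecker_zero]
  refine LinearMap.ext fun x => ?_
  have h4 : ∀ x, DD D x = (D ⊗ₖ sg V r + (1 : Matrix ι ι (LL V r)) ⊗ₖ cb V r) *ᵥ x := fun x => by
    simp [DD, LM, add_mulVec]
  rw [Module.End.mul_apply, h4, h4, mulVec_mulVec, h3, zero_mulVec, LinearMap.zero_apply]

omit [DecidableEq ι] in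
theorem sg_dvd (hD : Gr deg deg (-1) D) {x : ι × FJ r → LL V r} {i : ι} {J : FJ r} {m : ℕ}
    (h : ∀ j, deg j = deg i + 1 → x (j, J) ∈ Dv v r m) :
    (-1) ^ J.card * ∑ j, D i j * x (j, J) ∈ Dv v r m := by
  refine Ideal.mul_mem_left _ _ (sum_mem fun j _ => ?_)
  by_cases c : D i j = 0
  · simp [c]
  · exact Ideal.mul_mem_left _ _ (h j (by have := hD _ _ c; omega))

/-- the level in degree `p` -/
def lam (j q p : ℕ) : ℕ := if p < q then j else j + 1

/-- cochains of level at least `lam j q` -/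
noncomputable def TT (v : V) (deg : ι → ℕ) (j q : ℕ) : Submodule V (ι × FJ r → LL V r) :=
  Submodule.pi Set.univ fun p => (Dv v r (lam j q (deg p.1))).restrictScalars V

omit [Fintype ι] [DecidableEq ι] in
theorem mem_TT {j q : ℕ} {x : ι × FJ r → LL V r} :
    x ∈ TT v deg j q ↔ ∀ i J e', v ^ lam j q (deg i) ∣ coeff e' (x (i, J)) :=
  ⟨fun h i J => h (i, J) trivial, fun h p _ => h p.1 p.2⟩

theorem TT_cx (hD : Gr deg deg (-1) D) {j q : ℕ} {x : ι × FJ r → LL V r}
    (hx : x ∈ TT v deg j q) : DD D x ∈ TT v deg j q := by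
  rintro ⟨i, J⟩ -
  rw [DD_apply]
  refine add_mem (sg_dvd hD fun l hl e => (pow_dvd_pow _ ?_).trans (mem_TT.1 hx l J e))
    (sum_mem fun b _ => sum_mem fun J' _ => Ideal.mul_mem_left _ _ (mem_TT.1 hx i J'))
  rw [hl]
  simp only [lam]
  split_ifs <;> omega

/-- the filtration -/
noncomputable def FF (v : V) (deg : ι → ℕ) (B S : ℕ → FJ r → Set (Mon r)) (j q : ℕ) (n : ℤ) :
    Submodule V (ι × FJ r → LL V r) := XX v deg S n ⊔ XX v deg B n ⊓ TT v deg j q

theorem FF_cx (hD : Gr deg deg (-1) D) {B S : ℕ → FJ r → Set (Mon r)}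
    (hB : CxD (DD D) (XX v deg B)) (hS : CxD (DD D) (XX v deg S)) (j q : ℕ) :
    CxD (DD D) (FF v deg B S j q) := by
  intro n x hx
  obtain ⟨s, hs, b, hb, rfl⟩ := Submodule.mem_sup.1 hx
  rw [map_add]
  exact Submodule.add_mem_sup (hS n s hs) ⟨hB n b hb.1, TT_cx hD hb.2⟩

omit [Fintype ι] [DecidableEq ι] in
theorem FF_succ {B S : ℕ → FJ r → Set (Mon r)} (j q : ℕ) :
    FF v deg B S j q ≤ FF v deg B S j (q + 1) := fun _ =>
  sup_le_sup_left (inf_le_inf_left _ fun x hx => mem_TT.2 fun i J e =>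
    (pow_dvd_pow _ (by unfold lam; split_ifs <;> omega)).trans (mem_TT.1 hx i J e)) _

end pv

section step
variable {V : Type u} [CommRing V] [IsLocalRing V] {r n0 : ℕ} {v : V} {ι : Type} [Fintype ι]
  [DecidableEq ι] {deg : ι → ℕ} {D : Matrix ι ι (LL V r)} {B : ℕ → FJ r → Set (Mon r)}
  {N0 : ℕ} {ν : Fin r → ℤ} {Ω Ω' : ℕ → Set (Mon r)}

open Cbm

theorem res_iff (hv : Ch v n0) {j : ℕ} (hj : j < n0) (c : V) :
    residue V c = 0 ↔ v ^ (j + 1) ∣ v ^ j * c := by
  rw [residue_eq_zero_iff, hv.max, Ideal.mem_span_singleton, pow_succ]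
  refine ⟨mul_dvd_mul_left _, fun ⟨a, ha⟩ => ?_⟩
  have h1 := hv.ann j (c - v * a) (by rw [mul_sub, ha]; ring)
  have h2 := (dvd_pow_self v (by omega : n0 - j ≠ 0)).trans h1
  simpa using dvd_add h2 (dvd_mul_right v a)

theorem up_cond (J : FJ r) : Up (cond N0 ν J) := fun e he a => by
  obtain ⟨h1, h2, h3⟩ := he a
  refine ⟨h1, fun c => by simpa using h2 c, fun c => ?_⟩
  have := h3 c
  simp only [Finsupp.add_apply, Finsupp.single_eq_same, ne_eq, reduceCtorEq, not_false_eq_true,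
    Finsupp.single_eq_of_ne]
  push_cast
  omega

theorem step (hv : Ch v n0) (hD : Gr deg deg (-1) D) (uB : ∀ p J, Up (B p J))
    (uΩ : ∀ p, Up (Ω' p)) (hB1 : ∀ p J, B p J ⊆ Ω p ∩ cond N0 ν J)
    (hB2 : ∀ p J e, e ∈ Ω p → e ∉ Ω' p → e ∈ cond N0 ν J →
      ((∀ a, N0 ≤ e (some a) ↔ (e (some a) : ℤ) ≤ ν a + e none) → ∃ a, (a, false) ∈ J) →
        e ∈ B p J)
    (hB : CxD (DD D) (XX v deg B)) (hS : CxD (DD D) (XS v N0 ν deg Ω')) {j : ℕ} (hj : j < n0)
    (q : ℕ) (n : ℤ) :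
    hh (DD D) 1 0 (FF v deg B (fun p J => Ω' p ∩ cond N0 ν J) j (q + 1))
      (FF v deg B (fun p J => Ω' p ∩ cond N0 ν J) j q) n ≤
      ∑ i, {e | (deg i = q ∧ e none = j) ∧ e ∈ cnt N0 ν Ω Ω' B n (deg i)}.encard := by
  classical
  set S : ℕ → FJ r → Set (Mon r) := fun p J => Ω' p ∩ cond N0 ν J with hSd
  have uS : ∀ p J, Up (S p J) := fun p J e he => ⟨uΩ p e he.1, up_cond J e he.2⟩
  let T : ι → Set (Mon r) := fun i => {e | (deg i = q ∧ e none = j) ∧ e ∈ cnt N0 ν Ω Ω' B n (deg i)}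
  let f : (ι × FJ r → LL V r) →ₗ[V] (∀ i, T i → V) :=
    LinearMap.pi fun i => LinearMap.pi fun e =>
      (coeff e.1.some : LL V r →ₗ[V] V) ∘ₗ LinearMap.proj (i, J0 fun a => N0 ≤ e.1 (some a))
  let Q : ℕ → Submodule V (∀ i, T i → V) := fun m =>
    Submodule.pi Set.univ fun i => Submodule.pi Set.univ fun e => Ideal.span {v ^ m}
  have mQ : ∀ m y, y ∈ Q m ↔ ∀ i e, v ^ m ∣ y i e := fun m y =>
    ⟨fun h i e => Ideal.mem_span_singleton.1 (h i trivial e trivial),
      fun h i _ e _ => Ideal.mem_span_singleton.2 (h i e)⟩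
  have l1 : ∀ i, deg i = q → lam j (q + 1) (deg i) = j := fun i hi => by simp [lam, hi]
  have l2 : ∀ i, deg i = q → lam j q (deg i) = j + 1 := fun i hi => by simp [lam, hi]
  have sd : ∀ m, ∀ s ∈ XX v deg S m, ∀ i J (e : Mon r), e none = j → e ∉ Ω' (deg i) →
      v ^ (j + 1) ∣ coeff e.some (s (i, J)) := fun m s hs i J e h1 h2 => by
    by_contra c
    exact h2 (XX_dvd uS hs i J e (h1 ▸ c)).2.1
  rw [hh0]
  refine (rl_le_of_comap f (P' := Q (j + 1)) (Q' := Q j) ?_ ?_).trans ?_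
  · rintro z ⟨hz, hz'⟩ hf
    obtain ⟨s, hs, b, ⟨hb, hb'⟩, rfl⟩ := Submodule.mem_sup.1 hz
    have hc : ∀ i J e', ∃ c, deg i = q → coeff e' (b (i, J)) = v ^ j * c := fun i J e' => by
      by_cases hi : deg i = q
      · obtain ⟨c, hc⟩ := mem_TT.1 hb' i J e'
        exact ⟨c, fun _ => l1 i hi ▸ hc⟩
      · exact ⟨0, fun h => absurd h hi⟩
    choose c hc using hc
    have cbd : ∀ x ∈ TT v deg j (q + 1), ∀ i, deg i = q → ∀ e' (c : FJ r → V),
        (∀ J, coeff e' (x (i, J)) = v ^ j * c J) → ∀ J, ∃ c', coeff e' (DD D x (i, J)) = v ^ j * c' ∧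
          residue V c' = (pd (ResidueField V) r *ᵥ fun J => residue V (c J)) J := by
      intro x hx i hi e' c hc J
      obtain ⟨a, ha⟩ := sg_dvd (v := v) (m := j + 1) (x := x) (i := i) (J := J) hD
        (fun l hl e => by simpa [lam, hl, hi] using mem_TT.1 hx l J e) e'
      refine ⟨v * a + ∑ b, ∑ J', (ct b J' J : V) * c J', ?_, ?_⟩
      · rw [DD_apply, map_add, ha, mul_add, pow_succ, mul_assoc, map_sum, mul_sum]
        congr 1
        refine sum_congr rfl fun b _ => ?_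
        rw [map_sum, mul_sum]
        refine sum_congr rfl fun J' _ => ?_
        rw [← zsmul_eq_mul, map_zsmul, zsmul_eq_mul, hc]; ring
      · rw [map_add, (residue_eq_zero_iff _).2 (by
          rw [hv.max]; exact Ideal.mem_span_singleton.2 (dvd_mul_right _ _)), zero_add, pd_apply]
        simp
    have nz : ∀ i J (e : Mon r), deg i = q → e none = j → residue V (c i J e.some) ≠ 0 →
        (deg i : ℤ) + r - J.card = n ∧ e ∈ B (deg i) J := fun i J e hi he h =>
      XX_dvd uB hb i J e (by rwa [he, hc i J _ hi, ← res_iff hv hj])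
    have key : ∀ i (e : Mon r), deg i = q → e none = j → e ∈ Ω q → e ∉ Ω' q →
        ∃ y : FJ r → ResidueField V,
        (pd (ResidueField V) r *ᵥ y = fun J => residue V (c i J e.some)) ∧ ∀ J, y J ≠ 0 →
          (deg i : ℤ) + r - J.card = n + 1 ∧ e ∈ B q J := by
      intro i e hi he h1 h2
      by_cases hn : (q : ℤ) + r - n < 0
      · refine ⟨0, ?_, fun J hJ => absurd rfl hJ⟩
        rw [mulVec_zero]
        ext J
        by_contra c
        have := (nz i J e hi he (Ne.symm c)).1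
        omega
      refine Exists.imp (fun v hv => ⟨hv.1, fun J hJ => ?_⟩) (one (U := fun a => N0 ≤ e (some a))
        (W := fun a => (e (some a) : ℤ) ≤ ν a + e none) ((q : ℤ) + r - n).toNat
        (fun J => residue V (c i J e.some)) ?_ ?_ ?_)
      · obtain ⟨a1, a2, a3⟩ := hv.2 J hJ
        exact ⟨by omega, hB2 q J e h1 h2 a1 a3⟩
      · ext1 J
        obtain ⟨c', h3, h4⟩ := cbd b hb' i hi e.some _ (fun J => hc i J _ hi) J
        rw [← h4, Pi.zero_apply, res_iff hv hj, ← h3]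
        obtain ⟨s', hs', b', hb'', e1⟩ := Submodule.mem_sup.1 hz'
        have e2 : DD D b = s' + b' - DD D s := by rw [e1, map_add]; abel
        rw [e2, Pi.sub_apply, Pi.add_apply, map_sub, map_add]
        exact dvd_sub (dvd_add (sd _ _ hs' i J e he (hi ▸ h2))
          (l2 i hi ▸ mem_TT.1 hb''.2 i J _)) (sd _ _ (hS n s hs) i J e he (hi ▸ h2))
      · intro J hJ
        obtain ⟨a1, a2⟩ := nz i J e hi he hJ
        exact ⟨(hB1 _ _ a2).2, by omega⟩
      · intro a1 a2
        by_contra c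
        have h3 := (mQ _ _).1 hf i ⟨e, ⟨hi, he⟩, hi ▸ h1, hi ▸ h2, ⟨a1, by
          simp only [not_le] at a2
          omega⟩, (nz i _ e hi he c).2⟩
        refine c ((res_iff hv hj _).2 ?_)
        rw [← hc i _ _ hi]
        exact (dvd_add_right (sd _ _ hs i _ e he (hi ▸ h2))).1 (by rw [← map_add]; exact h3)
    choose! y hy sy using key
    obtain ⟨σ, σ0, hσ⟩ : ∃ σ : ResidueField V → V, σ 0 = 0 ∧ ∀ t, residue V (σ t) = t := by
      choose σ hσ using residue_surjective (R := V)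
      refine ⟨fun t => if t = 0 then 0 else σ t, if_pos rfl, fun t => ?_⟩
      simp only
      split_ifs with h
      · rw [h, map_zero]
      · exact hσ t
    let P : ι → Mon r → Prop := fun i e => deg i = q ∧ e ∈ Ω q ∧ e ∉ Ω' q
    let w : ι × FJ r → LL V r := fun p e' =>
      v ^ j * if P p.1 (e'.optionElim j) then σ (y p.1 (e'.optionElim j) p.2) else 0
    have hwc : ∀ i J (e : Mon r), e none = j → coeff e.some (w (i, J)) =
        v ^ j * if P i e then σ (y i e J) else 0 := fun i J e he => by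
      subst he
      show v ^ _ * (if P i (e.some.optionElim (e none)) then
        σ (y i (e.some.optionElim (e none)) J) else 0) = _
      rw [Finsupp.optionElim_some]
    have oe : ∀ e' : Fin r →₀ ℕ, ∃ e : Mon r, e none = j ∧ e.some = e' := fun e' =>
      ⟨e'.optionElim j, Finsupp.optionElim_apply_none _ _, Finsupp.some_optionElim _ _⟩
    have hw : w ∈ XX v deg B (n + 1) := by
      refine mem_XX.2 fun i J e' => ?_
      obtain ⟨e, he, rfl⟩ := oe e'
      rw [hwc i J e he]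
      split_ifs with c
      · by_cases c' : y i e J = 0
        · simp [c', σ0]
        · obtain ⟨a1, a2⟩ := sy i e c.1 he c.2.1 c.2.2 J c'
          refine mem_Ic ?_ (he ▸ dvd_mul_right _ _)
          exact ⟨a1, c.1 ▸ a2⟩
      · simp
    have hw' : w ∈ TT v deg j (q + 1) := by
      refine mem_TT.2 fun i J e' => ?_
      obtain ⟨e, he, rfl⟩ := oe e'
      rw [hwc i J e he]
      split_ifs with c
      · rw [l1 i c.1]; exact dvd_mul_right _ _
      · simp
    have h3 : b - DD D w ∈ XX v deg B n := sub_mem hb (by simpa using hB _ w hw)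
    have h4 : b - DD D w ∈ TT v deg j (q + 1) := sub_mem hb' (TT_cx hD hw')
    refine Submodule.mem_sup.2 ⟨s + (b - DD D w), add_mem (Submodule.mem_sup_left hs) ?_, _,
      ⟨w, Submodule.mem_sup_right ⟨hw, hw'⟩, rfl⟩, by abel⟩
    have h5 : ∀ i J (e : Mon r), P i e → e none = j →
        v ^ (j + 1) ∣ coeff e.some ((b - DD D w) (i, J)) := fun i J e hP he => by
      obtain ⟨c', a1, a2⟩ := cbd w hw' i hP.1 e.some _ (fun J => hwc i J e he) J
      rw [Pi.sub_apply, map_sub, a1, hc i J _ hP.1, ← mul_sub, ← res_iff hv hj, map_sub, a2]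
      simp only [if_pos hP, hσ]
      rw [hy i e hP.1 he hP.2.1 hP.2.2, sub_self]
    generalize b - DD D w = x at h3 h4 h5
    let R : ι × FJ r → (Fin r →₀ ℕ) → Prop := fun p e' =>
      v ^ lam j q (deg p.1) ∣ coeff e' (x p)
    let x1 : ι × FJ r → LL V r := fun p e' => if R p e' then 0 else coeff e' (x p)
    let x2 : ι × FJ r → LL V r := fun p e' => if R p e' then coeff e' (x p) else 0
    have c1 : ∀ p e', coeff e' (x1 p) = if R p e' then 0 else coeff e' (x p) := fun _ _ => rfl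
    have c2 : ∀ p e', coeff e' (x2 p) = if R p e' then coeff e' (x p) else 0 := fun _ _ => rfl
    refine Submodule.mem_sup.2 ⟨x1, mem_XX.2 fun i J e' => ?_, x2,
      ⟨mem_XX.2 fun i J e' => ?_, mem_TT.2 fun i J e' => ?_⟩, ?_⟩
    · rw [c1]
      split_ifs with c
      · exact zero_mem _
      obtain ⟨e, he, rfl⟩ := oe e'
      have h6 := mem_TT.1 h4 i J e.some
      have hi : deg i = q := by
        by_contra hi
        exact c (by rwa [show lam j (q + 1) (deg i) = lam j q (deg i) by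
          unfold lam; split_ifs <;> omega] at h6)
      have c' : ¬v ^ (j + 1) ∣ coeff e.some (x (i, J)) := l2 i hi ▸ c
      obtain ⟨a1, a2⟩ := XX_dvd uB h3 i J e (he ▸ c')
      refine mem_Ic ?_ (by rwa [he, ← l1 i hi])
      refine ⟨a1, ?_, (hB1 _ _ a2).2⟩
      by_contra c''
      exact c' (h5 i J e ⟨hi, hi ▸ (hB1 _ _ a2).1, hi ▸ c''⟩ he)
    · rw [c2]
      split_ifs
      exacts [mem_XX.1 h3 i J e', zero_mem _]
    · rw [c2]
      split_ifs with c
      exacts [c, dvd_zero _]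
    · ext p e'
      rw [Pi.add_apply, map_add, c1, c2]
      split_ifs <;> simp
  · rintro z ⟨hz, -⟩
    obtain ⟨s, hs, b, ⟨-, hb'⟩, rfl⟩ := Submodule.mem_sup.1 hz
    rw [map_add]
    exact Submodule.add_mem_sup ((mQ _ _).2 fun i e => sd _ _ hs i _ e.1 e.2.1.2 e.2.2.2.1)
      ((mQ _ _).2 fun i e => l1 i e.2.1.1 ▸ mem_TT.1 hb' i _ _)
  · refine (rl_le_of_map (v ^ j • LinearMap.id) (P := Q 1) (Q := ⊤) (fun x hx => ?_) ?_).trans ?_
    · refine (mQ _ _).2 fun i e => ?_
      rw [pow_add]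
      exact mul_dvd_mul_left _ ((mQ _ _).1 hx i e)
    · refine le_sup_of_le_right fun x hx => ?_
      choose t ht using (mQ _ _).1 hx
      exact ⟨t, trivial, by ext i e; exact (ht i e).symm⟩
    let g : (∀ i, T i → V) →ₗ[V] (∀ i, T i → V ⧸ maximalIdeal V) :=
      LinearMap.pi fun i => LinearMap.pi fun e =>
        (maximalIdeal V).mkQ ∘ₗ LinearMap.proj e ∘ₗ LinearMap.proj i
    refine (rl_le_of_comap g (P' := ⊥) (Q' := ⊤) (fun x _ hx => (mQ _ _).2 fun i e => ?_)
      fun _ _ => Submodule.mem_sup_right trivial).trans ?_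
    · have h1 : x i e ∈ maximalIdeal V := (Submodule.Quotient.mk_eq_zero _).1
        (congrFun (congrFun ((Submodule.mem_bot V).1 hx) i) e)
      rw [hv.max, Ideal.mem_span_singleton] at h1
      rwa [pow_one]
    have : IsSimpleModule V (V ⧸ maximalIdeal V) :=
      isSimpleModule_iff_isCoatom.2 (Ideal.isMaximal_def.1 inferInstance)
    rw [rl_top, (Submodule.quotEquivOfEqBot _ rfl).length_eq, Module.length_pi_of_fintype]
    refine sum_le_sum fun i _ => ?_
    rw [Module.length_pi, Module.length_eq_one, mul_one, ENat.card_coe_set_eq]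

theorem total (hL : LatStmt.{u}) (hv : Ch v n0) (hD : Gr deg deg (-1) D) (hDD : D * D = 0)
    (g : Module.End V (ι × FJ r → LL V r)) (uB : ∀ p J, Up (B p J)) (uΩ : ∀ p, Up (Ω' p))
    (hB1 : ∀ p J, B p J ⊆ Ω p ∩ cond N0 ν J) (hSB : ∀ p J, Ω' p ∩ cond N0 ν J ⊆ B p J)
    (hB2 : ∀ p J e, e ∈ Ω p → e ∉ Ω' p → e ∈ cond N0 ν J →
      ((∀ a, N0 ≤ e (some a) ↔ (e (some a) : ℤ) ≤ ν a + e none) → ∃ a, (a, false) ∈ J) →
        e ∈ B p J)
    (hB : CxD (DD D) (XX v deg B)) (hS : CxD (DD D) (XS v N0 ν deg Ω')) (n : ℤ) :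
    hh (DD D) g 0 (XX v deg B) (XS v N0 ν deg Ω') n ≤
      ∑ i, (cnt N0 ν Ω Ω' B n (deg i)).encard := by
  set S : ℕ → FJ r → Set (Mon r) := fun p J => Ω' p ∩ cond N0 ν J with hSd
  have hl := hL V _ (DD D) 1 (DD_sq hDD) (Commute.one_right _)
  have h2 : ∀ j i, lam j (univ.sup deg + 1) (deg i) = j := fun j i =>
    if_pos (Nat.lt_succ_of_le (le_sup (mem_univ i)))
  have h3 : ∀ j i, lam j 0 (deg i) = j + 1 := fun j i => if_neg (Nat.not_lt_zero _)
  let cn : (ι → ℕ) → ℕ∞ := fun l =>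
    ∑ i, {e | l i ≤ e none ∧ e ∈ cnt N0 ν Ω Ω' B n (deg i)}.encard
  have inner : ∀ j, j < n0 → hh (DD D) 1 0 (FF v deg B S j 0) (XX v deg S) n ≤
      cn (fun i => lam j 0 (deg i)) → ∀ q, hh (DD D) 1 0 (FF v deg B S j q) (XX v deg S) n ≤
      cn (fun i => lam j q (deg i)) := by
    intro j hj h0 q
    induction q with
    | zero => exact h0
    | succ q ih =>
      refine (hl.sub _ (FF v deg B S j q) _ (FF_cx hD hB hS _ _) (FF_cx hD hB hS _ _) hS
        (fun _ => le_sup_left) (FF_succ j q) n).trans ?_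
      refine (add_le_add ih (step hv hD uB uΩ hB1 hB2 hB hS hj q n)).trans ?_
      rw [← sum_add_distrib]
      refine sum_le_sum fun i _ => ?_
      rw [← Set.encard_union_eq (Set.disjoint_left.2 fun e a b => by
        have a1 := a.1
        have b1 := b.1
        simp only [lam, b1.1, lt_irrefl, if_false] at a1
        omega)]
      refine Set.encard_le_encard fun e he => he.elim (fun a => ⟨le_trans ?_ a.1, a.2⟩)
        fun a => ⟨by simp [lam, a.1.1, a.1.2], a.2⟩
      simp only [lam]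
      split_ifs <;> omega
  have outer : ∀ j, j ≤ n0 → hh (DD D) 1 0 (FF v deg B S j (univ.sup deg + 1)) (XX v deg S) n ≤
      cn fun _ => j := by
    intro j hj
    induction hj using Nat.decreasingInduction with
    | self =>
      rw [hh0]
      refine (rl_eq_zero.2 (inf_le_left.trans (le_sup_of_le_left (sup_le le_rfl ?_)))).le.trans
        zero_le
      rintro x ⟨-, hx⟩
      have : x = 0 := by
        ext ⟨i, J⟩ e
        simpa [h2, hv.nil] using mem_TT.1 hx i J e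
      rw [this]
      exact zero_mem _
    | of_succ j hj ih =>
      have e : FF v deg B S j 0 = FF v deg B S (j + 1) (univ.sup deg + 1) := by
        funext m
        simp only [FF, TT, h2, h3]
      simpa only [h2] using inner j hj (by simpa only [e, h3] using ih) (univ.sup deg + 1)
  have h1 := outer 0 n0.zero_le
  have e : FF v deg B S 0 (univ.sup deg + 1) = XX v deg B := by
    funext m
    refine le_antisymm (sup_le (XX_mono hSB m) inf_le_left)
      (le_sup_of_le_right (le_inf le_rfl fun x _ => mem_TT.2 fun i J e => by simp [h2]))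
  simp only [e, hh0, cn, zero_le, true_and, Set.ofPred_mem_eq] at h1
  rw [hh0]
  exact h1

omit [IsLocalRing V] in
theorem flat_cx (h1 : CxD (DD D) (XS v N0 ν deg Ω))
    (h2 : CxD (DD D) (XS v N0 ν deg Ω')) (hΩ : ∀ p, Ω' p ⊆ Ω p) : CxD (DD D)
      (XX v deg fun p J => (Ω' p ∪ {e | e ∈ Ω p ∧ ∃ a, (a, false) ∈ J}) ∩ cond N0 ν J) := by
  classical
  intro n x hx
  let x1 : ι × FJ r → LL V r := fun p => if ∃ a, (a, false) ∈ p.2 then x p else 0
  let x2 : ι × FJ r → LL V r := fun p => if ∃ a, (a, false) ∈ p.2 then 0 else x p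
  have e : x = x1 + x2 := by
    ext1 p
    simp only [x1, x2, Pi.add_apply]
    split_ifs <;> simp
  have a1 : x1 ∈ XS v N0 ν deg Ω n := mem_XX.2 fun i J e => by
    simp only [x1]
    split_ifs with c
    · exact Ic_mono (mem_XX.1 hx i J e)
        fun e he => ⟨he.1, he.2.1.elim (@hΩ _ e) fun c => c.1, he.2.2⟩
    · simp
  have a2 : x2 ∈ XS v N0 ν deg Ω' n := mem_XX.2 fun i J e => by
    simp only [x2]
    split_ifs with c
    · simp
    · exact Ic_mono (mem_XX.1 hx i J e)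
        fun e he => ⟨he.1, he.2.1.resolve_right fun d => c d.2, he.2.2⟩
  rw [e, map_add]
  refine add_mem ?_ (XX_mono (fun p J e he => Set.mem_inter (Or.inl he.1) he.2) _ (h2 n _ a2))
  refine mem_XX.2 fun i J e => ?_
  by_cases c : ∃ a, (a, false) ∈ J
  · exact Ic_mono (mem_XX.1 (h1 n _ a1) i J e) fun e he => ⟨he.1, Or.inr ⟨he.2.1, c⟩, he.2.2⟩
  have d1 : ∀ j, x1 (j, J) = 0 := fun j => if_neg c
  have d2 : ∀ b J', (ct b J' J : LL V r) * x1 (i, J') = 0 := fun b J' => by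
    by_cases h : ct b J' J = 0
    · simp [h]
    · have : x1 (i, J') = 0 := if_neg fun ⟨a, ha⟩ =>
        c ⟨a, by rw [(ct_ne' h).2]; exact mem_insert_of_mem ha⟩
      rw [this, mul_zero]
  simp [DD_apply, d1, d2]

end step

end Cbx

open Cbx Cbm

theorem cbStmt (hL : LatStmt.{u}) : CbStmt.{u} := by
  intro V _ _ v n0 r hv ι _ _ deg D g N0 ν Ω Ω' hD hDD hΩ u1 u2 h1 h2
  refine ⟨fun n => ?_, fun ht n => ?_⟩
  · refine (Cbx.total (Ω := Ω) (B := fun p J => Ω p ∩ cond N0 ν J) hL hv hD hDD g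
      (fun p J e he => ⟨u1 p e he.1, up_cond J e he.2⟩) u2 (fun p J => le_rfl) (fun p J => Set.inter_subset_inter_left _ (hΩ p))
      (fun p J e a _ c _ => ⟨a, c⟩) h1 h2 n).trans
      (sum_le_sum fun i _ => Set.encard_le_encard fun e he => ⟨he.1, he.2.1, he.2.2.1⟩)
  · refine le_antisymm ((Cbx.total (Ω := Ω) hL hv hD hDD g ?_ u2 ?_ ?_ ?_ ?_ h2 n).trans ?_) zero_le
    · exact fun p J e he => ⟨he.1.imp (u2 p e) fun c => And.intro (u1 p e c.1) c.2, up_cond J e he.2⟩
    · exact fun p J e he => ⟨he.1.elim (@hΩ p e) fun c => c.1, he.2⟩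
    · exact fun p J e he => ⟨Or.inl he.1, he.2⟩
    · exact fun p J e a b c d => ⟨Or.inr ⟨a, d (ht p e a b).1⟩, c⟩
    · exact Cbx.flat_cx h1 h2 hΩ
    · refine (sum_eq_zero fun i _ => Set.encard_eq_zero.2 ?_).le
      refine Set.eq_empty_of_forall_notMem fun e he => ?_
      obtain ⟨a1, a2, -, a4, -⟩ := he
      obtain ⟨a, ha⟩ := (a4.resolve_left a2).2
      have h3 := (ht _ e a1 a2).2
      have h4 : ({a | e (some a) < N0} : Finset (Fin r)) = ∅ := by
        rw [← card_eq_zero]; exact_mod_cast h3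
      have h5 : a ∈ ({a | e (some a) < N0} : Finset (Fin r)) := by simpa [J0] using ha
      simp [h4] at h5

end Vale.Agent.P202.Mx
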