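import Vale.Agent.P202.M.SpecI

/-! Existence of Cohen rings: a maximal `p`-saturated subring of a valuation ring of an
algebraically closed field, then the completion. -/

open IsLocalRing Polynomial

namespace Vale.Agent.P202.Mx

universe u

namespace CH

section zorn
variable {O L : Type u} [CommRing O] [Field L] (p : ℕ) (ρ : O →+* L) (κ : Subfield L)

/-- subrings with residues in `κ` that meet the kernel in the multiples of `p` -/
def Adm (A : Subring O) : Prop :=
  (∀ x ∈ A, ρ x ∈ κ) ∧ ∀ x ∈ A, ρ x = 0 → ∃ y ∈ A, x = p * y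

variable {p ρ κ}

lemma exists_max [CharP L p] : ∃ A : Subring O, Maximal (Adm p ρ κ) A := by
  have h0 : Adm p ρ κ ⊥ := by
    refine ⟨fun x hx => ?_, fun x hx h => ?_⟩
    · obtain ⟨n, rfl⟩ := Subring.mem_bot.1 hx
      rw [map_intCast]; exact intCast_mem κ n
    · obtain ⟨n, rfl⟩ := Subring.mem_bot.1 hx
      rw [map_intCast, CharP.intCast_eq_zero_iff L p] at h
      obtain ⟨m, rfl⟩ := h
      exact ⟨m, intCast_mem _ m, by push_cast; rfl⟩
  obtain ⟨A, -, hA⟩ := zorn_le_nonempty₀ {A | Adm p ρ κ A} (fun c hc hch y hy => by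
    have hd := hch.directedOn
    refine ⟨sSup c, ⟨fun x hx => ?_, fun x hx h => ?_⟩, fun z hz => le_sSup hz⟩
    · obtain ⟨B, hB, hx⟩ := (Subring.mem_sSup_of_directedOn ⟨y, hy⟩ hd).1 hx
      exact (hc hB).1 x hx
    · obtain ⟨B, hB, hx⟩ := (Subring.mem_sSup_of_directedOn ⟨y, hy⟩ hd).1 hx
      obtain ⟨w, hw, e⟩ := (hc hB).2 x hx h
      exact ⟨w, (le_sSup hB : B ≤ sSup c) hw, e⟩) ⊥ h0
  exact ⟨A, hA⟩

lemma inv_mem (hu : ∀ x, ρ x ≠ 0 → IsUnit x) {A : Subring O} (hA : Maximal (Adm p ρ κ) A)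
    {b : O} (hb : b ∈ A) (h : ρ b ≠ 0) : ∃ c ∈ A, b * c = 1 := by
  let A' : Subring O :=
    { carrier := {x | ∃ y ∈ A, ρ y ≠ 0 ∧ y * x ∈ A}
      mul_mem' := by
        rintro x x' ⟨y, hy, h1, h2⟩ ⟨y', hy', h1', h2'⟩
        exact ⟨y * y', A.mul_mem hy hy', by rw [map_mul]; exact mul_ne_zero h1 h1',
          by rw [mul_mul_mul_comm]; exact A.mul_mem h2 h2'⟩
      one_mem' := ⟨1, A.one_mem, by simp, by simp⟩
      add_mem' := by
        rintro x x' ⟨y, hy, h1, h2⟩ ⟨y', hy', h1', h2'⟩
        refine ⟨y * y', A.mul_mem hy hy', by rw [map_mul]; exact mul_ne_zero h1 h1', ?_⟩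
        rw [show y * y' * (x + x') = y' * (y * x) + y * (y' * x') by ring]
        exact A.add_mem (A.mul_mem hy' h2) (A.mul_mem hy h2')
      zero_mem' := ⟨1, A.one_mem, by simp, by simp⟩
      neg_mem' := by
        rintro x ⟨y, hy, h1, h2⟩
        exact ⟨y, hy, h1, by rw [mul_neg]; exact A.neg_mem h2⟩ }
  have hle : A ≤ A' := fun x hx => ⟨1, A.one_mem, by simp, by simpa using hx⟩
  have hA' : Adm p ρ κ A' := by
    refine ⟨?_, ?_⟩
    · rintro x ⟨y, hy, h1, h2⟩
      have : ρ x = (ρ y)⁻¹ * ρ (y * x) := by rw [map_mul, inv_mul_cancel_left₀ h1]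
      rw [this]
      exact κ.mul_mem (κ.inv_mem (hA.1.1 y hy)) (hA.1.1 _ h2)
    · rintro x ⟨y, hy, h1, h2⟩ hx
      obtain ⟨z, hz, e⟩ := hA.1.2 _ h2 (by rw [map_mul, hx, mul_zero])
      obtain ⟨w, hw⟩ := (hu y h1).exists_right_inv
      refine ⟨w * z, ⟨y, hy, h1, by rw [← mul_assoc, hw, one_mul]; exact hz⟩, ?_⟩
      calc x = y * w * x := by rw [hw, one_mul]
        _ = w * (y * x) := by ring
        _ = p * (w * z) := by rw [e]; ring
  obtain ⟨c, hc⟩ := (hu b h).exists_right_inv
  exact ⟨c, hA.2 hA' hle ⟨b, hb, h, by rw [hc]; exact A.one_mem⟩, hc⟩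

lemma surj (hu : ∀ x, ρ x ≠ 0 → IsUnit x) (hs : Function.Surjective ρ)
    (hr : ∀ m : O[X], m.Monic → ∀ a, (m.map ρ).eval a = 0 → ∃ x, ρ x = a ∧ m.eval x = 0)
    {A : Subring O} (hA : Maximal (Adm p ρ κ) A) {a : L} (ha : a ∈ κ) : ∃ x ∈ A, ρ x = a := by
  let k0 : Subfield L :=
    { A.map ρ with
      inv_mem' := by
        rintro _ ⟨b, hb, rfl⟩
        by_cases h : ρ b = 0
        · exact ⟨0, A.zero_mem, by simp [h]⟩
        · obtain ⟨c, hc, e⟩ := inv_mem hu hA hb h
          exact ⟨c, hc, eq_inv_of_mul_eq_one_right (by rw [← map_mul, e, map_one])⟩ }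
  let r : A →+* k0 := (ρ.comp A.subtype).codRestrict k0 fun x => ⟨x, x.2, rfl⟩
  have hrs : Function.Surjective r := by
    rintro ⟨_, b, hb, rfl⟩
    exact ⟨⟨b, hb⟩, rfl⟩
  have hc : (algebraMap k0 L).comp r = ρ.comp A.subtype := rfl
  have hev : ∀ (f : A[X]) (x : O), ρ (eval₂ A.subtype x f) = aeval (ρ x) (f.map r) := by
    intro f x
    rw [hom_eval₂, aeval_def, eval₂_map, hc]
  obtain ⟨m, x, hm, hx, hmx⟩ : ∃ (m : A[X]) (x : O), m.map r = minpoly k0 a ∧ ρ x = a ∧
      eval₂ A.subtype x m = 0 := by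
    by_cases hi : IsIntegral k0 a
    · obtain ⟨m, h1, -, h2⟩ := lifts_and_degree_eq_and_monic
        ((mem_lifts _).2 (map_surjective r hrs (minpoly k0 a))) (minpoly.monic hi)
      obtain ⟨x, hx, hx'⟩ := hr (m.map A.subtype) (h2.map _) a (by
        rw [Polynomial.map_map, ← hc, ← Polynomial.map_map, h1, eval_map, ← aeval_def,
          minpoly.aeval])
      exact ⟨m, x, h1, hx, by rwa [eval_map] at hx'⟩
    · obtain ⟨x, hx⟩ := hs a
      exact ⟨0, x, by rw [minpoly.eq_zero hi, Polynomial.map_zero], hx, eval₂_zero _ _⟩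
  let A' : Subring O := (eval₂RingHom A.subtype x).range
  have hle : A ≤ A' := fun y hy => ⟨C ⟨y, hy⟩, by simp⟩
  have hA' : Adm p ρ κ A' := by
    refine ⟨?_, ?_⟩
    · rintro _ ⟨f, rfl⟩
      rw [coe_eval₂RingHom, hom_eval₂, hx, eval₂_eq_sum_range]
      exact κ.sum_mem fun i _ => κ.mul_mem (hA.1.1 _ (f.coeff i).2) (κ.pow_mem ha i)
    · rintro _ ⟨f, rfl⟩ h
      rw [coe_eval₂RingHom, hev, hx] at h
      obtain ⟨q, hq⟩ := minpoly.dvd k0 a h
      obtain ⟨q, rfl⟩ := map_surjective r hrs q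
      have h1 : (f - m * q).map r = 0 := by
        rw [Polynomial.map_sub, Polynomial.map_mul, hm, hq, sub_self]
      have h2 : C (p : A) ∣ f - m * q := by
        rw [C_dvd_iff_dvd_coeff]
        intro i
        have h3 : r ((f - m * q).coeff i) = 0 := by rw [← coeff_map, h1, coeff_zero]
        obtain ⟨y, hy, e⟩ := hA.1.2 _ ((f - m * q).coeff i).2 (congrArg Subtype.val h3)
        exact ⟨⟨y, hy⟩, Subtype.ext e⟩
      obtain ⟨g, hg⟩ := h2
      refine ⟨eval₂ A.subtype x g, ⟨g, rfl⟩, ?_⟩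
      rw [coe_eval₂RingHom, sub_eq_iff_eq_add.1 hg, eval₂_add, eval₂_mul, eval₂_mul, hmx,
        zero_mul, add_zero, eval₂_C, map_natCast]
  exact ⟨x, hA.2 hA' hle ⟨X, by simp⟩, hx⟩

end zorn

lemma root {K : Type u} [Field K] [IsAlgClosed K] (O : ValuationSubring K) (m : O[X])
    (hm : m.Monic) (a : ResidueField O) (h : (m.map (residue O)).eval a = 0) :
    ∃ x, residue O x = a ∧ m.eval x = 0 := by
  have hsp : m.Splits := by
    refine Splits.of_splits_map_of_injective (i := algebraMap O K) Subtype.val_injective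
      (IsAlgClosed.splits _) fun x hx => ?_
    have : IsIntegral O x := ⟨m, hm, by
      rw [← eval_map]; exact (mem_roots (hm.map _).ne_zero).1 hx⟩
    exact (IsIntegrallyClosed.isIntegral_iff.1 this)
  have e := hsp.eq_prod_roots_of_monic hm
  rw [e, Polynomial.map_multiset_prod, Multiset.map_map, eval_multiset_prod, Multiset.map_map,
    Multiset.prod_eq_zero_iff, Multiset.mem_map] at h
  obtain ⟨x, hx, h⟩ := h
  refine ⟨x, ?_, (mem_roots hm.ne_zero).1 hx⟩
  simp only [Function.comp_apply, Polynomial.map_sub, map_X, map_C, eval_sub, eval_X, eval_C] at h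
  exact (sub_eq_zero.1 h).symm

/-- a local domain with maximal ideal `p` and given residue field -/
lemma pre (p : ℕ) [Fact p.Prime] (κ : Type u) [Field κ] [CharP κ p] :
    ∃ (A : Type u) (_ : CommRing A) (_ : IsDomain A) (_ : IsLocalRing A), (p : A) ≠ 0 ∧
      maximalIdeal A = Ideal.span {(p : A)} ∧ Nonempty (ResidueField A ≃+* κ) := by
  let W := WittVector p κ
  have hW : ∀ x : W, WittVector.constantCoeff x ≠ 0 → IsUnit x := fun x h =>
    WittVector.isUnit_of_coeff_zero_ne_zero x h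
  have : IsLocalRing W := IsLocalRing.of_isUnit_or_isUnit_one_sub_self fun x => by
    by_cases h : WittVector.constantCoeff x = 0
    · exact Or.inr (hW _ (by rw [map_sub, h, map_one, sub_zero]; exact one_ne_zero))
    · exact Or.inl (hW x h)
  let K := AlgebraicClosure (FractionRing W)
  let f : W →+* K := (algebraMap (FractionRing W) K).comp (algebraMap W (FractionRing W))
  have hf : Function.Injective f :=
    (algebraMap (FractionRing W) K).injective.comp (IsFractionRing.injective W _)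
  obtain ⟨O, hO, hl⟩ := IsLocalRing.exists_factor_valuationRing f
  let g : W →+* O := f.codRestrict O.toSubring hO
  have : IsLocalHom g := hl
  have hcs : Function.Surjective (WittVector.constantCoeff : W →+* κ) := fun a =>
    ⟨WittVector.teichmuller p a, rfl⟩
  let j : κ →+* ResidueField O := RingHom.liftOfSurjective _ hcs ⟨(residue O).comp g, by
    intro x hx
    rw [RingHom.mem_ker] at hx ⊢
    rw [RingHom.comp_apply, residue_eq_zero_iff, mem_maximalIdeal, mem_nonunits_iff]
    intro h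
    have := ((isUnit_map_iff g x).1 h).map WittVector.constantCoeff
    rw [hx] at this
    exact not_isUnit_zero this⟩
  have : CharP (ResidueField O) p := charP_of_injective_ringHom j.injective p
  have hu : ∀ x : O, residue O x ≠ 0 → IsUnit x := fun x h => by
    rwa [Ne, residue_eq_zero_iff, mem_maximalIdeal, mem_nonunits_iff, not_not] at h
  obtain ⟨A, hA⟩ := exists_max (p := p) (ρ := residue O) (κ := j.fieldRange)
  let r : A →+* j.fieldRange :=
    ((residue O).comp A.subtype).codRestrict _ fun x => hA.1.1 x x.2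
  have hrs : Function.Surjective r := by
    rintro ⟨a, ha⟩
    obtain ⟨x, hx, e⟩ := surj hu residue_surjective (root O) hA ha
    exact ⟨⟨x, hx⟩, Subtype.ext e⟩
  have hr : ∀ x : A, r x ≠ 0 → IsUnit x := fun x h => by
    obtain ⟨c, hc, e⟩ := inv_mem hu hA x.2 fun h' => h (Subtype.ext h')
    exact IsUnit.of_mul_eq_one (⟨c, hc⟩ : A) (Subtype.ext e)
  have : IsLocalRing A := IsLocalRing.of_isUnit_or_isUnit_one_sub_self fun x => by
    by_cases h : r x = 0
    · exact Or.inr (hr _ (by rw [map_sub, h, map_one, sub_zero]; exact one_ne_zero))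
    · exact Or.inl (hr x h)
  have hk : RingHom.ker r = maximalIdeal A :=
    eq_maximalIdeal (RingHom.ker_isMaximal_of_surjective r hrs)
  refine ⟨A, inferInstance, inferInstance, inferInstance, fun h => ?_, ?_, ⟨?_⟩⟩
  · have h1 : f p = 0 := by
      have := congrArg (O.subtype.comp A.subtype) h
      rw [map_natCast, map_zero] at this
      rw [map_natCast, this]
    exact WittVector.p_nonzero p κ (hf (by rw [h1, map_zero]))
  · rw [← hk]
    refine le_antisymm (fun x hx => ?_) ?_
    · obtain ⟨y, hy, e⟩ := hA.1.2 x x.2 (congrArg Subtype.val hx)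
      exact Ideal.mem_span_singleton.2 ⟨⟨y, hy⟩, Subtype.ext e⟩
    · rw [Ideal.span_singleton_le_iff_mem, RingHom.mem_ker, map_natCast]
      exact Subtype.ext (by simp)
  · exact ((Ideal.quotEquivOfEq hk.symm).trans (RingHom.quotientKerEquivOfSurjective hrs)).trans
      j.rangeRestrictFieldEquiv.symm

end CH

theorem cohStmt : CohStmt.{u} := by
  intro p _ κ _ _
  obtain ⟨A, _, _, _, hp, hm, ⟨e⟩⟩ := CH.pre p κ
  have fg : (maximalIdeal A).FG := hm ▸ Submodule.fg_span_singleton _
  let C := AdicCompletion (maximalIdeal A) A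
  have : IsLocalRing C := AdicCompletion.isLocalRing_of_fg fg
  have : IsLocalHom (algebraMap A C) := AdicCompletion.algebraMap_isLocalHom_of_fg fg
  have hc : IsAdicComplete (maximalIdeal C) C := AdicCompletion.isAdicComplete_of_fg fg
  have hmC : maximalIdeal C = Ideal.span {(p : C)} := by
    rw [AdicCompletion.maximalIdeal_eq_map_of_fg fg]
    refine (congrArg (Ideal.map (algebraMap A C)) hm).trans ?_
    rw [Ideal.map_span, Set.image_singleton, map_natCast]
  have hmem : ∀ (n : ℕ) (z : A), z ∈ maximalIdeal A ^ n ↔ (p : A) ^ n ∣ z := fun n z => by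
    rw [hm, Ideal.span_singleton_pow, Ideal.mem_span_singleton]
  have hreg : ∀ x : C, (p : C) * x = 0 → x = 0 := by
    intro x hx
    refine AdicCompletion.ext_evalₐ fun n => ?_
    obtain ⟨y, rfl⟩ := AdicCompletion.mk_surjective _ _ x
    have h1 := congrArg (AdicCompletion.evalₐ (maximalIdeal A) (n + 1)) hx
    rw [map_mul, map_natCast, AdicCompletion.evalₐ_mk, map_zero, ← map_natCast
      (Ideal.Quotient.mk _), ← map_mul, Ideal.Quotient.eq_zero_iff_mem, hmem, pow_succ',
      mul_dvd_mul_iff_left hp] at h1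
    have h2 := y.property (Nat.le_succ n)
    rw [SModEq.sub_mem, smul_eq_mul, Ideal.mul_top] at h2
    rw [map_zero, AdicCompletion.evalₐ_mk, Ideal.Quotient.eq_zero_iff_mem]
    simpa using Ideal.add_mem _ h2 ((hmem _ _).2 h1)
  have hpow : ∀ (n : ℕ) (x : C), (p : C) ^ n * x = 0 → x = 0 := by
    intro n
    induction n with
    | zero => intro x h; simpa using h
    | succ n ih => intro x h; exact ih x (hreg _ (by rw [← mul_assoc, ← pow_succ', h]))
  have hfac : ∀ x : C, x ≠ 0 → ∃ (n : ℕ) (w : C), IsUnit w ∧ x = (p : C) ^ n * w := by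
    intro x hx
    by_contra hn
    refine hx (hc.haus x fun n => ?_)
    rw [SModEq.zero, smul_eq_mul, Ideal.mul_top, hmC, Ideal.span_singleton_pow,
      Ideal.mem_span_singleton]
    induction n with
    | zero => simp
    | succ n ih =>
      obtain ⟨w, rfl⟩ := ih
      have : w ∈ maximalIdeal C := fun h => hn ⟨n, w, h, rfl⟩
      rw [hmC, Ideal.mem_span_singleton] at this
      rw [pow_succ]
      exact mul_dvd_mul_left _ this
  have : NoZeroDivisors C := ⟨fun {x y} h => by
    by_cases hx : x = 0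
    · exact Or.inl hx
    obtain ⟨n, w, hw, rfl⟩ := hfac x hx
    exact Or.inr ((hw.mul_right_eq_zero).1 (hpow n _ (by rw [← mul_assoc, h])))⟩
  have : IsDomain C := NoZeroDivisors.to_isDomain C
  have hp0 : (p : C) ≠ 0 := fun h => one_ne_zero (hreg 1 (by rw [h, zero_mul]))
  have hirr : Irreducible (p : C) :=
    ((Ideal.span_singleton_prime hp0).1 (hmC ▸ inferInstance)).irreducible
  have : IsDiscreteValuationRing C :=
    IsDiscreteValuationRing.ofHasUnitMulPowIrreducibleFactorization ⟨p, hirr, fun {x} hx => by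
      obtain ⟨n, w, hw, rfl⟩ := hfac x hx
      exact ⟨n, hw.unit, rfl⟩⟩
  exact ⟨C, inferInstance, inferInstance, inferInstance, ⟨hmC, hc⟩,
    ⟨(RingEquiv.ofBijective _ (AdicCompletion.residueField_map_bijective_of_fg fg)).symm.trans e⟩⟩

end Vale.Agent.P202.Mx
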