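import Vale.Agent.P202.M.Hs1
import Vale.Agent.P202.Gr
import Vale.Agent.P202.Unr

open Finset Matrix MvPowerSeries Filter Topology IsLocalRing
open scoped Kronecker Nat

namespace Vale.Agent.P202.Mx

universe u

namespace DvM

open H1

theorem lm_self {R : Type u} [CommRing R] (I : Ideal R) : lm R I = ln I :=
  congrArg (fun J : Ideal R => Module.length R (R ⧸ J)) (by rw [smul_eq_mul, Ideal.mul_top])

theorem ln_anti {R : Type u} [CommRing R] {I J : Ideal R} (h : I ≤ J) : ln J ≤ ln I := by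
  rw [← lm_self, ← lm_self]
  exact lm_anti h

theorem finlen (R : Type u) [CommRing R] [IsLocalRing R] [IsNoetherianRing R] (N : ℕ) :
    ln (maximalIdeal R ^ N) ≠ ⊤ := by
  unfold ln
  by_cases hI : maximalIdeal R ^ N = ⊤
  · have := Ideal.Quotient.subsingleton_iff.2 hI
    simp
  have : IsArtinianRing (R ⧸ maximalIdeal R ^ N) :=
    IsLocalRing.quotient_artinian_of_mem_minimalPrimes_of_isLocalRing _
      ⟨⟨inferInstance, le_maximalIdeal hI⟩, fun J hJ _ _ hx =>
        hJ.1.mem_of_pow_mem N (hJ.2 (Ideal.pow_mem_pow hx N))⟩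
  have : IsArtinian R (R ⧸ maximalIdeal R ^ N) :=
    isArtinian_of_surjective_algebraMap (Ideal.Quotient.mk_surjective (I := maximalIdeal R ^ N))
  exact Module.length_ne_top

theorem fin2 {R : Type u} [CommRing R] [IsLocalRing R] [IsNoetherianRing R] (I : Ideal R) (N : ℕ) :
    ln (I ⊔ maximalIdeal R ^ N) ≠ ⊤ := ne_top_of_le_ne_top (finlen R N) (ln_anti le_sup_right)

theorem low {R : Type u} [CommRing R] (K Z : Ideal R) (g : R) (h : ∀ s, s * g ∈ K → s ∈ Z) :
    ln (K ⊔ Ideal.span {g}) + ln Z ≤ ln K := by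
  let Q : Ideal R := Submodule.comap (LinearMap.lsmul R R g) K
  have hQ : Q ≤ Z := fun s hs => h s (by rw [mul_comm]; exact hs)
  have e := Module.length_eq_add_of_exact (Submodule.mapQ Q K (LinearMap.lsmul R R g) le_rfl)
    (Submodule.factor (le_sup_left : K ≤ K ⊔ Ideal.span {g}))
    (LinearMap.ker_eq_bot.1 (Submodule.ker_liftQ_eq_bot _ _ _ (by
      intro s hs
      exact (Submodule.Quotient.mk_eq_zero K).1 hs))) (Submodule.factor_surjective _) (by
      intro x
      obtain ⟨a, rfl⟩ := Submodule.Quotient.mk_surjective _ x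
      constructor
      · intro hx
        change Submodule.Quotient.mk a = 0 at hx
        rw [Submodule.Quotient.mk_eq_zero] at hx
        obtain ⟨b, hb, c, hc, rfl⟩ := Submodule.mem_sup.1 hx
        obtain ⟨c, rfl⟩ := Ideal.mem_span_singleton'.1 hc
        refine ⟨Submodule.Quotient.mk c, ?_⟩
        change Submodule.Quotient.mk (g • c) = _
        rw [Submodule.Quotient.eq]
        simpa [mul_comm] using hb
      · rintro ⟨y, hy⟩
        obtain ⟨c, rfl⟩ := Submodule.Quotient.mk_surjective _ y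
        rw [← hy]
        change Submodule.Quotient.mk (g • c) = 0
        rw [Submodule.Quotient.mk_eq_zero]
        exact Ideal.mem_sup_right (Ideal.mul_mem_right _ _ (Ideal.mem_span_singleton_self g)))
  change _ ≤ Module.length R (R ⧸ K)
  rw [e, add_comm]
  exact add_le_add (ln_anti hQ) le_rfl

theorem colon_flat {R S : Type u} [CommRing R] [CommRing S] (f : R →+* S) (hf : f.Flat)
    (I P : Ideal R) (x : R) (h : ∀ r, r * x ∈ I → r ∈ P) (s : S) (hs : s * f x ∈ I.map f) :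
    s ∈ P.map f := by
  algebraize [f]
  have hs' : s * f x ∈ Submodule.span S (f '' (I : Set R)) := hs
  obtain ⟨n, c, g, hg⟩ := Submodule.mem_span_set'.1 hs'
  choose i hi using fun k => (g k).2
  obtain ⟨k, a, y, h1, h2⟩ := Module.Flat.isTrivialRelation_of_sum_smul_eq_zero (R := R) (M := S)
    (f := fun o : Option (Fin n) => o.elim x fun k => - i k)
    (x := fun o : Option (Fin n) => o.elim s c) (by
      rw [Fintype.sum_option]
      simp only [Option.elim, Algebra.smul_def, map_neg, neg_mul, Finset.sum_neg_distrib]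
      rw [mul_comm, show algebraMap R S x = f x from rfl, ← hg, add_neg_eq_zero]
      refine Finset.sum_congr rfl fun k _ => ?_
      rw [← (hi k).2, smul_eq_mul, mul_comm]
      rfl)
  have e := h1 none
  simp only [Option.elim] at e
  rw [e]
  refine Ideal.sum_mem _ fun j _ => ?_
  rw [Algebra.smul_def]
  refine Ideal.mul_mem_right _ _ (Ideal.mem_map_of_mem f (h _ ?_))
  have e2 := h2 j
  rw [Fintype.sum_option] at e2
  simp only [Option.elim, neg_mul, Finset.sum_neg_distrib, add_neg_eq_zero] at e2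
  rw [mul_comm, e2]
  exact Ideal.sum_mem _ fun k _ => Ideal.mul_mem_right _ _ (hi k).1

section Dev
variable {R S : Type u} [CommRing R] [IsLocalRing R] [IsNoetherianRing R] [CommRing S]
  [IsLocalRing S] [IsNoetherianRing S] (f : R →+* S) (d : ℕ)

/-- comparison of Hilbert-Samuel functions of `R / I` and `S / I S` -/
def PP (I : Ideal R) : Prop := ∃ c : ℕ, ∀ ε : ℝ, 0 < ε → ∀ᶠ N : ℕ in atTop,
  ((ln (I ⊔ maximalIdeal R ^ N)).toNat : ℝ) ≤
    (ln (I.map f ⊔ maximalIdeal S ^ (N + c))).toNat + ε * (N : ℝ) ^ d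

theorem ar (K Z : Ideal S) (g : S) (h : ∀ s, s * g ∈ K → s ∈ Z) : ∃ c, ∀ N s,
    s * g ∈ K ⊔ maximalIdeal S ^ (N + c) → s ∈ Z ⊔ maximalIdeal S ^ N := by
  obtain ⟨c, hc⟩ := (maximalIdeal S).exists_pow_inf_eq_pow_smul (K ⊔ Ideal.span {g})
  refine ⟨c, fun N s hs => ?_⟩
  obtain ⟨a, ha, w, hw, e⟩ := Submodule.mem_sup.1 hs
  have h1 : w ∈ (maximalIdeal S ^ (N + c) • ⊤ ⊓ (K ⊔ Ideal.span {g}) : Submodule S S) := by
    refine ⟨by rwa [smul_eq_mul, Ideal.mul_top], ?_⟩
    rw [eq_sub_of_add_eq' e]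
    exact sub_mem (Ideal.mem_sup_right (Ideal.mul_mem_left _ _ (Ideal.mem_span_singleton_self g)))
      (Ideal.mem_sup_left ha)
  rw [hc _ (by omega), Nat.add_sub_cancel] at h1
  have h2 := Submodule.smul_mono (le_refl (maximalIdeal S ^ N)) inf_le_right h1
  rw [smul_eq_mul, Ideal.mul_sup] at h2
  obtain ⟨b, hb, v, hv, rfl⟩ := Submodule.mem_sup.1 h2
  obtain ⟨t, ht, rfl⟩ := Ideal.mem_mul_span_singleton.1 hv
  have h3 : s - t ∈ Z := h _ (by
    rw [sub_mul, ← e, ← add_assoc, add_sub_cancel_right]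
    exact add_mem ha (Ideal.mul_le_right hb))
  rw [← sub_add_cancel s t]
  exact add_mem (Ideal.mem_sup_left h3) (Ideal.mem_sup_right ht)

theorem dev (hf : f.Flat) (h : ∀ P : Ideal R, P.IsPrime → PP f d P) (I : Ideal R) : PP f d I := by
  induction I using IsNoetherian.induction with
  | _ I ih =>
  by_cases hI : I = ⊤
  · refine ⟨0, fun ε hε => Eventually.of_forall fun N => ?_⟩
    rw [hI, top_sup_eq, ← lm_self, lm_top]
    simp only [ENat.toNat_zero, Nat.cast_zero]
    positivity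
  have := Ideal.Quotient.nontrivial_iff.2 hI
  obtain ⟨P, hP⟩ := associatedPrimes.nonempty R (R ⧸ I)
  obtain ⟨hP, x, hx⟩ := isAssociatedPrime_iff.1 hP
  obtain ⟨x, rfl⟩ := Ideal.Quotient.mk_surjective x
  have hPx : ∀ r, r ∈ P ↔ r * x ∈ I := fun r => by
    rw [hx, Submodule.mem_colon_singleton, Submodule.mem_bot, ← Ideal.Quotient.eq_zero_iff_mem]
    rfl
  have hlt : I < I ⊔ Ideal.span {x} := by
    refine lt_of_le_of_ne le_sup_left fun e => hP.ne_top ?_
    rw [Ideal.eq_top_iff_one, hPx, one_mul, e]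
    exact Ideal.mem_sup_right (Ideal.mem_span_singleton_self x)
  obtain ⟨c1, h1⟩ := ih _ hlt
  obtain ⟨c2, h2⟩ := h P hP
  obtain ⟨c3, h3⟩ := ar (Ideal.map f I) (P.map f) (f x) (colon_flat f hf I P x fun r => (hPx r).2)
  refine ⟨c1 + c2 + c3, fun ε hε => ?_⟩
  filter_upwards [h1 _ (half_pos hε), h2 _ (half_pos hε)] with N a1 a2
  have b1 := step (M := R) (I ⊔ maximalIdeal R ^ N) (P ⊔ maximalIdeal R ^ N) x (fun z hz => by
    obtain ⟨a, ha, b, hb, rfl⟩ := Submodule.mem_sup.1 hz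
    rw [add_mul]
    exact add_mem (Ideal.mem_sup_left ((hPx a).1 ha))
      (Ideal.mem_sup_right (Ideal.mul_mem_right _ _ hb)))
  rw [lm_self, lm_self, lm_self, sup_right_comm] at b1
  have b2 := low (Ideal.map f I ⊔ maximalIdeal S ^ (N + (c1 + c2) + c3))
    (P.map f ⊔ maximalIdeal S ^ (N + (c1 + c2))) (f x) (h3 _)
  rw [sup_right_comm, add_assoc N] at b2
  have b3 : ln (Ideal.map f (I ⊔ Ideal.span {x}) ⊔ maximalIdeal S ^ (N + c1)) ≤
      ln (Ideal.map f I ⊔ Ideal.span {f x} ⊔ maximalIdeal S ^ (N + (c1 + c2 + c3))) := by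
    rw [Ideal.map_sup, Ideal.map_span, Set.image_singleton]
    exact ln_anti (sup_le_sup_left (Ideal.pow_le_pow_right (by omega)) _)
  have b4 : ln (P.map f ⊔ maximalIdeal S ^ (N + c2)) ≤
      ln (P.map f ⊔ maximalIdeal S ^ (N + (c1 + c2))) :=
    ln_anti (sup_le_sup_left (Ideal.pow_le_pow_right (by omega)) _)
  have d1 := cast_le b1 (WithTop.add_ne_top.2 ⟨fin2 _ _, fin2 _ _⟩)
  have d2 := cast_le ((add_le_add b3 b4).trans b2) (fin2 _ _)
  rw [ENat.toNat_add (fin2 _ _) (fin2 _ _), Nat.cast_add] at d1 d2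
  linarith

theorem le_of_PP (h : PP f d ⊥) : Le R S d d := by
  intro e e' he he'
  obtain ⟨c, hc⟩ := h
  have t1 := (he'.comp (tendsto_add_atTop_nat c)).mul
    (ratio (fun N => N + c) c (fun _ => le_rfl) (fun _ => by omega) d)
  rw [mul_one] at t1
  refine le_of_forall_pos_le_add fun ε hε => ?_
  have hf : (0 : ℝ) < d ! := by exact_mod_cast Nat.factorial_pos d
  refine le_of_tendsto_of_tendsto he (t1.add_const ε) ?_
  filter_upwards [hc (ε / d !) (by positivity), eventually_gt_atTop 0] with N h1 hN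
  rw [bot_sup_eq, Ideal.map_bot, bot_sup_eq] at h1
  have hN' : (0 : ℝ) < N := by exact_mod_cast hN
  have hN2 : (0 : ℝ) < ((N + c : ℕ) : ℝ) := by exact_mod_cast (by omega : 0 < N + c)
  have e1 : (d ! : ℝ) * hs S (N + c) / ((N + c : ℕ) : ℝ) ^ d * (((N + c : ℕ) : ℝ) / N) ^ d + ε =
      d ! * (hs S (N + c) + ε / d ! * (N : ℝ) ^ d) / (N : ℝ) ^ d := by
    rw [div_pow]
    field_simp
  simp only [Function.comp]
  rw [e1]
  exact div_le_div_of_nonneg_right (mul_le_mul_of_nonneg_left h1 hf.le) (by positivity)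

end Dev

theorem max_quot {S : Type u} [CommRing S] [IsLocalRing S] (I : Ideal S) [IsLocalRing (S ⧸ I)] :
    (maximalIdeal S).map (Ideal.Quotient.mk I) = maximalIdeal (S ⧸ I) := by
  have := IsLocalHom.of_surjective _ (Ideal.Quotient.mk_surjective (I := I))
  rw [← maximalIdeal_comap (Ideal.Quotient.mk I),
    Ideal.map_comap_of_surjective _ Ideal.Quotient.mk_surjective]

theorem hs_quot {S : Type u} [CommRing S] [IsLocalRing S] (I : Ideal S) [IsLocalRing (S ⧸ I)]
    (N : ℕ) : hs (S ⧸ I) N = (ln (I ⊔ maximalIdeal S ^ N)).toNat := by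
  rw [hs, ← max_quot I, ← Ideal.map_pow,
    ← Module.length_eq_of_surjective (S := S) Ideal.Quotient.mk_surjective]
  exact congrArg ENat.toNat (DoubleQuot.quotQuotEquivQuotSupₐ S I _).toLinearEquiv.length_eq

theorem grow_quot {S : Type u} [CommRing S] [IsLocalRing S] [IsNoetherianRing S] (I : Ideal S)
    [IsLocalRing (S ⧸ I)] {d : ℕ} (h : Grow S d) : Grow (S ⧸ I) d := by
  obtain ⟨C, hC⟩ := h
  refine ⟨C, fun N => le_trans ?_ (hC N)⟩
  rw [hs_quot]
  exact ENat.toNat_le_toNat (ln_anti le_sup_right) (finlen S N)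

theorem cw_quot {W S : Type u} [CommRing W] [IsLocalRing W] [CommRing S] [IsLocalRing S]
    [Algebra W S] (h : CW W S) (I : Ideal S) [IsLocalRing (S ⧸ I)] : CW W (S ⧸ I) := by
  have := h.noeth
  have := h.cpl
  have e := max_quot I
  have hp : IsPrecomplete (maximalIdeal (S ⧸ I)) (S ⧸ I) := by
    rw [← e, ← Ideal.Quotient.algebraMap_eq, IsPrecomplete.map_algebraMap_iff,
      ← AdicCompletion.of_surjective_iff]
    intro z
    obtain ⟨w, rfl⟩ := AdicCompletion.map_surjective (maximalIdeal S) I.mkQ_surjective z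
    obtain ⟨w, rfl⟩ := AdicCompletion.of_surjective (maximalIdeal S) S w
    exact ⟨_, rfl⟩
  refine ⟨inferInstance, ⟨⟩, fun b => ?_, fun a ha => e ▸ Ideal.mem_map_of_mem _ (h.loc a ha)⟩
  obtain ⟨b, rfl⟩ := Ideal.Quotient.mk_surjective b
  obtain ⟨a, ha⟩ := h.res b
  exact ⟨a, e ▸ Ideal.mem_map_of_mem _ ha⟩

theorem dim_nat {R : Type u} [CommRing R] [Nontrivial R] {d : ℕ} (h : ringKrullDim R ≤ d) :
    ∃ k : ℕ, ringKrullDim R = k ∧ k ≤ d := by
  have h0 := ringKrullDim_nonneg_of_nontrivial (R := R)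
  generalize ringKrullDim R = x at h h0
  induction x with
  | bot => simp at h0
  | coe x =>
    have h' : x ≤ (d : ℕ∞) := by exact_mod_cast h
    lift x to ℕ using ne_top_of_le_ne_top (ENat.natCast_ne_top d) h'
    exact ⟨x, rfl, by exact_mod_cast h'⟩

theorem core (hm : McStmt.{u}) (he : EqStmt.{u}) (hE : ExStmt.{u}) (p : ℕ) [Fact p.Prime]
    (C W R S : Type u) [CommRing C] [IsDomain C] [IsDiscreteValuationRing C] [CommRing W]
    [IsDomain W] [IsDiscreteValuationRing W] (σ : W ≃+* W) [CommRing R] [IsLocalRing R]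
    [Algebra C R] [CommRing S] [IsLocalRing S] [Algebra W S] (f : R →+* S) [IsLocalHom f] (d : ℕ)
    (hC : Coh p C) (hW : Coh p W) (hσ : Frb p σ) (hR : CW C R) (hS : CW W S)
    (hi : Infinite (ResidueField R)) (hp : (p : R) ∈ maximalIdeal R) (hf : f.Flat)
    (dR : ringKrullDim R = d) (dS : ringKrullDim S = d) : Le R S d d := by
  have := hR.noeth
  have := hS.noeth
  refine le_of_PP f d (dev f d hf (fun P hP => ?_) ⊥)
  have hPm : P ≤ maximalIdeal R := le_maximalIdeal hP.ne_top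
  have hQ : P.map f ≤ maximalIdeal S := (Ideal.map_mono hPm).trans
    (((local_hom_TFAE f).out 0 2).1 ‹IsLocalHom f›)
  have := Ideal.Quotient.nontrivial_iff.2 (ne_top_of_le_ne_top (maximalIdeal.isMaximal S).ne_top hQ)
  have : IsLocalRing (R ⧸ P) := .of_surjective' _ Ideal.Quotient.mk_surjective
  have : IsLocalRing (S ⧸ P.map f) := .of_surjective' _ Ideal.Quotient.mk_surjective
  let g : R ⧸ P →+* S ⧸ P.map f := Ideal.quotientMap _ f Ideal.le_comap_map
  have lg : IsLocalHom g := by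
    refine ((local_hom_TFAE g).out 0 2).2 ?_
    rw [← max_quot P, ← max_quot (P.map f), Ideal.map_map, Ideal.quotientMap_comp_mk,
      ← Ideal.map_map]
    exact Ideal.map_mono (((local_hom_TFAE f).out 0 2).1 ‹IsLocalHom f›)
  have fg : g.Flat := by
    algebraize [f]
    exact RingHom.flat_algebraMap_iff.2 (Module.Flat.of_linearEquiv
      (Algebra.TensorProduct.quotIdealMapEquivQuotTensor S P).toLinearEquiv)
  have gR : Grow (R ⧸ P) d := grow_quot P (grStmt R d dR)
  have gS : Grow (S ⧸ P.map f) d := grow_quot _ (grStmt S d dS)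
  obtain ⟨e1, -, m1, -⟩ := hE _ d gR
  obtain ⟨e2, p2, m2, -⟩ := hE _ d gS
  have key : e1 ≤ e2 := by
    by_cases hpP : (p : R) ∈ P
    · have hz : (p : R ⧸ P) = 0 := by
        rw [← map_natCast (Ideal.Quotient.mk P)]
        exact Ideal.Quotient.eq_zero_iff_mem.2 hpP
      have : CharP (R ⧸ P) p := (CharP.charP_iff_prime_eq_zero Fact.out).2 hz
      have pf : HasPF (R ⧸ P) :=
        ⟨ZMod p, inferInstance, inferInstance, ⟨ZMod.castHom (dvd_refl p) _⟩⟩
      obtain ⟨k, hk, kd⟩ := dim_nat (R := R ⧸ P) (dR ▸ ringKrullDim_quotient_le P)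
      obtain ⟨l, hl, ld⟩ := dim_nat (R := S ⧸ P.map f) (dS ▸ ringKrullDim_quotient_le _)
      have kl := (unrStmt.1 _ _ g fg).2.1
      rw [hk, hl] at kl
      have kl' : k ≤ l := by exact_mod_cast kl
      rcases kd.eq_or_lt with rfl | hlt
      · obtain rfl : l = k := le_antisymm ld kl'
        exact he _ _ g fg pf l l hk hl _ _ m1 m2
      · obtain ⟨_, -, -, m3⟩ := hE _ k (grStmt _ k hk)
        rw [tendsto_nhds_unique m1 (m3 d hlt)]
        exact p2
    · have hz : (p : R ⧸ P) ≠ 0 := by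
        rw [← map_natCast (Ideal.Quotient.mk P)]
        exact fun h => hpP (Ideal.Quotient.eq_zero_iff_mem.1 h)
      cases d with
      | zero =>
        have : Ring.KrullDimLE 0 R := Ring.krullDimLE_iff.2 dR.le
        exact absurd (eq_maximalIdeal (hP.isMaximal') ▸ hp) hpP
      | succ n =>
        have := IsLocalHom.of_surjective _ (Ideal.Quotient.mk_surjective (I := P))
        exact hm p C W _ _ σ g n hC hW hσ (cw_quot hR P) (cw_quot hS _)
          (Infinite.of_injective _ (ResidueField.map (Ideal.Quotient.mk P)).injective) hz fg gR gS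
          _ _ m1 m2
  refine ⟨0, fun ε hε => ?_⟩
  have hd : (0 : ℝ) < d ! := by exact_mod_cast Nat.factorial_pos d
  filter_upwards [(Tendsto.sub m1 m2).eventually_lt_const
    (show e1 - e2 < d ! * ε by have := mul_pos hd hε; linarith), eventually_gt_atTop 0] with N h1 hN
  have hN' : (0 : ℝ) < N := by exact_mod_cast hN
  rw [← sub_div, div_lt_iff₀ (by positivity), ← mul_sub, mul_assoc,
    mul_lt_mul_iff_right₀ hd, hs_quot, hs_quot] at h1
  rw [add_zero]
  linarith

end DvM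

theorem sameStmt (hm : McStmt.{u}) (he : EqStmt.{u}) (hx : RxStmt.{u}) (hE : ExStmt.{u})
    (hg : GonWStmt.{u}) (hu : UdStmt.{u}) : SameStmt.{u} := by
  intro p _ R S _ _ _ _ _ _ f _ hf hp d dR dS
  obtain ⟨R1, S1, _, _, _, _, _, _, a, b, f1, ua, ub, hi, fl1, lo1, -⟩ := hx R S f hf
  have p1 : (p : R1) ∈ maximalIdeal R1 := by
    rw [← ua.map, ← map_natCast a]
    exact Ideal.mem_map_of_mem _ hp
  have p2 : (p : S1) ∈ maximalIdeal S1 := by
    rw [← map_natCast f1]
    exact map_nonunit f1 _ p1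
  obtain ⟨C, R2, _, _, _, _, _, _, a2, hC, hR, ua2, hi2, ext⟩ := (hg p R1 p1).cpl
  obtain ⟨W, S2, _, _, _, σ, _, _, _, b2, hW, hσ, -, hS, ub2⟩ := (hg p S1 p2).gon
  have := hR.noeth
  have := hS.noeth
  have := unr_loc ub2
  obtain ⟨g, lg, fg, -⟩ := ext S2 (b2.comp f1) hS.cpl inferInstance (fl1.comp ub2.flat)
  have p3 : (p : R2) ∈ maximalIdeal R2 := by
    rw [← ua2.map, ← map_natCast a2]
    exact Ideal.mem_map_of_mem _ p1
  have k := DvM.core hm he hE p C W R2 S2 σ g d hC hW hσ hR hS (hi2 hi) p3 fg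
    (((hu _ _ a2).1 ua2).trans (((hu _ _ a).1 ua).trans dR))
    (((hu _ _ b2).1 ub2).trans (((hu _ _ b).1 ub).trans dS))
  intro e e' h1 h2
  refine k e e' (h1.congr fun N => ?_) (h2.congr fun N => ?_)
  · rw [(unrStmt.2.1 _ _ a2 ua2).2.1, (unrStmt.2.1 _ _ a ua).2.1]
  · rw [(unrStmt.2.1 _ _ b2 ub2).2.1, (unrStmt.2.1 _ _ b ub).2.1]

end Vale.Agent.P202.Mx
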