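import Vale.Agent.P202.M.Base

/-! Module E1: invariance of the approximate Euler characteristic. -/

open Finset Matrix MvPowerSeries Filter Topology IsLocalRing
open scoped Kronecker Nat

namespace Vale.Agent.P202.Mx

universe u

namespace Eo

theorem tau_mono (r s L : ℕ) {o o' : ℕ} (h : o ≤ o') : tau r o s L ≤ tau r o' s L := by
  unfold tau; gcongr

theorem sub_le {a b : ℕ∞} {τ : ℕ} (hb : b ≠ ⊤) (h : a ≤ b + τ) :
    (a.toNat : ℤ) - b.toNat ≤ τ := by
  lift b to ℕ using hb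
  lift a to ℕ using ne_top_of_le_ne_top (by simp) h
  have : a ≤ b + τ := by exact_mod_cast h
  simp only [ENat.toNat_natCast]; omega

variable {V : Type u} [CommRing V] {v : V} {r n0 o s L : ℕ} {κ : Fin (r + 1)} {ι ι' : Type}
  [Fintype ι] [DecidableEq ι] [Fintype ι'] [DecidableEq ι'] {deg : ι → ℕ}
  {Γ D : Matrix ι ι (LL V r)} {deg' : ι' → ℕ} {Γ' D' : Matrix ι' ι' (LL V r)}

omit [DecidableEq ι] [Fintype ι'] [DecidableEq ι'] in
theorem mem0 {P : Matrix ι' ι (LL V r)} (hP : Gr deg deg' 0 P) (eP : Ent v 0 P) {c : ℕ} {n : ℤ}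
    {x} (hx : x ∈ XE v s L κ (fun _ => c) deg n) : LM P 1 x ∈ XE v s L κ (fun _ => c) deg' n := by
  have := LM_one_mem (σ := 0) (l' := fun _ => c) hP eP (by simp) hx
  rwa [add_zero] at this

theorem mem_Bc {k E : Type*} [CommRing k] [AddCommGroup E] [Module k E] {D : Module.End k E}
    {X X' : ℤ → Submodule k E} {n : ℤ} {y : E} :
    y ∈ Bc D X X' n ↔ ∃ a ∈ X' n, ∃ w ∈ X (n + 1), a + D w = y := by
  simp [Bc, Submodule.mem_sup]

theorem bt_map {P : Matrix ι' ι (LL V r)} (hP : Gr deg deg' 0 P) (eP : Ent v 0 P)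
    (e : D' * P = P * D) {n : ℤ} {x} (hx : x ∈ BT v n0 s L κ deg D n) :
    LM P 1 x ∈ BT v n0 s L κ deg' D' n := by
  refine ⟨mem0 hP eP hx.1, Submodule.mem_comap.2 ?_⟩
  rw [DD_LM e]
  exact mem0 hP eP hx.2

theorem dom (h : Cpx v Γ deg D) (t : Tm v n0 Γ o s L κ deg D) (d : DomL v Γ deg D Γ' deg' D')
    (c b : ℕ) (n : ℤ) :
    hh (DD D) (gg Γ) (c + 1) (XE v s L κ (fun _ => b) deg) (BT v n0 s L κ deg D) n ≤
      hh (DD D') (gg Γ') c (XE v s L κ (fun _ => b) deg') (BT v n0 s L κ deg' D') n := by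
  obtain ⟨P, Q, H, hP, hQ, hH, eP, eQ, eH, e1, e2, e3, e4⟩ := d
  refine t.lat.eqv _ _ _ _ _ _ _ (LM P 1) (LM Q 1) c 1 n (t.cx _ (slope_const h.ent _)) t.cb
    (LM_gg e3 1) (fun z hz => ⟨mem0 hP eP hz.1, Submodule.mem_comap.2 ?_⟩) (fun y hy => ?_)
    fun z hz => ?_
  · rw [DD_LM e1]
    exact bt_map hP eP e1 hz.2
  · obtain ⟨a, ha, w, hw, rfl⟩ := mem_Bc.1 hy
    exact mem_Bc.2 ⟨_, bt_map hQ eQ e2 ha, _, mem0 hQ eQ hw, by rw [DD_LM e2, map_add]⟩
  · have h0 : DD D z ∈ BT v n0 s L κ deg D (n - 1) := hz.2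
    have k : ∀ x, gg Γ x = LM Q 1 (LM P 1 x) +
        (DD D (LM H (sg V r) x) + LM H (sg V r) (DD D x)) := fun x => by
      have h2 := LM_add (Q * P) (D * H + H * D) 1 x
      rw [← add_assoc, e4] at h2
      rw [DD_LM_sg, LM_mul, mul_one, ← h2, gg_eq]
    have h1 : LM H (sg V r) (DD D z) ∈ BT v n0 s L κ deg D n := by
      refine ⟨?_, Submodule.mem_comap.2 ?_⟩
      · have := LM_sg_mem (σ := 0) (l' := fun _ => n0 - jj r (n - 1) * L) hH eH (by simp) h0.1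
        rw [sub_add_cancel] at this
        refine XE_mono (fun _ => Nat.sub_le_sub_left (Nat.mul_le_mul_right _ ?_) _) n this
        unfold jj
        omega
      · have h3 := k (DD D z)
        rw [DD_DD h.dd, map_zero, add_zero, ← sub_eq_iff_eq_add'] at h3
        rw [← h3]
        exact sub_mem (gg_mem_XF h.g0 h.ge h0.1) (mem0 hQ eQ (mem0 hP eP h0.1))
    refine mem_Bc.2 ⟨_, neg_mem h1, _, neg_mem
      (LM_sg_mem (σ := 0) (l' := fun _ => b) hH eH (by simp) hz.1), ?_⟩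
    rw [pow_one, k z, map_neg]
    abel

end Eo

open Eo

theorem e1Stmt : E1Stmt.{u} := by
  intro V _ v n0 r o o' s L κ ι ι' _ _ _ _ Γ deg D Γ' deg' D' _ h h' t t' d d'
  have a := (t.tame _ (slope_const h.ent _) (fun _ => le_rfl) (5 * (r + 1)) (by omega)).1
  have a' := (t'.tame _ (slope_const h'.ent _) (fun _ => le_rfl) (5 * (r + 1)) (by omega)).1
  rw [eu, eu, chi, chi, ← sum_sub_distrib]
  refine (abs_sum_le_sum_abs _ _).trans ((sum_le_card_nsmul _ _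
    (tau r (o + o') s L : ℤ) fun n _ => ?_).trans (le_of_eq ?_))
  · rw [← mul_sub, abs_mul, Int.abs_negOnePow, one_mul, abs_sub_le_iff]
    refine ⟨sub_le (a' n).1 ((a n).2.trans (add_le_add (dom h t d _ _ n) ?_)),
      sub_le (a n).1 ((a' n).2.trans (add_le_add (dom h' t' d' _ _ n) ?_))⟩
    · exact_mod_cast tau_mono _ _ _ (Nat.le_add_right _ _)
    · exact_mod_cast tau_mono _ _ _ (Nat.le_add_left _ _)
  · rw [Int.card_Icc, nsmul_eq_mul]
    congr 1
    omega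

end Vale.Agent.P202.Mx
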