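import Vale.Agent.P202.M.E1

/-! Module E2: additivity of the approximate Euler characteristic. -/

open Finset Matrix MvPowerSeries Filter Topology IsLocalRing
open scoped Kronecker Nat

namespace Vale.Agent.P202.Mx

universe u

namespace Et

open Eo

section abs
variable {k E E₁ E₂ : Type u} [CommRing k] [AddCommGroup E] [Module k E] [AddCommGroup E₁]
  [Module k E₁] [AddCommGroup E₂] [Module k E₂]

/-- the bottom complex of a filtered complex -/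
def bt (D : Module.End k E) (F : ℕ → ℤ → Submodule k E) (r n0 L : ℕ) (n : ℤ) : Submodule k E :=
  F (n0 - jj r n * L) n ⊓ (F (n0 - jj r (n - 1) * L) (n - 1)).comap D

structure FC (D g : Module.End k E) (F : ℕ → ℤ → Submodule k E) (r n0 L O τ : ℕ) : Prop where
  lat : Lat D g
  dd : ∀ x, D (D x) = 0
  com : Commute D g
  cx : ∀ c, Cx D g (F c)
  mono : ∀ a b, a ≤ b → F b ≤ F a
  bd : ∀ c n, ((r + 1 : ℕ) : ℤ) < |n| → F c n = ⊥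
  far : (2 * r + 10) * L + O ≤ n0
  cb : Cx D g (bt D F r n0 L)
  bl : bt D F r n0 L ≤ F O
  ag : ∀ l l'', L ≤ l → l ≤ l'' → l'' ≤ n0 → ∀ n, ∀ z ∈ F l n, D z ∈ F l'' (n - 1) →
    ∃ w ∈ F (l - L) (n + 1), (g ^ (r + 1)) z - D w ∈ F (l'' - L) n
  gh : ∀ n, ∀ z ∈ Zc D (F (O + L)) (bt D F r n0 L) n,
    (g ^ (2 * (r + 1))) z ∈ Bc D (F O) (bt D F r n0 L) n
  fn : Fn g τ (F O) (F (O + L))
  tame : ∀ c, 2 * (r + 1) ≤ c → Tame D g c τ (F O) (bt D F r n0 L)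

theorem cx_pow {D g : Module.End k E} {X : ℤ → Submodule k E} (h : Cx D g X) (c : ℕ) {n : ℤ}
    {x : E} (hx : x ∈ X n) : (g ^ c) x ∈ X n := by
  induction c with
  | zero => simpa using hx
  | succ c ih => rw [pow_succ', Module.End.mul_apply]; exact h.g _ _ ih

theorem cx_sup {D g : Module.End k E} {X Y : ℤ → Submodule k E} (h : Cx D g X) (h' : Cx D g Y) :
    Cx D g fun n => X n ⊔ Y n := by
  constructor <;> intro n x hx <;> obtain ⟨a, ha, b, hb, rfl⟩ := Submodule.mem_sup.1 hx <;>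
    rw [map_add]
  · exact Submodule.add_mem_sup (h.d _ _ ha) (h'.d _ _ hb)
  · exact Submodule.add_mem_sup (h.g _ _ ha) (h'.g _ _ hb)

theorem comm_pow {g : Module.End k E} {g' : Module.End k E₂} {p : E →ₗ[k] E₂}
    (h : ∀ x, p (g x) = g' (p x)) (c : ℕ) (x : E) : p ((g ^ c) x) = (g' ^ c) (p x) := by
  induction c with
  | zero => simp
  | succ c ih => rw [pow_succ', pow_succ', Module.End.mul_apply, h, ih, Module.End.mul_apply]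

theorem tame_iter {D g : Module.End k E} {X X' : ℤ → Submodule k E} {c τ : ℕ}
    (h : ∀ c', c ≤ c' → Tame D g c' τ X X') (j : ℕ) (n : ℤ) :
    hh D g c X X' n ≤ hh D g (c + j) X X' n + (j * τ : ℕ) := by
  induction j with
  | zero => simp
  | succ j ih =>
    refine ih.trans ((add_le_add (h (c + j) (by omega) n).2 le_rfl).trans (le_of_eq ?_))
    rw [add_assoc, add_assoc c]; congr 1; push_cast; ring

variable {D g : Module.End k E} {F : ℕ → ℤ → Submodule k E} {r n0 L O τ : ℕ}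

theorem FC.dg (h : FC D g F r n0 L O τ) (c : ℕ) (x : E) : D ((g ^ c) x) = (g ^ c) (D x) :=
  LinearMap.congr_fun (h.com.pow_right c).eq x

theorem FC.mT (h : FC D g F r n0 L O τ) {a b : ℕ} (e : a ≤ b) {n : ℤ} {x : E}
    (hx : x ∈ F (n0 - a * L) n) : x ∈ F (n0 - b * L) n :=
  h.mono _ _ (Nat.sub_le_sub_left (Nat.mul_le_mul_right _ e) _) n hx

theorem FC.TX (h : FC D g F r n0 L O τ) {a : ℕ} (e : a ≤ 2 * r + 10) {n : ℤ} {x : E}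
    (hx : x ∈ F (n0 - a * L) n) : x ∈ F O n :=
  h.mono _ _ (by have := Nat.mul_le_mul_right L e; have := h.far; omega) n hx

theorem FC.agT (h : FC D g F r n0 L O τ) {a b : ℕ} (e : b ≤ a) (e' : a ≤ 2 * r + 9) {n : ℤ}
    {z : E} (hz : z ∈ F (n0 - a * L) n) (hd : D z ∈ F (n0 - b * L) (n - 1)) :
    ∃ w ∈ F (n0 - (a + 1) * L) (n + 1), (g ^ (r + 1)) z - D w ∈ F (n0 - (b + 1) * L) n := by
  have h1 := Nat.mul_le_mul_right L e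
  have h2 := Nat.mul_le_mul_right L (show a + 1 ≤ 2 * r + 10 by omega)
  have h3 := h.far
  rw [add_one_mul] at h2
  have := h.ag _ _ (by omega) (by omega) (by omega) n z hz hd
  rwa [Nat.sub_sub, Nat.sub_sub, ← add_one_mul, ← add_one_mul] at this

theorem FC.TB (h : FC D g F r n0 L O τ) {a : ℕ} {n : ℤ} (e : (a : ℤ) ≤ n + r + 5) {x : E}
    (hx : x ∈ F (n0 - a * L) n) : x ∈ bt D F r n0 L n :=
  ⟨h.mT (by unfold jj; omega) hx, h.mT (by unfold jj; omega) ((h.cx _).d _ _ hx)⟩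

theorem bc_pow (hc : Commute D g) {X X' : ℤ → Submodule k E} (h : Cx D g X) (h' : Cx D g X')
    (c : ℕ) {n : ℤ} {x : E} (hx : x ∈ Bc D X X' n) : (g ^ c) x ∈ Bc D X X' n := by
  obtain ⟨a, ha, w, hw, rfl⟩ := mem_Bc.1 hx
  exact mem_Bc.2 ⟨_, cx_pow h' c ha, _, cx_pow h c hw, by
    rw [map_add]; congr 1; exact LinearMap.congr_fun (hc.pow_right c).eq w⟩

/-- a degreewise split extension of filtered complexes -/
structure Ex (D g : Module.End k E) (F : ℕ → ℤ → Submodule k E) (D₁ g₁ : Module.End k E₁)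
    (F₁ : ℕ → ℤ → Submodule k E₁) (D₂ g₂ : Module.End k E₂) (F₂ : ℕ → ℤ → Submodule k E₂)
    (i : E₁ →ₗ[k] E) (p : E →ₗ[k] E₂) (σ : E₂ →ₗ[k] E) (ρ : E →ₗ[k] E₁) : Prop where
  di : ∀ x, D (i x) = i (D₁ x)
  gi : ∀ x, i (g₁ x) = g (i x)
  dp : ∀ x, D₂ (p x) = p (D x)
  gp : ∀ x, p (g x) = g₂ (p x)
  pi : ∀ x, p (i x) = 0
  ri : ∀ x, ρ (i x) = x
  ps : ∀ x, p (σ x) = x
  one : ∀ x, i (ρ x) + σ (p x) = x
  mi : ∀ {c n x}, x ∈ F₁ c n → i x ∈ F c n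
  mp : ∀ {c n x}, x ∈ F c n → p x ∈ F₂ c n
  ms : ∀ {c n x}, x ∈ F₂ c n → σ x ∈ F c n
  mr : ∀ {c n x}, x ∈ F c n → ρ x ∈ F₁ c n

variable {D₁ g₁ : Module.End k E₁} {F₁ : ℕ → ℤ → Submodule k E₁} {D₂ g₂ : Module.End k E₂}
  {F₂ : ℕ → ℤ → Submodule k E₂} {i : E₁ →ₗ[k] E} {p : E →ₗ[k] E₂} {σ : E₂ →ₗ[k] E}
  {ρ : E →ₗ[k] E₁}

theorem Ex.ker (x : Ex D g F D₁ g₁ F₁ D₂ g₂ F₂ i p σ ρ) {a : E} (h : p a = 0) : i (ρ a) = a := by
  have := x.one a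
  rwa [h, map_zero, add_zero] at this

theorem Ex.bi (x : Ex D g F D₁ g₁ F₁ D₂ g₂ F₂ i p σ ρ) {n : ℤ} {a : E₁} :
    i a ∈ bt D F r n0 L n ↔ a ∈ bt D₁ F₁ r n0 L n := by
  constructor
  · rintro ⟨h1, h2⟩
    have h3 : D (i a) ∈ F (n0 - jj r (n - 1) * L) (n - 1) := h2
    rw [x.di] at h3
    exact ⟨x.ri a ▸ x.mr h1, Submodule.mem_comap.2 (x.ri (D₁ a) ▸ x.mr h3)⟩
  · rintro ⟨h1, h2⟩
    exact ⟨x.mi h1, Submodule.mem_comap.2 (x.di a ▸ x.mi h2)⟩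

theorem Ex.bp (x : Ex D g F D₁ g₁ F₁ D₂ g₂ F₂ i p σ ρ) {n : ℤ} {a : E}
    (h : a ∈ bt D F r n0 L n) : p a ∈ bt D₂ F₂ r n0 L n :=
  ⟨x.mp h.1, Submodule.mem_comap.2 (x.dp a ▸ x.mp h.2)⟩

theorem stepA (x : Ex D g F D₁ g₁ F₁ D₂ g₂ F₂ i p σ ρ) (h : FC D g F r n0 L O τ)
    (h₁ : FC D₁ g₁ F₁ r n0 L O τ) (h₂ : FC D₂ g₂ F₂ r n0 L O τ) {n : ℤ} {b : E₂} {y : E}
    (hb : b ∈ bt D₂ F₂ r n0 L n) (hy : y ∈ bt D F r n0 L (n - 1)) (e : D₂ b = p y) :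
    ∃ b' ∈ bt D F r n0 L n, ∃ w ∈ F₂ O (n + 1), (g₂ ^ (3 * (r + 1))) b = p b' + D₂ w := by
  by_cases hn : ((r + 1 : ℕ) : ℤ) < |n|
  · have : b = 0 := by have := hb.1; rwa [h₂.bd _ _ hn] at this
    exact ⟨0, zero_mem _, 0, zero_mem _, by simp [this]⟩
  rw [not_lt, abs_le] at hn
  obtain ⟨j, hj⟩ : ∃ j : ℕ, (j : ℤ) = n + r + 4 := ⟨(n + r + 4).toNat, by omega⟩
  have j0 : jj r n = j + 1 + 1 := by unfold jj; omega
  have j1 : jj r (n - 1) = j + 1 := by unfold jj; omega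
  have j2 : jj r (n - 1 - 1) = j := by unfold jj; omega
  have y1 : y ∈ F (n0 - (j + 1) * L) (n - 1) := j1 ▸ hy.1
  have y2 : D y ∈ F (n0 - j * L) (n - 1 - 1) := j2 ▸ hy.2
  have b1 : b ∈ F₂ (n0 - (j + 1 + 1) * L) n := j0 ▸ hb.1
  have e1 : i (ρ (D y)) = D y := x.ker (by rw [← x.dp, ← e, h₂.dd])
  have e2 : D₁ (ρ (D y)) = 0 := by rw [← x.ri (D₁ _), ← x.di, e1, h.dd, map_zero]
  obtain ⟨x1, m1, t1⟩ := h₁.agT (b := 0) (by omega) (by omega) (x.mr y2)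
    (by rw [e2]; exact zero_mem _)
  rw [sub_add_cancel] at m1
  have u1 : (g ^ (r + 1)) y - i x1 ∈ F (n0 - (j + 1) * L) (n - 1) :=
    sub_mem (cx_pow (h.cx _) _ y1) (x.mi m1)
  have u2 : D ((g ^ (r + 1)) y - i x1) ∈ F (n0 - (0 + 1) * L) (n - 1 - 1) := by
    have := x.mi t1
    rwa [map_sub, comm_pow x.gi, e1, ← h.dg, ← x.di, ← map_sub] at this
  obtain ⟨x2, m2, t2⟩ := h.agT (by omega) (by omega) u1 u2
  rw [sub_add_cancel] at m2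
  have m3 : x2 ∈ bt D F r n0 L n := by
    refine ⟨j0 ▸ m2, Submodule.mem_comap.2 ?_⟩
    have := sub_mem (cx_pow (h.cx _) (r + 1) u1) (h.mT (b := j + 1) (by omega) t2)
    rwa [sub_sub_cancel, ← j1] at this
  have v1 : (g₂ ^ (r + 1)) ((g₂ ^ (r + 1)) b) - p x2 ∈ F₂ (n0 - (j + 1 + 1) * L) n :=
    sub_mem (cx_pow (h₂.cx _) _ (cx_pow (h₂.cx _) _ b1)) (x.mp m2)
  have v2 : D₂ ((g₂ ^ (r + 1)) ((g₂ ^ (r + 1)) b) - p x2) ∈ F₂ (n0 - (0 + 1 + 1) * L) (n - 1) := by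
    have := x.mp t2
    rwa [map_sub, comm_pow x.gp, map_sub, x.pi, sub_zero, comm_pow x.gp, ← e, ← h₂.dg, ← h₂.dg,
      ← x.dp, ← map_sub] at this
  obtain ⟨w, m4, t3⟩ := h₂.agT (by omega) (by omega) v1 v2
  refine ⟨_, add_mem (h.TB (by omega) (x.ms t3)) (cx_pow h.cb (r + 1) m3), w,
    h₂.TX (by omega) m4, ?_⟩
  rw [map_add, x.ps, comm_pow x.gp, map_sub, show 3 * (r + 1) = r + 1 + (r + 1 + (r + 1)) by ring,
    pow_add g₂ (r + 1), pow_add g₂ (r + 1) (r + 1)]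
  simp only [Module.End.mul_apply]
  abel

/-- the middle complex -/
def md (D : Module.End k E) (F : ℕ → ℤ → Submodule k E) (F₁ : ℕ → ℤ → Submodule k E₁)
    (i : E₁ →ₗ[k] E) (r n0 L O : ℕ) (n : ℤ) : Submodule k E :=
  (F₁ O n).map i ⊔ bt D F r n0 L n

theorem mem_md {n : ℤ} {a : E} : a ∈ md D F F₁ i r n0 L O n ↔
    ∃ y ∈ F₁ O n, ∃ b ∈ bt D F r n0 L n, i y + b = a := by
  simp [md, Submodule.mem_sup]

theorem md_cx (x : Ex D g F D₁ g₁ F₁ D₂ g₂ F₂ i p σ ρ) (h : FC D g F r n0 L O τ)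
    (h₁ : FC D₁ g₁ F₁ r n0 L O τ) : Cx D g (md D F F₁ i r n0 L O) := by
  refine cx_sup ⟨?_, ?_⟩ h.cb <;> rintro n _ ⟨y, hy, rfl⟩
  · exact ⟨_, (h₁.cx _).d _ _ hy, (x.di y).symm⟩
  · exact ⟨_, (h₁.cx _).g _ _ hy, x.gi y⟩

theorem md_le (x : Ex D g F D₁ g₁ F₁ D₂ g₂ F₂ i p σ ρ) (h : FC D g F r n0 L O τ) :
    md D F F₁ i r n0 L O ≤ F O := fun n =>
  sup_le (by rintro _ ⟨y, hy, rfl⟩; exact x.mi hy) (h.bl n)

theorem md_p (x : Ex D g F D₁ g₁ F₁ D₂ g₂ F₂ i p σ ρ) {n : ℤ} {a : E}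
    (h : a ∈ md D F F₁ i r n0 L O n) : p a ∈ bt D₂ F₂ r n0 L n := by
  obtain ⟨y, -, b, hb, rfl⟩ := mem_md.1 h
  rw [map_add, x.pi, zero_add]
  exact x.bp hb

theorem stepC (x : Ex D g F D₁ g₁ F₁ D₂ g₂ F₂ i p σ ρ) (h : FC D g F r n0 L O τ)
    (h₁ : FC D₁ g₁ F₁ r n0 L O τ) (h₂ : FC D₂ g₂ F₂ r n0 L O τ) {n : ℤ} {z : E}
    (hz : z ∈ Zc D (F O) (md D F F₁ i r n0 L O) n)
    (hp : p z ∈ Bc D₂ (F₂ O) (bt D₂ F₂ r n0 L) n) :
    (g ^ (3 * (r + 1))) z ∈ Bc D (F O) (md D F F₁ i r n0 L O) n := by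
  obtain ⟨b, hb, w2, hw, e⟩ := mem_Bc.1 hp
  obtain ⟨y, -, u, hu, e'⟩ := mem_md.1 (Submodule.mem_comap.1 hz.2)
  obtain ⟨b', hb', w, hw', e2⟩ := stepA x h h₁ h₂ hb hu (by
    have := congrArg D₂ e
    rwa [map_add, h₂.dd, add_zero, x.dp, ← e', map_add, x.pi, zero_add] at this)
  have dm : ∀ {a}, a ∈ F O (n + 1) → D a ∈ F O n := fun ha => by
    have := (h.cx O).d _ _ ha
    rwa [add_sub_cancel_right] at this
  have m1 : σ w + (g ^ (3 * (r + 1))) (σ w2) ∈ F O (n + 1) :=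
    add_mem (x.ms hw') (cx_pow (h.cx _) _ (x.ms hw))
  have m2 := sub_mem (sub_mem (cx_pow (h.cx _) (3 * (r + 1)) hz.1) (h.bl n hb')) (dm m1)
  refine mem_Bc.2 ⟨_, mem_md.2 ⟨_, x.mr m2, b', hb', rfl⟩, _, m1, ?_⟩
  rw [x.ker]
  · abel
  · rw [map_sub, map_sub, ← x.dp, map_add, x.ps, comm_pow x.gp, comm_pow x.gp, x.ps, ← e, map_add,
      map_add, e2, h₂.dg]
    abel

theorem stepB (x : Ex D g F D₁ g₁ F₁ D₂ g₂ F₂ i p σ ρ) (h : FC D g F r n0 L O τ)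
    (h₂ : FC D₂ g₂ F₂ r n0 L O τ) {n : ℤ} {y : E₂}
    (hy : y ∈ Zc D₂ (F₂ O) (bt D₂ F₂ r n0 L) n) : ∃ z ∈ Zc D (F O) (md D F F₁ i r n0 L O) n,
      (g₂ ^ (r + 1)) y - p z ∈ Bc D₂ (F₂ O) (bt D₂ F₂ r n0 L) n := by
  by_cases hn : ((r + 1 : ℕ) : ℤ) < |n|
  · have : y = 0 := by have := hy.1; rwa [h₂.bd _ _ hn] at this
    exact ⟨0, zero_mem _, by simp [this]⟩
  rw [not_lt, abs_le] at hn
  obtain ⟨j, hj⟩ : ∃ j : ℕ, (j : ℤ) = n + r + 5 := ⟨(n + r + 5).toNat, by omega⟩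
  have j0 : jj r n = j + 1 := by unfold jj; omega
  have j1 : jj r (n - 1) = j := by unfold jj; omega
  have y0 : D₂ y ∈ bt D₂ F₂ r n0 L (n - 1) := hy.2
  have y1 : D₂ y ∈ F₂ (n0 - j * L) (n - 1) := j1 ▸ y0.1
  obtain ⟨w, m1, t1⟩ := h₂.agT (b := 0) (by omega) (by omega) y1
    (by rw [h₂.dd]; exact zero_mem _)
  rw [sub_add_cancel] at m1
  have m2 : w ∈ bt D₂ F₂ r n0 L n := by
    refine ⟨j0 ▸ m1, Submodule.mem_comap.2 ?_⟩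
    have := sub_mem (cx_pow (h₂.cx _) (r + 1) y1) (h₂.mT (b := j) (by omega) t1)
    rwa [sub_sub_cancel, ← j1] at this
  have m3 := x.ms (sub_mem (cx_pow (h₂.cx _) (r + 1) hy.1) (h₂.bl n m2))
  refine ⟨_, ⟨m3, Submodule.mem_comap.2 (mem_md.2 ⟨_, x.mr ((h.cx O).d _ _ m3), _,
    h.TB (by omega) (x.ms t1), ?_⟩)⟩, mem_Bc.2 ⟨w, m2, 0, zero_mem _, by simp [x.ps]⟩⟩
  rw [← h₂.dg, ← map_sub]
  conv_rhs => rw [← x.one (D _), ← x.dp, x.ps]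

theorem tameM (x : Ex D g F D₁ g₁ F₁ D₂ g₂ F₂ i p σ ρ) (h : FC D g F r n0 L O τ)
    (h₁ : FC D₁ g₁ F₁ r n0 L O τ) (h₂ : FC D₂ g₂ F₂ r n0 L O τ) (c : ℕ) (hc : 5 * (r + 1) ≤ c) :
    Tame D g c τ (F O) (md D F F₁ i r n0 L O) := by
  have cm := md_cx x h h₁
  have l1 := h.mono O (O + L) (by omega)
  refine (h.lat.up c τ (F O) (fun n => F (O + L) n ⊔ md D F F₁ i r n0 L O n) _ (h.cx _)
    (cx_sup (h.cx _) cm) cm (fun n => le_sup_right) (fun n => sup_le (l1 n) (md_le x h n))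
    (fun n => ⟨ne_top_of_le_ne_top (h.fn n).1 (rl_mono le_sup_left le_sup_right),
      (rl_mono (sup_le_sup_right le_sup_left _) le_sup_right).trans (h.fn n).2⟩)
    fun n z hz => ?_).1
  obtain ⟨a, ha, b, hb, rfl⟩ := Submodule.mem_sup.1 hz.1
  have d1 : D a ∈ md D F F₁ i r n0 L O (n - 1) := by
    have := sub_mem (Submodule.mem_comap.1 hz.2) (cm.d _ _ hb)
    rwa [map_add, add_sub_cancel_right] at this
  have d2 := h₂.gh n (p a) ⟨x.mp ha, Submodule.mem_comap.2 (x.dp a ▸ md_p x d1)⟩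
  rw [← comm_pow x.gp] at d2
  have d3 := stepC x h h₁ h₂ ⟨cx_pow (h.cx _) _ (l1 n ha),
    Submodule.mem_comap.2 (h.dg _ a ▸ cx_pow cm _ d1)⟩ d2
  obtain ⟨c, rfl⟩ := Nat.exists_eq_add_of_le' hc
  rw [map_add]
  refine add_mem ?_ (Submodule.mem_sup_left (cx_pow cm _ hb))
  rw [show c + 5 * (r + 1) = c + (3 * (r + 1) + 2 * (r + 1)) by ring, pow_add, pow_add]
  exact bc_pow h.com (h.cx _) cm c d3

theorem hh_md (x : Ex D g F D₁ g₁ F₁ D₂ g₂ F₂ i p σ ρ) (h : FC D g F r n0 L O τ)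
    (h₁ : FC D₁ g₁ F₁ r n0 L O τ) (c : ℕ) (n : ℤ) :
    hh D g c (md D F F₁ i r n0 L O) (bt D F r n0 L) n =
      hh D₁ g₁ c (F₁ O) (bt D₁ F₁ r n0 L) n := by
  have cm := md_cx x h h₁
  refine le_antisymm (h₁.lat.sur E D g _ _ _ _ i c 0 n h.com cm h.cb x.gi (fun a ha => ?_)
    fun y hy => ?_) (h₁.lat.inj E D g _ _ _ _ i c 0 n (h₁.cx _) h₁.cb x.gi (fun z hz => ?_)
    fun z hz hb => ?_)
  · obtain ⟨b, hb, w, hw, rfl⟩ := mem_Bc.1 ha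
    exact mem_Bc.2 ⟨_, x.bi.2 hb, i w, mem_md.2 ⟨w, hw, 0, zero_mem _, add_zero _⟩, by
      rw [map_add, x.di]⟩
  · obtain ⟨z, hz, b, hb, rfl⟩ := mem_md.1 hy.1
    refine ⟨z, ⟨hz, Submodule.mem_comap.2 (x.bi.1 ?_)⟩, mem_Bc.2 ⟨b, hb, 0, zero_mem _, by simp⟩⟩
    have := sub_mem (Submodule.mem_comap.1 hy.2) (h.cb.d _ _ hb)
    rwa [map_add, add_sub_cancel_right, x.di] at this
  · exact ⟨mem_md.2 ⟨z, hz.1, 0, zero_mem _, add_zero _⟩,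
      Submodule.mem_comap.2 (x.di z ▸ x.bi.2 hz.2)⟩
  · obtain ⟨b, hb, w, hw, e⟩ := mem_Bc.1 hb
    obtain ⟨y, hy, b', hb', rfl⟩ := mem_md.1 hw
    have d1 := h.cb.d _ _ hb'
    rw [add_sub_cancel_right] at d1
    refine mem_Bc.2 ⟨z - D₁ y, x.bi.1 ?_, y, hy, by simp⟩
    have : i (z - D₁ y) = b + D b' := by rw [map_sub, ← e, ← x.di, map_add]; abel
    rw [this]
    exact add_mem hb d1

theorem main (x : Ex D g F D₁ g₁ F₁ D₂ g₂ F₂ i p σ ρ) (h : FC D g F r n0 L O τ)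
    (h₁ : FC D₁ g₁ F₁ r n0 L O τ) (h₂ : FC D₂ g₂ F₂ r n0 L O τ) :
    |chi D g (5 * (r + 1)) (r + 1) (F O) (bt D F r n0 L) -
      chi D₁ g₁ (5 * (r + 1)) (r + 1) (F₁ O) (bt D₁ F₁ r n0 L) -
      chi D₂ g₂ (5 * (r + 1)) (r + 1) (F₂ O) (bt D₂ F₂ r n0 L)| ≤
      20 * (2 * r + 3) * (r + 1) * τ := by
  have cm := md_cx x h h₁
  have tm := tameM x h h₁ h₂
  have a1 := h.lat.add (5 * (r + 1)) τ (r + 1) _ _ _ (h.cx O) cm h.cb (fun n => le_sup_right)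
    (md_le x h) (h.bd O) (h.tame _ (by omega))
    (fun n => by rw [hh_md x h h₁, hh_md x h h₁]; exact h₁.tame _ (by omega) n) (tm _ le_rfl)
  have a2 : chi D g (5 * (r + 1)) (r + 1) (md D F F₁ i r n0 L O) (bt D F r n0 L) =
      chi D₁ g₁ (5 * (r + 1)) (r + 1) (F₁ O) (bt D₁ F₁ r n0 L) := by
    simp only [chi, hh_md x h h₁]
  have a3 : |chi D g (5 * (r + 1)) (r + 1) (F O) (md D F F₁ i r n0 L O) -
      chi D₂ g₂ (5 * (r + 1)) (r + 1) (F₂ O) (bt D₂ F₂ r n0 L)| ≤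
      (2 * r + 3) * (3 * (r + 1) * τ : ℕ) := by
    rw [chi, chi, ← sum_sub_distrib]
    refine (abs_sum_le_sum_abs _ _).trans ((sum_le_card_nsmul _ _
      ((3 * (r + 1) * τ : ℕ) : ℤ) fun n _ => ?_).trans (le_of_eq ?_))
    · rw [← mul_sub, abs_mul, Int.abs_negOnePow, one_mul, abs_sub_le_iff]
      refine ⟨sub_le (h₂.tame _ (by omega) n).1 ((tame_iter tm (3 * (r + 1)) n).trans
        (add_le_add (h.lat.inj E₂ D₂ g₂ _ _ _ _ p _ _ n (h.cx O) cm x.gp (fun z hz => ?_)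
          fun z hz hp => stepC x h h₁ h₂ hz hp) le_rfl)),
        sub_le (tm _ le_rfl n).1 ((tame_iter (fun c hc => h₂.tame c (by omega)) (r + 1) n).trans
        (add_le_add (h.lat.sur E₂ D₂ g₂ _ _ _ _ p _ _ n h₂.com (h₂.cx O) h₂.cb x.gp
          (fun a ha => ?_) fun y hy => stepB x h h₂ hy) ?_))⟩
      · exact ⟨x.mp hz.1, Submodule.mem_comap.2 (x.dp z ▸ md_p x hz.2)⟩
      · obtain ⟨b, hb, w, hw, rfl⟩ := mem_Bc.1 ha
        exact mem_Bc.2 ⟨_, md_p x hb, _, x.mp hw, by rw [map_add, x.dp]⟩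
      · exact_mod_cast Nat.mul_le_mul_right τ (by omega)
    · rw [Int.card_Icc, nsmul_eq_mul]
      congr 1
      omega
  rw [a2] at a1
  rw [abs_le] at a1 a3 ⊢
  push_cast at a1 a3
  have : (0 : ℤ) ≤ (2 * r + 3) * (r + 1) * τ := by positivity
  constructor <;> nlinarith [a1.1, a1.2, a3.1, a3.2]

end abs

variable {V : Type u} [CommRing V] {v : V} {r n0 o s L : ℕ} {κ : Fin (r + 1)} {ι ι₁ ι₂ : Type}
  [Fintype ι] [DecidableEq ι] [Fintype ι₁] [DecidableEq ι₁] [Fintype ι₂] [DecidableEq ι₂]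

theorem fc {deg : ι → ℕ} {Γ D : Matrix ι ι (LL V r)} (f : Far r n0 s L) (h : Cpx v Γ deg D)
    (t : Tm v n0 Γ o s L κ deg D) : FC (DD D) (gg Γ) (fun c => XE v s L κ (fun _ => c) deg) r n0 L
      (L + s * (r + 1)) (tau r o s L) where
  lat := t.lat
  dd := DD_DD h.dd
  com := DD_comm h.com
  cx c := t.cx _ (slope_const h.ent c)
  mono _ _ e := XE_mono fun _ => e
  bd _ := t.bd _
  far := by have := f.2; nlinarith
  cb := t.cb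
  bl := t.bl _ fun _ => by omega
  ag l l'' e1 e2 e3 := t.ag _ _ (slope_const h.ent l) (fun _ => e1) (fun _ => e2) e3
  gh n z hz := by
    have := t.gh _ (slope_const h.ent _) (fun _ => by omega) (fun _ => by omega) n z hz _ le_rfl
    rwa [Nat.add_sub_cancel] at this
  fn := t.fn _ _ (fun _ => by omega) fun _ => by omega
  tame c hc := (t.tame _ (slope_const h.ent _) (fun _ => le_rfl) c hc).1

theorem bt_eq (deg : ι → ℕ) (D : Matrix ι ι (LL V r)) :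
    bt (DD D) (fun c => XE v s L κ (fun _ => c) deg) r n0 L = BT v n0 s L κ deg D := rfl

omit [Fintype ι] [Fintype ι₁] [DecidableEq ι₁] [Fintype ι₂] [DecidableEq ι₂] in
theorem gr_sub {deg : ι → ℕ} {d₁ : ι₁ → ℕ} {d₂ : ι₂ → ℕ} {a : ι₁ → ι} {b : ι₂ → ι}
    (ha : ∀ j, deg (a j) = d₁ j) (hb : ∀ j, deg (b j) = d₂ j) :
    Gr d₂ d₁ 0 ((1 : Matrix ι ι (LL V r)).submatrix a b) := fun i j h => by
  have := Gr.one (d := deg) _ _ h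
  rwa [ha, hb] at this

theorem ex {e : ι₁ ⊕ ι₂ ≃ ι} {deg : ι → ℕ} {Γ D : Matrix ι ι (LL V r)} {deg₁ : ι₁ → ℕ}
    {Γ₁ D₁ : Matrix ι₁ ι₁ (LL V r)} {deg₂ : ι₂ → ℕ} {Γ₂ D₂ : Matrix ι₂ ι₂ (LL V r)}
    (t : Tri e deg D deg₁ D₁ deg₂ D₂) (t' : Tri e deg Γ deg₁ Γ₁ deg₂ Γ₂) :
    Ex (DD D) (gg Γ) (fun c => XE v s L κ (fun _ => c) deg) (DD D₁) (gg Γ₁)
      (fun c => XE v s L κ (fun _ => c) deg₁) (DD D₂) (gg Γ₂)
      (fun c => XE v s L κ (fun _ => c) deg₂)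
      (LM ((1 : Matrix ι ι (LL V r)).submatrix id (e ∘ .inl)) 1)
      (LM ((1 : Matrix ι ι (LL V r)).submatrix (e ∘ .inr) id) 1)
      (LM ((1 : Matrix ι ι (LL V r)).submatrix id (e ∘ .inr)) 1)
      (LM ((1 : Matrix ι ι (LL V r)).submatrix (e ∘ .inl) id) 1) := by
  have k1 : ∀ {A : Matrix ι ι (LL V r)} {A₁ A₂}, Tri e deg A deg₁ A₁ deg₂ A₂ →
      A * (1 : Matrix ι ι (LL V r)).submatrix id (e ∘ .inl) =
        (1 : Matrix ι ι (LL V r)).submatrix id (e ∘ .inl) * A₁ := fun t => by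
    ext1 a b
    obtain ⟨a | a, rfl⟩ := e.surjective a <;> simp [mul_apply, one_apply, t.d1, t.d0]
  have k2 : ∀ {A : Matrix ι ι (LL V r)} {A₁ A₂}, Tri e deg A deg₁ A₁ deg₂ A₂ →
      A₂ * (1 : Matrix ι ι (LL V r)).submatrix (e ∘ .inr) id =
        (1 : Matrix ι ι (LL V r)).submatrix (e ∘ .inr) id * A := fun t => by
    ext1 a b
    obtain ⟨b | b, rfl⟩ := e.surjective b <;> simp [mul_apply, one_apply, t.d2, t.d0]
  refine ⟨DD_LM (k1 t), fun x => (LM_gg (k1 t') 1 x).symm, DD_LM (k2 t),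
    fun x => (LM_gg (k2 t') 1 x).symm, fun x => ?_, fun x => ?_, fun x => ?_, fun x => ?_,
    mem0 (gr_sub (fun _ => rfl) t.g1) fun _ _ => Ent.one _ _,
    mem0 (gr_sub t.g2 fun _ => rfl) fun _ _ => Ent.one _ _,
    mem0 (gr_sub (fun _ => rfl) t.g2) fun _ _ => Ent.one _ _,
    mem0 (gr_sub t.g1 fun _ => rfl) fun _ _ => Ent.one _ _⟩
  · ext1 ⟨a, J⟩; simp [LM_one_apply, one_apply]
  · ext1 ⟨a, J⟩; simp [LM_one_apply, one_apply]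
  · ext1 ⟨a, J⟩; simp [LM_one_apply, one_apply]
  · ext1 ⟨a, J⟩
    obtain ⟨a | a, rfl⟩ := e.surjective a <;> simp [LM_one_apply, one_apply]

end Et

theorem e2Stmt : E2Stmt.{u} := by
  intro V _ v n0 r o s L κ ι ι₁ ι₂ _ _ _ _ _ _ e deg Γ D deg₁ Γ₁ D₁ deg₂ Γ₂ D₂ f t t' h h₁ h₂
    m m₁ m₂
  have := Et.main (Et.ex (v := v) (s := s) (L := L) (κ := κ) t t') (Et.fc f h m) (Et.fc f h₁ m₁)
    (Et.fc f h₂ m₂)
  rw [Et.bt_eq, Et.bt_eq, Et.bt_eq] at this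
  exact this

end Vale.Agent.P202.Mx
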