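import Vale.Agent.P202.M.SpecE
import Vale.Agent.P202.E4

/-! The lower bound for the approximate Euler characteristic over a chain ring. -/

open Finset Matrix MvPowerSeries Filter Topology IsLocalRing
open scoped Kronecker Nat

namespace Vale.Agent.P202.Mx

universe u

namespace E4m

variable {V : Type u} [CommRing V] {r : ℕ} {ι : Type}

theorem pv_mono (v : V) {S T : Set (Mon r)} (h : S ⊆ T) : Pv v S ≤ Pv v T :=
  iInf_mono fun _ => Submodule.comap_mono
    (Ideal.span_mono (Set.image_mono fun _ he => ⟨h he.1, he.2⟩))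

theorem xf_mono (v : V) {N0 : ℕ} {ν : Fin r → ℤ} {deg : ι → ℕ} {N : ℕ} {l l' : ℕ → ℕ}
    (h' : ∀ p, l' p ≤ l p) : XF v N0 ν N l deg ≤ XF v N0 ν N l' deg := fun _ =>
  Submodule.pi_mono fun p _ => pv_mono v fun _ he =>
    ⟨he.1, Om_mono le_rfl (h' (deg p.1)) he.2.1, he.2.2⟩

theorem up_om (N0 : ℕ) (ν : Fin r → ℤ) (N l : ℕ) : Up (Om N0 ν N l) := by
  intro e he
  refine ⟨?_, fun a => ?_⟩
  · have := he.1
    simp only [Finsupp.add_apply, Finsupp.single_eq_same]
    omega
  · have := he.2 a
    simp only [Finsupp.add_apply, Finsupp.single_eq_same, Finsupp.single_eq_of_ne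
      (Option.some_ne_none a), add_zero]
    push_cast
    omega

variable [Fintype ι] [DecidableEq ι]

omit [Fintype ι] [DecidableEq ι] in
theorem s_add {v : V} {D : Matrix ι ι (LL V r)} {l : ℕ → ℕ} (h : Slope v D l) (c : ℕ) :
    Slope v D fun p => l p + c := by
  obtain ⟨h0, σ, h1, h2⟩ := h
  exact ⟨fun a b e => by have := h0 e; simp only; omega, σ, h1, fun p => by
    have := h2 p; simp only; omega⟩

omit [Fintype ι] [DecidableEq ι] in
theorem s_sub {v : V} {D : Matrix ι ι (LL V r)} {l : ℕ → ℕ} (h : Slope v D l) (c : ℕ) :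
    Slope v D fun p => l p - c := by
  obtain ⟨h0, σ, h1, h2⟩ := h
  exact ⟨fun a b e => by have := h0 e; simp only; omega, σ, h1, fun p => by
    have := h2 p; simp only; omega⟩

theorem hz (hC : CbStmt.{u}) [IsLocalRing V] {v : V} {n0 : ℕ} (hv : Ch v n0) {deg : ι → ℕ}
    {D : Matrix ι ι (LL V r)} (g : Module.End V (ι × FJ r → LL V r)) {N0 N : ℕ}
    {ν : Fin r → ℤ} {l l' : ℕ → ℕ} (h1 : Gr deg deg (-1) D) (h2 : D * D = 0)
    (h3 : ∀ p, l p ≤ l' p) (h4 : CxD (DD D) (XF v N0 ν N l deg))
    (h5 : CxD (DD D) (XF v N0 ν N l' deg)) (n : ℤ)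
    (h : ∀ i, ∀ e ∈ Om N0 ν N (l (deg i)), e ∉ Om N0 ν N (l' (deg i)) →
      ¬ typ N0 ν e (deg i - n)) :
    hh (DD D) g 0 (XF v N0 ν N l deg) (XF v N0 ν N l' deg) n = 0 := by
  refine nonpos_iff_eq_zero.1 (((hC V v n0 r hv ι deg D g N0 ν _ _ h1 h2
    (fun p => Om_mono le_rfl (h3 p)) (fun p => up_om _ _ _ _) (fun p => up_om _ _ _ _)
    h4 h5).1 n).trans ?_)
  refine (sum_eq_zero fun i _ => ?_).le
  rw [Set.encard_eq_zero, Set.eq_empty_iff_forall_notMem]
  exact fun e he => h i e he.1 he.2.1 he.2.2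

end E4m

open E4m Ef

theorem e4Stmt (hC : CbStmt.{u}) (hN : NumStmt.{u}) : E4Stmt.{u} := by
  intro V _ _ v n0 r hv o s L ι _ _ Γ deg D hf g t hD hz0
  have hs := hf.1
  have hn0 : L + s * (r + 1) ≤ n0 := le_trans (by nlinarith) hf.2
  let l : ℕ → ℕ := fun p => L + s * (r + 1 - p)
  have sl : Slope v D l := ⟨fun a b h => Nat.add_le_add_left (Nat.mul_le_mul_left _ (by omega)) _,
    s, hD, fun p => by
      have : s * (r + 1 - p) ≤ s * (r + 1 - (p + 1) + 1) := Nat.mul_le_mul_left _ (by omega)
      simp only [l]; linarith⟩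
  have sc : Slope v D fun _ => L + s * (r + 1) := ⟨antitone_const, 0, g.ent, by simp⟩
  have l1 : ∀ p, l p ≤ L + s * (r + 1) := fun p =>
    Nat.add_le_add_left (Nat.mul_le_mul_left _ (by omega)) _
  have l2 : ∀ i, (l (deg i) : ℤ) = L + s * (r + 1) - s * deg i := fun i => by
    simp only [l]; push_cast [g.le i]; ring
  have hs' : (1 : ℤ) ≤ s := by exact_mod_cast hs
  have hc : 2 * (r + 1) ≤ 5 * (r + 1) := by omega
  have key : ∀ κ, 0 ≤ eu v n0 Γ s L κ deg D + (∑ i, (-1) ^ deg i *
      ∑ m ∈ Ico (l (deg i)) (L + s * (r + 1)), ∏ a,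
        (nu s L κ a + m - (2 * L + s * (r + 1) : ℕ) + 1)) +
      20 * (2 * r + 3) * (r + 1) * tau r o s L := by
    intro κ
    have t := t κ
    have cT := t.cx l sl
    have cX := t.cx _ sc
    have le : XE v s L κ (fun _ => L + s * (r + 1)) deg ≤ XE v s L κ l deg := xf_mono v l1
    have bT := t.bl l fun p => by have := l1 p; omega
    have f := t.lat.fin (5 * (r + 1)) _ (r + 1) _ _ cT cX le (t.bd l)
      (t.fn _ _ l1 fun p => by omega)
    have a := t.lat.add (5 * (r + 1)) _ (r + 1) _ _ _ cT cX t.cb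
      (t.bl _ fun p => by omega) le (t.bd l)
      (t.tame l sl l1 _ hc).1 (t.tame _ sc (fun _ => le_rfl) _ hc).1 f.1
    have n := (hN V v n0 r hv).2 ι deg (2 * L + s * (r + 1)) (nu s L κ) (L + s * (r + 1)) l
      (fun _ => L + s * (r + 1)) g.le (by omega) l1 (fun _ => hn0) fun p a => by
        have := (nu_bd s L hs κ a).1
        have : L ≤ l p := Nat.le_add_right _ _
        omega
    have w : ∀ n, n ≠ 0 → hh (DD D) (gg Γ) (5 * (r + 1)) (XE v s L κ l deg)
        (BT v n0 s L κ deg D) n = 0 := by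
      intro n hn
      rcases lt_or_gt_of_ne hn with hn | hn
      · refine nonpos_iff_eq_zero.1 (((t.tame l sl l1 _ hc).2 n).trans (hz hC hv _ g.gr g.dd
          (fun p => Nat.le_add_right _ _) cT.d (t.cx _ (s_add sl L)).d n
          fun i e h1 _ h3 => ?_).le)
        have : #{a | e (some a) < 2 * L + s * (r + 1)} ≤ #{a : Fin r | (a : ℕ) < deg i} := by
          refine card_le_card fun a ha => mem_filter.2 ⟨mem_univ _, ?_⟩
          have b1 := (mem_filter.1 ha).2
          have b2 := h3.1 a
          have b3 := h1.1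
          have b4 := l2 i
          have b5 := (sa κ a).1
          by_contra b6
          have : (s : ℤ) * deg i ≤ s * (κ.succAbove a : ℕ) := by gcongr; omega
          unfold nu at b2
          zify at b1 b2 b3
          split_ifs at b2 <;> exact absurd (b2.2 (by linarith)) (by linarith)
        rw [Fin.card_filter_val_lt] at this
        have := h3.2
        omega
      · refine nonpos_iff_eq_zero.1 ((t.lat.down (5 * (r + 1)) _ _ _ n cT (t.cx _ (s_sub sl L))
          t.cb bT (xf_mono v fun p => Nat.sub_le _ _)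
          (fun z hz => t.gh l sl (fun p => Nat.le_add_right _ _)
            (fun p => by have := l1 p; omega) n z hz _ hc)).trans (hz hC hv _ g.gr g.dd
          (fun p => Nat.sub_le _ _) (t.cx _ (s_sub sl L)).d cT.d (n + 1)
          fun i e h1 h2 h3 => ?_).le)
        have : #{a : Fin r | (a : ℕ) < deg i - 1} ≤ #{a | e (some a) < 2 * L + s * (r + 1)} := by
          refine card_le_card fun a ha => mem_filter.2 ⟨mem_univ _, ?_⟩
          have b1 := (mem_filter.1 ha).2
          have b3 : e none < l (deg i) := not_le.1 fun c => h2 ⟨c, h1.2⟩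
          have b4 := l2 i
          have b5 := (sa κ a).2
          by_contra b6
          have b2 := (h3.1 a).1 (not_lt.1 b6)
          have : (s : ℤ) * ((κ.succAbove a : ℕ) + 1) ≤ s * deg i := by gcongr; omega
          unfold nu at b2
          zify at b3 b6
          split_ifs at b2 <;> linarith
        rw [Fin.card_filter_val_lt] at this
        have := h3.2
        have := g.le i
        omega
    have p : 0 ≤ chi (DD D) (gg Γ) (5 * (r + 1)) (r + 1) (XE v s L κ l deg)
        (BT v n0 s L κ deg D) :=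
      sum_nonneg fun n _ => by
        by_cases h : n = 0
        · simp [h]
        · simp [w n h]
    have f2 := f.2
    unfold XE at f2
    rw [n] at f2
    have := (abs_le.1 a).2
    have := (abs_le.1 f2).2
    unfold eu XE at *
    push_cast at *
    linarith
  have := sum_nonneg fun κ (_ : κ ∈ univ) => key κ
  rw [sum_add_distrib, sum_add_distrib, sum_comm] at this
  simp only [← mul_sum, l, fun i => num r s L (deg i) (g.le i)] at this
  have e : ∑ i, (-1 : ℤ) ^ deg i * (if deg i = 0 then 0 else ((r + 1)! * s ^ (r + 1) : ℤ)) =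
      (∑ i, (-1 : ℤ) ^ deg i) * ((r + 1)! * s ^ (r + 1)) -
        #{i | deg i = 0} * ((r + 1)! * s ^ (r + 1) : ℤ) := by
    rw [card_filter, Nat.cast_sum, sum_mul, sum_mul, ← sum_sub_distrib]
    refine sum_congr rfl fun i _ => ?_
    split_ifs with h <;> simp [h]
  rw [e, hz0] at this
  simp only [sum_const, card_univ, Fintype.card_fin, nsmul_eq_mul] at this
  push_cast at this ⊢
  linarith

end Vale.Agent.P202.Mx
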