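import Vale.Agent.P202.M.E5c

open Finset Matrix MvPowerSeries Filter Topology IsLocalRing
open scoped Kronecker Nat

namespace Vale.Agent.P202.Mx

universe u

namespace E5x

open E3m (cnt_le mon_ext typ_high typ_low JT JT_card mem_JT sub_JT sgm sgm_none sgm_some O2)

variable {V : Type u} [CommRing V] {r : ℕ} {v : V} {ι : Type} [Fintype ι] [DecidableEq ι]
  {deg : ι → ℕ} {Γ D : Matrix ι ι (LL V r)} {N0 O L u n0 : ℕ} {ν : Fin r → ℤ}

theorem red0 [IsLocalRing V] (hC : CbStmt.{u}) (hV : Ch v n0) (hD : Gr deg deg (-1) D)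
    (hDD : D * D = 0) (hE : Ent v 0 D) (hN : N0 = O + L) (hν : ∀ a, (L : ℤ) ≤ ν a)
    (hl : Lat (DD D) (gg Γ)) :
    hh (DD D) (gg Γ) 0 (XF v N0 ν O (fun _ => O) deg) (XF v N0 ν O (fun _ => O + L) deg) 0 ≤
      rl (Bc (DD D) (XS v N0 ν deg (O2 N0 O L ν)) (Xb v deg N0 O L ν) 0)
        (XS v N0 ν deg (O2 N0 O L ν) 0) := by
  have cX := XF_cxd (N0 := N0) (ν := ν) hD hE O O
  have cX1 := XF_cxd (N0 := N0) (ν := ν) hD hE O (O + L)
  have cX2 := O2_cx (N0 := N0) (O := O) (L := L) (ν := ν) hD hE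
  have s1 : ∀ p, Om N0 ν O (O + L) ⊆ O2 N0 O L ν p := fun _ => Set.subset_union_left
  have s2 : ∀ p, O2 N0 O L ν p ⊆ Om N0 ν O O := fun _ =>
    Set.union_subset (Om_mono le_rfl (by omega)) (Om_mono (by omega) le_rfl)
  have cXb : CxD (DD D) (Xb v deg N0 O L ν) := flat_cx s1 cX2 cX1
  have e1 : hh (DD D) (gg Γ) 0 (XF v N0 ν O (fun _ => O) deg)
      (XS v N0 ν deg (O2 N0 O L ν)) 0 = 0 := by
    refine le_antisymm (((hC V v n0 r hV ι deg D _ N0 ν (fun _ => Om N0 ν O O) _ hD hDD s2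
      (fun _ => up_Om _ _ _ _) up_O2 cX cX2).1 0).trans ?_) zero_le
    refine (sum_eq_zero fun i _ => Set.encard_eq_zero.2 ?_).le
    exact Set.eq_empty_of_forall_notMem fun e he =>
      he.2.1 (Or.inr (typ_high hN hν he.2.2 he.1.1).2)
  have e2 : hh (DD D) (gg Γ) 0 (Xb v deg N0 O L ν) (XF v N0 ν O (fun _ => O + L) deg) 0 = 0 := by
    refine (hC V v n0 r hV ι deg D _ N0 ν _ (fun _ => Om N0 ν O (O + L)) hD hDD s1 up_O2
      (fun _ => up_Om _ _ _ _) cX2 cX1).2 (fun p e h1 h2 => ?_) 0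
    have h3 : e ∈ Om N0 ν 0 O := h1.resolve_left h2
    refine ⟨fun a => by have := h3.2 a; omega, ?_⟩
    simpa using fun a => (h3.2 a).1
  refine (hl.sub _ _ _ cX cX2 cX1 (XF_le_Xb.trans Xb_le) (XS_mono s2) 0).trans ?_
  rw [e1, add_zero]
  refine (hl.sub _ _ _ cX2 cXb cX1 XF_le_Xb Xb_le 0).trans ?_
  rw [e2, zero_add, hh0]
  exact rl_mono le_rfl (inf_le_left.trans le_sup_right)

theorem main0 {C : ℕ} {w : Fin r ! → LL V r}
    (hw : ∀ j, w j ∈ Pv v (SB r 0))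
    (hs : rl ((⨆ j, LinearMap.range (LinearMap.mulRight V (w j) ∘ₗ (thA v r).toLinearMap)) ⊔
      Pv v (SB r L)) (Pv v (SB r 0)) ≤ (C * (L + 1) ^ r : ℕ))
    (hN : N0 = O + L) (hν : ∀ a, (L : ℤ) ≤ ν a)
    (N : Submodule (PS V r) (ι → PS V r)) (lam : ℕ)
    (hlam : Module.length V ((ι → PS V r) ⧸ N) ≤ lam) (P Q : Submodule V (ι × FJ r → LL V r))
    (hXP : Xb v deg N0 O L ν 0 ≤ P)
    (hv : ∀ a ∈ N, ∀ c ∈ Pv v (Om N0 ν 0 O), (pm deg 0 fun i => thA v r (a i) * c) ∈ P) (K : ℕ)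
    (hK : ∀ P' : Submodule V (ι × FJ r → LL V r), P ≤ P' →
      (∀ i, ∀ f ∈ Pv v (SB r 0), pm deg 0 (Pi.single i (f * mn v (sgm r N0 O))) ∈ P') →
      rl P' Q ≤ K) :
    rl P Q ≤ (r ! * lam + Fintype.card ι * (C * (L + 1) ^ r) + K : ℕ) := by
  have hm : mn v (sgm r N0 O) ∈ Pv v (Om N0 ν 0 O) := mn_mem (sgm_mem hN hν)
  let T : Fin r ! → (ι → PS V r) →ₗ[V] (ι × FJ r → LL V r) := fun j =>
    pm deg 0 ∘ₗ LinearMap.pi fun i =>
      (LinearMap.mulRight V (w j * mn v (sgm r N0 O)) ∘ₗ (thA v r).toLinearMap) ∘ₗ LinearMap.proj i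
  let S : ι → LL V r →ₗ[V] (ι × FJ r → LL V r) := fun i =>
    pm deg 0 ∘ₗ LinearMap.single V (fun _ => LL V r) i ∘ₗ LinearMap.mulRight V (mn v (sgm r N0 O))
  set P1 := P ⊔ ⨆ j, LinearMap.range (T j) with hP1
  set P2 := P1 ⊔ ⨆ i, (Pv v (SB r 0)).map (S i) with hP2
  refine (rl_le_add P P2 Q).trans ?_
  rw [Nat.cast_add]
  refine add_le_add ((rl_le_add P P1 P2).trans ?_) ?_
  · rw [Nat.cast_add]
    refine add_le_add ?_ ?_
    · refine (rl_mono le_rfl le_rfl).trans ((rl_iSup_le P _).trans ?_)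
      refine (sum_le_sum (g := fun _ => (lam : ℕ∞)) fun j _ => ?_).trans (by simp)
      refine le_trans (rl_le_of_map (T j) (P := N.restrictScalars V) (Q := ⊤) (fun a ha => ?_)
        (by simp)) ((cl_eq (k := V) N).symm.le.trans hlam)
      exact hv a ha _ (mul_mem_Pv (hw j) hm fun a ha b hb => add_mem_Om ha hb le_rfl)
    · refine (rl_mono le_rfl le_rfl).trans ((rl_iSup_le P1 _).trans ?_)
      refine (sum_le_sum (g := fun _ => ((C * (L + 1) ^ r : ℕ) : ℕ∞)) fun i _ => ?_).trans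
        (by simp)
      refine le_trans (rl_le_of_map (S i) (fun x hx => ?_) le_sup_right) hs
      refine (?_ : Submodule.map (S i) _ ≤ P1) (Submodule.mem_map_of_mem hx)
      rw [Submodule.map_sup, Submodule.map_iSup]
      refine sup_le (iSup_le fun j => ?_) ?_
      · rintro _ ⟨_, ⟨a, rfl⟩, rfl⟩
        refine Submodule.mem_sup_right (Submodule.mem_iSup_of_mem j ⟨Pi.single i a, ?_⟩)
        simp only [T, S, LinearMap.comp_apply]
        congr 1
        ext1 i'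
        by_cases c : i' = i
        · subst c
          simp [mul_assoc]
        · simp [c]
      · rintro _ ⟨f, hf, rfl⟩
        refine Submodule.mem_sup_left (hXP (XF_le_Xb 0 ?_))
        exact XF_mono (Nat.zero_le O) (fun _ => le_rfl) 0 (pm_mem 0 (O + L)
          (single_mem (mul_mem_Pv hf hm fun a ha b hb => add_mem_Om ha hb le_rfl) i))
  · exact hK P2 (le_sup_left.trans le_sup_left)
      fun i f hf => Submodule.mem_sup_right (Submodule.mem_iSup_of_mem i ⟨f, hf, rfl⟩)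

omit [DecidableEq ι] in
theorem sm0 {τ K : ℕ}
    (hT : Fn (gg Γ) τ (XF v N0 ν 0 (fun _ => O) deg) (XF v N0 ν 0 (fun _ => O + L) deg))
    (B : Submodule V (ι × FJ r → LL V r)) (hXB : Xb v deg N0 O L ν 0 ≤ B)
    (h : rl (B.comap (gg Γ)) (XS v N0 ν deg (O2 N0 O L ν) 0) ≤ K) :
    rl B (XS v N0 ν deg (O2 N0 O L ν) 0) ≤ (K + τ : ℕ) := by
  set Q := XS v N0 ν deg (O2 N0 O L ν) 0 with hQ
  refine (rl_le_add B (B ⊔ Q.map (gg Γ)) Q).trans ?_
  rw [Nat.cast_add]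
  refine add_le_add
    ((rl_le_of_map (gg Γ) (P := B.comap (gg Γ)) (Q := Q) (fun x hx => hx) le_rfl).trans h) ?_
  refine le_trans (rl_mono ?_ ?_) (hT 0).2
  · refine sup_le_sup ((XF_mono (Nat.zero_le O) (fun _ => le_rfl) 0).trans
      ((XF_le_Xb 0).trans hXB)) (Submodule.map_mono (XS_mono (fun _ => Set.subset_union_right) 0))
  · exact (XS_union 0).trans (sup_le_sup_right (((XF_le_Xb 0).trans hXB).trans le_sup_left) _)

theorem single0 (hD : Gr deg deg (-1) D) (hΓ : Gr deg deg 0 Γ) {t c : LL V r}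
    (hc : c ∈ Pv v (Om N0 ν 0 O)) (i0 : ι)
    (h : deg i0 = 0 → ∃ w : ι → LL V r, (∀ i, w i ∈ Pv v (SB r 0)) ∧
      ∀ i, deg i = 0 → Γ i i0 * t = (D *ᵥ w) i) :
    gg Γ (pm deg 0 (Pi.single i0 (t * c))) ∈
      Bc (DD D) (XS v N0 ν deg (O2 N0 O L ν)) (Xb v deg N0 O L ν) 0 := by
  by_cases hi : deg i0 = 0
  · obtain ⟨w, hw, hw'⟩ := h hi
    have h4 := part1 (L := L) hD hΓ hc (y := Pi.single i0 t) hw fun j hj => by
      rw [← hw' j hj, mulVec_single]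
      simp [mul_comm]
    have h5 : (fun j => (Pi.single i0 t : ι → _) j * c) = Pi.single i0 (t * c) := by
      ext1 j
      by_cases e : j = i0
      · subst e
        simp
      · simp [e]
    rwa [h5] at h4
  · rw [pm_congr (G := 0) fun j hj => Pi.single_eq_of_ne (fun d : j = i0 => hi (d ▸ hj)) _,
      map_zero, map_zero]
    exact zero_mem _

theorem zero [IsLocalRing V] (hC : CbStmt.{u}) (hS : Seg.{u} r) (hV : Ch v n0) (hG : Cpx v Γ deg D)
    {C : ℕ} {w : Fin r ! → LL V r} (hw : ∀ j, w j ∈ Pv v (SB r 0))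
    (hs : rl ((⨆ j, LinearMap.range (LinearMap.mulRight V (w j) ∘ₗ (thA v r).toLinearMap)) ⊔
      Pv v (SB r L)) (Pv v (SB r 0)) ≤ (C * (L + 1) ^ r : ℕ))
    (hN : N0 = O + L) (hO : O = L + u) (hν : ∀ a, (L : ℤ) ≤ ν a ∧ ν a ≤ O)
    (hl : Lat (DD D) (gg Γ)) {τ : ℕ}
    (hT : Fn (gg Γ) τ (XF v N0 ν 0 (fun _ => O) deg) (XF v N0 ν 0 (fun _ => O + L) deg))
    (N : Submodule (PS V r) (ι → PS V r)) (lam : ℕ)
    (hv : ∀ a ∈ N, ∃ w : ι → LL V r, (∀ i, w i ∈ Pv v (SB r 0)) ∧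
      ∀ i, deg i = 0 → (Γ *ᵥ fun j => thA v r (a j)) i = (D *ᵥ w) i)
    (hlam : Module.length V ((ι → PS V r) ⧸ N) ≤ lam) {n q : ℕ} (hq : q ≠ 0)
    (hg : ∀ I : Finset (Fin r), ∃ g : Fin (r + 1) → LL V r,
      (∀ j, g j ∈ Pv v (SB r 0)) ∧ mu v I ^ n = ∑ j, g j * th v r j ^ q)
    (I0 : Ideal (PS V r)) (lam' : ℕ)
    (hv' : ∀ a ∈ I0, ∀ i0, deg i0 = 0 → ∃ w : ι → LL V r, (∀ i, w i ∈ Pv v (SB r 0)) ∧
      ∀ i, deg i = 0 → Γ i i0 * thA v r (expand q hq a) = (D *ᵥ w) i)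
    (hl' : Module.length V (PS V r ⧸ (I0 ⊔ Ideal.span {MvPowerSeries.C v ^ u})) ≤ lam') :
    hh (DD D) (gg Γ) 0 (XF v N0 ν O (fun _ => O) deg) (XF v N0 ν O (fun _ => O + L) deg) 0 ≤
      (r ! * lam + Fintype.card ι * (C * (L + 1) ^ r) +
        Fintype.card ι * ((u + 2 * n) ^ r * lam') + τ : ℕ) := by
  refine (red0 hC hV hG.gr hG.dd hG.ent hN (fun a => (hν a).1) hl).trans ?_
  set B := Bc (DD D) (XS v N0 ν deg (O2 N0 O L ν)) (Xb v deg N0 O L ν) 0 with hB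
  have hXB : Xb v deg N0 O L ν 0 ≤ B := le_sup_left
  have hXP : Xb v deg N0 O L ν 0 ≤ B.comap (gg Γ) := fun x hx => hXB (Xb_g hG.g0 hG.ge hx)
  refine sm0 hT B hXB (main0 hw hs hN (fun a => (hν a).1) N lam hlam _ _ hXP
    (fun a ha c hc => ?_) _ fun P h1 h2 => ?_)
  · obtain ⟨w', h1, h2⟩ := hv a ha
    exact part1 hG.gr hG.g0 hc h1 h2
  · refine part3 hS hN hO hν hq hg I0 lam' hl' P (hXP.trans h1) h2 fun i a ha c hc => h1 ?_
    exact single0 hG.gr hG.g0 hc i (hv' a ha i)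

theorem num0 (r C c o s L q lam n : ℕ) : n * (C * (L + 1) ^ r) +
    n * ((s * (r + 1) + 2 * (c * q)) ^ r * lam) + o * (L + s * (r + 1) + 1) ^ r ≤
      (C + (r + 1 + 2 * c) ^ r + (r + 1) ^ r) *
        (o * (L + s + 1) ^ r + n * ((L + s + 1) ^ r + (s + q) ^ r * (lam + s + q))) := by
  have h1 : (L + 1) ^ r ≤ (L + s + 1) ^ r := Nat.pow_le_pow_left (by omega) _
  have h2 : (L + s * (r + 1) + 1) ^ r ≤ (r + 1) ^ r * (L + s + 1) ^ r := by
    rw [← mul_pow]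
    exact Nat.pow_le_pow_left (by nlinarith) _
  have h3 : (s * (r + 1) + 2 * (c * q)) ^ r ≤ (r + 1 + 2 * c) ^ r * (s + q) ^ r := by
    rw [← mul_pow]
    exact Nat.pow_le_pow_left (by nlinarith) _
  set A := o * (L + s + 1) ^ r + n * ((L + s + 1) ^ r + (s + q) ^ r * (lam + s + q)) with hA
  have a1 : n * (L + 1) ^ r ≤ A :=
    (Nat.mul_le_mul_left _ (h1.trans (Nat.le_add_right _ _))).trans (Nat.le_add_left _ _)
  have a2 : o * (L + s + 1) ^ r ≤ A := Nat.le_add_right _ _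
  have a3 : n * ((s + q) ^ r * lam) ≤ A := by
    refine le_trans (Nat.mul_le_mul_left _ (le_trans ?_ (Nat.le_add_left _ _))) (Nat.le_add_left _ _)
    exact Nat.mul_le_mul_left _ (by omega)
  calc _ ≤ n * (C * (L + 1) ^ r) + n * ((r + 1 + 2 * c) ^ r * (s + q) ^ r * lam) +
        o * ((r + 1) ^ r * (L + s + 1) ^ r) := by gcongr
    _ = C * (n * (L + 1) ^ r) + (r + 1 + 2 * c) ^ r * (n * ((s + q) ^ r * lam)) +
        (r + 1) ^ r * (o * (L + s + 1) ^ r) := by ring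
    _ ≤ C * A + (r + 1 + 2 * c) ^ r * A + (r + 1) ^ r * A := by gcongr
    _ = _ := by ring

theorem num1 (r o s L q lam n : ℕ) : n * (s * (r + 1) * (2 * (s * (r + 1))) ^ r) ≤
    (r + 1) * (2 * (r + 1)) ^ r *
      (o * (L + s + 1) ^ r + n * ((L + s + 1) ^ r + (s + q) ^ r * (lam + s + q))) := by
  calc _ = (r + 1) * (2 * (r + 1)) ^ r * (n * (s ^ r * s)) := by
        rw [show 2 * (s * (r + 1)) = 2 * (r + 1) * s by ring, mul_pow]
        ring
    _ ≤ (r + 1) * (2 * (r + 1)) ^ r * (n * ((s + q) ^ r * (lam + s + q))) := by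
        gcongr <;> omega
    _ ≤ _ := Nat.mul_le_mul_left _ ((Nat.mul_le_mul_left _ (Nat.le_add_left _ _)).trans
        (Nat.le_add_left _ _))

theorem nu_bd' {s : ℕ} (hs1 : 1 ≤ s) (κ : Fin (r + 1)) (a : Fin r) :
    (L : ℤ) ≤ nu s L κ a ∧ nu s L κ a ≤ (L + s * (r + 1) : ℕ) := by
  have := nu_bd s L hs1 κ a
  push_cast
  omega

theorem other [IsLocalRing V] (hC : CbStmt.{u}) (hV : Ch v n0) {o s : ℕ} {κ : Fin (r + 1)}
    (hs1 : 1 ≤ s) (hG : Cpx v Γ deg D) (hM : Tm v n0 Γ o s L κ deg D) (n : ℤ) (hn : n ≠ 0) :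
    hh (DD D) (gg Γ) (5 * (r + 1)) (XE v s L κ (fun _ => L + s * (r + 1)) deg)
      (BT v n0 s L κ deg D) n ≤
      (Fintype.card ι * (s * (r + 1) * (2 * (s * (r + 1))) ^ r) : ℕ) := by
  have hν := nu_bd' (L := L) hs1 κ
  have hN : 2 * L + s * (r + 1) = L + s * (r + 1) + L := by ring
  have ht := (hM.tame _ (slope_const hG.ent (L + s * (r + 1))) (fun _ => le_rfl) (5 * (r + 1))
    (by omega)).2
  have cX := hM.cx _ (slope_const hG.ent (L + s * (r + 1)))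
  rcases lt_or_gt_of_ne hn with h | h
  · refine (ht n).trans (((hC V v n0 r hV ι deg D _ _ _
      (fun _ => Om (2 * L + s * (r + 1)) (nu s L κ) (L + s * (r + 1)) (L + s * (r + 1)))
      (fun _ => Om (2 * L + s * (r + 1)) (nu s L κ) (L + s * (r + 1)) (L + s * (r + 1) + L))
      hG.gr hG.dd (fun _ => Om_mono le_rfl (Nat.le_add_right _ _)) (fun _ => up_Om _ _ _ _)
      (fun _ => up_Om _ _ _ _) cX.d
      (hM.cx _ (slope_const hG.ent (L + s * (r + 1) + L))).d).1 n).trans ?_)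
    refine (sum_eq_zero fun i _ => Set.encard_eq_zero.2 ?_).le.trans zero_le
    refine Set.eq_empty_of_forall_notMem fun e he => ?_
    have := (typ_high hN (fun a => (hν a).1) he.2.2 he.1.1).1
    omega
  · have cX2 := hM.cx _ (slope_const hG.ent (L + s * (r + 1) - L))
    refine (hM.lat.down _ _ _ _ n cX cX2 hM.cb (hM.bl _ fun _ => by omega)
      (XF_mono le_rfl fun _ => Nat.sub_le _ _) fun z hz =>
      hM.gh _ (slope_const hG.ent _) (fun _ => Nat.le_add_right _ _) (fun _ => by omega) n z hz _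
        (by omega)).trans ?_
    refine ((hC V v n0 r hV ι deg D _ _ _
      (fun _ => Om (2 * L + s * (r + 1)) (nu s L κ) (L + s * (r + 1)) (L + s * (r + 1) - L))
      (fun _ => Om (2 * L + s * (r + 1)) (nu s L κ) (L + s * (r + 1)) (L + s * (r + 1)))
      hG.gr hG.dd (fun _ => Om_mono le_rfl (Nat.sub_le _ _)) (fun _ => up_Om _ _ _ _)
      (fun _ => up_Om _ _ _ _) cX2.d cX.d).1 (n + 1)).trans ?_
    refine (sum_le_sum (g := fun _ => ((s * (r + 1) * (2 * (s * (r + 1))) ^ r : ℕ) : ℕ∞))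
      fun i _ => ?_).trans ?_
    · refine le_trans (Set.encard_le_encard fun e he => ?_)
        (typ_low hN rfl hν (j := deg i - (n + 1)) (by have := hG.le i; omega))
      refine ⟨?_, he.2.2⟩
      by_contra c
      exact he.2.1 ⟨not_lt.1 c, he.1.2⟩
    · rw [sum_const, card_univ, nsmul_eq_mul, ← Nat.cast_mul]

end E5x

theorem e5Stmt (hC : CbStmt.{u}) (hS : SegStmt.{u}) : E5Stmt.{u} := by
  intro r c C0 hc
  refine ⟨C0 + (r + 1 + 2 * c) ^ r + (r + 1) ^ r +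
    (2 * (r + 1) + 1) * ((r + 1) * (2 * (r + 1)) ^ r), ?_⟩
  intro V _ _ v n0 hV ⟨w, hw, hs⟩ o s L κ ι _ _ Γ deg D hF hG hM N lam hv hlam q hq I0 lam' hv' hl'
  have hν := E5x.nu_bd' (L := L) hF.1 κ
  have hN : 2 * L + s * (r + 1) = L + s * (r + 1) + L := by ring
  have ht := (hM.tame _ (E5x.slope_const hG.ent (L + s * (r + 1))) (fun _ => le_rfl) (5 * (r + 1))
    (by omega)).2
  have hT := hG.sm (2 * L + s * (r + 1)) (nu s L κ) 0 (fun _ => L + s * (r + 1))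
    (fun _ => L + s * (r + 1) + L) (L + s * (r + 1) + 1) (fun _ => Nat.le_add_right _ _)
    (fun _ => by have := hF.2; nlinarith) fun _ a => by
      have := hν a
      push_cast at this ⊢
      omega
  refine (E5x.chi_le _ _ _ _ _ _ (r ! * lam + (C0 + (r + 1 + 2 * c) ^ r + (r + 1) ^ r) *
    (o * (L + s + 1) ^ r + Fintype.card ι * ((L + s + 1) ^ r + (s + q) ^ r * (lam' + s + q))))
    ((r + 1) * (2 * (r + 1)) ^ r *
      (o * (L + s + 1) ^ r + Fintype.card ι * ((L + s + 1) ^ r + (s + q) ^ r * (lam' + s + q))))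
    ?_ fun n hn => (E5x.other hC hV hF.1 hG.toCpx hM n hn).trans
      (Nat.cast_le.2 (E5x.num1 r o s L q lam' _))).trans ?_
  · refine (ht 0).trans ((E5x.zero hC (hS r) hV hG.toCpx hw (hs L) hN rfl hν hM.lat hT N lam hv hlam
      hq (hc V v q) I0 lam' hv' hl').trans (Nat.cast_le.2 ?_))
    have := E5x.num0 r C0 c o s L q lam' (Fintype.card ι)
    omega
  · push_cast
    exact le_of_eq (by ring)

end Vale.Agent.P202.Mx
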