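import Vale.Agent.P202.M.SpecI

/-! Module EP: the Jacobian element of a section. -/

open Finset Matrix

namespace Vale.Agent.P202.Mx

universe u

namespace Ep

open MvPolynomial

variable {A : Type u} [CommRing A] {h : ℕ}

lemma tay (a : Fin h → A) (F : MvPolynomial (Fin h) A) :
    ∃ G : Fin h → MvPolynomial (Fin h) A, F - C (eval a F) = ∑ j, G j * (X j - C (a j)) ∧
      ∀ j, eval a (G j) = eval a (pderiv j F) := by
  induction F using MvPolynomial.induction_on with
  | C c => exact ⟨0, by simp, fun j => by simp⟩
  | add p q hp hq =>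
    obtain ⟨G, hG, hG'⟩ := hp
    obtain ⟨H, hH, hH'⟩ := hq
    refine ⟨G + H, ?_, fun j => by simp [hG', hH']⟩
    simp only [Pi.add_apply, add_mul, sum_add_distrib, ← hG, ← hH, map_add]
    ring
  | mul_X p i hp =>
    obtain ⟨G, hG, hG'⟩ := hp
    refine ⟨fun j => G j * X i + if j = i then C (eval a p) else 0, ?_, fun j => ?_⟩
    · have h1 : ∑ j, (G j * X i + if j = i then C (eval a p) else 0) * (X j - C (a j)) =
          (∑ j, G j * (X j - C (a j))) * X i + C (eval a p) * (X i - C (a i)) := by
        simp only [add_mul, sum_add_distrib, ite_mul, zero_mul, sum_ite_eq', mem_univ, if_true,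
          sum_mul]
        congr 1
        exact sum_congr rfl fun j _ => by ring
      rw [h1, ← hG]
      simp only [map_mul, eval_X]
      ring
    · by_cases hj : j = i
      · subst hj
        simp [hG', mul_comm, add_comm]
      · have hj' : i ≠ j := fun e => hj e.symm
        simp [hG', hj, pderiv_X_of_ne hj', mul_comm]

end Ep

open MvPolynomial in
theorem epsStmt : EpsStmt.{u} := by
  intro A T _ _ _ h u F J hs h0 hJ
  choose a ha using fun j => hJ (u j)
  choose G hG hG' using fun i => Ep.tay a (F i)
  set 𝔞 := (J.comap (algebraMap A T)).map (algebraMap A T) with h𝔞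
  let q := Ideal.Quotient.mk J
  have hev : ∀ g : MvPolynomial (Fin h) A, q (aeval u g) = q (algebraMap A T (eval a g)) := by
    intro g
    induction g using MvPolynomial.induction_on with
    | C c => simp
    | add p r hp hr => simp only [map_add, hp, hr]
    | mul_X p i hp =>
      simp only [map_mul, hp, aeval_X, eval_X]
      congr 1
      exact Ideal.Quotient.eq.2 (ha i)
  let M : Matrix (Fin h) (Fin h) T := Matrix.of fun i j => aeval u (G i j)
  let M0 : Matrix (Fin h) (Fin h) A := Matrix.of fun i j => eval a (G i j)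
  have hF : ∀ i, algebraMap A T (eval a (F i)) ∈ 𝔞 := fun i => by
    refine Ideal.mem_map_of_mem _ (Ideal.mem_comap.2 (Ideal.Quotient.eq_zero_iff_mem.1 ?_))
    change q _ = 0
    rw [← hev, h0, map_zero]
  have hM : M *ᵥ (fun j => u j - algebraMap A T (a j)) =
      fun i => -algebraMap A T (eval a (F i)) := by
    funext i
    have := congrArg (aeval u) (hG i)
    simp only [map_sub, map_sum, map_mul, aeval_X, aeval_C, h0, zero_sub] at this
    rw [this]
    rfl
  have hu : ∀ j, M.det * (u j - algebraMap A T (a j)) ∈ 𝔞 := by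
    intro j
    have h1 : M.adjugate *ᵥ (M *ᵥ fun j => u j - algebraMap A T (a j)) =
        M.det • fun j => u j - algebraMap A T (a j) := by
      rw [Matrix.mulVec_mulVec, Matrix.adjugate_mul, Matrix.smul_mulVec, Matrix.one_mulVec]
    have h2 := congrFun h1 j
    rw [hM] at h2
    change _ = M.det * _ at h2
    rw [← h2, Matrix.mulVec, dotProduct]
    exact Ideal.sum_mem _ fun i _ => Ideal.mul_mem_left _ _ (neg_mem (hF i))
  refine ⟨M.det, M0.det, fun z hz => ?_, ?_, ?_⟩
  · obtain ⟨g, rfl⟩ := hs z
    obtain ⟨H, hH, -⟩ := Ep.tay a g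
    have h1 := congrArg (aeval u) hH
    simp only [map_sub, map_sum, map_mul, aeval_X, aeval_C] at h1
    have h2 : algebraMap A T (eval a g) ∈ 𝔞 := by
      refine Ideal.mem_map_of_mem _ (Ideal.mem_comap.2 (Ideal.Quotient.eq_zero_iff_mem.1 ?_))
      change q _ = 0
      rw [← hev]
      exact Ideal.Quotient.eq_zero_iff_mem.2 hz
    rw [sub_eq_iff_eq_add.1 h1, mul_add, mul_sum]
    refine add_mem (Ideal.sum_mem _ fun j _ => ?_) (Ideal.mul_mem_left _ _ h2)
    rw [mul_left_comm]
    exact Ideal.mul_mem_left _ _ (hu j)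
  · refine Ideal.Quotient.eq.1 ?_
    change q _ = q _
    rw [RingHom.map_det, RingHom.map_det, RingHom.map_det]
    congr 1
    ext i j
    exact hev _
  · refine Ideal.Quotient.eq.1 ?_
    change q _ = q _
    unfold jac
    rw [RingHom.map_det, RingHom.map_det, RingHom.map_det]
    congr 1
    ext i j
    simp only [RingHom.mapMatrix_apply, Matrix.map_apply, Matrix.of_apply, M0, hG', hev]

end Vale.Agent.P202.Mx
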