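import Vale.Agent.P202.M.Base
import Vale.Agent.P202.Eu

/-! Module U: assembly of the approximate Euler characteristic over a chain ring. -/

open Finset Matrix MvPowerSeries Filter Topology IsLocalRing
open scoped Kronecker Nat

namespace Vale.Agent.P202.Mx

universe u

namespace EuU

section blk
variable {Λ B : Type*} [CommRing Λ] [CommRing B] {κ ι ι' ι'' : Type} [Fintype κ] [DecidableEq κ]
  (ρ : Λ →+* Matrix κ κ B)

/-- block matrix -/
def blk (D : Matrix ι' ι Λ) : Matrix (ι' × κ) (ι × κ) B := of fun p q => ρ (D p.1 q.1) p.2 q.2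

theorem blk_mul [Fintype ι'] (P : Matrix ι'' ι' Λ) (Q : Matrix ι' ι Λ) :
    blk ρ (P * Q) = blk ρ P * blk ρ Q := by
  ext ⟨i, a⟩ ⟨j, c⟩
  simp [blk, mul_apply, Fintype.sum_prod_type, Matrix.sum_apply]

theorem blk_add (P Q : Matrix ι' ι Λ) : blk ρ (P + Q) = blk ρ P + blk ρ Q := by
  ext ⟨i, a⟩ ⟨j, c⟩
  simp [blk]

theorem blk_zero : blk ρ (0 : Matrix ι' ι Λ) = 0 := by
  ext ⟨i, a⟩ ⟨j, c⟩
  simp [blk]

theorem blk_sc [DecidableEq ι] (γ : Λ) :
    blk ρ (γ • (1 : Matrix ι ι Λ)) = (1 : Matrix ι ι B) ⊗ₖ ρ γ := by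
  ext ⟨i, a⟩ ⟨j, c⟩
  by_cases h : i = j <;> simp [blk, h]

theorem blk_gr {deg : ι → ℕ} {deg' : ι' → ℕ} {j : ℤ} {P : Matrix ι' ι Λ} (h : Gr deg deg' j P) :
    Gr (fun p : ι × κ => deg p.1) (fun p : ι' × κ => deg' p.1) j (blk ρ P) :=
  fun p q hne => h p.1 q.1 fun e => hne (by simp [blk, e])

theorem blk_com [Fintype ι] [DecidableEq ι] [Fintype ι'] [DecidableEq ι'] (γ : Λ)
    (Q : Matrix ι ι' Λ) :
    blk ρ (γ • (1 : Matrix ι ι Λ)) * blk ρ Q = blk ρ Q * blk ρ (γ • (1 : Matrix ι' ι' Λ)) := by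
  rw [← blk_mul, ← blk_mul]; simp

/-- the reindexing of blocks -/
def eb {ι₁ ι₂ : Type} (e : ι₁ ⊕ ι₂ ≃ ι) (κ : Type) : (ι₁ × κ) ⊕ (ι₂ × κ) ≃ ι × κ :=
  (Equiv.sumProdDistrib ι₁ ι₂ κ).symm.trans (e.prodCongr (Equiv.refl κ))

theorem blk_tri {ι₁ ι₂ : Type} {e : ι₁ ⊕ ι₂ ≃ ι} {deg : ι → ℕ} {D : Matrix ι ι Λ} {deg₁ : ι₁ → ℕ}
    {D₁ : Matrix ι₁ ι₁ Λ} {deg₂ : ι₂ → ℕ} {D₂ : Matrix ι₂ ι₂ Λ}
    (h : Tri e deg D deg₁ D₁ deg₂ D₂) :
    Tri (eb e κ) (fun p => deg p.1) (blk ρ D) (fun p => deg₁ p.1) (blk ρ D₁) (fun p => deg₂ p.1)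
      (blk ρ D₂) :=
  ⟨fun p => h.g1 p.1, fun p => h.g2 p.1, fun p q => by simp [blk, eb, ← h.d1],
    fun p q => by simp [blk, eb, ← h.d2], fun p q => by simp [blk, eb, h.d0]⟩

theorem tri_sc {ι₁ ι₂ : Type} [DecidableEq ι] [DecidableEq ι₁] [DecidableEq ι₂] {e : ι₁ ⊕ ι₂ ≃ ι}
    {deg : ι → ℕ} {D : Matrix ι ι Λ} {deg₁ : ι₁ → ℕ} {D₁ : Matrix ι₁ ι₁ Λ} {deg₂ : ι₂ → ℕ}
    {D₂ : Matrix ι₂ ι₂ Λ} (h : Tri e deg D deg₁ D₁ deg₂ D₂) (γ : Λ) :
    Tri e deg (γ • (1 : Matrix ι ι Λ)) deg₁ (γ • 1) deg₂ (γ • 1) :=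
  ⟨h.g1, h.g2, fun i j => by simp [one_apply], fun i j => by simp [one_apply],
    fun i j => by simp [one_apply]⟩

end blk

section rho
variable {V : Type u} [CommRing V] (v : V) {r : ℕ} {Λ : Type u} [CommRing Λ] [Algebra (PS V r) Λ]
  {κ ι ι' : Type} [Fintype κ] [DecidableEq κ] (b : Module.Basis κ (PS V r) Λ)

/-- the regular representation followed by the Segre map -/
noncomputable def rho : Λ →+* Matrix κ κ (LL V r) :=
  (thA v r : PS V r →+* LL V r).mapMatrix.comp (Algebra.leftMulMatrix b : Λ →+* _)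

theorem rho_eq (x : Λ) : rho v b x = (Algebra.leftMulMatrix b x).map (thA v r) := rfl

theorem rho_apply (x : Λ) (a c : κ) : rho v b x a c = thA v r (b.repr (x * b c) a) := by
  rw [rho_eq, map_apply, Algebra.leftMulMatrix_eq_repr_mul]

theorem rho_sc (x : Λ) (a : PS V r) :
    rho v b (x * algebraMap (PS V r) Λ a) = thA v r a • rho v b x := by
  ext1 i j
  rw [Matrix.smul_apply, rho_apply, rho_apply, mul_comm x, mul_assoc, ← Algebra.smul_def]
  simp

omit [Fintype κ] [DecidableEq κ] in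
theorem repr_mem {I : Ideal (PS V r)} {x : Λ} (hx : x ∈ I.map (algebraMap (PS V r) Λ)) (y : Λ)
    (a : κ) : b.repr (x * y) a ∈ I := by
  induction hx using Submodule.span_induction generalizing y with
  | mem x hx =>
    obtain ⟨z, hz, rfl⟩ := hx
    rw [← Algebra.smul_def]
    simpa using I.mul_mem_right _ hz
  | zero => simp
  | add x z _ _ hx hz => simpa [add_mul] using add_mem (hx y) (hz y)
  | smul c x _ hx => rw [smul_eq_mul, mul_comm c, mul_assoc]; exact hx _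

/-- coordinates -/
noncomputable def co (x : ι → Λ) : ι × κ → LL V r := fun p => thA v r (b.repr (x p.1) p.2)

theorem blk_co [Fintype ι] (D : Matrix ι' ι Λ) (x : ι → Λ) :
    blk (rho v b) D *ᵥ co v b x = co v b (D *ᵥ x) := by
  ext1 ⟨i, a⟩
  simp only [mulVec, dotProduct, Fintype.sum_prod_type, co, blk, of_apply, map_sum,
    Finsupp.finsetSum_apply]
  refine sum_congr rfl fun j _ => ?_
  rw [← Algebra.leftMulMatrix_mulVec_repr]
  simp [rho_eq, mulVec, dotProduct]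

variable {v} (hS : Seg.{u} r)
include hS

theorem th0 (a : PS V r) : thA v r a ∈ Pv v (SB r 0) := hS.ord V v a 0 (by simp)

theorem ent0 (P : Matrix ι' ι Λ) : Ent v 0 (blk (rho v b) P) := fun _ _ => th0 hS _

theorem ents {s : ℕ} {P : Matrix ι' ι Λ}
    (h : ∀ i j, P i j ∈ (mw v r ^ s).map (algebraMap (PS V r) Λ)) : Ent v s (blk (rho v b) P) :=
  fun p q => by
    rw [blk, of_apply, rho_apply]
    exact hS.ord V v _ s (repr_mem b (h _ _) _ _)

omit [Fintype κ] [DecidableEq κ] in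
theorem th_xi (j : Fin (r + 1)) : thA v r (xi v r j) = th v r j := by
  refine Fin.cases ?_ (fun j => hS.x V v j) j
  have : thA v r (C v) = C v := (thA v r).commutes v
  simp [xi, th, this]

variable [Fintype ι] [DecidableEq ι] [Fintype ι'] [DecidableEq ι'] {γ : Λ} {M : ℕ} {deg : ι → ℕ}
  {deg' : ι' → ℕ} {D : Matrix ι ι Λ} {D' : Matrix ι' ι' Λ}

theorem cpx (g : GdG (fun j => algebraMap (PS V r) Λ (xi v r j)) γ M (r + 1) deg D) :
    Cpx v (blk (rho v b) (γ • (1 : Matrix ι ι Λ))) (fun p => deg p.1) (blk (rho v b) D) :=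
  ⟨blk_gr _ g.gr, by rw [← blk_mul, g.dd, blk_zero], fun p => g.le p.1, ent0 b hS _,
    blk_gr _ (Gr.one.smul γ), ent0 b hS _, (blk_com _ γ D).symm⟩

theorem nul (g : GdG (fun j => algebraMap (PS V r) Λ (xi v r j)) γ M (r + 1) deg D)
    (j : Fin (r + 1)) : ∃ h, Gr (fun p : ι × κ => deg p.1) (fun p => deg p.1) 1 h ∧ Ent v 0 h ∧
      blk (rho v b) D * h + h * blk (rho v b) D =
        th v r j ^ M • blk (rho v b) (γ • (1 : Matrix ι ι Λ)) := by
  obtain ⟨h, h1, h2⟩ := g.nul j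
  refine ⟨blk (rho v b) h, blk_gr _ h1, ent0 b hS _, ?_⟩
  rw [← blk_mul, ← blk_mul, ← blk_add, h2, blk_sc, blk_sc, ← map_pow, rho_sc, map_pow, th_xi hS,
    kronecker_smul]

theorem domL (h : Dom γ deg D deg' D') :
    DomL v (blk (rho v b) (γ • (1 : Matrix ι ι Λ))) (fun p => deg p.1) (blk (rho v b) D)
      (blk (rho v b) (γ • (1 : Matrix ι' ι' Λ))) (fun p => deg' p.1) (blk (rho v b) D') := by
  obtain ⟨P, Q, H, h1, h2, h3, h4, h5, h6⟩ := h
  refine ⟨blk (rho v b) P, blk (rho v b) Q, blk (rho v b) H, blk_gr _ h1, blk_gr _ h2,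
    blk_gr _ h3, ent0 b hS _, ent0 b hS _, ent0 b hS _, ?_, ?_, blk_com _ γ Q, ?_⟩
  · rw [← blk_mul, ← blk_mul, h4]
  · rw [← blk_mul, ← blk_mul, h5]
  · rw [← blk_mul, ← blk_mul, ← blk_mul, ← blk_add, ← blk_add, h6]

end rho

theorem tau_le' (r o s c M n a : ℕ) : a * tau r (n * o) s (c * M) ≤
    n * (a * (4 * (r + 1) * (c + 1)) ^ r * o * (M + s + 1) ^ r) := by
  have h : 4 * (r + 1) * (c * M + s + 1) ≤ 4 * (r + 1) * (c + 1) * (M + s + 1) := by
    rw [mul_assoc (4 * (r + 1))]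
    exact Nat.mul_le_mul_left _ (by nlinarith [Nat.zero_le (c * s)])
  have := Nat.pow_le_pow_left h r
  rw [mul_pow _ (M + s + 1)] at this
  calc a * tau r (n * o) s (c * M) = n * (a * o) * (4 * (r + 1) * (c * M + s + 1)) ^ r := by
        unfold tau; ring
    _ ≤ n * (a * o) * ((4 * (r + 1) * (c + 1)) ^ r * (M + s + 1) ^ r) :=
        Nat.mul_le_mul_left _ this
    _ = _ := by ring

theorem e5_le {r o s c M n m q lam C5 C : ℕ} (h1 : (r + 1) * C5 * (c + 1) ^ r ≤ C) :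
    (r + 1) * (C5 * (n * o * (c * M + s + 1) ^ r + n * m * ((c * M + s + 1) ^ r +
      (s + q) ^ r * (lam + s + q)))) ≤
    n * (C * ((o + m) * (M + s + 1) ^ r + m * (s + q) ^ (r + 1)) + C * m * (s + q) ^ r * lam) := by
  have h : c * M + s + 1 ≤ (c + 1) * (M + s + 1) := by nlinarith [Nat.zero_le (c * s)]
  have h' := Nat.pow_le_pow_left h r
  rw [mul_pow] at h'
  have h2 : (r + 1) * C5 ≤ C := (Nat.le_mul_of_pos_right _ (by positivity)).trans h1
  calc _ ≤ (r + 1) * (C5 * (n * o * ((c + 1) ^ r * (M + s + 1) ^ r) + n * m *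
        ((c + 1) ^ r * (M + s + 1) ^ r + (s + q) ^ r * (lam + s + q)))) := by gcongr
    _ = n * ((r + 1) * C5 * (c + 1) ^ r * ((o + m) * (M + s + 1) ^ r) +
        (r + 1) * C5 * (m * (s + q) ^ (r + 1)) + (r + 1) * C5 * m * (s + q) ^ r * lam) := by ring
    _ ≤ n * (C * ((o + m) * (M + s + 1) ^ r) + C * (m * (s + q) ^ (r + 1)) +
        C * m * (s + q) ^ r * lam) := by gcongr
    _ = _ := by ring

end EuU

open EuU

theorem euStmt (hS : SegStmt.{u}) (hB : BpfStmt.{u}) (hp : SpStmt.{u}) (hG : GhStmt.{u})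
    (hT : TamStmt.{u}) (h1 : E1Stmt.{u}) (h2 : E2Stmt.{u}) (h4 : E4Stmt.{u}) (h5 : E5Stmt.{u}) :
    EuStmt.{u} := by
  intro k _ r
  obtain ⟨c, hc⟩ := hB r
  obtain ⟨C0, hC0⟩ := hp k r
  obtain ⟨C5, hC5⟩ := h5 r c C0 hc
  set c' := (r + 1) * c with hc'
  set B := (4 * (r + 1) * (c' + 1)) ^ r with hB
  refine ⟨20 * (2 * r + 3) * (r + 1) ^ 2 * B + (r + 1) * C5 * (c' + 1) ^ r + (2 * r + 12) * c' +
    (r + 1), ?_⟩
  set C := 20 * (2 * r + 3) * (r + 1) ^ 2 * B + (r + 1) * C5 * (c' + 1) ^ r + (2 * r + 12) * c' +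
    (r + 1) with hC
  intro V _ _ v n0 hch hk Λ _ _ _ _ κ _ _ b γ o s M q hq hs hn hsm
  have far : Far r n0 s (c' * M) := by
    refine ⟨hs, le_trans ?_ hn⟩
    have a1 : (2 * r + 12) * c' ≤ C := by omega
    have a2 : r + 1 ≤ C := by omega
    rw [mul_add C, ← mul_assoc, mul_comm s]
    gcongr
  have good : ∀ (ι : Type) [Fintype ι] [DecidableEq ι] (deg : ι → ℕ) (D : Matrix ι ι Λ),
      GdG (fun j => algebraMap (PS V r) Λ (xi v r j)) γ M (r + 1) deg D → ∀ n, Fintype.card ι ≤ n →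
      Good v n0 (blk (rho v b) (γ • (1 : Matrix ι ι Λ))) (n * o) (c' * M) (fun p => deg p.1)
        (blk (rho v b) D) := fun ι _ _ deg D g n hn' =>
    ⟨cpx b (hS r) g, hG r c hc V v n0 hch M _ _ _ _ (cpx b (hS r) g) (nul b (hS r) g), by
      rw [blk_sc]; exact (hsm ι deg).mono (Nat.mul_le_mul_right _ hn')⟩
  have tm : ∀ (ι : Type) [Fintype ι] [DecidableEq ι] (deg : ι → ℕ) (D : Matrix ι ι Λ),
      GdG (fun j => algebraMap (PS V r) Λ (xi v r j)) γ M (r + 1) deg D → ∀ n, Fintype.card ι ≤ n →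
      ∀ κ', Tm v n0 (blk (rho v b) (γ • (1 : Matrix ι ι Λ))) (n * o) s (c' * M) κ'
        (fun p => deg p.1) (blk (rho v b) D) := fun ι _ _ deg D g n hn' κ' =>
    hT V v n0 r hch _ s _ κ' _ _ _ _ far (good ι deg D g n hn')
  have key : ∀ a n : ℕ, a ≤ 20 * (2 * r + 3) * (r + 1) ^ 2 →
      (a : ℤ) * tau r (n * o) s (c' * M) ≤ n * (C * o * (M + s + 1) ^ r : ℕ) := fun a n ha => by
    have : a * B ≤ C := (Nat.mul_le_mul_right _ ha).trans (by omega)
    have := (tau_le' r o s c' M n a).trans (Nat.mul_le_mul_left n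
      (Nat.mul_le_mul_right _ (Nat.mul_le_mul_right o this)))
    exact_mod_cast this
  refine ⟨fun ι _ _ deg D => ∑ κ', eu v n0 (blk (rho v b) (γ • (1 : Matrix ι ι Λ))) s (c' * M) κ'
    (fun p => deg p.1) (blk (rho v b) D), ⟨?_, ?_⟩, ?_, ?_⟩
  · intro ι ι' _ _ _ _ deg D deg' D' g g' d d'
    rw [← sum_sub_distrib]
    refine (abs_sum_le _ _ fun κ' => h1 V v n0 r _ _ s _ κ' _ _ _ _ _ _ _ _ far (cpx b (hS r) g)
      (cpx b (hS r) g') (tm _ _ _ g _ le_rfl κ') (tm _ _ _ g' _ le_rfl κ') (domL b (hS r) d)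
      (domL b (hS r) d')).trans ?_
    have := key ((r + 1) * (2 * r + 3)) (Fintype.card ι + Fintype.card ι') (by nlinarith)
    rw [add_mul (Fintype.card ι)] at this
    push_cast at this ⊢
    linarith
  · intro ι ι₁ ι₂ _ _ _ _ _ _ e deg D deg₁ D₁ deg₂ D₂ t g g₁ g₂
    have hc := Fintype.card_congr e
    rw [Fintype.card_sum] at hc
    rw [← sum_sub_distrib, ← sum_sub_distrib]
    refine (abs_sum_le _ _ fun κ' => h2 V v n0 r _ s _ κ' _ _ _ (eb e κ) _ _ _ _ _ _ _ _ _ far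
      (blk_tri _ t) (blk_tri _ (tri_sc t γ)) (cpx b (hS r) g) (cpx b (hS r) g₁) (cpx b (hS r) g₂)
      (tm _ _ _ g (Fintype.card ι) le_rfl κ') (tm _ _ _ g₁ _ (by omega) κ')
      (tm _ _ _ g₂ _ (by omega) κ')).trans ?_
    have := key _ (Fintype.card ι) le_rfl
    push_cast at this ⊢
    linarith
  · intro ι _ _ deg D g ho hz
    have a := h4 V v n0 r hch _ s _ _ _ _ _ far (cpx b (hS r) g) (tm _ _ _ g _ le_rfl)
      (ents b (hS r) ho) (by rw [Fintype.sum_prod_type_right]; simp [hz])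
    have e : #{i : ι × κ | deg i.1 = 0} = #{i | deg i = 0} * Fintype.card κ := by
      rw [← card_univ, ← card_product]
      congr 1
      ext p; simp
    have := key _ (Fintype.card ι) le_rfl
    rw [e] at a
    push_cast at this a ⊢
    linarith
  · intro ι _ _ deg D g N lam hN hl I0 lam' hI hl'
    let Ψ : (ι × κ → PS V r) →ₗ[PS V r] (ι → Λ) := LinearMap.pi fun i =>
      b.equivFun.symm.toLinearMap ∘ₗ LinearMap.funLeft (PS V r) (PS V r) fun a => (i, a)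
    have hΨ : ∀ a, co v b (Ψ a) = fun j => thA v r (a j) := fun a => by
      ext1 ⟨i, j⟩
      have := congrFun (b.equivFun.apply_symm_apply fun x => a (i, x)) j
      rw [Module.Basis.equivFun_apply] at this
      exact congrArg (thA v r) this
    have a := fun κ' => hC5 V v n0 hch (hC0 V v n0 hch hk) _ s _ κ' _ _ _ _ far
      (good _ _ _ g _ le_rfl) (tm _ _ _ g _ le_rfl κ') ((N.restrictScalars (PS V r)).comap Ψ) lam
      (fun a ha => by
        obtain ⟨w, hw⟩ := hN _ ha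
        refine ⟨co v b w, fun _ => th0 (hS r) _, fun i hi => ?_⟩
        rw [← hΨ, blk_co, blk_co, co, co, ← hw i.1 hi, smul_mulVec, one_mulVec]
        rfl)
      (by
        refine le_trans ?_ hl
        rw [cl_eq, cl_eq]
        exact rl_le_of_comap (Ψ.restrictScalars V) (fun x _ h => h) fun x _ => by simp)
      q hq I0 lam' (fun a ha i0 hi0 => by
        obtain ⟨w, hw⟩ := hI a ha i0.1 hi0
        refine ⟨co v b (b i0.2 • w), fun _ => th0 (hS r) _, fun i hi => ?_⟩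
        rw [blk_co, co, mulVec_smul, Pi.smul_apply, ← hw i.1 hi, blk, of_apply,
          Matrix.smul_apply, one_apply]
        split_ifs
        · rw [mul_comm, ← smul_eq_mul, ← Matrix.smul_apply, ← rho_sc, rho_apply, smul_eq_mul,
            smul_eq_mul, mul_one, mul_comm (b i0.2)]
          rfl
        · simp) hl'
    refine (sum_le_sum fun κ' _ => a κ').trans ?_
    have := e5_le (r := r) (o := o) (s := s) (c := c') (M := M) (n := Fintype.card ι)
      (m := Fintype.card κ) (q := q) (lam := lam') (C5 := C5) (C := C) (by omega)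
    zify at this
    simp only [sum_const, card_univ, Fintype.card_fin, nsmul_eq_mul, Nat.factorial_succ,
      Fintype.card_prod]
    push_cast at this ⊢
    linarith

end Vale.Agent.P202.Mx
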