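import Vale.Agent.P202.M.SpecI
import Vale.Agent.P202.Ev

/-! Module EV: power series over a complete discrete valuation ring. -/

open Finset Matrix MvPowerSeries Filter Topology IsLocalRing
open scoped Kronecker Nat

namespace Vale.Agent.P202.Mx

universe u

namespace EvM

section co
variable {V : Type*} [CommRing V] {v : V} {σ : Type*}

/-- the ideal `(v, X)` -/
noncomputable abbrev mz (v : V) (σ : Type*) : Ideal (MvPowerSeries σ V) :=
  Ideal.span (insert (C v) (Set.range X))

/-- the coefficient condition -/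
def Co (v : V) (s : ℕ) (a : MvPowerSeries σ V) : Prop := ∀ e, v ^ (s - e.degree) ∣ coeff e a

theorem Co.add {s : ℕ} {a b : MvPowerSeries σ V} (ha : Co v s a) (hb : Co v s b) :
    Co v s (a + b) := fun e => by rw [map_add]; exact dvd_add (ha e) (hb e)

theorem Co.mul {s t : ℕ} {a b : MvPowerSeries σ V} (ha : Co v s a) (hb : Co v t b) :
    Co v (s + t) (a * b) := fun e => by
  classical
  rw [coeff_mul]
  refine dvd_sum fun p hp => ?_
  refine dvd_trans ?_ (mul_dvd_mul (ha p.1) (hb p.2))
  rw [← pow_add, ← mem_antidiagonal.1 hp, map_add]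
  exact pow_dvd_pow _ (by omega)

theorem co_zero (a : MvPowerSeries σ V) : Co v 0 a := fun e => by simp

theorem co_one {a : MvPowerSeries σ V} (h : a ∈ mz v σ) : Co v 1 a := by
  classical
  induction h using Submodule.span_induction with
  | mem x hx =>
    intro e
    rcases hx with rfl | ⟨j, rfl⟩
    · rw [coeff_C]
      split_ifs with h
      · simp [h]
      · exact dvd_zero _
    · rw [coeff_X]
      split_ifs with h
      · simp [h]
      · exact dvd_zero _
  | zero => intro e; simp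
  | add x y _ _ hx hy => exact hx.add hy
  | smul c x _ hx => exact Co.mul (s := 0) (t := 1) (co_zero c) hx

theorem co_of_mem {s : ℕ} : ∀ {a : MvPowerSeries σ V}, a ∈ mz v σ ^ s → Co v s a := by
  induction s with
  | zero => exact fun {a} _ => co_zero a
  | succ s ih =>
    intro a h
    rw [pow_succ] at h
    exact Submodule.mul_induction_on h (fun x hx y hy => (ih hx).mul (co_one hy))
      fun x y hx hy => hx.add hy

theorem mon_mem {J : Ideal (MvPowerSeries σ V)} (hJ : ∀ i, X i ∈ J) (t : σ →₀ ℕ) :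
    monomial t (1 : V) ∈ J ^ t.degree := by
  induction t using Finsupp.induction_linear with
  | zero => simp
  | add f g hf hg =>
    rw [map_add, pow_add, ← one_mul (1 : V), ← monomial_mul_monomial]
    exact Ideal.mul_mem_mul hf hg
  | single a b =>
    rw [← X_pow_eq, Finsupp.degree_single]
    exact Ideal.pow_mem_pow (hJ a) _

variable [Finite σ]

/-- exponents of degree less than `s` -/
noncomputable def lo (σ : Type*) [Finite σ] (s : ℕ) : Finset (σ →₀ ℕ) :=
  (Finsupp.finite_of_degree_lt (σ := σ) s).toFinset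

theorem mem_lo {s : ℕ} {e : σ →₀ ℕ} : e ∈ lo σ s ↔ e.degree < s := by simp [lo]

theorem tail_mem {J : Ideal (MvPowerSeries σ V)} (hJ : ∀ i, X i ∈ J) (s : ℕ)
    (a : MvPowerSeries σ V) : a - ∑ e ∈ lo σ s, monomial e (coeff e a) ∈ J ^ s := by
  refine EvL.mem_span_mon _ (Finsupp.finite_of_degree_eq (σ := σ) s).toFinset
    (fun t ht => ?_) _ fun m hm => ?_
  · have : t.degree = s := by simpa using ht
    exact this ▸ mon_mem hJ t
  · have h : m.degree < s := by
      by_contra hc
      obtain ⟨g, h1, h2⟩ := Finsupp.exists_le_degree_eq m s (not_lt.1 hc)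
      exact hm g (by simpa using h2) h1
    rw [map_sub, map_sum, sum_eq_single m, coeff_monomial_same, sub_self]
    · intro b _ hb
      exact coeff_monomial_ne hb.symm _
    · exact fun h' => absurd (mem_lo.2 h) h'

omit [Finite σ] in
theorem X_mem (i : σ) : X i ∈ mz v σ := Ideal.subset_span (Set.mem_insert_of_mem _ ⟨i, rfl⟩)

omit [Finite σ] in
theorem mon_eq (e : σ →₀ ℕ) (c : V) : monomial e c = C c * monomial e (1 : V) := by
  rw [← monomial_zero_eq_C_apply, monomial_mul_monomial, zero_add, mul_one]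

theorem mem_of_co {s : ℕ} {a : MvPowerSeries σ V} (h : Co v s a) : a ∈ mz v σ ^ s := by
  have h1 : ∑ e ∈ lo σ s, monomial e (coeff e a) ∈ mz v σ ^ s := by
    refine sum_mem fun e he => ?_
    obtain ⟨c, hc⟩ := h e
    rw [mon_eq, hc, map_mul, map_pow, mul_comm _ (C c), mul_assoc]
    refine Ideal.mul_mem_left _ _ ?_
    have := Ideal.mul_mem_mul (Ideal.pow_mem_pow (show C v ∈ mz v σ from
      Ideal.subset_span (Set.mem_insert _ _)) (s - e.degree)) (mon_mem (X_mem (v := v)) e)
    rwa [← pow_add, Nat.sub_add_cancel (mem_lo.1 he).le] at this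
  simpa using add_mem (tail_mem X_mem s a) h1

theorem mem_iff {s : ℕ} {a : MvPowerSeries σ V} : a ∈ mz v σ ^ s ↔ Co v s a :=
  ⟨co_of_mem, mem_of_co⟩

theorem prec (h : IsPrecomplete (Ideal.span {v}) V) :
    IsPrecomplete (mz v σ) (MvPowerSeries σ V) := by
  refine ⟨fun f hf => ?_⟩
  simp only [SModEq.sub_mem, smul_eq_mul, Ideal.mul_top, mem_iff] at hf ⊢
  have key : ∀ e : σ →₀ ℕ, ∃ L, ∀ n, v ^ n ∣ coeff e (f (n + e.degree)) - L := fun e => by
    have := h.prec' (fun n => coeff e (f (n + e.degree))) fun {m n} hmn => by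
      have := hf (Nat.add_le_add_right hmn e.degree) e
      rw [Nat.add_sub_cancel, map_sub] at this
      simpa [SModEq.sub_mem, Ideal.span_singleton_pow, Ideal.mem_span_singleton] using this
    simpa [SModEq.sub_mem, Ideal.span_singleton_pow, Ideal.mem_span_singleton] using this
  choose L hL using key
  let L' : MvPowerSeries σ V := L
  refine ⟨L', fun n e => ?_⟩
  have h1 := hf (show n ≤ n - e.degree + e.degree by omega) e
  have h2 := dvd_add h1 (hL e (n - e.degree))
  rw [map_sub, sub_add_sub_cancel] at h2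
  rw [map_sub]
  exact h2

theorem ext (Λ : Type*) [CommRing Λ] (I : Ideal Λ) (h : IsHausdorff I Λ)
    (f g : MvPowerSeries σ V →+* Λ) (hC : ∀ c, f (C c) = g (C c)) (hX : ∀ i, f (X i) = g (X i))
    (hr : ∀ i, f (X i) ∈ I.radical) : f = g := by
  have key : ∀ f : MvPowerSeries σ V →+* Λ, (∀ i, f (X i) ∈ I.radical) → ∃ c, ∀ n,
      ∀ t ∈ Ideal.span (Set.range X) ^ (c * n), f t ∈ I ^ n := fun f hr => by
    obtain ⟨c, hc⟩ := Ideal.exists_pow_le_of_le_radical_of_fg
      (I := (Ideal.span (Set.range X)).map f) (J := I)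
      (Ideal.map_le_iff_le_comap.2 (Ideal.span_le.2 (by rintro _ ⟨i, rfl⟩; exact hr i)))
      (Ideal.FG.map (Submodule.fg_span (Set.finite_range _)) _)
    refine ⟨c, fun n t ht => Ideal.pow_right_mono hc n ?_⟩
    rw [← pow_mul, ← Ideal.map_pow]
    exact Ideal.mem_map_of_mem _ ht
  obtain ⟨c, hc⟩ := key f hr
  obtain ⟨c', hc'⟩ := key g fun i => hX i ▸ hr i
  have hm : ∀ e a, f (monomial e a) = g (monomial e a) := fun e a => by
    rw [mon_eq, monomial_one_eq]
    simp [Finsupp.prod, hC, hX]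
  ext a
  rw [← sub_eq_zero]
  refine h.haus _ fun n => ?_
  have h1 := tail_mem (J := Ideal.span (Set.range X)) (fun i => Ideal.subset_span ⟨i, rfl⟩)
    (c * n + c' * n) a
  have h2 := sub_mem (hc n _ (Ideal.pow_le_pow_right (Nat.le_add_right _ _) h1))
    (hc' n _ (Ideal.pow_le_pow_right (Nat.le_add_left _ _) h1))
  simpa [SModEq.sub_mem, hm] using h2

theorem ev (Λ : Type*) [CommRing Λ] [Algebra V Λ] (I : Ideal Λ)
    (h : IsAdicComplete I Λ) (y : σ → Λ) (hy : ∀ i, y i ∈ I.radical) :
    ∃ f : MvPowerSeries σ V →ₐ[V] Λ, ∀ i, f (X i) = y i := by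
  let : WithIdeal Λ := ⟨I⟩
  obtain ⟨h1, h2⟩ := (IsAdic.isAdicComplete_iff (I := I) rfl).1 h
  let : UniformSpace V := ⊥
  have : DiscreteUniformity V := ⟨rfl⟩
  have : ContinuousSMul V Λ := continuousSMul_of_algebraMap V Λ continuous_of_discreteTopology
  have hy' : HasEval y := ⟨fun i => by
    obtain ⟨c, hc⟩ := hy i
    suffices ∀ m : ℕ, ∃ n₀, ∀ n, n₀ ≤ n → y i ^ n ∈ I ^ m by
      simpa [IsTopologicallyNilpotent, I.hasBasis_nhds_zero_adic.tendsto_right_iff]
    refine fun m => ⟨c * m, fun n hn => ?_⟩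
    obtain ⟨e, rfl⟩ := Nat.exists_eq_add_of_le hn
    rw [pow_add, pow_mul]
    exact Ideal.mul_mem_right _ _ (Ideal.pow_mem_pow hc _), by simp⟩
  exact ⟨aeval hy', fun i => by rw [coe_aeval, eval₂_X]⟩

end co

theorem cpl {A : Type*} [CommRing A] [IsLocalRing A] [IsNoetherianRing A]
    (h : IsPrecomplete (maximalIdeal A) A) (M : Type*) [AddCommGroup M] [Module A M]
    [Module.Finite A M] : IsAdicComplete (maximalIdeal A) M := by
  have h2 : IsPrecomplete (maximalIdeal A) M := by
    rw [← AdicCompletion.of_surjective_iff]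
    intro y
    obtain ⟨z, rfl⟩ := AdicCompletion.ofTensorProduct_surjective_of_finite (maximalIdeal A) M y
    induction z with
    | zero => exact ⟨0, by simp⟩
    | add a b ha hb =>
      obtain ⟨a', ha⟩ := ha
      obtain ⟨b', hb⟩ := hb
      exact ⟨a' + b', by rw [map_add, map_add, ha, hb]⟩
    | tmul r x =>
      obtain ⟨r, rfl⟩ := AdicCompletion.of_surjective (maximalIdeal A) A r
      refine ⟨r • x, ?_⟩
      rw [AdicCompletion.ofTensorProduct_tmul, map_smul]
      exact (algebraMap_smul (AdicCompletion (maximalIdeal A) A) r _).symm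
  exact {}

theorem fin {A : Type*} [CommRing A] [IsLocalRing A] [IsNoetherianRing A]
    (h : IsPrecomplete (maximalIdeal A) A) (M : Type*) [AddCommGroup M] [Module A M]
    (h1 : IsHausdorff (maximalIdeal A) M)
    (h' : Module.Finite A (M ⧸ (maximalIdeal A • ⊤ : Submodule A M))) : Module.Finite A M := by
  obtain ⟨n, p, hp⟩ := Module.Finite.exists_fin' A (M ⧸ (maximalIdeal A • ⊤ : Submodule A M))
  obtain ⟨f, hf⟩ := Module.projective_lifting_property _ p
    (Submodule.mkQ_surjective (maximalIdeal A • ⊤ : Submodule A M))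
  have := cpl h (Fin n → A)
  exact Module.Finite.of_surjective f
    (surjective_of_mkQ_comp_surjective (I := maximalIdeal A) (hf ▸ hp))

/-- `R / m ^ N` is finite over a ring that maps onto `R / m` -/
theorem fg_mod {A R : Type*} [CommRing A] [CommRing R] [IsNoetherianRing R] [Algebra A R]
    (m : Ideal R) (h : ∀ b, ∃ a, b - algebraMap A R a ∈ m) (N : ℕ) :
    ∃ S : Submodule A R, S.FG ∧ ∀ x, ∃ s ∈ S, x - s ∈ m ^ N := by
  induction N with
  | zero => exact ⟨⊥, Submodule.fg_bot, fun x => ⟨0, zero_mem _, by simp⟩⟩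
  | succ N ih =>
    obtain ⟨S, hS, h1⟩ := ih
    obtain ⟨n, y, hy⟩ := Submodule.fg_iff_exists_fin_generating_family.1
      (m ^ N).fg_of_isNoetherianRing
    refine ⟨S ⊔ Submodule.span A (Set.range y), hS.sup (Submodule.fg_span (Set.finite_range _)),
      fun x => ?_⟩
    obtain ⟨s, hs, h2⟩ := h1 x
    rw [← hy] at h2
    obtain ⟨c, hc⟩ := (Submodule.mem_span_range_iff_exists_fun R).1 h2
    choose a ha using fun i => h (c i)
    refine ⟨s + ∑ i, a i • y i, Submodule.add_mem_sup hs (sum_mem fun i _ =>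
      Submodule.smul_mem _ _ (Submodule.subset_span ⟨i, rfl⟩)), ?_⟩
    rw [← sub_sub, ← hc, ← sum_sub_distrib]
    refine sum_mem fun i _ => ?_
    rw [smul_eq_mul, Algebra.smul_def, ← sub_mul, pow_succ']
    exact Ideal.mul_mem_mul (ha i) (hy ▸ Submodule.subset_span ⟨i, rfl⟩)

end EvM

open EvM

theorem evWStmt : EvWStmt.{u} := by
  intro p W _ _ _ σ _ hW
  have e : mv p W σ = mz (p : W) σ := by rw [mv, mz, map_natCast]
  have hm : ∀ a : MvPowerSeries σ W, a ∈ maximalIdeal _ ↔ constantCoeff a ∈ maximalIdeal W :=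
    fun a => by simp [isUnit_iff_constantCoeff]
  have hmax : maximalIdeal (MvPowerSeries σ W) = mv p W σ := by
    ext a
    rw [hm, e, ← pow_one (mz (p : W) σ), mem_iff, hW.max, Ideal.mem_span_singleton]
    refine ⟨fun h d => ?_, fun h => by simpa using h 0⟩
    by_cases hd : d = 0
    · simpa [hd] using h
    · have : d.degree ≠ 0 := fun h' => hd (Finsupp.degree_eq_zero_iff d |>.1 h')
      rw [show 1 - d.degree = 0 by omega]; simp
  have hp : IsPrecomplete (maximalIdeal (MvPowerSeries σ W)) (MvPowerSeries σ W) := by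
    rw [hmax, e]
    exact prec (hW.max ▸ hW.cpl.toIsPrecomplete)
  have hf : ∀ (M : Type u) [AddCommGroup M] [Module (MvPowerSeries σ W) M],
      IsHausdorff (mv p W σ) M → Module.Finite (MvPowerSeries σ W)
        (M ⧸ (mv p W σ • ⊤ : Submodule (MvPowerSeries σ W) M)) →
      Module.Finite (MvPowerSeries σ W) M := by
    rw [← hmax]
    exact fun M _ _ => EvM.fin hp M
  refine ⟨hmax, ⟨inferInstance, cpl hp _, fun b => ⟨constantCoeff b, ?_⟩, fun a ha => ?_⟩,
    fun a s => by rw [e]; exact mem_iff, fun Λ _ _ => EvM.ev Λ, fun Λ _ => EvM.ext Λ, hf,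
    fun M _ _ _ => hmax ▸ cpl hp M, fun R _ _ _ _ _ hR hX ⟨N, hN⟩ => ?_⟩
  · rw [hm]; simp [MvPowerSeries.algebraMap_apply]
  · rw [hm]; simpa [MvPowerSeries.algebraMap_apply] using ha
  · have := hR.noeth
    have := hR.cpl
    refine hf R (.of_map (J := maximalIdeal R) ?_) ?_
    · rw [mv, Ideal.map_span, Ideal.span_le]
      rintro _ ⟨_, rfl | ⟨i, rfl⟩, rfl⟩
      · simpa using hR.loc p (hW.max ▸ Ideal.mem_span_singleton_self _)
      · exact hX i
    · obtain ⟨S, hS, h1⟩ := fg_mod (A := MvPowerSeries σ W) (maximalIdeal R) (fun b => by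
        obtain ⟨a, ha⟩ := hR.res b
        exact ⟨algebraMap W _ a, by rwa [← IsScalarTower.algebraMap_apply]⟩) N
      have : S.map (mv p W σ • ⊤ : Submodule (MvPowerSeries σ W) R).mkQ = ⊤ := by
        refine eq_top_iff.2 fun q _ => ?_
        obtain ⟨x, rfl⟩ := Submodule.mkQ_surjective _ q
        obtain ⟨s, hs, h2⟩ := h1 x
        refine ⟨s, hs, ((Submodule.Quotient.eq _).2 ?_).symm⟩
        rw [Ideal.smul_top_eq_map]
        exact hN h2
      exact ⟨this ▸ hS.map _⟩

end Vale.Agent.P202.Mx
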