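import Vale.Agent.P202.M.SpecI
import Vale.Agent.P202.All2
import Vale.Agent.P202.Red
import Vale.Agent.P202.Unr

/-! Module EX: the multiplicity exists. -/

open Finset Filter Topology IsLocalRing
open scoped Nat

namespace Vale.Agent.P202.Mx

universe u

namespace Exs

lemma zero {R : Type u} [CommRing R] [IsLocalRing R] {d d' : ℕ} (hg : Grow R d) (hd : d < d') :
    Mult R d' 0 := by
  obtain ⟨C, hC⟩ := hg
  have h1 : Tendsto (fun N : ℕ => (d' ! : ℝ) * C * 2 ^ d * (1 / (N : ℝ))) atTop (𝓝 0) := by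
    simpa using tendsto_one_div_atTop_nhds_zero_nat.const_mul ((d' ! : ℝ) * C * 2 ^ d)
  refine squeeze_zero' (Eventually.of_forall fun N => by positivity) ?_ h1
  filter_upwards [eventually_ge_atTop 1] with N hN
  have hN' : (1 : ℝ) ≤ N := by exact_mod_cast hN
  have h2 : (hs R N : ℝ) ≤ C * (2 ^ d * (N : ℝ) ^ d) := by
    have h3 : (hs R N : ℝ) ≤ C * ((N : ℝ) + 1) ^ d := by exact_mod_cast hC N
    refine h3.trans (mul_le_mul_of_nonneg_left ?_ (by positivity))
    rw [← mul_pow]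
    exact pow_le_pow_left₀ (by positivity) (by linarith) d
  have h4 : (N : ℝ) ^ d * N ≤ (N : ℝ) ^ d' := by
    rw [← pow_succ]; exact pow_le_pow_right₀ hN' hd
  rw [div_le_iff₀ (by positivity)]
  calc (d' ! : ℝ) * hs R N ≤ d' ! * (C * (2 ^ d * (N : ℝ) ^ d)) := by gcongr
    _ = (d' ! : ℝ) * C * 2 ^ d * (1 / (N : ℝ)) * ((N : ℝ) ^ d * N) := by field_simp
    _ ≤ _ := by gcongr

end Exs

theorem exStmt (hx : RxStmt.{u}) (ha : RaStmt.{u}) (h2 : Hs2Stmt.{u}) : ExStmt.{u} := by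
  intro R _ _ _ d hg
  suffices h : ∃ e, Mult R d e by
    obtain ⟨e, he⟩ := h
    exact ⟨e, ge_of_tendsto' he fun N => by positivity, he, fun d' hd => Exs.zero hg hd⟩
  obtain ⟨R', S', _, _, _, _, _, _, a, -, -, ua, -, hi, -⟩ := hx R R (RingHom.id R) (RingHom.Flat.id R)
  have e := (unrStmt.2.1 R R' a ua).2.1
  obtain ⟨C, hC⟩ := hg
  obtain ⟨x, c, hxm, hc⟩ := ha R' d hi ⟨C, fun N => (e N).trans_le (hC N)⟩
  suffices h : ∃ e, Mult R' d e by
    obtain ⟨e', he⟩ := h
    exact ⟨e', by simpa only [Mult, e] using he⟩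
  rcases Nat.eq_zero_or_pos d with rfl | hd
  · have h0 : maximalIdeal R' ^ (c + 1) = ⊥ := by
      rw [Set.range_eq_empty x, Ideal.span_empty, Ideal.bot_mul] at hc
      exact le_bot_iff.1 hc
    refine ⟨hs R' (c + 1), tendsto_const_nhds.congr' ?_⟩
    filter_upwards [eventually_ge_atTop (c + 1)] with N hN
    have h1 : maximalIdeal R' ^ N = maximalIdeal R' ^ (c + 1) :=
      le_antisymm (Ideal.pow_le_pow_right hN) (h0 ▸ bot_le)
    simp only [hs, Nat.factorial_zero, Nat.cast_one, one_mul, pow_zero, div_one]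
    rw [h1]
  · have hf : ln (Ideal.span (Set.range x)) ≠ ⊤ := by
      refine ne_top_of_le_ne_top (Rd.finlen R' (c + 1)) ?_
      exact Module.length_le_of_surjective
        (Submodule.factor (hc.trans Ideal.mul_le_left)) (Submodule.factor_surjective _)
    obtain ⟨e', he, -⟩ := (h2 R' d x hd hf).mult c hxm hc
    exact ⟨e', he⟩

theorem eqStmt : EqStmt.{u} := by
  intro R S _ _ _ _ _ _ f _ hf hK d D hd hD e e' he he'
  obtain ⟨eR, eS, h1, h2, h3⟩ := main2 normI' R S f hf hK d D hd hD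
  rw [tendsto_nhds_unique he h1, tendsto_nhds_unique he' h2]
  exact h3

end Vale.Agent.P202.Mx
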