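import Vale.Agent.P202.M.Base

/-! The approximate ghost lemma over a chain ring. -/

open Finset Matrix MvPowerSeries Filter Topology IsLocalRing
open scoped Kronecker Nat

namespace Vale.Agent.P202.Mx

universe u

namespace GhM

variable {V : Type u} [CommRing V] {v : V} {r : ℕ} {ι : Type} [Fintype ι] [DecidableEq ι]

noncomputable def mI (I : Finset (Fin r)) : Mon r :=
  Finsupp.single none 1 + ∑ a ∈ I, Finsupp.single (some a) 1

theorem mI_none (I : Finset (Fin r)) : mI I none = 1 := by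
  simp [mI]

theorem mI_some (I : Finset (Fin r)) (a : Fin r) : mI I (some a) = if a ∈ I then 1 else 0 := by
  simp [mI, Finsupp.single_apply]

theorem mu_pow (I : Finset (Fin r)) (L : ℕ) :
    mu v I ^ L = monomial (L • mI I).some (v ^ (L • mI I) none) := by
  have e1 : (mI I).some = ∑ a ∈ I, Finsupp.single a 1 := by
    ext a
    simp [mI_some, Finsupp.finsetSum_apply, Finsupp.single_apply]
  have : mu v I = monomial (mI I).some v := by
    simp only [mu, X_def, prod_monomial, e1, ← monomial_zero_eq_C_apply, monomial_mul_monomial]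
    simp
  have e2 : (L • mI I).some = L • (mI I).some := by ext a; simp
  rw [this, monomial_pow, e2, Finsupp.smul_apply, mI_none, smul_eq_mul, mul_one]

/-- division by a monomial -/
theorem dv (a : Mon r) {S : Set (Mon r)} (hS : ∀ e ∈ S, a ≤ e) {f : LL V r} (hf : f ∈ Pv v S) :
    ∃ g ∈ Pv v {e | e + a ∈ S}, monomial a.some (v ^ a none) * g = f := by
  have : ∀ e' : Fin r →₀ ℕ, ∃ c : V, v ^ a none * c = coeff (e' + a.some) f ∧
      (c = 0 ∨ ∃ e ∈ {e : Mon r | e + a ∈ S}, e.some = e' ∧ v ^ e none ∣ c) := fun e' => by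
    rcases mem_Pv.1 hf (e' + a.some) with h | ⟨e, he, h1, c, h2⟩
    · exact ⟨0, by rw [h, mul_zero], Or.inl rfl⟩
    · have h3 := hS e he
      have h4 : e - a + a = e := tsub_add_cancel_of_le h3
      refine ⟨v ^ (e - a) none * c, ?_, Or.inr ⟨e - a, by
        rw [Set.mem_ofPred_eq, h4]; exact he, ?_, dvd_mul_right _ _⟩⟩
      · rw [h2, ← mul_assoc, ← pow_add, Finsupp.tsub_apply, add_tsub_cancel_of_le (h3 none)]
      · have := some_add' (e - a) a
        rw [h4, h1] at this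
        exact (add_right_cancel this).symm
  choose c h1 h2 using this
  let g : LL V r := c
  have hg : ∀ e, coeff e g = c e := fun _ => rfl
  refine ⟨g, mem_Pv.2 fun e' => by rw [hg]; exact h2 e', ?_⟩
  ext e
  rw [coeff_monomial_mul]
  split_ifs with h
  · rw [hg, h1, tsub_add_cancel_of_le h]
  · rcases mem_Pv.1 hf e with h3 | ⟨e', he', h3, -⟩
    · exact h3.symm
    · exact absurd (fun b => by rw [← h3]; simpa using hS e' he' (some b)) h

theorem cancel [IsLocalRing V] {n0 : ℕ} (hv : Ch v n0) {L l : ℕ} (h1 : L ≤ l) (h2 : l ≤ n0) {x : V}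
    (h : v ^ l ∣ v ^ L * x) : v ^ (l - L) ∣ x := by
  obtain ⟨c, hc⟩ := h
  have : v ^ L * (x - v ^ (l - L) * c) = 0 := by
    rw [mul_sub, hc, ← mul_assoc, ← pow_add, add_tsub_cancel_of_le h1, sub_self]
  have h3 := (pow_dvd_pow v (Nat.sub_le_sub_right h2 L)).trans (hv.ann _ _ this)
  simpa using dvd_add h3 (dvd_mul_right (v ^ (l - L)) c)

variable {Γ : Matrix ι ι (LL V r)} {M : ℕ} {deg : ι → ℕ} {D : Matrix ι ι (LL V r)} {N0 : ℕ}
  {ν : Fin r → ℤ}

omit [Fintype ι] [DecidableEq ι] in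
theorem xf1 {N : ℕ} {l : ℕ → ℕ} {n : ℤ} {x : ι × FJ r → LL V r} :
    x ∈ XF v N0 ν N l deg n ↔ ∀ i J, x (i, J) ∈ Pv v {e | (deg i : ℤ) + r - J.card = n ∧
      e ∈ Om N0 ν N (l (deg i)) ∩ cond N0 ν J} :=
  mem_XX' (Ω := fun p J => Om N0 ν N (l p) ∩ cond N0 ν J)

omit [Fintype ι] [DecidableEq ι] in
theorem xf2 {N : ℕ} {l : ℕ → ℕ} {n : ℤ} {x : ι × FJ r → LL V r} :
    x ∈ XF v N0 ν N l deg n ↔ ∀ i J, x (i, J) ∈ Pv v (Om N0 ν N (l (deg i)) ∩ cond N0 ν J) ∧
      ((deg i : ℤ) + r - J.card ≠ n → x (i, J) = 0) :=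
  mem_XX (Ω := fun p J => Om N0 ν N (l p) ∩ cond N0 ν J)

def II (J : FJ r) : Finset (Fin r) := {a | (a, false) ∉ J}

theorem dv' {N L l : ℕ} (h1 : L ≤ l) (h2 : N + L ≤ N0) (J : FJ r) (P : Prop) {f : LL V r}
    (hf : f ∈ Pv v {e | P ∧ e ∈ Om N0 ν N l ∩ cond N0 ν J}) :
    ∃ y ∈ Pv v {e | P ∧ e ∈ Om N0 ν (N + L) (l - L) ∩ cond N0 ν J}, mu v (II J) ^ L * y = f := by
  have hS : ∀ e ∈ {e : Mon r | P ∧ e ∈ Om N0 ν N l ∩ cond N0 ν J}, L • mI (II J) ≤ e := by
    intro e he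
    obtain ⟨-, ⟨a2, a3⟩, -⟩ := he
    rintro (_ | a)
    · simp only [Finsupp.smul_apply, mI_none, smul_eq_mul]; omega
    · have := (a3 a).1
      simp only [Finsupp.smul_apply, mI_some, smul_eq_mul]; split_ifs <;> omega
  obtain ⟨y, hy, e⟩ := dv (L • mI (II J)) hS hf
  refine ⟨y, Pv_mono (fun e he => ?_) hy, by rw [mu_pow]; exact e⟩
  obtain ⟨a1, ⟨a2, a3⟩, a4⟩ := he
  simp only [Finsupp.add_apply, Finsupp.smul_apply, mI_none, mI_some, smul_eq_mul] at a2 a3
  refine ⟨a1, ⟨by omega, fun a => ?_⟩, fun a => ?_⟩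
  · have := a3 a
    split_ifs at this <;> omega
  · have := a4 a
    simp only [Finsupp.add_apply, Finsupp.smul_apply, mI_none, mI_some, smul_eq_mul, II,
      mem_filter, mem_univ, true_and] at this
    refine ⟨this.1, fun c => ?_, fun c => ?_⟩
    · have b := this.2.1 c
      rw [if_neg (not_not.2 (this.1.resolve_right c))] at b
      omega
    · have b := this.2.2 c
      rw [if_pos c] at b
      omega

theorem cb0 (x : ι × FJ r → LL V r) (i : ι) (J : FJ r)
    (hx : ∀ J' : FJ r, J'.card < J.card → x (i, J') = 0) : LM 1 (cb V r) x (i, J) = 0 := by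
  rw [LM_cb_apply]
  refine sum_eq_zero fun b _ => sum_eq_zero fun J' _ => ?_
  by_cases c : ct b J' J = 0
  · simp [c]
  · rw [hx J' (by have := ct_card c; omega), mul_zero]

theorem dy0 [IsLocalRing V] {n0 : ℕ} (hv : Ch v n0) (G : Cpx v Γ deg D) {L N q : ℕ} {l : ℕ → ℕ}
    {l'' : ℕ} (h1 : L ≤ l'') (h4 : l'' ≤ n0) {n : ℤ} {z y : ι × FJ r → LL V r}
    (h0 : DD D z ∈ XF v N0 ν N (fun _ => l'') deg (n - 1))
    (hq : ∀ i J, J.card < q → z (i, J) = 0) (hy : y ∈ XF v N0 ν (N + L) l deg n)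
    (my : ∀ i J, J.card = q → mu v (II J) ^ L * y (i, J) = z (i, J))
    (my' : ∀ i J, J.card ≠ q → y (i, J) = 0) :
    LM D 1 y ∈ XF v N0 ν (N + L) (fun _ => l'' - L) deg (n + -1) := by
  have b0 : LM D 1 y ∈ XF v N0 ν (N + L) (fun _ => 0) deg (n + -1) :=
    LM_one_mem G.gr G.ent (fun _ _ _ => Nat.zero_le _) hy
  refine xf2.2 fun i J => ⟨?_, (xf2.1 b0 i J).2⟩
  have b3 : ∀ e, v ^ (l'' - L) ∣ coeff e (LM D 1 y (i, J)) := fun e => by
    by_cases c : J.card = q
    · have b1 := pow_dvd_of_mem (l := l'') (fun e he => he.1.1)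
        (intCast_mul_mem_Pv (xf2.1 h0 i J).1 ((-1) ^ J.card)) (e + (L • mI (II J)).some)
      have b2 : (((-1) ^ J.card : ℤ) : LL V r) * DD D z (i, J) =
          mu v (II J) ^ L * LM D 1 y (i, J) := by
        rw [DD_eq, Pi.add_apply, cb0 z i J fun J' hJ => hq i J' (c ▸ hJ), add_zero, LM_sg_apply,
          LM_one_apply, ← mul_assoc, mul_sum _ _ (mu v (II J) ^ L)]
        push_cast
        rw [← mul_pow, neg_mul_neg, one_mul, one_pow, one_mul]
        exact sum_congr rfl fun j _ => by rw [mul_left_comm, my j J c]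
      rw [b2, mu_pow, add_comm e, coeff_add_monomial_mul, Finsupp.smul_apply, mI_none, smul_eq_mul,
        mul_one] at b1
      exact cancel hv h1 h4 b1
    · simp [LM_one_apply, fun j => my' j J c]
  have b4 := mem_Pv_level ((up_Om N0 ν (N + L) 0).inter (up_cond N0 ν J)) (xf2.1 b0 i J).1 b3
  refine Pv_mono (fun e he => ?_) b4
  exact ⟨⟨he.2, he.1.1.2⟩, he.1.2⟩

theorem step [IsLocalRing V] {n0 : ℕ} (hv : Ch v n0) (G : Cpx v Γ deg D)
    (hn : ∀ j, ∃ h, Gr deg deg 1 h ∧ Ent v 0 h ∧ D * h + h * D = th v r j ^ M • Γ) {L : ℕ}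
    (hL : ∀ I : Finset (Fin r), ∃ g : Fin (r + 1) → LL V r, (∀ j, g j ∈ Pv v (SB r 0)) ∧
      mu v I ^ L = ∑ j, g j * th v r j ^ M)
    {N q : ℕ} {l : ℕ → ℕ} {l'' : ℕ} (hl : Antitone l) (h1 : ∀ p, L ≤ l p) (h3 : ∀ p, l p ≤ l'')
    (h4 : l'' ≤ n0) (h2 : N + L ≤ N0) {n : ℤ}
    {z : ι × FJ r → LL V r} (hz : z ∈ XF v N0 ν N l deg n)
    (h0 : DD D z ∈ XF v N0 ν N (fun _ => l'') deg (n - 1))
    (hq : ∀ i J, J.card < q → z (i, J) = 0) :
    ∃ w ∈ XF v N0 ν (N + L) (fun p => l p - L) deg (n + 1),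
      ∃ t ∈ XF v N0 ν (N + L) (fun _ => l'' - L) deg n,
      gg Γ z - DD D w - t ∈ XF v N0 ν (N + L) (fun p => l p - L) deg n ∧
      ∀ i J, J.card < q + 1 → (gg Γ z - DD D w - t) (i, J) = 0 := by
  choose g hg eg using hL
  choose h gh nh eh using hn
  choose y0 hy0 ey0 using fun i J => dv' (h1 (deg i)) h2 J _ (xf1.1 hz i J)
  obtain ⟨y, hy, my, my'⟩ : ∃ y ∈ XF v N0 ν (N + L) (fun p => l p - L) deg n,
      (∀ i J, J.card = q → mu v (II J) ^ L * y (i, J) = z (i, J)) ∧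
      ∀ i J, J.card ≠ q → y (i, J) = 0 := by
    refine ⟨fun p => if p.2.card = q then y0 p.1 p.2 else 0, xf1.2 fun i J => ?_,
      fun i J c => ?_, fun i J c => if_neg c⟩
    · simp only
      split_ifs
      · exact hy0 i J
      · exact zero_mem _
    · simp only [if_pos c]
      exact ey0 i J
  have dy := dy0 hv G ((h1 0).trans (h3 0)) h4 h0 hq hy my my'
  let y' : Fin (r + 1) → ι × FJ r → LL V r := fun j p => g (II p.2) j * y p
  have hy' : ∀ j, y' j ∈ XF v N0 ν (N + L) (fun p => l p - L) deg n := fun j p _ =>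
    smul_mem_XF (hg (II p.2) j) hy p trivial
  have dy' : ∀ j, LM D 1 (y' j) ∈ XF v N0 ν (N + L) (fun _ => l'' - L) deg (n + -1) := fun j => by
    rintro ⟨i, J⟩ -
    have := smul_mem_XF (hg (II J) j) dy (i, J) trivial
    simpa only [LM_one_apply, y', mul_left_comm _ (g _ _), ← mul_sum, Pi.smul_apply, smul_eq_mul]
      using this
  have hw : ∑ j, LM (h j) (sg V r) (y' j) ∈ XF v N0 ν (N + L) (fun p => l p - L) deg (n + 1) :=
    sum_mem fun j _ => LM_sg_mem (σ := 0) (gh j) (nh j) (fun p p' e => by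
      have := hl (show p ≤ p' by omega); omega) (hy' j)
  have ht : ∑ j, LM (h j) 1 (LM D 1 (y' j)) ∈ XF v N0 ν (N + L) (fun _ => l'' - L) deg n :=
    sum_mem fun j _ => by
      have := LM_one_mem (σ := 0) (l' := fun _ => l'' - L) (gh j) (nh j) (fun _ _ _ => le_rfl)
        (dy' j)
      rwa [show n + -1 + 1 = n by ring] at this
  have dw : ∀ i J, LM D (sg V r) (∑ j, LM (h j) (sg V r) (y' j)) (i, J) +
      (∑ j, LM (h j) 1 (LM D 1 (y' j))) (i, J) =
      if J.card = q then gg Γ z (i, J) else 0 := fun i J => by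
    have : ∀ j, LM D (sg V r) (LM (h j) (sg V r) (y' j)) + LM (h j) 1 (LM D 1 (y' j)) =
        th v r j ^ M • gg Γ (y' j) := by
      intro j
      rw [gg_eq, ← LM_smul, ← eh j, LM_add, LM_mul, LM_mul, sg_sq, mul_one]
    rw [map_sum, ← Pi.add_apply, ← sum_add_distrib, Finset.sum_apply]
    simp only [this, gg_apply, y', Pi.smul_apply, smul_eq_mul]
    split_ifs with c
    · simp only [← my _ J c, eg, sum_mul, mul_sum]
      rw [sum_comm]
      exact sum_congr rfl fun j _ => sum_congr rfl fun j' _ => by ring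
    · simp [fun j => my' j J c]
  have key : ∀ i J, (gg Γ z - DD D (∑ j, LM (h j) (sg V r) (y' j)) -
      ∑ j, LM (h j) 1 (LM D 1 (y' j))) (i, J) = (if J.card = q then 0 else gg Γ z (i, J)) -
      LM 1 (cb V r) (∑ j, LM (h j) (sg V r) (y' j)) (i, J) := fun i J => by
    have := dw i J
    rw [Pi.sub_apply, Pi.sub_apply, DD_eq, Pi.add_apply]
    split_ifs at this ⊢ <;> linear_combination -this
  refine ⟨_, hw, _, ht, ?_, fun i J c => ?_⟩
  · have hz' := XF_mono (Nat.le_add_right N L) (fun p => Nat.sub_le (l p) L) n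
      (gg_mem_XF G.g0 G.ge hz)
    have hc := LM_cb_mem hw
    rw [add_sub_cancel_right] at hc
    rintro ⟨i, J⟩ -
    rw [key]
    refine sub_mem ?_ (hc (i, J) trivial)
    split_ifs
    · exact zero_mem _
    · exact hz' (i, J) trivial
  · rw [key, cb0]
    · split_ifs with c'
      · simp
      · simp [gg_apply, fun j => hq j J (by omega)]
    · intro J' hJ
      simp [Finset.sum_apply, LM_sg_apply, y', fun j => my' j J' (by omega)]

end GhM

theorem ghStmt : GhStmt.{u} := by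
  intro r c hc V _ _ v n0 hv M ι _ _ Γ deg D G hn N0 ν
  have key : ∀ (j N : ℕ) (l : ℕ → ℕ) (l'' : ℕ), Antitone l → (∀ p, j * (c * M) ≤ l p) →
      (∀ p, l p ≤ l'') → l'' ≤ n0 → N + j * (c * M) ≤ N0 → ∀ n, ∀ z ∈ XF v N0 ν N l deg n,
      DD D z ∈ XF v N0 ν N (fun _ => l'') deg (n - 1) →
      (∀ i J, J.card < 2 * r + 1 - j → z (i, J) = 0) →
      ∃ w ∈ XF v N0 ν (N + j * (c * M)) (fun p => l p - j * (c * M)) deg (n + 1),
        (gg Γ ^ j) z - DD D w ∈
          XF v N0 ν (N + j * (c * M)) (fun _ => l'' - j * (c * M)) deg n := by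
    intro j
    induction j with
    | zero =>
      refine fun N l l'' _ _ _ _ _ n z _ _ hq => ⟨0, zero_mem _, ?_⟩
      have : z = 0 := by
        ext1 ⟨i, J⟩
        exact hq i J (by have := FJ_card J; omega)
      simp [this]
    | succ j ih =>
      intro N l l'' hl h1 h3 h4 h2 n z hz h0 hq
      rw [add_mul, one_mul] at h1 h2
      obtain ⟨w, hw, t, ht, a1, a2⟩ := GhM.step hv G hn (hc V v M) hl
        (fun p => by have := h1 p; omega) h3 h4 (by omega) hz h0 hq
      obtain ⟨w', hw', e⟩ := ih _ _ (l'' - c * M) (fun a b h => Nat.sub_le_sub_right (hl h) _)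
        (fun p => by have := h1 p; omega) (fun p => Nat.sub_le_sub_right (h3 p) _) (by omega)
        (by omega) n _ a1 (by
          have b1 : DD D (gg Γ z) = gg Γ (DD D z) := LinearMap.congr_fun (DD_comm G.com).eq z
          rw [map_sub, map_sub, b1, DD_DD G.dd, sub_zero]
          exact sub_mem (XF_mono (Nat.le_add_right _ _) (fun _ => Nat.sub_le _ _) _
            (gg_mem_XF G.g0 G.ge h0)) (XF_cxD G.gr _ (slope_const G.ent _) n t ht))
        fun i J h => a2 i J (by omega)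
      refine ⟨(gg Γ ^ j) w + w', add_mem ?_ (XF_mono ?_ (fun p => ?_) _ hw'), ?_⟩
      · refine XF_mono ?_ (fun p => ?_) _ (gg_pow_mem_XF G.g0 G.ge j hw) <;>
          rw [add_mul] <;> omega
      · rw [add_mul]; omega
      · rw [add_mul]; omega
      · have b2 : (gg Γ ^ (j + 1)) z - DD D ((gg Γ ^ j) w + w') =
            ((gg Γ ^ j) (gg Γ z - DD D w - t) - DD D w') + (gg Γ ^ j) t := by
          rw [map_add, DD_gg_pow G.com, map_sub, map_sub, pow_succ, Module.End.mul_apply]; abel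
        rw [b2]
        refine add_mem (XF_mono ?_ (fun p => ?_) _ e)
          (XF_mono ?_ (fun p => ?_) _ (gg_pow_mem_XF G.g0 G.ge j ht)) <;>
          rw [add_mul] <;> omega
  intro N l l'' hl h1 h3 h4 h2 n z hz h0
  rw [mul_assoc] at h1 h2 ⊢
  refine key (r + 1) N l l'' hl h1 h3 h4 h2 n z hz h0 fun i J h => ?_
  ext e
  rcases mem_Pv.1 (GhM.xf2.1 hz i J).1 e with he | ⟨e', he', -⟩
  · simpa using he
  · have := cond_card he'.2
    omega

end Vale.Agent.P202.Mx
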