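import Vale.Agent.P202.M.SpecI
import Vale.Agent.P202.NormI

/-! Module GW: completion, coefficient rings and algebraically closed residue fields. -/

open Finset Matrix MvPowerSeries Filter Topology IsLocalRing
open scoped Kronecker Nat

namespace Vale.Agent.P202.Mx

universe u

namespace GwM

/-- lifting a map to the residue field -/
theorem lift (hL : LiftStmt.{u}) (p : ℕ) [Fact p.Prime] (C B L : Type u) [CommRing C] [IsDomain C]
    [IsDiscreteValuationRing C] [CommRing B] [IsLocalRing B] [Field L] (ε : ResidueField B ≃+* L)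
    (f : C →+* L) (hC : maximalIdeal C = Ideal.span {(p : C)})
    (hB : IsAdicComplete (maximalIdeal B) B) (hp : (p : B) ∈ maximalIdeal B) :
    ∃ g : C →+* B, ∀ c, ε (residue B (g c)) = f c := by
  have hk : ∀ b, (ε.toRingHom.comp (residue B)) b = 0 ↔ b ∈ maximalIdeal B := fun b => by
    simp [residue_eq_zero_iff]
  refine hL p C B L (ε.toRingHom.comp (residue B)) f hC hB hp
    (ε.surjective.comp residue_surjective) (fun b hb => (hk b).1 hb) fun s hs => ?_
  have := hs 1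
  rw [pow_one, (Ideal.map_eq_bot_iff_le_ker _).2 fun b hb => (hk b).2 hb] at this
  exact this

theorem coef (hC : CohStmt.{u}) (hL : LiftStmt.{u}) (p : ℕ) [Fact p.Prime] (B : Type u)
    [CommRing B] [IsLocalRing B] (h1 : IsNoetherianRing B) (h2 : IsAdicComplete (maximalIdeal B) B)
    (hp : (p : B) ∈ maximalIdeal B) : CharP (ResidueField B) p ∧
    ∃ (C : Type u) (_ : CommRing C) (_ : IsDomain C) (_ : IsDiscreteValuationRing C)
      (_ : Algebra C B), Coh p C ∧ CW C B ∧ Nonempty (ResidueField C ≃+* ResidueField B) := by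
  have : CharP (ResidueField B) p := (CharP.charP_iff_prime_eq_zero Fact.out).2 (by
    rw [← map_natCast (residue B), residue_eq_zero_iff]; exact hp)
  obtain ⟨C, _, _, _, hc, ⟨ε⟩⟩ := hC p (ResidueField B)
  obtain ⟨g, hg⟩ := lift hL p C B _ (RingEquiv.refl _) (ε.toRingHom.comp (residue C)) hc.max h2 hp
  refine ⟨this, C, _, _, ‹_›, g.toAlgebra, hc, ?_, ⟨ε⟩⟩
  let := g.toAlgebra
  refine ⟨h1, h2, fun b => ?_, fun a ha => ?_⟩
  · obtain ⟨a, ha⟩ := (ε.surjective.comp residue_surjective) (residue B b)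
    exact ⟨a, Ideal.Quotient.eq.1 ((hg a).trans ha).symm⟩
  · refine (residue_eq_zero_iff _).1 ((hg a).trans ?_)
    simp [(residue_eq_zero_iff a).2 ha]

end GwM

theorem gonWStmt (hC : CohStmt.{u}) (hL : LiftStmt.{u}) (hW : WitStmt.{u}) (hB : BcWStmt.{u}) :
    GonWStmt.{u} := by
  intro p _ S _ _ _ hp
  obtain ⟨S', _, _, a, h1, h2, ha, ⟨ε⟩, h3, U⟩ := Ni.cpl S
  obtain ⟨_, C, _, _, _, _, hc, hw, ⟨ε'⟩⟩ := GwM.coef hC hL p S' h1 h2
    (by simpa using Gon.mem ha hp)
  refine ⟨⟨C, S', _, _, ‹_›, _, _, ‹_›, a, hc, hw, ha, fun h => ε.toEquiv.infinite_iff.1 h,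
    fun Z _ _ _ g hZ _ hg => ?_⟩, ?_⟩
  · obtain ⟨G, hG⟩ := U Z (maximalIdeal Z) g fun x hx => map_nonunit g x hx
    have hc : G.comp a = g := RingHom.ext hG
    have hl : (maximalIdeal S').map G ≤ maximalIdeal Z := by
      rw [← ha.map, Ideal.map_map, hc]
      exact map_maximalIdeal_le g
    refine ⟨G, ⟨fun x hx => by_contra fun h => hl (Ideal.mem_map_of_mem G h) hx⟩,
      Ni.flat a G (maximalIdeal S) (by rwa [ha.map]) (hc ▸ hg) fun h => ?_, hG⟩
    exact (maximalIdeal.isMaximal Z).ne_top (top_le_iff.1 (by rw [← h, ha.map]; exact hl))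
  · obtain ⟨W, _, _, _, σ, k1, k2, ⟨η⟩⟩ := hW p (AlgebraicClosure (ResidueField S'))
    obtain ⟨g, -⟩ := GwM.lift hL p C W _ η
      ((algebraMap _ _).comp (ε'.toRingHom.comp (residue C))) hc.max k1.cpl
      (k1.max ▸ Ideal.mem_span_singleton_self _)
    let := g.toAlgebra
    obtain ⟨R', _, _, _, b, k3, k4⟩ := hB p C W S' hc k1 hw
    exact ⟨W, R', _, _, ‹_›, σ, _, _, ‹_›, b.comp a, k1, k2,
      IsAlgClosed.of_ringEquiv _ _ η.symm, k3, Gon.comp ha k4⟩

end Vale.Agent.P202.Mx
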