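import Vale.Agent.P202.M.SpecI

open Finset Matrix MvPowerSeries Filter Topology IsLocalRing
open scoped Kronecker Nat

namespace Vale.Agent.P202.Mx

universe u

namespace H1

section Len
variable {R : Type u} [CommRing R]

theorem len_le_add {A B C : Type*} [AddCommGroup A] [Module R A] [AddCommGroup B] [Module R B]
    [AddCommGroup C] [Module R C] (f : A →ₗ[R] B) (g : B →ₗ[R] C)
    (h : LinearMap.ker g ≤ LinearMap.range f) :
    Module.length R B ≤ Module.length R C + Module.length R A := by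
  have e := Module.length_eq_add_of_exact (LinearMap.range f).subtype (LinearMap.range f).mkQ
    (Submodule.subtype_injective _) (Submodule.mkQ_surjective _)
    (LinearMap.exact_subtype_mkQ _)
  have h1 : Module.length R (LinearMap.range f) ≤ Module.length R A :=
    Module.length_le_of_surjective f.rangeRestrict f.surjective_rangeRestrict
  have h2 : Module.length R (B ⧸ LinearMap.range f) ≤ Module.length R (B ⧸ LinearMap.ker g) :=
    Module.length_le_of_surjective (Submodule.factor h) (Submodule.factor_surjective h)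
  have h3 : Module.length R (B ⧸ LinearMap.ker g) ≤ Module.length R C :=
    Module.length_le_of_injective ((LinearMap.ker g).liftQ g le_rfl)
      (LinearMap.ker_eq_bot.1 (Submodule.ker_liftQ_eq_bot _ _ _ le_rfl))
  rw [e, add_comm]
  exact add_le_add (h2.trans h3) h1

variable {M : Type u} [AddCommGroup M] [Module R M]

theorem lm_anti {I J : Ideal R} (h : I ≤ J) : lm M J ≤ lm M I :=
  Module.length_le_of_surjective (Submodule.factor (Submodule.smul_mono_left h))
    (Submodule.factor_surjective _)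

theorem lm_top : lm M (⊤ : Ideal R) = 0 := by
  unfold lm
  rw [Submodule.top_smul]
  exact Module.length_eq_zero

theorem step (I Z : Ideal R) (g : R) (h : ∀ z ∈ Z, z * g ∈ I) :
    lm M I ≤ lm M (I ⊔ Ideal.span {g}) + lm M Z := by
  have h1 : (Z • ⊤ : Submodule R M) ≤ (I • ⊤ : Submodule R M).comap (LinearMap.lsmul R M g) := by
    rw [Submodule.smul_le]
    intro z hz m _
    simp only [Submodule.mem_comap, LinearMap.lsmul_apply]
    rw [smul_smul, mul_comm]
    exact Submodule.smul_mem_smul (h z hz) trivial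
  refine len_le_add (Submodule.mapQ _ _ (LinearMap.lsmul R M g) h1)
    (Submodule.factor (Submodule.smul_mono_left (le_sup_left : I ≤ I ⊔ Ideal.span {g}))) ?_
  intro x hx
  obtain ⟨m, rfl⟩ := Submodule.Quotient.mk_surjective _ x
  rw [LinearMap.mem_ker] at hx
  change Submodule.Quotient.mk m = 0 at hx
  rw [Submodule.Quotient.mk_eq_zero, Submodule.sup_smul] at hx
  obtain ⟨a, ha, b, hb, rfl⟩ := Submodule.mem_sup.1 hx
  rw [Submodule.ideal_span_singleton_smul] at hb
  obtain ⟨c, -, rfl⟩ := (Submodule.mem_smul_pointwise_iff_exists _ _ _).1 hb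
  refine ⟨Submodule.Quotient.mk c, ?_⟩
  change Submodule.Quotient.mk (g • c) = _
  rw [Submodule.Quotient.eq]
  simpa using ha

variable {d : ℕ}

/-- monomials -/
def mon (z : Fin d → R) (β : Fin d → ℕ) : R := ∏ l, z l ^ β l

theorem mon_add (z : Fin d → R) (β γ : Fin d → ℕ) : mon z (β + γ) = mon z β * mon z γ := by
  simp [mon, pow_add, Finset.prod_mul_distrib]

theorem mon_single (z : Fin d → R) (l : Fin d) (n : ℕ) : mon z (Pi.single l n) = z l ^ n := by
  unfold mon
  rw [Finset.prod_eq_single l]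
  · simp
  · intro b _ hb
    simp [Pi.single_eq_of_ne hb]
  · simp

theorem mon_zero (z : Fin d → R) : mon z 0 = 1 := by simp [mon]

theorem mon_mem_pow (z : Fin d → R) (β : Fin d → ℕ) :
    mon z β ∈ Ideal.span (Set.range z) ^ (∑ l, β l) := by
  rw [← Finset.prod_pow_eq_pow_sum]
  exact Ideal.prod_mem_prod fun l _ => Ideal.pow_mem_pow (Ideal.subset_span (Set.mem_range_self l)) _

theorem mon_mem_bx (z : Fin d → R) (β : Fin d → ℕ) (t : ℕ) (l : Fin d) (h : t ≤ β l) :
    mon z β ∈ bx z t := by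
  obtain ⟨c, hc⟩ := Nat.exists_eq_add_of_le h
  have : z l ^ t ∣ mon z β :=
    (pow_dvd_pow _ h).trans (Finset.dvd_prod_of_mem (fun l => z l ^ β l) (Finset.mem_univ l))
  obtain ⟨w, hw⟩ := this
  rw [hw]
  exact Ideal.mul_mem_right _ _ (Ideal.subset_span ⟨l, rfl⟩)

theorem pow_le (z : Fin d → R) (k : ℕ) (J : Ideal R) (h : ∀ β, ∑ l, β l = k → mon z β ∈ J) :
    Ideal.span (Set.range z) ^ k ≤ J := by
  have key : ∀ k, Ideal.span (Set.range z) ^ k ≤
      Ideal.span (mon z '' {β | ∑ l, β l = k}) := by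
    intro k
    induction k with
    | zero =>
      rw [pow_zero, Ideal.one_eq_top, top_le_iff, Ideal.eq_top_iff_one]
      exact Ideal.subset_span ⟨0, by simp, mon_zero z⟩
    | succ k ih =>
      rw [pow_succ]
      refine (Ideal.mul_mono_left ih).trans ?_
      rw [Ideal.span_mul_span']
      apply Ideal.span_mono
      rintro _ ⟨_, ⟨β, hβ, rfl⟩, _, ⟨l, rfl⟩, rfl⟩
      refine ⟨β + Pi.single l 1, ?_, by rw [mon_add, mon_single, pow_one]⟩
      simp only [Set.mem_ofPred_eq, Pi.add_apply, Finset.sum_add_distrib] at hβ ⊢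
      rw [hβ]
      simp
  refine (key k).trans (Ideal.span_le.2 ?_)
  rintro _ ⟨β, hβ, rfl⟩
  exact h β hβ

theorem tile (z : Fin d → R) (n : ℕ) : ∀ (T : Finset (Fin d → ℕ)) (I K : Ideal R), T.card = n →
    (∀ β ∈ T, ∀ l, β + Pi.single l 1 ∈ T ∨ mon z (β + Pi.single l 1) ∈ I) →
    K ≤ I ⊔ Ideal.span (mon z '' T) →
    lm M I ≤ lm M K + (n : ℕ∞) * lm M (Ideal.span (Set.range z)) := by
  induction n with
  | zero =>
    intro T I K hT _ hK
    rw [Finset.card_eq_zero] at hT
    subst hT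
    simp only [Finset.coe_empty, Set.image_empty, Ideal.span_empty, sup_bot_eq] at hK
    simpa using lm_anti hK
  | succ n ih =>
    intro T I K hT h hK
    obtain ⟨β, hβ, hmax⟩ := Finset.exists_max_image T (fun β => ∑ l, β l)
      (Finset.card_pos.1 (by omega))
    have h1 : lm M I ≤ lm M (I ⊔ Ideal.span {mon z β}) + lm M (Ideal.span (Set.range z)) := by
      apply step
      intro w hw
      refine Submodule.span_induction (p := fun w _ => w * mon z β ∈ I) ?_ (by simp) ?_ ?_ hw
      · rintro _ ⟨l, rfl⟩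
        rcases h β hβ l with h2 | h2
        · have := hmax _ h2
          simp only [Pi.add_apply, Finset.sum_add_distrib] at this
          simp at this
        · rwa [mon_add, mon_single, pow_one, mul_comm] at h2
      · intro a b _ _ ha hb
        rw [add_mul]
        exact I.add_mem ha hb
      · intro a b _ hb
        rw [smul_eq_mul, mul_assoc]
        exact I.mul_mem_left _ hb
    have h2 := ih (T.erase β) (I ⊔ Ideal.span {mon z β}) K
      (by rw [Finset.card_erase_of_mem hβ, hT]; rfl) (by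
        intro γ hγ l
        rcases h γ (Finset.mem_of_mem_erase hγ) l with h3 | h3
        · by_cases e : γ + Pi.single l 1 = β
          · right
            rw [e]
            exact Ideal.mem_sup_right (Ideal.mem_span_singleton_self _)
          · exact Or.inl (Finset.mem_erase.2 ⟨e, h3⟩)
        · exact Or.inr (Ideal.mem_sup_left h3)) (by
        refine hK.trans (sup_le (le_sup_left.trans le_sup_left) (Ideal.span_le.2 ?_))
        rintro _ ⟨γ, hγ, rfl⟩
        by_cases e : γ = β
        · rw [e]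
          exact Ideal.mem_sup_left (Ideal.mem_sup_right (Ideal.mem_span_singleton_self _))
        · exact Ideal.mem_sup_right (Ideal.subset_span ⟨γ, Finset.mem_erase.2 ⟨e, hγ⟩, rfl⟩))
    refine h1.trans ?_
    push_cast
    rw [add_mul, one_mul, ← add_assoc]
    exact add_le_add h2 le_rfl

/-- the cube -/
def cube (d k : ℕ) : Finset (Fin d → ℕ) := Fintype.piFinset fun _ => range k

theorem mem_cube {k : ℕ} {β : Fin d → ℕ} : β ∈ cube d k ↔ ∀ l, β l < k := by simp [cube]

theorem card_cube (d k : ℕ) : (cube d k).card = k ^ d := by simp [cube]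

/-- number of monomials of degree `< k` -/
def cn (d k : ℕ) : ℕ := ((cube d k).filter fun β => ∑ l, β l < k).card

theorem cn_le (d k : ℕ) : cn d k ≤ k ^ d := (Finset.card_filter_le _ _).trans (card_cube d k).le

theorem cn_succ (d n : ℕ) : cn d (n + 1) = (n + d).choose d := by
  have e : ((cube d (n + 1)).filter fun β => ∑ l, β l < n + 1) =
      (range (n + 1)).biUnion fun i => Finset.piAntidiag (univ : Finset (Fin d)) i := by
    ext β
    simp only [Finset.mem_filter, mem_cube, Finset.mem_biUnion, Finset.mem_range,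
      Finset.mem_piAntidiag, Finset.mem_univ, implies_true, and_true]
    constructor
    · rintro ⟨_, h⟩
      exact ⟨_, h, rfl⟩
    · rintro ⟨i, hi, rfl⟩
      exact ⟨fun l => lt_of_le_of_lt
        (Finset.single_le_sum (fun _ _ => Nat.zero_le _) (Finset.mem_univ l)) hi, hi⟩
  unfold cn
  rw [e, Finset.card_biUnion, ← Nat.sum_range_multichoose]
  · apply Finset.sum_congr rfl
    intro i _
    have := Finset.card_finsuppAntidiag_nat_eq_multichoose (s := (univ : Finset (Fin d))) i
    rw [Finset.finsuppAntidiag, Finset.card_map, Finset.card_attach] at this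
    simpa using this
  · intro i _ j _ hij
    rw [Function.onFun, Finset.disjoint_left]
    intro β h1 h2
    rw [Finset.mem_piAntidiag] at h1 h2
    exact hij (h1.1.symm.trans h2.1)

theorem cn_low (d k : ℕ) (hk : 1 ≤ k) : k ^ d ≤ d ! * cn d k := by
  obtain ⟨n, rfl⟩ : ∃ n, k = n + 1 := ⟨k - 1, by omega⟩
  rw [cn_succ, ← Nat.ascFactorial_eq_factorial_mul_choose]
  exact Nat.pow_succ_le_ascFactorial _ _

theorem cn_up (d k : ℕ) (hk : 1 ≤ k) : d ! * cn d k ≤ (k + d) ^ d := by
  obtain ⟨n, rfl⟩ : ∃ n, k = n + 1 := ⟨k - 1, by omega⟩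
  rw [cn_succ, ← Nat.ascFactorial_eq_factorial_mul_choose]
  exact (Nat.ascFactorial_le_pow_add _ _).trans (Nat.pow_le_pow_left (by omega) _)

theorem cube_or (z : Fin d → R) (k : ℕ) (β : Fin d → ℕ) : β ∈ cube d k ∨ mon z β ∈ bx z k := by
  by_cases h : ∀ l, β l < k
  · exact Or.inl (mem_cube.2 h)
  · push Not at h
    obtain ⟨l, hl⟩ := h
    exact Or.inr (mon_mem_bx z β k l hl)

theorem ta (z : Fin d → R) (k : ℕ) :
    lm M (bx z k) ≤ (k ^ d : ℕ) * lm M (Ideal.span (Set.range z)) := by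
  have := tile (M := M) z _ (cube d k) (bx z k) ⊤ (card_cube d k) (fun β _ l => cube_or z k _) (by
    rw [top_le_iff, Ideal.eq_top_iff_one, ← mon_zero z]
    rcases cube_or z k 0 with h | h
    · exact Ideal.mem_sup_right (Ideal.subset_span ⟨0, h, rfl⟩)
    · exact Ideal.mem_sup_left h)
  rwa [lm_top, zero_add] at this

theorem low_or (z : Fin d → R) (k : ℕ) (β : Fin d → ℕ) :
    β ∈ (cube d k).filter (fun β => ∑ l, β l < k) ∨ mon z β ∈ Ideal.span (Set.range z) ^ k := by
  by_cases h : ∑ l, β l < k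
  · exact Or.inl (Finset.mem_filter.2 ⟨mem_cube.2 fun l => lt_of_le_of_lt
      (Finset.single_le_sum (fun _ _ => Nat.zero_le _) (Finset.mem_univ l)) h, h⟩)
  · exact Or.inr (Ideal.pow_le_pow_right (not_lt.1 h) (mon_mem_pow z β))

theorem tb (z : Fin d → R) (k : ℕ) :
    lm M (Ideal.span (Set.range z) ^ k) ≤ (cn d k : ℕ) * lm M (Ideal.span (Set.range z)) := by
  have := tile (M := M) z _ ((cube d k).filter (fun β => ∑ l, β l < k))
    (Ideal.span (Set.range z) ^ k) ⊤ rfl (fun β _ l => low_or z k _) (by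
    rw [top_le_iff, Ideal.eq_top_iff_one, ← mon_zero z]
    rcases low_or z k 0 with h | h
    · exact Ideal.mem_sup_right (Ideal.subset_span ⟨0, h, rfl⟩)
    · exact Ideal.mem_sup_left h)
  rwa [lm_top, zero_add] at this

theorem tc (z : Fin d → R) (k : ℕ) :
    lm M (bx z k) ≤ lm M (Ideal.span (Set.range z) ^ k) +
      (k ^ d - cn d k : ℕ) * lm M (Ideal.span (Set.range z)) := by
  refine tile (M := M) z _ ((cube d k).filter (fun β => ¬ ∑ l, β l < k)) _ _ ?_ ?_ ?_
  · have := Finset.card_filter_add_card_filter_not (s := cube d k) (fun β => ∑ l, β l < k)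
    rw [card_cube] at this
    unfold cn
    omega
  · intro β hβ l
    rcases cube_or z k (β + Pi.single l 1) with h | h
    · left
      rw [Finset.mem_filter] at hβ ⊢
      refine ⟨h, ?_⟩
      have := hβ.2
      simp only [Pi.add_apply, Finset.sum_add_distrib]
      omega
    · exact Or.inr h
  · apply pow_le
    intro β hβ
    rcases cube_or z k β with h | h
    · exact Ideal.mem_sup_right (Ideal.subset_span ⟨β, by
        rw [Finset.mem_coe, Finset.mem_filter]
        exact ⟨h, by omega⟩, rfl⟩)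
    · exact Ideal.mem_sup_left h

theorem bx_mul (y : Fin d → R) (t k : ℕ) : bx y (t * k) = bx (fun l => y l ^ t) k := by
  simp only [bx, pow_mul]

theorem bx_one (y : Fin d → R) : bx y 1 = Ideal.span (Set.range y) := by simp only [bx, pow_one]

theorem bx_anti (y : Fin d → R) {s t : ℕ} (h : s ≤ t) : bx y t ≤ bx y s := by
  rw [bx, Ideal.span_le]
  rintro _ ⟨l, rfl⟩
  have := mon_mem_bx y (Pi.single l t) s l (by simpa using h)
  rwa [mon_single] at this

theorem bx_pow_le (y : Fin d → R) (s k : ℕ) : bx y s ^ k ≤ Ideal.span (Set.range y) ^ (s * k) := by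
  rw [pow_mul]
  apply Ideal.pow_right_mono
  rw [bx, Ideal.span_le]
  rintro _ ⟨l, rfl⟩
  exact Ideal.pow_mem_pow (Ideal.subset_span (Set.mem_range_self l)) _

theorem pow_le_bx (y : Fin d → R) (s k : ℕ) (hs : 1 ≤ s) :
    Ideal.span (Set.range y) ^ (s * k + d * s) ≤ bx y s ^ k := by
  apply pow_le
  intro β hβ
  have e : mon y β = mon (fun l => y l ^ s) (fun l => β l / s) * mon y (fun l => β l % s) := by
    simp only [mon, ← pow_mul, ← Finset.prod_mul_distrib, ← pow_add, Nat.div_add_mod]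
  rw [e]
  refine Ideal.mul_mem_right _ _ (Ideal.pow_le_pow_right ?_ (mon_mem_pow _ _))
  have h1 : ∑ l, β l ≤ ∑ l : Fin d, (s * (β l / s) + s) := Finset.sum_le_sum fun l _ => by
    have := Nat.div_add_mod (β l) s
    have := Nat.mod_lt (β l) hs
    omega
  rw [Finset.sum_add_distrib, ← Finset.mul_sum, hβ] at h1
  simp only [Finset.sum_const, Finset.card_univ, Fintype.card_fin, smul_eq_mul] at h1
  exact Nat.le_of_mul_le_mul_left (by omega) hs

end Len

theorem ratio (g : ℕ → ℕ) (C : ℕ) (h1 : ∀ N, g N ≤ N + C) (h2 : ∀ N, N ≤ g N + C) (d : ℕ) :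
    Tendsto (fun N : ℕ => ((g N : ℝ) / N) ^ d) atTop (𝓝 1) := by
  have t0 : Tendsto (fun N : ℕ => (C : ℝ) / N) atTop (𝓝 0) := tendsto_const_div_atTop_nhds_zero_nat _
  have : Tendsto (fun N : ℕ => (g N : ℝ) / N) atTop (𝓝 1) := by
    refine tendsto_of_tendsto_of_tendsto_of_le_of_le' (g := fun N : ℕ => 1 - (C : ℝ) / N)
      (h := fun N : ℕ => 1 + (C : ℝ) / N) (by simpa using t0.const_sub 1)
      (by simpa using t0.const_add 1) ?_ ?_
    · filter_upwards [eventually_gt_atTop 0] with N hN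
      have hN' : (0 : ℝ) < N := by exact_mod_cast hN
      have : (N : ℝ) ≤ g N + C := by exact_mod_cast h2 N
      rw [le_div_iff₀ hN', sub_mul, div_mul_cancel₀ _ hN'.ne']
      linarith
    · filter_upwards [eventually_gt_atTop 0] with N hN
      have hN' : (0 : ℝ) < N := by exact_mod_cast hN
      have : (g N : ℝ) ≤ N + C := by exact_mod_cast h1 N
      rw [div_le_iff₀ hN', add_mul, div_mul_cancel₀ _ hN'.ne']
      linarith
  simpa using this.pow d

theorem up_lim (F : ℕ → ℝ) (d s c : ℕ) (hs : 1 ≤ s) (b a : ℝ) (hb : b / (s : ℝ) ^ d < a)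
    (h : ∀ N, F N ≤ ((N / s + 1 + c : ℕ) : ℝ) ^ d * b) :
    ∀ᶠ N : ℕ in atTop, F N / (N : ℝ) ^ d < a := by
  have r := ratio (fun N => (N / s + 1 + c) * s) ((1 + c) * s) (fun N => by
    have := Nat.div_mul_le_self N s
    rw [add_assoc, add_mul]
    omega) (fun N => by
    have := Nat.div_add_mod N s
    have := Nat.mod_lt N hs
    rw [add_assoc, add_mul, add_mul, mul_comm (N / s)]
    omega) d
  have r2 := r.mul_const (b / (s : ℝ) ^ d)
  rw [one_mul] at r2
  filter_upwards [r2.eventually_lt_const hb, eventually_gt_atTop 0] with N h1 hN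
  refine lt_of_le_of_lt ?_ h1
  have hN' : (0 : ℝ) < N := by exact_mod_cast hN
  have hs' : (0 : ℝ) < s := by exact_mod_cast hs
  refine (div_le_div_of_nonneg_right (h N) (by positivity)).trans (le_of_eq ?_)
  rw [Nat.cast_mul, div_pow, mul_pow]
  field_simp

theorem ana (B H : ℕ → ℝ) (d : ℕ) (B0 : ∀ t, 0 ≤ B t) (Bm : Monotone B) (Hm : Monotone H)
    (h1 : ∀ t u, B (t * u) ≤ (u : ℝ) ^ d * B t) (h2 : ∀ s k, H (s * k) ≤ cn d k * B s)
    (h3 : ∀ s k, 1 ≤ s → B (s * k) ≤ H (s * k + d * s) + ((k : ℝ) ^ d - cn d k) * B s) :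
    ∃ E : ℝ, (∀ t : ℕ, 1 ≤ t → E * (t : ℝ) ^ d ≤ B t) ∧
      Tendsto (fun t : ℕ => B t / (t : ℝ) ^ d) atTop (𝓝 E) ∧
      Tendsto (fun N : ℕ => (d ! : ℝ) * H N / (N : ℝ) ^ d) atTop (𝓝 E) := by
  let S : Set ℝ := {x | ∃ t : ℕ, 1 ≤ t ∧ x = B t / (t : ℝ) ^ d}
  have hne : S.Nonempty := ⟨_, 1, le_rfl, rfl⟩
  have hbd : BddBelow S := ⟨0, by
    rintro _ ⟨t, _, rfl⟩
    have := B0 t
    positivity⟩
  have hE : ∀ t : ℕ, 1 ≤ t → sInf S ≤ B t / (t : ℝ) ^ d := fun t ht => csInf_le hbd ⟨t, ht, rfl⟩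
  have hE' : ∀ t : ℕ, 1 ≤ t → sInf S * (t : ℝ) ^ d ≤ B t := fun t ht => by
    have : (0 : ℝ) < t := by exact_mod_cast ht
    exact (le_div_iff₀ (by positivity)).1 (hE t ht)
  have hex : ∀ a, sInf S < a → ∃ s : ℕ, 1 ≤ s ∧ B s / (s : ℝ) ^ d < a := fun a ha => by
    obtain ⟨_, ⟨s, hs, rfl⟩, h⟩ := exists_lt_of_csInf_lt hne ha
    exact ⟨s, hs, h⟩
  have hle : ∀ N s : ℕ, 1 ≤ s → N ≤ s * (N / s + 1) := fun N s hs => by
    have := Nat.div_add_mod N s
    have := Nat.mod_lt N hs
    rw [mul_add]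
    omega
  generalize sInf S = E at hE hE' hex
  refine ⟨E, hE', tendsto_order.2 ⟨fun a ha => ?_, fun a ha => ?_⟩,
    tendsto_order.2 ⟨fun a ha => ?_, fun a ha => ?_⟩⟩
  · filter_upwards [eventually_ge_atTop 1] with t ht using ha.trans_le (hE t ht)
  · obtain ⟨s, hs, h⟩ := hex a ha
    exact up_lim B d s 0 hs _ a h fun N => (Bm (hle N s hs)).trans (h1 _ _)
  · have hf : (1 : ℝ) ≤ d ! := by exact_mod_cast Nat.factorial_pos d
    obtain ⟨s, hs, h⟩ := hex (E + (E - a) / d !) (by
      have : 0 < (E - a) / d ! := div_pos (by linarith) (by linarith)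
      linarith)
    have hs' : (0 : ℝ) < s := by exact_mod_cast hs
    have hb := hE s hs
    have hw : a < d ! * E - ((d ! : ℝ) - 1) * (B s / (s : ℝ) ^ d) := by
      have e : (d ! : ℝ) * ((E - a) / d !) = E - a := by field_simp
      have : (d ! : ℝ) * (B s / (s : ℝ) ^ d) < d ! * (E + (E - a) / d !) :=
        mul_lt_mul_of_pos_left h (by linarith)
      rw [mul_add, e] at this
      nlinarith
    have r := ratio (fun N => s * (N / s - d)) ((d + 1) * s) (fun N => by
      have := Nat.mul_div_le N s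
      have := Nat.mul_le_mul_left s (Nat.sub_le (N / s) d)
      omega) (fun N => by
      have h4 := hle N s hs
      have h5 : s * (N / s + 1) ≤ s * (N / s - d + (d + 1)) := Nat.mul_le_mul_left s (by omega)
      rw [mul_add s (N / s - d), mul_comm s (d + 1)] at h5
      omega) d
    have r2 := r.mul_const (d ! * E - ((d ! : ℝ) - 1) * (B s / (s : ℝ) ^ d))
    rw [one_mul] at r2
    filter_upwards [r2.eventually_const_lt hw, eventually_ge_atTop (s * (d + 1))] with N h4 hN
    refine h4.trans_le ?_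
    have hq : d + 1 ≤ N / s := (Nat.le_div_iff_mul_le hs).2 (by rwa [mul_comm])
    obtain ⟨k, hk⟩ : ∃ k, N / s = k + d := ⟨N / s - d, by omega⟩
    have hk1 : 1 ≤ k := by omega
    rw [hk, Nat.add_sub_cancel]
    have hN0 : 0 < N := lt_of_lt_of_le (by positivity) hN
    have hN' : (0 : ℝ) < N := by exact_mod_cast hN0
    have a1 : H (s * k + d * s) ≤ H N := Hm (by
      have := Nat.mul_div_le N s
      rw [hk, mul_add, mul_comm s d] at this
      exact this)
    have a2 := h3 s k hs
    have a3 := hE' (s * k) (Nat.mul_pos hs hk1)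
    have a4 : (k : ℝ) ^ d ≤ d ! * cn d k := by exact_mod_cast cn_low d k hk1
    have a5 := mul_le_mul_of_nonneg_right a4 (B0 s)
    rw [div_pow, div_mul_eq_mul_div]
    refine div_le_div_of_nonneg_right ?_ (by positivity)
    have e : ((s * k : ℕ) : ℝ) ^ d * (d ! * E - ((d ! : ℝ) - 1) * (B s / (s : ℝ) ^ d)) =
        d ! * (E * ((s * k : ℕ) : ℝ) ^ d) - ((d ! : ℝ) - 1) * ((k : ℝ) ^ d * B s) := by
      rw [Nat.cast_mul, mul_pow]
      field_simp
    rw [e]
    have a6 := mul_le_mul_of_nonneg_left (a3.trans (a2.trans (add_le_add a1 le_rfl)))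
      (zero_le_one.trans hf)
    nlinarith
  · obtain ⟨s, hs, h⟩ := hex a ha
    refine up_lim (fun N => d ! * H N) d s d hs _ a h fun N => ?_
    have a1 := (Hm (hle N s hs)).trans (h2 _ _)
    have a2 : (d ! : ℝ) * cn d (N / s + 1) ≤ ((N / s + 1 + d : ℕ) : ℝ) ^ d := by
      exact_mod_cast cn_up d (N / s + 1) (Nat.le_add_left _ _)
    calc (d ! : ℝ) * H N ≤ d ! * (cn d (N / s + 1) * B s) :=
          mul_le_mul_of_nonneg_left a1 (by positivity)
      _ = (d ! * cn d (N / s + 1)) * B s := by ring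
      _ ≤ _ := mul_le_mul_of_nonneg_right a2 (B0 s)

theorem cast_le {a b : ℕ∞} (h : a ≤ b) (hb : b ≠ ⊤) : (a.toNat : ℝ) ≤ b.toNat := by
  exact_mod_cast ENat.toNat_le_toNat h hb

theorem cast_le2 {a b c : ℕ∞} {n : ℕ} (h : a ≤ b + n * c) (hb : b ≠ ⊤) (hc : c ≠ ⊤) :
    (a.toNat : ℝ) ≤ b.toNat + n * c.toNat := by
  lift b to ℕ using hb
  lift c to ℕ using hc
  have ha : a ≠ ⊤ := ne_top_of_le_ne_top (by exact_mod_cast ENat.coe_ne_top (b + n * c)) h
  lift a to ℕ using ha
  simp only [ENat.toNat_coe]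
  exact_mod_cast h

end H1

open H1 in
theorem hs1Stmt : Hs1Stmt.{u} := by
  intro R M _ _ _ d y
  have p1 : ∀ t u, lm M (bx y (t * u)) ≤ (u ^ d : ℕ) * lm M (bx y t) := fun t u => by
    rw [bx_mul]
    exact ta _ _
  have p2 : ∀ N, lm M (Ideal.span (Set.range y) ^ N) ≤ ((N + 1) ^ d : ℕ) * lm M (bx y 1) :=
    fun N => by
    rw [bx_one]
    refine (tb y N).trans (mul_le_mul_left ?_ _)
    exact_mod_cast (cn_le d N).trans (Nat.pow_le_pow_left (Nat.le_succ N) d)
  refine ⟨p1, p2, fun hf => ?_⟩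
  have fb : ∀ t, lm M (bx y t) ≠ ⊤ := fun t => by
    have := p1 1 t
    rw [one_mul] at this
    exact ne_top_of_le_ne_top (WithTop.mul_ne_top (ENat.coe_ne_top _) hf) this
  have fh : ∀ N, lm M (Ideal.span (Set.range y) ^ N) ≠ ⊤ := fun N =>
    ne_top_of_le_ne_top (WithTop.mul_ne_top (ENat.coe_ne_top _) hf) (p2 N)
  refine ana (fun t => (lm M (bx y t)).toNat) (fun N => (lm M (Ideal.span (Set.range y) ^ N)).toNat)
    d (fun _ => by positivity) (fun s t h => cast_le (lm_anti (bx_anti y h)) (fb t))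
    (fun s t h => cast_le (lm_anti (Ideal.pow_le_pow_right h)) (fh t)) (fun t u => ?_)
    (fun s k => ?_) (fun s k hs => ?_)
  · have := cast_le2 (b := 0) ((p1 t u).trans (zero_add _).ge) (by simp) (fb t)
    simpa using this
  · have := cast_le2 (b := 0) (c := lm M (bx y s)) (((lm_anti (M := M) (bx_pow_le y s k)).trans
      (tb (fun l => y l ^ s) k)).trans (zero_add _).ge) (by simp) (fb s)
    simpa using this
  · have := cast_le2 (c := lm M (bx y s)) ((tc (M := M) (fun l => y l ^ s) k).trans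
      (add_le_add (lm_anti (pow_le_bx y s k hs)) le_rfl)) (fh _) (fb s)
    rw [← bx_mul, Nat.cast_sub (cn_le d k)] at this
    simpa using this

end Vale.Agent.P202.Mx
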