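import Vale.Agent.P202.M.SpecI
import Vale.Agent.P202.M.Base
import Vale.Agent.P202.Red

/-! Multiplicities: nonzero divisors and reductions. -/

open Finset Matrix MvPowerSeries Filter Topology IsLocalRing
open scoped Kronecker Nat

namespace Vale.Agent.P202.Mx

universe u

namespace H2

variable {R : Type u} [CommRing R]

theorem ln_eq (I : Ideal R) : ln I = rl I ⊤ := (rl_top I).symm

theorem ln_anti {I J : Ideal R} (h : I ≤ J) : ln J ≤ ln I := by
  rw [ln_eq, ln_eq]; exact rl_mono h le_sup_right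

theorem lm_self (I : Ideal R) : lm R I = ln I := by
  rw [lm, ← rl_top, ln_eq, smul_eq_mul, Ideal.mul_top]

theorem lm_quot (I K : Ideal R) : lm (R ⧸ K) I = ln (I ⊔ K) := by
  have e : (I • ⊤ : Submodule R (R ⧸ K)) = Submodule.map K.mkQ I := by
    conv_rhs => rw [← Ideal.mul_top I, ← smul_eq_mul, Submodule.map_smul'', Submodule.map_top,
      Submodule.range_mkQ]
  have e' : ∀ x, K.mkQ x ∈ (I • ⊤ : Submodule R (R ⧸ K)) ↔ x ∈ I ⊔ K := fun x => by
    rw [e, ← Submodule.mem_comap, Submodule.comap_map_mkQ, sup_comm]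
  rw [lm, ← rl_top, ln_eq]
  exact le_antisymm (rl_le_of_map K.mkQ (fun x hx => (e' x).2 hx) (by simp))
    (rl_le_of_comap K.mkQ (fun x _ hx => (e' x).1 hx) (by simp))

theorem bx_one {d : ℕ} (y : Fin d → R) : bx y 1 = Ideal.span (Set.range y) := by simp [bx]

theorem shift {a : ℕ → ℝ} {d : ℕ} {e : ℝ} (h : Tendsto (fun N : ℕ => a N / (N : ℝ) ^ d) atTop (𝓝 e))
    (c : ℕ) : Tendsto (fun N : ℕ => a N / ((N + c : ℕ) : ℝ) ^ d) atTop (𝓝 e) := by
  have := h.mul ((tendsto_natCast_div_add_atTop (c : ℝ)).pow d)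
  rw [one_pow, mul_one] at this
  refine this.congr' ?_
  filter_upwards [eventually_gt_atTop 0] with N hN
  have h0 : (0 : ℝ) < N := by exact_mod_cast hN
  push_cast
  rw [div_pow]
  field_simp

theorem ar [IsNoetherianRing R] (q : Ideal R) {g : R} (hg : ∀ a, g * a = 0 → a = 0) :
    ∃ c, ∀ N, ln (q ^ N) + ln (q ^ (N + c) ⊔ Ideal.span {g}) ≤ ln (q ^ (N + c)) := by
  obtain ⟨c, hc⟩ := Ideal.exists_pow_inf_eq_pow_smul q (M := R) (Ideal.span {g})
  refine ⟨c, fun N => ?_⟩
  rw [ln_eq, ln_eq, ln_eq, rl_add (P := q ^ (N + c)) (Q := q ^ (N + c) ⊔ Ideal.span {g}) (R := ⊤)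
    le_sup_left le_top]
  refine add_le_add (rl_le_of_comap (LinearMap.mulLeft R g) (fun x _ hx => ?_) fun x _ =>
    Submodule.mem_sup_right (Submodule.mem_sup_right
      (Ideal.mul_mem_right _ _ (Ideal.mem_span_singleton_self g)))) le_rfl
  have h1 : g * x ∈ (q ^ (N + c) • ⊤ ⊓ Ideal.span {g} : Submodule R R) :=
    ⟨by rw [smul_eq_mul, Ideal.mul_top]; exact hx,
      Ideal.mul_mem_right _ _ (Ideal.mem_span_singleton_self g)⟩
  rw [hc _ (by omega), add_tsub_cancel_right] at h1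
  have h2 := Submodule.smul_mono (le_refl (q ^ N)) inf_le_right h1
  rw [smul_eq_mul] at h2
  obtain ⟨a, ha, e⟩ := Ideal.mem_mul_span_singleton.1 h2
  have := hg (a - x) (by rw [mul_sub, mul_comm g a, e, sub_self])
  rwa [← sub_eq_zero.1 this]

end H2

open H2 in
theorem hs2Stmt (h : Hs1Stmt.{u}) : Hs2Stmt.{u} := by
  intro R _ _ d y hd hy
  obtain ⟨a1, a2, a3⟩ := h R R d y
  simp only [lm_self, bx_one] at a1 a2 a3
  obtain ⟨E, b1, b2, b3⟩ := a3 hy
  have fq : ∀ N, ln (Ideal.span (Set.range y) ^ N) ≠ ⊤ := fun N =>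
    ne_top_of_le_ne_top (WithTop.mul_ne_top (ENat.natCast_ne_top _) hy) (a2 N)
  refine ⟨fun t => ?_, fun g hg => ?_, fun c h1 h2 => ⟨E, ?_, b1, b2⟩⟩
  · have := a1 1 t
    rw [one_mul, bx_one] at this
    exact ne_top_of_le_ne_top (WithTop.mul_ne_top (ENat.natCast_ne_top _) hy) this
  · obtain ⟨-, -, c3⟩ := h R (R ⧸ Ideal.span {g}) d y
    simp only [lm_quot, bx_one] at c3
    obtain ⟨E', -, c2, c3⟩ := c3 (ne_top_of_le_ne_top hy (ln_anti le_sup_left))
    obtain ⟨c, hc⟩ := ar (Ideal.span (Set.range y)) hg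
    have fq' : ∀ N, ln (Ideal.span (Set.range y) ^ N ⊔ Ideal.span {g}) ≠ ⊤ := fun N =>
      ne_top_of_le_ne_top (fq N) (ln_anti le_sup_left)
    have e1 : E + E' ≤ E := le_of_tendsto_of_tendsto'
      ((shift b3 c).add ((tendsto_add_atTop_iff_nat c).2 c3)) ((tendsto_add_atTop_iff_nat c).2 b3)
      fun N => by
        have := ENat.toNat_le_toNat (hc N) (fq _)
        rw [ENat.toNat_add (fq _) (fq' _)] at this
        rw [← add_div, ← mul_add]
        gcongr
        exact_mod_cast this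
    have e2 : E' = 0 := le_antisymm (by linarith) (ge_of_tendsto' c3 fun N => by positivity)
    subst e2
    have h0 : (0 : ℝ) < d ! := by exact_mod_cast d.factorial_pos
    refine ⟨c2, ?_, ?_⟩
    · have := c3.const_mul (d ! : ℝ)⁻¹
      rw [mul_zero] at this
      refine this.congr fun N => ?_
      field_simp
    · obtain ⟨N, h3, h4⟩ := ((c3.eventually (gt_mem_nhds zero_lt_one)).and
        (eventually_gt_atTop 0)).exists
      refine ⟨N, ?_⟩
      rw [div_lt_one (by positivity)] at h3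
      have h5 : d ! * (ln (Ideal.span (Set.range y) ^ N ⊔ Ideal.span {g})).toNat < N ^ d := by
        exact_mod_cast h3
      have h6 := h5.trans_le (Nat.pow_succ_le_ascFactorial N d)
      rw [Nat.ascFactorial_eq_factorial_mul_choose'] at h6
      rw [← ENat.natCast_toNat (fq' N), Nat.cast_lt]
      exact lt_of_mul_lt_mul_left h6 (Nat.zero_le _)
  · refine (tendsto_add_atTop_iff_nat c).1 (tendsto_of_tendsto_of_tendsto_of_le_of_le
      (shift b3 c) ((tendsto_add_atTop_iff_nat c).2 b3) (fun N => ?_) fun N => ?_)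
    · have := ENat.toNat_le_toNat (ln_anti ((Rd.red_pow h2 N).trans Ideal.mul_le_left))
        (Rd.finlen R _)
      simp only
      gcongr
      exact_mod_cast this
    · have := ENat.toNat_le_toNat (ln_anti (Ideal.pow_right_mono
        (Ideal.span_le.2 (Set.range_subset_iff.2 h1)) (N + c))) (fq _)
      simp only
      gcongr
      exact_mod_cast this

end Vale.Agent.P202.Mx
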