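import Vale.Agent.P202.M.SpecE
import Vale.Agent.P202.Kc

/-! Multiplicativity for Koszul complexes on complexes, over an arbitrary ring. -/

open Finset Matrix MvPowerSeries Filter Topology IsLocalRing
open scoped Kronecker Nat

namespace Vale.Agent.P202.Mx

universe u

section com
variable {Λ : Type u} [CommRing Λ] {β ι : Type} [Fintype ι] [DecidableEq ι] {ξ : β → Λ} {γ : Λ}
  {M ℓ : ℕ}

theorem ComG.pow {t d : ℕ} {dn : ι → ℕ} {Y : Fin d → Matrix ι ι Λ} {d0 : Matrix ι ι Λ}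
    (h : ComG ξ γ M ℓ t dn Y d0) (a : Fin d → ℕ) (ha : ∀ l, a l ≤ t) :
    ComG ξ γ M ℓ 1 dn (fun l => Y l ^ a l) d0 := by
  refine ⟨h.le, fun l => (h.g0 l).pow _, h.g1, h.dd,
    fun i j => (h.com i j).pow_pow _ _, fun i => (h.cd i).pow_left _, fun j => ?_⟩
  obtain ⟨Z, H, h1, h2, h5, h6, h7, h8⟩ := h.gen j
  refine ⟨fun l => Z l * Y l ^ (t - a l), H, fun l => (h1 l).mul ((h.g0 l).pow _) (by simp), h2,
    fun l l' => ((h5 l l').pow_right _).mul_left ((h.com _ _).pow_pow _ _),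
    fun l => (h6 l).mul_left ((h.cd l).pow_left _), fun l => (h7 l).pow_right _, ?_⟩
  rw [← h8]
  congr 1
  exact sum_congr rfl fun l _ => by rw [pow_one, mul_assoc, ← pow_add, Nat.sub_add_cancel (ha l)]

theorem ComG.gd1 {d : ℕ} {dn : ι → ℕ} {Y : Fin d → Matrix ι ι Λ} {d0 : Matrix ι ι Λ}
    (h : ComG ξ γ M ℓ 1 dn Y d0) : GdG ξ γ M ℓ (kc dn) (KosC Y d0) := by
  refine ⟨kosC_gr h.g0 h.g1, kosC_sq h.com h.cd h.dd, fun p => ?_, fun j => ?_⟩
  · have := h.le p.2
    have := card_le_univ p.1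
    simp only [kc, Fintype.card_fin] at *
    omega
  obtain ⟨Z, H, h1, h2, h5, h6, h7, h8⟩ := h.gen j
  refine ⟨_, (Gr.sum univ fun l _ => (gr_ep' l).kron (h1 l) (by simp)).add
    (gr_sgn.kron h2 (by simp)), ?_⟩
  simp only [pow_one] at h8
  rw [kosC_nul Y Z d0 H h5 h6 h7, h8, kronecker_smul, one_kronecker_one]

theorem ComG.gd {t d : ℕ} {dn : ι → ℕ} {Y : Fin d → Matrix ι ι Λ} {d0 : Matrix ι ι Λ}
    (h : ComG ξ γ M ℓ t dn Y d0) (a : Fin d → ℕ) (ha : ∀ l, a l ≤ t) :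
    GdG ξ γ M ℓ (kc dn) (KosC (fun l => Y l ^ a l) d0) := (h.pow a ha).gd1

end com

namespace Kcm

open Ko Kc

variable {Λ : Type u} [CommRing Λ] {β n : Type} [Fintype n] [DecidableEq n] {ξ : β → Λ} {γ : Λ}
  {M ℓ : ℕ}

theorem com_dbl {d : ℕ} {dn : n → ℕ} {W : Fin d → Matrix n n Λ}
    {d0 : Matrix n n Λ} (H : ComG ξ γ M ℓ 1 dn W d0) (i : Fin d)
    (g h : Matrix n n Λ) (e : W i = g * h) (c : Commute g h)
    (hg : ∀ l, Commute (W l) g) (hh : ∀ l, Commute (W l) h) (dg : Commute g d0)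
    (dh : Commute h d0) (gg : Gr dn dn 0 g) (gh : Gr dn dn 0 h)
    (hz : ∀ j, ∃ (Z : Fin d → Matrix n n Λ) (η : Matrix n n Λ),
      (∀ l, Gr dn dn 0 (Z l)) ∧ Gr dn dn 1 η ∧ (∀ l l', Commute (Z l) (W l')) ∧
      (∀ l, Commute (Z l) d0) ∧ (∀ l, Commute η (W l)) ∧ (∀ l, Commute (Z l) g ∧ Commute (Z l) h) ∧
      Commute η g ∧ Commute η h ∧ ∑ l, Z l * W l + (d0 * η + η * d0) = (γ * ξ j ^ M) • 1) :
    ComG ξ γ M ℓ 1 (Sum.elim dn dn) (dbl i W g h) (fromBlocks d0 0 0 d0) := by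
  have o : Gr dn dn 0 (1 : Matrix n n Λ) := Gr.one
  refine ⟨by rintro (a | a) <;> exact H.le a, fun l => ?_, gr_blocks H.g1 Gr.zero Gr.zero H.g1,
    by simp [fromBlocks_multiply, H.dd], fun a b => ?_, fun a => ?_, fun j => ?_⟩
  · unfold dbl
    split_ifs
    exacts [gr_blocks gg o.neg Gr.zero gh, gr_blocks (H.g0 l) Gr.zero Gr.zero (H.g0 l)]
  · by_cases ea : a = i <;> by_cases eb : b = i
    · rw [ea, eb]
    · simp [Commute, SemiconjBy, dbl, ea, eb, fromBlocks_multiply, (hg b).eq, (hh b).eq]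
    · simp [Commute, SemiconjBy, dbl, ea, eb, fromBlocks_multiply, (hg a).eq, (hh a).eq]
    · simp [Commute, SemiconjBy, dbl, ea, eb, fromBlocks_multiply, (H.com a b).eq]
  · by_cases ea : a = i <;>
      simp [Commute, SemiconjBy, dbl, ea, fromBlocks_multiply, dg.eq, dh.eq, (H.cd a).eq]
  · obtain ⟨Z, η, g1, g2, h1, h4, h5, h2, h6, h7, h3⟩ := hz j
    refine ⟨fun l => fromBlocks (Z l) 0 0 (Z l) * if l = i then fromBlocks h 1 0 g else 1,
      fromBlocks η 0 0 η, fun l => (gr_blocks (g1 l) Gr.zero Gr.zero (g1 l)).mul (b := 0) ?_ (by simp),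
      gr_blocks g2 Gr.zero Gr.zero g2,
      fun a b => Commute.mul_left ?_ ?_, fun a => Commute.mul_left ?_ ?_, fun b => ?_, ?_⟩
    · split_ifs
      exacts [gr_blocks gh o Gr.zero gg, Gr.one]
    · by_cases eb : b = i <;> simp [Commute, SemiconjBy, dbl, eb, fromBlocks_multiply,
        (h2 a).1.eq, (h2 a).2.eq, (h1 a b).eq]
    · by_cases ea : a = i <;> by_cases eb : b = i <;> simp [Commute, SemiconjBy, dbl, ea, eb,
        fromBlocks_multiply, (hg b).eq, (hh b).eq, c.eq]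
    · simp [Commute, SemiconjBy, fromBlocks_multiply, (h4 a).eq]
    · by_cases ea : a = i <;> simp [Commute, SemiconjBy, ea, fromBlocks_multiply, dg.eq, dh.eq]
    · by_cases eb : b = i <;> simp [Commute, SemiconjBy, dbl, eb, fromBlocks_multiply,
        h6.eq, h7.eq, (h5 b).eq]
    · have : ∀ l, (fromBlocks (Z l) 0 0 (Z l) * if l = i then fromBlocks h 1 0 g else 1) *
          dbl i W g h l ^ 1 = fromBlocks (Z l * W l) 0 0 (Z l * W l) := fun l => by
        by_cases el : l = i <;> simp [dbl, el, fromBlocks_multiply, e, c.eq, mul_assoc]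
      rw [sum_congr rfl fun l _ => this l, ← fromBlocks_one, fromBlocks_smul, ← h3,
        fromBlocks_multiply, fromBlocks_multiply]
      ext1 (a | a) (b | b) <;> simp [Matrix.sum_apply]

end Kcm

open Kc Kcm

theorem kcStmt : KcStmt.{u} := by
  intro Λ _ β ξ γ M ℓ t d n _ _ dn Y d0 ht hY
  refine ⟨by simpa using hY.gd (fun _ => 1) fun _ => ht, hY.gd (fun _ => t) fun _ => le_rfl,
    fun f η hf => ?_⟩
  set c : ℤ := 2 ^ d * Fintype.card n with hc
  have c0 : 0 ≤ c * η := by positivity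
  have key : ∀ (N : ℕ) (a : Fin d → ℕ), ∑ l, a l = N → (∀ l, 1 ≤ a l) → (∀ l, a l ≤ t) →
      |f _ (kc dn) (KosC (fun l => Y l ^ a l) d0) - (∏ l, a l : ℕ) * f _ (kc dn) (KosC Y d0)| ≤
        5 * ((∏ l, a l : ℕ) - 1) * (c * η) := by
    intro N
    induction N using Nat.strong_induction_on with
    | _ N ih =>
    intro a hN h1 h2
    by_cases h : ∀ l, a l = 1
    · simp [h]
    obtain ⟨i, hi⟩ := not_forall.1 h
    obtain ⟨b, hb⟩ : ∃ b, a i = b + 1 := ⟨a i - 1, by have := h1 i; omega⟩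
    have up : ∀ x, (Function.update (fun l => Y l ^ a l) i (Y i ^ x)) =
        fun l => Y l ^ Function.update a i x l := fun x => by
      ext1 l; by_cases e : l = i <;> simp [e]
    have bd : ∀ x, 1 ≤ x → x < a i → ∑ l, Function.update a i x l < N ∧
        (∀ l, 1 ≤ Function.update a i x l) ∧ ∀ l, Function.update a i x l ≤ t := fun x h3 h4 => by
      refine ⟨hN ▸ sum_lt_sum (fun l _ => ?_) ⟨i, mem_univ _, by simpa⟩, fun l => ?_, fun l => ?_⟩ <;>
        by_cases e : l = i <;> simp [e, h1, h2, h3, h4.le, h4.le.trans (h2 i)]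
    have b1 := bd b (by have := h1 i; omega) (by omega)
    have b2 := bd 1 le_rfl (by have := h1 i; omega)
    have i1 := ih _ b1.1 _ rfl b1.2.1 b1.2.2
    have i2 := ih _ b2.1 _ rfl b2.2.1 b2.2.2
    have cw := hY.pow a h2
    have e : Y i ^ a i = Y i ^ b * Y i ^ 1 := by rw [hb, pow_add]
    have cg : ∀ x l, Commute (Y l ^ a l) (Y i ^ x) := fun x l => (hY.com _ _).pow_pow _ _
    have cc : Commute (Y i ^ b) (Y i ^ 1) := (hY.com _ _).pow_pow _ _
    have cd : ∀ x, Commute (Y i ^ x) d0 := fun x => (hY.cd i).pow_left _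
    have g0 : ∀ x, Gr dn dn 0 (Y i ^ x) := fun x => (hY.g0 i).pow _
    have gd' := (Kcm.com_dbl cw i _ _ e cc (cg b) (cg 1) (cd b) (cd 1) (g0 b) (g0 1) fun j => by
      obtain ⟨Z, H, z1, z2, z3, z4, z5, z6⟩ := hY.gen j
      have : ∀ l l' x, Commute (Z l * Y l ^ (t - a l)) (Y l' ^ x) := fun l l' x =>
        ((z3 l l').pow_right _).mul_left ((hY.com _ _).pow_pow _ _)
      refine ⟨_, H, fun l => (z1 l).mul ((hY.g0 l).pow _) (by simp), z2, fun l l' => this l l' _,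
        fun l => (z4 l).mul_left ((hY.cd l).pow_left _), fun l => (z5 l).pow_right _,
        fun l => ⟨this l i _, this l i _⟩, (z5 i).pow_right _, (z5 i).pow_right _, ?_⟩
      rw [← z6]
      congr 1
      exact sum_congr rfl fun l _ => by
        rw [mul_assoc, ← pow_add, Nat.sub_add_cancel (h2 l)]).gd1
    have dm := Kc.dbl_dom i (fun l => Y l ^ a l) d0 _ _ e cc (cg b) (cg 1) (cd b) (cd 1) (g0 b)
      (g0 1)
    have a1 := hf.e1 _ _ _ _ _ _ cw.gd1 gd' (Ko.dom_of γ dm.1) (Ko.dom_of γ dm.2)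
    have tr := Kc.dbl_tri (dn := dn) i (fun l => Y l ^ a l) d0 (Y i ^ b) (Y i ^ 1)
    rw [up, up] at tr
    have a2 := hf.e2 _ _ _ _ _ _ _ _ _ _ tr gd' (hY.gd _ b1.2.2) (hY.gd _ b2.2.2)
    have pr : ∏ l, a l = ∏ l, Function.update a i b l + ∏ l, Function.update a i 1 l := by
      rw [prod_update_of_mem (mem_univ _), prod_update_of_mem (mem_univ _), ← add_mul, ← hb,
        prod_eq_mul_prod_sdiff_singleton_of_mem (mem_univ i)]
    simp only [Fintype.card_prod, Fintype.card_finset, Fintype.card_fin, Fintype.card_sum] at a1 a2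
    rw [pr]
    rw [abs_le] at *
    push_cast at *
    constructor <;> linarith [a1.1, a1.2, a2.1, a2.2, i1.1, i1.2, i2.1, i2.2]
  have := key _ (fun _ => t) rfl (fun _ => ht) fun _ => le_rfl
  simp only [prod_const, card_univ, Fintype.card_fin, Nat.cast_pow] at this
  refine this.trans ?_
  linarith

end Vale.Agent.P202.Mx
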