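import Vale.Agent.P202.M.Hs1

/-! The lower bound for the length of `M / (x, y) M`. -/

open Filter Topology

namespace Vale.Agent.P202.Mx

universe u

namespace LB

variable {R M N : Type u} [CommRing R] [AddCommGroup M] [Module R M] [AddCommGroup N] [Module R N]

lemma lm_quot (I J : Ideal R) : lm (M ⧸ (I • ⊤ : Submodule R M)) J = lm M (J ⊔ I) := by
  have e : (J • ⊤ : Submodule R (M ⧸ (I • ⊤ : Submodule R M))) =
      ((J ⊔ I) • ⊤ : Submodule R M).map (I • ⊤ : Submodule R M).mkQ := by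
    rw [Submodule.sup_smul, Submodule.map_sup, Submodule.map_smul'', Submodule.map_top,
      Submodule.range_mkQ, Submodule.mkQ_map_self, sup_bot_eq]
  unfold lm
  rw [e]
  exact (Submodule.quotientQuotientEquivQuotient _ _
    (Submodule.smul_mono_left le_sup_right)).length_eq

lemma lm_pi (μ : ℕ) (I : Ideal R) : lm (Fin μ → M) I = (μ : ℕ∞) * lm M I := by
  have e : (I • ⊤ : Submodule R (Fin μ → M)) = Submodule.pi Set.univ fun _ => I • ⊤ := by
    refine le_antisymm (Submodule.smul_le.2 fun r hr z _ i _ =>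
      Submodule.smul_mem_smul hr Submodule.mem_top) fun z hz => ?_
    rw [← Finset.univ_sum_single z]
    refine Submodule.sum_mem _ fun i _ => ?_
    have : (I • ⊤ : Submodule R M).map (LinearMap.single R (fun _ : Fin μ => M) i) ≤ I • ⊤ := by
      rw [Submodule.map_smul'']; exact Submodule.smul_mono le_rfl le_top
    exact this ⟨z i, hz i trivial, rfl⟩
  unfold lm
  rw [e, (Submodule.quotientPi _).length_eq, Module.length_pi_of_fintype]
  simp

lemma lm_le (G : M →ₗ[R] N) (π : R) (h : ∀ z, ∃ w, G w = π • z) (I : Ideal R) :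
    lm N I ≤ lm N (I ⊔ Ideal.span {π}) + lm M I := by
  have h1 : (I • ⊤ : Submodule R M) ≤ (I • ⊤ : Submodule R N).comap G := by
    rw [← Submodule.map_le_iff_le_comap, Submodule.map_smul'']
    exact Submodule.smul_mono le_rfl le_top
  refine H1.len_le_add (Submodule.mapQ _ _ G h1)
    (Submodule.factor (Submodule.smul_mono_left le_sup_left)) fun z hz => ?_
  obtain ⟨z, rfl⟩ := Submodule.mkQ_surjective _ z
  rw [LinearMap.mem_ker, Submodule.factor_mk, Submodule.mkQ_apply, Submodule.Quotient.mk_eq_zero,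
    Submodule.sup_smul, Submodule.mem_sup] at hz
  obtain ⟨a, ha, b, hb, rfl⟩ := hz
  rw [Submodule.ideal_span_singleton_smul, Submodule.mem_smul_pointwise_iff_exists] at hb
  obtain ⟨c, -, rfl⟩ := hb
  obtain ⟨w, hw⟩ := h c
  refine ⟨Submodule.Quotient.mk w, ?_⟩
  rw [Submodule.mapQ_apply, hw, Submodule.mkQ_apply, Submodule.Quotient.eq]
  simpa using ha

end LB

theorem lbStmt (h1 : Hs1Stmt.{u}) : LbStmt.{u} := by
  intro T' T M _ _ _ _ _ μ d g π0 π1 x 𝔶 E lam hg hπ hfin hE h0 hlam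
  let G : M →ₗ[T'] (Fin μ → T) := (Algebra.linearMap T' T).compLeft (Fin μ) ∘ₗ g
  have hG : ∀ z, ∃ w, G w = (π0 * π1) • z := by
    intro z
    choose b hb using fun i => hπ (z i)
    obtain ⟨w, hw⟩ := hg b
    refine ⟨w, funext fun i => ?_⟩
    change algebraMap T' T (g w i) = (π0 * π1) • z i
    rw [hw, Pi.smul_apply, smul_eq_mul, map_mul, hb, Algebra.smul_def, map_mul, mul_assoc]
  have key : ∀ s : ℕ, 1 ≤ s → μ * E ≤ lam + μ *
      (((lm T (bx x s ⊔ 𝔶 ⊔ Ideal.span {π0 * π1})).toNat : ℝ) / (s : ℝ) ^ d) := by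
    intro s hs
    have a1 := LB.lm_le G _ hG (bx x s ⊔ 𝔶)
    have a2 := (h1 T' (M ⧸ (𝔶 • ⊤ : Submodule T' M)) d x).1 1 s
    rw [LB.lm_quot, LB.lm_quot, one_mul] at a2
    rw [LB.lm_pi, LB.lm_pi] at a1
    have f2 : lm T (bx x s ⊔ 𝔶 ⊔ Ideal.span {π0 * π1}) ≠ ⊤ :=
      ne_top_of_le_ne_top (hfin s) (H1.lm_anti le_sup_left)
    have a3 := a1.trans (add_le_add le_rfl (a2.trans (mul_le_mul' le_rfl hlam)))
    have a4 := hE s hs
    rw [← ENat.natCast_toNat f2, ← ENat.natCast_toNat (hfin s)] at a3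
    have a5 : (μ : ℝ) * (lm T (bx x s ⊔ 𝔶)).toNat ≤
        μ * (lm T (bx x s ⊔ 𝔶 ⊔ Ideal.span {π0 * π1})).toNat + (s : ℝ) ^ d * lam := by
      exact_mod_cast a3
    have hpos : (0 : ℝ) < (s : ℝ) ^ d := by positivity
    refine le_of_mul_le_mul_right ?_ hpos
    rw [add_mul, mul_assoc, mul_assoc, div_mul_cancel₀ _ hpos.ne']
    have := mul_le_mul_of_nonneg_left a4 (Nat.cast_nonneg μ : (0 : ℝ) ≤ μ)
    linarith
  have lim := (h0.const_mul (μ : ℝ)).const_add (lam : ℝ)
  rw [mul_zero, add_zero] at lim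
  exact ge_of_tendsto lim (eventually_atTop.2 ⟨1, key⟩)

end Vale.Agent.P202.Mx
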