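import Vale.Agent.P202.M.SpecI

/-! Lengths over a local map with trivial residue extension. -/

open Finset Matrix MvPowerSeries Filter Topology IsLocalRing
open scoped Kronecker Nat

namespace Vale.Agent.P202.Mx

universe u

theorem lenStmt : LenStmt.{u} := by
  intro A R M _ _ _ _ _ _ _ _ _ h0 h
  have : IsLocalHom (algebraMap A R) := ⟨fun a ha => by
    by_contra c
    exact h0 a c ha⟩
  rw [IsLocalRing.length_restrictScalars A R M]
  have hs : Function.Surjective (algebraMap (ResidueField A) (ResidueField R)) := by
    intro x
    obtain ⟨b, rfl⟩ := residue_surjective x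
    obtain ⟨a, ha⟩ := h b
    refine ⟨residue A a, ?_⟩
    rw [ResidueField.algebraMap_residue, eq_comm]
    exact Ideal.Quotient.eq.2 ha
  rw [Module.length_eq_of_surjective hs]
  simp

end Vale.Agent.P202.Mx
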