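import Vale.Agent.P202.M.SpecI
import Vale.Agent.P202.Fs

/-! Module LI: lifting maps out of a Cohen ring, and Witt vectors. -/

open IsLocalRing

namespace Vale.Agent.P202.Mx

universe u

namespace Lim

theorem fac {X Y C : Type*} [CommRing X] [CommRing Y] [CommRing C] (Φ : X →+* Y) (Ψ : C →+* Y)
    (hΦ : Function.Injective Φ) (h : ∀ c, ∃ x, Φ x = Ψ c) : ∃ s : C →+* X, ∀ c, Φ (s c) = Ψ c := by
  choose s hs using h
  exact ⟨⟨⟨⟨s, hΦ (by simp [hs])⟩, fun a b => hΦ (by simp [hs])⟩, hΦ (by simp [hs]),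
    fun a b => hΦ (by simp [hs])⟩, hs⟩

theorem split (p : ℕ) [Fact p.Prime] {A κ : Type u} [CommRing A] [Field κ] (g : A →+* κ)
    (hA : (p : A) = 0) (hg : Function.Surjective g)
    (h2 : ∀ x y, g x = 0 → g y = 0 → x * y = 0) : ∃ σ : κ →+* A, ∀ c, g (σ c) = c := by
  have hκ : (p : κ) = 0 := by rw [← map_natCast g, hA, map_zero]
  let : Algebra (ZMod p) A := ZMod.algebra' A (ringChar A) (ringChar.dvd hA)
  let : Algebra (ZMod p) κ := ZMod.algebra' κ (ringChar κ) (ringChar.dvd hκ)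
  have := Fs.fs (ZMod p) κ
  let g' : A →ₐ[ZMod p] κ := ⟨g, fun a =>
    DFunLike.congr_fun (RingHom.ext_zmod (g.comp (algebraMap _ A)) (algebraMap _ κ)) a⟩
  have hn : IsNilpotent (RingHom.ker (g' : A →+* κ)) := ⟨2, by
    rw [pow_two, Submodule.zero_eq_bot, eq_bot_iff, Ideal.mul_le]
    exact fun x hx y hy => h2 x y hx hy⟩
  exact ⟨(Algebra.FormallySmooth.liftOfSurjective (AlgHom.id _ κ) g' hg hn : κ →ₐ[ZMod p] A),
    fun c => Algebra.FormallySmooth.liftOfSurjective_apply (AlgHom.id _ κ) g' hg hn c⟩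

variable (p : ℕ) [Fact p.Prime] {C : Type u} [CommRing C] [IsDomain C] [IsDiscreteValuationRing C]
  (hC : maximalIdeal C = Ideal.span {(p : C)})
include hC

theorem sec {A : Type u} [CommRing A] (r : A →+* C) (hr : Function.Surjective r)
    (h2 : ∀ x y, r x = 0 → r y = 0 → x * y = 0) (hp : ∀ x, r x = 0 → (p : A) * x = 0) :
    ∃ s : C →+* A, ∀ c, r (s c) = c := by
  have hp0 : (p : C) ≠ 0 := fun h => IsDiscreteValuationRing.not_a_field C (by simp [hC, h])
  have hres : ∀ c : C, residue C c = 0 ↔ (p : C) ∣ c := fun c => by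
    rw [residue_eq_zero_iff, hC, Ideal.mem_span_singleton]
  let P : Ideal A := Ideal.span {(p : A)}
  let g : A ⧸ P →+* ResidueField C := Ideal.Quotient.lift P ((residue C).comp r) fun a ha => by
    obtain ⟨b, rfl⟩ := Ideal.mem_span_singleton.1 ha
    rw [RingHom.comp_apply, hres, map_mul, map_natCast]
    exact Dvd.intro _ rfl
  have hg : ∀ a, g (Ideal.Quotient.mk P a) = residue C (r a) := fun _ => rfl
  have hP : ∀ b, Ideal.Quotient.mk P (p * b) = 0 := fun b =>
    Ideal.Quotient.eq_zero_iff_mem.2 (Ideal.mem_span_singleton.2 (Dvd.intro _ rfl))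
  have key : ∀ x : A ⧸ P, g x = 0 → ∃ a, r a = 0 ∧ Ideal.Quotient.mk P a = x := fun x hx => by
    obtain ⟨a, rfl⟩ := Ideal.Quotient.mk_surjective x
    obtain ⟨c, hc⟩ := (hres _).1 (hg a ▸ hx)
    obtain ⟨b, rfl⟩ := hr c
    exact ⟨a - p * b, by simp [hc], by rw [map_sub, hP, sub_zero]⟩
  obtain ⟨σ, hσ⟩ := split p g (by simpa using hP 1)
    (fun c => by
      obtain ⟨c, rfl⟩ := residue_surjective c
      obtain ⟨a, rfl⟩ := hr c
      exact ⟨_, hg a⟩)
    (fun x y hx hy => by
      obtain ⟨a, ha, rfl⟩ := key x hx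
      obtain ⟨b, hb, rfl⟩ := key y hy
      rw [← map_mul, h2 a b ha hb, map_zero])
  obtain ⟨s, hs⟩ := fac (r.prod (Ideal.Quotient.mk P)) ((RingHom.id C).prod (σ.comp (residue C)))
    ((injective_iff_map_eq_zero _).2 fun x hx => by
      obtain ⟨b, rfl⟩ := Ideal.mem_span_singleton.1
        (Ideal.Quotient.eq_zero_iff_mem.1 (congrArg Prod.snd hx))
      have h1 : r (p * b) = 0 := congrArg Prod.fst hx
      rw [map_mul, map_natCast] at h1
      exact hp b ((mul_eq_zero.1 h1).resolve_left hp0))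
    fun c => by
      obtain ⟨y, hy⟩ := Ideal.Quotient.mk_surjective (σ (residue C c))
      have h1 : residue C (r y - c) = 0 := by rw [map_sub, ← hg, hy, hσ, sub_self]
      obtain ⟨c', hc'⟩ := (hres _).1 h1
      obtain ⟨b, rfl⟩ := hr c'
      refine ⟨y - p * b, Prod.ext ?_ ?_⟩
      · change r (y - p * b) = c
        rw [map_sub, map_mul, map_natCast, ← hc', sub_sub_cancel]
      · change Ideal.Quotient.mk P (y - p * b) = σ (residue C c)
        rw [map_sub, hP, sub_zero, hy]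
  exact ⟨s, fun c => congrArg Prod.fst (hs c)⟩

theorem step {A A' : Type u} [CommRing A] [CommRing A'] (q : A →+* A') (hq : Function.Surjective q)
    (h2 : ∀ x y, q x = 0 → q y = 0 → x * y = 0) (hp : ∀ x, q x = 0 → (p : A) * x = 0)
    (f : C →+* A') : ∃ g : C →+* A, q.comp g = f := by
  let Z : Subring (A × C) := RingHom.eqLocus (q.comp (RingHom.fst A C)) (f.comp (RingHom.snd A C))
  let r : Z →+* C := (RingHom.snd A C).comp Z.subtype
  have hZ : ∀ x : Z, q x.1.1 = f (r x) := fun x => x.2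
  obtain ⟨s, hs⟩ := sec p hC r
    (fun c => by
      obtain ⟨a, ha⟩ := hq (f c)
      exact ⟨⟨(a, c), ha⟩, rfl⟩)
    (fun x y hx hy => Subtype.ext (Prod.ext
      (h2 _ _ (by rw [hZ, hx, map_zero]) (by rw [hZ, hy, map_zero]))
      (by
        change r x * r y = 0
        rw [hx, zero_mul])))
    (fun x hx => Subtype.ext (Prod.ext
      (by simpa using hp x.1.1 (by rw [hZ, hx, map_zero]))
      (by
        change r (p * x) = 0
        rw [map_mul, hx, mul_zero])))
  refine ⟨((RingHom.fst A C).comp Z.subtype).comp s, RingHom.ext fun c => ?_⟩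
  exact (hZ (s c)).trans (by rw [hs])

theorem tower {B : Type u} [CommRing B] (J : ℕ → Ideal B) (hJ : ∀ n, J (n + 1) ≤ J n)
    (h2 : ∀ n, ∀ x ∈ J n, ∀ y ∈ J n, x * y ∈ J (n + 1))
    (hp : ∀ n, ∀ x ∈ J n, (p : B) * x ∈ J (n + 1)) (f : C →+* B ⧸ J 0) :
    ∃ g : ∀ n, C →+* B ⧸ J n, g 0 = f ∧
      ∀ n, (Ideal.Quotient.factor (hJ n)).comp (g (n + 1)) = g n := by
  have key : ∀ n, ∀ h : C →+* B ⧸ J n, ∃ h' : C →+* B ⧸ J (n + 1),
      (Ideal.Quotient.factor (hJ n)).comp h' = h := fun n h => by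
    refine step p hC _ (Ideal.Quotient.factor_surjective _) (fun x y hx hy => ?_) (fun x hx => ?_) h
    · obtain ⟨x, rfl⟩ := Ideal.Quotient.mk_surjective x
      obtain ⟨y, rfl⟩ := Ideal.Quotient.mk_surjective y
      rw [Ideal.Quotient.factor_mk, Ideal.Quotient.eq_zero_iff_mem] at hx hy
      rw [← map_mul, Ideal.Quotient.eq_zero_iff_mem]
      exact h2 n x hx y hy
    · obtain ⟨x, rfl⟩ := Ideal.Quotient.mk_surjective x
      rw [Ideal.Quotient.factor_mk, Ideal.Quotient.eq_zero_iff_mem] at hx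
      rw [← map_natCast (Ideal.Quotient.mk (J (n + 1))), ← map_mul, Ideal.Quotient.eq_zero_iff_mem]
      exact hp n x hx
  choose F hF using key
  exact ⟨fun n => Nat.rec f F n, rfl, fun n => hF n _⟩

end Lim

theorem liftStmt : LiftStmt.{u} := by
  intro p _ C B S _ _ _ _ _ _ π f hC hB hp hπ hK hS
  let J : ℕ → Ideal B := fun n => RingHom.ker π ⊓ maximalIdeal B ^ n
  have hJ : ∀ n, J (n + 1) ≤ J n := fun n =>
    inf_le_inf_left _ (Ideal.pow_le_pow_right n.le_succ)
  have hanti : Antitone J := antitone_nat_of_succ_le hJ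
  let π0 : B ⧸ J 0 →+* S := Ideal.Quotient.lift _ π fun a ha => ha.1
  obtain ⟨f0, hf0⟩ := Lim.fac π0 f
    ((injective_iff_map_eq_zero _).2 fun x hx => by
      obtain ⟨x, rfl⟩ := Ideal.Quotient.mk_surjective x
      exact Ideal.Quotient.eq_zero_iff_mem.2 ⟨hx, by simp⟩)
    fun c => by
      obtain ⟨b, hb⟩ := hπ (f c)
      exact ⟨Ideal.Quotient.mk _ b, hb⟩
  obtain ⟨g, hg0, hg⟩ := Lim.tower p hC J hJ
    (fun n x hx y hy => ⟨Ideal.mul_mem_right _ _ hx.1,
      pow_succ (maximalIdeal B) n ▸ Ideal.mul_mem_mul hx.2 (hK hy.1)⟩)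
    (fun n x hx => ⟨Ideal.mul_mem_left _ _ hx.1,
      pow_succ' (maximalIdeal B) n ▸ Ideal.mul_mem_mul hp hx.2⟩) f0
  have hg' : ∀ m n (h : m ≤ n), (Ideal.Quotient.factor (hanti h)).comp (g n) = g m := by
    intro m n h
    induction n, h using Nat.le_induction with
    | base => rw [Ideal.Quotient.factor_eq, RingHom.id_comp]
    | succ n h ih => rw [← ih, ← hg n, ← RingHom.comp_assoc, Ideal.Quotient.factor_comp]
  let G : ∀ n, C →+* B ⧸ maximalIdeal B ^ n := fun n =>
    (Ideal.Quotient.factor (inf_le_right : J n ≤ _)).comp (g n)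
  have hG : ∀ {m n : ℕ} (h : m ≤ n),
      (Ideal.Quotient.factorPow (maximalIdeal B) h).comp (G n) = G m := fun {m n} h => by
    simp only [G, ← hg' m n h, ← RingHom.comp_assoc, Ideal.Quotient.factorPow,
      Ideal.Quotient.factor_comp]
  refine ⟨IsAdicComplete.liftRingHom _ G hG, fun c => sub_eq_zero.1 (hS _ fun n => ?_)⟩
  obtain ⟨b, hb⟩ := Ideal.Quotient.mk_surjective (g n c)
  have h1 : π b = f c := by
    rw [← hf0, ← hg0, ← hg' 0 n (Nat.zero_le n), RingHom.comp_apply, ← hb]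
    rfl
  have h2 := IsAdicComplete.mk_liftRingHom _ G hG n c
  rw [← h1, ← map_sub]
  refine Ideal.mem_map_of_mem _ (Ideal.Quotient.eq.1 (h2.trans ?_))
  simp only [G, RingHom.comp_apply, ← hb]
  rfl

theorem witStmt : WitStmt.{u} := by
  intro p _ L _ _ _
  have hm : maximalIdeal (WittVector p L) = Ideal.span {(p : WittVector p L)} :=
    (WittVector.irreducible p).maximalIdeal_eq
  refine ⟨WittVector p L, inferInstance, inferInstance, inferInstance,
    WittVector.frobeniusEquiv p L, ⟨hm, hm ▸ inferInstance⟩, ⟨fun a => ?_, ?_⟩,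
    ⟨(Ideal.quotEquivOfEq hm).trans WittVector.quotientPEquiv⟩⟩
  · rw [← Ideal.mem_span_singleton, ← WittVector.ker_constantCoeff, RingHom.mem_ker, map_sub,
      map_pow, WittVector.frobeniusEquiv_apply, WittVector.constantCoeff_apply,
      WittVector.constantCoeff_apply, WittVector.coeff_frobenius_charP, sub_self]
  · refine Set.infinite_of_injective_forall_mem
      (f := fun a : L => residue _ (WittVector.teichmuller p a)) (fun a b h => ?_) fun a => ?_
    · have h1 : residue _ (WittVector.teichmuller p a - WittVector.teichmuller p b) = 0 := by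
        rw [map_sub, sub_eq_zero]
        exact h
      rw [residue_eq_zero_iff, hm, ← WittVector.ker_constantCoeff, RingHom.mem_ker, map_sub,
        sub_eq_zero] at h1
      simpa using h1
    · refine ⟨_, ?_, rfl⟩
      change WittVector.frobenius _ = _
      rw [WittVector.frobenius_eq_map_frobenius, WittVector.map_teichmuller, ← map_pow]
      rfl

end Vale.Agent.P202.Mx
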