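import Vale.Agent.P202.M.SpecI
import Vale.Agent.P202.Gr
import Vale.Agent.P202.Unr

/-! Reduction of the general case to the case of equal dimensions. -/

open IsLocalRing

namespace Vale.Agent.P202.Mx

universe u

namespace MA

lemma ex (hE : ExStmt.{u}) (R : Type u) [CommRing R] [IsLocalRing R] [IsNoetherianRing R] (d : ℕ)
    (h : ringKrullDim R = d) : ∃ e, Mult R d e :=
  (hE R d (grStmt R d h)).imp fun _ h => h.2.1

lemma pf (R : Type u) [CommRing R] [IsLocalRing R] [CharZero (ResidueField R)] : HasPF R := by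
  refine ⟨ℚ, inferInstance, inferInstance, ⟨IsLocalization.lift (M := nonZeroDivisors ℤ)
    (g := Int.castRingHom R) fun y => ?_⟩⟩
  by_contra h
  have : residue R (Int.castRingHom R y) = 0 := (residue_eq_zero_iff _).2 h
  rw [eq_intCast, map_intCast, Int.cast_eq_zero] at this
  exact nonZeroDivisors.coe_ne_zero y this

lemma ind (hs : SameStmt.{u}) (hE : ExStmt.{u}) (hg : GonWStmt.{u}) (hu : UdStmt.{u})
    (hb : BenStmt.{u}) (p : ℕ) [Fact p.Prime] (R : Type u) [CommRing R] [IsLocalRing R]
    [IsNoetherianRing R] (hp : (p : R) ∈ maximalIdeal R) (d : ℕ) (hd : ringKrullDim R = d)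
    (D : ℕ) : ∀ (S : Type u) [CommRing S] [IsLocalRing S] [IsNoetherianRing S] (f : R →+* S)
      [IsLocalHom f], f.Flat → ringKrullDim S = D → Le R S d D := by
  induction D with
  | zero =>
    intro S _ _ _ f _ hf hD
    have h := (unrStmt.1 R S f hf).2.1
    rw [hd, hD] at h
    obtain rfl : d = 0 := Nat.le_zero.1 (by exact_mod_cast h)
    exact hs p R S f hf hp 0 hd hD
  | succ D ih =>
    intro S _ _ _ f _ hf hD
    have h := (unrStmt.1 R S f hf).2.1
    rw [hd, hD] at h
    have h : d ≤ D + 1 := by exact_mod_cast h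
    rcases h.eq_or_lt with rfl | h
    · exact hs p R S f hf hp _ hd hD
    have hpS : (p : S) ∈ maximalIdeal S := by
      rw [← map_natCast f]; exact map_nonunit f _ hp
    obtain ⟨W, S', _, _, _, σ, _, _, _, a, hW, -, hk, hS', ha⟩ := (hg p S hpS).gon
    have := hS'.noeth
    obtain ⟨_, hh, -⟩ := unrStmt.2.1 S S' a ha
    have hD' : ringKrullDim S' = (D + 1 : ℕ) := ((hu S S' a).1 ha).trans hD
    have hf' : (a.comp f).Flat := hf.comp ha.flat
    obtain ⟨P, _, h1, h2, h3⟩ := (hu R S' (a.comp f)).2 d D inferInstance hf' hd hD' (by omega)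
    let g : R →+* Localization.AtPrime P := (algebraMap S' _).comp (a.comp f)
    have : IsLocalHom g := ((local_hom_TFAE g).out 0 2).2 (by
      rw [← Ideal.map_map, ← Localization.AtPrime.map_eq_maximalIdeal]
      exact Ideal.map_mono h1)
    have hg' : g.Flat := hf'.comp (RingHom.flat_algebraMap_iff.2 inferInstance)
    have hpP : (p : S') ∈ P := by
      rw [← map_natCast (a.comp f)]; exact h1 (Ideal.mem_map_of_mem _ hp)
    obtain ⟨e'', he''⟩ := ex hE (Localization.AtPrime P) D h3
    intro e e' he he'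
    refine (ih _ g hg' h3 e e'' he he'').trans (hb p W S' P D hW hk hS' hpP h2 e'' e' he'' ?_)
    simpa only [Mult, hh] using he'

end MA

theorem mainStmt (hs : SameStmt.{u}) (he : EqStmt.{u}) (hE : ExStmt.{u}) (hg : GonWStmt.{u})
    (hu : UdStmt.{u}) (hb : BenStmt.{u}) : MainStmt.{u} := by
  intro R S _ _ _ _ _ _ f _ hf d D hd hD
  obtain ⟨e, h1⟩ := MA.ex hE R d hd
  obtain ⟨e', h2⟩ := MA.ex hE S D hD
  refine ⟨e, e', h1, h2, ?_⟩
  obtain ⟨p, _⟩ := CharP.exists (ResidueField R)
  rcases CharP.char_is_prime_or_zero (ResidueField R) p with hp | rfl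
  · have : Fact p.Prime := ⟨hp⟩
    have hm : (p : R) ∈ maximalIdeal R := by
      rw [← residue_eq_zero_iff, map_natCast, CharP.cast_eq_zero]
    exact MA.ind hs hE hg hu hb p R hm d hd D S f hf hD e e' h1 h2
  · have := CharP.charP_to_charZero (ResidueField R)
    exact he R S f hf (MA.pf R) d D hd hD e e' h1 h2

end Vale.Agent.P202.Mx
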