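import Vale.Agent.P202.M.SpecI

open Finset Matrix MvPowerSeries Filter Topology IsLocalRing
open scoped Kronecker Nat

namespace Vale.Agent.P202.Mx

universe u

namespace Nrx

/-- completely integrally closed -/
def CI (A : Type u) [CommRing A] : Prop :=
  ∀ a b c : A, b ≠ 0 → c ≠ 0 → (∀ n : ℕ, b ^ n ∣ c * a ^ n) → b ∣ a

theorem ci_of {A : Type u} [CommRing A] [IsDomain A] [IsNoetherianRing A] [IsIntegrallyClosed A] :
    CI A := by
  intro a b c hb hc h
  have hb' : algebraMap A (FractionRing A) b ≠ 0 := by simpa using hb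
  have h1 : IsAlmostIntegral A (algebraMap A (FractionRing A) a / algebraMap A (FractionRing A) b) :=
    ⟨c, mem_nonZeroDivisors_of_ne_zero hc, fun n => by
      obtain ⟨y, hy⟩ := h n
      refine ⟨y, ?_⟩
      rw [Algebra.smul_def, div_pow, ← mul_div_assoc, ← map_pow, ← map_mul, hy, map_mul, map_pow,
        mul_div_cancel_left₀ _ (pow_ne_zero n hb')]⟩
  obtain ⟨y, hy⟩ := IsIntegrallyClosed.isIntegral_iff.1 h1.isIntegral
  refine ⟨y, IsFractionRing.injective A (FractionRing A) ?_⟩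
  rw [map_mul, hy, mul_div_cancel₀ _ hb']

theorem of_ci {A : Type u} [CommRing A] [IsDomain A] (h : CI A) : IsIntegrallyClosed A := by
  refine (isIntegrallyClosed_iff (FractionRing A)).2 fun {x} hx => ?_
  obtain ⟨c, hc, hx'⟩ := hx.isAlmostIntegral
  obtain ⟨a, b, hb, rfl⟩ := IsFractionRing.div_surjective (A := A) x
  have b0 := nonZeroDivisors.ne_zero hb
  have hb' : algebraMap A (FractionRing A) b ≠ 0 := by simpa using b0
  obtain ⟨y, rfl⟩ := h a b c b0 (nonZeroDivisors.ne_zero hc) fun n => by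
    obtain ⟨y, hy⟩ := hx' n
    refine ⟨y, IsFractionRing.injective A (FractionRing A) ?_⟩
    rw [map_mul, map_mul, hy, Algebra.smul_def, div_pow, map_pow, map_pow]
    field_simp
  exact ⟨y, by rw [map_mul, mul_div_cancel_left₀ _ hb']⟩

variable {A : Type u} [CommRing A] [IsDomain A]

omit [IsDomain A] in
theorem split {f : PowerSeries A} (hf : f ≠ 0) : ∃ (k : ℕ) (g : PowerSeries A),
    f = PowerSeries.X ^ k * g ∧ ¬PowerSeries.X ∣ g :=
  ⟨_, _, PowerSeries.X_pow_order_mul_divXPowOrder.symm, by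
    rwa [PowerSeries.X_dvd_iff, PowerSeries.constantCoeff_divXPowOrder_eq_zero_iff]⟩

theorem canc {b z : PowerSeries A} (hb : ¬PowerSeries.X ∣ b) (n m : ℕ)
    (h : b ^ n ∣ PowerSeries.X ^ m * z) : b ^ n ∣ z := by
  obtain ⟨y, hy⟩ := h
  obtain ⟨y', rfl⟩ := (PowerSeries.X_prime (R := A)).pow_dvd_of_dvd_mul_left m
    (fun c => hb (PowerSeries.X_prime.dvd_of_dvd_pow c)) ⟨z, hy.symm⟩
  exact ⟨y', mul_left_cancel₀ (pow_ne_zero m PowerSeries.X_ne_zero) (by rw [hy]; ring)⟩

theorem one [IsNoetherianRing A] (h : CI A) {b c : PowerSeries A} (hb : ¬PowerSeries.X ∣ b)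
    (hc : ¬PowerSeries.X ∣ c) {a : PowerSeries A} (ha : ∀ n : ℕ, b ^ n ∣ c * a ^ n) : b ∣ a := by
  have key : ∀ (k : ℕ) (a : PowerSeries A), (∀ n : ℕ, b ^ n ∣ c * a ^ n) →
      ∃ r a', a = b * r + PowerSeries.X ^ k * a' := by
    intro k
    induction k with
    | zero => exact fun a _ => ⟨0, a, by simp⟩
    | succ k ih =>
      intro a ha
      obtain ⟨ρ, hρ⟩ := h (PowerSeries.constantCoeff a) _ _ (mt PowerSeries.X_dvd_iff.2 hb)
        (mt PowerSeries.X_dvd_iff.2 hc) fun n => by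
          simpa using map_dvd PowerSeries.constantCoeff (ha n)
      obtain ⟨a1, h1⟩ : PowerSeries.X ∣ a - b * PowerSeries.C ρ := by
        simp [PowerSeries.X_dvd_iff, hρ]
      obtain ⟨r, a', h2⟩ := ih a1 fun n => canc hb n n (by
        rw [mul_left_comm, ← mul_pow, ← h1, sub_eq_add_neg, add_pow, mul_sum]
        refine dvd_sum fun i hi => ?_
        have hi' : i ≤ n := Nat.lt_succ_iff.1 (mem_range.1 hi)
        rw [← mul_assoc, ← mul_assoc, ← mul_neg, mul_pow, ← mul_assoc]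
        nth_rewrite 1 [← Nat.add_sub_cancel' hi', pow_add]
        exact ((mul_dvd_mul_right (ha i) _).mul_right _).mul_right _)
      exact ⟨PowerSeries.C ρ + PowerSeries.X * r, a', by
        rw [← sub_add_cancel a (b * PowerSeries.C ρ), h1, h2]; ring⟩
  have hj : Ideal.span {(PowerSeries.X : PowerSeries A)} ≤ Ideal.jacobson ⊥ := by
    rw [Ideal.span_le, Set.singleton_subset_iff, SetLike.mem_coe, Ideal.mem_jacobson_bot]
    simp [PowerSeries.isUnit_iff_constantCoeff]
  have h1 := Ideal.iInf_pow_smul_eq_bot_of_le_jacobson (M := PowerSeries A ⧸ Ideal.span {b}) _ hj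
  rw [← Ideal.mem_span_singleton, ← Ideal.Quotient.eq_zero_iff_mem, ← Submodule.mem_bot (PowerSeries A),
    ← h1, Submodule.mem_iInf]
  intro k
  obtain ⟨r, a', rfl⟩ := key k a ha
  rw [map_add, Ideal.Quotient.eq_zero_iff_mem.2 (Ideal.mem_span_singleton.2 (dvd_mul_right b r)),
    zero_add]
  exact Submodule.smul_mem_smul (Ideal.pow_mem_pow (Ideal.mem_span_singleton_self _) k)
    (Submodule.mem_top (x := Ideal.Quotient.mk _ a'))

theorem ci_ps [IsNoetherianRing A] (h : CI A) : CI (PowerSeries A) := by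
  intro a b c hb hc ha
  obtain ⟨β, b, rfl, hb'⟩ := split hb
  obtain ⟨γ, c, rfl, hc'⟩ := split hc
  obtain ⟨a, rfl⟩ := one h hb' hc' (a := a) fun n => canc hb' n γ (by
    rw [← mul_assoc]
    exact (pow_dvd_pow_of_dvd (dvd_mul_left _ _) n).trans (ha n))
  rw [mul_comm b]
  refine mul_dvd_mul_right ?_ b
  by_cases a0 : a = 0
  · simp [a0]
  obtain ⟨k, a, rfl, ha'⟩ := split a0
  refine (pow_dvd_pow _ ?_).mul_right _
  by_contra hk
  have h1 : PowerSeries.X ^ (γ + k * (γ + 1)) * PowerSeries.X ∣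
      PowerSeries.X ^ (γ + k * (γ + 1)) * (c * (b * a) ^ (γ + 1)) := by
    rw [← pow_succ]
    refine (pow_dvd_pow _ (show _ ≤ β * (γ + 1) by nlinarith [not_le.1 hk])).trans ?_
    have := ha (γ + 1)
    rw [mul_pow, ← pow_mul] at this
    exact ((dvd_mul_right _ _).trans this).trans (dvd_of_eq (by ring))
  have hp := PowerSeries.X_prime (R := A)
  rcases hp.dvd_or_dvd ((mul_dvd_mul_iff_left (pow_ne_zero _ PowerSeries.X_ne_zero)).1 h1) with c | c
  · exact hc' c
  · exact (hp.dvd_or_dvd (hp.dvd_of_dvd_pow c)).elim hb' ha'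

end Nrx

open Nrx in
theorem nrmStmt : NrmStmt.{u} := by
  intro C _ _ _ n
  induction n with
  | zero => exact .of_equiv (isEmptyEquiv (Fin 0) C).toRingEquiv.symm
  | succ n ih =>
    have : IsDomain (PS C n) := NoZeroDivisors.to_isDomain _
    have := of_ci (ci_ps (ci_of (A := PS C n)))
    exact .of_equiv (finSuccEquiv C n).toRingEquiv.symm

end Vale.Agent.P202.Mx
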