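import Vale.Agent.P202.M.SpecI
import Vale.Agent.P202.M.Lat

/-! The normalisation of a complete one dimensional local domain. -/

open Finset IsLocalRing

namespace Vale.Agent.P202.Mx

universe u

namespace Ltm.N1m

variable {Γ O : Type u} [CommRing Γ] [IsDomain Γ] [IsNoetherianRing Γ] [Ring.KrullDimLE 1 Γ]
  [CommRing O] [IsDomain O] [Algebra Γ O] (hi : Function.Injective (algebraMap Γ O))
  (hf : ∀ z : O, ∃ a b : Γ, b ≠ 0 ∧ b • z = algebraMap Γ O a)

/-- multiplication by `y` -/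
abbrev ml (O : Type u) [CommRing O] [Algebra Γ O] (y : Γ) : O →ₗ[Γ] O := LinearMap.lsmul Γ O y

include hi

omit [IsNoetherianRing Γ] [Ring.KrullDimLE 1 Γ] in
theorem ml_inj {y : Γ} (hy : y ≠ 0) : Function.Injective (ml O y) := fun a b h => by
  simp only [LinearMap.lsmul_apply, Algebra.smul_def] at h
  exact mul_left_cancel₀ ((map_ne_zero_iff _ hi).2 hy) h

omit [IsDomain O] in
theorem fin1 {y : Γ} (hy : y ≠ 0) : rl ((1 : Submodule Γ O).map (ml O y)) 1 ≠ ⊤ := by
  have h := Module.length_ne_top_iff.2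
    (isFiniteLength_quotient_span_singleton Γ (mem_nonZeroDivisors_of_ne_zero hy))
  refine ne_top_of_le_ne_top h ?_
  have e : rl (Ideal.span {y} : Ideal Γ) ⊤ = Module.length Γ (Γ ⧸ Ideal.span {y}) := by
    rw [rl, Submodule.map_top, Submodule.range_mkQ, Module.length_top]
  rw [← e]
  nth_rw 2 [Submodule.one_eq_range]
  rw [← Submodule.map_top, rl_map]
  refine rl_anti ?_
  rintro _ ⟨hz, -⟩
  obtain ⟨c, rfl⟩ := Ideal.mem_span_singleton'.1 hz
  exact ⟨algebraMap Γ O c, Submodule.mem_one.2 ⟨c, rfl⟩, by simp [Algebra.smul_def, mul_comm]⟩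

include hf

theorem ka {x : Γ} (hx : x ≠ 0) {M : Submodule Γ O} (hM : M.FG) :
    rl ((⊤ : Submodule Γ O).map (ml O x)) M ≤ rl ((1 : Submodule Γ O).map (ml O x)) 1 := by
  obtain ⟨b, hb, hM⟩ : ∃ b ≠ 0, M.map (ml O b) ≤ 1 := by
    refine Submodule.fg_induction (motive := fun M _ => ∃ b ≠ 0, M.map (ml O b) ≤ 1) (fun z => ?_)
      (fun M N _ _ ⟨b, hb, h⟩ ⟨c, hc, h'⟩ => ?_) M hM
    · obtain ⟨a, b, hb, e⟩ := hf z
      refine ⟨b, hb, ?_⟩
      rw [Submodule.map_span, Submodule.span_le]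
      rintro _ ⟨_, rfl, rfl⟩
      exact Submodule.mem_one.2 ⟨a, e.symm⟩
    · refine ⟨b * c, mul_ne_zero hb hc, ?_⟩
      rw [Submodule.map_sup]
      refine sup_le ?_ ?_
      · rintro _ ⟨z, hz, rfl⟩
        rw [LinearMap.lsmul_apply, mul_comm, mul_smul]
        exact Submodule.smul_mem _ _ (h ⟨z, hz, rfl⟩)
      · rintro _ ⟨z, hz, rfl⟩
        rw [LinearMap.lsmul_apply, mul_smul]
        exact Submodule.smul_mem _ _ (h' ⟨z, hz, rfl⟩)
  have st : ∀ (y : Γ) (N : Submodule Γ O), N.map (ml O y) ≤ N := by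
    rintro y N _ ⟨z, hz, rfl⟩
    exact Submodule.smul_mem _ _ hz
  set I := (M ⊔ 1).map (ml O b) with hI
  have h1 : I ≤ 1 := by rw [hI, Submodule.map_sup]; exact sup_le hM (st _ _)
  have f1 : rl I 1 ≠ ⊤ := ne_top_of_le_ne_top (fin1 hi hb)
    (rl_anti (inf_le_left.trans (Submodule.map_mono le_sup_right)))
  have a1 := rl_add (st x I) 1
  have a2 := rl_add (Submodule.map_mono h1 : I.map (ml O x) ≤ _) 1
  rw [inf_of_le_right h1] at a1
  rw [inf_of_le_right (st x 1), rl_map, Submodule.comap_map_eq_of_injective (ml_inj hi hx), a1,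
    add_comm] at a2
  rw [← (ENat.add_le_add_iff_left f1).1 a2.le |>.antisymm ((ENat.add_le_add_iff_left f1).1 a2.ge)]
  nth_rw 2 [hI]
  rw [rl_map]
  refine (rl_mono (le_sup_left.trans le_sup_right : M ≤ _ ⊔ (M ⊔ 1))).trans (rl_anti ?_)
  rintro z ⟨⟨_, ⟨w, -, rfl⟩, e⟩, -⟩
  refine ⟨w, trivial, ml_inj hi hb ?_⟩
  rw [← e]
  exact smul_comm b x w

theorem gen {x : Γ} (hx : x ≠ 0) :
    ∃ M : Submodule Γ O, M.FG ∧ (⊤ : Submodule Γ O).map (ml O x) ⊔ M = ⊤ := by
  set P := (⊤ : Submodule Γ O).map (ml O x)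
  have hb : ∀ M : Submodule Γ O, M.FG → rl P M ≠ ⊤ := fun M hM =>
    ne_top_of_le_ne_top (fin1 hi hx) (ka hi hf hx hM)
  obtain ⟨n, ⟨M, hM, rfl⟩, hn⟩ := Set.Finite.exists_maximalFor id
    {n : ℕ | ∃ M : Submodule Γ O, M.FG ∧ (rl P M).toNat = n}
    ((Set.finite_Iic (rl ((1 : Submodule Γ O).map (ml O x)) 1).toNat).subset (by
      rintro _ ⟨M, hM, rfl⟩
      exact ENat.toNat_le_toNat (ka hi hf hx hM) (fin1 hi hx))) ⟨_, ⊥, Submodule.fg_bot, rfl⟩
  refine ⟨M, hM, eq_top_iff.2 fun z _ => ?_⟩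
  have hM' : (M ⊔ Submodule.span Γ {z}).FG := hM.sup (Submodule.fg_span_singleton z)
  have a1 := rl_add (le_sup_left : P ≤ P ⊔ M) (M ⊔ Submodule.span Γ {z})
  have a2 : rl P M ≤ rl P ((M ⊔ Submodule.span Γ {z}) ⊓ (P ⊔ M)) :=
    rl_mono ((le_inf le_sup_left le_sup_right).trans le_sup_right)
  have a3 : rl P (M ⊔ Submodule.span Γ {z}) ≤ rl P M := by
    have := hn ⟨_, hM', rfl⟩ (ENat.toNat_le_toNat (rl_mono (le_sup_left.trans le_sup_right))
      (hb _ hM'))
    rwa [id, id, ← ENat.coe_le_coe, ENat.coe_toNat (hb _ hM), ENat.coe_toNat (hb _ hM')] at this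
  have a4 : rl P M + rl (P ⊔ M) (M ⊔ Submodule.span Γ {z}) ≤ rl P M + 0 := by
    rw [add_zero]; exact ((add_le_add_left a2 _).trans a1.ge).trans a3
  rw [ENat.add_le_add_iff_left (hb _ hM), nonpos_iff_eq_zero, rl_zero] at a4
  exact a4 (Submodule.mem_sup_right (Submodule.mem_span_singleton_self z))

omit hi hf [IsNoetherianRing Γ] in
theorem rad [IsLocalRing Γ] {a : Γ} (ha : a ≠ 0) :
    maximalIdeal Γ ≤ (Ideal.span {a}).radical := by
  rw [Ideal.radical_eq_sInf]
  refine le_sInf fun J ⟨h1, h2⟩ => (eq_maximalIdeal ?_).ge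
  refine Ring.krullDimLE_one_iff_of_noZeroDivisors.1 inferInstance J (fun e => ha ?_) h2
  exact (Ideal.span_singleton_eq_bot.1 (le_bot_iff.1 (e ▸ h1)))

theorem haus [IsLocalRing Γ] [IsLocalRing O] [IsLocalHom (algebraMap Γ O)] :
    IsHausdorff (maximalIdeal Γ) O := by
  refine ⟨fun z hz => by_contra fun h0 => ?_⟩
  obtain ⟨a, b, hb, e⟩ := hf z
  have ha : a ≠ 0 := by
    rintro rfl
    rw [map_zero, Algebra.smul_def, mul_eq_zero, map_eq_zero_iff _ hi] at e
    tauto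
  obtain ⟨c, hc⟩ := Ideal.exists_pow_le_of_le_radical_of_fg (rad ha) (IsNoetherian.noetherian _)
  have h1 : z ∈ (maximalIdeal Γ ^ (c + 1)).map (algebraMap Γ O) := by
    have := SModEq.zero.1 (hz (c + 1))
    rwa [Ideal.smul_top_eq_map] at this
  have h2 : (maximalIdeal Γ ^ (c + 1)).map (algebraMap Γ O) ≤
      Ideal.span {algebraMap Γ O a} * maximalIdeal O := by
    rw [pow_succ, Ideal.map_mul]
    refine Ideal.mul_mono ((Ideal.map_mono hc).trans (by simp [Ideal.map_span])) ?_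
    exact map_maximalIdeal_le _
  obtain ⟨w, hw, e'⟩ := Ideal.mem_span_singleton_mul.1 (h2 h1)
  have : algebraMap Γ O b * w = 1 := by
    refine mul_left_cancel₀ h0 ?_
    rw [← e, Algebra.smul_def] at e'
    linear_combination e'
  exact (mem_maximalIdeal _).1 hw (IsUnit.of_mul_eq_one_right _ this)

omit hi hf [IsDomain Γ] [IsNoetherianRing Γ] [Ring.KrullDimLE 1 Γ] in
theorem pre (I : Ideal Γ) [IsPrecomplete I Γ] (M : Type u) [AddCommGroup M] [Module Γ M]
    [Module.Finite Γ M] : IsPrecomplete I M := by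
  rw [← AdicCompletion.of_surjective_iff]
  intro y
  obtain ⟨z, rfl⟩ := AdicCompletion.ofTensorProduct_surjective_of_finite I M y
  induction z with
  | zero => exact ⟨0, by simp⟩
  | add a b ha hb =>
    obtain ⟨a', ha⟩ := ha
    obtain ⟨b', hb⟩ := hb
    exact ⟨a' + b', by rw [map_add, map_add, ha, hb]⟩
  | tmul r x =>
    obtain ⟨r, rfl⟩ := AdicCompletion.of_surjective I Γ r
    refine ⟨r • x, ?_⟩
    rw [AdicCompletion.ofTensorProduct_tmul, map_smul]
    exact (algebraMap_smul (AdicCompletion I Γ) r _).symm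

theorem fin [IsLocalRing Γ] [IsLocalRing O] [IsLocalHom (algebraMap Γ O)]
    [IsPrecomplete (maximalIdeal Γ) Γ] {x : Γ} (hx : x ≠ 0) (hm : x ∈ maximalIdeal Γ) :
    Module.Finite Γ O := by
  obtain ⟨M, hM, e⟩ := gen hi hf hx
  have := haus hi hf
  have : Module.Finite Γ M := Module.Finite.iff_fg.2 hM
  have := pre (maximalIdeal Γ) M
  refine Module.Finite.of_surjective M.subtype
    (surjective_of_mkQ_comp_surjective (I := maximalIdeal Γ) fun y => ?_)
  obtain ⟨y, rfl⟩ := Submodule.mkQ_surjective _ y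
  obtain ⟨_, ⟨w, -, rfl⟩, v, hv, rfl⟩ := Submodule.mem_sup.1 (e.ge (Submodule.mem_top (x := y)))
  refine ⟨⟨v, hv⟩, ?_⟩
  refine (Submodule.Quotient.eq _).2 ?_
  simpa using Submodule.smul_mem_smul hm (Submodule.mem_top (x := w))

omit hi hf [IsDomain Γ] [IsNoetherianRing Γ] [Ring.KrullDimLE 1 Γ] [IsDomain O] in
theorem res {k : Type u} [Field k] [IsAlgClosed k] [Algebra k Γ] [IsLocalRing Γ] [IsLocalRing O]
    [IsLocalHom (algebraMap Γ O)] [Module.Finite Γ O]
    (h : ∀ b : Γ, ∃ a : k, b - algebraMap k Γ a ∈ maximalIdeal Γ) (z : O) :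
    ∃ a : Γ, z - algebraMap Γ O a ∈ maximalIdeal O := by
  have h1 : ((residue Γ).comp (algebraMap k Γ)).IsIntegral :=
    RingHom.isIntegral_of_surjective _ fun y => by
      obtain ⟨b, rfl⟩ := residue_surjective y
      obtain ⟨a, ha⟩ := h b
      exact ⟨a, ((Ideal.Quotient.eq (I := maximalIdeal Γ)).2 ha).symm⟩
  have h2 : (ResidueField.map (algebraMap Γ O)).IsIntegral := by
    refine RingHom.IsIntegral.tower_top (residue Γ) _ ?_
    rw [ResidueField.map_comp_residue]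
    exact RingHom.IsIntegral.trans _ _ (Algebra.isIntegral_def.1 inferInstance)
      (RingHom.isIntegral_of_surjective _ residue_surjective)
  obtain ⟨a, ha⟩ := (IsAlgClosed.ringHom_bijective_of_isIntegral _
    (RingHom.IsIntegral.trans _ _ h1 h2)).2 (residue O z)
  exact ⟨algebraMap k Γ a, (Ideal.Quotient.eq (I := maximalIdeal O)).1 ha.symm⟩

end Ltm.N1m

open Ltm.N1m in
theorem nrm1Stmt : Nrm1Stmt.{u} := by
  intro k Γ _ _ _ _ _ _ h hd
  have := h.noeth
  have := h.cpl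
  have : Ring.KrullDimLE 1 Γ := Ring.krullDimLE_iff.2 hd.le
  obtain ⟨x, hm, hx⟩ : ∃ x ∈ maximalIdeal Γ, x ≠ 0 := by
    refine Submodule.exists_mem_ne_zero_of_ne_bot fun e => ?_
    rw [ringKrullDim_eq_zero_of_isField (isField_iff_maximalIdeal_eq.2 e)] at hd
    exact zero_ne_one hd
  obtain ⟨A, hA, hl⟩ := exists_factor_valuationRing (algebraMap Γ (FractionRing Γ))
  let _ : Algebra Γ A := ((algebraMap Γ (FractionRing Γ)).codRestrict A.toSubring hA).toAlgebra
  have : IsLocalHom (algebraMap Γ A) := hl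
  have hi : Function.Injective (algebraMap Γ A) := fun a b e =>
    IsFractionRing.injective Γ (FractionRing Γ) (congrArg Subtype.val e)
  have hf : ∀ z : A, ∃ a b : Γ, b ≠ 0 ∧ b • z = algebraMap Γ A a := fun z => by
    obtain ⟨a, b, hb, e⟩ := IsFractionRing.div_surjective (A := Γ) (z : FractionRing Γ)
    have hb' := nonZeroDivisors.ne_zero hb
    refine ⟨a, b, hb', Subtype.ext ?_⟩
    change algebraMap Γ (FractionRing Γ) b * (z : FractionRing Γ) = algebraMap Γ (FractionRing Γ) a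
    rw [← e, mul_div_cancel₀]
    exact (map_ne_zero_iff _ (IsFractionRing.injective Γ _)).2 hb'
  have := fin hi hf hx hm
  have : IsNoetherianRing A := IsNoetherianRing.of_finite Γ A
  have hx' : algebraMap Γ A x ≠ 0 := (map_ne_zero_iff _ hi).2 hx
  have hnf : ¬ IsField A := fun e => hx' <| by
    have := map_maximalIdeal_le (algebraMap Γ A) (Ideal.mem_map_of_mem _ hm)
    rwa [isField_iff_maximalIdeal_eq.1 e] at this
  have : IsDiscreteValuationRing A :=
    ((IsDiscreteValuationRing.TFAE A hnf).out 1 0).1 (inferInstance : ValuationRing A)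
  obtain ⟨τ, hτ⟩ := IsDiscreteValuationRing.exists_irreducible A
  refine ⟨A, _, _, this, algebraMap Γ A, τ, hi, hl, hτ, ?_, fun z => ?_⟩
  · obtain ⟨a, b, hb, e⟩ := hf τ
    exact ⟨a, b, hb, e⟩
  let B := Subalgebra.toSubmodule (Polynomial.aeval τ : Polynomial Γ →ₐ[Γ] A).range
  have key : ∀ (n : ℕ) (z : A), ∃ g : Polynomial Γ, τ ^ n ∣ z - Polynomial.aeval τ g := by
    intro n
    induction n with
    | zero => exact fun z => ⟨0, by simp⟩
    | succ n ih =>
      intro z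
      obtain ⟨g, w, e⟩ := ih z
      obtain ⟨a, ha⟩ := res h.res w
      rw [hτ.maximalIdeal_eq, Ideal.mem_span_singleton] at ha
      obtain ⟨v, hv⟩ := ha
      refine ⟨g + Polynomial.C a * Polynomial.X ^ n, v, ?_⟩
      simp only [map_add, map_mul, map_pow, Polynomial.aeval_C, Polynomial.aeval_X]
      linear_combination e + τ ^ n * hv
  have hB : (⊤ : Submodule Γ A) ≤ B := by
    refine Submodule.le_of_le_smul_of_le_jacobson_bot Module.Finite.fg_top
      (maximalIdeal_le_jacobson _) fun z _ => ?_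
    obtain ⟨n, hn⟩ := IsDiscreteValuationRing.associated_pow_irreducible hx' hτ
    obtain ⟨g, hg⟩ := key n z
    obtain ⟨w, hw⟩ := hn.dvd.trans hg
    rw [← add_sub_cancel (Polynomial.aeval τ g) z, hw, ← Algebra.smul_def]
    exact Submodule.add_mem_sup ⟨g, rfl⟩ (Submodule.smul_mem_smul hm trivial)
  exact hB (Submodule.mem_top (x := z))

end Vale.Agent.P202.Mx
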