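import Vale.Agent.P202.M.Num0

/-! Mixed characteristic, module N: length counts. -/

open Finset Matrix MvPowerSeries Filter Topology IsLocalRing
open scoped Kronecker Nat

namespace Vale.Agent.P202.Mx

universe u

namespace Nz

variable {V : Type u} [CommRing V] [IsLocalRing V] {r n0 : ℕ} {v : V}

theorem not_pow_dvd (h : Ch v n0) {m : ℕ} (hm : m < n0) : ¬ v ^ (m + 1) ∣ v ^ m := by
  rintro ⟨c, hc⟩
  have h1 : v ^ m * (1 - v * c) = 0 := by rw [mul_sub, mul_one, ← mul_assoc, ← pow_succ, ← hc, sub_self]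
  have h2 : v ∣ 1 - v * c := (dvd_pow_self v (by omega)).trans (h.ann _ _ h1)
  have h3 : v ∣ 1 := by simpa using dvd_add h2 (dvd_mul_right v c)
  have h4 : v ∈ maximalIdeal V := by rw [h.max]; exact Ideal.mem_span_singleton_self v
  exact h4 (isUnit_of_dvd_one h3)

theorem step (h : Ch v n0) {S' : Set (Mon r)} (hS : Up S') {e : Mon r} (he : e ∉ S')
    (he1 : e + Finsupp.single none 1 ∈ S') (hm : e none < n0) :
    rl (Pv v S') (Pv v (insert e S')) = 1 := by
  classical
  set x : LL V r := monomial e.some (v ^ e none) with hx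
  refine le_antisymm (le_trans (rl_mono (P := Pv v S') (Q := Submodule.span V {x}) le_rfl
    fun f hf => ?_) (rl_span_le h.max ?_)) (Order.one_le_iff_ne_zero.2 fun h0 => ?_)
  · have key : ∃ c : V, f - c • x ∈ Pv v S' := by
      by_cases hc : v ^ e none ∣ coeff e.some f
      · obtain ⟨c, hc⟩ := hc
        refine ⟨c, mem_Pv.2 fun e' => ?_⟩
        by_cases h1 : e' = e.some
        · left
          simp [h1, hx, hc, mul_comm]
        · have h2 : coeff e' (f - c • x) = coeff e' f := by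
            simp [hx, coeff_monomial_ne h1]
          rw [h2]
          refine (mem_Pv.1 hf e').imp_right ?_
          rintro ⟨d, d1 | d1, d2, d3⟩
          · exact absurd (d1 ▸ d2.symm) h1
          · exact ⟨d, d1, d2, d3⟩
      · refine ⟨0, mem_Pv.2 fun e' => ?_⟩
        rw [zero_smul, sub_zero]
        refine (mem_Pv.1 hf e').imp_right ?_
        rintro ⟨d, d1 | d1, d2, d3⟩
        · subst d1; subst d2; exact absurd d3 hc
        · exact ⟨d, d1, d2, d3⟩
    obtain ⟨c, hc⟩ := key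
    rw [← sub_add_cancel f (c • x)]
    exact Submodule.add_mem_sup hc (Submodule.smul_mem _ _ (Submodule.mem_span_singleton_self x))
  · refine mem_Pv.2 fun e' => ?_
    by_cases h1 : e' = e.some
    · refine Or.inr ⟨_, he1, ?_, ?_⟩
      · rw [h1]; ext a; simp
      · simp [h1, hx, pow_succ']
    · left; simp [hx, coeff_monomial_ne h1]
  · have h1 : x ∈ Pv v (insert e S') := mem_Pv.2 fun e' => by
      by_cases h1 : e' = e.some
      · exact Or.inr ⟨e, Set.mem_insert _ _, h1.symm, by simp [h1, hx]⟩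
      · left; simp [hx, coeff_monomial_ne h1]
    have h2 := mem_Pv.1 (rl_eq_zero.1 h0 h1) e.some
    rw [hx, coeff_monomial_same] at h2
    rcases h2 with h2 | ⟨d, d1, d2, d3⟩
    · exact not_pow_dvd h hm (h2 ▸ dvd_zero _)
    · have : e none + 1 ≤ d none := by
        by_contra hc
        exact he (up_le hS d1 d2 (by omega))
      exact not_pow_dvd h hm ((pow_dvd_pow v this).trans d3)

theorem fin (h : Ch v n0) {S : Set (Mon r)} (hS : Up S) (T : Finset (Mon r)) :
    ∀ S' : Set (Mon r), Up S' → S' ⊆ S → (∀ e : Mon r, n0 ≤ e none → e ∈ S') →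
      (∀ e, e ∈ T ↔ e ∈ S ∧ e ∉ S') → rl (Pv v S') (Pv v S) = T.card := by
  classical
  induction T using Finset.induction_on_max_value (fun e : Mon r => e none) with
  | empty =>
    intro S' _ _ _ hT
    simpa using rl_eq_zero.2 (Pv_mono fun e he => by
      by_contra hc
      exact absurd ((hT e).2 ⟨he, hc⟩) (by simp))
  | insert a T ha hmax ih =>
    intro S' hS' hsub hH hT
    obtain ⟨a1, a2⟩ := (hT a).1 (mem_insert_self _ _)
    have a3 : a + Finsupp.single none 1 ∈ S' := by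
      by_contra hc
      rcases mem_insert.1 ((hT _).2 ⟨hS a a1, hc⟩) with e | e
      · simpa using DFunLike.congr_fun e none
      · simpa using hmax _ e
    have a4 : a none < n0 := not_le.1 fun c => a2 (hH a c)
    have hup : Up (insert a S') := by
      rintro e (rfl | he)
      · exact Or.inr a3
      · exact Or.inr (hS' e he)
    have h1 := ih (insert a S') hup (Set.insert_subset a1 hsub) (fun e he => Or.inr (hH e he))
      fun e => by
        have := hT e
        rw [mem_insert] at this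
        simp only [Set.mem_insert_iff, not_or]
        constructor
        · intro he
          have h2 := this.1 (Or.inr he)
          exact ⟨h2.1, fun c => ha (c ▸ he), h2.2⟩
        · rintro ⟨b1, b2, b3⟩
          exact (this.2 ⟨b1, b3⟩).resolve_left b2
    rw [rl_add (Pv_mono (Set.subset_insert a S')) (Pv_mono (Set.insert_subset a1 hsub)), h1,
      step h hS' a2 a3 a4, card_insert_of_notMem ha, add_comm]
    simp

theorem Pv_top (h : Ch v n0) (S : Set (Mon r)) : Pv v (S ∪ {e | n0 ≤ e none}) = Pv v S := by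
  refine le_antisymm (fun f hf => mem_Pv.2 fun e' => ?_) (Pv_mono Set.subset_union_left)
  rcases mem_Pv.1 hf e' with h1 | ⟨d, d1 | d1, d2, d3⟩
  · exact Or.inl h1
  · exact Or.inr ⟨d, d1, d2, d3⟩
  · left
    have := (pow_dvd_pow v d1).trans d3
    rwa [h.nil, zero_dvd_iff] at this

theorem up_top {S : Set (Mon r)} (hS : Up S) (n0 : ℕ) : Up (S ∪ {e | n0 ≤ e none}) := by
  rintro e (he | he)
  · exact Or.inl (hS e he)
  · right
    have : n0 ≤ e none := he
    simp only [Set.mem_ofPred_eq, Finsupp.add_apply, Finsupp.single_eq_same]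
    omega

theorem fin' (h : Ch v n0) {S S' : Set (Mon r)} (hS : Up S) (hS' : Up S') (hsub : S' ⊆ S)
    (T : Finset (Mon r)) (hT : ∀ e, e ∈ T ↔ e ∈ S ∧ e ∉ S' ∧ e none < n0) :
    rl (Pv v S') (Pv v S) = T.card := by
  rw [← Pv_top h S, ← Pv_top h S']
  refine fin h (up_top hS n0) T _ (up_top hS' n0) (Set.union_subset_union_left _ hsub)
    (fun e he => Or.inr he) fun e => ?_
  rw [hT]
  simp only [Set.mem_union, Set.mem_ofPred_eq, not_or, not_le]
  constructor
  · rintro ⟨a, b, c⟩; exact ⟨Or.inl a, b, c⟩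
  · rintro ⟨a | a, b, c⟩
    · exact ⟨a, b, c⟩
    · omega

theorem part1 (h : Ch v n0) (S S' : Set (Mon r)) (hS : Up S) (hS' : Up S') (hsub : S' ⊆ S) :
    rl (Pv v S') (Pv v S) = Set.encard {e | e ∈ S ∧ e ∉ S' ∧ e none < n0} := by
  classical
  by_cases hf : {e | e ∈ S ∧ e ∉ S' ∧ e none < n0}.Finite
  · rw [fin' h hS hS' hsub hf.toFinset (fun e => hf.mem_toFinset), hf.encard_eq_coe_toFinset_card]
  · rw [Set.Infinite.encard_eq hf]
    refine ENat.eq_top_iff_forall_ge.2 fun m => ?_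
    obtain ⟨T0, hT0, rfl⟩ := Set.Infinite.exists_subset_card_eq hf m
    set S0 : Set (Mon r) := S' ∪ {e | ∃ d ∈ T0, d.some = e.some ∧ d none ≤ e none} with hS0
    have h1 : Up S0 := by
      rintro e (he | ⟨d, d1, d2, d3⟩)
      · exact Or.inl (hS' e he)
      · refine Or.inr ⟨d, d1, ?_, ?_⟩
        · rw [d2]; ext a; simp
        · simp only [Finsupp.add_apply, Finsupp.single_eq_same]; omega
    have h2 : S0 ⊆ S := by
      rintro e (he | ⟨d, d1, d2, d3⟩)
      · exact hsub he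
      · exact up_le hS (hT0 d1).1 d2 d3
    have h3 : {e | e ∈ S0 ∧ e ∉ S' ∧ e none < n0}.Finite := by
      refine ((T0 ×ˢ range n0).image fun p : Mon r × ℕ => p.1.update none p.2).finite_toSet.subset ?_
      rintro e ⟨he | ⟨d, d1, d2, -⟩, e2, e3⟩
      · exact absurd he e2
      · refine mem_coe.2 (mem_image.2 ⟨(d, e none), mem_product.2 ⟨d1, mem_range.2 e3⟩, ?_⟩)
        ext o
        cases o with
        | none => simp
        | some a => simpa using DFunLike.congr_fun d2 a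
    have h4 := fin' h h1 hS' Set.subset_union_left h3.toFinset (fun e => h3.mem_toFinset)
    have h5 : T0.card ≤ h3.toFinset.card := card_le_card fun d hd =>
      h3.mem_toFinset.2 ⟨Or.inr ⟨d, hd, rfl, le_rfl⟩, (hT0 hd).2⟩
    calc (T0.card : ℕ∞) ≤ h3.toFinset.card := by exact_mod_cast h5
      _ = rl (Pv v S') (Pv v S0) := h4.symm
      _ ≤ _ := rl_mono le_rfl ((Pv_mono h2).trans le_sup_right)

theorem up_comp (c : Prop) (N0 : ℕ) (ν : Fin r → ℤ) (N l : ℕ) (J : FJ r) :
    Up {e | c ∧ e ∈ Om N0 ν N l ∩ cond N0 ν J} := by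
  have h1 : (Finsupp.single none 1 : Mon r) ∈ SB r 0 := ⟨Nat.zero_le _, fun a => by simp⟩
  rintro e ⟨a, b, d⟩
  rw [add_comm]
  exact ⟨a, add_mem_Om h1 b le_rfl, add_mem_cond h1 d⟩

theorem rl_comp (h : Ch v n0) (c : Prop) [Decidable c] (N0 : ℕ) (ν : Fin r → ℤ) (N : ℕ) {l l' : ℕ}
    (hl : l ≤ l') (hl' : l' ≤ n0) (J : FJ r) :
    rl (Pv v {e | c ∧ e ∈ Om N0 ν N l' ∩ cond N0 ν J}) (Pv v {e | c ∧ e ∈ Om N0 ν N l ∩ cond N0 ν J}) =
      ((if c then (Nm.TT N0 ν N l l' J).card else 0 : ℕ) : ℕ∞) := by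
  rw [fin' h (up_comp c N0 ν N l J) (up_comp c N0 ν N l' J)
    (fun e he => ⟨he.1, Om_mono le_rfl hl he.2.1, he.2.2⟩) (if c then Nm.TT N0 ν N l l' J else ∅)]
  · split_ifs <;> simp
  · intro e
    split_ifs with hc
    · simp only [Nm.mem_TT, Set.mem_ofPred_eq, hc, true_and]
      refine ⟨fun a => ⟨a.1, a.2, ?_⟩, fun a => ⟨a.1, a.2.1⟩⟩
      by_contra hn
      exact a.2 ⟨⟨by omega, a.1.1.2⟩, a.1.2⟩
    · simp [hc]

theorem rl_XF (h : Ch v n0) {ι : Type} [Fintype ι] (deg : ι → ℕ) (N0 : ℕ)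
    (ν : Fin r → ℤ) (N : ℕ) {l l' : ℕ → ℕ} (hl : ∀ p, l p ≤ l' p) (hl' : ∀ p, l' p ≤ n0) (n : ℤ) :
    rl (XF v N0 ν N l' deg n) (XF v N0 ν N l deg n) = ((∑ p : ι × FJ r,
      if (deg p.1 : ℤ) + r - p.2.card = n then (Nm.TT N0 ν N (l (deg p.1)) (l' (deg p.1)) p.2).card
      else 0 : ℕ) : ℕ∞) := by
  rw [Nat.cast_sum, ← sum_congr rfl fun p _ => rl_comp h _ N0 ν N (hl _) (hl' _) _]
  exact rl_pi _ _

end Nz

open Nz Nm in
theorem numStmt : NumStmt.{u} := by
  intro V _ _ v n0 r h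
  refine ⟨part1 h, ?_⟩
  intro ι _ _ deg N0 ν N l l' hd hN hl hl' hν
  simp only [Nz.rl_XF h deg N0 ν N hl hl', ENat.toNat_natCast]
  simp only [Nat.cast_sum, mul_sum (univ : Finset (ι × FJ r))]
  rw [sum_comm, Fintype.sum_prod_type]
  refine sum_congr rfl fun i _ => ?_
  have h1 : ∀ J : FJ r, ∑ n ∈ Icc (-(r + 1 : ℕ) : ℤ) (r + 1 : ℕ), (n.negOnePow : ℤ) *
      ((if (deg i : ℤ) + r - J.card = n then (TT N0 ν N (l (deg i)) (l' (deg i)) J).card
        else 0 : ℕ) : ℤ) = (-1) ^ deg i * (-1) ^ r *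
        ((-1) ^ J.card * (TT N0 ν N (l (deg i)) (l' (deg i)) J).card) := fun J => by
    simp only [Nat.cast_ite, Nat.cast_zero, mul_ite, mul_zero, sum_ite_eq]
    split_ifs with h
    · rw [Int.negOnePow_sub, Int.negOnePow_add]
      simp only [Units.val_mul, Int.coe_negOnePow_natCast]
      ring
    · rcases (TT N0 ν N (l (deg i)) (l' (deg i)) J).eq_empty_or_nonempty with e | ⟨e, he⟩
      · simp [e]
      · have h2 := cond_card (mem_TT.1 he).1.2
        have h3 := FJ_card J
        have h4 := hd i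
        exact absurd (mem_Icc.2 ⟨by omega, by omega⟩) h
  rw [sum_congr rfl fun J _ => h1 J]
  simp only [TT, card_slab, Nat.cast_sum, Nat.cast_prod, mul_sum]
  rw [sum_comm]
  refine sum_congr rfl fun m hm => ?_
  rw [← mul_sum, sum_J hN fun a => by have := hν (deg i) a; have := (mem_Ico.1 hm).1; omega,
    mul_assoc, ← mul_assoc ((-1) ^ r), ← mul_pow]
  simp

end Vale.Agent.P202.Mx
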