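import Vale.Agent.P202.M.SpecI
import Vale.Agent.P202.Red

/-! Modules PO, SU: adjoining a variable sums the Hilbert-Samuel function. -/

open Finset Matrix Filter Topology IsLocalRing
open scoped Kronecker Nat

namespace Vale.Agent.P202.Mx

universe u

namespace Pol

open Polynomial

variable {Q : Type u} [CommRing Q]

theorem mem_pow (m : Ideal Q) (a : Q) (N : ℕ) (f : Q[X]) :
    f ∈ (m.map C ⊔ Ideal.span {X - C a}) ^ N ↔ ∀ j, (taylor a f).coeff j ∈ m ^ (N - j) := by
  constructor
  · have h1 : ∀ g ∈ m.map C ⊔ Ideal.span {X - C a}, (taylor a g).coeff 0 ∈ m := fun g hg => by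
      have : m.map C ⊔ Ideal.span {X - C a} ≤ m.comap (evalRingHom a) :=
        sup_le (Ideal.map_le_iff_le_comap.2 fun x hx => by simpa using hx)
          ((Ideal.span_singleton_le_iff_mem _).2 (by simp))
      simpa [taylor_coeff_zero] using this hg
    induction N generalizing f with
    | zero => simp
    | succ N ih =>
      intro hf
      rw [pow_succ] at hf
      refine Submodule.mul_induction_on hf (fun g hg h hh j => ?_) fun g h hg hh j => ?_
      · rw [taylor_mul, coeff_mul]
        refine sum_mem fun p hp => ?_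
        have e := mem_antidiagonal.1 hp
        rcases Nat.eq_zero_or_pos p.2 with c | c
        · refine Ideal.pow_le_pow_right (show N + 1 - j ≤ N - p.1 + 1 by omega) ?_
          rw [pow_succ, c]
          exact Ideal.mul_mem_mul (ih g hg _) (h1 h hh)
        · exact Ideal.mul_mem_right _ _ (Ideal.pow_le_pow_right (by omega) (ih g hg p.1))
      · rw [map_add, coeff_add]
        exact add_mem (hg j) (hh j)
  · intro h
    rw [← sum_taylor_eq f a, Polynomial.sum]
    refine sum_mem fun j _ => Ideal.pow_le_pow_right (show N ≤ N - j + j by omega) ?_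
    rw [pow_add]
    refine Ideal.mul_mem_mul (Ideal.pow_right_mono le_sup_left _ ?_)
      (Ideal.pow_mem_pow (Ideal.mem_sup_right (Ideal.mem_span_singleton_self _)) _)
    rw [← Ideal.map_pow]
    exact Ideal.mem_map_of_mem _ (h j)

theorem len (m : Ideal Q) (a : Q) (N : ℕ) :
    Module.length Q (Q[X] ⧸ (m.map C ⊔ Ideal.span {X - C a}) ^ N) =
      ∑ j : Fin (N + 1), Module.length Q (Q ⧸ m ^ (N - j)) := by
  let F : Q[X] →ₗ[Q] (∀ j : Fin (N + 1), Q ⧸ m ^ (N - j)) :=
    LinearMap.pi fun j => (m ^ (N - j)).mkQ ∘ₗ lcoeff Q j ∘ₗ taylor a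
  have hs : Function.Surjective F := fun y => by
    choose c hc using fun j => (m ^ (N - (j : Fin (N + 1)))).mkQ_surjective (y j)
    refine ⟨taylor (-a) (∑ j : Fin (N + 1), monomial j (c j)), funext fun j => ?_⟩
    rw [← hc j]
    simp only [F, LinearMap.pi_apply, LinearMap.comp_apply, taylor_taylor, add_neg_cancel,
      taylor_zero, lcoeff_apply, finsetSum_coeff, coeff_monomial, Fin.val_inj, sum_ite_eq',
      mem_univ, if_true]
  have hk : LinearMap.ker F =
      ((m.map C ⊔ Ideal.span {X - C a}) ^ N : Ideal Q[X]).restrictScalars Q := by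
    ext f
    rw [Submodule.restrictScalars_mem, mem_pow, LinearMap.mem_ker, funext_iff]
    simp only [F, LinearMap.pi_apply, LinearMap.comp_apply, lcoeff_apply, Pi.zero_apply,
      Submodule.mkQ_apply, Submodule.Quotient.mk_eq_zero]
    refine ⟨fun h j => ?_, fun h j => h j⟩
    by_cases c : j < N + 1
    · exact h ⟨j, c⟩
    · rw [show N - j = 0 by omega]; simp
  rw [← Module.length_pi_of_fintype, ← (F.quotKerEquivOfSurjective hs).length_eq, hk,
    (Submodule.Quotient.restrictScalarsEquiv Q _).length_eq]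

end Pol

open Pol Polynomial in
theorem polStmt : PolStmt.{u} := by
  intro Q Q' _ _ _ _ _ _ a 𝔓 _ _ h N
  have h1 : 𝔓 = (maximalIdeal Q).comap (evalRingHom a) := by
    ext f
    have := mem_pow (maximalIdeal Q) a 1 f
    rw [pow_one, ← h] at this
    rw [this, Ideal.mem_comap, coe_evalRingHom, ← taylor_coeff_zero]
    refine ⟨fun c => by simpa using c 0, fun c j => ?_⟩
    rcases j with _ | j
    · rwa [Nat.sub_zero, pow_one]
    · simp
  have : 𝔓.IsMaximal := h1 ▸ Ideal.comap_isMaximal_of_surjective _ fun x => ⟨C x, by simp⟩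
  let : Algebra Q Q' := ((algebraMap Q[X] Q').comp C).toAlgebra
  have : IsScalarTower Q Q[X] Q' := IsScalarTower.of_algebraMap_eq fun _ => rfl
  have hm : ∀ f : Q[X], algebraMap Q[X] Q' f ∈ maximalIdeal Q' ↔ f.eval a ∈ maximalIdeal Q :=
    fun f => by rw [IsLocalization.AtPrime.to_map_mem_maximal_iff Q' 𝔓, h1]; rfl
  have : IsLocalHom (algebraMap Q Q') := ⟨fun x hx => by
    by_contra c
    exact (hm (C x)).2 (by simpa using c) hx⟩
  have hs' : Function.Surjective (algebraMap (ResidueField Q) (ResidueField Q')) := by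
    intro x
    obtain ⟨y, rfl⟩ := (IsLocalization.AtPrime.equivQuotMaximalIdeal 𝔓 Q').surjective x
    obtain ⟨f, rfl⟩ := Ideal.Quotient.mk_surjective y
    refine ⟨residue Q (f.eval a), ?_⟩
    rw [ResidueField.algebraMap_residue, IsLocalization.AtPrime.equivQuotMaximalIdeal_apply_mk]
    refine Ideal.Quotient.eq.2 ?_
    have := (hm (C (f.eval a) - f)).2 (by simp)
    rwa [map_sub] at this
  have h2 : Module.length Q (Q' ⧸ maximalIdeal Q' ^ N) =
      Module.length Q' (Q' ⧸ maximalIdeal Q' ^ N) := by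
    rw [IsLocalRing.length_restrictScalars Q Q', Module.length_eq_of_surjective hs']
    simp
  have h3 := ((IsLocalization.AtPrime.equivQuotMaximalIdealPow 𝔓 Q' N).toLinearEquiv.restrictScalars
    Q).length_eq
  rw [hs, ← h2, ← h3, h, len, ← sum_range_reflect, sum_range]
  apply Nat.cast_injective (R := ℕ∞)
  rw [ENat.natCast_toNat (ENat.sum_ne_top.2 fun j _ => Rd.finlen _ _), Nat.cast_sum]
  exact sum_congr rfl fun j _ => (ENat.natCast_toNat (Rd.finlen _ _)).symm

theorem sumStmt : SumStmt := by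
  intro a d e h
  have u1 : Tendsto (fun i : ℕ => 1 + (i : ℝ)⁻¹) atTop (𝓝 1) := by
    simpa using (tendsto_const_nhds (x := (1 : ℝ))).add tendsto_inv_atTop_nhds_zero_nat
  let g : ℕ → ℝ := fun i => ((i + 1 : ℕ) : ℝ) ^ (d + 1) - (i : ℝ) ^ (d + 1)
  have g1 : ∀ i : ℕ, 0 < i → g i = (i : ℝ) ^ d * ∑ k ∈ range (d + 1), (1 + (i : ℝ)⁻¹) ^ k :=
    fun i hi => by
      have h0 : (i : ℝ) ≠ 0 := by positivity
      have h1 := geom_sum_mul (1 + (i : ℝ)⁻¹) (d + 1)
      have h2 : ((i + 1 : ℕ) : ℝ) = i * (1 + (i : ℝ)⁻¹) := by push_cast; field_simp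
      simp only [g]
      rw [h2, mul_pow, ← mul_sub_one, ← h1, pow_succ]
      field_simp
      ring
  have g2 : Tendsto (fun i : ℕ => ∑ k ∈ range (d + 1), (1 + (i : ℝ)⁻¹) ^ k) atTop (𝓝 (d + 1)) := by
    simpa using tendsto_finsetSum (range (d + 1)) fun k _ => u1.pow k
  have g3 : ∀ n, ∑ i ∈ range n, g i = (n : ℝ) ^ (d + 1) := fun n => by
    rw [sum_range_sub (fun i : ℕ => (i : ℝ) ^ (d + 1)) n]; simp
  have g4 : Tendsto (fun i : ℕ => (((d + 1)! : ℝ) * a i - e * g i) / g i) atTop (𝓝 0) := by
    have := ((h.const_mul ((d : ℝ) + 1)).div g2 (by positivity)).sub_const e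
    rw [mul_div_cancel_left₀ _ (by positivity), sub_self] at this
    refine this.congr' ((eventually_gt_atTop 0).mono fun i hi => ?_)
    have h0 : (0 : ℝ) < i := by positivity
    have h1 : 0 < ∑ k ∈ range (d + 1), (1 + (i : ℝ)⁻¹) ^ k :=
      sum_pos (fun k _ => by positivity) (by simp)
    simp only [Pi.div_apply]
    rw [g1 i hi, Nat.factorial_succ]
    push_cast
    field_simp
  have g5 : ∀ i, 0 < g i := fun i =>
    sub_pos.2 (pow_lt_pow_left₀ (by simp) (by positivity) (by omega))
  have g6 := ((Asymptotics.isLittleO_iff_tendsto fun i c => absurd c (g5 i).ne').2 g4).sum_range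
    (fun i => (g5 i).le) (by
      simp only [g3]
      exact (tendsto_pow_atTop (by omega)).comp tendsto_natCast_atTop_atTop)
  have g7 := (((g6.tendsto_div_nhds_zero.comp (tendsto_add_atTop_nat 1)).add_const e).mul
    (u1.pow (d + 1)))
  rw [zero_add, one_pow, mul_one] at g7
  refine g7.congr' ((eventually_gt_atTop 0).mono fun N hN => ?_)
  have h0 : (0 : ℝ) < N := by positivity
  simp only [Function.comp_apply, sum_sub_distrib, ← mul_sum, g3]
  rw [show 1 + (N : ℝ)⁻¹ = ((N + 1 : ℕ) : ℝ) / N by push_cast; field_simp, div_pow]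
  field_simp
  ring

end Vale.Agent.P202.Mx
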