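import Vale.Agent.P202.M.Hs2

/-! Reductions with prescribed coefficients. -/

open Finset Matrix MvPowerSeries Filter Topology IsLocalRing
open scoped Kronecker Nat

namespace Vale.Agent.P202.Mx

universe u

namespace Ri

variable {R : Type u} [CommRing R] [IsLocalRing R] {n : ℕ}

theorem len (γ : Type) [Fintype γ] :
    rl (Submodule.pi Set.univ fun _ : γ => (maximalIdeal R : Submodule R R)) ⊤ =
      Fintype.card γ := by
  classical
  have : IsSimpleModule R (R ⧸ (maximalIdeal R : Submodule R R)) :=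
    isSimpleModule_iff_isCoatom.2 (Ideal.isMaximal_def.1 (maximalIdeal.isMaximal R))
  rw [rl_top, (Submodule.quotientPi _).length_eq, Module.length_pi_of_fintype]
  simp [Module.length_eq_one]

theorem form {x : Fin (n + 1) → R} (hx : ∀ i, x i ∈ maximalIdeal R) (K : Ideal R) {N : ℕ}
    (h : ln (Ideal.span (Set.range x) ^ N ⊔ K) < ((N + n).choose (n + 1) : ℕ)) :
    ∃ (j : ℕ) (g : (univ : Finset (Fin (n + 1))).finsuppAntidiag j → R),
      (∃ e, g e ∉ maximalIdeal R) ∧ ∑ e, g e * ∏ i, x i ^ e.1 i ∈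
        maximalIdeal R * Ideal.span (Set.range x) ^ j ⊔ K := by
  by_contra hc
  push Not at hc
  refine h.not_ge ?_
  clear h
  generalize hq : Ideal.span (Set.range x) = q at hc
  have hm : q ≤ maximalIdeal R := hq ▸ Ideal.span_le.2 (Set.range_subset_iff.2 hx)
  induction N with
  | zero => simp
  | succ N ih =>
    rw [H2.ln_eq] at ih ⊢
    rw [rl_add (P := q ^ (N + 1) ⊔ K) (Q := q ^ N ⊔ K) (R := ⊤)
      (sup_le_sup_right (Ideal.pow_le_pow_right (Nat.le_succ N)) _) le_top,
      show N + 1 + n = N + n + 1 by ring, Nat.choose_succ_succ, Nat.cast_add]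
    refine add_le_add ?_ ih
    have h1 := len (R := R) ((univ : Finset (Fin (n + 1))).finsuppAntidiag N)
    rw [Fintype.card_coe, card_finsuppAntidiag_nat_eq_choose, card_univ, Fintype.card_fin,
      show n + 1 + N - 1 = N + n by omega, Nat.choose_symm_add] at h1
    rw [← h1]
    refine rl_le_of_comap (Fintype.linearCombination R fun e => ∏ i, x i ^ e.1 i)
      (fun g _ hg e _ => ?_) fun g _ => ?_
    · by_contra c
      refine hc N g ⟨e, c⟩ (sup_le_sup_right ?_ K hg)
      rw [pow_succ']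
      exact Ideal.mul_mono_left hm
    · refine Submodule.mem_sup_right (Submodule.mem_sup_left (sum_mem fun e _ => ?_))
      refine Ideal.mul_mem_left _ _ ?_
      have : ∏ i, x i ^ e.1 i ∈ ∏ i, q ^ e.1 i :=
        Ideal.prod_mem_prod fun i _ => Ideal.pow_mem_pow (hq ▸ Ideal.subset_span ⟨i, rfl⟩) _
      rwa [prod_pow_eq_pow_sum, (mem_finsuppAntidiag.1 e.2).1] at this

theorem point {k : Type*} [Field k] {s : Set k} (hs : s.Infinite) {j : ℕ}
    (g : (univ : Finset (Fin (n + 1))).finsuppAntidiag j → k) {e0} (h0 : g e0 ≠ 0) :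
    ∃ z : Fin n → k, (∀ i, z i ∈ s) ∧ ∑ e, g e * ∏ i, z i ^ e.1 i.succ ≠ 0 := by
  have ha : ∀ d d' : (univ : Finset (Fin (n + 1))).finsuppAntidiag j,
      d'.1.tail = d.1.tail ↔ d' = d := fun d d' => by
    refine ⟨fun e => ?_, fun e => by rw [e]⟩
    have e1 := (mem_finsuppAntidiag.1 d.2).1
    have e2 := (mem_finsuppAntidiag.1 d'.2).1
    have e3 : ∀ i : Fin n, d'.1 i.succ = d.1 i.succ := fun i => DFunLike.congr_fun e i
    rw [Fin.sum_univ_succ] at e1 e2
    simp only [e3] at e2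
    ext i
    exact Fin.cases (by omega) e3 i
  have hp : ∑ e, MvPolynomial.monomial e.1.tail (g e) ≠ 0 := fun h => h0 (by
    simpa [MvPolynomial.coeff_sum, MvPolynomial.coeff_monomial, ha] using
      congrArg (MvPolynomial.coeff e0.1.tail) h)
  by_contra hc
  push Not at hc
  refine hp (MvPolynomial.funext_set (fun _ => s) (fun _ => hs) fun z hz => ?_)
  simpa [MvPolynomial.eval_monomial, Finsupp.prod_fintype, Finsupp.tail_apply] using
    hc z fun i => hz i trivial

theorem ar (C c d n : ℕ) (h : d ≤ n) : ∃ N, C * (N + c + 1) ^ d < (N + n).choose (n + 1) := by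
  refine ⟨(n + 1)! * C * 2 ^ d + c + 1, ?_⟩
  generalize hN : (n + 1)! * C * 2 ^ d + c + 1 = N
  have h1 : 1 ≤ N := by omega
  refine lt_of_mul_lt_mul_left (a := (n + 1)!) ?_ (Nat.zero_le _)
  have h2 := Nat.pow_succ_le_ascFactorial N (n + 1)
  rw [Nat.ascFactorial_eq_factorial_mul_choose', show N + (n + 1) - 1 = N + n by omega] at h2
  refine lt_of_lt_of_le ?_ h2
  calc (n + 1)! * (C * (N + c + 1) ^ d) ≤ (n + 1)! * (C * (2 * N) ^ d) := by gcongr; omega
    _ = (n + 1)! * C * 2 ^ d * N ^ d := by rw [mul_pow]; ring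
    _ < N * N ^ d := by gcongr; omega
    _ ≤ N * N ^ n := by gcongr
    _ = _ := by ring

end Ri

theorem riStmt : RiStmt.{u} := by
  rintro R _ _ _ 𝒯 n x K hT hx ⟨N, hN⟩
  obtain ⟨j, g, ⟨e0, h0⟩, h3⟩ := Ri.form hx K hN
  obtain ⟨z', z0, z1⟩ := Ri.point hT (fun e => residue R (g e)) (e0 := e0)
    (by rwa [Ne, residue_eq_zero_iff])
  choose c c1 c2 using z0
  refine ⟨c, j, c1, ?_⟩
  have hu : IsUnit (∑ e, g e * ∏ i, c i ^ e.1 i.succ) := by
    rw [← residue_ne_zero_iff_isUnit]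
    simpa only [map_sum, map_mul, map_prod, map_pow, c2] using z1
  generalize hq : Ideal.span (Set.range x) = q at h3
  have hm : q ≤ maximalIdeal R := hq ▸ Ideal.span_le.2 (Set.range_subset_iff.2 hx)
  have hxq : ∀ i, x i ∈ q := fun i => hq ▸ Ideal.subset_span ⟨i, rfl⟩
  generalize hJ : Ideal.span (Set.range fun i => x i.succ - c i * x 0) = J
  let z : Fin (n + 1) → R := Fin.cons 1 c
  have hz : ∀ i, x i - z i * x 0 ∈ J :=
    Fin.cases (by simp [z]) fun i => hJ ▸ Ideal.subset_span ⟨i, rfl⟩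
  have h4 : ∑ e, g e * ∏ i, x i ^ e.1 i - ∑ e, g e * ∏ i, (z i * x 0) ^ e.1 i ∈ Rd.G J q j := by
    rw [← sum_sub_distrib]
    refine sum_mem fun e _ => ?_
    rw [← mul_sub]
    have := (Rd.Cg.prod (J := J) (m := q) univ (u := x) (v := fun i => z i * x 0) (fun i =>
      ⟨by simpa using hxq i, by simpa using q.mul_mem_left _ (hxq 0), Rd.le_G_one (hz i)⟩) e.1).2.2
    rw [(mem_finsuppAntidiag.1 e.2).1] at this
    exact Ideal.mul_mem_left _ _ this
  have h6 : ∑ e, g e * ∏ i, (z i * x 0) ^ e.1 i = (∑ e, g e * ∏ i, c i ^ e.1 i.succ) * x 0 ^ j := by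
    rw [sum_mul]
    refine sum_congr rfl fun e _ => ?_
    simp only [mul_pow, prod_mul_distrib, prod_pow_eq_pow_sum, (mem_finsuppAntidiag.1 e.2).1,
      mul_assoc]
    simp [z, Fin.prod_univ_succ]
  have h7 : x 0 ^ j ∈ Rd.G J q j ⊔ (maximalIdeal R * q ^ j ⊔ K) := by
    have := sub_mem (Ideal.mem_sup_right (S := Rd.G J q j) h3) (Ideal.mem_sup_left h4)
    rwa [sub_sub_cancel, h6, Ideal.unit_mul_mem_iff_mem _ hu] at this
  have h8 : q ^ j ≤ Rd.G J q j ⊔ (maximalIdeal R * q ^ j ⊔ K) := by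
    refine (Rd.pow_le (hxq 0) le_rfl ?_ j).trans
      (sup_le le_sup_left ((Ideal.span_singleton_le_iff_mem _).2 h7))
    rw [← hq]
    refine Ideal.span_le.2 (Set.range_subset_iff.2 fun i => ?_)
    have := add_mem (Ideal.mem_sup_left (T := Ideal.span {x 0}) (hz i)) (Ideal.mem_sup_right
      (Ideal.mul_mem_left _ (z i) (Ideal.mem_span_singleton_self _)))
    rwa [sub_add_cancel] at this
  refine Submodule.le_of_le_smul_of_le_jacobson_bot (IsNoetherian.noetherian _)
    (maximalIdeal_le_jacobson _) ?_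
  have h9 : Rd.G J q j * q ≤ J * q ^ j ⊔ q ^ (j + 2) :=
    Ideal.mul_le.2 fun a ha b hb => Submodule.mem_colon.1 ha b hb
  conv_lhs => rw [pow_succ]
  refine (Ideal.mul_mono_left h8).trans ?_
  rw [Ideal.sup_mul, Ideal.sup_mul, smul_eq_mul]
  refine sup_le (h9.trans (sup_le_sup le_sup_left ?_)) (sup_le (le_sup_of_le_right ?_)
    (le_sup_of_le_left (le_sup_of_le_right Ideal.mul_le_left)))
  · rw [pow_succ' q (j + 1)]
    exact Ideal.mul_mono_left hm
  · rw [mul_assoc, ← pow_succ]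

theorem raStmt : RaStmt.{u} := by
  rintro R _ _ _ d hI ⟨C, h⟩
  have hm : (maximalIdeal R).FG := IsNoetherian.noetherian _
  obtain ⟨k, x, hx⟩ := Submodule.fg_iff_exists_fin_generating_family.1 hm
  have h1 : ∃ (x : Fin (d + k) → R) (c : ℕ), (∀ i, x i ∈ maximalIdeal R) ∧
      maximalIdeal R ^ (c + 1) ≤ Ideal.span (Set.range x) * maximalIdeal R ^ c := by
    refine ⟨Fin.append 0 x, 0, Fin.addCases (by simp) fun i => by
      rw [Fin.append_right, ← hx]; exact Submodule.subset_span ⟨i, rfl⟩, ?_⟩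
    rw [zero_add, pow_one, pow_zero, mul_one, ← hx]
    exact Submodule.span_mono (Set.range_subset_iff.2 fun i => ⟨_, Fin.append_right ..⟩)
  clear hx x
  induction k with
  | zero => exact h1
  | succ k ih =>
    obtain ⟨x, c, h2, h3⟩ := h1
    obtain ⟨N, hN⟩ := Ri.ar C c d (d + k) (by omega)
    obtain ⟨a, j, -, h4⟩ := riStmt R Set.univ (d + k) x ⊥ (by
      rw [Set.image_univ_of_surjective residue_surjective]; exact Set.infinite_univ) h2 ⟨N, by
        rw [sup_bot_eq]
        refine (H2.ln_anti ((Rd.red_pow h3 N).trans Ideal.mul_le_left)).trans_lt ?_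
        rw [ln, ← ENat.natCast_toNat (Rd.finlen R _), Nat.cast_lt]
        exact (h _).trans_lt hN⟩
    refine ih ⟨fun i => x i.succ - a i * x 0, j + c,
      fun i => sub_mem (h2 _) (Ideal.mul_mem_left _ _ (h2 _)), ?_⟩
    rw [sup_bot_eq] at h4
    rw [add_right_comm]
    refine (Rd.red_pow h3 (j + 1)).trans ((Ideal.mul_mono_left h4).trans ?_)
    rw [mul_assoc, pow_add]
    exact Ideal.mul_mono_right (Ideal.mul_mono_left (Ideal.pow_right_mono
      (Ideal.span_le.2 (Set.range_subset_iff.2 h2)) j))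

end Vale.Agent.P202.Mx
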