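import Vale.Agent.P202.M.SpecI

/-! Module RX: making the residue field infinite. -/

open IsLocalRing Polynomial

namespace Vale.Agent.P202.Mx

universe u

namespace Rxm

variable (R : Type u) [CommRing R] [IsLocalRing R]

/-- the extended maximal ideal -/
noncomputable abbrev mX : Ideal R[X] := (maximalIdeal R).map (C : R →+* R[X])

/-- the ring `R(X)` -/
abbrev RX : Type u := Localization.AtPrime (mX R)

noncomputable def toRX : R →+* RX R := (algebraMap R[X] (RX R)).comp C

theorem unr : Unr (toRX R) := by
  refine ⟨RingHom.Flat.comp ?_ ?_, ?_⟩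
  · exact (RingHom.flat_algebraMap_iff (R := R) (S := R[X])).2 inferInstance
  · exact RingHom.flat_algebraMap_iff.2 (IsLocalization.flat _ (mX R).primeCompl)
  · rw [toRX, ← Ideal.map_map, Localization.AtPrime.map_eq_maximalIdeal]

theorem inf : Infinite (ResidueField (RX R)) := by
  refine Infinite.of_injective (fun n : ℕ => residue (RX R) (algebraMap R[X] (RX R) (X ^ n)))
    fun n m h => ?_
  by_contra c
  have h1 : algebraMap R[X] (RX R) (X ^ n - X ^ m) ∈ maximalIdeal (RX R) := by
    rw [map_sub, ← residue_eq_zero_iff, map_sub, sub_eq_zero]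
    exact h
  rw [IsLocalization.AtPrime.to_map_mem_maximal_iff (RX R) (mX R), Ideal.mem_map_C_iff] at h1
  have h2 := h1 n
  rw [coeff_sub, coeff_X_pow_self, coeff_X_pow, if_neg c, sub_zero] at h2
  exact (maximalIdeal.isMaximal R).ne_top ((Ideal.eq_top_iff_one _).2 h2)

variable {R} {S : Type u} [CommRing S] [IsLocalRing S] (f : R →+* S) [IsLocalHom f]

theorem comap_eq : mX R = (mX S).comap (mapRingHom f) := by
  ext g
  rw [Ideal.mem_comap, Ideal.mem_map_C_iff, Ideal.mem_map_C_iff]
  refine forall_congr' fun n => ?_
  rw [coe_mapRingHom, coeff_map, mem_maximalIdeal, mem_maximalIdeal, mem_nonunits_iff,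
    mem_nonunits_iff, isUnit_map_iff]

omit [IsLocalRing R] [IsLocalRing S] [IsLocalHom f] in
theorem flat_map (hf : f.Flat) : (mapRingHom f).Flat := by
  algebraize [f]
  let : Algebra R[X] S[X] := Polynomial.algebra R S
  have : IsScalarTower R R[X] S[X] := .of_algebraMap_eq' (by
    ext a
    simp [RingHom.algebraMap_toAlgebra])
  have h : (algebraMap R S).Flat := hf
  exact RingHom.Flat.isStableUnderBaseChange R S R[X] S[X] h

end Rxm

open Rxm in
theorem rxStmt : RxStmt.{u} := by
  intro R S _ _ _ _ _ _ f _ hf
  refine ⟨RX R, RX S, inferInstance, inferInstance,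
    IsLocalization.isNoetherianRing (mX R).primeCompl _ inferInstance, inferInstance, inferInstance,
    IsLocalization.isNoetherianRing (mX S).primeCompl _ inferInstance, toRX R, toRX S,
    Localization.localRingHom (mX R) (mX S) (mapRingHom f) (comap_eq f), Rxm.unr R, Rxm.unr S,
    Rxm.inf R, (flat_map f hf).localRingHom _ _ _, inferInstance, fun x => ?_⟩
  simp [toRX, Localization.localRingHom_to_map]

end Vale.Agent.P202.Mx
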