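import Vale.Agent.P202.M.Base
import Vale.Agent.P202.Ev

/-! Module SG: the map `X_j ↦ v e_(j+1) (z)`. -/

open Finset Matrix MvPowerSeries Filter Topology IsLocalRing
open scoped Kronecker Nat

namespace Vale.Agent.P202.Mx

universe u

namespace SG

variable {V : Type u} [CommRing V] {v : V} {r : ℕ}

/-- the coefficient condition -/
def Co (v : V) (s : ℕ) (a : PS V r) : Prop := ∀ e, v ^ (s - e.degree) ∣ coeff e a

theorem Co.add {s : ℕ} {a b : PS V r} (ha : Co v s a) (hb : Co v s b) : Co v s (a + b) :=
  fun e => by rw [map_add]; exact dvd_add (ha e) (hb e)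

theorem Co.mul {s t : ℕ} {a b : PS V r} (ha : Co v s a) (hb : Co v t b) :
    Co v (s + t) (a * b) := fun e => by
  rw [coeff_mul]
  refine dvd_sum fun p hp => ?_
  refine dvd_trans ?_ (mul_dvd_mul (ha p.1) (hb p.2))
  rw [← pow_add, ← mem_antidiagonal.1 hp, map_add]
  exact pow_dvd_pow _ (by omega)

theorem co_zero (a : PS V r) : Co v 0 a := fun e => by simp

theorem co_one {a : PS V r} (h : a ∈ mw v r) : Co v 1 a := by
  induction h using Submodule.span_induction with
  | mem x hx =>
    intro e
    rcases hx with rfl | ⟨j, rfl⟩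
    · rw [coeff_C]
      split_ifs with h
      · simp [h]
      · exact dvd_zero _
    · rw [coeff_X]
      split_ifs with h
      · simp [h]
      · exact dvd_zero _
  | zero => intro e; simp
  | add x y _ _ hx hy => exact hx.add hy
  | smul c x _ hx => exact Co.mul (s := 0) (t := 1) (co_zero c) hx

theorem co_of_mem {s : ℕ} : ∀ {a : PS V r}, a ∈ mw v r ^ s → Co v s a := by
  induction s with
  | zero => exact fun {a} _ => co_zero a
  | succ s ih =>
    intro a h
    rw [pow_succ] at h
    exact Submodule.mul_induction_on h (fun x hx y hy => (ih hx).mul (co_one hy))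
      fun x y hx hy => hx.add hy

theorem C_mem : (C v : PS V r) ∈ mw v r := Ideal.subset_span (Set.mem_insert _ _)

theorem X_mem (j : Fin r) : (X j : PS V r) ∈ mw v r :=
  Ideal.subset_span (Set.mem_insert_of_mem _ ⟨j, rfl⟩)

theorem mon_mem (t : Fin r →₀ ℕ) : monomial t (1 : V) ∈ mw v r ^ t.degree := by
  induction t using Finsupp.induction_linear with
  | zero => simp
  | add f g hf hg =>
    rw [map_add, pow_add, ← one_mul (1 : V), ← monomial_mul_monomial]
    exact Ideal.mul_mem_mul hf hg
  | single a b =>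
    rw [← X_pow_eq, Finsupp.degree_single]
    exact Ideal.pow_mem_pow (X_mem a) _

/-- exponents of degree less than `s` -/
noncomputable def lo (r s : ℕ) : Finset (Fin r →₀ ℕ) :=
  (Finsupp.finite_of_degree_lt (σ := Fin r) s).toFinset

theorem mem_lo {s : ℕ} {e : Fin r →₀ ℕ} : e ∈ lo r s ↔ e.degree < s := by simp [lo]

theorem tail_mem (v : V) (s : ℕ) (a : PS V r) :
    a - ∑ e ∈ lo r s, monomial e (coeff e a) ∈ mw v r ^ s := by
  refine EvL.mem_span_mon _ (Finsupp.finite_of_degree_eq (σ := Fin r) s).toFinset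
    (fun t ht => ?_) _ fun m hm => ?_
  · have : t.degree = s := by simpa using ht
    exact this ▸ mon_mem t
  · have h : m.degree < s := by
      by_contra hc
      obtain ⟨g, h1, h2⟩ := Finsupp.exists_le_degree_eq m s (not_lt.1 hc)
      exact hm g (by simpa using h2) h1
    rw [map_sub, map_sum, sum_eq_single m, coeff_monomial_same, sub_self]
    · intro b _ hb
      exact coeff_monomial_ne hb.symm _
    · exact fun h' => absurd (mem_lo.2 h) h'

theorem mem_of_co {s : ℕ} {a : PS V r} (h : Co v s a) : a ∈ mw v r ^ s := by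
  have h1 : ∑ e ∈ lo r s, monomial e (coeff e a) ∈ mw v r ^ s := by
    refine sum_mem fun e he => ?_
    obtain ⟨c, hc⟩ := h e
    have e1 : monomial e (coeff e a) = C c * (C v ^ (s - e.degree) * monomial e (1 : V)) := by
      rw [hc, ← map_pow, ← mul_assoc, ← map_mul, ← monomial_zero_eq_C_apply,
        monomial_mul_monomial]
      simp [mul_comm]
    rw [e1]
    refine Ideal.mul_mem_left _ _ ?_
    have := Ideal.mul_mem_mul (Ideal.pow_mem_pow (C_mem (v := v) (r := r)) (s - e.degree))
      (mon_mem (v := v) e)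
    rwa [← pow_add, Nat.sub_add_cancel (mem_lo.1 he).le] at this
  simpa using add_mem (tail_mem v s a) h1

theorem mu_mem (I : Finset (Fin r)) : mu v I ∈ Pv v (SB r 1) := by
  have h : ∏ a ∈ I, (X a : LL V r) = monomial (∑ a ∈ I, Finsupp.single a 1) 1 := by
    induction I using Finset.induction_on with
    | empty => simp
    | insert a s ha ih => rw [prod_insert ha, sum_insert ha, ih, X, monomial_mul_monomial, one_mul]
  have := monomial_mem_Pv (v := v) (S := SB r 1)
    (e := Finsupp.optionElim 1 (∑ a ∈ I, Finsupp.single a 1)) (c := v) ⟨by simp, fun a => by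
      simp only [Finsupp.optionElim_apply_some, Finsupp.optionElim_apply_none,
        Finsupp.finsetSum_apply, Finsupp.single_apply]
      simp
      split_ifs <;> simp⟩ (by simp)
  rw [mu, h, ← monomial_zero_eq_C_apply, monomial_mul_monomial]
  simpa using this

theorem th_eq (j : Fin (r + 1)) : th v r j = ∑ I ∈ powersetCard j univ, mu v I := by
  rw [th, ← MvPolynomial.coeToMvPowerSeries.ringHom_apply]
  simp only [mu, MvPolynomial.esymm, map_sum, map_prod, mul_sum,
    MvPolynomial.coeToMvPowerSeries.ringHom_apply, MvPolynomial.coe_X]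

theorem th_mem (j : Fin (r + 1)) : th v r j ∈ Pv v (SB r 1) := by
  rw [th_eq]; exact sum_mem fun I _ => mu_mem I

theorem prod_mem0 {γ : Type*} (s : Finset γ) {f : γ → LL V r} (hf : ∀ i, f i ∈ Pv v (SB r 0)) :
    ∏ i ∈ s, f i ∈ Pv v (SB r 0) :=
  prod_induction f (· ∈ Pv v (SB r 0)) (fun _ _ ha hb => mul_mem_SB (s := 0) (t := 0) ha hb)
    one_mem_SB fun i _ => hf i

theorem thA_mem0 (a : PS V r) : thA v r a ∈ Pv v (SB r 0) := by
  refine mem_Pv_span.2 fun e => ?_
  rw [thA, substAlgHom_apply, coeff_subst (th_subst v r)]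
  refine finsum_induction (· ∈ Ideal.span _) (zero_mem _) (fun _ _ => add_mem) fun d => ?_
  refine Ideal.mul_mem_left _ _ (mem_Pv_span.1 ?_ e)
  exact prod_mem0 _ fun j => Pv_mono (SB_mono (Nat.zero_le _)) (pow_mem_SB (th_mem _) _)

theorem thA_X (j : Fin r) : thA v r (X j) = th v r j.succ := substAlgHom_X _ _

theorem thA_C (c : V) : thA v r (C c) = C c := (thA v r).commutes c

theorem thA_mem1 {a : PS V r} (h : a ∈ mw v r) : thA v r a ∈ Pv v (SB r 1) := by
  induction h using Submodule.span_induction with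
  | mem x hx =>
    rcases hx with rfl | ⟨j, rfl⟩
    · rw [thA_C]; exact C_mem_SB (by simp)
    · rw [thA_X]; exact th_mem _
  | zero => simp
  | add x y _ _ hx hy => rw [map_add]; exact add_mem hx hy
  | smul c x _ hx =>
    rw [smul_eq_mul, map_mul]; exact mul_mem_SB (s := 0) (t := 1) (thA_mem0 c) hx

theorem thA_mem {s : ℕ} : ∀ {a : PS V r}, a ∈ mw v r ^ s → thA v r a ∈ Pv v (SB r s) := by
  induction s with
  | zero => exact fun {a} _ => thA_mem0 a
  | succ s ih =>
    intro a h
    rw [pow_succ] at h
    refine Submodule.mul_induction_on h (fun x hx y hy => ?_) fun x y hx hy => ?_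
    · rw [map_mul]; exact mul_mem_SB (ih hx) (thA_mem1 hy)
    · rw [map_add]; exact add_mem hx hy

theorem map_thA {W : Type u} [CommRing W] (f : W →+* V) (w : W) (a : PS W r) :
    MvPowerSeries.map f (thA w r a) = thA (f w) r (MvPowerSeries.map f a) := by
  rw [thA, thA, substAlgHom_apply, substAlgHom_apply, map_subst (th_subst w r)]
  congr 1
  funext j
  simp [th_eq, mu, map_sum, map_prod]

/-- the elementary symmetric polynomials are independent modulo any ideal -/
theorem indep (I : Ideal V) (p : MvPolynomial (Fin r) V)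
    (h : ∀ e, (MvPolynomial.aeval (fun i : Fin r => MvPolynomial.esymm (Fin r) V (i + 1)) p).coeff e
      ∈ I) (e : Fin r →₀ ℕ) : p.coeff e ∈ I := by
  have h2 : MvPolynomial.map (Ideal.Quotient.mk I) p = 0 := by
    refine MvPolynomial.esymmAlgHom_fin_injective (V ⧸ I) (le_refl r) (Subtype.ext ?_)
    rw [map_zero, MvPolynomial.esymmAlgHom_apply, ZeroMemClass.coe_zero]
    have h3 : MvPolynomial.map (Ideal.Quotient.mk I) (MvPolynomial.aeval
        (fun i : Fin r => MvPolynomial.esymm (Fin r) V (i + 1)) p) = 0 := by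
      ext e
      rw [MvPolynomial.coeff_map, MvPolynomial.coeff_zero, Ideal.Quotient.eq_zero_iff_mem]
      exact h e
    rw [← h3, MvPolynomial.aeval_def, MvPolynomial.aeval_def, MvPolynomial.algebraMap_eq,
      MvPolynomial.algebraMap_eq, MvPolynomial.map_eval₂]
    congr 1
    funext i
    simp [MvPolynomial.map_esymm]
  have := congrArg (MvPolynomial.coeff e) h2
  rwa [MvPolynomial.coeff_map, MvPolynomial.coeff_zero, Ideal.Quotient.eq_zero_iff_mem] at this

theorem thA_mon (e : Fin r →₀ ℕ) (c : V) : thA v r (monomial e c) = C v ^ e.degree *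
    ((MvPolynomial.aeval (fun i : Fin r => MvPolynomial.esymm (Fin r) V (i + 1))
      (MvPolynomial.monomial e c) : MvPolynomial (Fin r) V) : LL V r) := by
  rw [thA, substAlgHom_monomial, MvPolynomial.aeval_monomial,
    ← MvPolynomial.coeToMvPowerSeries.ringHom_apply, Finsupp.prod_fintype _ _ (by simp),
    Finsupp.prod_fintype _ _ (by simp), map_mul, map_prod, Finsupp.degree_eq_sum,
    ← prod_pow_eq_pow_sum]
  simp only [th, mul_pow, prod_mul_distrib, map_pow, MvPolynomial.coeToMvPowerSeries.ringHom_apply,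
    MvPolynomial.algebraMap_eq, MvPolynomial.coe_C, Fin.val_succ]
  rw [mul_left_comm]; rfl

theorem low [IsDomain V] (hv : v ≠ 0) (a : PS V r) (j : ℕ) (h : C v ^ j ∣ thA v r a) :
    a ∈ mw v r ^ j := by
  induction j with
  | zero => simp
  | succ j ih =>
    choose c hc using co_of_mem (ih ((pow_dvd_pow _ j.le_succ).trans h))
    let p : MvPolynomial (Fin r) V := ∑ e ∈ lo r (j + 1), MvPolynomial.monomial e (c e)
    have h1 : thA v r (∑ e ∈ lo r (j + 1), monomial e (coeff e a)) = C v ^ j *
        ((MvPolynomial.aeval (fun i : Fin r => MvPolynomial.esymm (Fin r) V (i + 1)) p :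
          MvPolynomial (Fin r) V) : LL V r) := by
      rw [map_sum, map_sum, ← MvPolynomial.coeToMvPowerSeries.ringHom_apply, map_sum, mul_sum]
      refine sum_congr rfl fun e he => ?_
      have e1 : monomial e (coeff e a) = C v ^ (j - e.degree) * monomial e (c e) := by
        rw [hc, ← map_pow, ← monomial_zero_eq_C_apply, monomial_mul_monomial, zero_add]
      rw [e1, map_mul, map_pow, thA_C, thA_mon, ← mul_assoc, ← pow_add,
        Nat.sub_add_cancel (Nat.le_of_lt_succ (mem_lo.1 he))]
      rfl
    have h2 := C_pow_dvd_of_mem (fun e he => he.1) (thA_mem (tail_mem v (j + 1) a))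
    have h3 := dvd_sub h h2
    rw [map_sub, sub_sub_cancel, h1, pow_succ, mul_dvd_mul_iff_left (pow_ne_zero _ (by
      intro e
      exact hv (by simpa using congrArg constantCoeff e))), C_dvd_iff] at h3
    have h4 := indep (Ideal.span {v}) p fun e => Ideal.mem_span_singleton.2 (by simpa using h3 e)
    refine mem_of_co fun e => ?_
    by_cases he : e.degree < j + 1
    · have h5 := Ideal.mem_span_singleton.1 (h4 e)
      rw [MvPolynomial.coeff_sum, sum_eq_single e, MvPolynomial.coeff_monomial, if_pos rfl] at h5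
      · rw [hc, show j + 1 - e.degree = j - e.degree + 1 by omega, pow_succ]
        exact mul_dvd_mul_left _ h5
      · intro b _ hb
        rw [MvPolynomial.coeff_monomial, if_neg hb]
      · exact fun h' => absurd (mem_lo.2 he) h'
    · rw [show j + 1 - e.degree = 0 by omega]; simp

end SG

theorem segStmt : SegStmt.{u} := fun _ =>
  ⟨fun _ _ _ _ _ => ⟨SG.co_of_mem, SG.mem_of_co⟩, fun _ _ _ _ _ => SG.thA_mem,
    fun _ _ _ => SG.thA_X, fun _ _ _ _ f w a => SG.map_thA f w a,
    fun _ _ _ _ _ hw a o h h' => h (SG.low hw.ne_zero a (o + 1) h')⟩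

end Vale.Agent.P202.Mx
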