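import Vale.Agent.P202.M.SpecE

/-! Module SH: descent of the Euler characteristic along a hypersurface. -/

open Finset Matrix MvPowerSeries Filter Topology IsLocalRing
open scoped Kronecker Nat

namespace Vale.Agent.P202.Mx

universe u

namespace Shm

section blocks
variable {Λ : Type u} [CommRing Λ] {ι ι' : Type} [Fintype ι] [DecidableEq ι] [Fintype ι']
  [DecidableEq ι'] {ξ0 : Λ}

omit [Fintype ι] [DecidableEq ι] [Fintype ι'] [DecidableEq ι'] in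
theorem canc (h0 : ∀ h, ξ0 * h = 0 → h = 0) {A B : Matrix ι' ι Λ} (h : ξ0 • A = ξ0 • B) :
    A = B := by
  ext i j
  have := congrFun (congrFun h i) j
  simp only [Matrix.smul_apply, smul_eq_mul] at this
  exact sub_eq_zero.1 (h0 _ (by rw [mul_sub, this, sub_self]))

/-- the doubled differential -/
def bg (ξ0 : Λ) (d h : Matrix ι ι Λ) : Matrix (ι ⊕ ι) (ι ⊕ ι) Λ :=
  fromBlocks d (ξ0 • 1) (-h) (-d)

def dg (deg : ι → ℕ) : ι ⊕ ι → ℕ := Sum.elim deg fun i => deg i + 1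

theorem bg_sq (h0 : ∀ h, ξ0 * h = 0 → h = 0) {d h : Matrix ι ι Λ} (hd : ξ0 • h = d * d) :
    bg ξ0 d h * bg ξ0 d h = 0 := by
  have c : h * d = d * h := canc h0 (by
    rw [← Matrix.smul_mul, ← Matrix.mul_smul, hd, Matrix.mul_assoc])
  rw [bg, fromBlocks_multiply, ← fromBlocks_zero]
  congr 1 <;> simp [hd, c]

theorem bg_map (h0 : ∀ h, ξ0 * h = 0 → h = 0) {d h : Matrix ι ι Λ} {d' h' : Matrix ι' ι' Λ}
    (hd : ξ0 • h = d * d) (hd' : ξ0 • h' = d' * d') {p p1 : Matrix ι' ι Λ}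
    (hp : ξ0 • p1 = d' * p - p * d) :
    bg ξ0 d' h' * fromBlocks p 0 (-p1) p = fromBlocks p 0 (-p1) p * bg ξ0 d h := by
  have c : -(h' * p) + d' * p1 = -(p1 * d) + -(p * h) := canc h0 (by
    have e1 : ξ0 • (d' * p1) = d' * (d' * p - p * d) := by rw [← Matrix.mul_smul, hp]
    have e2 : ξ0 • (p1 * d) = (d' * p - p * d) * d := by rw [← Matrix.smul_mul, hp]
    have e3 : ξ0 • (h' * p) = d' * d' * p := by rw [← Matrix.smul_mul, hd']
    have e4 : ξ0 • (p * h) = p * (d * d) := by rw [← Matrix.mul_smul, hd]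
    simp only [smul_add, smul_neg, e1, e2, e3, e4, Matrix.mul_sub, Matrix.sub_mul,
      Matrix.mul_assoc]
    abel)
  rw [bg, bg, fromBlocks_multiply, fromBlocks_multiply]
  congr 1
  · simp [hp]
  · simp
  · simpa using c
  · simp [hp]; abel

theorem bg_hom (h0 : ∀ h, ξ0 * h = 0 → h = 0) {d h : Matrix ι ι Λ} (hd : ξ0 • h = d * d)
    {R R1 t E : Matrix ι ι Λ} {γ : Λ} (hR : ξ0 • R1 = d * R - R * d)
    (hE : ξ0 • E = R + d * t + t * d - γ • 1) :
    fromBlocks R 0 (-R1) R + bg ξ0 d h * fromBlocks t 0 (-E) (-t) +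
      fromBlocks t 0 (-E) (-t) * bg ξ0 d h = γ • 1 := by
  have c : -R1 + (-(h * t) + d * E) + (-(E * d) + t * h) = 0 := canc h0 (by
    have e1 : ξ0 • (d * E) = d * (R + d * t + t * d - γ • 1) := by rw [← Matrix.mul_smul, hE]
    have e2 : ξ0 • (E * d) = (R + d * t + t * d - γ • 1) * d := by rw [← Matrix.smul_mul, hE]
    have e3 : ξ0 • (h * t) = d * d * t := by rw [← Matrix.smul_mul, hd]
    have e4 : ξ0 • (t * h) = t * (d * d) := by rw [← Matrix.mul_smul, hd]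
    simp only [smul_add, smul_neg, e1, e2, e3, e4, hR, Matrix.mul_sub, Matrix.sub_mul,
      Matrix.mul_assoc, Matrix.mul_add, Matrix.add_mul, Matrix.mul_smul, Matrix.smul_mul,
      Matrix.mul_one, Matrix.one_mul, smul_zero]
    abel)
  rw [bg, fromBlocks_multiply, fromBlocks_multiply, fromBlocks_add, fromBlocks_add,
    ← fromBlocks_one, fromBlocks_smul]
  congr 1
  · simp [hE]; abel
  · simp
  · simpa using c
  · simp [hE]; abel

omit [Fintype ι] [DecidableEq ι] [Fintype ι'] [DecidableEq ι'] in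
theorem gr_bl {deg : ι → ℕ} {deg' : ι' → ℕ} {j : ℤ} {a b c e : Matrix ι' ι Λ}
    (ha : Gr deg deg' j a) (hb : Gr deg deg' (j + 1) b) (hc : Gr deg deg' (j - 1) c)
    (he : Gr deg deg' j e) : Gr (dg deg) (dg deg') j (fromBlocks a b c e) := by
  rintro (i | i) (k | k) hne
  · exact ha _ _ hne
  · have := hb _ _ hne; simp only [dg, Sum.elim_inl, Sum.elim_inr]; push_cast; omega
  · have := hc _ _ hne; simp only [dg, Sum.elim_inl, Sum.elim_inr]; push_cast; omega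
  · have := he _ _ hne; simp only [dg, Sum.elim_inr]; push_cast; omega

omit [Fintype ι] [DecidableEq ι] [Fintype ι'] [DecidableEq ι'] in
theorem gr_sub {deg : ι → ℕ} {deg' : ι' → ℕ} {j : ℤ} {a b : Matrix ι' ι Λ}
    (ha : Gr deg deg' j a) (hb : Gr deg deg' j b) : Gr deg deg' j (a - b) := by
  rw [sub_eq_add_neg]; exact ha.add hb.neg

end blocks

section tri
variable {Λ : Type u} [CommRing Λ] {ι ι₁ ι₂ : Type} [Fintype ι] [DecidableEq ι] [Fintype ι₁]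
  [DecidableEq ι₁] [Fintype ι₂] [DecidableEq ι₂] {e : ι₁ ⊕ ι₂ ≃ ι} {deg : ι → ℕ}
  {deg₁ : ι₁ → ℕ} {deg₂ : ι₂ → ℕ}

omit [Fintype ι] [DecidableEq ι] [Fintype ι₁] [DecidableEq ι₁] [Fintype ι₂] [DecidableEq ι₂] in
theorem tri_map {B : Type*} [Zero B] {D : Matrix ι ι B} {D₁ : Matrix ι₁ ι₁ B}
    {D₂ : Matrix ι₂ ι₂ B} (h : Tri e deg D deg₁ D₁ deg₂ D₂) (f : B → Λ) (hf : f 0 = 0) :
    Tri e deg (D.map f) deg₁ (D₁.map f) deg₂ (D₂.map f) :=
  ⟨h.g1, h.g2, fun i j => by simp [h.d1], fun i j => by simp [h.d2],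
    fun i j => by simp [h.d0, hf]⟩

omit [DecidableEq ι] [DecidableEq ι₁] [DecidableEq ι₂] in
theorem tri_mul {A B : Matrix ι ι Λ} {A₁ B₁ : Matrix ι₁ ι₁ Λ} {A₂ B₂ : Matrix ι₂ ι₂ Λ}
    (h : Tri e deg A deg₁ A₁ deg₂ A₂) (h' : Tri e deg B deg₁ B₁ deg₂ B₂) :
    Tri e deg (A * B) deg₁ (A₁ * B₁) deg₂ (A₂ * B₂) := by
  refine ⟨h.g1, h.g2, fun i j => ?_, fun i j => ?_, fun i j => ?_⟩ <;>
    simp [mul_apply, ← e.sum_comp, h.d1, h.d2, h.d0, h'.d1, h'.d2, h'.d0]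

omit [Fintype ι] [Fintype ι₁] [Fintype ι₂] in
theorem tri_bg (ξ0 : Λ) {A B : Matrix ι ι Λ} {A₁ B₁ : Matrix ι₁ ι₁ Λ} {A₂ B₂ : Matrix ι₂ ι₂ Λ}
    (h : Tri e deg A deg₁ A₁ deg₂ A₂) (h' : Tri e deg B deg₁ B₁ deg₂ B₂) :
    Tri ((Equiv.sumSumSumComm ι₁ ι₁ ι₂ ι₂).trans (e.sumCongr e)) (dg deg) (bg ξ0 A B) (dg deg₁)
      (bg ξ0 A₁ B₁) (dg deg₂) (bg ξ0 A₂ B₂) := by
  refine ⟨?_, ?_, ?_, ?_, ?_⟩
  · rintro (i | i) <;> simp [dg, Equiv.sumSumSumComm, h.g1]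
  · rintro (i | i) <;> simp [dg, Equiv.sumSumSumComm, h.g2]
  · rintro (i | i) (j | j) <;> simp [bg, Equiv.sumSumSumComm, h.d1, h'.d1, one_apply]
  · rintro (i | i) (j | j) <;> simp [bg, Equiv.sumSumSumComm, h.d2, h'.d2, one_apply]
  · rintro (i | i) (j | j) <;> simp [bg, Equiv.sumSumSumComm, h.d0, h'.d0, one_apply]

end tri

/-- a section of `π` and division by `ξ0` -/
structure Sec {Λ Λ' : Type u} [CommRing Λ] [CommRing Λ'] (π : Λ →+* Λ') (ξ0 : Λ) (σ : Λ' → Λ)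
    (dv : Λ → Λ) : Prop where
  nz : ∀ h, ξ0 * h = 0 → h = 0
  s : ∀ y, π (σ y) = y
  s0 : σ 0 = 0
  d : ∀ a, π a = 0 → ξ0 * dv a = a
  d0 : dv 0 = 0

section sec
variable {Λ Λ' : Type u} [CommRing Λ] [CommRing Λ'] {π : Λ →+* Λ'} {ξ0 : Λ} {σ : Λ' → Λ}
  {dv : Λ → Λ} {ι ι' : Type} [Fintype ι] [DecidableEq ι] [Fintype ι'] [DecidableEq ι']

theorem ex_sec (hs : Function.Surjective π) (hk : RingHom.ker π = Ideal.span {ξ0})
    (h0 : ∀ h, ξ0 * h = 0 → h = 0) : ∃ σ dv, Sec π ξ0 σ dv := by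
  classical
  have h1 : ∀ a : Λ, ∃ b, π a = 0 → ξ0 * b = a := fun a => by
    by_cases h : π a = 0
    · obtain ⟨b, hb⟩ := Ideal.mem_span_singleton'.1 (hk ▸ (RingHom.mem_ker.2 h))
      exact ⟨b, fun _ => by rw [mul_comm, hb]⟩
    · exact ⟨0, fun c => absurd c h⟩
  choose dv hdv using h1
  choose σ hσ using hs
  refine ⟨fun y => if y = 0 then 0 else σ y, dv, h0, fun y => ?_, by simp, hdv,
    h0 _ (hdv 0 (map_zero π))⟩
  by_cases h : y = 0 <;> simp [h, hσ]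

/-- the lift of a complex -/
def up (ξ0 : Λ) (σ : Λ' → Λ) (dv : Λ → Λ) (D : Matrix ι ι Λ') : Matrix (ι ⊕ ι) (ι ⊕ ι) Λ :=
  bg ξ0 (D.map σ) ((D.map σ * D.map σ).map dv)

omit [Fintype ι] [DecidableEq ι] [Fintype ι'] [DecidableEq ι'] in
theorem Sec.ms (S : Sec π ξ0 σ dv) (P : Matrix ι' ι Λ') : (P.map σ).map π = P := by
  ext i j; simp [S.s]

omit [Fintype ι] [DecidableEq ι] [Fintype ι'] [DecidableEq ι'] in
theorem Sec.md (S : Sec π ξ0 σ dv) {A : Matrix ι' ι Λ} (h : A.map π = 0) :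
    ξ0 • A.map dv = A := by
  ext i j
  exact S.d _ (congrFun (congrFun h i) j)

omit [DecidableEq ι] in
theorem Sec.sq (S : Sec π ξ0 σ dv) {D : Matrix ι ι Λ'} (h : D * D = 0) :
    ξ0 • (D.map σ * D.map σ).map dv = D.map σ * D.map σ :=
  S.md (by rw [Matrix.map_mul, S.ms, h])

omit [DecidableEq ι] [DecidableEq ι'] in
theorem Sec.ch (S : Sec π ξ0 σ dv) {D : Matrix ι ι Λ'} {D' : Matrix ι' ι' Λ'}
    {P : Matrix ι' ι Λ'} (h : D' * P = P * D) :
    ξ0 • (D'.map σ * P.map σ - P.map σ * D.map σ).map dv =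
      D'.map σ * P.map σ - P.map σ * D.map σ :=
  S.md (by rw [Matrix.map_sub _ (map_sub π), Matrix.map_mul, Matrix.map_mul, S.ms, S.ms, S.ms, h,
    sub_self])

theorem Sec.ho (S : Sec π ξ0 σ dv) {D H : Matrix ι ι Λ'} {R : Matrix ι ι Λ} {γ : Λ}
    (h : R.map π + D * H + H * D = π γ • 1) :
    ξ0 • (R + D.map σ * H.map σ + H.map σ * D.map σ - γ • 1).map dv =
      R + D.map σ * H.map σ + H.map σ * D.map σ - γ • 1 := by
  refine S.md ?_
  have : (γ • (1 : Matrix ι ι Λ)).map π = π γ • 1 := by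
    ext i j; by_cases e : i = j <;> simp [one_apply, e]
  rw [Matrix.map_sub _ (map_sub π), Matrix.map_add _ (map_add π), Matrix.map_add _ (map_add π),
    Matrix.map_mul, Matrix.map_mul, S.ms, S.ms, h, this, sub_self]

theorem Sec.gr (S : Sec π ξ0 σ dv) {deg : ι → ℕ} {D : Matrix ι ι Λ'} (h : Gr deg deg (-1) D) :
    Gr (dg deg) (dg deg) (-1) (up ξ0 σ dv D) :=
  gr_bl (h.map _ S.s0) (Gr.one.smul _)
    (((h.map _ S.s0).mul (h.map _ S.s0) (by norm_num)).map _ S.d0).neg (h.map _ S.s0).neg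

theorem Sec.gd (S : Sec π ξ0 σ dv) {β : Type} {ξ : β → Λ} {γ : Λ} {M ℓ : ℕ} {deg : ι → ℕ}
    {D : Matrix ι ι Λ'} (h : GdG (fun j => π (ξ j)) (π γ) M ℓ deg D) :
    GdG ξ γ M (ℓ + 1) (dg deg) (up ξ0 σ dv D) := by
  refine ⟨S.gr h.gr, bg_sq S.nz (S.sq h.dd), ?_, fun j => ?_⟩
  · rintro (i | i) <;> have := h.le i <;> simp only [dg, Sum.elim_inl, Sum.elim_inr] <;> omega
  obtain ⟨H, gH, eH⟩ := h.nul j
  have g1 := h.gr.map _ S.s0
  have g2 := gH.map _ S.s0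
  have e := bg_hom S.nz (S.sq h.dd) (R := 0) (R1 := 0) (by simp)
    (S.ho (D := D) (H := H) (R := 0) (γ := γ * ξ j ^ M) (by simpa using eH))
  rw [neg_zero, fromBlocks_zero, zero_add] at e
  refine ⟨_, gr_bl g2 Gr.zero (Gr.neg (Gr.map (gr_sub ((Gr.zero.add (g1.mul g2 (by norm_num))).add
    (g2.mul g1 (by norm_num))) (Gr.one.smul _)) _ S.d0)) g2.neg, e⟩

theorem Sec.dom (S : Sec π ξ0 σ dv) {γ : Λ} {deg : ι → ℕ} {D : Matrix ι ι Λ'} {deg' : ι' → ℕ}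
    {D' : Matrix ι' ι' Λ'} (g : Gr deg deg (-1) D) (g' : Gr deg' deg' (-1) D') (hD : D * D = 0)
    (hD' : D' * D' = 0) (h : Dom (π γ) deg D deg' D') :
    Dom γ (dg deg) (up ξ0 σ dv D) (dg deg') (up ξ0 σ dv D') := by
  obtain ⟨P, Q, H, gP, gQ, gH, eP, eQ, eH⟩ := h
  have g1 := g.map _ S.s0
  have g1' := g'.map _ S.s0
  have g2 := gP.map _ S.s0
  have g3 := gQ.map _ S.s0
  have g4 := gH.map _ S.s0
  have e1 := S.ch eP
  have e2 := S.ch eQ
  have e3 := S.ho (D := D) (H := H) (R := Q.map σ * P.map σ) (γ := γ)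
    (by rw [Matrix.map_mul, S.ms, S.ms, eH])
  have m1 := bg_map S.nz (S.sq hD) (S.sq hD') e1
  have m2 := bg_map S.nz (S.sq hD') (S.sq hD) e2
  refine ⟨_, _, _, gr_bl g2 Gr.zero (Gr.neg (Gr.map (gr_sub (g1'.mul g2 (by norm_num))
      (g2.mul g1 (by norm_num))) _ S.d0)) g2,
    gr_bl g3 Gr.zero (Gr.neg (Gr.map (gr_sub (g1.mul g3 (by norm_num))
      (g3.mul g1' (by norm_num))) _ S.d0)) g3,
    gr_bl g4 Gr.zero (Gr.neg (Gr.map (gr_sub (((g3.mul g2 (by norm_num)).add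
      (g1.mul g4 (by norm_num))).add (g4.mul g1 (by norm_num))) (Gr.one.smul γ)) _ S.d0)) g4.neg,
    m1, m2, ?_⟩
  generalize (D'.map σ * P.map σ - P.map σ * D.map σ).map dv = p1 at e1 ⊢
  generalize (D.map σ * Q.map σ - Q.map σ * D'.map σ).map dv = q1 at e2 ⊢
  have e := bg_hom S.nz (S.sq hD) (R := Q.map σ * P.map σ) (R1 := q1 * P.map σ + Q.map σ * p1)
    (by
      rw [smul_add, ← Matrix.smul_mul, ← Matrix.mul_smul, e1, e2]
      simp only [Matrix.mul_sub, Matrix.sub_mul, Matrix.mul_assoc]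
      abel) e3
  rw [← e, fromBlocks_multiply]
  congr 3 <;> simp
  abel

theorem Sec.vec (S : Sec π ξ0 σ dv) {deg : ι → ℕ} {D : Matrix ι ι Λ'} (b : ι ⊕ ι → Λ)
    {w : ι → Λ'} (h : ∀ i, deg i = 0 → π (b (.inl i)) = (D *ᵥ w) i) :
    ∃ w', ∀ i, dg deg i = 0 → b i = (up ξ0 σ dv D *ᵥ w') i := by
  refine ⟨Sum.elim (σ ∘ w) fun i => dv (b (.inl i) - (D.map σ *ᵥ (σ ∘ w)) i), ?_⟩
  rintro (i | i) hi
  · have : π (b (.inl i) - (D.map σ *ᵥ (σ ∘ w)) i) = 0 := by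
      rw [map_sub, h i hi, RingHom.map_mulVec, S.ms]
      have : π ∘ σ ∘ w = w := funext fun j => S.s _
      rw [this, sub_self]
    have := S.d _ this
    simp only [up, bg, fromBlocks_mulVec, Sum.elim_inl, Sum.elim_comp_inl, Sum.elim_comp_inr,
      Pi.add_apply, smul_mulVec, one_mulVec, Pi.smul_apply, smul_eq_mul, this]
    ring
  · simp [dg] at hi

end sec

theorem len_le {V Λ Λ' : Type u} [CommRing V] [CommRing Λ] [CommRing Λ'] [Algebra V Λ]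
    [Algebra V Λ'] (π : Λ →ₐ[V] Λ') {ι : Type} (N : Submodule Λ' (ι → Λ')) :
    ∃ N' : Submodule Λ (ι ⊕ ι → Λ), (∀ a ∈ N', (fun i => π (a (.inl i))) ∈ N) ∧
      Module.length V ((ι ⊕ ι → Λ) ⧸ N') ≤ Module.length V ((ι → Λ') ⧸ N) := by
  let F : (ι ⊕ ι → Λ) →ₛₗ[(π : Λ →+* Λ')] (ι → Λ') :=
    { toFun := fun a i => π (a (.inl i))
      map_add' := fun a b => by ext i; simp
      map_smul' := fun c a => by ext i; simp }
  let G := (N.comap F).mapQ N F le_rfl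
  let G' : ((ι ⊕ ι → Λ) ⧸ N.comap F) →ₗ[V] ((ι → Λ') ⧸ N) :=
    { toFun := G
      map_add' := map_add G
      map_smul' := fun c x => by
        obtain ⟨a, rfl⟩ := Submodule.Quotient.mk_surjective _ x
        rw [← Submodule.Quotient.mk_smul]
        simp only [G, Submodule.mapQ_apply, RingHom.id_apply, ← Submodule.Quotient.mk_smul]
        congr 1
        ext i
        simp [F] }
  refine ⟨N.comap F, fun a ha => ha, Module.length_le_of_injective G' ?_⟩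
  rw [injective_iff_map_eq_zero]
  intro x hx
  obtain ⟨a, rfl⟩ := Submodule.Quotient.mk_surjective _ x
  exact (Submodule.Quotient.mk_eq_zero _).2 ((Submodule.Quotient.mk_eq_zero N).1 hx)

end Shm

open Shm in
theorem shmStmt : ShmStmt.{u} := by
  intro V A Λ Λ' _ _ _ _ _ _ _ π ξ0 ε z0 𝔬 β ξ γ M ℓ f x F η η' y hs hk h0 hm h2 hE
  obtain ⟨σ, dv, S⟩ := ex_sec (π := (π : Λ →+* Λ')) hs hk h0
  refine ⟨fun ι _ _ deg D => f (ι ⊕ ι) (dg deg) (up ξ0 σ dv D), ⟨?_, ?_⟩, ?_, ?_⟩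
  · intro ι ι' _ _ _ _ deg D deg' D' g g' d d'
    have := hE.e1 _ _ _ _ _ _ (S.gd g) (S.gd g') (S.dom g.gr g'.gr g.dd g'.dd d)
      (S.dom g'.gr g.gr g'.dd g.dd d')
    refine this.trans (le_of_eq ?_)
    simp only [Fintype.card_sum]; push_cast; ring
  · intro ι ι₁ ι₂ _ _ _ _ _ _ e deg D deg₁ D₁ deg₂ D₂ t g g₁ g₂
    have t1 := tri_map t σ S.s0
    have := hE.e2 _ _ _ _ _ _ _ _ _ _ (tri_bg ξ0 t1 (tri_map (tri_mul t1 t1) dv S.d0)) (S.gd g)
      (S.gd g₁) (S.gd g₂)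
    refine this.trans (le_of_eq ?_)
    simp only [Fintype.card_sum]; push_cast; ring
  · intro ι _ _ deg D g hD _
    have h1 : ∀ i j, σ (D i j) ∈ 𝔬 := fun i j => by
      have : σ (D i j) ∈ (𝔬.map (π : Λ →+* Λ')).comap (π : Λ →+* Λ') := by
        rw [Ideal.mem_comap, S.s]; exact hD i j
      rw [Ideal.comap_map_of_surjective (π : Λ →+* Λ') hs, ← RingHom.ker_eq_comap_bot] at this
      refine (sup_le le_rfl ?_ : 𝔬 ⊔ RingHom.ker (π : Λ →+* Λ') ≤ 𝔬) this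
      exact le_of_eq_of_le hk ((Ideal.span_singleton_le_iff_mem _).2 hm)
    have := hE.e4 _ _ _ (S.gd g) ?_ ?_
    · have c : #{i | dg deg i = 0} = #{i | deg i = 0} := by
        rw [card_filter, card_filter, Fintype.sum_sum_type]
        simp only [dg, Sum.elim_inl, Sum.elim_inr, Nat.succ_ne_zero, if_false, sum_const_zero,
          add_zero]
        exact sum_congr rfl fun i _ => by congr
      rw [c] at this
      refine this.trans (le_of_eq ?_)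
      simp only [Fintype.card_sum]; push_cast; ring
    · rintro (i | i) (j | j)
      · exact h1 i j
      · exact 𝔬.mul_mem_right _ hm
      · refine neg_mem (h2 _ ?_)
        have := congrFun (congrFun (S.sq g.dd) i) j
        rw [Matrix.smul_apply, smul_eq_mul] at this
        rw [this, mul_apply, pow_two]
        exact sum_mem fun k _ => Ideal.mul_mem_mul (h1 i k) (h1 k j)
      · exact neg_mem (h1 i j)
    · simp [Fintype.sum_sum_type, dg, pow_succ]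
  · intro ι _ _ deg D g N lam hN hl I0 lam' hI hl'
    obtain ⟨N', a1, a2⟩ := len_le π N
    have := hE.e5 _ _ _ (S.gd g) N' lam (fun a ha => ?_) (a2.trans hl) I0 lam'
      (fun a ha i0 hi => ?_) hl'
    · refine this.trans (le_of_eq ?_)
      simp only [Fintype.card_sum]; push_cast; ring
    · obtain ⟨w, hw⟩ := hN _ (a1 a ha)
      exact S.vec (fun i => γ * a i) fun i hi => by rw [← hw i hi]; simp
    · rcases i0 with i0 | i0
      · obtain ⟨w, hw⟩ := hI a ha i0 hi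
        refine S.vec (w := w) (fun i => if i = .inl i0 then γ * ε a else 0) fun i hi => ?_
        rw [← hw i hi]
        by_cases c : i = i0 <;> simp [c]
      · simp [dg] at hi

end Vale.Agent.P202.Mx
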