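import Vale.Agent.P202.M.Base

/-! The Segre ring is almost spanned by `r !` elements over a chain ring. -/

open Finset Matrix MvPowerSeries Filter Topology IsLocalRing
open scoped Kronecker Nat

namespace Vale.Agent.P202.Mx

universe u

namespace SpM

variable {r : ℕ}

/-- the exponent `(0, 1, .., r - 1)` -/
noncomputable def uu (r : ℕ) : Fin r →₀ ℕ := Finsupp.equivFunOnFinite.symm fun a => a

noncomputable def ee (R : Type*) [CommRing R] (β : Fin (r + 1) →₀ ℕ) : MvPolynomial (Fin r) R :=
  ∏ i : Fin (r + 1), MvPolynomial.esymm (Fin r) R i ^ β i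

noncomputable def pf (R : Type*) [CommRing R] (j : ℕ) (β : Fin (r + 1) →₀ ℕ) :
    MvPolynomial (Fin r) R := ee R β * MvPolynomial.monomial (uu r) 1 ^ j

theorem form {k : Type*} [Field k] (c : (Fin (r + 1) →₀ ℕ) → k) (o : ℕ)
    (h : ∑ d ∈ univ.finsuppAntidiag o, MvPolynomial.C (c d) * ee k d = 0) :
    ∀ d ∈ (univ : Finset (Fin (r + 1))).finsuppAntidiag o, c d = 0 := by
  have h2 : ∑ d ∈ univ.finsuppAntidiag o, MvPolynomial.monomial (Finsupp.tail d) (c d) = 0 := by
    refine MvPolynomial.esymmAlgHom_fin_injective k (le_refl r) (Subtype.ext ?_)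
    rw [map_zero, MvPolynomial.esymmAlgHom_apply, ZeroMemClass.coe_zero, ← h, map_sum]
    refine sum_congr rfl fun d _ => ?_
    rw [MvPolynomial.aeval_monomial, Finsupp.prod_fintype _ _ (by simp)]
    simp [ee, Fin.prod_univ_succ, Finsupp.tail_apply]
  intro d hd
  have h3 := congrArg (MvPolynomial.coeff d.tail) h2
  rw [MvPolynomial.coeff_sum, sum_eq_single d] at h3
  · simpa using h3
  · intro d' hd' hne
    rw [MvPolynomial.coeff_monomial, if_neg]
    intro e
    apply hne
    have e1 := (mem_finsuppAntidiag.1 hd).1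
    have e2 := (mem_finsuppAntidiag.1 hd').1
    have e3 : ∀ i : Fin r, d' i.succ = d i.succ := fun i => DFunLike.congr_fun e i
    rw [Fin.sum_univ_succ] at e1 e2
    simp only [e3] at e2
    ext i
    exact Fin.cases (by omega) e3 i
  · exact fun h' => absurd hd h'

theorem indep {k : Type*} [Field k] (o : ℕ) (c : Fin r ! → (Fin (r + 1) →₀ ℕ) → k)
    (h : ∑ j, ∑ d ∈ univ.finsuppAntidiag o, MvPolynomial.C (c j d) * pf k j d = 0) (j : Fin r !) :
    ∀ d ∈ (univ : Finset (Fin (r + 1))).finsuppAntidiag o, c j d = 0 := by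
  let e : Fin r ! ≃ Equiv.Perm (Fin r) :=
    (Fintype.equivFinOfCardEq (by simp [Fintype.card_perm])).symm
  let f : Fin r ! → MvPolynomial (Fin r) k := fun i =>
    MvPolynomial.monomial ((uu r).mapDomain (e i)) 1
  have hf : Function.Injective f := fun i i' hi => by
    have h1 := MvPolynomial.monomial_left_injective (one_ne_zero (α := k)) hi
    refine e.injective (Equiv.symm_bijective.1 (Equiv.ext fun a => Fin.ext ?_))
    have := DFunLike.congr_fun h1 a
    simpa [Finsupp.mapDomain_equiv_apply, uu] using this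
  have := eq_zero_of_forall_index_sum_mul_pow_eq_zero
    (v := fun j => ∑ d ∈ univ.finsuppAntidiag o, MvPolynomial.C (c j d) * ee k d) hf fun i => by
      have h2 := congrArg (MvPolynomial.rename (e i)) h
      simp only [map_sum, map_mul, map_zero, MvPolynomial.rename_C, pf, ee, map_prod, map_pow,
        MvPolynomial.rename_esymm, MvPolynomial.rename_monomial] at h2
      simpa only [sum_mul, mul_assoc, ee, f] using h2
  exact form _ o (congrFun this j)

variable {V : Type u} [CommRing V] {v : V}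

/-- series with all exponents at most `m` -/
def Bx (V : Type u) [CommRing V] (r m : ℕ) : Submodule V (LL V r) where
  carrier := {f | ∀ e, coeff e f ≠ 0 → ∀ a, e a ≤ m}
  add_mem' {f g} hf hg e he := by
    by_contra h
    exact he (by rw [map_add, not_not.1 (mt (hf e) h), not_not.1 (mt (hg e) h), add_zero])
  zero_mem' e he := absurd (map_zero _) he
  smul_mem' c f hf e he := hf e fun h => he (by rw [map_smul, h, smul_zero])

theorem mul_Bx {m n : ℕ} {f g : LL V r} (hf : f ∈ Bx V r m) (hg : g ∈ Bx V r n) :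
    f * g ∈ Bx V r (m + n) := by
  intro e he a
  rw [coeff_mul] at he
  obtain ⟨p, hp, hne⟩ := exists_ne_zero_of_sum_ne_zero he
  rw [← mem_antidiagonal.1 hp]
  exact add_le_add (hf _ (left_ne_zero_of_mul hne) a) (hg _ (right_ne_zero_of_mul hne) a)

theorem mon_Bx {m : ℕ} {e : Fin r →₀ ℕ} (h : ∀ a, e a ≤ m) (c : V) : monomial e c ∈ Bx V r m := by
  intro e' he'
  rw [coeff_monomial] at he'
  split_ifs at he' with h'
  · rwa [h']
  · exact absurd rfl he'

theorem pow_Bx {f : LL V r} (hf : f ∈ Bx V r 1) (n : ℕ) : f ^ n ∈ Bx V r n := by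
  induction n with
  | zero => exact mon_Bx (e := 0) (by simp) 1
  | succ n ih => rw [pow_succ]; exact mul_Bx ih hf

theorem prod_Bx {γ : Type*} (s : Finset γ) {f : γ → LL V r} {n : γ → ℕ}
    (hf : ∀ i, f i ∈ Bx V r (n i)) : ∏ i ∈ s, f i ∈ Bx V r (∑ i ∈ s, n i) := by
  classical
  induction s using Finset.induction_on with
  | empty => exact mon_Bx (e := 0) (by simp) 1
  | insert a s ha ih => rw [prod_insert ha, sum_insert ha]; exact mul_Bx (hf a) ih

theorem es_Bx (j : ℕ) : ((MvPolynomial.esymm (Fin r) V j : MvPolynomial (Fin r) V) : LL V r) ∈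
    Bx V r 1 := by
  rw [MvPolynomial.esymm_eq_sum_monomial, ← MvPolynomial.coeToMvPowerSeries.ringHom_apply, map_sum]
  refine sum_mem fun t _ => ?_
  rw [MvPolynomial.coeToMvPowerSeries.ringHom_apply, MvPolynomial.coe_monomial]
  refine mon_Bx (fun a => ?_) _
  simp only [Finsupp.finsetSum_apply, Finsupp.single_apply, sum_ite_eq']
  split_ifs <;> simp

theorem sb_of_Bx {m s : ℕ} {f : LL V r} (hf : f ∈ Bx V r m) (hs : m ≤ s)
    (h : ∀ e, v ^ s ∣ coeff e f) : f ∈ Pv v (SB r s) := by
  refine mem_Pv.2 fun e => or_iff_not_imp_left.2 fun he =>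
    ⟨Finsupp.equivFunOnFinite.symm fun o => o.elim s e, ⟨le_rfl, fun a => (hf e he a).trans hs⟩,
      ?_, h e⟩
  ext a
  simp

/-- series divisible by `v` -/
noncomputable def Dv (v : V) (r : ℕ) : Submodule V (LL V r) :=
  ⨅ e : Fin r →₀ ℕ, Submodule.comap (coeff e) (Ideal.span {v} : Ideal V)

theorem mem_Dv {f : LL V r} : f ∈ Dv v r ↔ ∀ e, v ∣ coeff e f := by
  simp only [Dv, Submodule.mem_iInf, Submodule.mem_comap, Ideal.mem_span_singleton]

theorem len [IsLocalRing V] (hv : maximalIdeal V = Ideal.span {v}) (γ : Type) [Fintype γ] :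
    rl (Submodule.pi Set.univ fun _ : γ => (Ideal.span {v} : Submodule V V)) ⊤ =
      Fintype.card γ := by
  classical
  have : IsSimpleModule V (V ⧸ (Ideal.span {v} : Submodule V V)) :=
    isSimpleModule_iff_isCoatom.2 (hv ▸ Ideal.isMaximal_def.1 (maximalIdeal.isMaximal V))
  rw [rl_top, (Submodule.quotientPi _).length_eq, Module.length_pi_of_fintype]
  simp [Module.length_eq_one]

theorem level [IsLocalRing V] (hv : maximalIdeal V = Ideal.span {v}) (m : ℕ) {γ : Type}
    [Fintype γ] (f : γ → LL V r) (U : Submodule V (LL V r)) (hB : ∀ i, f i ∈ Bx V r m)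
    (hU : ∀ i, C v ^ m * f i ∈ U)
    (hI : ∀ c : γ → V, (∀ e, v ∣ coeff e (∑ i, c i • f i)) → ∀ i, v ∣ c i) :
    rl (U ⊔ Pv v (SB r (m + 1))) (Pv v (SB r m)) + Fintype.card γ ≤ ((m + 1) ^ r : ℕ) := by
  classical
  let S := Submodule.span V (Set.range f)
  have hS : S ≤ Bx V r m := Submodule.span_le.2 (Set.range_subset_iff.2 hB)
  have hS' : S ≤ U.comap (LinearMap.mulLeft V (C v ^ m)) :=
    Submodule.span_le.2 (Set.range_subset_iff.2 hU)
  let F : LL V r →ₗ[V] (Fin r → Fin (m + 1)) → V :=
    LinearMap.pi fun p => coeff (Finsupp.equivFunOnFinite.symm fun a => (p a : ℕ))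
  have h1 : rl (Dv v r) (Dv v r ⊔ Bx V r m) ≤ ((m + 1) ^ r : ℕ) := by
    refine (rl_mono le_rfl le_rfl).trans ((rl_le_of_comap F (fun x hx hx' => mem_Dv.2 fun e => ?_)
      fun _ _ => Submodule.mem_sup_right Submodule.mem_top).trans (len hv _).le) |>.trans (by simp)
    by_cases he : coeff e x = 0
    · simp [he]
    have := Ideal.mem_span_singleton.1
      (hx' (fun a => ⟨e a, Nat.lt_succ_of_le (hx e he a)⟩) trivial)
    simpa [F] using this
  have h2 : (Fintype.card γ : ℕ∞) ≤ rl (Dv v r) (Dv v r ⊔ S) := by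
    rw [← len hv γ]
    refine rl_le_of_comap (Fintype.linearCombination V f) (fun x _ hx i _ => ?_) fun x _ => ?_
    · exact Ideal.mem_span_singleton.2 (hI x (mem_Dv.1 hx) i)
    · exact Submodule.mem_sup_right (Submodule.mem_sup_right
        ((Submodule.mem_span_range_iff_exists_fun V).2 ⟨x, rfl⟩))
  have h3 := rl_add (P := Dv v r) (Q := Dv v r ⊔ S) (R := Dv v r ⊔ Bx V r m) le_sup_left
    (sup_le_sup_left hS _)
  have h4 : rl ((Dv v r ⊔ S) ⊓ Bx V r m) (Bx V r m) ≤ rl (Dv v r ⊔ S) (Dv v r ⊔ Bx V r m) :=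
    rl_le_of_comap LinearMap.id (fun x hx hx' => ⟨hx', hx⟩) fun x hx =>
      Submodule.mem_sup_right (Submodule.mem_sup_right hx)
  have h5 : rl (U ⊔ Pv v (SB r (m + 1))) (Pv v (SB r m)) ≤
      rl ((Dv v r ⊔ S) ⊓ Bx V r m) (Bx V r m) := by
    refine rl_le_of_map (LinearMap.mulLeft V (C v ^ m)) (fun x hx => ?_) fun x hx => ?_
    · obtain ⟨p, hp, s, hs, rfl⟩ := Submodule.mem_sup.1 hx.1
      have hp' : p ∈ Bx V r m := by simpa using sub_mem hx.2 (hS hs)
      rw [map_add, add_comm (LinearMap.mulLeft V (C v ^ m) p)]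
      refine Submodule.add_mem_sup (hS' hs) ?_
      rw [LinearMap.mulLeft_apply, ← map_pow, ← smul_eq_C_mul]
      refine sb_of_Bx (Submodule.smul_mem _ _ hp') (Nat.le_succ m) fun e => ?_
      rw [map_smul, smul_eq_mul, pow_succ]
      exact mul_dvd_mul_left _ (mem_Dv.1 hp e)
    · obtain ⟨g, hg⟩ := C_pow_dvd_of_mem (l := m) (fun e he => he.1) hx
      let g' : LL V r := fun e => if ∀ a, e a ≤ m then coeff e g else 0
      have c1 : ∀ e, coeff e g' = if ∀ a, e a ≤ m then coeff e g else 0 := fun _ => rfl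
      refine Submodule.mem_sup.2 ⟨x - C v ^ m * g', Submodule.mem_sup_right
        (mem_Pv.2 fun e => ?_), C v ^ m * g', ⟨g', fun e he => ?_, rfl⟩, sub_add_cancel _ _⟩
      · rw [map_sub, ← map_pow, coeff_C_mul, c1]
        split_ifs with h
        · left
          rw [hg, ← map_pow, coeff_C_mul, sub_self]
        · rw [mul_zero, sub_zero]
          refine (mem_Pv.1 hx e).imp id ?_
          rintro ⟨e', he', rfl, h'⟩
          obtain ⟨a, ha⟩ := not_forall.1 h
          have := he'.2 a
          rw [Finsupp.some_apply] at ha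
          exact ⟨e', ⟨by omega, he'.2⟩, rfl, h'⟩
      · rw [c1] at he
        split_ifs at he with h
        · exact h
        · exact absurd rfl he
  rw [add_comm]
  exact (add_le_add h2 (h5.trans h4)).trans (h3.ge.trans h1)

/-- the generators -/
noncomputable def ww (v : V) (r : ℕ) (j : Fin r !) : LL V r :=
  C v ^ (r * r !) * monomial ((j : ℕ) • uu r) 1

theorem t_Bx (j : Fin r !) : monomial ((j : ℕ) • uu r) (1 : V) ∈ Bx V r (r * r !) :=
  mon_Bx (fun a => by
    simp only [uu, Finsupp.smul_apply, Finsupp.equivFunOnFinite_symm_apply_apply, smul_eq_mul]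
    rw [mul_comm]
    exact Nat.mul_le_mul a.2.le j.2.le) _

theorem ww_mem (j : Fin r !) : ww v r j ∈ Pv v (SB r 0) := by
  refine Pv_mono (SB_mono (Nat.zero_le (r * r !))) ?_
  rw [ww, ← map_pow, ← smul_eq_C_mul]
  refine sb_of_Bx (Submodule.smul_mem _ _ (t_Bx j)) le_rfl fun e => ?_
  rw [map_smul, smul_eq_mul]
  exact dvd_mul_right _ _

theorem coe_pf (j : ℕ) (β : Fin (r + 1) →₀ ℕ) : ((pf V j β : MvPolynomial (Fin r) V) : LL V r) =
    (∏ i : Fin (r + 1), ((MvPolynomial.esymm (Fin r) V i : MvPolynomial (Fin r) V) : LL V r) ^ β i)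
      * monomial (j • uu r) 1 := by
  rw [pf, ee, MvPolynomial.monomial_pow, one_pow, ← MvPolynomial.coeToMvPowerSeries.ringHom_apply,
    map_mul, map_prod]
  simp only [map_pow, MvPolynomial.coeToMvPowerSeries.ringHom_apply, MvPolynomial.coe_monomial]

theorem thA_xi (i : Fin (r + 1)) : thA v r (xi v r i) = th v r i := by
  refine Fin.cases ?_ (fun i => ?_) i
  · have := (thA v r).commutes v
    simp only [MvPowerSeries.algebraMap_apply, Algebra.algebraMap_self, RingHom.id_apply] at this
    simp [xi, th, this]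
  · simp only [xi, Fin.cons_succ, thA, substAlgHom_X]

noncomputable def UU (v : V) (r : ℕ) : Submodule V (LL V r) :=
  ⨆ j, LinearMap.range (LinearMap.mulRight V (ww v r j) ∘ₗ (thA v r).toLinearMap)

theorem level' [IsLocalRing V] (hv : maximalIdeal V = Ideal.span {v}) (m : ℕ) :
    rl (UU v r ⊔ Pv v (SB r (m + 1))) (Pv v (SB r m)) +
      (if r * r ! ≤ m then (m - r * r ! + 1) ^ r else 0 : ℕ) ≤ ((m + 1) ^ r : ℕ) := by
  split_ifs with h
  · obtain ⟨n, rfl⟩ := Nat.exists_eq_add_of_le' h
    rw [add_tsub_cancel_right]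
    refine le_trans (add_le_add le_rfl ?_) (level hv (n + r * r !)
      (γ := Fin r ! × (univ : Finset (Fin (r + 1))).finsuppAntidiag n)
      (fun p => (pf V p.1 p.2.1 : MvPolynomial (Fin r) V)) _ ?_ ?_ ?_)
    · rw [Fintype.card_prod, Fintype.card_fin, Fintype.card_coe, card_finsuppAntidiag_nat_eq_choose,
        card_univ, Fintype.card_fin, show r + 1 + n - 1 = n + r by omega, Nat.choose_symm_add,
        ← Nat.ascFactorial_eq_factorial_mul_choose]
      exact_mod_cast Nat.pow_succ_le_ascFactorial _ _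
    · rintro ⟨j, β, hβ⟩
      rw [coe_pf]
      refine mul_Bx ?_ (t_Bx j)
      have := prod_Bx (V := V) univ fun i : Fin (r + 1) => pow_Bx (es_Bx (r := r) i) (β i)
      rwa [(mem_finsuppAntidiag.1 hβ).1] at this
    · rintro ⟨j, β, hβ⟩
      refine Submodule.mem_iSup_of_mem j ⟨∏ i, xi v r i ^ β i, ?_⟩
      simp only [LinearMap.comp_apply, AlgHom.toLinearMap_apply, LinearMap.mulRight_apply, map_prod,
        map_pow, thA_xi, th, mul_pow, prod_mul_distrib, prod_pow_eq_pow_sum, coe_pf, ww,
        (mem_finsuppAntidiag.1 hβ).1]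
      ring
    · intro c hc
      let c' : Fin r ! → (Fin (r + 1) →₀ ℕ) → V := fun j β =>
        if h : β ∈ (univ : Finset (Fin (r + 1))).finsuppAntidiag n then c (j, ⟨β, h⟩) else 0
      have e1 : ∑ p : Fin r ! × (univ : Finset (Fin (r + 1))).finsuppAntidiag n,
          c p • ((pf V p.1 p.2.1 : MvPolynomial (Fin r) V) : LL V r) =
          (∑ j, ∑ d ∈ univ.finsuppAntidiag n, MvPolynomial.C (c' j d) * pf V j d :
            MvPolynomial (Fin r) V) := by
        rw [Fintype.sum_prod_type, ← MvPolynomial.coeToMvPowerSeries.ringHom_apply, map_sum]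
        refine sum_congr rfl fun j _ => ?_
        rw [map_sum, ← sum_coe_sort (univ.finsuppAntidiag n)]
        refine sum_congr rfl fun d _ => ?_
        simp only [c', dif_pos d.2, map_mul, MvPolynomial.coeToMvPowerSeries.ringHom_apply,
          MvPolynomial.coe_C, smul_eq_C_mul]
      have e2 := indep (k := ResidueField V) n (fun j d => residue V (c' j d)) (by
        have : MvPolynomial.map (residue V) (∑ j, ∑ d ∈ univ.finsuppAntidiag n,
            MvPolynomial.C (c' j d) * pf V j d) = 0 := by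
          ext e
          have := hc e
          rw [e1, MvPolynomial.coeff_coe] at this
          rw [MvPolynomial.coeff_map, MvPolynomial.coeff_zero, residue_eq_zero_iff, hv]
          exact Ideal.mem_span_singleton.2 this
        simpa only [map_sum, map_mul, MvPolynomial.map_C, pf, ee, map_prod, map_pow,
          MvPolynomial.map_esymm, MvPolynomial.map_monomial, map_one] using this)
      rintro ⟨j, β, hβ⟩
      have := e2 j β hβ
      simp only [c', dif_pos hβ] at this
      rw [residue_eq_zero_iff, hv] at this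
      exact Ideal.mem_span_singleton.1 this
  · simpa using level hv m (γ := Empty) (fun i => i.elim) (UU v r) (fun i => i.elim)
      (fun i => i.elim) fun _ _ i => i.elim

theorem sums (l b : ℕ) : ∑ m ∈ range b, (m + 1) ^ r ≤
    l * (b + 1) ^ r + ∑ m ∈ range b, if l ≤ m then (m - l + 1) ^ r else 0 := by
  have h : ∀ a c : ℕ, a + c ≤ b → c ≤ l → ∑ m ∈ range c, (a + m + 1) ^ r ≤ l * (b + 1) ^ r :=
    fun a c h1 h2 => by
    refine (sum_le_card_nsmul _ _ ((b + 1) ^ r) fun m hm => ?_).trans ?_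
    · exact Nat.pow_le_pow_left (by have := mem_range.1 hm; omega) _
    · rw [card_range, smul_eq_mul]
      exact Nat.mul_le_mul_right _ h2
  rcases le_total l b with c | c
  · obtain ⟨n, rfl⟩ := Nat.exists_eq_add_of_le c
    have e : (∑ m ∈ range (l + n), if l ≤ m then (m - l + 1) ^ r else 0) =
        ∑ m ∈ range n, (m + 1) ^ r := by
      rw [sum_range_add, sum_eq_zero fun m hm => if_neg (by have := mem_range.1 hm; omega),
        zero_add]
      exact sum_congr rfl fun m _ => by simp
    rw [e, add_comm l n, sum_range_add, add_comm]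
    exact Nat.add_le_add_right (by simpa [add_comm l n] using h n l (by omega) le_rfl) _
  · exact le_add_right (by simpa using h 0 b (by omega) c)

end SpM

open SpM in
theorem spStmt : SpStmt.{u} := by
  intro k _ r
  refine ⟨r * r !, fun V _ _ v n0 hv _ => ⟨ww v r, ww_mem, fun b => ?_⟩⟩
  have key : ∀ b : ℕ, rl (UU v r ⊔ Pv v (SB r b)) (Pv v (SB r 0)) +
      (∑ m ∈ range b, if r * r ! ≤ m then (m - r * r ! + 1) ^ r else 0 : ℕ) ≤
      (∑ m ∈ range b, (m + 1) ^ r : ℕ) := fun b => by
    induction b with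
    | zero => simp [rl_eq_zero]
    | succ b ih =>
      have h1 := rl_le_add (UU v r ⊔ Pv v (SB r (b + 1))) (UU v r ⊔ Pv v (SB r b)) (Pv v (SB r 0))
      have h2 : rl (UU v r ⊔ Pv v (SB r (b + 1))) (UU v r ⊔ Pv v (SB r b)) ≤
          rl (UU v r ⊔ Pv v (SB r (b + 1))) (Pv v (SB r b)) :=
        rl_mono le_rfl (sup_le_sup_right le_sup_left _)
      rw [sum_range_succ, sum_range_succ, Nat.cast_add, Nat.cast_add]
      refine le_trans ?_ (add_le_add ih (level' (r := r) hv.max b))
      refine (add_le_add (h1.trans (add_le_add h2 le_rfl)) le_rfl).trans (le_of_eq ?_)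
      abel
  have h := (key b).trans (Nat.cast_le.2 (sums (r * r !) b))
  rw [Nat.cast_add] at h
  exact (ENat.add_le_add_iff_right (ENat.natCast_ne_top _)).1 h

end Vale.Agent.P202.Mx
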