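import Vale.Agent.P202.M.Base

/-! Tameness of the strands over a chain ring. -/

open Finset Matrix MvPowerSeries Filter Topology IsLocalRing
open scoped Kronecker Nat

namespace Vale.Agent.P202.Mx

universe u

namespace TmM

theorem bc_pow {k E : Type*} [CommRing k] [AddCommGroup E] [Module k E] {D g : Module.End k E}
    (hc : Commute D g) {X X' : ℤ → Submodule k E} (h : Cx D g X) (h' : Cx D g X') (n : ℤ)
    (m : ℕ) {x : E} (hx : x ∈ Bc D X X' n) : (g ^ m) x ∈ Bc D X X' n := by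
  induction m with
  | zero => simpa using hx
  | succ m ih =>
    rw [pow_succ', Module.End.mul_apply]
    obtain ⟨a, ha, _, ⟨b, hb, rfl⟩, e⟩ := Submodule.mem_sup.1 ih
    rw [← e, map_add]
    refine Submodule.add_mem_sup (h'.g n a ha) ⟨g b, h.g _ b hb, ?_⟩
    exact LinearMap.congr_fun hc.eq b

end TmM

theorem tamStmt (hL : LatStmt.{u}) (hC : CbStmt.{u}) : TamStmt.{u} := by
  intro V _ _ v n0 r hch o s L κ ι _ _ Γ deg D far g
  obtain ⟨hs, hn0⟩ := far
  have com : Commute (DD D) (gg Γ) := DD_comm g.com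
  have lat : Lat (DD D) (gg Γ) := hL _ _ _ _ (DD_sq g.dd) com
  have cx : ∀ l, Slope v D l → Cx (DD D) (gg Γ) (XE v s L κ l deg) := fun l hl =>
    XF_cx g.toCpx _ hl
  have bd : ∀ l n, ((r + 1 : ℕ) : ℤ) < |n| → XE v s L κ l deg n = ⊥ := fun l n hn => by
    unfold XE XF; exact XS_bd g.le _ hn
  have gp : ∀ c l n, ∀ x ∈ XE v s L κ l deg n, (gg Γ ^ c) x ∈ XE v s L κ l deg n :=
    fun c l n x hx => gg_pow_mem_XF g.g0 g.ge c hx
  have z0 : ∀ l, Slope v D l → ∀ n, hh (DD D) (gg Γ) 0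
      (XF v (2 * L + s * (r + 1)) (nu s L κ) (L + s * (r + 1) + L) l deg)
      (XE v s L κ l deg) n = 0 := by
    intro l hl n
    refine nonpos_iff_eq_zero.1 (((hC V v n0 r hch ι deg D (gg Γ) _ _ _ _ g.gr g.dd
      (fun p => Om_mono (Nat.le_add_right _ _) le_rfl) (fun p => up_Om _ _ _ _)
      (fun p => up_Om _ _ _ _) (XF_cxD g.gr _ hl) (XF_cxD g.gr _ hl)).1 n).trans ?_)
    refine (sum_eq_zero fun i _ => ?_).le
    rw [Set.encard_eq_zero, Set.eq_empty_iff_forall_notMem]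
    rintro e ⟨h1, h2, h3⟩
    refine h2 ⟨h1.1, fun a => ?_⟩
    have := h3.1 a
    have := nu_bd s L hs κ a
    omega
  have ag : ∀ (l : ℕ → ℕ) (l'' : ℕ), Slope v D l → (∀ p, L ≤ l p) → (∀ p, l p ≤ l'') →
      l'' ≤ n0 → ∀ n, ∀ z ∈ XE v s L κ l deg n,
      DD D z ∈ XE v s L κ (fun _ => l'') deg (n - 1) →
      ∃ w ∈ XE v s L κ (fun p => l p - L) deg (n + 1),
        (gg Γ ^ (r + 1)) z - DD D w ∈ XE v s L κ (fun _ => l'' - L) deg n := by
    intro l l'' hl h1 h2 h3 n z hz hd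
    obtain ⟨w, hw, ht⟩ := g.gho _ _ _ l l'' hl.1 h1 h2 h3 (by omega) n z hz hd
    have hZ : (gg Γ ^ (r + 1)) z - DD D w ∈ Zc (DD D)
        (XF v (2 * L + s * (r + 1)) (nu s L κ) (L + s * (r + 1) + L) (fun _ => l'' - L) deg)
        (XE v s L κ (fun _ => l'' - L) deg) n := by
      refine ⟨ht, ?_⟩
      refine Submodule.mem_comap.2 ?_
      rw [map_sub, DD_DD g.dd, sub_zero, DD_gg_pow g.com]
      exact XE_mono (fun p => Nat.sub_le _ _) _ (gp _ _ _ _ hd)
    have := rl_eq_zero.1 (z0 _ (slope_const g.ent (l'' - L)) n) ⟨_, hZ, rfl⟩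
    obtain ⟨t', ht', _, ⟨w', hw', rfl⟩, e⟩ := Submodule.mem_sup.1 this
    have e' : (gg Γ ^ (r + 1)) z - DD D (w + w') = t' := by
      have : t' + DD D w' = (gg Γ ^ (r + 1)) z - DD D w := by simpa using e
      rw [map_add, ← sub_sub, ← this, add_sub_cancel_right]
    obtain ⟨w2, hw2, e2⟩ := lat.red _ _ n (z0 _ (hl.sub L) (n + 1)) (w + w')
      (add_mem hw (XF_mono le_rfl (fun p => Nat.sub_le_sub_right (h2 p) L) _ hw')) (by
        rw [show DD D (w + w') = (gg Γ ^ (r + 1)) z - t' by rw [← e']; abel]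
        exact sub_mem (XE_mono (fun p => Nat.sub_le _ _) _ (gp _ _ _ _ hz))
          (XE_mono (fun p => Nat.sub_le_sub_right (h2 p) L) _ ht'))
    exact ⟨w2, hw2, by rw [e2, e']; exact ht'⟩
  have cb : Cx (DD D) (gg Γ) (BT v n0 s L κ deg D) := by
    refine ⟨fun n x hx => ⟨hx.2, ?_⟩, fun n x hx => ⟨gg_mem_XF g.g0 g.ge hx.1, ?_⟩⟩
    · refine Submodule.mem_comap.2 ?_
      rw [DD_DD g.dd]; exact zero_mem _
    · refine Submodule.mem_comap.2 ?_
      rw [show DD D (gg Γ x) = gg Γ (DD D x) from LinearMap.congr_fun com.eq x]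
      exact gg_mem_XF g.g0 g.ge hx.2
  have bl : ∀ l : ℕ → ℕ, (∀ p, l p ≤ 2 * L + s * (r + 1)) →
      BT v n0 s L κ deg D ≤ XE v s L κ l deg := by
    intro l hl n x hx
    by_cases hn : ((r + 1 : ℕ) : ℤ) < |n|
    · have := hx.1
      rw [bd _ _ hn] at this
      rw [(Submodule.mem_bot V).1 this]; exact zero_mem _
    · refine XE_mono (fun p => ?_) n hx.1
      have h1 : jj r n ≤ 2 * r + 7 := by
        unfold jj
        rcases abs_cases n with c | c <;> omega
      have := Nat.mul_le_mul_right L h1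
      have := hl p
      have : (2 * r + 12) * L = (2 * r + 7) * L + 5 * L := by ring
      omega
  have gh : ∀ l, Slope v D l → (∀ p, L ≤ l p) → (∀ p, l p ≤ 2 * L + s * (r + 1)) → ∀ n,
      ∀ z ∈ Zc (DD D) (XE v s L κ l deg) (BT v n0 s L κ deg D) n, ∀ c, 2 * (r + 1) ≤ c →
      (gg Γ ^ c) z ∈ Bc (DD D) (XE v s L κ (fun p => l p - L) deg) (BT v n0 s L κ deg D) n := by
    rintro l hl h1 h2 n z ⟨hz, hu⟩ c hc
    by_cases hn : ((r + 1 : ℕ) : ℤ) < |n|
    · have hz' : z ∈ XE v s L κ l deg n := hz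
      rw [bd _ _ hn] at hz'
      rw [(Submodule.mem_bot V).1 hz', map_zero]; exact zero_mem _
    have hu1 : DD D z ∈ XE v s L κ (fun _ => n0 - jj r (n - 1) * L) deg (n - 1) := hu.1
    have j1 : jj r n = jj r (n - 1) + 1 := by
      unfold jj
      rcases abs_cases n with c | c <;> omega
    have j2 : 4 ≤ jj r (n - 1) ∧ jj r (n - 1) ≤ 2 * r + 6 := by
      unfold jj
      rcases abs_cases n with c | c <;> omega
    have j3 := Nat.mul_le_mul_right L j2.1
    have j4 := Nat.mul_le_mul_right L j2.2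
    have j5 : (2 * r + 12) * L = (2 * r + 6) * L + 6 * L := by ring
    have j6 : jj r n * L = jj r (n - 1) * L + L := by rw [j1]; ring
    obtain ⟨w1, hw1, ht1⟩ := ag _ n0 (slope_const g.ent (n0 - jj r (n - 1) * L))
      (fun p => by omega) (fun p => Nat.sub_le _ _) le_rfl (n - 1) _ hu1
      (by rw [DD_DD g.dd]; exact zero_mem _)
    rw [sub_add_cancel] at hw1
    have b1 : w1 ∈ BT v n0 s L κ deg D n := by
      refine ⟨XE_mono (fun p => by omega) n hw1, ?_⟩
      refine Submodule.mem_comap.2 ?_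
      rw [show DD D w1 = (gg Γ ^ (r + 1)) (DD D z) - ((gg Γ ^ (r + 1)) (DD D z) - DD D w1) by abel]
      exact sub_mem (gp _ _ _ _ hu1) (XE_mono (fun p => by omega) _ ht1)
    have e1 : DD D ((gg Γ ^ (r + 1)) z - w1) = (gg Γ ^ (r + 1)) (DD D z) - DD D w1 := by
      rw [map_sub, DD_gg_pow g.com]
    obtain ⟨w, hw, ht⟩ := ag l (n0 - L) hl h1 (fun p => by have := h2 p; omega) (Nat.sub_le _ _) n
      ((gg Γ ^ (r + 1)) z - w1) (sub_mem (gp _ _ _ _ hz) (bl l h2 n b1)) (by rw [e1]; exact ht1)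
    have b2 : (gg Γ ^ (r + 1)) ((gg Γ ^ (r + 1)) z - w1) - DD D w ∈ BT v n0 s L κ deg D n := by
      refine ⟨XE_mono (fun p => by omega) n ht, ?_⟩
      refine Submodule.mem_comap.2 ?_
      rw [map_sub, DD_DD g.dd, sub_zero, DD_gg_pow g.com, e1]
      exact XE_mono (fun p => by omega) _ (gp _ _ _ _ ht1)
    have b3 : (gg Γ ^ (r + 1)) w1 ∈ BT v n0 s L κ deg D n := by
      refine ⟨gp _ _ _ _ b1.1, ?_⟩
      refine Submodule.mem_comap.2 ?_
      rw [DD_gg_pow g.com]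
      exact gp _ _ _ _ b1.2
    obtain ⟨m, rfl⟩ := Nat.exists_eq_add_of_le' hc
    rw [pow_add, Module.End.mul_apply]
    refine TmM.bc_pow com (cx _ (hl.sub L)) cb n m ?_
    rw [two_mul, pow_add, Module.End.mul_apply, show (gg Γ ^ (r + 1)) ((gg Γ ^ (r + 1)) z) =
      ((gg Γ ^ (r + 1)) ((gg Γ ^ (r + 1)) z - w1) - DD D w + (gg Γ ^ (r + 1)) w1) + DD D w by
        rw [map_sub]; abel]
    exact Submodule.add_mem_sup (add_mem b2 b3) ⟨w, hw, rfl⟩
  have fn : ∀ l l' : ℕ → ℕ, (∀ p, l p ≤ l' p) → (∀ p, l' p ≤ 2 * L + s * (r + 1)) →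
      Fn (gg Γ) (tau r o s L) (XE v s L κ l deg) (XE v s L κ l' deg) := by
    intro l l' h1 h2
    refine g.sm _ _ _ l l' _ h1 (fun p => ?_) fun p a => ?_
    · have := h2 p
      have : (2 * r + 12) * L = (2 * r + 10) * L + 2 * L := by ring
      omega
    have := (nu_bd s L hs κ a).2
    have h3 : (l' p : ℤ) ≤ 2 * L + s * (r + 1) := by exact_mod_cast h2 p
    push_cast
    nlinarith [(by positivity : (0 : ℤ) ≤ L * r), (by positivity : (0 : ℤ) ≤ s * r)]
  refine ⟨lat, cx, bd, cb, bl, ag, gh, fn, fun l hl h c hc => ?_⟩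
  refine lat.up _ _ _ _ _ (cx _ hl) (cx _ (hl.add L)) cb
    (bl _ fun p => by have := h p; omega) (XE_mono fun p => Nat.le_add_right _ _)
    (fn _ _ (fun p => Nat.le_add_right _ _) fun p => by have := h p; omega) fun n z hz => ?_
  simpa using gh _ (hl.add L) (fun p => Nat.le_add_left _ _) (fun p => by have := h p; omega)
    n z hz c hc

end Vale.Agent.P202.Mx
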