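import Mathlib

/-! Flags of kernels modulo powers of a prime element. -/

open Finset Matrix

namespace Vale.Agent.P202.Mx

namespace Ta

section field
variable {K : Type*} [Field K]

theorem flag {M : Type*} [AddCommGroup M] [Module K M] [FiniteDimensional K M] [DecidableEq M] :
    ∀ (L : ℕ) (A : ℕ → Set M), (∀ t, A (t + 1) ⊆ A t) →
    ∃ (b : Finset M) (lev : M → ℕ), LinearIndepOn K id (b : Set M) ∧
      Submodule.span K (b : Set M) = Submodule.span K (A 0) ∧ (∀ y ∈ b, y ∈ A (lev y)) ∧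
      ∑ y ∈ b, lev y = ∑ t ∈ range L, Module.finrank K (Submodule.span K (A (t + 1))) := by
  have ext : ∀ (s : Finset M) (B : Set M), LinearIndepOn K id (s : Set M) → (s : Set M) ⊆ B →
      ∃ b : Finset M, (b : Set M) ⊆ B ∧ s ⊆ b ∧ LinearIndepOn K id (b : Set M) ∧
        Submodule.span K (b : Set M) = Submodule.span K B := by
    intro s B hs hB
    obtain ⟨b, b1, b2, b3, b4⟩ := exists_linearIndepOn_id_extension hs hB
    have hf : b.Finite := LinearIndependent.set_finite_of_isNoetherian b4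
    refine ⟨hf.toFinset, by simpa using b1, fun y hy => hf.mem_toFinset.2 (b2 hy),
      by simpa using b4, ?_⟩
    rw [hf.coe_toFinset]
    exact le_antisymm (Submodule.span_mono b1) (Submodule.span_le.2 b3)
  intro L
  induction L with
  | zero =>
    intro A _
    obtain ⟨b, b1, -, b3, b4⟩ := ext ∅ (A 0) (by simp) (by simp)
    exact ⟨b, fun _ => 0, b3, b4, fun y hy => b1 hy, by simp⟩
  | succ L ih =>
    intro A hA
    have hanti : Antitone A := antitone_nat_of_succ_le hA
    obtain ⟨s, lev, s1, s2, s3, s4⟩ := ih (fun t => A (t + 1)) (fun t => hA (t + 1))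
    obtain ⟨b, b1, b2, b3, b4⟩ := ext s (A 0) s1 (fun y hy => hanti (Nat.zero_le _) (s3 y hy))
    refine ⟨b, fun y => if y ∈ s then lev y + 1 else 0, b3, b4, fun y hy => ?_, ?_⟩
    · beta_reduce
      split_ifs with h
      · exact s3 y h
      · exact b1 hy
    · rw [← sum_filter, filter_mem_eq_inter, inter_eq_right.2 b2, sum_add_distrib, s4,
        sum_range_succ', ← s2, finrank_span_finset_eq_card s1]
      simp

theorem coords {κ : Type*} [Fintype κ] [DecidableEq κ] : ∀ (d : ℕ) (I : Submodule K (κ → K)),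
    Module.finrank K I ≤ d → ∃ C : Finset κ, C.card ≤ d ∧ ∀ y ∈ I, (∀ c ∈ C, y c = 0) → y = 0 := by
  intro d
  induction d with
  | zero =>
    intro I hI
    have : I = ⊥ := Submodule.finrank_eq_zero.1 (Nat.le_zero.1 hI)
    exact ⟨∅, le_rfl, fun y hy _ => by simpa [this] using hy⟩
  | succ d ih =>
    intro I hI
    by_cases h : I = ⊥
    · exact ⟨∅, by simp, fun y hy _ => by simpa [h] using hy⟩
    obtain ⟨y0, hy0, hne⟩ := Submodule.exists_mem_ne_zero_of_ne_bot h
    obtain ⟨c0, hc0⟩ := Function.ne_iff.1 hne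
    have hlt : I ⊓ LinearMap.ker (LinearMap.proj c0 : (κ → K) →ₗ[K] K) < I :=
      lt_of_le_of_ne inf_le_left fun e => hc0 (by
        have : y0 ∈ I ⊓ LinearMap.ker (LinearMap.proj c0 : (κ → K) →ₗ[K] K) := e.symm ▸ hy0
        exact this.2)
    obtain ⟨C, h1, h2⟩ := ih _ (Nat.lt_succ_iff.1
      ((Submodule.finrank_lt_finrank_of_lt hlt).trans_le hI))
    refine ⟨insert c0 C, (card_insert_le _ _).trans (by omega), fun y hy hz => ?_⟩
    exact h2 y ⟨hy, hz c0 (mem_insert_self _ _)⟩ fun c hc => hz c (mem_insert_of_mem hc)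

end field

variable {R K : Type*} [CommRing R] [IsDomain R] [Field K] {κ : Type*} [Fintype κ] [DecidableEq κ]

/-- reductions of the vectors killed modulo `π ^ t` -/
def AA (ρ : R →+* K) (π : R) (Γ : Matrix κ κ R) (t : ℕ) : Set (κ → K) :=
  {y | ∃ x : κ → R, (∀ i, π ^ t ∣ (Γ *ᵥ x) i) ∧ y = ρ ∘ x}

theorem sum_rank_le (ρ : R →+* K) (π : R) (hπ : π ≠ 0) (hρ : ∀ g, ρ g = 0 ↔ π ∣ g)
    (Γ : Matrix κ κ R) (o : ℕ) (ho : ¬ π ^ (o + 1) ∣ Γ.det) (L : ℕ) :
    ∑ t ∈ range L, Module.finrank K (Submodule.span K (AA ρ π Γ (t + 1))) ≤ o := by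
  classical
  have hp : Prime π := ⟨hπ, fun h => by simpa using (hρ 1).2 h.dvd, fun a b h => by
    rw [← hρ, map_mul, mul_eq_zero, hρ, hρ] at h; exact h⟩
  obtain ⟨b, lev, b1, b2, b3, b4⟩ := flag (K := K) L (AA ρ π Γ) fun t y ⟨x, hx, e⟩ =>
    ⟨x, fun i => (pow_dvd_pow π (Nat.le_succ t)).trans (hx i), e⟩
  have htop : Submodule.span K (AA ρ π Γ 0) = ⊤ := by
    refine eq_top_iff.2 ?_
    rw [← (Pi.basisFun K κ).span_eq]
    refine Submodule.span_mono ?_
    rintro _ ⟨i, rfl⟩
    refine ⟨Pi.single i 1, fun j => by simp, ?_⟩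
    ext j
    simp [Pi.single_apply, apply_ite ρ]
  have hc : Fintype.card κ = Fintype.card b := by
    rw [Fintype.card_coe, ← finrank_span_finset_eq_card b1, b2, htop]
    simp
  let e := Fintype.equivOfCardEq hc
  choose x hx1 hx2 using fun i : κ => b3 (e i) (e i).2
  choose z hz using hx1
  set X : Matrix κ κ R := Matrix.of fun i j => x j i with hX
  have hX1 : ¬ π ∣ X.det := by
    rw [← hρ, RingHom.map_det]
    have : LinearIndependent K (ρ.mapMatrix X).col := by
      have h1 : (ρ.mapMatrix X).col = (fun y : b => (y : κ → K)) ∘ e := by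
        ext j i
        simp [hX, hx2 j]
      rw [h1]
      exact LinearIndependent.comp b1 _ e.injective
    exact ((isUnit_iff_isUnit_det _).1 (linearIndependent_cols_iff_isUnit.1 this)).ne_zero
  have hX2 : Γ * X = Matrix.of (fun i j => z j i) * diagonal fun j => π ^ lev (e j) := by
    ext i j
    rw [mul_diagonal, of_apply, mul_comm, ← hz j i]
    rfl
  have h3 : π ^ (∑ y ∈ b, lev y) ∣ Γ.det * X.det := by
    rw [← det_mul, hX2, det_mul, det_diagonal, prod_pow_eq_pow_sum,
      e.sum_comp (fun y : b => lev y), sum_coe_sort b lev]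
    exact dvd_mul_left _ _
  have h4 := hp.pow_dvd_of_dvd_mul_right _ hX1 h3
  rw [← b4]
  by_contra hn
  exact ho ((pow_dvd_pow π (by omega)).trans h4)

end Ta

end Vale.Agent.P202.Mx
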