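import Vale.Agent.P202.M.Num
import Vale.Agent.P202.M.Tau1

/-! Mixed characteristic, module TA: small cokernels on windows. -/

open Finset Matrix MvPowerSeries Filter Topology IsLocalRing
open scoped Kronecker Nat

namespace Vale.Agent.P202.Mx

universe u

namespace Nz

open Ta

theorem C_dvd_iff {R σ : Type*} [CommRing R] (a : R) (g : MvPowerSeries σ R) :
    C a ∣ g ↔ ∀ e, a ∣ coeff e g := by
  refine ⟨fun ⟨c, hc⟩ e => ⟨coeff e c, by rw [hc, coeff_C_mul]⟩, fun h => ?_⟩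
  choose c hc using h
  let d : MvPowerSeries σ R := c
  refine ⟨d, MvPowerSeries.ext fun e => ?_⟩
  rw [coeff_C_mul, hc e]; rfl

theorem lift_dvd {W V : Type*} [CommRing W] [CommRing V] {w : W} {n0 : ℕ} {f : W →+* V}
    (hf : Function.Surjective f) (hk : RingHom.ker f = Ideal.span {w ^ n0}) {t : ℕ} (ht : t ≤ n0)
    {a : W} (h : f w ^ t ∣ f a) : w ^ t ∣ a := by
  obtain ⟨c, hc⟩ := h
  obtain ⟨c', rfl⟩ := hf c
  have h1 : a - w ^ t * c' ∈ RingHom.ker f := by simp [RingHom.mem_ker, hc]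
  rw [hk, Ideal.mem_span_singleton] at h1
  simpa using dvd_add ((pow_dvd_pow w ht).trans h1) (dvd_mul_right (w ^ t) c')

theorem exists_rho (W : Type u) [CommRing W] [IsDomain W] [IsDiscreteValuationRing W] {w : W}
    (hw : Irreducible w) (r : ℕ) : ∃ (K : Type u) (_ : Field K) (ρ : LL W r →+* K),
      ∀ g, ρ g = 0 ↔ C w ∣ g := by
  have : IsDomain (MvPowerSeries (Fin r) (ResidueField W)) := NoZeroDivisors.to_isDomain _
  refine ⟨FractionRing (MvPowerSeries (Fin r) (ResidueField W)), inferInstance,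
    (algebraMap (MvPowerSeries (Fin r) (ResidueField W)) _).comp
      (MvPowerSeries.map (residue W)), fun g => ?_⟩
  rw [RingHom.comp_apply, IsFractionRing.to_map_eq_zero_iff, C_dvd_iff, MvPowerSeries.ext_iff]
  refine forall_congr' fun e => ?_
  rw [coeff_map, map_zero, residue_eq_zero_iff, hw.maximalIdeal_eq, Ideal.mem_span_singleton]

section
variable {V : Type u} [CommRing V] {r : ℕ} {κ : Type} [Fintype κ] [DecidableEq κ]

/-- all coefficients are divisible by `v ^ j` -/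
noncomputable def Lev (v : V) (r : ℕ) (κ : Type) (j : ℕ) : Submodule V (κ → LL V r) :=
  Submodule.pi Set.univ fun _ => ⨅ e : Fin r →₀ ℕ, Submodule.comap (coeff e) (Ideal.span {v ^ j})

omit [Fintype κ] [DecidableEq κ] in
theorem mem_Lev {v : V} {j : ℕ} {x : κ → LL V r} :
    x ∈ Lev v r κ j ↔ ∀ c e, v ^ j ∣ coeff e (x c) := by
  simp [Lev, Submodule.mem_pi, Ideal.mem_span_singleton]

/-- the kernel -/
noncomputable def KK (v : V) (Γ : Matrix κ κ (LL V r)) (S S' : Set (Mon r)) :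
    Submodule V (κ → LL V r) :=
  (Submodule.pi Set.univ fun _ => Pv v S) ⊓
    (Submodule.pi Set.univ fun _ => Pv v S').comap (Γ.mulVecLin.restrictScalars V)

theorem mem_Pv_level {v : V} {S S' : Set (Mon r)} (hS : Up S) {a : ℕ}
    (hS' : ∀ e, e ∈ S' ↔ e ∈ S ∧ a ≤ e none) {g : LL V r} (hg : g ∈ Pv v S)
    (h : ∀ e, v ^ a ∣ coeff e g) : g ∈ Pv v S' := by
  refine mem_Pv.2 fun e' => (mem_Pv.1 hg e').imp_right ?_
  rintro ⟨e, h1, h2, h3⟩
  by_cases c : a ≤ e none
  · exact ⟨e, (hS' e).2 ⟨h1, c⟩, h2, h3⟩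
  · have h4 : (e.update none a).some = e.some := by ext b; simp
    refine ⟨e.update none a, (hS' _).2 ⟨up_le hS h1 h4.symm (by simp; omega), by simp⟩,
      h4.trans h2, by simpa using h e'⟩

theorem dvd_of_mem {v : V} {S : Set (Mon r)} {a : ℕ} (hS : ∀ e ∈ S, a ≤ e none) {g : LL V r}
    (hg : g ∈ Pv v S) (e' : Fin r →₀ ℕ) : v ^ a ∣ coeff e' g := by
  rcases mem_Pv.1 hg e' with h | ⟨e, h1, -, h3⟩
  · rw [h]; exact dvd_zero _
  · exact (pow_dvd_pow v (hS e h1)).trans h3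

end

variable {W V K : Type u} [CommRing W] [IsDomain W] [CommRing V] [IsLocalRing V] [Field K] {w : W}
  {n0 r : ℕ} {f : W →+* V} {κ : Type} [Fintype κ] [DecidableEq κ]

theorem tstep (hw : w ≠ 0) (hf : Function.Surjective f) (hk : RingHom.ker f = Ideal.span {w ^ n0})
    (h : Ch (f w) n0) (ρ : LL W r →+* K) (hρ : ∀ g, ρ g = 0 ↔ C w ∣ g) (Γ : Matrix κ κ (LL W r))
    {S S' : Set (Mon r)} {l' : ℕ} (hl' : l' ≤ n0) (hS' : ∀ e ∈ S', l' ≤ e none)
    (Bx : Finset (Fin r →₀ ℕ)) (hB : ∀ e ∈ S, e none < l' → e.some ∈ Bx) {m t : ℕ}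
    (hm : m + (t + 1) = l') :
    rl (KK (f w) (Γ.map (MvPowerSeries.map f)) S S' ⊓ Lev (f w) r κ (m + 1))
      (KK (f w) (Γ.map (MvPowerSeries.map f)) S S' ⊓ Lev (f w) r κ m) ≤
      ((Module.finrank K (Submodule.span K (AA ρ (C w) Γ (t + 1))) * Bx.card : ℕ) : ℕ∞) := by
  classical
  obtain ⟨Cc, c1, c2⟩ := coords _ (Submodule.span K (AA ρ (C w) Γ (t + 1))) le_rfl
  let F : (κ → LL V r) →ₗ[V] (Cc × Bx → V) :=
    LinearMap.pi fun p => coeff (R := V) p.2.1 ∘ₗ LinearMap.proj p.1.1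
  have h1 : rl (Submodule.pi Set.univ fun _ : Cc × Bx => Submodule.span V {f w ^ (m + 1)})
      (Submodule.pi Set.univ fun _ : Cc × Bx => Submodule.span V {f w ^ m}) ≤
      ((Module.finrank K (Submodule.span K (AA ρ (C w) Γ (t + 1))) * Bx.card : ℕ) : ℕ∞) := by
    rw [rl_pi]
    refine (sum_le_card_nsmul _ _ 1 fun p _ => rl_span_le h.max ?_).trans ?_
    · rw [smul_eq_mul, ← pow_succ']; exact Submodule.mem_span_singleton_self _
    · simp only [card_univ, Fintype.card_prod, Fintype.card_coe, nsmul_eq_mul, mul_one]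
      exact_mod_cast Nat.mul_le_mul_right _ c1
  refine le_trans (rl_le_of_comap F (fun x hx hF => ⟨hx.1, ?_⟩) fun x hx => ?_) h1
  · have hx2 := mem_Lev.1 hx.2
    have hex : ∀ c e, ∃ a : W, coeff e (x c) = f w ^ m * f a := fun c e => by
      obtain ⟨a, ha⟩ := hx2 c e
      obtain ⟨a', rfl⟩ := hf a
      exact ⟨a', ha⟩
    choose a ha using hex
    let y : κ → LL W r := fun c => a c
    have hy : ∀ c e, coeff e (y c) = a c e := fun _ _ => rfl
    have hxy : x = MvPowerSeries.map f ∘ ((C w : LL W r) ^ m • y) := by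
      funext c
      refine MvPowerSeries.ext fun e => ?_
      rw [Function.comp_apply, coeff_map, Pi.smul_apply, smul_eq_mul, ← map_pow, coeff_C_mul, hy,
        ha, map_mul, map_pow]
    have hCw : (C w : LL W r) ≠ 0 := fun e => hw (by simpa using congrArg constantCoeff e)
    have : IsDomain (LL W r) := NoZeroDivisors.to_isDomain _
    have hA : ρ ∘ y ∈ AA ρ (C w) Γ (t + 1) := by
      refine ⟨y, fun i => ?_, rfl⟩
      have h2 : (C w : LL W r) ^ l' ∣ (Γ *ᵥ ((C w : LL W r) ^ m • y)) i := by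
        rw [← map_pow, C_dvd_iff]
        intro e
        refine lift_dvd hf hk hl' ?_
        rw [← coeff_map, RingHom.map_mulVec, ← hxy]
        exact dvd_of_mem hS' (hx.1.2 i trivial) e
      rw [mulVec_smul, Pi.smul_apply, smul_eq_mul, ← hm, pow_add] at h2
      exact (mul_dvd_mul_iff_left (pow_ne_zero m hCw)).1 h2
    have hz : ρ ∘ y = 0 := by
      refine c2 _ (Submodule.subset_span hA) fun c hc => ?_
      rw [Function.comp_apply, hρ, C_dvd_iff]
      intro e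
      have h3 : f w ^ (m + 1) ∣ coeff e (x c) := by
        by_cases he : e ∈ Bx
        · exact Ideal.mem_span_singleton.1 (hF (⟨c, hc⟩, ⟨e, he⟩) trivial)
        · rcases mem_Pv.1 (hx.1.1 c trivial) e with h4 | ⟨d, d1, d2, d3⟩
          · rw [h4]; exact dvd_zero _
          · have : l' ≤ d none := not_lt.1 fun c' => he (d2 ▸ hB d d1 c')
            exact (pow_dvd_pow _ (by omega)).trans d3
      rw [ha, ← map_pow f w m, ← map_mul] at h3
      have h5 := lift_dvd hf hk (by omega) h3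
      rw [pow_succ] at h5
      exact (mul_dvd_mul_iff_left (pow_ne_zero m hw)).1 h5
    refine mem_Lev.2 fun c e => ?_
    have h6 := (C_dvd_iff _ _).1 ((hρ _).1 (congrFun hz c)) e
    rw [ha, pow_succ]
    exact mul_dvd_mul_left _ (map_dvd f h6)
  · exact Submodule.mem_sup_right fun p _ =>
      Ideal.mem_span_singleton.2 (mem_Lev.1 hx.2 p.1.1 p.2.1)

theorem comp_le (hw : w ≠ 0) (hf : Function.Surjective f)
    (hk : RingHom.ker f = Ideal.span {w ^ n0})
    (h : Ch (f w) n0) (ρ : LL W r →+* K) (hρ : ∀ g, ρ g = 0 ↔ C w ∣ g) (Γ : Matrix κ κ (LL W r))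
    {o : ℕ} (ho : ¬ C w ^ (o + 1) ∣ Γ.det) {S S' : Set (Mon r)} (hS : Up S) {l' : ℕ}
    (hl' : l' ≤ n0) (hS' : ∀ e, e ∈ S' ↔ e ∈ S ∧ l' ≤ e none)
    (Bx : Finset (Fin r →₀ ℕ)) (hB : ∀ e ∈ S, e none < l' → e.some ∈ Bx) :
    rl (Submodule.pi Set.univ fun _ => Pv (f w) S') (KK (f w) (Γ.map (MvPowerSeries.map f)) S S') ≤
      ((o * Bx.card : ℕ) : ℕ∞) := by
  set K0 := KK (f w) (Γ.map (MvPowerSeries.map f)) S S' with hK0
  have key : ∀ t m, m + t = l' → rl (K0 ⊓ Lev (f w) r κ l') (K0 ⊓ Lev (f w) r κ m) ≤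
      (((∑ s ∈ range t, Module.finrank K (Submodule.span K (AA ρ (C w) Γ (s + 1)))) * Bx.card : ℕ) :
        ℕ∞) := by
    intro t
    induction t with
    | zero =>
      intro m hm
      obtain rfl : m = l' := hm
      exact (rl_eq_zero.2 le_rfl).trans_le (zero_le)
    | succ t ih =>
      intro m hm
      refine (rl_le_add _ (K0 ⊓ Lev (f w) r κ (m + 1)) _).trans ?_
      rw [sum_range_succ, add_mul, Nat.cast_add]
      exact add_le_add (ih (m + 1) (by omega))
        (tstep hw hf hk h ρ hρ Γ hl' (fun e he => ((hS' e).1 he).2) Bx hB hm)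
  have hCw : (C w : LL W r) ≠ 0 := fun e => hw (by simpa using congrArg constantCoeff e)
  have : IsDomain (LL W r) := NoZeroDivisors.to_isDomain _
  refine le_trans (rl_mono (fun x hx c _ => ?_) fun x hx => ?_) ((key l' 0 (zero_add _)).trans ?_)
  · exact mem_Pv_level hS hS' (hx.1.1 c trivial) (mem_Lev.1 hx.2 c)
  · exact Submodule.mem_sup_right ⟨hx, mem_Lev.2 fun c e => by simp⟩
  · exact_mod_cast Nat.mul_le_mul_right _ (sum_rank_le ρ (C w) hCw hρ Γ o ho l')

omit [IsLocalRing V] [DecidableEq κ] in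
theorem gg_apply {ι : Type} [Fintype ι] [DecidableEq ι] (Γ : Matrix κ κ (LL V r))
    (x : (ι × κ) × FJ r → LL V r) (i : ι) (c : κ) (J : FJ r) :
    gg ((1 : Matrix ι ι (LL V r)) ⊗ₖ Γ) x ((i, c), J) = (Γ *ᵥ fun c' => x ((i, c'), J)) c := by
  simp [gg, LM, mulVec, dotProduct, Fintype.sum_prod_type, one_apply]

theorem tau0 : TauStmt.{u} := by
  intro W V _ _ _ _ _ w n0 r f hw hf hk h κ _ _ Γ o hΓ ho ι _ _ deg N0 ν N l l' b hl hl' hb n
  obtain ⟨K, _, ρ, hρ⟩ := exists_rho W hw r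
  have hfin : rl (XF (f w) N0 ν N l' (fun p : ι × κ => deg p.1) n)
      (XF (f w) N0 ν N l (fun p : ι × κ => deg p.1) n) ≠ ⊤ := by
    rw [Nz.rl_XF h _ N0 ν N hl hl']; exact ENat.natCast_ne_top _
  refine ⟨hfin, ?_⟩
  let S : (ℕ → ℕ) → ι × FJ r → Set (Mon r) := fun l q =>
    {e | (deg q.1 : ℤ) + r - q.2.card = n ∧ e ∈ Om N0 ν N (l (deg q.1)) ∩ cond N0 ν q.2}
  let Φ : ((ι × κ) × FJ r → LL V r) →ₗ[V] (ι × FJ r → κ → LL V r) :=
    LinearMap.pi fun q => LinearMap.pi fun c => LinearMap.proj ((q.1, c), q.2)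
  have hS : ∀ q e, e ∈ S l' q ↔ e ∈ S l q ∧ l' (deg q.1) ≤ e none := fun q e =>
    ⟨fun a => ⟨⟨a.1, Om_mono le_rfl (hl _) a.2.1, a.2.2⟩, a.2.1.1⟩,
      fun a => ⟨a.1.1, ⟨a.2, a.1.2.1.2⟩, a.1.2.2⟩⟩
  refine (coker_le _ (R := (Submodule.pi Set.univ fun q =>
    KK (f w) (Γ.map (MvPowerSeries.map f)) (S l q) (S l' q)).comap Φ) ?_ ?_ hfin ?_).trans ?_
  · exact fun x hx p _ => Pv_mono (fun e he => ((hS (p.1.1, p.2) e).1 he).1) (hx p trivial)
  · rintro x hx ⟨⟨i, c⟩, J⟩ -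
    rw [gg_apply]
    refine sum_mem fun c' _ => mul_mem_Pv (hΓ c c') (hx ((i, c'), J) trivial) fun a ha d hd => ?_
    exact ⟨hd.1, add_mem_Om ha hd.2.1 le_rfl, add_mem_cond ha hd.2.2⟩
  · intro x hx hg q _
    refine ⟨fun c _ => hx ((q.1, c), q.2) trivial, fun c _ => ?_⟩
    have := hg ((q.1, c), q.2) trivial
    rw [gg_apply] at this
    exact this
  · refine le_trans (rl_le_of_comap Φ (P' := Submodule.pi Set.univ fun q =>
      Submodule.pi Set.univ fun _ => Pv (f w) (S l' q)) (Q' := Submodule.pi Set.univ fun q =>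
        KK (f w) (Γ.map (MvPowerSeries.map f)) (S l q) (S l' q))
      (fun x _ hx (p : (ι × κ) × FJ r) _ => hx (p.1.1, p.2) trivial p.1.2 trivial)
      fun x hx => Submodule.mem_sup_right hx) ?_
    rw [rl_pi]
    let Bx : Finset (Fin r →₀ ℕ) := (Fintype.piFinset fun _ : Fin r => Ico (N0 - N) (N0 - N + b)).map
      Finsupp.equivFunOnFinite.symm.toEmbedding
    have hc : Bx.card = b ^ r := by simp [Bx, Fintype.card_piFinset]
    refine (sum_le_card_nsmul _ _ ((o * Bx.card : ℕ) : ℕ∞) fun q _ =>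
      comp_le hw.ne_zero hf hk h ρ hρ Γ ho (up_comp _ N0 ν N _ q.2) (hl' _) (hS q) Bx
        fun e he h6 => ?_).trans (le_of_eq ?_)
    · refine mem_map.2 ⟨fun a => e (some a), Fintype.mem_piFinset.2 fun a => mem_Ico.2 ?_, ?_⟩
      · have := he.2.1.2 a
        have := hb (deg q.1) a
        omega
      · ext a; simp
    · rw [hc, ← Nat.cast_smul_eq_nsmul ℕ∞, smul_eq_mul, ← Nat.cast_mul]
      congr 1
      simp only [card_univ, Fintype.card_prod, Fintype.card_finset, Fintype.card_fin,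
        Fintype.card_bool]
      rw [mul_comm r 2, pow_mul]
      ring

end Nz

theorem tauStmt : TauStmt.{u} := Nz.tau0

end Vale.Agent.P202.Mx
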