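import Vale.Agent.P202.M.SpecI

open Finset Matrix

namespace Vale.Agent.P202.Mx

universe u

namespace TWM

open Polynomial

section one

variable {B R : Type u} [CommRing B] [IsDomain B] [CommRing R] [IsDomain R] [Algebra B R]

/-- `θ` generates `R` up to denominators -/
def Prim (B : Type u) {R : Type u} [CommRing B] [CommRing R] [Algebra B R] (θ : R) : Prop :=
  ∀ r : R, ∃ (d : B) (q : B[X]), d ≠ 0 ∧ aeval θ q = algebraMap B R d * r

omit [IsDomain R] in
lemma Prim.mul {θ : R} (h : Prim B θ) {c : B} (hc : c ≠ 0) : Prim B (algebraMap B R c * θ) := by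
  intro r
  obtain ⟨d, q, hd, hq⟩ := h r
  refine ⟨c ^ q.natDegree * d, q.scaleRoots c, mul_ne_zero (pow_ne_zero _ hc) hd, ?_⟩
  rw [aeval_def, scaleRoots_eval₂_mul, ← aeval_def, hq, map_mul, map_pow, mul_assoc]

lemma exists_prim [CharZero B] [Module.Finite B R] (hi : Function.Injective (algebraMap B R)) :
    ∃ θ : R, Prim B θ := by
  have : FaithfulSMul B R := (faithfulSMul_iff_algebraMap_injective B R).2 hi
  let : Algebra (FractionRing B) (FractionRing R) := FractionRing.liftAlgebra B (FractionRing R)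
  have : IsScalarTower B (FractionRing B) (FractionRing R) :=
    FractionRing.isScalarTower_liftAlgebra B (FractionRing R)
  have : FiniteDimensional (FractionRing B) (FractionRing R) :=
    .of_isLocalization B R (nonZeroDivisors B)
  have : CharZero (FractionRing B) := IsFractionRing.charZero B
  obtain ⟨α, hα⟩ := Field.exists_primitive_element (FractionRing B) (FractionRing R)
  obtain ⟨⟨a, ⟨_, d, hd, rfl⟩⟩, h⟩ :=
    IsLocalization.surj (Algebra.algebraMapSubmonoid R (nonZeroDivisors B)) α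
  simp only at h
  refine ⟨a, fun r => ?_⟩
  have h1 : algebraMap R (FractionRing R) r ∈
      Algebra.adjoin (FractionRing B) {algebraMap R (FractionRing R) a} := by
    have h2 : algebraMap R (FractionRing R) r ∈ Algebra.adjoin (FractionRing B) {α} := by
      rw [← IntermediateField.adjoin_simple_toSubalgebra_of_isAlgebraic
        (Algebra.IsAlgebraic.isAlgebraic α), hα]
      trivial
    refine (Algebra.adjoin_le ?_ : Algebra.adjoin (FractionRing B) {α} ≤ _) h2
    rw [Set.singleton_subset_iff]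
    have h3 : algebraMap B (FractionRing B) d ≠ 0 :=
      IsFractionRing.to_map_ne_zero_of_mem_nonZeroDivisors hd
    have h4 : α = (algebraMap B (FractionRing B) d)⁻¹ • algebraMap R (FractionRing R) a := by
      rw [← h, ← IsScalarTower.algebraMap_apply B R (FractionRing R),
        IsScalarTower.algebraMap_apply B (FractionRing B) (FractionRing R), mul_comm,
        ← Algebra.smul_def, smul_smul, inv_mul_cancel₀ h3, one_smul]
    rw [h4]
    exact Subalgebra.smul_mem _ (Algebra.self_mem_adjoin_singleton _ _) _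
  obtain ⟨⟨t, ht⟩, h5⟩ := multiple_mem_adjoin_of_mem_localization_adjoin (nonZeroDivisors B)
    (FractionRing B) _ _ h1
  rw [Algebra.adjoin_singleton_eq_range_aeval] at h5
  obtain ⟨q, hq⟩ := h5
  refine ⟨t, q, nonZeroDivisors.ne_zero ht, IsFractionRing.injective R (FractionRing R) ?_⟩
  rw [← aeval_algebraMap_apply, map_mul, ← IsScalarTower.algebraMap_apply, ← Algebra.smul_def]
  exact hq

omit [IsDomain R] in
lemma Prim.common [Module.Finite B R] {θ : R} (h : Prim B θ) :
    ∃ d : B, d ≠ 0 ∧ ∀ r : R, ∃ q : B[X], aeval θ q = algebraMap B R d * r := by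
  classical
  choose d q hd hq using h
  obtain ⟨s, hs⟩ := Module.Finite.fg_top (R := B) (M := R)
  refine ⟨∏ r ∈ s, d r, prod_ne_zero_iff.2 fun r _ => hd r, fun r => ?_⟩
  have hr : r ∈ Submodule.span B (s : Set R) := hs ▸ Submodule.mem_top
  induction hr using Submodule.span_induction with
  | mem x hx =>
    refine ⟨C (∏ r ∈ s.erase x, d r) * q x, ?_⟩
    rw [map_mul, aeval_C, hq, ← mul_assoc, ← map_mul, prod_erase_mul _ _ hx]
  | zero => exact ⟨0, by simp⟩
  | add x y _ _ hx hy =>
    obtain ⟨a, ha⟩ := hx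
    obtain ⟨b, hb⟩ := hy
    exact ⟨a + b, by rw [map_add, ha, hb, mul_add]⟩
  | smul c x _ hx =>
    obtain ⟨a, ha⟩ := hx
    exact ⟨C c * a, by rw [map_mul, aeval_C, ha, Algebra.smul_def]; ring⟩

lemma der_ne [CharZero B] {θ : R} {g : B[X]} (hg : g.Monic) (h0 : aeval θ g = 0)
    (hk : ∀ q : B[X], aeval θ q = 0 → g ∣ q) : aeval θ (derivative g) ≠ 0 := by
  intro h
  have h1 : g.natDegree ≠ 0 := by
    intro h2
    rw [hg.natDegree_eq_zero.1 h2, map_one] at h0
    exact one_ne_zero h0
  have h3 : derivative g ≠ 0 := fun h4 => h1 (derivative_eq_zero.1 h4)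
  exact hg.not_dvd_of_natDegree_lt h3 (natDegree_derivative_lt h1) (hk _ h)

omit [IsDomain R] in
lemma exists_monic [Module.Finite B R] (hi : Function.Injective (algebraMap B R)) (θ : R) :
    ∃ (c : B) (g : B[X]), c ≠ 0 ∧ g.Monic ∧ aeval (algebraMap B R c * θ) g = 0 ∧
      ∀ q : B[X], aeval (algebraMap B R c * θ) q = 0 → g ∣ q := by
  classical
  have hex : ∃ n, ∃ p : B[X], p ≠ 0 ∧ aeval θ p = 0 ∧ p.natDegree = n := by
    obtain ⟨p, hp, h⟩ := (Algebra.IsIntegral.isIntegral (R := B) θ).isAlgebraic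
    exact ⟨_, p, hp, h, rfl⟩
  obtain ⟨p, hp, h0, hn⟩ := Nat.find_spec hex
  have hmin : ∀ q : B[X], q ≠ 0 → aeval θ q = 0 → p.natDegree ≤ q.natDegree := fun q hq h =>
    hn ▸ Nat.find_min' hex ⟨q, hq, h, rfl⟩
  have hc : p.leadingCoeff ≠ 0 := leadingCoeff_ne_zero.2 hp
  have hg := monic_integralNormalization hp
  have hz := integralNormalization_aeval_eq_zero h0 (fun x hx => hi (hx.trans (map_zero _).symm))
  refine ⟨p.leadingCoeff, p.integralNormalization, hc, hg, hz, fun q hq => ?_⟩
  rw [← modByMonic_eq_zero_iff_dvd hg]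
  by_contra hr
  set r := q %ₘ p.integralNormalization with hr'
  have h1 : aeval (algebraMap B R p.leadingCoeff * θ) r = 0 := by
    rw [hr', modByMonic_eq_sub_mul_div, map_sub, map_mul, hq, hz, zero_mul, sub_zero]
  have h2 : r.natDegree < p.natDegree := by
    have := natDegree_lt_natDegree hr (degree_modByMonic_lt q hg)
    rwa [natDegree_integralNormalization] at this
  have h3 : (C p.leadingCoeff * X : B[X]).natDegree = 1 := natDegree_C_mul_X _ hc
  have h4 : (r.comp (C p.leadingCoeff * X)).natDegree = r.natDegree := by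
    rw [natDegree_comp, h3, mul_one]
  have h5 : r.comp (C p.leadingCoeff * X) ≠ 0 := by
    intro h
    rw [comp_eq_zero_iff] at h
    rcases h with h | ⟨-, h⟩
    · exact hr h
    · rw [h, natDegree_C] at h3
      exact zero_ne_one h3
  have h6 := hmin _ h5 (by rw [aeval_comp, map_mul, aeval_C, aeval_X, h1])
  omega

lemma one [CharZero B] [Module.Finite B R] (hi : Function.Injective (algebraMap B R)) {π : B}
    (hπ : π ≠ 0) : ∃ (θ : R) (g : B[X]) (d : B), algebraMap B R π ∣ θ ∧ g.Monic ∧ aeval θ g = 0 ∧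
      (∀ q : B[X], aeval θ q = 0 → g ∣ q) ∧ aeval θ (derivative g) ≠ 0 ∧ d ≠ 0 ∧
      ∀ r : R, ∃ q : B[X], aeval θ q = algebraMap B R d * r := by
  obtain ⟨θ, hθ⟩ := exists_prim hi
  obtain ⟨c, g, hc, hg, h0, hk⟩ := exists_monic hi (algebraMap B R π * θ)
  obtain ⟨d, hd, h⟩ := ((hθ.mul hπ).mul hc).common
  exact ⟨_, g, d, (dvd_mul_right _ _).mul_left _, hg, h0, hk, der_ne hg h0 hk, hd, h⟩

end one

section two

variable {A : Type u} [CommRing A]

/-- bivariate polynomials as polynomials in two variables -/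
noncomputable def ψ (A : Type u) [CommRing A] : A[X][X] →+* MvPolynomial (Fin 2) A :=
  eval₂RingHom (aeval (MvPolynomial.X 0) : A[X] →ₐ[A] MvPolynomial (Fin 2) A) (MvPolynomial.X 1)

lemma ψ_C (a : A[X]) : ψ A (C a) = aeval (MvPolynomial.X 0) a := by simp [ψ]

lemma ψ_X : ψ A X = MvPolynomial.X 1 := by simp [ψ]

lemma ψ_surj : Function.Surjective (ψ A) := by
  intro m
  induction m using MvPolynomial.induction_on with
  | C a => exact ⟨C (C a), by rw [ψ_C, aeval_C]; rfl⟩
  | add p q hp hq =>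
    obtain ⟨a, rfl⟩ := hp
    obtain ⟨b, rfl⟩ := hq
    exact ⟨a + b, map_add _ _ _⟩
  | mul_X p i hp =>
    obtain ⟨a, rfl⟩ := hp
    fin_cases i
    · exact ⟨a * C X, by rw [map_mul, ψ_C, aeval_X]; rfl⟩
    · exact ⟨a * X, by rw [map_mul, ψ_X]; rfl⟩

lemma pd0 (a : A[X]) : MvPolynomial.pderiv 0 (ψ A (C a)) = ψ A (C (derivative a)) := by
  rw [ψ_C, ψ_C, Derivation.comp_aeval_eq]
  simp

lemma pd1 (a : A[X]) : MvPolynomial.pderiv 1 (ψ A (C a)) = 0 := by
  rw [ψ_C, Derivation.comp_aeval_eq]
  simp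

lemma pd1' (h : A[X][X]) : MvPolynomial.pderiv 1 (ψ A h) = ψ A (derivative h) := by
  induction h using Polynomial.induction_on' with
  | add p q hp hq => rw [map_add, map_add, hp, hq, derivative_add, map_add]
  | monomial n a =>
    rw [← C_mul_X_pow_eq_monomial, derivative_C_mul, map_mul (ψ A), map_mul (ψ A),
      Derivation.leibniz, pd1, map_pow (ψ A), ψ_X, derivative_X_pow, Derivation.leibniz_pow,
      map_mul (ψ A), map_pow (ψ A), ψ_X]
    simp

lemma ev_ψ {B R : Type u} [CommRing B] [CommRing R] [Algebra A R] [Algebra B R] (x θ : R)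
    (ρ : A[X] →+* B) (hρ : ∀ a, algebraMap B R (ρ a) = aeval x a) (h : A[X][X]) :
    MvPolynomial.aeval ![x, θ] (ψ A h) = aeval θ (h.map ρ) := by
  induction h using Polynomial.induction_on' with
  | add p q hp hq => rw [map_add, map_add, hp, hq, Polynomial.map_add, map_add]
  | monomial n a =>
    rw [← C_mul_X_pow_eq_monomial, Polynomial.map_mul, Polynomial.map_pow, map_C, map_X, map_mul,
      map_mul, map_mul, map_pow, map_pow, map_pow, ψ_X, ψ_C, aeval_C, aeval_X, hρ,
      ← aeval_algHom_apply]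
    simp

end two

end TWM

open TWM Polynomial in
theorem twMStmt : TwMStmt.{u} := by
  intro A R _ _ _ _ _ _ _ _ x π0 hi hπ
  have : FaithfulSMul A R := (faithfulSMul_iff_algebraMap_injective A R).2 hi
  have hx : IsIntegral A x := Algebra.IsIntegral.isIntegral x
  let B : Subalgebra A R := (aeval x : A[X] →ₐ[A] R).range
  let ρ : A[X] →+* B := (aeval x : A[X] →ₐ[A] R).rangeRestrict
  have hρ : ∀ a, algebraMap B R (ρ a) = aeval x a := fun _ => rfl
  have hs : Function.Surjective ρ := (aeval x : A[X] →ₐ[A] R).rangeRestrict_surjective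
  have hiB : Function.Injective (algebraMap B R) := Subtype.val_injective
  have hiA : Function.Injective (algebraMap A B) := fun a b h => hi (by
    rw [IsScalarTower.algebraMap_apply A B R, h, ← IsScalarTower.algebraMap_apply])
  have : CharZero B := charZero_of_injective_algebraMap hiA
  have : Module.Finite B R := Module.Finite.of_restrictScalars_finite A B R
  have hπB : algebraMap A B π0 ≠ 0 := fun h => hπ (hiA (h.trans (map_zero _).symm))
  obtain ⟨θ, g, d, h1, hg, h0, hk, hd1, hd, hq⟩ := one hiB hπB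
  obtain ⟨G, hG, -, -⟩ := lifts_and_natDegree_eq_and_monic (f := ρ)
    ((mem_lifts _).2 (map_surjective ρ hs g)) hg
  have hf : ∀ q : A[X], aeval x q = 0 → minpoly A x ∣ q := fun q h =>
    minpoly.isIntegrallyClosed_dvd hx h
  have hdi : IsIntegral A d := (isIntegral_algHom_iff B.val hiB).1 (Algebra.IsIntegral.isIntegral _)
  obtain ⟨δ, hδ, c, hc⟩ := hdi.isAlgebraic.exists_nonzero_dvd (mem_nonZeroDivisors_of_ne_zero hd)
  have ev := ev_ψ x θ ρ hρ
  refine ⟨θ, ![ψ A (C (minpoly A x)), ψ A G], δ, hδ, ?_, ?_, ?_, fun b => ?_⟩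
  · rwa [← IsScalarTower.algebraMap_apply] at h1
  · apply le_antisymm
    · intro m hm
      obtain ⟨h, rfl⟩ := ψ_surj m
      rw [RingHom.mem_ker, ev] at hm
      obtain ⟨q, hq'⟩ := hk _ hm
      obtain ⟨Q, rfl⟩ := map_surjective ρ hs q
      have h2 : C (minpoly A x) ∣ h - G * Q := by
        rw [Polynomial.C_dvd_iff_dvd_coeff]
        intro i
        apply hf
        rw [← hρ, ← Polynomial.coeff_map, Polynomial.map_sub, Polynomial.map_mul, hG, hq', sub_self,
          coeff_zero, map_zero]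
      obtain ⟨U, hU⟩ := h2
      rw [sub_eq_iff_eq_add.1 hU, map_add, map_mul, map_mul]
      exact add_mem (Ideal.mul_mem_right _ _ (Ideal.subset_span ⟨0, rfl⟩))
        (Ideal.mul_mem_right _ _ (Ideal.subset_span ⟨1, rfl⟩))
    · rw [Ideal.span_le]
      rintro _ ⟨i, rfl⟩
      rw [SetLike.mem_coe, RingHom.mem_ker]
      fin_cases i
      · change MvPolynomial.aeval ![x, θ] (ψ A (C (minpoly A x))) = 0
        rw [ev, map_C, aeval_C, hρ, minpoly.aeval]
      · change MvPolynomial.aeval ![x, θ] (ψ A G) = 0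
        rw [ev, hG, h0]
  · rw [jac, det_fin_two]
    simp only [of_apply, cons_val_zero, cons_val_one]
    rw [pd0, pd1, pd1', ev, ev, map_zero, zero_mul, sub_zero, map_C, aeval_C, hρ,
      ← derivative_map, hG]
    exact mul_ne_zero (der_ne (minpoly.monic hx) (minpoly.aeval A x) hf) hd1
  · obtain ⟨q, hq'⟩ := hq b
    obtain ⟨Q, hQ⟩ := map_surjective ρ hs (C c * q)
    refine ⟨ψ A Q, ?_⟩
    rw [ev, hQ, map_mul, aeval_C, hq', IsScalarTower.algebraMap_apply A B R, hc, map_mul]
    ring

end Vale.Agent.P202.Mx
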