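import Vale.Agent.P202.M.SpecI
import Vale.Agent.P202.M.Base
import Vale.Agent.P202.M.Lat

/-! The upper bound for the length of `M / (J, y ^ t) M`. -/

open Finset Filter Topology IsLocalRing

namespace Vale.Agent.P202.Mx

universe u

namespace Ubm

variable {A : Type u} [CommRing A] {E E' : Type u} [AddCommGroup E] [Module A E]
  [AddCommGroup E'] [Module A E']

theorem sm_map (f : E →ₗ[A] E') (I : Ideal A) {x : E} (hx : x ∈ (I • ⊤ : Submodule A E)) :
    f x ∈ (I • ⊤ : Submodule A E') := Submodule.smul_top_le_comap_smul_top I f hx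

theorem mem_pi {n : ℕ} {I : Ideal A} {x : Fin n → E} (hx : ∀ i, x i ∈ (I • ⊤ : Submodule A E)) :
    x ∈ (I • ⊤ : Submodule A (Fin n → E)) := by
  rw [← univ_sum_single x]
  exact Submodule.sum_mem _ fun i _ => sm_map (LinearMap.single A (fun _ => E) i) I (hx i)

theorem rl_pi (n : ℕ) (I : Ideal A) :
    rl (I • ⊤ : Submodule A (Fin n → A)) ⊤ = n * ln I := by
  have : (I • ⊤ : Submodule A (Fin n → A)) = Submodule.pi Set.univ fun _ => I := by
    refine le_antisymm (fun x hx i _ => ?_) fun x hx => mem_pi fun i => ?_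
    · simpa using sm_map (LinearMap.proj i : (Fin n → A) →ₗ[A] A) I hx
    · simpa using hx i trivial
  rw [this, rl_top, (Submodule.quotientPi _).length_eq, Module.length_pi_of_fintype]
  simp [ln]

theorem rl_free [Nontrivial A] [Module.Free A E] [Module.Finite A E] (I : Ideal A) :
    rl (I • ⊤ : Submodule A E) ⊤ = Module.finrank A E * ln I := by
  rw [← rl_pi]
  let e := (Module.finBasis A E).equivFun
  exact le_antisymm (rl_le_of_map e.symm.toLinearMap (fun _ => sm_map _ _) (by simp))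
    (rl_le_of_map e.toLinearMap (fun _ => sm_map _ _) (by simp))

theorem rl_fg {Q : Submodule A E} (hQ : Q.FG) : ∃ G : ℕ, ∀ (I : Ideal A) (P : Submodule A E),
    I • Q ≤ P → rl P Q ≤ G * ln I := by
  obtain ⟨G, s, hs⟩ := Submodule.fg_iff_exists_fin_generating_family.1 hQ
  refine ⟨G, fun I P h => ?_⟩
  rw [← rl_pi]
  have e : (⊤ : Submodule A (Fin G → A)).map (Fintype.linearCombination A s) = Q := by
    rw [Submodule.map_top, Fintype.range_linearCombination, hs]
  refine rl_le_of_map (Fintype.linearCombination A s) (fun x hx => h ?_) (e ▸ le_sup_right)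
  rw [← e, ← Submodule.map_smul'']
  exact ⟨x, hx, rfl⟩

theorem lmq (N : Submodule A E) (I : Ideal A) : lm (E ⧸ N) I = rl (I • ⊤ ⊔ N) ⊤ := by
  rw [lm, ← rl_top, ← N.range_mkQ, ← Submodule.map_top N.mkQ, Ltm.rl_map, Submodule.map_top,
    N.range_mkQ, Submodule.comap_smul_top_of_surjective _ _ N.mkQ_surjective, N.ker_mkQ]

theorem lnq (𝔞 I : Ideal A) : ln (I.map (Ideal.Quotient.mk 𝔞)) = ln (𝔞 ⊔ I) := by
  rw [ln, ln, ← Module.length_eq_of_surjective (S := A) Ideal.Quotient.mk_surjective]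
  exact (DoubleQuot.quotQuotEquivQuotSupₐ A 𝔞 I).toLinearEquiv.length_eq

theorem bx_map {B : Type u} [CommRing B] (f : A →+* B) {d : ℕ} (y : Fin d → A) (t : ℕ) :
    bx (fun l => f (y l)) t = (bx y t).map f := by
  rw [bx, bx, Ideal.map_span, ← Set.range_comp]
  simp [Function.comp_def]

variable {T' M : Type u} [CommRing T'] [Algebra A T'] [AddCommGroup M] [Module T' M] [Module A M]
  [IsScalarTower A T' M]

theorem mem_sm {I : Ideal A} {b : T'} (hb : b ∈ I.map (algebraMap A T')) (w : M) :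
    b • w ∈ (I • ⊤ : Submodule A M) := by
  have := Submodule.smul_mem_smul hb (Submodule.mem_top (x := w))
  rwa [← Submodule.restrictScalars_mem A, Ideal.smul_restrictScalars] at this

/-- multiplication by an element of `T'` -/
def ml (A : Type u) [CommRing A] [Algebra A T'] (M : Type u) [AddCommGroup M] [Module T' M]
    [Module A M] [IsScalarTower A T' M] (ε : T') : M →ₗ[A] M :=
  (LinearMap.lsmul T' M ε).restrictScalars A

theorem ml_apply (ε : T') (w : M) : ml A M ε w = ε • w := rfl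

variable {J : Ideal T'} {ε : T'} {Δ : A}
  (h1 : ∀ z ∈ J, ε * z ∈ (J.comap (algebraMap A T')).map (algebraMap A T'))
  (h2 : ε - algebraMap A T' Δ ∈ J)
include h1 h2

theorem upper [Nontrivial A] [Module.Free A M] [Module.Finite A M] (I : Ideal A)
    (hf : ln (J.comap (algebraMap A T') ⊔ I) ≠ ⊤) :
    Module.length A (M ⧸ ((J ⊔ I.map (algebraMap A T')) • ⊤ : Submodule T' M)) +
      rl ((J.comap (algebraMap A T') ⊔ I) • ⊤ ⊔ LinearMap.range (ml A M ε)) ⊤ ≤
      Module.finrank A M * (ln (J.comap (algebraMap A T') ⊔ I) +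
        ln (J.comap (algebraMap A T') ⊔ I ⊔ Ideal.span {Δ})) := by
  rw [cl_eq]
  set I' := J.comap (algebraMap A T') ⊔ I with hI'
  set P := ((J ⊔ I.map (algebraMap A T')) • ⊤ : Submodule T' M).restrictScalars A with hP
  have hI : I'.map (algebraMap A T') ≤ J ⊔ I.map (algebraMap A T') := by
    rw [hI', Ideal.map_sup]; exact sup_le_sup_right Ideal.map_comap_le _
  have p1 : (I' • ⊤ : Submodule A M) ≤ P := Submodule.smul_le.2 fun a ha w _ => by
    rw [← algebraMap_smul T' a w, hP, Submodule.restrictScalars_mem]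
    exact Submodule.smul_mem_smul (hI (Ideal.mem_map_of_mem _ ha)) Submodule.mem_top
  have p2 : P ≤ (I' • ⊤ : Submodule A M).comap (ml A M ε) := fun w hw => by
    rw [hP, Submodule.restrictScalars_mem] at hw
    rw [Submodule.mem_comap, ml_apply]
    refine Submodule.smul_induction_on (p := fun w => ε • w ∈ (I' • ⊤ : Submodule A M)) hw
      (fun b hb w _ => ?_) fun x y hx hy => by rw [smul_add]; exact add_mem hx hy
    obtain ⟨z, hz, z', hz', rfl⟩ := Submodule.mem_sup.1 hb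
    rw [smul_smul, mul_add]
    exact mem_sm (add_mem (Ideal.map_mono le_sup_left (h1 z hz))
      (Ideal.mul_mem_left _ _ (Ideal.map_mono le_sup_right hz'))) w
  have p3 : (I' • ⊤ : Submodule A M).comap (ml A M ε) ≤ ⊤ ⊓ P.comap (LinearMap.lsmul A M Δ) :=
    fun w hw => by
    refine ⟨trivial, ?_⟩
    have : Δ • w = ε • w - (ε - algebraMap A T' Δ) • w := by simp [sub_smul]
    rw [SetLike.mem_coe, Submodule.mem_comap, LinearMap.lsmul_apply, this]
    rw [Submodule.mem_comap, ml_apply] at hw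
    refine sub_mem (p1 hw) ?_
    rw [hP, Submodule.restrictScalars_mem]
    exact Submodule.smul_mem_smul (Submodule.mem_sup_left h2) Submodule.mem_top
  clear_value P
  have f1 := rl_free (E := M) I'
  have f2 := rl_free (E := M) (I' ⊔ Ideal.span {Δ})
  have g1 : rl (I' • ⊤ : Submodule A M) ⊤ ≠ ⊤ := f1 ▸ WithTop.mul_ne_top (ENat.natCast_ne_top _) hf
  have g2 : rl P ⊤ ≠ ⊤ := ne_top_of_le_ne_top g1 (rl_mono p1 le_sup_right)
  have g3 : rl (P ⊔ (⊤ : Submodule A M).map (LinearMap.lsmul A M Δ)) ⊤ ≤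
      rl ((I' ⊔ Ideal.span {Δ}) • ⊤ : Submodule A M) ⊤ := by
    refine rl_mono ?_ le_sup_right
    rw [Submodule.sup_smul]
    refine sup_le_sup p1 (Submodule.smul_le.2 fun a ha w _ => ?_)
    obtain ⟨c, rfl⟩ := Ideal.mem_span_singleton'.1 ha
    exact ⟨c • w, trivial, by simp [smul_smul, mul_comm]⟩
  have g4 : rl ((I' ⊔ Ideal.span {Δ}) • ⊤ : Submodule A M) ⊤ ≠ ⊤ :=
    ne_top_of_le_ne_top g1 (rl_mono (Submodule.smul_mono_left le_sup_left) le_sup_right)
  obtain ⟨τ, hτ⟩ := ENat.ne_top_iff_exists.1 g4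
  have g5 := (Ltm.T_ker (g := LinearMap.lsmul A M Δ) (fun w hw => P.smul_mem Δ hw) g2).1
    ((Ltm.T_cok le_top g2).2 (g3.trans hτ.ge))
  have a1 := rl_add p2 le_top
  have a2 := Ltm.rl_add (le_sup_left : (I' • ⊤ : Submodule A M) ≤ _ ⊔ LinearMap.range (ml A M ε)) ⊤
  have a3 : rl ((I' • ⊤ : Submodule A M).comap (ml A M ε)) ⊤ ≤
      rl (I' • ⊤ : Submodule A M) (⊤ ⊓ (I' • ⊤ ⊔ LinearMap.range (ml A M ε))) := by
    rw [← Ltm.rl_map]
    exact rl_mono le_rfl (by simp)
  rw [mul_add, ← f1, ← f2, a1, a2, ← hτ]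
  calc _ ≤ τ + rl (I' • ⊤ : Submodule A M) (⊤ ⊓ (I' • ⊤ ⊔ LinearMap.range (ml A M ε))) + _ :=
        add_le_add_left (add_le_add ((rl_mono le_rfl (p3.trans le_sup_right)).trans g5) a3) _
    _ = _ := by ring

theorem lower [Nontrivial A] [IsNoetherianRing A] [Module.Free A T'] [Module.Finite A T'] {μ a : ℕ}
    {π0 : A} (g : M →ₗ[T'] (Fin μ → T')) (hg : ∀ z, ∃ w, g w = algebraMap A T' π0 ^ a • z)
    (h3 : ∀ b, ∃ a, b - algebraMap A T' a ∈ J) : ∃ G : ℕ, ∀ I : Ideal A,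
    (μ * Module.finrank A T' : ℕ) * ln (J.comap (algebraMap A T') ⊔ I) ≤
      rl ((J.comap (algebraMap A T') ⊔ I) • ⊤ ⊔ LinearMap.range (ml A M ε)) ⊤ +
      G * ln (J.comap (algebraMap A T') ⊔ I ⊔ Ideal.span {π0 ^ a * Δ}) +
      μ * ln (J.comap (algebraMap A T') ⊔ I) := by
  let Q : Submodule A (Fin μ → T') := Submodule.pi Set.univ fun _ => J.restrictScalars A
  obtain ⟨G, hG⟩ := rl_fg (IsNoetherian.noetherian Q)
  refine ⟨G, fun I => ?_⟩
  set I' := J.comap (algebraMap A T') ⊔ I with hI'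
  have hd : algebraMap A T' Δ - ε ∈ J := by simpa using neg_mem h2
  have he : ∀ z ∈ Q, ε • z ∈ (I' • ⊤ : Submodule A (Fin μ → T')) := fun z hz =>
    mem_pi fun i => by
      simpa using mem_sm (M := T') (Ideal.map_mono le_sup_left (h1 _ (hz i trivial))) 1
  let h : M →ₗ[A] (Fin μ → T') := ((algebraMap A T' Δ - ε) • g).restrictScalars A
  have f1 := rl_free (E := Fin μ → T') I'
  rw [Module.finrank_pi_fintype, sum_const, card_univ, Fintype.card_fin, smul_eq_mul] at f1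
  rw [← f1]
  refine (rl_le_add _ (I' • ⊤ ⊔ LinearMap.range h ⊔ Q) _).trans (add_le_add
    ((rl_le_add _ (I' • ⊤ ⊔ LinearMap.range h) _).trans (add_le_add ?_ ?_)) ?_)
  · refine rl_le_of_map h (fun x hx => ?_) (by simp)
    obtain ⟨x', hx', _, ⟨w, rfl⟩, rfl⟩ := Submodule.mem_sup.1 hx
    rw [map_add]
    refine add_mem (sm_map h _ hx') ?_
    have : h (ml A M ε w) = ε • (algebraMap A T' Δ - ε) • g w := by
      simp only [h, ml_apply, LinearMap.restrictScalars_apply, LinearMap.smul_apply, map_smul]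
    rw [this]
    exact he _ fun i _ => J.mul_mem_right _ hd
  · refine (rl_mono le_rfl le_rfl).trans (hG _ _ ?_)
    rw [Submodule.sup_smul]
    refine sup_le ((Submodule.smul_mono le_rfl le_top).trans le_sup_left)
      (Submodule.smul_le.2 fun c hc z hz => ?_)
    obtain ⟨c, rfl⟩ := Ideal.mem_span_singleton'.1 hc
    obtain ⟨w, hw⟩ := hg z
    have : (c * (π0 ^ a * Δ)) • z = (c * π0 ^ a) • ε • z + c • h w := by
      ext i
      simp only [h, LinearMap.restrictScalars_apply, LinearMap.smul_apply, hw, Pi.add_apply,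
        Pi.smul_apply, smul_eq_mul]
      simp only [Algebra.smul_def, map_mul, map_pow]
      ring
    rw [this]
    exact Submodule.add_mem_sup (Submodule.smul_mem _ _ (he z hz))
      (Submodule.smul_mem _ _ ⟨w, rfl⟩)
  · rw [← rl_pi]
    refine rl_le_of_map ((Algebra.linearMap A T').compLeft (Fin μ))
      (fun x hx => Submodule.mem_sup_left (Submodule.mem_sup_left (sm_map _ _ hx))) fun z _ => ?_
    choose c hc using fun i => h3 (z i)
    rw [← sub_add_cancel z ((Algebra.linearMap A T').compLeft (Fin μ) c)]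
    exact Submodule.add_mem_sup (Submodule.mem_sup_right fun i _ => hc i) ⟨c, trivial, rfl⟩

end Ubm

open Ubm in
theorem ubStmt (h1 : Hs1Stmt.{u}) (h2 : Hs2Stmt.{u}) : UbStmt.{u} := by
  intro A T' M _ _ _ _ _ _ _ _ _ π0 μ J ε Δ d y E hM hd hJ k3 k1 k2 k4 hf hE t ht
  have := hM.fr
  have := hM.fi
  have := hM.free
  have := hM.fin
  obtain ⟨g, a, hg⟩ := hM.map
  set 𝔞 := J.comap (algebraMap A T') with h𝔞
  have hS := h2 (A ⧸ 𝔞) d (fun l => Ideal.Quotient.mk 𝔞 (y l)) hd (by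
    have := bx_map (Ideal.Quotient.mk 𝔞) y 1
    simp only [bx, pow_one] at this hf
    rwa [this, lnq])
  have fin : ∀ s, ln (𝔞 ⊔ bx y s) ≠ ⊤ := fun s => by
    have := hS.fin s
    rwa [bx_map, lnq] at this
  have fin' : ∀ s c, ln (𝔞 ⊔ bx y s ⊔ Ideal.span {c}) ≠ ⊤ := fun s c =>
    ne_top_of_le_ne_top (fin s) (by
      rw [ln, ln, ← rl_top, ← rl_top]; exact rl_mono le_sup_left le_sup_right)
  have nz : ∀ n (b : A), π0 ^ n * Δ * b ∈ 𝔞 → b ∈ 𝔞 := by
    have n1 : ∀ b : A, π0 * Δ * b ∈ 𝔞 → b ∈ 𝔞 := fun b hb =>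
      k4 _ (by rw [← map_mul]; exact hb)
    intro n
    induction n with
    | zero => exact fun b hb => n1 b (by
        have := 𝔞.mul_mem_left π0 hb
        rwa [pow_zero, one_mul, ← mul_assoc] at this)
    | succ n ih => exact fun b hb => ih b (n1 _ (by
        have := 𝔞.mul_mem_left Δ hb
        rwa [show Δ * (π0 ^ (n + 1) * Δ * b) = π0 * Δ * (π0 ^ n * Δ * b) by ring] at this))
  have lim := (hS.nzd (Ideal.Quotient.mk 𝔞 (π0 ^ a * Δ)) fun b hb => by
    obtain ⟨b, rfl⟩ := Ideal.Quotient.mk_surjective b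
    rw [← map_mul, Ideal.Quotient.eq_zero_iff_mem] at hb
    exact Ideal.Quotient.eq_zero_iff_mem.2 (nz a b hb)).1
  have e1 : ∀ s, bx (fun l => Ideal.Quotient.mk 𝔞 (y l)) s ⊔
      Ideal.span {Ideal.Quotient.mk 𝔞 (π0 ^ a * Δ)} =
      (bx y s ⊔ Ideal.span {π0 ^ a * Δ}).map (Ideal.Quotient.mk 𝔞) := fun s => by
    rw [bx_map, Ideal.map_sup, Ideal.map_span, Set.image_singleton]
  simp only [e1, lnq, ← sup_assoc] at lim
  obtain ⟨G, hG⟩ := lower k1 k2 g hg k3
  have up := upper (M := M) k1 k2 (bx y t) (fin t)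
  have e2 : ∀ s, lm (M ⧸ (𝔞 • ⊤ ⊔ LinearMap.range (ml A M ε))) (bx y s) =
      rl ((𝔞 ⊔ bx y s) • ⊤ ⊔ LinearMap.range (ml A M ε)) ⊤ := fun s => by
    rw [lmq, Submodule.sup_smul, ← sup_assoc, sup_comm (bx y s • ⊤)]
  have sub := (h1 A (M ⧸ (𝔞 • ⊤ ⊔ LinearMap.range (ml A M ε))) d y).1 t
  simp only [e2] at sub
  rw [← h𝔞] at up hG
  have f0 := ne_top_of_le_ne_top (WithTop.mul_ne_top (ENat.natCast_ne_top _)
    (WithTop.add_ne_top.2 ⟨fin t, fin' t Δ⟩)) up
  obtain ⟨lam, hlam⟩ := ENat.ne_top_iff_exists.1 (WithTop.add_ne_top.1 f0).1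
  obtain ⟨l0, hl0⟩ := ENat.ne_top_iff_exists.1 (WithTop.add_ne_top.1 f0).2
  refine ⟨lam, hlam.ge, ?_⟩
  have : Nontrivial T' := by
    by_contra h
    have := not_nontrivial_iff_subsingleton.1 h
    exact hJ (Subsingleton.elim _ _)
  have n1 : (1 : ℝ) ≤ Module.finrank A T' := by
    exact_mod_cast (Module.finrank_pos_iff_of_free A T').2 this
  have key : (μ : ℝ) * (Module.finrank A T' - 1) * E * (t : ℝ) ^ d ≤ l0 := by
    have l2 := ((lim.comp (tendsto_id.const_mul_atTop' ht)).const_mul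
      ((G : ℝ) * (t : ℝ) ^ d)).const_add (l0 : ℝ)
    rw [mul_zero, add_zero] at l2
    refine ge_of_tendsto l2 (eventually_atTop.2 ⟨1, fun u hu => ?_⟩)
    have a1 := (hG (bx y (t * u))).trans
      (add_le_add_left (add_le_add_left ((sub u).trans_eq (by rw [← hl0])) _) _)
    have a2 := hE (t * u) (Nat.mul_pos ht hu)
    rw [← ENat.natCast_toNat (fin (t * u)), ← ENat.natCast_toNat (fin' (t * u) _)] at a1
    simp only [Function.comp_apply, id]
    generalize (ln (𝔞 ⊔ bx y (t * u))).toNat = b1 at *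
    generalize (ln (𝔞 ⊔ bx y (t * u) ⊔ Ideal.span {π0 ^ a * Δ})).toNat = b2 at *
    have a3 : (μ : ℝ) * Module.finrank A T' * b1 ≤ (u : ℝ) ^ d * l0 + G * b2 + μ * b1 := by
      exact_mod_cast a1
    have pu : (0 : ℝ) < (u : ℝ) ^ d := by positivity
    have pt : (0 : ℝ) < (t : ℝ) ^ d := by positivity
    push_cast at a2 ⊢
    rw [mul_pow] at a2 ⊢
    have a4 := mul_le_mul_of_nonneg_left a2
      (mul_nonneg (Nat.cast_nonneg μ) (sub_nonneg.2 n1) : (0 : ℝ) ≤ μ * (Module.finrank A T' - 1))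
    refine le_of_mul_le_mul_right ?_ pu
    rw [show ((l0 : ℝ) + G * (t : ℝ) ^ d * (b2 / ((t : ℝ) ^ d * (u : ℝ) ^ d))) * (u : ℝ) ^ d =
      (u : ℝ) ^ d * l0 + G * b2 by field_simp]
    linarith
  rw [← hlam, ← hl0, ← ENat.natCast_toNat (fin t), ← ENat.natCast_toNat (fin' t Δ)] at up
  generalize (ln (𝔞 ⊔ bx y t)).toNat = b1 at *
  generalize (ln (𝔞 ⊔ bx y t ⊔ Ideal.span {Δ})).toNat = b2 at *
  have a1 : (lam : ℝ) + l0 ≤ Module.finrank A M * (b1 + b2) := by exact_mod_cast up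
  have a2 : (Module.finrank A M : ℝ) ≤ Module.finrank A T' * μ := by exact_mod_cast hM.rk
  have a3 := mul_le_mul_of_nonneg_right a2 (by positivity : (0 : ℝ) ≤ b1 + b2)
  linarith

end Vale.Agent.P202.Mx
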