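import Vale.Agent.P202.M.SpecI
import Vale.Agent.P202.Unr

/-! Module UD: dimensions under flat local maps. -/

open Finset Matrix MvPowerSeries Filter Topology IsLocalRing
open scoped Kronecker Nat

namespace Vale.Agent.P202.Mx

universe u

namespace Ud

theorem dim_quot {S : Type u} [CommRing S] (p : PrimeSpectrum S) :
    ringKrullDim (S ⧸ p.asIdeal) = Order.coheight p := by
  have : PrimeSpectrum.zeroLocus (R := S) p.asIdeal = Set.Ici p := by
    ext q; simp [PrimeSpectrum.mem_zeroLocus]
  rw [ringKrullDim_quotient, this, Order.coheight_eq_krullDim_Ici]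

theorem ht_max {R : Type u} [CommRing R] [IsLocalRing R] {d : ℕ} (h : ringKrullDim R = d) :
    (maximalIdeal R).height = d := by
  rw [← WithBot.coe_inj, maximalIdeal_height_eq_ringKrullDim, h]; rfl

end Ud

open Ud in
theorem udStmt : UdStmt.{u} := by
  intro R S _ _ _ _ _ _ f
  constructor
  · intro hf
    have := unr_loc hf
    have h1 := hf.flat
    algebraize [f]
    have : IsLocalHom (algebraMap R S) := ‹IsLocalHom f›
    have e : (maximalIdeal R).map (algebraMap R S) = maximalIdeal S := hf.map
    have : Nontrivial (S ⧸ maximalIdeal S) :=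
      Ideal.Quotient.nontrivial_iff.2 (maximalIdeal.isMaximal S).ne_top
    rw [← maximalIdeal_height_eq_ringKrullDim, ← maximalIdeal_height_eq_ringKrullDim,
      Ideal.height_eq_height_add_of_liesOver_of_hasGoingDown (maximalIdeal R) (maximalIdeal S), e,
      Ideal.map_quotient_self, Ideal.height_bot, add_zero]
  · intro d D _ hf hd hD hle
    algebraize [f]
    have : IsLocalHom (algebraMap R S) := ‹IsLocalHom f›
    have h1 := Ideal.height_eq_height_add_of_liesOver_of_hasGoingDown (maximalIdeal R)
      (maximalIdeal S)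
    set J := (maximalIdeal R).map (algebraMap R S) with hJ
    have hJm : J ≤ maximalIdeal S := by
      rw [hJ, Ideal.map_le_iff_le_comap]
      exact (Ideal.LiesOver.over (p := maximalIdeal R) (P := maximalIdeal S)).le
    have hp : ((maximalIdeal S).map (Ideal.Quotient.mk J)).IsPrime :=
      Ideal.map_isPrime_of_surjective Ideal.Quotient.mk_surjective (by simpa using hJm)
    let n : PrimeSpectrum (S ⧸ J) := ⟨_, hp⟩
    obtain ⟨c, rfl⟩ := Nat.exists_eq_add_of_le hle
    rw [ht_max hd, ht_max hD] at h1
    have h2 : Order.height n = c + 1 := by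
      rw [← n.height_eq_orderHeight]
      refine WithTop.add_left_cancel (ENat.natCast_ne_top d) (h1.symm.trans ?_)
      push_cast; rw [add_assoc]; rfl
    obtain ⟨-, ⟨q, hq, h3⟩, -⟩ := Order.height_eq_coe_add_one_iff.1 h2
    let P : PrimeSpectrum S := PrimeSpectrum.comap (Ideal.Quotient.mk J) q
    have hJP : J ≤ P.asIdeal := fun x hx => by
      simp only [P, PrimeSpectrum.comap_asIdeal, Ideal.mem_comap]
      rw [Ideal.Quotient.eq_zero_iff_mem.2 hx]; exact zero_mem _
    have hPq : P.asIdeal.map (Ideal.Quotient.mk J) = q.asIdeal :=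
      Ideal.map_comap_of_surjective _ Ideal.Quotient.mk_surjective _
    have : P.asIdeal.LiesOver (maximalIdeal R) := ⟨(maximalIdeal.isMaximal R).eq_of_le
      (Ideal.comap_ne_top _ P.2.ne_top) (Ideal.map_le_iff_le_comap.1 hJP)⟩
    have h4 := Ideal.height_eq_height_add_of_liesOver_of_hasGoingDown (maximalIdeal R) P.asIdeal
    rw [← hJ, hPq, ht_max hd, q.height_eq_orderHeight, h3] at h4
    refine ⟨P.asIdeal, P.2, hJP, ?_, ?_⟩
    · have h5 : ((Order.height P + Order.coheight P : ℕ∞) : WithBot ℕ∞) ≤ ringKrullDim S := by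
        rw [ringKrullDim, Order.krullDim_eq_iSup_height_add_coheight_of_nonempty,
          WithBot.coe_le_coe]
        exact le_iSup (fun a => Order.height a + Order.coheight a) P
      rw [← maximalIdeal_height_eq_ringKrullDim, ht_max hD, WithBot.coe_le_coe,
        ← P.height_eq_orderHeight, h4, ← Nat.cast_add, Nat.cast_add_one,
        ENat.add_le_add_iff_left (ENat.natCast_ne_top _)] at h5
      have h6 : 0 < Order.coheight P := by
        rw [Order.coheight_pos, not_isMax_iff]
        refine ⟨closedPoint S, lt_of_le_of_ne (le_maximalIdeal P.2.ne_top) fun e => hq.ne ?_⟩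
        ext1
        rw [← hPq, e]; rfl
      rw [dim_quot, le_antisymm h5 (Order.one_le_iff_pos.2 h6)]; rfl
    · rw [IsLocalization.AtPrime.ringKrullDim_eq_height P.asIdeal, h4]
      rfl

end Vale.Agent.P202.Mx
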