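import Vale.Agent.P202.M.Lat
import Vale.Agent.P202.M.Cb
import Vale.Agent.P202.M.Num
import Vale.Agent.P202.M.Tau
import Vale.Agent.P202.M.Seg
import Vale.Agent.P202.M.Bpf
import Vale.Agent.P202.M.Sp
import Vale.Agent.P202.M.Gh
import Vale.Agent.P202.M.Tam
import Vale.Agent.P202.M.E1
import Vale.Agent.P202.M.E2
import Vale.Agent.P202.M.E4
import Vale.Agent.P202.M.E5
import Vale.Agent.P202.M.Kc
import Vale.Agent.P202.M.Shm
import Vale.Agent.P202.M.Eu
import Vale.Agent.P202.M.Dm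
import Vale.Agent.P202.M.Len
import Vale.Agent.P202.M.Hs1
import Vale.Agent.P202.M.Hs2
import Vale.Agent.P202.M.Ri
import Vale.Agent.P202.M.Rx
import Vale.Agent.P202.M.Ex
import Vale.Agent.P202.M.Ud
import Vale.Agent.P202.M.Coh
import Vale.Agent.P202.M.Lift
import Vale.Agent.P202.M.EvW
import Vale.Agent.P202.M.BcW
import Vale.Agent.P202.M.GonW
import Vale.Agent.P202.M.Nrm
import Vale.Agent.P202.M.TwM
import Vale.Agent.P202.M.BtM
import Vale.Agent.P202.M.Eps
import Vale.Agent.P202.M.CoM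
import Vale.Agent.P202.M.Ub
import Vale.Agent.P202.M.Lb
import Vale.Agent.P202.M.Nrm1
import Vale.Agent.P202.M.Bn
import Vale.Agent.P202.M.Pol
import Vale.Agent.P202.M.Ben
import Vale.Agent.P202.M.DevM
import Vale.Agent.P202.M.MainM

/-! Assembly of parts E and I. -/

namespace Vale.Agent.P202.Mx

universe u

theorem eu' : EuStmt.{u} :=
  euStmt segStmt bpfStmt spStmt ghStmt (tamStmt latStmt (cbStmt latStmt)) e1Stmt e2Stmt
    (e4Stmt (cbStmt latStmt) numStmt) (e5Stmt (cbStmt latStmt) segStmt)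

theorem hs2' : Hs2Stmt.{u} := hs2Stmt hs1Stmt

theorem main_of (hm : McStmt.{u}) : MainStmt.{u} :=
  have hE := exStmt rxStmt raStmt hs2'
  have hg := gonWStmt cohStmt liftStmt witStmt bcWStmt
  mainStmt (sameStmt hm eqStmt rxStmt hE hg udStmt) eqStmt hE hg udStmt
    (benStmt nrm1Stmt bnStmt polStmt sumStmt)

end Vale.Agent.P202.Mx
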