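import Vale.Agent.P202.M.SpecT

open Finset Matrix MvPowerSeries Filter Topology IsLocalRing
open scoped TensorProduct

namespace Vale.Agent.P202.Mx

universe u

namespace Bvm

theorem exists_bc {A A' G : Type u} [CommRing A] [CommRing A'] [CommRing G] [Algebra A G]
    (f : A →+* A') {κ : Type} (b : Module.Basis κ A G) :
    ∃ (Λ : Type u) (_ : CommRing Λ) (_ : Algebra A' Λ) (b' : Module.Basis κ A' Λ) (i : G →+* Λ),
      (∀ a, i (algebraMap A G a) = algebraMap A' Λ (f a)) ∧ ∀ k, b' k = i (b k) := by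
  letI := f.toAlgebra
  refine ⟨A' ⊗[A] G, inferInstance, inferInstance, Algebra.TensorProduct.basis A' b,
    Algebra.TensorProduct.includeRight.toRingHom, fun a => ?_, fun k => ?_⟩
  · exact (Algebra.TensorProduct.includeRight (R := A) (A := A') (B := G)).commutes a
  · simp [Algebra.TensorProduct.basis_apply]

theorem mem_map {A Λ : Type u} [CommRing A] [CommRing Λ] [Algebra A Λ] {κ : Type} [Fintype κ]
    (b : Module.Basis κ A Λ) (I : Ideal A) (y : Λ) :
    y ∈ I.map (algebraMap A Λ) ↔ ∀ k, b.repr y k ∈ I := by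
  constructor
  · intro hy k
    rw [← Submodule.restrictScalars_mem A, ← Ideal.smul_top_eq_map] at hy
    simpa using Submodule.smul_top_le_comap_smul_top I (b.coord k) hy
  · intro h
    rw [← b.sum_repr y]
    refine Ideal.sum_mem _ fun k _ => ?_
    rw [Algebra.smul_def]
    exact Ideal.mul_mem_right _ _ (Ideal.mem_map_of_mem _ (h k))

theorem dvd_iff {A Λ : Type u} [CommRing A] [CommRing Λ] [Algebra A Λ] {κ : Type} [Fintype κ]
    (b : Module.Basis κ A Λ) (a : A) (y : Λ) :
    algebraMap A Λ a ∣ y ↔ ∀ k, a ∣ b.repr y k := by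
  simp only [← Ideal.mem_span_singleton]
  rw [← mem_map, Ideal.map_span, Set.image_singleton]

theorem C_dvd {V : Type u} [CommRing V] {ν : Type} (c : V) (a : MvPowerSeries ν V) :
    C c ∣ a ↔ ∀ e, c ∣ coeff e a := by
  constructor
  · rintro ⟨z, rfl⟩ e
    rw [coeff_C_mul]; exact dvd_mul_right _ _
  · intro h
    choose z hz using h
    exact ⟨z, MvPowerSeries.ext fun e => (hz e).trans (coeff_C_mul (φ := z) e c).symm⟩

theorem len_gen (hL : LenStmt.{u}) {W V G Λ : Type u} [CommRing W] [IsLocalRing W] [CommRing V]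
    [IsLocalRing V] [CommRing G] [IsLocalRing G] [CommRing Λ] [Algebra W G] [Algebra V Λ]
    (j : W →+* V) (i : G →+* Λ) (w : Λ) (s : ℕ) (hG : CW W G)
    (h1 : ∀ a ∈ maximalIdeal W, j a ∈ maximalIdeal V) (h2 : ∀ z, ∃ a, z - j a ∈ maximalIdeal V)
    (hi : ∀ a, i (algebraMap W G a) = algebraMap V Λ (j a))
    (hs : ∀ z, ∃ g : Fin s → G, z = ∑ k : Fin s, w ^ (k : ℕ) * i (g k)) (𝔫 : Ideal G) :
    Module.length V (Λ ⧸ 𝔫.map i) ≤ s * ln 𝔫 := by
  letI := j.toAlgebra
  letI : Algebra W Λ := ((algebraMap V Λ).comp j).toAlgebra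
  haveI : IsScalarTower W V Λ := IsScalarTower.of_algebraMap_eq fun _ => rfl
  let i' : G →ₐ[W] Λ := { i with commutes' := hi }
  let q : (G ⧸ 𝔫) →ₐ[W] Λ ⧸ 𝔫.map i := Ideal.quotientMapₐ _ i' Ideal.le_comap_map
  let ψ : (Fin s → G ⧸ 𝔫) →ₗ[W] Λ ⧸ 𝔫.map i := ∑ k : Fin s,
    (LinearMap.mulLeft W (Ideal.Quotient.mk (𝔫.map i) (w ^ (k : ℕ)))) ∘ₗ q.toLinearMap ∘ₗ
      LinearMap.proj k
  have hψ : Function.Surjective ψ := fun z => by
    obtain ⟨z, rfl⟩ := Ideal.Quotient.mk_surjective z
    obtain ⟨g, rfl⟩ := hs z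
    refine ⟨fun k => Ideal.Quotient.mk 𝔫 (g k), ?_⟩
    simp only [ψ, LinearMap.sum_apply, map_sum, map_mul]
    rfl
  rw [← hL W V _ h1 h2, ln, ← hL W G _ hG.loc hG.res]
  refine (Module.length_le_of_surjective ψ hψ).trans ?_
  rw [Module.length_pi_of_fintype]
  simp

variable {V Λ : Type u} [CommRing V] [IsLocalRing V] {r : ℕ} [CommRing Λ] [Algebra (PS V r) Λ]
  {κ : Type} [Fintype κ] (b : Module.Basis κ (PS V r) Λ) {v : V} {n0 : ℕ}

include b in
theorem ann (hv : Ch v n0) (m : ℕ) (y : Λ) (h : algebraMap (PS V r) Λ (C v) ^ m * y = 0) :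
    algebraMap (PS V r) Λ (C v) ^ (n0 - m) ∣ y := by
  rw [← map_pow, ← map_pow, dvd_iff b]
  intro k
  rw [C_dvd]
  intro e
  apply hv.ann
  have := congrArg (fun z => coeff e (b.repr z k)) h
  simpa only [← map_pow, ← Algebra.smul_def, map_smul, Finsupp.smul_apply, smul_eq_mul,
    coeff_C_mul, map_zero, Finsupp.zero_apply] using this

include b in
theorem canc (hS : Seg.{u} r) (hv : Ch v n0) {s d : ℕ} (hs : 2 * s ≤ n0) (hd : d ≤ s) (y : Λ)
    (h : algebraMap (PS V r) Λ (C v) ^ s * y ∈ (mw v r ^ (s + d)).map (algebraMap (PS V r) Λ)) :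
    y ∈ (mw v r ^ d).map (algebraMap (PS V r) Λ) := by
  rw [mem_map b] at h ⊢
  intro k
  have h := h k
  rw [hS.mem] at h ⊢
  intro e
  have h := h e
  simp only [← map_pow, ← Algebra.smul_def, map_smul, Finsupp.smul_apply, smul_eq_mul,
    coeff_C_mul] at h
  rcases le_total d e.degree with h' | h'
  · simp [Nat.sub_eq_zero_of_le h']
  obtain ⟨c, hc⟩ := h
  rw [Nat.add_sub_assoc h', pow_add, mul_assoc, ← sub_eq_zero, ← mul_sub] at hc
  have := (pow_dvd_pow v (show d - e.degree ≤ n0 - s by omega)).trans (hv.ann _ _ hc)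
  simpa using dvd_add this (dvd_mul_right _ c)

end Bvm

open Bvm in
theorem bcVStmt (hV : EvWStmt.{u}) (hL : LenStmt.{u}) (hS : SegStmt.{u}) : BcVStmt.{u} := by
  intro p W G V _ _ _ r _ _ _ _ _ _ _ κ _ _ b j v s n0 hc hG hv s1 s2 hp hj hz
  obtain ⟨Λ, _, _, b', i, hi, hb⟩ := exists_bc (MvPowerSeries.map (σ := Fin r) j) b
  letI : Algebra V Λ := ((algebraMap (PS V r) Λ).comp (algebraMap V (PS V r))).toAlgebra
  haveI : IsScalarTower V (PS V r) Λ := IsScalarTower.of_algebraMap_eq fun _ => rfl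
  set w := algebraMap (PS V r) Λ (C v) with hw
  have hpw : (p : Λ) = w ^ s := by rw [hw, ← map_pow, ← map_pow, hp, map_natCast, map_natCast]
  have rp : ∀ g k, b'.repr (i g) k = MvPowerSeries.map j (b.repr g k) := fun g k => by
    conv_lhs => rw [← b.sum_repr g]
    simp only [map_sum, Algebra.smul_def, map_mul, hi, ← hb]
    simp [← Algebra.smul_def, Finsupp.single_apply]
  have dA : ∀ a : PS V r, ∃ g : Fin s → PS W r,
      a = ∑ k : Fin s, C v ^ (k : ℕ) * MvPowerSeries.map j (g k) := fun a => by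
    choose g hg using fun e => hz (coeff e a)
    refine ⟨fun k e => g e k, ?_⟩
    ext e
    rw [hg, map_sum]
    refine sum_congr rfl fun k _ => ?_
    rw [← map_pow, coeff_C_mul, mul_comm]; rfl
  have dΛ : ∀ z : Λ, ∃ g : Fin s → G, z = ∑ k : Fin s, w ^ (k : ℕ) * i (g k) := fun z => by
    choose g hg using fun l => dA (b'.repr z l)
    refine ⟨fun k => ∑ l, g l k • b l, ?_⟩
    conv_lhs => rw [← b'.sum_repr z]
    simp only [hg, map_sum, Algebra.smul_def, map_mul, hi, ← hb, mul_sum, sum_mul, map_pow]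
    rw [sum_comm]
    exact sum_congr rfl fun _ _ => sum_congr rfl fun _ _ => mul_assoc _ _ _
  have hwp : w ∣ (p : Λ) := hpw ▸ dvd_pow_self w (by omega)
  have h1 : ∀ a ∈ maximalIdeal W, j a ∈ maximalIdeal V := fun a ha => by
    rw [hc.max, Ideal.mem_span_singleton] at ha
    rw [hv.max, Ideal.mem_span_singleton]
    refine (dvd_pow_self v (show s ≠ 0 by omega)).trans ?_
    rw [hp, ← map_natCast j]; exact map_dvd j ha
  have h0 : ∀ {R : Type u} [CommRing R] (x : R) (g : Fin s → R),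
      x ∣ ∑ k : Fin s, x ^ (k : ℕ) * g k - g ⟨0, s1⟩ := fun x g => by
    rw [← add_sum_erase _ _ (mem_univ ⟨0, s1⟩), pow_zero, one_mul, add_sub_cancel_left]
    refine dvd_sum fun k hk => (dvd_pow_self x fun h => ?_).mul_right _
    exact (mem_erase.1 hk).1 (Fin.ext h)
  have h2 : ∀ z, ∃ a, z - j a ∈ maximalIdeal V := fun z => by
    obtain ⟨a, rfl⟩ := hz z
    refine ⟨a ⟨0, s1⟩, ?_⟩
    rw [hv.max, Ideal.mem_span_singleton]
    simpa only [mul_comm] using h0 v fun k => j (a k)
  have hd : ∀ y, w ∣ i y → (p : G) ∣ y := fun y hy => by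
    rw [← map_natCast (algebraMap (PS W r) G), dvd_iff b]
    intro k
    rw [← map_natCast (C : W →+* PS W r), C_dvd]
    intro e
    have := (C_dvd _ _).1 ((dvd_iff b' _ _).1 hy k) e
    rw [rp, coeff_map] at this
    exact hj _ this
  refine ⟨Λ, _, _, _, inferInstance, b', i, hi, fun g => ?_, fun g hg z h => ?_,
    fun g hg z h => ?_, len_gen hL j i w s hG h1 h2 (fun a => ?_) dΛ,
    len_gen hL j _ (C v) s (hV p W (Fin r) hc).cw h1 h2 (fun a => map_C _ _) dA⟩
  · ext k l
    rw [map_apply, Algebra.leftMulMatrix_eq_repr_mul, Algebra.leftMulMatrix_eq_repr_mul, hb,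
      ← map_mul, rp]
  · have key : ∀ y, w ∣ ((p : Λ) - i g) * y → w ∣ y := fun y hy => by
      obtain ⟨c, rfl⟩ := dΛ y
      have e1 := h0 w fun k => i (c k)
      set y := ∑ k : Fin s, w ^ (k : ℕ) * i (c k)
      have e2 : w ∣ i (g * c ⟨0, s1⟩) := by
        have := dvd_sub (dvd_sub (hwp.mul_right y) hy) (e1.mul_left (i g))
        rw [map_mul]
        convert this using 1
        ring
      have e3 := hg _ (Ideal.mem_span_singleton.2 (hd _ e2))
      rw [Ideal.mem_span_singleton] at e3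
      have e4 := map_dvd i e3
      rw [map_natCast] at e4
      simpa using dvd_add e1 (hwp.trans e4)
    have : ∀ m ≤ n0, w ^ m ∣ z := fun m hm => by
      induction m with
      | zero => simp
      | succ m ih =>
        obtain ⟨y, rfl⟩ := ih (by omega)
        have := ann b' hv m (((p : Λ) - i g) * y) (by rw [← h]; ring)
        rw [pow_succ]
        exact mul_dvd_mul_left _ (key y ((dvd_pow_self w (by omega)).trans this))
    have h3 := this n0 le_rfl
    rwa [hw, ← map_pow, ← map_pow, hv.nil, map_zero, map_zero, zero_dvd_iff] at h3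
  · have hm : (C v : PS V r) ∈ mw v r := Ideal.subset_span (Set.mem_insert _ _)
    have hg' : i g ∈ (mw v r ^ (s + 1)).map (algebraMap (PS V r) Λ) := by
      refine Ideal.mem_comap.1 ((sup_le ?_ ?_ : _ ≤ Ideal.comap i _) hg)
      · rw [← Ideal.map_le_iff_le_comap, Ideal.map_map, Ideal.map_pow, Ideal.map_pow]
        refine Ideal.pow_right_mono ?_ _
        rw [Ideal.map_span, Ideal.span_le]
        rintro _ ⟨_, ⟨l, rfl⟩, rfl⟩
        rw [RingHom.comp_apply, hi, map_X]
        exact Ideal.mem_map_of_mem _ (Ideal.subset_span (Set.mem_insert_of_mem _ ⟨l, rfl⟩))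
      · rw [Ideal.span_singleton_le_iff_mem, Ideal.mem_comap, map_pow, map_natCast, hpw, ← pow_mul,
          hw, ← map_pow]
        exact Ideal.mem_map_of_mem _
          (Ideal.pow_le_pow_right (by omega) (Ideal.pow_mem_pow hm (s * 2)))
    have : ∀ d ≤ s, z ∈ (mw v r ^ d).map (algebraMap (PS V r) Λ) := fun d hd => by
      induction d with
      | zero => simp [Ideal.map_top]
      | succ d ih =>
        refine canc b' (hS r) hv s2 hd z ?_
        have e1 := Ideal.mul_mem_mul hg' (ih (by omega))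
        rw [← Ideal.map_mul, ← pow_add, show s + 1 + d = s + (d + 1) by ring] at e1
        rw [← Ideal.map_pow, ← pow_mul] at h
        have e2 := Ideal.map_mono (f := algebraMap (PS V r) Λ)
          (Ideal.pow_le_pow_right (show s + (d + 1) ≤ s * 2 by omega)) h
        rw [← hw, ← hpw]
        simpa [sub_mul] using Ideal.add_mem _ e2 e1
    exact this s le_rfl
  · rw [IsScalarTower.algebraMap_apply W (PS W r) G, hi]
    exact congrArg _ (map_C _ _)

end Vale.Agent.P202.Mx
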