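import Vale.Agent.P202.M.SpecT
import Vale.Agent.P202.M.EvW

/-! The order of a determinant is bounded by a length. -/

open Finset Matrix MvPowerSeries IsLocalRing

namespace Vale.Agent.P202.Mx

universe u

namespace DE

variable {D : Type u} [CommRing D] [IsDomain D] [IsDiscreteValuationRing D] {κ : Type} [Fintype κ]
  [DecidableEq κ]

lemma det_ne (M : Matrix κ κ D)
    (h : Module.length D ((κ → D) ⧸ LinearMap.range (toLin' M)) ≠ ⊤) : M.det ≠ 0 := by
  intro h0
  obtain ⟨v, hv, hM⟩ := exists_vecMul_eq_zero_iff.2 h0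
  have := (isFiniteLength_iff_isNoetherian_isArtinian.1 (Module.length_ne_top_iff.1 h)).2
  obtain ⟨w, hw⟩ := IsDiscreteValuationRing.exists_irreducible D
  refine hv (funext fun j => ?_)
  obtain ⟨n, ⟨_, hy⟩, e⟩ := IsArtinian.exists_pow_succ_smul_dvd w
    (⟨_, Submodule.mem_span_singleton_self _⟩ :
      Submodule.span D {(LinearMap.range (toLin' M)).mkQ (Pi.single j 1)})
  obtain ⟨y, rfl⟩ := Submodule.mem_span_singleton.1 hy
  replace hy : w ^ (n + 1) • y • (LinearMap.range (toLin' M)).mkQ (Pi.single j 1) =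
    w ^ n • (LinearMap.range (toLin' M)).mkQ (Pi.single j 1) := congrArg Subtype.val e
  rw [smul_smul, ← sub_eq_zero, ← sub_smul, ← map_smul, Submodule.mkQ_apply,
    Submodule.Quotient.mk_eq_zero] at hy
  obtain ⟨z, hz⟩ := hy
  have h1 := congrArg (v ⬝ᵥ ·) hz
  simp only [toLin'_apply, dotProduct_mulVec, hM, zero_dotProduct, dotProduct_smul,
    dotProduct_single, mul_one, smul_eq_mul] at h1
  refine (mul_eq_zero.1 h1.symm).resolve_left fun h2 => hw.not_isUnit ?_
  rw [pow_succ, mul_assoc, ← mul_sub_one] at h2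
  exact IsUnit.of_mul_eq_one y (sub_eq_zero.1
    ((mul_eq_zero.1 h2).resolve_left (pow_ne_zero _ hw.ne_zero)))

omit [Fintype κ] in
lemma ord_prod (a : κ → D) (s : Finset κ) :
    Ring.ord D (∏ i ∈ s, a i) = ∑ i ∈ s, Ring.ord D (a i) := by
  simp only [Ring.ord_eq_addVal]
  induction s using Finset.induction_on with
  | empty => simp
  | insert i s hi ih => rw [prod_insert hi, sum_insert hi, AddValuation.map_mul, ih]

lemma ord_det (M : Matrix κ κ D)
    (h : Module.length D ((κ → D) ⧸ LinearMap.range (toLin' M)) ≠ ⊤) :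
    Ring.ord D M.det = Module.length D ((κ → D) ⧸ LinearMap.range (toLin' M)) := by
  have hi : Function.Injective (toLin' M) := (injective_iff_map_eq_zero _).2 fun v hv => by
    by_contra h0
    exact det_ne M h (exists_mulVec_eq_zero_iff.1 ⟨v, h0, hv⟩)
  let e := LinearEquiv.ofInjective _ hi
  have hr := e.finrank_eq.symm
  let b := Pi.basisFun D κ
  let b' := Submodule.smithNormalFormTopBasis b hr
  let e' := b'.equiv (Submodule.smithNormalFormBotBasis b hr) (Equiv.refl _)
  have h1 := LinearMap.associated_det_comp_equiv (LinearMap.range (toLin' M)).subtype e e'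
  have h2 : (LinearMap.range (toLin' M)).subtype ∘ₗ e.toLinearMap = toLin' M := rfl
  have h3 : (LinearMap.range (toLin' M)).subtype ∘ₗ e'.toLinearMap =
      toLin b' b' (diagonal (Submodule.smithNormalFormCoeffs b hr)) := b'.ext fun i => by
    rw [toLin_self, sum_eq_single i (fun j _ hj => by rw [diagonal_apply_ne _ hj, zero_smul])
      (by simp), diagonal_apply_eq]
    simp [e', b']
  rw [h2, h3, LinearMap.det_toLin', LinearMap.det_toLin, det_diagonal] at h1
  rw [Ring.ord_eq_of_associated h1, ord_prod, (Submodule.quotientEquivPiSpan _ b hr).length_eq,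
    Module.length_pi_of_fintype]
  rfl

end DE

theorem detStmt (_hV : EvWStmt.{u}) (hL : LenStmt.{u}) : DetStmt.{u} := by
  intro p W G _ _ _ r _ _ _ _ _ κ _ _ b g c o hW hG hl
  let L := ResidueField W
  let D := PowerSeries L
  obtain ⟨l0, hl0⟩ := EvM.ev (V := L) (σ := Fin (r + 1)) D (Ideal.span {PowerSeries.X})
    inferInstance (Fin.cons PowerSeries.X fun i => algebraMap W D (c i) * PowerSeries.X)
    (fun i => Ideal.le_radical (by
      refine Fin.cases ?_ (fun i => ?_) i
      · exact Ideal.mem_span_singleton_self _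
      · exact Ideal.mul_mem_left _ _ (Ideal.mem_span_singleton_self _)))
  have hX : ∀ i, l0 (X i) ∈ Ideal.span {(PowerSeries.X : D)} := fun i => by
    rw [hl0]
    refine Fin.cases ?_ (fun i => ?_) i
    · exact Ideal.mem_span_singleton_self _
    · exact Ideal.mul_mem_left _ _ (Ideal.mem_span_singleton_self _)
  have hsec := EvM.ext (V := L) (σ := Unit) D (Ideal.span {PowerSeries.X}) inferInstance
    (l0.comp (rename fun _ => 0)).toRingHom (RingHom.id _)
    (fun a => (l0.comp (rename fun _ => 0)).commutes a)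
    (fun i => by
      change l0 (rename _ (X i)) = _
      rw [rename_X, hl0]; rfl)
    (fun i => Ideal.le_radical (by
      change l0 (rename _ (X i)) ∈ _
      rw [rename_X]; exact hX 0))
  let lam : PS W (r + 1) →ₐ[W] D := (l0.restrictScalars W).comp (mapAlgHom (Algebra.ofId W L))
  have hlam : ∀ a, lam a = l0 (MvPowerSeries.map (residue W) a) := fun _ => rfl
  have hls : Function.Surjective lam := fun y => by
    choose t ht using residue_surjective (R := W)
    refine ⟨fun e => t (coeff e (rename (fun _ : Unit => (0 : Fin (r + 1))) y)), ?_⟩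
    refine (hlam _).trans (Eq.trans (congrArg l0 ?_) (RingHom.congr_fun hsec y))
    ext e
    exact ht _
  have hp : (p : D) = 0 := by
    rw [← map_natCast (algebraMap L D), ← map_natCast (residue W), (residue_eq_zero_iff _).2
      (hW.max ▸ Ideal.mem_span_singleton_self _), map_zero]
  let M := (Algebra.leftMulMatrix b g).map lam
  let N := LinearMap.range (toLin' M)
  let Ψ0 : G →ₗ[W] (κ → D) :=
    lam.toLinearMap.compLeft κ ∘ₗ b.equivFun.toLinearMap.restrictScalars W
  have h0 : ∀ z i, Ψ0 z i = lam (b.repr z i) := fun _ _ => rfl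
  have hs : ∀ a z, lam a = 0 → Ψ0 (algebraMap (PS W (r + 1)) G a * z) = 0 := fun a z ha => by
    ext i : 1
    rw [h0, ← Algebra.smul_def, map_smul, Finsupp.smul_apply, smul_eq_mul, map_mul, ha, zero_mul]
    rfl
  let Ψ : G →ₗ[W] (κ → D) ⧸ N := N.mkQ.restrictScalars W ∘ₗ Ψ0
  let I : Ideal G := Ideal.span {(p : G), g} ⊔ Ideal.span (Set.range fun i =>
    algebraMap (PS W (r + 1)) G (X i.succ - C (c i) * X 0))
  have hI : ∀ x ∈ I, ∀ z, Ψ0 (x * z) ∈ N := by
    intro x hx
    rw [show I = Ideal.span (_ ∪ _) from (Ideal.span_union _ _).symm] at hx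
    induction hx using Submodule.span_induction with
    | mem x hx =>
      intro z
      rcases hx with (rfl | rfl) | ⟨i, rfl⟩
      · rw [← map_natCast (algebraMap (PS W (r + 1)) G), hs _ _ (by rw [map_natCast, hp])]
        exact N.zero_mem
      · refine ⟨Ψ0 z, funext fun i => ?_⟩
        rw [h0, ← Algebra.leftMulMatrix_mulVec_repr, toLin'_apply]
        exact (RingHom.map_mulVec lam.toRingHom _ _ i).symm
      · rw [hs]
        · exact N.zero_mem
        · rw [map_sub, map_mul, show lam (C (c i)) = _ from lam.commutes (c i), hlam, hlam, map_X,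
            map_X, hl0, hl0, Fin.cons_succ, Fin.cons_zero, sub_self]
    | zero => intro z; rw [zero_mul, map_zero]; exact N.zero_mem
    | add x y _ _ hx hy => intro z; rw [add_mul, map_add]; exact N.add_mem (hx z) (hy z)
    | smul a x _ hx => intro z; rw [smul_eq_mul, mul_comm a, mul_assoc]; exact hx _
  have hΨ : Function.Surjective Ψ := fun y => by
    obtain ⟨y, rfl⟩ := N.mkQ_surjective y
    choose t ht using fun i => hls (y i)
    refine ⟨b.equivFun.symm t, congrArg N.mkQ (funext fun i => ?_)⟩
    rw [h0, ← Module.Basis.equivFun_apply, LinearEquiv.apply_symm_apply, ht]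
  have hlen : Module.length D ((κ → D) ⧸ N) ≤ o := by
    have h1 := Submodule.length_le_length_restrictScalars W (⊤ : Submodule D ((κ → D) ⧸ N))
    rw [Submodule.restrictScalars_top, Module.length_top, Module.length_top] at h1
    refine h1.trans (le_trans ?_ ((hL W G (G ⧸ I) hG.loc hG.res).le.trans hl))
    refine le_trans (Module.length_le_of_surjective ((I.restrictScalars W).liftQ Ψ fun x hx =>
      (Submodule.Quotient.mk_eq_zero _).2 (by simpa using hI x hx 1)) fun y => ?_)
      (Submodule.Quotient.restrictScalarsEquiv W I).length_eq.le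
    obtain ⟨z, rfl⟩ := hΨ y
    exact ⟨Submodule.Quotient.mk z, rfl⟩
  have hord := DE.ord_det M (ne_top_of_le_ne_top (ENat.natCast_ne_top o) hlen)
  by_contra hc
  have h1 := ((evStmt L (r + 1)).ord _ (o + 1)).2 (Order.add_one_le_of_lt (not_le.1 hc))
  have h2 : (PowerSeries.X : D) ^ (o + 1) ∣ M.det := by
    rw [← Ideal.mem_span_singleton, ← Ideal.span_singleton_pow,
      show M.det = lam _ from (RingHom.map_det lam.toRingHom _).symm, hlam]
    have h3 : (mx L (r + 1)).map l0 ≤ Ideal.span {(PowerSeries.X : D)} := by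
      rw [Ideal.map_span, Ideal.span_le]
      rintro _ ⟨_, ⟨i, rfl⟩, rfl⟩
      exact hX i
    refine Ideal.pow_right_mono h3 _ ?_
    rw [← Ideal.map_pow]
    exact Ideal.mem_map_of_mem _ h1
  have h3 := (Ring.ord_le_ord_of_dvd h2).trans (hord.le.trans hlen)
  rw [Ring.ord_pow (mem_nonZeroDivisors_of_ne_zero PowerSeries.X_ne_zero),
    Ring.ord_of_irreducible PowerSeries.X_irreducible, nsmul_one, Nat.cast_le] at h3
  omega

end Vale.Agent.P202.Mx
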