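import Vale.Agent.P202.M.SpecT

open Finset Filter

namespace Vale.Agent.P202.Mx

universe u

namespace DsM

theorem mk_eq {N : ℕ → Type u} [∀ m, CommRing (N m)] {f g : ∀ m, N m}
    (h : Ideal.Quotient.mk (Ifin N) f = Ideal.Quotient.mk (Ifin N) g) :
    ∀ᶠ m in atTop, f m = g m := by
  have h1 : ∀ᶠ m in atTop, (f - g) m = 0 := Ideal.Quotient.eq.1 h
  filter_upwards [h1] with m hm
  exact sub_eq_zero.1 hm

/-- the semilinear combination -/
def dsL {T' A ι : Type*} [CommRing T'] [CommRing A] [Fintype ι] (ψ : T' →+* A) (f : ι → A) :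
    (ι → T') →+ A where
  toFun c := ∑ i, ψ (c i) * f i
  map_zero' := by simp
  map_add' c d := by simp [add_mul, sum_add_distrib]

theorem dsL_apply {T' A ι : Type*} [CommRing T'] [CommRing A] [Fintype ι] (ψ : T' →+* A)
    (f : ι → A) (c : ι → T') : dsL ψ f c = ∑ i, ψ (c i) * f i := rfl

theorem dsL_smul {T' A ι : Type*} [CommRing T'] [CommRing A] [Fintype ι] (ψ : T' →+* A)
    (f : ι → A) (t : T') (c : ι → T') : dsL ψ f (t • c) = ψ t * dsL ψ f c := by
  simp [dsL_apply, mul_sum, mul_assoc]

theorem dsLift {T' T A ι : Type*} [CommRing T'] [CommRing A] [Fintype ι] [AddCommGroup T]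
    [Module T' T] (ψ : T' →+* A) (f : ι → A) (b : ι → T)
    (hb : Function.Surjective (Fintype.linearCombination T' b))
    (hk : ∀ c, Fintype.linearCombination T' b c = 0 → dsL ψ f c = 0) :
    ∃ Φ : T →+ A, (∀ c, Φ (Fintype.linearCombination T' b c) = dsL ψ f c) ∧
      (∀ i, Φ (b i) = f i) ∧ ∀ t x, Φ (t • x) = ψ t * Φ x := by
  classical
  let π := (Fintype.linearCombination T' b).toAddMonoidHom
  let Φ : T →+ A := π.liftOfRightInverse (Function.surjInv hb) (Function.rightInverse_surjInv hb)
    ⟨dsL ψ f, fun c hc => hk c hc⟩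
  have h1 : ∀ c, Φ (Fintype.linearCombination T' b c) = dsL ψ f c := fun c =>
    π.liftOfRightInverse_comp_apply _ (Function.rightInverse_surjInv hb) _ c
  refine ⟨Φ, h1, fun i => ?_, fun t x => ?_⟩
  · have h2 := h1 (Pi.single i 1)
    rw [Fintype.linearCombination_apply_single, one_smul] at h2
    rw [h2, dsL_apply, Finset.sum_eq_single i]
    · simp
    · intro j _ hj
      simp [hj]
    · simp
  · obtain ⟨c, rfl⟩ := hb x
    rw [← map_smul, h1, h1, dsL_smul]

end DsM

open DsM in
theorem dsStmt : DsStmt.{u} := by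
  intro T' T _ _ _ _ _ N _ ψ γ 𝔬 𝔪 Φ h1 h2 h3 h4
  classical
  obtain ⟨n, s, hs⟩ := Module.Finite.exists_fin (R := T') (M := T)
  obtain ⟨k, g, hg⟩ := Submodule.fg_iff_exists_fin_generating_family.1
    (IsNoetherian.noetherian (𝔪.restrictScalars T'))
  have hgm : ∀ j, g j ∈ 𝔪 := fun j => by
    have : g j ∈ 𝔪.restrictScalars T' := hg ▸ Submodule.subset_span ⟨j, rfl⟩
    exact this
  choose fs hfs using fun i => Ideal.Quotient.mk_surjective (Φ (s i))
  choose fg hfg hfo using fun j => h4 (g j) (hgm j)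
  let b : Option (Fin n ⊕ Fin k) → T := fun i => i.elim 1 (Sum.elim s g)
  let f : Option (Fin n ⊕ Fin k) → ∀ m, N m := fun i => i.elim γ (Sum.elim fs fg)
  have hf : ∀ i, Φ (b i) = Ideal.Quotient.mk _ (f i) := by
    rintro (_ | i | j)
    · exact h2
    · exact (hfs i).symm
    · exact hfg j
  have hb : Function.Surjective (Fintype.linearCombination T' b) := by
    rw [← LinearMap.range_eq_top, Fintype.range_linearCombination, eq_top_iff, ← hs]
    exact Submodule.span_mono (by rintro _ ⟨i, rfl⟩; exact ⟨some (.inl i), rfl⟩)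
  have hΦ : ∀ c, Φ (Fintype.linearCombination T' b c) =
      Ideal.Quotient.mk _ fun m => dsL (ψ m) (fun i => f i m) c := by
    intro c
    rw [Fintype.linearCombination_apply, map_sum]
    have e : (fun m => dsL (ψ m) (fun i => f i m) c) = ∑ i, (fun m => ψ m (c i)) * f i := by
      funext m
      simp [dsL_apply, Finset.sum_apply]
    rw [e, map_sum]
    refine sum_congr rfl fun i _ => ?_
    rw [Algebra.smul_def, h3, hf, map_mul]
  obtain ⟨r, z, hz⟩ := Submodule.fg_iff_exists_fin_generating_family.1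
    (IsNoetherian.noetherian (LinearMap.ker (Fintype.linearCombination T' b)))
  have e1 : ∀ᶠ m in atTop, ∀ j, dsL (ψ m) (fun i => f i m) (z j) = 0 := by
    refine eventually_all.2 fun j => ?_
    have hj : z j ∈ LinearMap.ker (Fintype.linearCombination T' b) :=
      hz ▸ Submodule.subset_span ⟨j, rfl⟩
    have h5 := hΦ (z j)
    rw [LinearMap.mem_ker.1 hj, map_zero, ← map_zero (Ideal.Quotient.mk (Ifin N))] at h5
    exact mk_eq h5.symm
  choose c hc using fun i j => hb (b i * b j)
  have e2 : ∀ᶠ m in atTop, ∀ i j, f i m * f j m = γ m * dsL (ψ m) (fun i => f i m) (c i j) := by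
    refine eventually_all.2 fun i => eventually_all.2 fun j => ?_
    have h5 := h1 (b i) (b j)
    rw [← hc, hΦ, hf, hf, ← map_mul, ← map_mul] at h5
    exact mk_eq h5
  have e3 : ∀ᶠ m in atTop, ∀ j, fg j m ∈ 𝔬 m := eventually_all.2 hfo
  filter_upwards [e1, e2, e3] with m a1 a2 a3
  obtain ⟨Φ', b1, b2, b3⟩ := dsLift (ψ m) (fun i => f i m) b hb (by
    intro x hx
    have hx' : x ∈ Submodule.span T' (Set.range z) := hz ▸ hx
    clear hx
    induction hx' using Submodule.span_induction with
    | mem y hy => obtain ⟨j, rfl⟩ := hy; exact a1 j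
    | zero => exact map_zero _
    | add x y _ _ ihx ihy => rw [map_add, ihx, ihy, add_zero]
    | smul t x _ ih => rw [dsL_smul, ih, mul_zero])
  refine ⟨Φ', fun x y => ?_, b2 none, fun t x => ?_, fun x hx => ?_⟩
  · obtain ⟨d, rfl⟩ := hb x
    obtain ⟨d', rfl⟩ := hb y
    rw [Fintype.linearCombination_apply, Fintype.linearCombination_apply, sum_mul_sum, map_sum,
      map_sum, map_sum, sum_mul_sum, mul_sum]
    refine sum_congr rfl fun i _ => ?_
    rw [map_sum, mul_sum]
    refine sum_congr rfl fun j _ => ?_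
    rw [smul_mul_smul_comm, b3, b3, b3, b2, b2, ← hc, b1, map_mul]
    linear_combination (ψ m (d i) * ψ m (d' j)) * a2 i j
  · rw [← Algebra.smul_def, b3]
  · have hx' : x ∈ Submodule.span T' (Set.range g) := by rw [hg]; exact hx
    clear hx
    induction hx' using Submodule.span_induction with
    | mem y hy =>
      obtain ⟨j, rfl⟩ := hy
      have h6 := b2 (some (.inr j))
      exact (show Φ' (g j) = fg j m from h6) ▸ a3 j
    | zero => rw [map_zero]; exact zero_mem _
    | add x y _ _ ihx ihy => rw [map_add]; exact add_mem ihx ihy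
    | smul t x _ ih => rw [b3]; exact Ideal.mul_mem_left _ _ ih

end Vale.Agent.P202.Mx
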