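import Vale.Agent.P202.M.SpecT

open Finset

namespace Vale.Agent.P202.Mx

universe u

namespace DwM

variable (p : ℕ) [Fact p.Prime] {B : Type u} [CommRing B]

theorem gh_eq (x : WittVector p B) (n : ℕ) : WittVector.ghostComponent n x =
    ∑ i ∈ range (n + 1), (p : B) ^ i * x.coeff i ^ p ^ (n - i) := by
  rw [WittVector.ghostComponent_apply, aeval_wittPolynomial]

theorem nzd_pow {a : B} (h : Nzd a) (n : ℕ) : Nzd (a ^ n) := by
  induction n with
  | zero => intro b hb; simpa using hb
  | succ n ih =>
    intro b hb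
    rw [pow_succ, mul_assoc] at hb
    exact h b (ih _ hb)

theorem gh_inj (hp : Nzd (p : B)) {x y : WittVector p B}
    (h : ∀ n, WittVector.ghostComponent n x = WittVector.ghostComponent n y) : x = y := by
  ext n
  induction n using Nat.strong_induction_on with
  | _ n ih =>
    have h1 := h n
    rw [gh_eq, gh_eq, sum_range_succ, sum_range_succ,
      sum_congr rfl (fun i hi => by rw [ih i (mem_range.1 hi)])] at h1
    have h2 := add_left_cancel h1
    simp only [Nat.sub_self, pow_zero, pow_one] at h2
    exact sub_eq_zero.1 (nzd_pow hp n _ (by rw [mul_sub, h2, sub_self]))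

theorem gh_map {C : Type u} [CommRing C] (f : B →+* C) (x : WittVector p B) (n : ℕ) :
    WittVector.ghostComponent n (WittVector.map f x) = f (WittVector.ghostComponent n x) := by
  simp [gh_eq, WittVector.map_coeff]

/-- the Witt components -/
noncomputable def cc (ph : B →+* B) (b : B) (n : ℕ) : B :=
  Classical.epsilon fun y =>
    ∑ i : Fin n, (p : B) ^ (i : ℕ) * cc ph b i ^ p ^ (n - i) + (p : B) ^ n * y = ph^[n] b
termination_by n
decreasing_by exact i.2

theorem cc_spec (ph : B →+* B) (hph : ∀ b, (p : B) ∣ ph b - b ^ p) (b : B) (n : ℕ) :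
    ∑ i ∈ range (n + 1), (p : B) ^ i * cc p ph b i ^ p ^ (n - i) = ph^[n] b := by
  have key : ∀ n, (∃ y, ∑ i ∈ range n, (p : B) ^ i * cc p ph b i ^ p ^ (n - i) + (p : B) ^ n * y =
      ph^[n] b) → ∑ i ∈ range (n + 1), (p : B) ^ i * cc p ph b i ^ p ^ (n - i) = ph^[n] b := by
    intro n h
    rw [sum_range_succ, Nat.sub_self, pow_zero, pow_one]
    simp only [← Fin.sum_univ_eq_sum_range
      (fun i => (p : B) ^ i * cc p ph b i ^ p ^ (n - i)) n] at h ⊢
    have h2 := Classical.epsilon_spec h
    rw [← cc] at h2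
    exact h2
  induction n with
  | zero => exact key 0 ⟨b, by simp⟩
  | succ n ih =>
    apply key
    have hd : (p : B) ^ (n + 1) ∣ ph^[n + 1] b -
        ∑ i ∈ range (n + 1), (p : B) ^ i * cc p ph b i ^ p ^ (n + 1 - i) := by
      rw [Function.iterate_succ_apply', ← ih, map_sum, ← sum_sub_distrib]
      refine dvd_sum fun i hi => ?_
      have hi' : i ≤ n := Nat.lt_succ_iff.1 (mem_range.1 hi)
      have h1 := dvd_sub_pow_of_dvd_sub (hph (cc p ph b i)) (n - i)
      rw [map_mul, map_pow, map_pow, map_natCast, ← mul_sub, show n + 1 - i = n - i + 1 by omega,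
        pow_succ' p (n - i), pow_mul, show n + 1 = i + (n - i + 1) by omega, pow_add]
      exact mul_dvd_mul_left _ h1
    obtain ⟨y, hy⟩ := hd
    exact ⟨y, by rw [← hy]; ring⟩

end DwM

open DwM in
theorem dwStmt : DwStmt.{u} := by
  intro p _ B _ ph hp hph
  let s0 : B → WittVector p B := fun b => WittVector.mk p (cc p ph b)
  have hs : ∀ b j, WittVector.ghostComponent j (s0 b) = ph^[j] b := fun b j => by
    rw [gh_eq]
    exact cc_spec p ph hph b j
  have hit : ∀ j, ph^[j] = ⇑(ph ^ j) := fun j => (RingHom.coe_pow ph j).symm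
  let s : B →+* WittVector p B :=
    { toFun := s0
      map_one' := gh_inj p hp fun n => by rw [hs, hit, map_one, map_one]
      map_mul' := fun a b => gh_inj p hp fun n => by rw [map_mul, hs, hs, hs, hit, map_mul]
      map_zero' := gh_inj p hp fun n => by rw [hs, hit, map_zero, map_zero]
      map_add' := fun a b => gh_inj p hp fun n => by rw [map_add, hs, hs, hs, hit, map_add] }
  have hs' : ∀ b j, WittVector.ghostComponent j (s b) = ph^[j] b := hs
  refine ⟨s, hs', fun b hb => gh_inj p hp fun n => ?_, fun 𝔞 h1 h2 a ha j => ?_⟩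
  · rw [hs', WittVector.ghostComponent_teichmuller]
    induction n with
    | zero => simp
    | succ n ih => rw [Function.iterate_succ_apply', ih, map_pow, hb, ← pow_mul, ← pow_succ']
  · have hq : Nzd (p : B ⧸ 𝔞) := by
      intro b hb
      obtain ⟨c, rfl⟩ := Ideal.Quotient.mk_surjective b
      rw [← map_natCast (Ideal.Quotient.mk 𝔞), ← map_mul, Ideal.Quotient.eq_zero_iff_mem] at hb
      exact Ideal.Quotient.eq_zero_iff_mem.2 (h2 c hb)
    have h0 : WittVector.map (Ideal.Quotient.mk 𝔞) (s a) = 0 := gh_inj p hq fun n => by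
      rw [gh_map, hs', map_zero, Ideal.Quotient.eq_zero_iff_mem]
      induction n with
      | zero => exact ha
      | succ n ih => rw [Function.iterate_succ_apply']; exact h1 _ ih
    have h3 := congrArg (fun x => WittVector.coeff x j) h0
    simp only [WittVector.map_coeff, WittVector.zero_coeff] at h3
    exact Ideal.Quotient.eq_zero_iff_mem.1 h3

end Vale.Agent.P202.Mx
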