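import Vale.Agent.P202.M.SpecT
import Vale.Agent.P202.M.EvW

open Finset Matrix MvPowerSeries Filter Topology IsLocalRing
open scoped Kronecker Nat

namespace Vale.Agent.P202.Mx

universe u

namespace Ek

theorem memX {W : Type u} [CommRing W] {ν : Type} [Finite ν] (a : MvPowerSeries ν W) :
    a ∈ Ideal.span (Set.range (X : ν → MvPowerSeries ν W)) ↔ constantCoeff a = 0 := by
  have e : EvM.mz (0 : W) ν ^ 1 = Ideal.span (Set.range (X : ν → MvPowerSeries ν W)) := by
    rw [pow_one, EvM.mz, map_zero, Ideal.span_insert_zero]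
  rw [← e, EvM.mem_iff]
  constructor
  · intro h
    simpa using h 0
  · intro h m
    by_cases hm : m = 0
    · subst hm
      simpa using h
    · have : 1 - m.degree = 0 := by
        have : m.degree ≠ 0 := fun h' => hm ((Finsupp.degree_eq_zero_iff m).1 h')
        omega
      rw [this, pow_zero]
      exact one_dvd _

variable (p : ℕ) [hp : Fact p.Prime]

theorem ghost {R : Type*} [CommRing R] (j : ℕ) (x : WittVector p R) :
    WittVector.ghostComponent j x = ∑ i ∈ range (j + 1), (p : R) ^ i * x.coeff i ^ p ^ (j - i) := by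
  rw [WittVector.ghostComponent_apply, aeval_wittPolynomial]

theorem ghost_map {R S : Type*} [CommRing R] [CommRing S] (f : R →+* S) (j : ℕ)
    (x : WittVector p R) :
    WittVector.ghostComponent j (WittVector.map f x) = f (WittVector.ghostComponent j x) := by
  simp only [ghost, map_sum, map_mul, map_pow, map_natCast, WittVector.map_coeff]

theorem ghost_zero {R : Type*} [CommRing R] (j : ℕ) (x : WittVector p R)
    (h : ∀ i ≤ j, x.coeff i = 0) : WittVector.ghostComponent j x = 0 := by
  rw [ghost]
  refine Finset.sum_eq_zero fun i hi => ?_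
  rw [h i (Nat.lt_succ_iff.1 (mem_range.1 hi)), zero_pow (pow_ne p _), mul_zero]

theorem tr {R : Type*} [CommRing R] (e : ℕ) (x y : WittVector p R) :
    (∀ j ≤ e, (x - y).coeff j = 0) ↔ ∀ j ≤ e, x.coeff j = y.coeff j := by
  have h1 := WittVector.mem_ker_truncate (e + 1) (x - y)
  simp only [Nat.lt_succ_iff] at h1
  rw [← h1, RingHom.mem_ker, map_sub, sub_eq_zero, TruncatedWittVector.ext_iff]
  simp only [WittVector.coeff_truncate]
  exact ⟨fun h j hj => h ⟨j, Nat.lt_succ_of_le hj⟩, fun h j => h j (Nat.lt_succ_iff.1 j.2)⟩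

variable {W : Type u} [CommRing W] {n h : ℕ} (s : BB W n h →+* WittVector p (BB W n h))
  (F : Fin h → BB W n h) (e : ℕ)

theorem map_rho {Q : Type*} [CommRing Q] (π : MvPowerSeries (Gv n h e) W →+* Q) (i : Fin h) :
    WittVector.map π (rho p s F e i) = WittVector.map
      (π.comp (rename (R := W) (Sum.inl : Bv n h → Gv n h e)).toRingHom) (s (F i)) -
      ((p : WittVector p Q) - WittVector.teichmuller p (π (X (.inl none)))) *
        WittVector.map π (zz p W n e i) := by
  rw [rho, map_sub, map_mul, map_sub, map_natCast, WittVector.map_teichmuller]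
  rfl

theorem key (h0 : ∀ b, (s b).coeff 0 = b) {Q : Type*} [CommRing Q]
    (π : MvPowerSeries (Gv n h e) W →+* Q) (h1 : (p : Q) = 0) (h2 : π (X (.inl none)) = 0) :
    (∀ x : Fin h × Fin (e + 1), π ((rho p s F e x.1).coeff x.2) = 0) ↔
      (∀ i, π (rename Sum.inl (F i)) = 0) ∧ ∀ x : Fin h × Fin e,
        π (X (.inr x) ^ p - rename Sum.inl ((s (F x.1)).coeff (x.2 + 1))) = 0 := by
  rcases subsingleton_or_nontrivial Q with hQ | hQ
  · simp [eq_iff_true_of_subsingleton]
  have : CharP Q p := (CharP.charP_iff_prime_eq_zero hp.out).2 h1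
  have k : ∀ i, (∀ j ≤ e, π ((rho p s F e i).coeff j) = 0) ↔ ∀ j ≤ e,
      π (rename Sum.inl ((s (F i)).coeff j)) = (WittVector.map π (zz p W n e i) * p).coeff j := by
    intro i
    simp only [← WittVector.map_coeff π, map_rho, h2, WittVector.teichmuller_zero, sub_zero]
    rw [tr, mul_comm]
    rfl
  have z : ∀ i (j : Fin e), (WittVector.map π (zz p W n e i) * p).coeff (j + 1) =
      π (X (.inr (i, j)) ^ p) := by
    intro i j
    rw [WittVector.mul_charP_coeff_succ, WittVector.map_coeff, map_pow, zz, WittVector.coeff_mk]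
    simp only [j.2, dite_true]
  constructor
  · intro H
    have H' := fun i => (k i).1 fun j hj => H (i, ⟨j, Nat.lt_succ_of_le hj⟩)
    refine ⟨fun i => ?_, fun x => ?_⟩
    · have := H' i 0 (Nat.zero_le _)
      rwa [h0, WittVector.mul_charP_coeff_zero] at this
    · rw [map_sub, H' x.1 _ x.2.2, z, sub_self]
  · rintro ⟨H1, H2⟩ x
    refine (k x.1).2 (fun j hj => ?_) _ (Nat.lt_succ_iff.1 x.2.2)
    cases j with
    | zero => rw [h0, WittVector.mul_charP_coeff_zero, H1]
    | succ j =>
      have := H2 (x.1, ⟨j, hj⟩)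
      rw [map_sub, sub_eq_zero] at this
      exact this.symm.trans (z x.1 ⟨j, hj⟩).symm

end Ek

open Ek in
theorem ekStmt (_hF : PhlStmt.{u}) : EkStmt.{u} := by
  intro p hp W T' _ _ _ σ n h _ _ _ ϖ F j2 s H e
  have h0 : (p : W) ≠ 0 := fun h => IsDiscreteValuationRing.not_a_field W (by
    rw [H.coh.max, h]
    simp)
  have c0 : ∀ b, (s b).coeff 0 = b := fun b => by simpa [ghost] using H.dw.gh b 0
  have cf : ∀ i j, (s (F i)).coeff j ∈ Ideal.span (Set.range (X : Bv n h → BB W n h)) := by
    intro i
    refine H.dw.idl _ (fun a ha => ?_) (fun b hb => ?_) _ (H.pr.mem i)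
    · rw [memX] at ha ⊢
      change constantCoeff (MvPowerSeries.map σ.toRingHom (expand p hp.out.ne_zero a)) = 0
      rw [constantCoeff_map, constantCoeff_expand, ha, map_zero]
    · rw [memX] at hb ⊢
      rw [map_mul, map_natCast] at hb
      exact (mul_eq_zero.1 hb).resolve_left h0
  have wit : ∀ i, ∀ j ≤ e, (WittVector.map (gm p s F e).toRingHom (s (F i)) -
      ((p : WittVector p (GG p s F e)) - WittVector.teichmuller p (gm p s F e (X none))) *
        WittVector.map (Ideal.Quotient.mk (GI p s F e)) (zz p W n e i)).coeff j = 0 := by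
    intro i j hj
    have e1 : gm p s F e (X none) = Ideal.Quotient.mk (GI p s F e) (X (.inl none)) := by
      simp [gm]
    have := congrArg (fun x => x.coeff j) (map_rho p s F e (Ideal.Quotient.mk (GI p s F e)) i)
    simp only [WittVector.map_coeff] at this
    rw [e1]
    exact this.symm.trans (Ideal.Quotient.eq_zero_iff_mem.2
      (Ideal.subset_span ⟨(i, ⟨j, Nat.lt_succ_of_le hj⟩), rfl⟩))
  refine ⟨cf, ?_, ?_, wit, fun i j hj => ?_⟩
  · rw [GI, Ideal.span_le]
    rintro _ ⟨x, rfl⟩
    have a1 : WittVector.map (constantCoeff.comp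
        (rename (R := W) (Sum.inl : Bv n h → Gv n h e)).toRingHom) (s (F x.1)) = 0 := by
      rw [WittVector.map_eq_zero_iff]
      intro j
      exact (constantCoeff_rename _ _).trans ((memX _).1 (cf x.1 j))
    have a2 : WittVector.map constantCoeff (zz p W n e x.1) = 0 := by
      rw [WittVector.map_eq_zero_iff]
      intro j
      rw [zz, WittVector.coeff_mk]
      split_ifs <;> simp
    rw [SetLike.mem_coe, memX, ← WittVector.map_coeff, map_rho, a1, a2, mul_zero, sub_zero,
      WittVector.zero_coeff]
  · have k : ∀ I : Ideal (MvPowerSeries (Gv n h e) W),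
        Ideal.span {(p : MvPowerSeries (Gv n h e) W), X (.inl none)} ≤ I →
        (GI p s F e ≤ I ↔ Ideal.span (Set.range fun i => rename Sum.inl (F i)) ≤ I ∧
          Ideal.span (Set.range fun x : Fin h × Fin e =>
            X (.inr x) ^ p - rename Sum.inl ((s (F x.1)).coeff (x.2 + 1))) ≤ I) := by
      intro I hI
      have := key p s F e c0 (Ideal.Quotient.mk I) (by
        rw [← map_natCast (Ideal.Quotient.mk I)]
        exact Ideal.Quotient.eq_zero_iff_mem.2 (hI (Ideal.subset_span (by simp))))
        (Ideal.Quotient.eq_zero_iff_mem.2 (hI (Ideal.subset_span (by simp))))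
      simp only [Ideal.Quotient.eq_zero_iff_mem] at this
      simp only [GI, Ideal.span_le, Set.range_subset_iff, SetLike.mem_coe]
      exact this
    apply le_antisymm
    · exact sup_le (le_sup_left.trans le_sup_left) ((k _ (le_sup_left.trans le_sup_left)).2
        ⟨le_sup_right.trans le_sup_left, le_sup_right⟩)
    · obtain ⟨a, b⟩ := (k _ le_sup_left).1 le_sup_right
      exact sup_le (sup_le le_sup_left a) b
  · have := ghost_zero p j _ fun l hl => wit i l (hl.trans hj)
    rw [map_sub, map_mul, map_sub, map_natCast, WittVector.ghostComponent_teichmuller, ghost_map,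
      H.dw.gh, ghost, sub_eq_zero] at this
    exact this

end Vale.Agent.P202.Mx
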