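import Vale.Agent.P202.M.SpecT

/-! Module EN: the engine inequality over the envelope. -/

open Finset Matrix MvPowerSeries Filter Topology IsLocalRing
open scoped Kronecker Nat

namespace Vale.Agent.P202.Mx

universe u

namespace Eng

theorem arith (a b κ s S q o t td P lam lam' F e Q : ℕ) (hF : 1 ≤ F) (htd : 1 ≤ td) (he : 1 ≤ e)
    (h : td * (κ * F * S) ≤ F * (s * lam) + a * (td * (2 * (Q * (e * ((t + 2) * o)) * P)) +
      2 * (Q * ((e * ((t + 2) * o) + κ) * P + κ * (s + q) ^ (b + 1))) +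
      2 * (Q * κ * (s + q) ^ b) * (s * lam'))) :
    td * κ * S ≤ s * lam + (4 * a * Q * e + Q + 2) * ((o * (t + 2) * td + κ * td) * P +
      κ * (s + q) ^ (b + 1) * (lam' + 1)) := by
  set R := (s + q) ^ (b + 1) with hR
  set A := o * (t + 2) * td * P
  set B := κ * td * P
  have h1 : td * (2 * (Q * (e * ((t + 2) * o)) * P)) = 2 * Q * e * A := by ring
  have h2 : 2 * (Q * ((e * ((t + 2) * o) + κ) * P + κ * R)) ≤ 2 * Q * e * (A + B + κ * R) := by
    calc _ = 2 * Q * (e * (o * (t + 2) * 1 * P) + 1 * (κ * 1 * P) + 1 * (κ * R)) := by ring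
      _ ≤ 2 * Q * (e * (o * (t + 2) * td * P) + e * (κ * td * P) + e * (κ * R)) := by gcongr
      _ = _ := by ring
  have h3 : 2 * (Q * κ * (s + q) ^ b) * (s * lam') ≤ 2 * Q * e * (κ * R * lam') := by
    calc _ = 2 * Q * 1 * (κ * ((s + q) ^ b * s) * lam') := by ring
      _ ≤ 2 * Q * e * (κ * ((s + q) ^ b * (s + q)) * lam') := by gcongr; omega
      _ = _ := by rw [hR, pow_succ]
  have h4 : F * (td * κ * S) ≤ F * (s * lam + (4 * a * Q * e + Q + 2) *
      (A + B + κ * R * (lam' + 1))) := by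
    calc _ = td * (κ * F * S) := by ring
      _ ≤ F * (s * lam) + a * (2 * Q * e * A + 2 * Q * e * (A + B + κ * R) +
        2 * Q * e * (κ * R * lam')) := by rw [h1] at h; exact h.trans (by gcongr)
      _ = F * (s * lam) + 1 * (2 * a * Q * e * (A + (A + B + κ * R * (lam' + 1)))) := by ring
      _ ≤ F * (s * lam) + F * (2 * a * Q * e * ((A + B + κ * R * (lam' + 1)) +
        (A + B + κ * R * (lam' + 1)))) := by gcongr; omega
      _ = F * (s * lam + (4 * a * Q * e) * (A + B + κ * R * (lam' + 1))) := by ring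
      _ ≤ _ := by gcongr; omega
  calc _ ≤ _ := Nat.le_of_mul_le_mul_left h4 hF
    _ = _ := by ring

theorem ndvd {p : ℕ} {W U : Type u} [CommRing W] [IsDomain W] [IsDiscreteValuationRing W]
    [CommRing U] [IsDomain U] [IsDiscreteValuationRing U] {r : ℕ} (hS : Seg.{u} r) (j : W →+* U)
    (w : U) (hw : Irreducible w) (hm : maximalIdeal W = Ideal.span {(p : W)})
    (hj : ∀ a, w ∣ j a → (p : W) ∣ a) (a : PS W r) (o n : ℕ)
    (ho : (MvPowerSeries.map (residue W) a).order ≤ o) :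
    ¬ C w ^ (n * o + 1) ∣ thA w r (MvPowerSeries.map j (a ^ n)) := by
  refine hS.low U w hw _ _ fun h => ?_
  rw [hS.mem] at h
  have h1 : (MvPowerSeries.map (residue W) (a ^ n)).order ≤ (n * o : ℕ) := by
    have := order_prod (fun _ : Fin n => MvPowerSeries.map (residue W) a) univ
    rw [prod_const, sum_const, card_univ, Fintype.card_fin] at this
    rw [map_pow, this, nsmul_eq_mul, Nat.cast_mul]
    gcongr
  have h2 : ((n * o + 1 : ℕ) : ℕ∞) ≤ (MvPowerSeries.map (residue W) (a ^ n)).order := by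
    refine nat_le_order fun e he => ?_
    rw [coeff_map, residue_eq_zero_iff, hm, Ideal.mem_span_singleton]
    exact hj _ ((dvd_pow_self w (by omega : n * o + 1 - e.degree ≠ 0)).trans (h e))
  have := h2.trans h1
  rw [Nat.cast_le] at this
  omega

theorem mapX {W V : Type u} [CommRing W] [CommRing V] {r : ℕ} (j : W →+* V) (v : V) (s : ℕ) :
    Ideal.span (Set.range (X : Fin r → PS W r)) ^ s ≤
      (mw v r ^ s).comap (MvPowerSeries.map (σ := Fin r) j) := by
  refine le_trans (Ideal.pow_right_mono ?_ s) (Ideal.le_comap_pow _ s)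
  rw [Ideal.span_le]
  rintro _ ⟨l, rfl⟩
  simp only [SetLike.mem_coe, Ideal.mem_comap, map_X]
  exact Ideal.subset_span (Set.mem_insert_of_mem _ ⟨l, rfl⟩)

end Eng

open Eng in
theorem engStmt (hv : VtStmt.{u}) (hb : BcVStmt.{u}) (hT : TauStmt.{u}) (hS : SegStmt.{u})
    (hE : EuStmt.{u}) (hM : ShmStmt.{u}) (hD : DmStmt.{u}) : EngStmt.{u} := by
  intro p W T _ _ _ _ m J c d N r ι _ _ deg dF i0 y xT hW hd hdc hm hu hR hJ hy hx hp
  obtain ⟨CD, hCD⟩ := hD T m J c d N ι deg dF i0 y (Fin (r + 1)) (Fin.cons (p : T) xT) hd hm hu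
    hR hJ hy (fun j => Fin.cases hp hx j)
  obtain ⟨CE, hCE⟩ := hE (ResidueField W) r
  refine ⟨4 * CD * CE * 4 ^ r + CE + 2, ?_⟩
  intro t s k q o hq G _ _ _ _ _ κ _ _ b τ γ Φ ht hs hsq hC hG hτ hτ' ho hΦ h1 hX hΦm 𝔫 lam I0
    lam' h𝔫 hlam hI0 hlam'
  have h2s : 2 * s ≤ s * k := le_trans (Nat.mul_le_mul (by omega) (by omega)) hC
  have hEs : CE * (N * d * t * q + s) ≤ s * k := le_trans (Nat.mul_le_mul_right _ (by omega)) hC
  have hk : 1 ≤ k := by
    rcases k with _ | k
    · omega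
    · omega
  obtain ⟨U, V, _, _, _, _, _, j, w, f, hw, hws, hf, hker, hch, hres, hj, hgen⟩ :=
    hv p W s k hW.max hs hk
  have hvs : f w ^ s = p := by rw [← map_pow, hws, map_natCast]
  obtain ⟨Λ, _, _, _, _, b', i, hB⟩ := hb p W G V r κ b (f.comp j) (f w) s (s * k) hW hG hch hs
    h2s hvs (fun a ⟨z, hz⟩ => by
      obtain ⟨z, rfl⟩ := hf z
      have : j a - w * z ∈ RingHom.ker f := by
        rw [RingHom.mem_ker, map_sub, map_mul, ← hz]; simp
      rw [hker, Ideal.mem_span_singleton] at this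
      have := (dvd_pow_self w (by omega : s * k ≠ 0)).trans this
      exact hj a (by simpa using dvd_add this (dvd_mul_right w z)))
    (fun z => by
      obtain ⟨z, rfl⟩ := hf z
      obtain ⟨a, rfl⟩ := hgen z
      exact ⟨a, by simp⟩)
  obtain ⟨fE, hEu⟩ := hCE V (f w) (s * k) hch hres Λ κ b' (i γ ^ (t + 2))
    (4 ^ r * ((t + 2) * o)) s (N * d * t * q) q hq hs hEs (fun ι' _ _ deg' => by
      have e : (Algebra.leftMulMatrix b' (i γ ^ (t + 2))).map (thA (f w) r) =
          (((Algebra.leftMulMatrix b (γ ^ (t + 2))).map (MvPowerSeries.map j)).map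
            (thA w r)).map (MvPowerSeries.map f) := by
        rw [← map_pow, hB.mat]
        ext a a' : 2
        simp only [Matrix.map_apply]
        rw [(hS r).map, ← RingHom.comp_apply (MvPowerSeries.map f), ← map_comp]
      have := hT U V w (s * k) r f hw hf hker hch κ
        (((Algebra.leftMulMatrix b (γ ^ (t + 2))).map (MvPowerSeries.map j)).map (thA w r))
        ((t + 2) * o) (by
          rw [← e]
          intro a a'
          exact (hS r).ord V (f w) _ 0 (by simp)) (by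
          have := ndvd (hS r) j w hw hW.max hj _ o (t + 2) ho
          rwa [← det_pow, ← map_pow (Algebra.leftMulMatrix b), RingHom.map_det,
            AlgHom.map_det] at this) ι' deg'
      rw [e, ← mul_assoc]
      exact this)
  set 𝔬 := (mw (f w) r ^ s).map (algebraMap (PS V r) Λ) with h𝔬
  have hCp : (C (f w) : PS V r) ^ s = p := by rw [← map_pow, hvs, map_natCast]
  have hp𝔬 : (p : Λ) ∈ 𝔬 := by
    rw [← map_natCast (algebraMap (PS V r) Λ), ← hCp]
    exact Ideal.mem_map_of_mem _ (Ideal.pow_mem_pow (Ideal.subset_span (Set.mem_insert _ _)) s)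
  have hi𝔬 : (Ideal.span (Set.range X) ^ s).map (algebraMap (PS W r) G) ⊔ Ideal.span {(p : G)} ≤
      𝔬.comap i := by
    refine sup_le (Ideal.map_le_iff_le_comap.2 fun a ha => ?_) ?_
    · rw [Ideal.mem_comap, Ideal.mem_comap, hB.alg]
      exact Ideal.mem_map_of_mem _ (mapX _ _ s ha)
    · rw [Ideal.span_singleton_le_iff_mem, Ideal.mem_comap, map_natCast]
      exact hp𝔬
  have hle : (Ideal.span (Set.range X) ^ (s + 1)).map (algebraMap (PS W r) G) ⊔
      Ideal.span {(p : G) ^ 2} ≤ (Ideal.span (Set.range X) ^ s).map (algebraMap (PS W r) G) ⊔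
      Ideal.span {(p : G)} := sup_le_sup (Ideal.map_mono (Ideal.pow_le_pow_right (Nat.le_succ s)))
      (Ideal.span_singleton_le_span_singleton.2 (dvd_pow_self _ two_ne_zero))
  let K : Ideal Λ := Ideal.span {(p : Λ) - i τ}
  let π : Λ →ₐ[V] Λ ⧸ K := Ideal.Quotient.mkₐ V K
  obtain ⟨f', hEu'⟩ := hM V (PS V r) Λ (Λ ⧸ K) π ((p : Λ) - i τ) _ _ 𝔬 _ _ _ _ r fE _ _ _ _ _
    (Ideal.Quotient.mkₐ_surjective V K) (Ideal.Quotient.mkₐ_ker V K) (hB.nzd τ hτ')
    (sub_mem hp𝔬 (hi𝔬 (hle hτ))) (hB.can τ hτ) hEu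
  let ib : G ⧸ Ideal.span {(p : G) ^ k, (p : G) - τ} →+* Λ ⧸ K :=
    Ideal.Quotient.lift _ ((π : Λ →+* Λ ⧸ K).comp i) fun a ha => by
      have : Ideal.span {(p : G) ^ k, (p : G) - τ} ≤
          RingHom.ker ((π : Λ →+* Λ ⧸ K).comp i) := by
        rw [Ideal.span_le]
        rintro _ (rfl | rfl)
        · rw [SetLike.mem_coe, RingHom.mem_ker, map_pow, map_natCast,
            ← map_natCast (algebraMap V (Λ ⧸ K)), ← hvs, ← map_pow, ← pow_mul, hch.nil, map_zero]
        · rw [SetLike.mem_coe, RingHom.mem_ker, RingHom.comp_apply, map_sub, map_natCast]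
          exact Ideal.Quotient.eq_zero_iff_mem.2 (Ideal.subset_span rfl)
      exact this ha
  have hib : ∀ z, ib (Ideal.Quotient.mk _ z) = π (i z) := fun z => rfl
  rw [map_pow] at hEu'
  have := hCD t q V (PS V r) (Λ ⧸ K) _ _ _ _ (π (i γ)) r f' _ _ _ _ _
    (ib.toAddMonoidHom.comp Φ) ht hdc hEu' (fun a a' => by
      change ib (Φ a) * ib (Φ a') = _ * ib (Φ (a * a'))
      rw [← map_mul, hΦ, map_mul, hib]) (by
      change ib (Φ 1) = _
      rw [h1, hib]) (fun l => by
      refine Fin.cases ⟨s, hsq, fun a => ?_⟩ (fun l => ⟨q, le_rfl, fun a => ?_⟩) l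
      · rw [Fin.cons_zero, ← nsmul_eq_mul, map_nsmul, nsmul_eq_mul, xi, Fin.cons_zero, ← map_pow,
          ← map_pow, hCp, map_natCast, map_natCast]
      · change ib (Φ (xT l * a)) = _ * ib (Φ a)
        rw [hX, map_mul, map_pow, hib, hB.alg, map_X, xi, Fin.cons_succ]) (fun a ha => by
      obtain ⟨z, hz, e⟩ := (Ideal.mem_map_iff_of_surjective _ Ideal.Quotient.mk_surjective).1
        (hΦm a ha)
      change ib (Φ a) ∈ _
      rw [← e, hib]
      exact Ideal.mem_map_of_mem _ (hi𝔬 hz))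
    (𝔫.map ((π : Λ →+* Λ ⧸ K).comp i)) (s * lam) (I0.map (MvPowerSeries.map (f.comp j)))
    (s * lam') (by
      refine Ideal.map_le_iff_le_comap.2 (h𝔫.trans (Ideal.span_le.2 ?_))
      rintro z ⟨a, ha, e⟩
      refine Ideal.subset_span ⟨a, ha, ?_⟩
      change _ = ib (Φ a)
      rw [← e, hib, map_mul, map_mul]
      rfl) (by
      have hl : 𝔫.map i ≤ (𝔫.map ((π : Λ →+* Λ ⧸ K).comp i)).comap π := by
        rw [← Ideal.map_map]
        exact Ideal.le_comap_map
      refine (Module.length_le_of_surjective (Ideal.quotientMapₐ _ π hl).toLinearMap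
        (Ideal.quotientMap_surjective (H := hl) (Ideal.Quotient.mkₐ_surjective V K))).trans
        ((hB.len 𝔫).trans ?_)
      rw [Nat.cast_mul]
      gcongr) (by
      refine Ideal.map_le_iff_le_comap.2 (hI0.trans (Ideal.span_le.2 ?_))
      rintro z ⟨a, ha, e⟩
      refine Ideal.subset_span ⟨a, ha, ?_⟩
      change _ = ib (Φ a)
      rw [← e, hib, map_mul, map_mul, hB.alg, map_expand]
      rfl) (by
      have := hB.len' (I0 ⊔ Ideal.span {(p : PS W r) ^ (r + 1)})
      rw [Ideal.map_sup, Ideal.map_span, Set.image_singleton, map_pow, map_natCast, ← hCp,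
        ← pow_mul] at this
      refine this.trans ?_
      rw [Nat.cast_mul]
      gcongr)
  exact arith _ _ _ _ _ _ _ _ _ _ _ _ _ _ _ (Nat.factorial_pos _) (Nat.pow_pos ht)
    (Nat.pow_pos (by norm_num)) this

end Vale.Agent.P202.Mx
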