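import Vale.Agent.P202.M.SpecT
import Vale.Agent.P202.M.Ub
import Vale.Agent.P202.M.Hs2

open Finset Matrix MvPowerSeries Filter Topology IsLocalRing
open scoped Kronecker Nat

namespace Vale.Agent.P202.Mx

universe u

namespace FI

lemma ln_bij {A B : Type u} [CommRing A] [CommRing B] (e : A →+* B) (he : Function.Bijective e)
    (I : Ideal A) : ln (I.map e) = ln I := by
  let := e.toAlgebra
  rw [ln, ln, ← Module.length_eq_of_surjective (S := A) he.2]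
  exact (Ideal.quotientEquivAlg I (I.map e) (AlgEquiv.ofBijective (Algebra.ofId A B) he)
    rfl).toLinearEquiv.length_eq.symm

lemma len_q (A : Type u) {T M : Type u} [CommRing A] [CommRing T] [CommRing M] [Algebra T M]
    [Algebra A T] [Algebra A M] [IsScalarTower A T M] (I : Ideal T) :
    Module.length A (M ⧸ (I • ⊤ : Submodule T M)) =
      Module.length A (M ⧸ I.map (algebraMap T M)) := by
  rw [Ideal.smul_top_eq_map]
  exact ((Submodule.Quotient.restrictScalarsEquiv T (I.map (algebraMap T M))).restrictScalars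
    A).length_eq

lemma map_bij {W : Type u} [CommRing W] (σ : W ≃+* W) (ν : Type) :
    Function.Bijective (MvPowerSeries.map (σ := ν) σ.toRingHom) := by
  refine Function.bijective_iff_has_inverse.2 ⟨MvPowerSeries.map σ.symm.toRingHom, ?_, ?_⟩ <;>
  · intro a
    ext m
    simp

lemma comap_sup {A T : Type u} [CommRing A] [CommRing T] (f : A →+* T) (J : Ideal T)
    (hs : ∀ b, ∃ a, b - f a ∈ J) (K : Ideal A) : (J ⊔ K.map f).comap f = J.comap f ⊔ K := by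
  refine le_antisymm (fun a ha => ?_) (sup_le (Ideal.comap_mono le_sup_left)
    (Ideal.le_comap_map.trans (Ideal.comap_mono le_sup_right)))
  have key : ∀ z ∈ K.map f, ∃ c ∈ K, z - f c ∈ J := by
    intro z hz
    induction hz using Submodule.span_induction with
    | mem x hx =>
      obtain ⟨c, hc, rfl⟩ := hx
      exact ⟨c, hc, by simp⟩
    | zero => exact ⟨0, zero_mem _, by simp⟩
    | add x y _ _ hx hy =>
      obtain ⟨c, hc, h⟩ := hx
      obtain ⟨c', hc', h'⟩ := hy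
      refine ⟨c + c', add_mem hc hc', ?_⟩
      rw [map_add, add_sub_add_comm]
      exact add_mem h h'
    | smul b x _ hx =>
      obtain ⟨c, hc, h⟩ := hx
      obtain ⟨a', ha'⟩ := hs b
      refine ⟨a' * c, K.mul_mem_left _ hc, ?_⟩
      have : b • x - f (a' * c) = b * (x - f c) + (b - f a') * f c := by
        rw [map_mul, smul_eq_mul]; ring
      rw [this]
      exact add_mem (J.mul_mem_left _ h) (J.mul_mem_right _ ha')
  obtain ⟨x, hx, z, hz, h⟩ := Submodule.mem_sup.1 (Ideal.mem_comap.1 ha)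
  obtain ⟨c, hc, h'⟩ := key z hz
  rw [← sub_add_cancel a c]
  refine add_mem (Ideal.mem_sup_left ?_) (Ideal.mem_sup_right hc)
  rw [Ideal.mem_comap, map_sub, ← h, add_sub_assoc]
  exact add_mem hx h'

lemma lims (h2 : Hs2Stmt.{u}) {A : Type u} [CommRing A] [IsNoetherianRing A] (𝔞 : Ideal A) {d : ℕ}
    (y : Fin d → A) (hd : 1 ≤ d) (hf : ln (𝔞 ⊔ bx y 1) ≠ ⊤) :
    (∀ t, ln (𝔞 ⊔ bx y t) ≠ ⊤) ∧ ∀ g, Nzm 𝔞 g →
      Tendsto (fun t : ℕ => ((ln (𝔞 ⊔ bx y t ⊔ Ideal.span {g})).toNat : ℝ) / (t : ℝ) ^ d)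
        atTop (𝓝 0) := by
  have hS := h2 (A ⧸ 𝔞) d (fun l => Ideal.Quotient.mk 𝔞 (y l)) hd (by
    rw [← H2.bx_one, Ubm.bx_map, Ubm.lnq]; exact hf)
  refine ⟨fun t => ?_, fun g hg => ?_⟩
  · have := hS.fin t
    rwa [Ubm.bx_map, Ubm.lnq] at this
  · have := (hS.nzd (Ideal.Quotient.mk 𝔞 g) fun a ha => by
      obtain ⟨a, rfl⟩ := Ideal.Quotient.mk_surjective a
      rw [← map_mul, Ideal.Quotient.eq_zero_iff_mem] at ha
      exact Ideal.Quotient.eq_zero_iff_mem.2 (hg a ha)).1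
    refine this.congr fun t => ?_
    rw [Ubm.bx_map, ← Set.image_singleton, ← Ideal.map_span, ← Ideal.map_sup, Ubm.lnq, sup_assoc]

lemma num {p j e : ℕ} (hp : 2 ≤ p) (hj : 1 ≤ j) (he : j + 2 ≤ e) :
    ∃ s, s + 1 = (p ^ j - 1) * p ^ (e - j) ∧ 1 ≤ s ∧ s ≤ p ^ e ∧ p ^ e ≤ 4 * s := by
  obtain ⟨c, rfl⟩ : ∃ c, e = j + c := ⟨e - j, by omega⟩
  rw [Nat.add_sub_cancel_left, pow_add]
  have h1 : 2 ≤ p ^ j := hp.trans (Nat.le_self_pow (by omega) p)
  have h2 : 2 ^ 2 ≤ p ^ c :=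
    (Nat.pow_le_pow_left hp 2).trans (Nat.pow_le_pow_right (by omega) (by omega))
  generalize p ^ j = a at h1
  generalize p ^ c = b at h2
  obtain ⟨a, rfl⟩ : ∃ a', a = a' + 2 := ⟨a - 2, by omega⟩
  obtain ⟨b, rfl⟩ : ∃ b', b = b' + 4 := ⟨b - 4, by omega⟩
  refine ⟨a * b + 4 * a + b + 3, ?_, by omega, ?_, ?_⟩
  · rw [show a + 2 - 1 = a + 1 by omega]; ring
  · nlinarith [Nat.zero_le (a * b)]
  · nlinarith [Nat.zero_le (a * b)]

section tl

variable {p : ℕ} [Fact p.Prime] {W T' T : Type u} [CommRing W] [IsLocalRing W] {n h : ℕ}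
  [CommRing T'] [Algebra W T'] [Algebra (PS W n) T'] [CommRing T] [Algebra T' T]
  {ϖ : BB W n h →ₐ[W] T'} {j1 : Fin h} {m : Ideal T} {K k j e : ℕ} {σ : W ≃+* W} {G : Type u}
  [CommRing G] [IsLocalRing G] [Algebra W G] [Algebra (PS W (n + 1)) G] {κ : Type} [Fintype κ]
  [DecidableEq κ] {b : Module.Basis κ (PS W (n + 1)) G} {τ γ : G} {M : Type u} [CommRing M]
  [Algebra T' M] [Algebra (PS W n) M] {ϱ : G →+* M}
  {Φ : T →+ G ⧸ Ideal.span {(p : G) ^ k, (p : G) - τ}}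

lemma tl_one (H : Tl p ϖ j1 m K k j e σ b τ γ ϱ Φ) {c : T'} {z : G}
    (hz : ϱ z = algebraMap T' M c) : Ideal.Quotient.mk _ (γ * z) = Φ (algebraMap T' T c) := by
  have := H.lin c z hz 1
  rw [mul_one, H.one] at this
  rw [this, map_mul, mul_comm]

lemma tl_n (H : Tl p ϖ j1 m K k j e σ b τ γ ϱ Φ) (𝔞 : Ideal T) (I : Ideal T')
    (hI : I ≤ 𝔞.comap (algebraMap T' T)) : (I.map (algebraMap T' M)).comap ϱ ≤
      Ideal.span {z | ∃ a ∈ 𝔞, Ideal.Quotient.mk _ (γ * z) = Φ a} := by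
  set 𝔷 := Ideal.span {z | ∃ a ∈ 𝔞, Ideal.Quotient.mk _ (γ * z) = Φ a}
  have h1 : I.map (algebraMap T' M) ≤ 𝔷.map ϱ := by
    rw [Ideal.map_le_iff_le_comap]
    intro c hc
    obtain ⟨z, hz⟩ := H.sur (algebraMap T' M c)
    rw [Ideal.mem_comap, ← hz]
    exact Ideal.mem_map_of_mem _ (Ideal.subset_span ⟨_, hI hc, tl_one H hz⟩)
  refine (Ideal.comap_mono h1).trans ?_
  rw [Ideal.comap_map_of_surjective _ H.sur, ← RingHom.ker_eq_comap_bot, H.ker]
  refine sup_le le_rfl ?_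
  rw [Ideal.span_le, Set.singleton_subset_iff]
  refine Ideal.subset_span ⟨0, zero_mem _, ?_⟩
  rw [map_zero, Ideal.Quotient.eq_zero_iff_mem]
  exact Ideal.mul_mem_left _ _ (Ideal.subset_span (by simp))

lemma tl_xx (H : Tl p ϖ j1 m K k j e σ b τ γ ϱ Φ) (l : Fin (n + 1)) :
    ϱ (algebraMap (PS W (n + 1)) G (X l) ^ p ^ e) = algebraMap T' M (ϖ (X (xv j1 l))) := by
  have := H.xx (X l)
  rw [rename_X, map_X, expand_X, map_pow] at this
  exact this.symm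

lemma tl_I0 (H : Tl p ϖ j1 m K k j e σ b τ γ ϱ Φ) (𝔞 : Ideal T) (f0 : PS W (n + 1) →+* T)
    (hf : ∀ a, f0 a = algebraMap T' T (ϖ (rename (xv j1) a))) :
    (𝔞.comap f0).map (MvPowerSeries.map σ.toRingHom) ≤ Ideal.span {z | ∃ a ∈ 𝔞,
      Ideal.Quotient.mk _ (γ * algebraMap (PS W (n + 1)) G (expand (p ^ e) (pow_ne p e) z)) =
        Φ a} := by
  rw [Ideal.map_le_iff_le_comap]
  intro a ha
  exact Ideal.subset_span ⟨f0 a, ha, by rw [hf]; exact tl_one H (H.xx a).symm⟩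

lemma tl_lb (H : Tl p ϖ j1 m K k j e σ b τ γ ϱ Φ) (I : Ideal T')
    (hI : Ideal.span (Set.range fun l => ϖ (X (xv j1 l))) ≤ I) :
    lm M I ≤ ((p ^ e) ^ (n + 1) * Fintype.card κ : ℕ) := by
  rw [lm, len_q T' I, (H.len _).2]
  refine (H2.ln_anti (sup_le ?_ ?_)).trans H.lb
  · rw [Ideal.span_le]
    rintro _ ⟨l, rfl⟩
    rw [SetLike.mem_coe, Ideal.mem_comap, tl_xx H]
    exact Ideal.mem_map_of_mem _ (hI (Ideal.subset_span ⟨l, rfl⟩))
  · rw [← H.ker]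
    exact Ideal.ker_le_comap ϱ

lemma tl_kap (hL : LbStmt.{u}) (H : Tl p ϖ j1 m K k j e σ b τ γ ϱ Φ) {d : ℕ} {ER : ℝ}
    (her : ∃ (x : Fin d → T') (𝔶 : Ideal T') (π1 : T'),
    Ideal.span (Set.range fun l => ϖ (X (xv j1 l))) ≤ bx x 1 ⊔ 𝔶 ∧
    (∀ b, ∃ b', algebraMap T' T b' = algebraMap T' T π1 * b) ∧ (∀ s, lm T (bx x s ⊔ 𝔶) ≠ ⊤) ∧
    (∀ s : ℕ, 1 ≤ s → ER * (s : ℝ) ^ d ≤ (lm T (bx x s ⊔ 𝔶)).toNat) ∧ ∀ a : ℕ,
    Tendsto (fun s : ℕ => ((lm T (bx x s ⊔ 𝔶 ⊔ Ideal.span {(p : T') ^ a * π1})).toNat : ℝ) /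
      (s : ℝ) ^ d) atTop (𝓝 0)) : ((p ^ e : ℕ) : ℝ) ^ h * ER ≤ Fintype.card κ := by
  obtain ⟨x, 𝔶, π1, h1, h2, h3, h4, h5⟩ := her
  obtain ⟨g, a, hg⟩ := H.mo.map
  rw [map_natCast] at hg
  have := hL T' T M _ d g _ π1 x 𝔶 ER _ hg h2 h3 h4 (h5 a) (tl_lb H _ h1)
  have hq : (0 : ℝ) < ((p ^ e : ℕ) : ℝ) ^ (n + 1) :=
    pow_pos (Nat.cast_pos.2 (Nat.pos_of_ne_zero (pow_ne p e))) _
  refine le_of_mul_le_mul_left ?_ hq
  generalize p ^ e = q at this ⊢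
  push_cast at this
  calc (q : ℝ) ^ (n + 1) * ((q : ℝ) ^ h * ER) = (q : ℝ) ^ (n + h + 1) * ER := by ring
    _ ≤ _ := this

end tl

lemma lim_U {l l' : ℕ → ℝ} {d : ℕ} {E ρ : ℝ}
    (h1 : Tendsto (fun t : ℕ => l t / (t : ℝ) ^ d) atTop (𝓝 E))
    (h2 : Tendsto (fun t : ℕ => l' t / (t : ℝ) ^ d) atTop (𝓝 0)) :
    Tendsto (fun t : ℕ => (E * (t : ℝ) ^ d + ρ * (l t - E * (t : ℝ) ^ d + l' t)) / (t : ℝ) ^ d)
      atTop (𝓝 E) := by
  have := (((h1.sub_const E).add h2).const_mul ρ).const_add E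
  rw [sub_self, add_zero, mul_zero, add_zero] at this
  refine this.congr' ?_
  filter_upwards [eventually_gt_atTop 0] with t ht
  have : (t : ℝ) ^ d ≠ 0 := pow_ne_zero _ (Nat.cast_ne_zero.2 ht.ne')
  field_simp

lemma lim_one {l : ℕ → ℝ} {d : ℕ} (hd : 1 ≤ d)
    (h : Tendsto (fun t : ℕ => l t / (t : ℝ) ^ d) atTop (𝓝 0)) :
    Tendsto (fun t : ℕ => (l t + 1) / (t : ℝ) ^ d) atTop (𝓝 0) := by
  have h1 : Tendsto (fun t : ℕ => (1 : ℝ) / (t : ℝ) ^ d) atTop (𝓝 0) :=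
    tendsto_const_nhds.div_atTop
      ((tendsto_pow_atTop (by omega)).comp tendsto_natCast_atTop_atTop)
  have := h.add h1
  rw [add_zero] at this
  exact this.congr fun t => (add_div _ _ _).symm

end FI

open FI in
theorem finStmt (hT : TlStmt.{u}) (hE : EngStmt.{u}) (hU : UbStmt.{u}) (hL : LbStmt.{u})
    (h2 : Hs2Stmt.{u}) (hA : LamStmt.{u}) (hN : NumFStmt) (hV : EvWStmt.{u}) : FinStmt.{u} := by
  intro p _ W T' T _ _ _ σ n h d _ _ _ _ _ ϖ F j1 j2 m J y ER ES hW hσ S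
  have hp : 2 ≤ p := (Fact.out : p.Prime).two_le
  have cwA := (hV p W (Fin n) hW).cw
  have cwA0 := (hV p W (Fin (n + 1)) hW).cw
  have := cwA.noeth
  obtain ⟨K, k0, hTl⟩ := hT p W T' T σ n h ϖ F j1 j2 m hW hσ S.pr S.ov
  obtain ⟨c, ι, _, _, deg, dF, i0, hc, hRs⟩ := S.rs
  obtain ⟨N, hNm⟩ := S.prim
  obtain ⟨ε, Δ, e1, e2, e3⟩ := S.eps
  let f : PS W n →+* T := (algebraMap T' T).comp (algebraMap (PS W n) T')
  let f0 : PS W (n + 1) →+* T := (algebraMap T' T).comp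
    ((ϖ.comp (rename (xv j1))).toRingHom)
  obtain ⟨C, hC⟩ := hE p W T m J c d N (n + 1) ι deg dF i0 (fun l => f (y l))
    (fun l => algebraMap T' T (ϖ (X (xv j1 l)))) hW S.d1 hc S.ne S.unit hRs S.jm S.ym
    (fun l => hNm (Ideal.pow_mem_pow (S.xm l) N)) (hNm (Ideal.pow_mem_pow S.ov.pm N))
  set J' := J.comap (algebraMap T' T) with hJ'
  set 𝔞 := J'.comap (algebraMap (PS W n) T') with h𝔞
  obtain ⟨fin, lim⟩ := lims h2 𝔞 y S.d1 S.fin
  have nz : Nzm 𝔞 (p * Δ) := fun a ha => e3 _ (by rwa [← map_mul])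
  have nΔ : Nzm 𝔞 Δ := fun a ha => nz a (by rw [mul_assoc]; exact 𝔞.mul_mem_left _ ha)
  have np : ∀ i, Nzm 𝔞 ((p : PS W n) ^ i) := by
    intro i
    induction i with
    | zero => exact fun a ha => by simpa using ha
    | succ i ih =>
      refine fun a ha => ih a (nz _ ?_)
      rw [show (p : PS W n) * Δ * (p ^ i * a) = Δ * (p ^ (i + 1) * a) by ring]
      exact 𝔞.mul_mem_left _ ha
  have hES : 0 ≤ ES := ge_of_tendsto' S.es' fun t => by positivity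
  refine hN p C K N d (n + 1) h (fun t => ES * (t : ℝ) ^ d + Module.finrank (PS W n) T' *
    ((ln (𝔞 ⊔ bx y t)).toNat - ES * (t : ℝ) ^ d + (ln (𝔞 ⊔ bx y t ⊔ Ideal.span {Δ})).toNat))
    (fun t => (ln (𝔞 ⊔ bx y t ⊔ Ideal.span {(p : PS W n) ^ (n + 1 + 1)})).toNat) ER ES hp
    (fun t => ?_) (fun t => Nat.cast_nonneg _) (lim_U S.es' (lim Δ nΔ))
    (lim_one S.d1 (lim _ (np _))) fun t ht j hj => ?_
  · have h0 : ES * (t : ℝ) ^ d ≤ (ln (𝔞 ⊔ bx y t)).toNat := by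
      rcases Nat.eq_zero_or_pos t with rfl | ht
      · rw [Nat.cast_zero, zero_pow (by have := S.d1; omega), mul_zero]
        exact Nat.cast_nonneg _
      · exact S.es t ht
    have := sub_nonneg.2 h0
    positivity
  filter_upwards [hTl (max k0 (C * (4 * (N * d * t) + 1))) (le_max_left _ _) j,
    eventually_ge_atTop (j + 2)] with e he hje
  obtain ⟨σ', G, _, _, _, _, _, κ, _, _, b, τ, γ, M, _, _, _, _, ϱ, Φ, H⟩ := he
  obtain ⟨s, hs, s1, s2, s3⟩ := num hp hj hje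
  obtain ⟨lam, l1, l2⟩ := hU (PS W n) T' M p _ J' ε Δ d y ES H.mo S.d1
    (fun h => S.ne (top_le_iff.1 ((Ideal.comap_eq_top_iff.1 h).ge.trans S.jm)))
    (fun b => by
      obtain ⟨a, ha⟩ := S.sur (algebraMap T' T b)
      exact ⟨a, by rwa [Ideal.mem_comap, map_sub]⟩) e1 e2 e3 S.fin S.es t ht
  have hbx : bx (fun l => f (y l)) t = (bx y t).map f := Ubm.bx_map f y t
  have hcm : (J ⊔ bx (fun l => f (y l)) t).comap f = 𝔞 ⊔ bx y t := by
    rw [hbx, comap_sup f J S.sur]; rfl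
  have key := hC t s (max k0 (C * (4 * (N * d * t) + 1))) (p ^ e) _ (pow_ne p e) G κ b τ γ Φ ht s1
    s2 (by
      calc C * (N * d * t * p ^ e + s) ≤ C * (N * d * t * (4 * s) + s) := by gcongr
        _ = s * (C * (4 * (N * d * t) + 1)) := by ring
        _ ≤ _ := Nat.mul_le_mul_left _ (le_max_right _ _))
    H.cw (hs ▸ H.ord) H.nzm H.det H.mul H.one
    (fun l a => by rw [H.lin _ _ (tl_xx H l), map_pow])
    (fun a ha => Ideal.map_mono (sup_le_sup_right (Ideal.map_mono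
      (Ideal.pow_le_pow_right (by omega))) _) (H.om a ha))
    _ lam _ (ln (𝔞 ⊔ bx y t ⊔ Ideal.span {(p : PS W n) ^ (n + 1 + 1)})).toNat
    (tl_n H _ (J' ⊔ (bx y t).map (algebraMap (PS W n) T')) (sup_le (Ideal.comap_mono le_sup_left)
      (by
        rw [← Ideal.map_le_iff_le_comap, Ideal.map_map, hbx]
        exact le_sup_right)))
    (by rw [← (H.len _).1, ← len_q]; exact l1)
    (tl_I0 H _ f0 fun _ => rfl)
    (by
      have hm : (p : PS W (n + 1)) ^ (n + 1 + 1) =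
          MvPowerSeries.map σ'.toRingHom ((p : PS W (n + 1)) ^ (n + 1 + 1)) := by
        rw [map_pow, map_natCast]
      rw [hm, ← Set.image_singleton, ← Ideal.map_span, ← Ideal.map_sup, ln_bij _ (map_bij σ' _),
        ENat.natCast_toNat (ne_top_of_le_ne_top (fin t) (H2.ln_anti le_sup_left)), ← hcm]
      refine hA W _ _ T f0 f _ _ _ cwA0 cwA (fun c => ?_) (fun b => ?_) (hcm ▸ fin t) ?_
      · change algebraMap T' T ((ϖ.comp (rename (xv j1))) _) = algebraMap T' T _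
        rw [S.pr.alg, AlgHom.commutes, AlgHom.commutes, AlgHom.commutes]
      · obtain ⟨a, ha⟩ := S.sur b
        exact ⟨a, Ideal.mem_sup_left ha⟩
      · rw [map_pow, map_pow, map_natCast, map_natCast])
  refine ⟨Fintype.card κ, s, p ^ e, _, rfl, hs, rfl, tl_kap hL H S.er, ?_⟩
  have key' := (Nat.cast_le (α := ℝ)).2 key
  rw [show n + h + 1 = n + 1 + h by ring] at l2
  generalize p ^ e = q at key' l2 ⊢
  generalize K * p ^ (e * h) * p ^ (e - j) = o at key' ⊢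
  push_cast at key' l2 ⊢
  have := mul_le_mul_of_nonneg_left l2 (Nat.cast_nonneg (α := ℝ) s)
  linarith

end Vale.Agent.P202.Mx
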