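import Vale.Agent.P202.M.Re

/-! The perfected affine blow-up. -/

open Finset

namespace Vale.Agent.P202.Mx

universe u

namespace Hbm

theorem nzm_pow {R : Type u} [CommRing R] {K : Ideal R} {a : R} (h : Nzm K a) (n : ℕ) :
    Nzm K (a ^ n) := by
  induction n with
  | zero => intro b; simp
  | succ n ih => exact fun b hb => h b (ih _ (by rwa [← mul_assoc, ← pow_succ]))

variable {P L : Type u} [CommRing P] [CommRing L] [Algebra P L]

theorem split (t D : P) (N : ℕ) (y0 : L) (hy : algebraMap P L D * y0 = algebraMap P L t ^ N)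
    (M : ℕ) (f : Polynomial P) : ∃ (a : P) (g : Polynomial P), algebraMap P L D ^ M *
      Polynomial.aeval y0 f = algebraMap P L a + algebraMap P L t ^ (N * M) *
        Polynomial.aeval y0 g := by
  induction f using Polynomial.induction_on' with
  | add f1 f2 h1 h2 =>
    obtain ⟨a1, g1, h1⟩ := h1
    obtain ⟨a2, g2, h2⟩ := h2
    exact ⟨a1 + a2, g1 + g2, by simp only [map_add]; linear_combination h1 + h2⟩
  | monomial k c =>
    rcases le_total k M with h | h
    · obtain ⟨d, rfl⟩ := Nat.exists_eq_add_of_le h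
      refine ⟨c * D ^ d * t ^ (N * k), 0, ?_⟩
      simp only [Polynomial.aeval_monomial, map_mul, map_pow, map_zero, pow_mul, ← hy]
      ring
    · obtain ⟨d, rfl⟩ := Nat.exists_eq_add_of_le h
      refine ⟨0, Polynomial.monomial d c, ?_⟩
      simp only [Polynomial.aeval_monomial, map_zero, pow_mul, ← hy]
      ring

theorem clear (t D : P) (N : ℕ) (y0 : L) (hy : algebraMap P L D * y0 = algebraMap P L t ^ N)
    (f : Polynomial P) : ∃ (M : ℕ) (a : P),
      algebraMap P L D ^ M * Polynomial.aeval y0 f = algebraMap P L a := by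
  induction f using Polynomial.induction_on' with
  | add f1 f2 h1 h2 =>
    obtain ⟨m1, a1, h1⟩ := h1
    obtain ⟨m2, a2, h2⟩ := h2
    refine ⟨m1 + m2, D ^ m2 * a1 + D ^ m1 * a2, ?_⟩
    simp only [map_add, map_mul, map_pow, ← h1, ← h2]
    ring
  | monomial k c =>
    refine ⟨k, c * t ^ (N * k), ?_⟩
    simp only [Polynomial.aeval_monomial, map_mul, map_pow, pow_mul, ← hy]
    ring

end Hbm

open Hbm Rem Orm

theorem hbStmt : HbStmt.{u} := by
  intro p _ P _ _ _ t D N ht hu hD
  let L := Localization.Away D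
  have hz : ∀ a : P, algebraMap P L a = 0 → ∃ n, D ^ n * a = 0 := fun a ha => by
    obtain ⟨⟨_, n, rfl⟩, h⟩ := (IsLocalization.map_eq_zero_iff (Submonoid.powers D) L a).1 ha
    exact ⟨n, h⟩
  let y0 : L := algebraMap P L t ^ N * IsLocalization.Away.invSelf D
  have hy : algebraMap P L D * y0 = algebraMap P L t ^ N := by
    rw [mul_left_comm, IsLocalization.Away.mul_invSelf, mul_one]
  let K := (Polynomial.aeval y0 : Polynomial P →ₐ[P] L).range
  have : Nontrivial K := by
    refine ⟨1, 0, fun h => hu ?_⟩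
    obtain ⟨n, hn⟩ := hz 1 (by simpa using congrArg Subtype.val h)
    have := nzm_pow hD n 1 (by rw [hn]; exact zero_mem _)
    exact isUnit_of_dvd_one (Ideal.mem_span_singleton.1 this)
  have : CharP K p := (CharP.charP_iff_prime_eq_zero Fact.out).2 (by
    rw [← map_natCast (algebraMap P K), CharP.cast_eq_zero, map_zero])
  have htL : Nzd (algebraMap P L t) := fun b hb => by
    obtain ⟨⟨c, s⟩, rfl⟩ := IsLocalization.mk'_surjective (Submonoid.powers D) b
    rw [IsLocalization.mul_mk'_eq_mk'_of_mul, IsLocalization.mk'_eq_zero_iff] at hb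
    obtain ⟨m, hm⟩ := hb
    exact (IsLocalization.mk'_eq_zero_iff _ _).2 ⟨m, ht _ (by linear_combination hm)⟩
  refine ⟨PerfectClosure K p, inferInstance, inferInstance, inferInstance,
    (PerfectClosure.of K p).comp (algebraMap P K),
    nzd_of p fun b hb => Subtype.ext (htL _ (congrArg Subtype.val hb)), ?_, ?_, ?_⟩
  · rw [← map_pow]
    refine map_dvd (PerfectClosure.of K p) ⟨⟨y0, Polynomial.X, by simp⟩, Subtype.ext ?_⟩
    simpa using hy.symm
  · rintro a ⟨y, hy'⟩
    obtain ⟨m, x, hx⟩ := ex_pow p y 0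
    have h1 : PerfectClosure.of K p (algebraMap P K a ^ p ^ (0 + m)) =
        PerfectClosure.of K p (algebraMap P K t ^ p ^ (0 + m) * x) := by
      rw [map_pow, map_mul, ← hx, map_pow, ← mul_pow]
      exact congrArg (· ^ _) hy'
    obtain ⟨z, hz'⟩ := of_eq p h1
    obtain ⟨f, hf⟩ := (x ^ p ^ z).2
    obtain ⟨M, c, hc⟩ := clear t D N y0 hy f
    have h2 := congrArg Subtype.val hz'
    simp only [mul_pow, ← pow_mul, ← pow_add, SubmonoidClass.coe_pow, MulMemClass.coe_mul,
      Subalgebra.coe_algebraMap] at h2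
    have hf' : Polynomial.aeval y0 f = x.1 ^ p ^ z := hf
    obtain ⟨n, hn⟩ := hz (D ^ M * a ^ p ^ (0 + m + z) - t ^ p ^ (0 + m + z) * c) (by
      simp only [map_sub, map_mul, map_pow, h2, ← hc, hf']
      ring)
    have h3 := congrArg (iterateFrobeniusEquiv P p (0 + m + z)).symm
      (show D ^ (n + M) * a ^ p ^ (0 + m + z) = t ^ p ^ (0 + m + z) * (D ^ n * c) by
        linear_combination hn)
    rw [map_mul, map_mul] at h3
    have h4 : rt p (0 + m + z) (D ^ (n + M)) * a = t * rt p (0 + m + z) (D ^ n * c) := by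
      rw [← rt_pow' p (0 + m + z) a, ← rt_pow' p (0 + m + z) t]
      exact h3
    refine Ideal.mem_span_singleton.1 (nzm_pow hD (n + M) a (Ideal.mem_span_singleton.2 ?_))
    rw [← rt_pow p (0 + m + z) (D ^ (n + M))]
    refine dvd_trans ⟨_, h4⟩ (mul_dvd_mul_right (dvd_pow_self _ ?_) _)
    exact pow_ne_zero _ (Fact.out : p.Prime).ne_zero
  · intro j y
    obtain ⟨m, ⟨_, f, rfl⟩, hx⟩ := ex_pow p y j
    obtain ⟨a, g, h⟩ := split t D N y0 hy (p ^ m) f
    refine ⟨rt p (j + m) a, rt p (j + m) (PerfectClosure.of K p ⟨_, g, rfl⟩), ?_⟩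
    apply (iterateFrobeniusEquiv (PerfectClosure K p) p (j + m)).injective
    rw [map_add]
    simp only [iterateFrobeniusEquiv_def, mul_pow]
    rw [rt_pow_add, hx, ← map_pow, ← map_pow, rt_pow, ← pow_mul, mul_comm N, pow_mul, rt_pow_add,
      rt_pow, ← pow_mul, ← map_pow]
    simp only [RingHom.comp_apply, ← map_mul, ← map_add]
    congr 1
    refine Subtype.ext ?_
    simpa [mul_comm N] using h

end Vale.Agent.P202.Mx
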