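import Vale.Agent.P202.M.SpecT

open Finset Polynomial

namespace Vale.Agent.P202.Mx

universe u

namespace Ie

theorem rng {T' T : Type u} [CommRing T'] [CommRing T] [Algebra T' T] {r : ℕ} (x : Fin r → T')
    (K : Ideal T) (y : T)
    (hy : y ∈ Ideal.span (Set.range fun l => algebraMap T' T (x l)) * K) :
    y ∈ (Ideal.span (Set.range x) • (⊤ : Submodule T' K)).map (K.subtype.restrictScalars T') := by
  refine Submodule.mul_induction_on hy (fun a ha => ?_) fun a b ha hb => Submodule.add_mem _ ha hb
  induction ha using Submodule.span_induction with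
  | mem a ha =>
    obtain ⟨l, rfl⟩ := ha
    intro w hw
    refine ⟨x l • (⟨w, hw⟩ : K), Submodule.smul_mem_smul (Ideal.subset_span ⟨l, rfl⟩) trivial, ?_⟩
    simp [Algebra.smul_def]
  | zero => intro w _; simp
  | add a b _ _ ha hb => intro w hw; rw [add_mul]; exact Submodule.add_mem _ (ha w hw) (hb w hw)
  | smul t a _ ha =>
    intro w hw
    have : t • a * w = a * (t * w) := by rw [smul_eq_mul]; ring
    rw [this]
    exact ha _ (K.mul_mem_left t hw)

end Ie

theorem ieStmt : IeStmt.{u} := by
  intro p T' T _ _ _ _ r x δ m h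
  obtain ⟨c, hc⟩ := h.red
  have := h.fin
  have hfin : Module.Finite T' ↥(m ^ c) :=
    Module.Finite.of_injective ((m ^ c).subtype.restrictScalars T') Subtype.val_injective
  have main : ∀ b ∈ m, ∃ (n : ℕ) (c' : ℕ → T'), 1 ≤ n ∧
      n ≤ (⊤ : Submodule T' ↥(m ^ c)).spanFinrank + 1 ∧
      (∀ i < n, c' i ∈ Ideal.span (Set.range x) ^ (n - i)) ∧
      b ^ n = ∑ i ∈ range n, algebraMap T' T (c' i) * b ^ i := by
    intro b hb
    obtain ⟨P, hP, hd, hco, hev⟩ :=
      LinearMap.exists_monic_and_natDegree_eq_and_coeff_mem_pow_and_aeval_eq_zero T'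
        (Algebra.lsmul T' T' ↥(m ^ c) b) (Ideal.span (Set.range x)) (by
          rintro _ ⟨z, rfl⟩
          have h1 : b * z.1 ∈ m ^ (c + 1) := by
            rw [pow_succ']; exact Ideal.mul_mem_mul hb z.2
          obtain ⟨w, hw, e⟩ := Ie.rng x (m ^ c) _ (hc h1)
          have : Algebra.lsmul T' T' ↥(m ^ c) b z = w := Subtype.ext (by simpa using e.symm)
          rw [this]; exact hw)
    rw [aeval_algHom_apply] at hev
    have h2 := congrArg (fun g : Module.End T' ↥(m ^ c) =>
      (g ⟨(p : T) ^ c, Ideal.pow_mem_pow h.pm c⟩ : T)) hev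
    simp only [Algebra.lsmul_coe, LinearMap.zero_apply, ZeroMemClass.coe_zero, SetLike.mk_smul_mk,
      smul_eq_mul] at h2
    have hz : ∀ (k : ℕ) (y : T), y * (p : T) ^ k = 0 → y = 0 := by
      intro k
      induction k with
      | zero => intro y hy; simpa using hy
      | succ k ih =>
        intro y hy
        exact ih y (h.nzd _ (by rw [← hy]; ring))
    have h3 := hz c _ h2
    rw [aeval_eq_sum_range, sum_range_succ, hP.coeff_natDegree, one_smul] at h3
    refine ⟨P.natDegree + 1, fun i => -(P * X).coeff i, by omega, by omega, fun i hi => ?_, ?_⟩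
    · cases i with
      | zero => simp
      | succ i =>
        beta_reduce
        rw [coeff_mul_X, Nat.add_sub_add_right]
        exact neg_mem (hco i)
    · rw [sum_range_succ', pow_succ, eq_neg_of_add_eq_zero_right h3, neg_mul, sum_mul,
        ← sum_neg_distrib]
      simp only [coeff_mul_X, mul_coeff_zero, coeff_X_zero, mul_zero, neg_zero, map_zero, zero_mul,
        add_zero, map_neg, Algebra.smul_def]
      exact sum_congr rfl fun i _ => by ring
  refine ⟨⟨_, main⟩, ?_⟩
  obtain ⟨n, c', -, -, h1, h2⟩ := main _ h.pm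
  refine ⟨n, ?_⟩
  have : (p : T') ^ n = ∑ i ∈ range n, c' i * (p : T') ^ i := by
    apply h.inj
    simpa using h2
  rw [this]
  refine Ideal.sum_mem _ fun i hi => Ideal.mul_mem_right _ _ ?_
  exact Ideal.pow_le_self (by have := mem_range.mp hi; omega) (h1 i (mem_range.mp hi))

end Vale.Agent.P202.Mx
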