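import Vale.Agent.P202.M.SpecT

open Finset Matrix MvPowerSeries Filter Topology IsLocalRing
open scoped Kronecker Nat

namespace Vale.Agent.P202.Mx

universe u

namespace Lam

variable {W : Type u} [CommRing W]

theorem coker {M : Type u} [AddCommGroup M] [Module W M] (h : Module.length W M ≠ ⊤)
    (g : M →ₗ[W] M) :
    Module.length W (M ⧸ LinearMap.range g) = Module.length W (LinearMap.ker g) := by
  have e1 := Module.length_eq_add_of_exact (LinearMap.range g).subtype (LinearMap.range g).mkQ
    (Submodule.subtype_injective _) (Submodule.mkQ_surjective _) (LinearMap.exact_subtype_mkQ _)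
  have e2 := Module.length_eq_add_of_exact (LinearMap.ker g).subtype (LinearMap.ker g).mkQ
    (Submodule.subtype_injective _) (Submodule.mkQ_surjective _) (LinearMap.exact_subtype_mkQ _)
  rw [g.quotKerEquivRange.length_eq, e1, add_comm (Module.length W (LinearMap.ker g))] at e2
  have h3 : Module.length W (LinearMap.range g) ≠ ⊤ :=
    ne_top_of_le_ne_top h (e1 ▸ le_self_add)
  exact (WithTop.add_left_inj h3).1 e2

theorem cmp {M0 M : Type u} [AddCommGroup M0] [Module W M0] [AddCommGroup M] [Module W M]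
    (h : Module.length W M ≠ ⊤) (j : M0 →ₗ[W] M) (hj : Function.Injective j) (g0 : M0 →ₗ[W] M0)
    (g : M →ₗ[W] M) (e : ∀ x, j (g0 x) = g (j x)) :
    Module.length W (M0 ⧸ LinearMap.range g0) ≤ Module.length W (M ⧸ LinearMap.range g) := by
  rw [coker h, coker (ne_top_of_le_ne_top h (Module.length_le_of_injective j hj))]
  refine Module.length_le_of_injective (j.restrict (p := LinearMap.ker g0) (q := LinearMap.ker g)
    fun x hx => ?_) fun x y hxy => Subtype.ext (hj (congrArg Subtype.val hxy))
  rw [LinearMap.mem_ker] at hx ⊢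
  rw [← e, hx, map_zero]

theorem lenq {A : Type u} [CommRing A] [Algebra W A] (K : Ideal A) (g : A) :
    Module.length W (A ⧸ (K ⊔ Ideal.span {g})) = Module.length W
      ((A ⧸ K) ⧸ LinearMap.range (LinearMap.mulRight W (Ideal.Quotient.mk K g))) := by
  have e : LinearMap.range (LinearMap.mulRight W (Ideal.Quotient.mk K g)) =
      ((Ideal.span {g}).map (Ideal.Quotient.mkₐ W K)).restrictScalars W := by
    ext x
    rw [Ideal.map_span, Set.image_singleton, Submodule.restrictScalars_mem,
      Ideal.mem_span_singleton']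
    rfl
  rw [(Submodule.quotEquivOfEq _ _ e).length_eq,
    (Submodule.Quotient.restrictScalarsEquiv W _).length_eq]
  exact (DoubleQuot.quotQuotEquivQuotSupₐ W K _).toLinearEquiv.length_eq.symm

theorem sur {A T : Type u} [CommRing A] [Algebra W A] [CommRing T] [Algebra W T] (f : A →ₐ[W] T)
    (K : Ideal A) (I : Ideal T) (h : K ≤ I.comap f) (hs : ∀ b, ∃ a, b - f a ∈ I) :
    Module.length W (T ⧸ I) ≤ Module.length W (A ⧸ K) := by
  refine Module.length_le_of_surjective (Ideal.quotientMapₐ I f h).toLinearMap fun b => ?_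
  obtain ⟨b, rfl⟩ := Ideal.Quotient.mk_surjective b
  obtain ⟨a, ha⟩ := hs b
  exact ⟨Ideal.Quotient.mk K a, (Ideal.Quotient.eq.2 ha).symm⟩

end Lam

open Lam in
theorem lamStmt (hL : LenStmt.{u}) : LamStmt.{u} := by
  intro W A0 A T _ _ _ _ _ _ _ _ _ f0 f I g0 g h0 h e hs hf eg
  let _ : Algebra W T := (f.comp (algebraMap W A)).toAlgebra
  let F : A →ₐ[W] T := ⟨f, fun _ => rfl⟩
  let F0 : A0 →ₐ[W] T := ⟨f0, e⟩
  unfold ln at hf ⊢
  rw [← hL W A _ h.loc h.res] at hf ⊢
  rw [← hL W A0 _ h0.loc h0.res, lenq]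
  refine (cmp (ne_top_of_le_ne_top hf (sur F _ I le_rfl hs))
    (Ideal.quotientMapₐ I F0 le_rfl).toLinearMap (Ideal.quotientMap_injective' (H := le_rfl) le_rfl) _
    (LinearMap.mulRight W (Ideal.Quotient.mk I (f g))) fun x => ?_).trans ?_
  · obtain ⟨x, rfl⟩ := Ideal.Quotient.mk_surjective x
    change Ideal.Quotient.mk I (f0 (x * g0)) = Ideal.Quotient.mk I (f0 x * f g)
    rw [map_mul f0, eg]
  · rw [← lenq]
    refine sur F _ _ (sup_le (Ideal.comap_mono le_sup_left) ?_) fun b => ?_
    · rw [Ideal.span_le, Set.singleton_subset_iff]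
      exact Ideal.mem_sup_right (Ideal.mem_span_singleton_self _)
    · obtain ⟨a, ha⟩ := hs b
      exact ⟨a, Ideal.mem_sup_left ha⟩

end Vale.Agent.P202.Mx
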