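import Vale.Agent.P202.M.SpecT

/-! Module MF of part T: miracle flatness over a complete discrete valuation ring. -/

open Finset MvPowerSeries IsLocalRing

namespace Vale.Agent.P202.Mx

universe u

namespace Mf

theorem lift {A B A0 B0 : Type u} [CommRing A] [IsLocalRing A] [IsNoetherianRing A] [CommRing B]
    [Algebra A B] [Module.Finite A B] [CommRing A0] [CommRing B0] (f0 : A0 →+* B0)
    (hfin : f0.Finite) (hfree : @Module.Free A0 B0 _ _ f0.toAlgebra.toModule) (x : A)
    (hx : x ∈ maximalIdeal A) (hn : ∀ b : B, algebraMap A B x * b = 0 → b = 0) (r : A →+* A0)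
    (s : B →+* B0) (hr : Function.Surjective r) (hs : Function.Surjective s)
    (kr : ∀ a, r a = 0 → x ∣ a) (ks : ∀ b, s b = 0 → algebraMap A B x ∣ b)
    (hc : ∀ a, s (algebraMap A B a) = f0 (r a)) : Module.Free A B := by
  classical
  letI := f0.toAlgebra
  haveI : Module.Finite A0 B0 := hfin
  let b0 := Module.Free.chooseBasis A0 B0
  choose b hb using fun k => hs (b0 k)
  have key : ∀ g : _ → A, s (∑ k, g k • b k) = ∑ k, r (g k) • b0 k := fun g => by
    rw [map_sum]
    refine sum_congr rfl fun k _ => ?_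
    rw [Algebra.smul_def, map_mul, hc, hb, Algebra.smul_def]
    rfl
  have hI : Ideal.span {x} ≤ maximalIdeal A := (Ideal.span_singleton_le_iff_mem _).2 hx
  have hsp : ⊤ ≤ Submodule.span A (Set.range b) := by
    refine Submodule.le_of_le_smul_of_le_jacobson_bot (I := Ideal.span {x}) Module.Finite.fg_top
      (hI.trans (maximalIdeal_le_jacobson _)) fun y _ => ?_
    choose c hc' using fun k => hr (b0.repr (s y) k)
    have h1 : s (y - ∑ k, c k • b k) = 0 := by
      rw [map_sub, key, sub_eq_zero]
      simp only [hc']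
      exact (b0.sum_repr _).symm
    obtain ⟨z, hz⟩ := ks _ h1
    rw [← Algebra.smul_def, sub_eq_iff_eq_add'] at hz
    rw [hz]
    exact Submodule.add_mem_sup (Submodule.sum_mem _ fun k _ =>
      Submodule.smul_mem _ _ (Submodule.subset_span ⟨k, rfl⟩))
      (Submodule.smul_mem_smul (Ideal.mem_span_singleton_self x) trivial)
  have hli : LinearIndependent A b := by
    have h1 : ∀ (m : ℕ) (g : _ → A), ∑ k, g k • b k = 0 → ∀ k, x ^ m ∣ g k := by
      intro m
      induction m with
      | zero => intro g _ k; simp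
      | succ m ih =>
        intro g hg k
        have h2 := key g
        rw [hg, map_zero] at h2
        choose g' hg' using fun k =>
          kr _ (Fintype.linearIndependent_iff.1 b0.linearIndependent _ h2.symm k)
        have h3 : ∑ k, g' k • b k = 0 := by
          refine hn _ ?_
          rw [← Algebra.smul_def, smul_sum, ← hg]
          exact sum_congr rfl fun k _ => by rw [hg', smul_smul]
        rw [hg', pow_succ']
        exact mul_dvd_mul_left _ (ih g' h3 k)
    rw [Fintype.linearIndependent_iff]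
    intro g hg k
    have h2 := Ideal.iInf_pow_eq_bot_of_isLocalRing (Ideal.span {x})
      (ne_top_of_le_ne_top (maximalIdeal.isMaximal A).ne_top hI)
    rw [← Ideal.mem_bot, ← h2, Submodule.mem_iInf]
    intro m
    rw [Ideal.span_singleton_pow, Ideal.mem_span_singleton]
    exact h1 m g hg k
  exact Module.Free.of_basis (Module.Basis.mk hli hsp)

theorem red {p : ℕ} {W : Type u} [CommRing W] [IsDomain W] [IsDiscreteValuationRing W]
    (h : maximalIdeal W = Ideal.span {(p : W)}) {ν : Type} {N : ℕ} (e : ν ≃ Fin N) :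
    ∃ r : MvPowerSeries ν W →+* PS (ResidueField W) N, Function.Surjective r ∧
      (∀ a, r a = 0 → (p : MvPowerSeries ν W) ∣ a) ∧ (∀ i, r (X i) = X (e i)) ∧
      ∀ c, r (C c) = C (residue W c) := by
  refine ⟨(renameEquiv (ResidueField W) e).toRingEquiv.toRingHom.comp
    (MvPowerSeries.map (residue W)), (renameEquiv (ResidueField W) e).surjective.comp fun f => ?_,
    fun a ha => ?_, fun i => ?_, fun c => ?_⟩
  · choose g hg using fun d => residue_surjective (coeff d f)
    exact ⟨g, MvPowerSeries.ext fun d => hg d⟩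
  · have h1 : MvPowerSeries.map (residue W) a = 0 :=
      (renameEquiv (ResidueField W) e).injective (ha.trans (map_zero _).symm)
    have h2 : ∀ d, ∃ c, coeff d a = p * c := fun d => by
      have h3 : residue W (coeff d a) = 0 := by rw [← coeff_map, h1, map_zero]
      rw [residue_eq_zero_iff, h, Ideal.mem_span_singleton] at h3
      exact h3
    choose c hc using h2
    obtain ⟨c', hc'⟩ : ∃ c' : MvPowerSeries ν W, ∀ d, coeff d c' = c d := ⟨c, fun _ => rfl⟩
    refine ⟨c', MvPowerSeries.ext fun d => ?_⟩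
    rw [hc, ← map_natCast (C : W →+* MvPowerSeries ν W), coeff_C_mul, hc']
  · change rename e (MvPowerSeries.map (residue W) (X i)) = _
    rw [map_X, rename_X]
  · change rename e (MvPowerSeries.map (residue W) (C c)) = _
    rw [map_C, rename_C]

theorem p_mem (p : ℕ) (W : Type u) [CommRing W] (ν : Type) : (p : MvPowerSeries ν W) ∈ mv p W ν :=
  Ideal.subset_span (Set.mem_insert _ _)

theorem X_mem (p : ℕ) (W : Type u) [CommRing W] {ν : Type} (i : ν) :
    (X i : MvPowerSeries ν W) ∈ mv p W ν :=
  Ideal.subset_span (Set.mem_insert_of_mem _ ⟨i, rfl⟩)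

theorem mv_le {p : ℕ} {W R : Type u} [CommRing W] [CommRing R] {ν : Type}
    (f : MvPowerSeries ν W →+* R) {J : Ideal R} (hp : (p : R) ∈ J) (hX : ∀ i, f (X i) ∈ J) :
    (mv p W ν).map f ≤ J := by
  rw [Ideal.map_le_iff_le_comap, mv, Ideal.span_le]
  rintro _ (rfl | ⟨i, rfl⟩)
  · simpa using hp
  · exact hX i

/-- the power series ring is free over itself along a system of parameters -/
theorem free (h0 : Mf0Stmt.{u}) (hV : EvWStmt.{u}) (p : ℕ) [Fact p.Prime] (W : Type u)
    [CommRing W] [IsDomain W] [IsDiscreteValuationRing W] (σ ν : Type) [Fintype σ] [Fintype ν]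
    (hW : Coh p W) (hperf : ∀ a : W, ∃ b, (p : W) ∣ a - b ^ p)
    (hc : Fintype.card σ = Fintype.card ν) [Algebra (MvPowerSeries ν W) (MvPowerSeries σ W)]
    [IsScalarTower W (MvPowerSeries ν W) (MvPowerSeries σ W)]
    (hX : ∀ j, algebraMap (MvPowerSeries ν W) (MvPowerSeries σ W) (X j) ∈ mv p W σ)
    (hN : mv p W σ ≤ ((mv p W ν).map (algebraMap _ (MvPowerSeries σ W))).radical) :
    Module.Free (MvPowerSeries ν W) (MvPowerSeries σ W) ∧
      Module.Finite (MvPowerSeries ν W) (MvPowerSeries σ W) := by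
  have hB := hV p W σ hW
  have hA := hV p W ν hW
  haveI := hB.cw.noeth
  haveI := hA.cw.noeth
  obtain ⟨N, hN⟩ := Ideal.exists_pow_le_of_le_radical_of_fg hN (IsNoetherian.noetherian _)
  haveI hfin := hA.alg (MvPowerSeries σ W) hB.cw (fun j => hB.max ▸ hX j) ⟨N, hB.max ▸ hN⟩
  refine ⟨?_, hfin⟩
  have hp0 : (p : ResidueField W) = 0 := by
    rw [← map_natCast (residue W), residue_eq_zero_iff, hW.max]
    exact Ideal.mem_span_singleton_self _
  haveI : CharP (ResidueField W) p := (CharP.charP_iff_prime_eq_zero Fact.out).2 hp0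
  haveI : PerfectRing (ResidueField W) p := PerfectRing.ofSurjective _ p fun a => by
    obtain ⟨a, rfl⟩ := residue_surjective a
    obtain ⟨b, c, hb⟩ := hperf a
    refine ⟨residue W b, ?_⟩
    rw [frobenius_def, ← map_pow, eq_comm, ← sub_eq_zero, ← map_sub, hb, map_mul, map_natCast, hp0,
      zero_mul]
  haveI : PerfectField (ResidueField W) := PerfectRing.toPerfectField _ p
  obtain ⟨s, hs, ks, sX, sC⟩ := red hW.max (Fintype.equivFin σ)
  obtain ⟨r, hr, kr, rX, rC⟩ := red hW.max (Fintype.equivFinOfCardEq hc.symm)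
  have hps : (p : PS (ResidueField W) (Fintype.card σ)) = 0 := by
    rw [← map_natCast (C : ResidueField W →+* _), hp0, map_zero]
  let g := algebraMap (MvPowerSeries ν W) (MvPowerSeries σ W)
  have hk : RingHom.ker r ≤ RingHom.ker (s.comp g) := fun a ha => by
    obtain ⟨c, rfl⟩ := kr a ha
    rw [RingHom.mem_ker, map_mul, map_natCast, hps, zero_mul]
  let f0 := r.liftOfSurjective hr ⟨s.comp g, hk⟩
  have hf0 : ∀ a, f0 (r a) = s (g a) := fun a => r.liftOfSurjective_comp_apply hr _ a
  let f : PS (ResidueField W) (Fintype.card σ) →ₐ[ResidueField W]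
      PS (ResidueField W) (Fintype.card σ) :=
    { f0 with
      commutes' := fun c => by
        obtain ⟨c, rfl⟩ := residue_surjective c
        change f0 (C (residue W c)) = C (residue W c)
        refine (congrArg f0 (rC c).symm).trans ((hf0 _).trans (Eq.trans ?_ (sC c)))
        exact congrArg s (IsScalarTower.algebraMap_apply W _ _ c).symm }
  have hm : (mv p W σ).map s ≤ mx (ResidueField W) (Fintype.card σ) :=
    mv_le s (hps ▸ zero_mem _) fun i => by rw [sX]; exact Ideal.subset_span ⟨_, rfl⟩
  obtain ⟨h1, h2⟩ := h0 p (ResidueField W) _ f (fun i => by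
    obtain ⟨j, rfl⟩ := (Fintype.equivFinOfCardEq hc.symm).surjective i
    change f0 _ ∈ _
    rw [← rX, hf0]
    exact hm (Ideal.mem_map_of_mem _ (hX j))) ⟨N, by
    have h3 : mx (ResidueField W) (Fintype.card σ) ≤ (mv p W σ).map s := by
      rw [Ideal.span_le]
      rintro _ ⟨i, rfl⟩
      obtain ⟨j, rfl⟩ := (Fintype.equivFin σ).surjective i
      rw [← sX]
      exact Ideal.mem_map_of_mem _ (X_mem p W j)
    refine (Ideal.pow_right_mono h3 N).trans ?_
    rw [← Ideal.map_pow]
    refine (Ideal.map_mono hN).trans ?_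
    rw [Ideal.map_map]
    refine mv_le _ (hps ▸ zero_mem _) fun j =>
      Ideal.subset_span ⟨Fintype.equivFinOfCardEq hc.symm j, ?_⟩
    change f0 _ = _
    rw [← rX, hf0]
    rfl⟩
  have hp : (p : W) ≠ 0 := fun h =>
    IsDiscreteValuationRing.not_a_field W (by rw [hW.max, h, Ideal.span_singleton_eq_bot])
  refine lift f.toRingHom h1 h2 p (hA.max ▸ p_mem p W ν) (fun b hb => ?_) r s hr hs kr
    (fun b hb => by rw [map_natCast]; exact ks b hb) fun a => (hf0 a).symm
  rw [map_natCast, ← map_natCast (C : W →+* MvPowerSeries σ W)] at hb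
  refine (mul_eq_zero.1 hb).resolve_left fun h => hp ?_
  simpa using congrArg constantCoeff h

end Mf

open Mf in
theorem mfStmt (h0 : Mf0Stmt.{u}) (hV : EvWStmt.{u}) : MfStmt.{u} := by
  intro p _ W G _ _ _ σ τ ι _ _ _ _ _ _ _ _ π ρ hW hperf hπ hker hc hX ⟨N, hN⟩
  classical
  have hB := hV p W σ hW
  have hA := hV p W τ hW
  have hA' := hV p W (ι ⊕ τ) hW
  haveI := hB.cw.noeth
  haveI := hA.cw.noeth
  choose g hg hg' using fun j => (Ideal.mem_map_iff_of_surjective π hπ).1 (hX j)
  have hρ0 : ∀ i, π (ρ i) = 0 := fun i => by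
    rw [← RingHom.mem_ker, hker]
    exact Ideal.subset_span ⟨i, rfl⟩
  have hρ : ∀ i, ρ i ∈ mv p W σ := fun i =>
    hB.max ▸ le_maximalIdeal (RingHom.ker_ne_top π) (hρ0 i)
  obtain ⟨f, hf⟩ := hA'.ev (MvPowerSeries σ W) _ hB.cw.cpl (Sum.elim ρ g) fun i => by
    refine Ideal.le_radical (hB.max ▸ ?_)
    rcases i with i | i
    exacts [hρ i, hg i]
  obtain ⟨q, hq⟩ := hA'.ev (MvPowerSeries τ W) _ hA.cw.cpl (Sum.elim (fun _ => 0) X) fun i => by
    refine Ideal.le_radical (hA.max ▸ ?_)
    rcases i with i | i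
    exacts [zero_mem _, X_mem p W i]
  have hqs : ∀ a, q (rename Sum.inr a) = a := fun a => by
    have := hA.ext (MvPowerSeries τ W) (maximalIdeal _) inferInstance
      (q.comp (rename Sum.inr)).toRingHom (RingHom.id _)
      (fun c => (q.comp (rename Sum.inr)).commutes c) (fun i => by simp [hq])
      fun i => Ideal.le_radical (by simpa [hq, hA.max] using X_mem p W i)
    exact congrArg (fun φ' : _ →+* _ => φ' a) this
  have hH : IsHausdorff ((mv p W σ).map π.toRingHom) G := by
    letI := π.toRingHom.toAlgebra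
    haveI : Module.Finite (MvPowerSeries σ W) G := RingHom.Finite.of_surjective _ hπ
    exact IsHausdorff.map_algebraMap_iff.2 (hB.cpl G).toIsHausdorff
  have hπf : ∀ a, π (f a) = algebraMap _ G (q a) := fun a => by
    have := hA'.ext G _ hH (π.comp f).toRingHom ((IsScalarTower.toAlgHom W _ G).comp q).toRingHom
      (fun c => ((π.comp f).commutes c).trans (((IsScalarTower.toAlgHom W _ G).comp q).commutes
        c).symm) (fun i => by rcases i with i | i <;> simp [hf, hq, hρ0, hg'])
      fun i => Ideal.le_radical (Ideal.mem_map_of_mem π.toRingHom (by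
        rcases i with i | i
        exacts [(hf _).symm ▸ hρ i, (hf _).symm ▸ hg i]))
    exact congrArg (fun φ' : _ →+* _ => φ' a) this
  letI := f.toRingHom.toAlgebra
  haveI : IsScalarTower W (MvPowerSeries (ι ⊕ τ) W) (MvPowerSeries σ W) :=
    IsScalarTower.of_algebraMap_eq fun c => (f.commutes c).symm
  have hkJ : RingHom.ker π ≤ (mv p W (ι ⊕ τ)).map f.toRingHom := by
    rw [hker, Ideal.span_le]
    rintro _ ⟨i, rfl⟩
    exact (show f.toRingHom (X (.inl i)) = ρ i from hf _) ▸ Ideal.mem_map_of_mem _ (X_mem p W _)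
  obtain ⟨hfree, hfin⟩ := free h0 hV p W σ (ι ⊕ τ) hW hperf (by rw [hc, Fintype.card_sum])
    (fun j => by
      change f (X j) ∈ _
      rw [hf]
      rcases j with i | i
      exacts [hρ i, hg i]) (by
      rw [mv, Ideal.span_le]
      rintro _ (rfl | ⟨i, rfl⟩)
      · exact Ideal.le_radical (map_natCast f.toRingHom p ▸ Ideal.mem_map_of_mem _ (p_mem p W _))
      · refine ⟨N, ?_⟩
        have h1 : (mv p W τ).map (algebraMap (MvPowerSeries τ W) G) ≤
            ((mv p W (ι ⊕ τ)).map f.toRingHom).map π.toRingHom := by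
          rw [Ideal.map_map]
          refine mv_le _ (by
            simpa using Ideal.mem_map_of_mem (π.toRingHom.comp f.toRingHom) (p_mem p W _))
            fun j => ?_
          rw [← hg', show g j = f (X (.inr j)) from (hf (.inr j)).symm]
          exact Ideal.mem_map_of_mem (π.toRingHom.comp f.toRingHom) (X_mem p W _)
        have h2 : X i ^ N ∈ (((mv p W (ι ⊕ τ)).map f.toRingHom).map π.toRingHom).comap
            π.toRingHom := h1 (by simpa using hN i)
        rw [Ideal.comap_map_of_surjective π.toRingHom hπ, ← RingHom.ker_eq_comap_bot] at h2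
        exact sup_le le_rfl hkJ h2)
  let b := Module.Free.chooseBasis (MvPowerSeries (ι ⊕ τ) W) (MvPowerSeries σ W)
  have key : ∀ c : _ → MvPowerSeries (ι ⊕ τ) W, π (∑ k, c k • b k) = ∑ k, q (c k) • π (b k) :=
    fun c => by
      rw [map_sum]
      refine sum_congr rfl fun k _ => ?_
      rw [Algebra.smul_def, map_mul, Algebra.smul_def, ← hπf]
      rfl
  have hsp : ⊤ ≤ Submodule.span (MvPowerSeries τ W) (Set.range fun k => π (b k)) := fun y _ => by
    obtain ⟨y, rfl⟩ := hπ y
    rw [← b.sum_repr y, key]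
    exact Submodule.sum_mem _ fun k _ => Submodule.smul_mem _ _ (Submodule.subset_span ⟨k, rfl⟩)
  have hli : LinearIndependent (MvPowerSeries τ W) fun k => π (b k) := by
    rw [Fintype.linearIndependent_iff]
    intro c hc k
    have h1 : ∑ k, (rename Sum.inr (c k) : MvPowerSeries (ι ⊕ τ) W) • b k ∈ RingHom.ker π := by
      rw [RingHom.mem_ker, key]
      simpa only [hqs] using hc
    rw [hker, Ideal.mem_span_range_iff_exists_fun] at h1
    obtain ⟨y, hy⟩ := h1
    have h2 : ∀ i, y i * ρ i = (X (.inl i) : MvPowerSeries (ι ⊕ τ) W) • y i := fun i => by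
      rw [Algebra.smul_def, mul_comm]
      exact congrArg (· * y i) (hf (.inl i)).symm
    have h3 := congrArg (fun z => q (b.repr z k)) hy
    simp only [h2, map_sum, map_smul, Finsupp.coe_finset_sum, Finset.sum_apply, Finsupp.smul_apply,
      smul_eq_mul, map_mul, hq, Sum.elim_inl, zero_mul, sum_const_zero, Module.Basis.repr_self,
      hqs, Finsupp.single_apply] at h3
    rw [h3, sum_eq_single k (fun j _ hj => by simp [hj]) (by simp)]
    simp
  let b' := Module.Basis.mk hli hsp
  exact ⟨Module.Free.of_basis b', Module.Finite.of_basis b'⟩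

end Vale.Agent.P202.Mx
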