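import Vale.Agent.P202.M.SpecT
import Vale.Agent.P202.Fr1
import Vale.Agent.P202.Rk
import Vale.Agent.P202.Unr

/-! A power series ring is free over the power series ring of a system of parameters. -/

open Finset MvPowerSeries IsLocalRing

namespace Vale.Agent.P202.Mx

universe u

namespace M0

variable {p : ℕ} [hp : Fact p.Prime] {L : Type u} [Field L] [CharP L p] {n : ℕ}

instance : CharP (PS L n) p := charP_of_injective_ringHom (C_injective (σ := Fin n) (R := L)) p

lemma coef (c : (Fin n → Fin p) → PS L n) (α : Fin n → Fin p) (β : Fin n →₀ ℕ) :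
    coeff (p • β + Fr1m.al α) (∑ γ, c γ ^ p * monomial (Fr1m.al γ) (1 : L)) =
      coeff β (c α) ^ p := by
  classical
  have h0 : p ≠ 0 := hp.out.ne_zero
  rw [map_sum, sum_eq_single α]
  · rw [coeff_add_mul_monomial, mul_one, ← map_frobenius_expand p h0, coeff_map,
      coeff_expand_smul, frobenius_def]
  · intro γ _ hγ
    rw [coeff_mul_monomial]
    split_ifs with hle
    · obtain ⟨i, hi⟩ := Function.ne_iff.1 hγ
      have h1 : (γ i : ℕ) ≤ p * β i + α i := by simpa [Fr1m.al] using hle i
      have h2 : ¬ p ∣ (p • β + Fr1m.al α - Fr1m.al γ) i := by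
        intro hd
        apply hi
        have h3 : p ∣ p * β i + α i - γ i := by simpa [Fr1m.al] using hd
        have h4 := (Nat.modEq_iff_dvd' h1).2 h3
        rw [Nat.ModEq, Nat.mul_add_mod, Nat.mod_eq_of_lt (α i).2, Nat.mod_eq_of_lt (γ i).2] at h4
        exact Fin.ext h4
      rw [← map_frobenius_expand p h0, coeff_map, coeff_expand_of_not_dvd p h0 _ h2, map_zero,
        zero_mul]
    · rfl
  · intro h; exact absurd (mem_univ _) h

lemma flat_of {A B : Type u} [CommRing A] [CommRing B] [Algebra A B] {κ : Type} [Fintype κ]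
    (v : κ → B) (h1 : ∀ c : κ → A, ∑ i, algebraMap A B (c i) * v i = 0 → c = 0)
    (h2 : ∀ b, ∃ c : κ → A, b = ∑ i, algebraMap A B (c i) * v i) : Module.Flat A B := by
  have : Module.Free A B := Module.Free.of_equiv (LinearEquiv.ofBijective
    (Fintype.linearCombination A v) ⟨(injective_iff_map_eq_zero _).2 fun c hc => h1 c (by
      simpa [Fintype.linearCombination_apply, Algebra.smul_def] using hc), fun b => by
      obtain ⟨c, rfl⟩ := h2 b
      exact ⟨c, by simp [Fintype.linearCombination_apply, Algebra.smul_def]⟩⟩)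
  infer_instance

lemma flat [PerfectField L] : (frobenius (PS L n) p).Flat := by
  refine @flat_of (PS L n) (PS L n) _ _ (frobenius (PS L n) p).toAlgebra (Fin n → Fin p) _
    (fun α => monomial (Fr1m.al α) (1 : L)) (fun c hc => ?_) fun b => ?_
  · ext α β
    have := coef c α β
    rw [show ∑ γ, c γ ^ p * monomial (Fr1m.al γ) (1 : L) = 0 from hc, map_zero] at this
    simpa using pow_eq_zero_iff hp.out.ne_zero |>.1 this.symm
  · obtain ⟨c, hc⟩ := Fr1m.decomp L p n b
    exact ⟨c, by rw [one_mul] at hc; exact hc⟩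

lemma len_eq (I : Ideal (PS L n)) :
    Module.length (PS L n) (PS L n ⧸ I) = Module.length L (PS L n ⧸ I) :=
  unrStmt.2.2 L (PS L n) _ fun b => ⟨constantCoeff b, by
    rw [mem_maximalIdeal, mem_nonunits_iff, isUnit_iff_constantCoeff]
    simp [MvPowerSeries.algebraMap_apply]⟩

lemma len [PerfectField L] (y : Fin n → PS L n) (e : ℕ) :
    Module.length L (PS L n ⧸ bx y (p ^ e)) =
      ((p ^ e) ^ n : ℕ) * Module.length L (PS L n ⧸ bx y 1) := by
  have : IsLocalHom (frobenius (PS L n) p) :=
    ⟨fun a h => (isUnit_pow_iff hp.out.ne_zero).1 h⟩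
  have hm : ∀ (z : Fin n → PS L n) (t : ℕ), (bx z t).map (frobenius (PS L n) p) = bx z (t * p) :=
    fun z t => by
      simp only [bx, Ideal.map_span, ← Set.range_comp, Function.comp_def, frobenius_def, pow_mul]
  induction e with
  | zero => rw [pow_zero, one_pow, Nat.cast_one, one_mul]
  | succ e ih =>
    have h := (unrStmt.1 _ _ (frobenius (PS L n) p) flat).2.2 (bx y (p ^ e))
    have h1 : maximalIdeal (PS L n) = bx X 1 := by simp only [(evStmt L n).max, bx, pow_one]
    have h2 := RkL.cl_br (K := L) (d := n) p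
    rw [cl, smul_eq_mul, Ideal.mul_top] at h2
    rw [h1, hm, hm, len_eq, len_eq, len_eq, ih, one_mul, ← pow_succ] at h
    rw [h, show Module.length L (PS L n ⧸ bx X p) = (p ^ n : ℕ) from h2, pow_succ, mul_pow,
      Nat.cast_mul, mul_right_comm]

omit [CharP L p] in
lemma core {B : Type u} [CommRing B] [Algebra (PS L n) B] [Algebra L B]
    [IsScalarTower L (PS L n) B] (μ : ℕ)
    (hH : ∀ x : B, (∀ k, x ∈ (mx L n ^ k).map (algebraMap (PS L n) B)) → x = 0)
    (hl : ∀ e, Module.length L (B ⧸ (br L n (p ^ e)).map (algebraMap (PS L n) B)) =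
      ((p ^ e) ^ n : ℕ) * (μ : ℕ∞)) :
    Module.Finite (PS L n) B ∧ Module.Free (PS L n) B := by
  have hc : ∀ e, cl L (br L n (p ^ e) • ⊤ : Submodule (PS L n) B) = ((p ^ e) ^ n : ℕ) * (μ : ℕ∞) :=
    fun e => by
      rw [← hl]
      refine RkL.cl_of_ker _ (Ideal.Quotient.mkₐ L _).toLinearMap Ideal.Quotient.mk_surjective
        fun x => ?_
      rw [Ideal.smul_top_eq_map, Submodule.restrictScalars_mem, ← Ideal.Quotient.eq_zero_iff_mem]
      rfl
  have h0 : cl L (mx L n • ⊤ : Submodule (PS L n) B) = μ := by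
    simpa [br] using hc 0
  have hf : Module.Finite (PS L n) B := (evStmt L n).fin B ⟨fun x hx => hH x fun k => by
    have := hx k
    rwa [SModEq.zero, Ideal.smul_top_eq_map, Submodule.restrictScalars_mem] at this⟩
    (by rw [h0]; exact ENat.natCast_ne_top _)
  refine ⟨hf, ?_⟩
  obtain ⟨m, s, hm, hs⟩ := Fr1m.span_of_cl h0.le
  let g := Fintype.linearCombination (PS L n) s
  have hg : Function.Surjective g := by
    rw [← LinearMap.range_eq_top, ← top_le_iff]
    refine Submodule.le_of_le_smul_of_le_jacobson_bot (I := mx L n) Module.Finite.fg_top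
      (by rw [← (evStmt L n).max]; exact (jacobson_eq_maximalIdeal _ bot_ne_top).ge) fun x _ => ?_
    obtain ⟨a, ha⟩ := hs x
    rw [← add_sub_cancel (∑ j, a j • s j) x]
    refine Submodule.add_mem_sup ⟨fun j => algebraMap L _ (a j), ?_⟩ ha
    simp [g, Fintype.linearCombination_apply]
  refine Module.Free.of_equiv (LinearEquiv.ofBijective g
    ⟨(injective_iff_map_eq_zero _).2 fun x hx => ?_, hg⟩)
  have key : ∀ e, x ∈ (br L n (p ^ e) • ⊤ : Submodule (PS L n) (Fin m → PS L n)) := by
    intro e
    have hle : (br L n (p ^ e) • ⊤ : Submodule (PS L n) (Fin m → PS L n)) ≤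
        (br L n (p ^ e) • ⊤ : Submodule (PS L n) B).comap g := by
      rw [← Submodule.map_le_iff_le_comap, Submodule.map_smul'']
      exact Submodule.smul_mono le_rfl le_top
    let g' := (Submodule.mapQ _ _ g hle).restrictScalars L
    have hg' : Function.Surjective g' := fun y => by
      obtain ⟨y, rfl⟩ := Submodule.mkQ_surjective _ y
      obtain ⟨z, rfl⟩ := hg y
      exact ⟨Submodule.Quotient.mk z, rfl⟩
    have h1 := Module.length_eq_add_of_exact (LinearMap.ker g').subtype g'
      (Submodule.subtype_injective _) hg' (LinearMap.exact_subtype_ker_map _)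
    have h2 := RkL.cl_pi (K := L) m (br L n (p ^ e))
    rw [RkL.cl_br] at h2
    rw [show Module.length L _ = _ from h2, show Module.length L (B ⧸ _) = _ from hc e] at h1
    have h3 : Module.length L (LinearMap.ker g') = 0 := by
      have h4 : Module.length L (LinearMap.ker g') + (((p ^ e) ^ n * μ : ℕ) : ℕ∞) ≤
          0 + (((p ^ e) ^ n * μ : ℕ) : ℕ∞) := by
        rw [zero_add, Nat.cast_mul, ← h1, mul_comm]
        exact mul_le_mul' le_rfl (by exact_mod_cast hm)
      exact le_zero_iff.1 ((ENat.add_le_add_iff_right (ENat.natCast_ne_top _)).1 h4)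
    have := Module.length_eq_zero_iff.1 h3
    have h5 : Submodule.Quotient.mk x ∈ LinearMap.ker g' := by
      change Submodule.Quotient.mk (g x) = 0
      rw [hx]; rfl
    exact (Submodule.Quotient.mk_eq_zero _).1
      (congrArg Subtype.val (Subsingleton.elim (⟨_, h5⟩ : LinearMap.ker g') 0))
  ext j β
  refine (RkL.mem_br _ _).1 ((RkL.mem_smul_pi _ _).1 (key β.degree) j) β fun i => ?_
  exact (Finsupp.le_degree i β).trans_lt (Nat.lt_pow_self hp.out.one_lt)

end M0

theorem mf0Stmt : Mf0Stmt.{u} := by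
  intro p _ L _ _ _ n f hf ⟨N, hN⟩
  have hb : ∀ t, (br L n t).map f.toRingHom = bx (fun i => f (X i)) t := fun t => by
    simp only [bx, Ideal.map_span, ← Set.range_comp, Function.comp_def, map_pow]
    rfl
  have hfin : Module.length L (PS L n ⧸ bx (fun i => f (X i)) 1) ≠ ⊤ := by
    have h1 := RkL.cl_mx (K := L) (d := n) N
    rw [cl, smul_eq_mul, Ideal.mul_top] at h1
    have h2 : mx L n ^ N ≤ bx (fun i => f (X i)) 1 := by simpa only [bx, pow_one] using hN
    refine ne_top_of_le_ne_top (h1 ▸ ENat.natCast_ne_top _) (Module.length_le_of_surjective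
      ((Submodule.factor h2).restrictScalars L) (Submodule.factor_surjective h2))
  refine @M0.core p _ L _ n (PS L n) _ f.toRingHom.toAlgebra _
    (@IsScalarTower.of_algebraMap_eq L (PS L n) (PS L n) _ _ _ _ f.toRingHom.toAlgebra _
      fun c => (f.commutes c).symm) (Module.length L (PS L n ⧸ bx (fun i => f (X i)) 1)).toNat
    (fun x hx => ?_) fun e => ?_
  · have h1 : (mx L n).map f.toRingHom ≤ mx L n := by
      rw [Ideal.map_span, Ideal.span_le]
      rintro _ ⟨_, ⟨i, rfl⟩, rfl⟩
      exact hf i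
    rw [← order_eq_top_iff, ENat.eq_top_iff_forall_ge]
    intro k
    refine ((evStmt L n).ord x k).1 (Ideal.pow_right_mono h1 k ?_)
    rw [← Ideal.map_pow]
    exact hx k
  · rw [ENat.natCast_toNat hfin, ← M0.len (p := p), ← hb]
    rfl

end Vale.Agent.P202.Mx
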