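import Vale.Agent.P202.M.SpecT

open Finset Matrix MvPowerSeries Filter Topology IsLocalRing
open scoped Kronecker Nat

namespace Vale.Agent.P202.Mx

universe u

namespace Ng

theorem core (hN : NilStmt.{u}) (p : ℕ) [Fact p.Prime] {B Q : Type u} [CommRing B] [CommRing Q]
    (χ : B →+* WittVector p Q) (t : Q) (N : ℕ) (hp : (p : Q) = 0) (I : Ideal B)
    (S : Set B) (hI : (p : B) ^ N ∈ I ⊔ Ideal.span S) (h1 : ∀ a ∈ I, χ a = 0)
    (h2 : ∀ a ∈ S, ∃ z, ∀ j ≤ N, (χ a - (p - WittVector.teichmuller p t) * z).coeff j = 0) :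
    ∃ c, t ^ (N * p ^ N) * (1 + t * c) = 0 := by
  let J : Ideal B := (Ideal.span {WittVector.truncate (N + 1)
    ((p : WittVector p Q) - WittVector.teichmuller p t)}).comap
      ((WittVector.truncate (N + 1)).comp χ)
  have hJ : I ⊔ Ideal.span S ≤ J := by
    refine sup_le (fun a ha => ?_) (Ideal.span_le.2 fun a ha => ?_)
    · rw [Ideal.mem_comap, RingHom.comp_apply, h1 a ha, map_zero]
      exact zero_mem _
    · obtain ⟨z, hz⟩ := h2 a ha
      have := (WittVector.mem_ker_truncate (N + 1) _).2 fun j hj => hz j (Nat.lt_succ_iff.1 hj)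
      rw [RingHom.mem_ker, map_sub, sub_eq_zero, map_mul] at this
      rw [SetLike.mem_coe, Ideal.mem_comap, RingHom.comp_apply, this]
      exact Ideal.mul_mem_right _ _ (Ideal.mem_span_singleton_self _)
  have h3 := hJ hI
  rw [Ideal.mem_comap, RingHom.comp_apply, map_pow χ, map_natCast χ,
    Ideal.mem_span_singleton] at h3
  obtain ⟨w, hw⟩ := h3
  obtain ⟨w, rfl⟩ := WittVector.truncate_surjective p (N + 1) Q w
  rw [← map_mul, ← sub_eq_zero, ← map_sub, ← RingHom.mem_ker, WittVector.mem_ker_truncate] at hw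
  exact hN p Q t w N hp fun j hj => hw j (Nat.lt_succ_of_le hj)

theorem core2 (hN : NilStmt.{u}) (p : ℕ) [Fact p.Prime] {B G : Type u} [CommRing B] [CommRing G]
    (g : B →+* G) (s : B →+* WittVector p B) (t : B) (N : ℕ) {r h : ℕ} (v v' : Fin r → B)
    (F : Fin h → B) (ht : s t = WittVector.teichmuller p t)
    (hv : ∀ l, s (v l) = WittVector.teichmuller p (v l))
    (hv' : ∀ l, s (v' l) = WittVector.teichmuller p (v' l))
    (hI : (p : B) ^ N ∈ Ideal.span (Set.range fun l => v l - v' l) ⊔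
      Ideal.span (insert ((p : B) - t) (Set.range F)))
    (hF : ∀ i, ∃ z, ∀ j ≤ N,
      (WittVector.map g (s (F i)) - (p - WittVector.teichmuller p (g t)) * z).coeff j = 0) :
    ∃ c, g t ^ (N * p ^ N) * (1 + g t * c) ∈
      Ideal.span (Set.range fun l => g (v l - v' l)) ⊔ Ideal.span {(p : G)} := by
  set K := Ideal.span (Set.range fun l => g (v l - v' l)) ⊔ Ideal.span {(p : G)} with hK
  let π := Ideal.Quotient.mk K
  have tei : ∀ b, s b = WittVector.teichmuller p b → WittVector.map (π.comp g) (s b) =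
      WittVector.teichmuller p (π (g b)) := fun b hb => by
    rw [hb, WittVector.map_teichmuller]
    rfl
  obtain ⟨c, hc⟩ := core hN p ((WittVector.map (π.comp g)).comp s) (π (g t)) N (by
      rw [← map_natCast π]
      exact Ideal.Quotient.eq_zero_iff_mem.2
        (Ideal.mem_sup_right (Ideal.mem_span_singleton_self _))) _ _ hI (by
      intro a ha
      refine (Ideal.span_le (I := RingHom.ker ((WittVector.map (π.comp g)).comp s))).2 ?_ ha
      rintro _ ⟨l, rfl⟩
      rw [SetLike.mem_coe, RingHom.mem_ker, map_sub, RingHom.comp_apply, RingHom.comp_apply,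
        tei _ (hv l), tei _ (hv' l), sub_eq_zero]
      congr 1
      rw [← sub_eq_zero, ← map_sub, ← map_sub]
      exact Ideal.Quotient.eq_zero_iff_mem.2 (Ideal.mem_sup_left (Ideal.subset_span ⟨l, rfl⟩))) (by
      rintro _ (rfl | ⟨i, rfl⟩)
      · refine ⟨1, fun j _ => ?_⟩
        rw [map_sub, map_natCast, RingHom.comp_apply, tei _ ht, mul_one, sub_self,
          WittVector.zero_coeff]
      · obtain ⟨z, hz⟩ := hF i
        refine ⟨WittVector.map π z, fun j hj => ?_⟩
        have := congrArg π (hz j hj)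
        rw [← WittVector.map_coeff, map_sub, map_mul, map_sub, map_natCast,
          WittVector.map_teichmuller, map_zero] at this
        exact this)
  obtain ⟨c, rfl⟩ := Ideal.Quotient.mk_surjective c
  refine ⟨c, Ideal.Quotient.eq_zero_iff_mem.1 ?_⟩
  rw [map_mul, map_pow, map_add, map_one, map_mul]
  exact hc

end Ng

theorem ngStmt (hN : NilStmt.{u}) (hE : EkStmt.{u}) : NgStmt.{u} := by
  intro p hp W T' _ _ _ σ n h _ _ _ ϖ F j2 s H e r N v v' hv hv' hNe hm
  have E := hE p W T' σ n h ϖ F j2 s H e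
  have hX : phi p σ _ (X none : BB W n h) = X none ^ p := by
    change MvPowerSeries.map σ.toRingHom (expand p hp.out.ne_zero (X none)) = _
    rw [expand_X, map_pow, MvPowerSeries.map_X]
  obtain ⟨c, hc⟩ := Ng.core2 hN p (gm p s F e).toRingHom s (X none) N v v' F (H.dw.tei _ hX)
    (fun l => H.dw.tei _ (hv l)) (fun l => H.dw.tei _ (hv' l)) (by
      rw [← H.pr.ker, RingHom.ker_eq_comap_bot, ← Ideal.comap_map_of_surjective ϖ H.pr.sur,
        Ideal.mem_comap, map_pow, map_natCast, Ideal.map_span, ← Set.range_comp]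
      exact hm) (fun i => ⟨_, fun j hj => E.wit i j (hj.trans hNe)⟩)
  obtain ⟨c, rfl⟩ := Ideal.Quotient.mk_surjective c
  have e1 : gm p s F e (X none) = Ideal.Quotient.mk (GI p s F e) (X (.inl none)) := by
    simp [gm]
  have hu : IsUnit (1 + X (.inl none) * c : MvPowerSeries (Gv n h e) W) := by
    simp [isUnit_iff_constantCoeff]
  have hu' := hu.map (Ideal.Quotient.mk (GI p s F e))
  rw [map_add, map_one, map_mul, ← e1] at hu'
  exact (Ideal.mul_unit_mem_iff_mem _ hu').1 hc

end Vale.Agent.P202.Mx
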