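import Vale.Agent.P202.M.SpecT

open Finset WittVector

namespace Vale.Agent.P202.Mx

universe u

namespace Nil

variable (p : ℕ) [hp : Fact p.Prime]

def sc {R : Type*} [CommRing R] (a : R) (y : WittVector p R) : WittVector p R :=
  WittVector.mk p fun n => a ^ p ^ n * y.coeff n

theorem map_sc {R S : Type*} [CommRing R] [CommRing S] (f : R →+* S) (a : R)
    (y : WittVector p R) : WittVector.map f (sc p a y) = sc p (f a) (WittVector.map f y) := by
  ext n
  simp [sc, WittVector.map_coeff, WittVector.coeff_mk]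

theorem gh_sc {R : Type*} [CommRing R] (a : R) (y : WittVector p R) (n : ℕ) :
    ghostComponent n (sc p a y) = a ^ p ^ n * ghostComponent n y := by
  rw [ghostComponent_apply, ghostComponent_apply, aeval_wittPolynomial, aeval_wittPolynomial,
    mul_sum]
  refine sum_congr rfl fun i hi => ?_
  have hi' : i ≤ n := Nat.lt_succ_iff.mp (mem_range.mp hi)
  have : p ^ n = p ^ i * p ^ (n - i) := by rw [← pow_add, Nat.add_sub_cancel' hi']
  simp only [sc, WittVector.coeff_mk]
  rw [mul_pow, ← pow_mul, ← this]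
  ring

theorem aux1 {R : Type*} (a : MvPolynomial R ℚ) (y : WittVector p (MvPolynomial R ℚ)) :
    teichmuller p a * y = sc p a y := by
  apply (ghostMap.bijective_of_invertible p (MvPolynomial R ℚ)).1
  rw [map_mul]
  ext1 n
  simp only [Pi.mul_apply, ghostMap_apply, ghostComponent_teichmuller, gh_sc]

theorem aux2 {R : Type*} (a : MvPolynomial R ℤ) (y : WittVector p (MvPolynomial R ℤ)) :
    teichmuller p a * y = sc p a y := by
  refine WittVector.map_injective (MvPolynomial.map (Int.castRingHom ℚ))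
    (MvPolynomial.map_injective _ Int.cast_injective) ?_
  rw [map_mul, map_teichmuller, map_sc, aux1]

theorem tei_mul {R : Type*} [CommRing R] (a : R) (y : WittVector p R) :
    teichmuller p a * y = sc p a y := by
  obtain ⟨a, rfl⟩ := MvPolynomial.counit_surjective R a
  obtain ⟨y, rfl⟩ := WittVector.map_surjective (p := p) (MvPolynomial.counit R)
    (MvPolynomial.counit_surjective R) y
  rw [← map_teichmuller, ← map_mul, aux2, map_sc]

theorem tei_coeff {R : Type*} [CommRing R] (a : R) (y : WittVector p R) (n : ℕ) :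
    (teichmuller p a * y).coeff n = a ^ p ^ n * y.coeff n := by
  rw [tei_mul]
  simp [sc, WittVector.coeff_mk]

theorem key {A : Type*} [CommRing A] (P T w : A) (n : ℕ) : ∃ a b,
    T ^ n * P ^ n - T ^ (n + 1) * (-w) = a * (P ^ n - (P - T) * w) + b * P ^ (n + 1) := by
  have e1 := Commute.geom_sum₂_mul (Commute.all P T) n
  generalize (∑ i ∈ range n, P ^ i * T ^ (n - 1 - i)) = S at e1
  exact ⟨T ^ n + P * S, w - S, by linear_combination (P * w) * e1⟩

end Nil

theorem nilStmt : NilStmt.{u} := by
  intro p _ Q _ t w n hp0 h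
  rcases subsingleton_or_nontrivial Q with hQ | hQ
  · exact ⟨0, Subsingleton.elim _ _⟩
  have : CharP Q p := (CharP.charP_iff_prime_eq_zero Fact.out).mpr hp0
  have h1 : (p : WittVector p Q) ^ n - (p - teichmuller p t) * w ∈
      RingHom.ker (truncate (p := p) (R := Q) (n + 1)) :=
    (mem_ker_truncate _ _).mpr fun i hi => h i (Nat.lt_succ_iff.mp hi)
  have h2 : (p : WittVector p Q) ^ (n + 1) ∈ RingHom.ker (truncate (p := p) (R := Q) (n + 1)) :=
    (mem_ker_truncate _ _).mpr fun i hi => coeff_p_pow_eq_zero p Q (by omega)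
  obtain ⟨a, b, hab⟩ := Nil.key (p : WittVector p Q) (teichmuller p t) w n
  have h3 := Ideal.add_mem _ (Ideal.mul_mem_left _ a h1) (Ideal.mul_mem_left _ b h2)
  rw [← hab] at h3
  rw [RingHom.mem_ker, map_sub, sub_eq_zero] at h3
  have h4 := congrArg (fun z => z.coeff (Fin.last n)) h3
  simp only [coeff_truncate, Fin.val_last] at h4
  rw [← map_pow, ← map_pow, teichmuller_mul_pow_coeff, Nil.tei_coeff] at h4
  refine ⟨-(t ^ (p ^ n - 1) * (-w).coeff n), ?_⟩
  have hpos : 1 ≤ p ^ n := Nat.one_le_pow _ _ (Fact.out : p.Prime).pos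
  have e3 : (t ^ (n + 1)) ^ p ^ n = t ^ (n * p ^ n) * (t * t ^ (p ^ n - 1)) := by
    rw [← pow_mul, ← pow_succ', ← pow_add]
    congr 1
    rw [Nat.sub_add_cancel hpos]; ring
  rw [e3, ← pow_mul] at h4
  linear_combination h4

end Vale.Agent.P202.Mx
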