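import Vale.Agent.P202.M.SpecT

open Finset Filter Topology

namespace Vale.Agent.P202.Mx

namespace NumF

theorem one (r : ℕ) (q y s κ H T t K C A0 U L ER : ℝ) (hq : 0 < q) (hy : 1 ≤ q * y)
    (hs : s + 1 = (1 - y) * q) (hs0 : 0 ≤ s) (hκ : 0 ≤ κ) (hH : 0 < H) (hT : 0 < T) (ht : 0 ≤ t)
    (hK : 0 ≤ K) (hC : 0 ≤ C) (hA : 0 ≤ A0) (hU : 0 ≤ U) (hL : 0 ≤ L) (hE : H * ER ≤ κ)
    (h : T * κ * s ^ (r + 1) ≤ s * (q ^ r * H * U) + C * ((K * H * (q * y) * (t + 2) * T + κ * T) *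
      (A0 * q + s + 1) ^ r + κ * (s + q) ^ (r + 1) * L))
    (hB : 0 ≤ 1 - C * 2 ^ (r + 1) * (L / T) - (2 * (r + 1) + C * (A0 + 1) ^ r) * y) :
    ER * (1 - C * 2 ^ (r + 1) * (L / T) - (2 * (r + 1) + C * (A0 + 1) ^ r) * y) ≤
      U / T + C * K * (t + 2) * (A0 + 1) ^ r * y := by
  have hsq : s + 1 ≤ q := by nlinarith
  have h1 : q ^ (r + 1) * (1 - 2 * (r + 1) * y) ≤ s ^ (r + 1) := by
    have hx : -2 ≤ s / q - 1 := by have := div_nonneg hs0 hq.le; linarith
    have h2 := one_add_mul_le_pow hx (r + 1)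
    have h3 : -(2 * y) ≤ s / q - 1 := by
      rw [le_sub_iff_add_le, le_div_iff₀ hq]; nlinarith
    have h4 : s ^ (r + 1) = q ^ (r + 1) * (1 + (s / q - 1)) ^ (r + 1) := by
      rw [← mul_pow]; congr 1; field_simp; ring
    rw [h4]
    refine mul_le_mul_of_nonneg_left (le_trans ?_ h2) (by positivity)
    push_cast
    have : (0 : ℝ) ≤ r + 1 := by positivity
    nlinarith
  have h2 : (A0 * q + s + 1) ^ r ≤ (A0 + 1) ^ r * q ^ r := by
    rw [← mul_pow]
    exact pow_le_pow_left₀ (by positivity) (by linarith) r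
  have h3 : (s + q) ^ (r + 1) ≤ 2 ^ (r + 1) * q ^ (r + 1) := by
    rw [← mul_pow]
    exact pow_le_pow_left₀ (by positivity) (by linarith) _
  have hy0 : 0 ≤ q * y := by linarith
  have hQ : 0 < q ^ r := by positivity
  generalize (A0 * q + s + 1) ^ r = a at h h2
  generalize (s + q) ^ (r + 1) = b at h h3
  generalize s ^ (r + 1) = c at h h1
  have hA1 : 0 ≤ (A0 + 1) ^ r := by positivity
  generalize (A0 + 1) ^ r = A at *
  have hD : (0 : ℝ) ≤ 2 ^ (r + 1) := by positivity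
  generalize (2 : ℝ) ^ (r + 1) = D at *
  rw [pow_succ] at h1 h3
  generalize q ^ r = Q at *
  obtain ⟨u, rfl⟩ : ∃ u, U = u * T := ⟨U / T, by field_simp⟩
  obtain ⟨l, rfl⟩ : ∃ l, L = l * T := ⟨L / T, by field_simp⟩
  simp only [mul_div_cancel_right₀ _ hT.ne'] at hB ⊢
  have e1 : T * κ * (Q * q * (1 - 2 * (r + 1) * y)) ≤ T * κ * c :=
    mul_le_mul_of_nonneg_left h1 (by positivity)
  have e2 : s * (Q * H * (u * T)) ≤ q * (Q * H * (u * T)) :=
    mul_le_mul_of_nonneg_right (by linarith) (by positivity)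
  have e3 : (K * H * (q * y) * (t + 2) * T + κ * T) * a ≤
      (K * H * (q * y) * (t + 2) * T + κ * T * (q * y)) * (A * Q) := by
    refine (mul_le_mul_of_nonneg_left h2 (by positivity)).trans
      (mul_le_mul_of_nonneg_right ?_ (by positivity))
    have : κ * T * 1 ≤ κ * T * (q * y) := mul_le_mul_of_nonneg_left hy (by positivity)
    linarith
  have e4 : κ * b * (l * T) ≤ κ * (D * (Q * q)) * (l * T) :=
    mul_le_mul_of_nonneg_right (mul_le_mul_of_nonneg_left h3 hκ) hL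
  have e5 := mul_le_mul_of_nonneg_left (add_le_add e3 e4) hC
  have e6 : (T * Q * q) * (κ * (1 - C * D * l - (2 * (r + 1) + C * A) * y)) ≤
      (T * Q * q) * (H * (u + C * K * (t + 2) * A * y)) := by nlinarith
  have e7 := le_of_mul_le_mul_left e6 (by positivity)
  have e8 := mul_le_mul_of_nonneg_right hE hB
  refine le_of_mul_le_mul_left ?_ hH
  linarith

end NumF

theorem numFStmt : NumFStmt := by
  intro p C K N d r h U lam' ER ES hp hU hl hUt hlt H
  have hp0 : (0 : ℝ) < p := by positivity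
  have hy : Tendsto (fun j : ℕ => ((p : ℝ)⁻¹) ^ j) atTop (𝓝 0) :=
    tendsto_pow_atTop_nhds_zero_of_lt_one (by positivity)
      (inv_lt_one_of_one_lt₀ (by exact_mod_cast hp))
  have step : ∀ t : ℕ, 1 ≤ t → 0 < 1 - C * 2 ^ (r + 1) * ((lam' t + 1) / (t : ℝ) ^ d) →
      ER * (1 - C * 2 ^ (r + 1) * ((lam' t + 1) / (t : ℝ) ^ d)) ≤ U t / (t : ℝ) ^ d := by
    intro t ht hc
    have l1 := (hy.const_mul (2 * ((r : ℝ) + 1) + C * ((N : ℝ) * d * t + 1) ^ r)).const_sub
      (1 - C * 2 ^ (r + 1) * ((lam' t + 1) / (t : ℝ) ^ d))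
    have l2 := (hy.const_mul ((C : ℝ) * K * (t + 2) * ((N : ℝ) * d * t + 1) ^ r)).const_add
      (U t / (t : ℝ) ^ d)
    rw [mul_zero, sub_zero] at l1
    rw [mul_zero, add_zero] at l2
    refine le_of_tendsto_of_tendsto (l1.const_mul ER) l2 ?_
    filter_upwards [l1.eventually (lt_mem_nhds hc), eventually_ge_atTop 1] with j hj hj1
    obtain ⟨e, ⟨κ, s, q, o, hq, hs, ho, hκ, hm⟩, he⟩ :=
      ((H t ht j hj1).and (eventually_ge_atTop j)).exists
    have hq' : (q : ℝ) = p ^ e := by rw [hq]; push_cast; rfl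
    have hqy : (q : ℝ) * ((p : ℝ)⁻¹) ^ j = p ^ (e - j) := by
      rw [hq', pow_sub₀ _ hp0.ne' he, inv_pow]
    have ht0 : (0 : ℝ) < t := by exact_mod_cast ht
    refine NumF.one r q _ s κ ((q : ℝ) ^ h) _ t K C _ (U t) (lam' t + 1) ER (by rw [hq']; positivity)
      ?_ ?_ (by positivity) (by positivity) (by rw [hq']; positivity) (by positivity) ht0.le
      (by positivity) (by positivity) (by positivity) (hU t) (by have := hl t; linarith) hκ ?_ hj.le
    · rw [hqy]; exact one_le_pow₀ (by exact_mod_cast (by omega : 1 ≤ p))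
    · have h1 : ((s + 1 : ℕ) : ℝ) = (((p ^ j - 1) * p ^ (e - j) : ℕ) : ℝ) := by rw [hs]
      rw [Nat.cast_mul, Nat.cast_sub (Nat.one_le_pow _ _ (by omega))] at h1
      push_cast at h1
      rw [h1, ← hqy, inv_pow]
      field_simp
    · have h1 : (o : ℝ) = K * (q : ℝ) ^ h * ((q : ℝ) * ((p : ℝ)⁻¹) ^ j) := by
        rw [hqy, ho, hq', ← pow_mul]; push_cast; rfl
      rw [← h1, ← pow_add]
      exact hm
  have l3 := (hlt.const_mul ((C : ℝ) * 2 ^ (r + 1))).const_sub 1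
  rw [mul_zero, sub_zero] at l3
  have l4 := l3.const_mul ER
  rw [mul_one] at l4
  refine le_of_tendsto_of_tendsto l4 hUt ?_
  filter_upwards [l3.eventually (lt_mem_nhds one_pos), eventually_ge_atTop 1] with t h1 h2
  exact step t h2 h1

end Vale.Agent.P202.Mx
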