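import Vale.Agent.P202.M.SpecT

/-! Orders of elements that are integral over the ideal of Teichmuller lifts. -/

open Finset Matrix MvPowerSeries Filter Topology IsLocalRing
open scoped Kronecker Nat

namespace Vale.Agent.P202.Mx

universe u

namespace Orm

theorem idp_map {R S : Type u} [CommRing R] [CommRing S] (f : R →+* S) {I K : Ideal R}
    {I' K' : Ideal S} (hI : I.map f ≤ I') (hK : K.map f ≤ K') {n : ℕ} {y : R} (h : Idp I K n y) :
    Idp I' K' n (f y) := by
  obtain ⟨c, h1, h2⟩ := h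
  refine ⟨fun i => f (c i), fun i hi => ?_, ?_⟩
  · refine Ideal.pow_right_mono hI _ ?_
    rw [← Ideal.map_pow]
    exact Ideal.mem_map_of_mem _ (h1 i hi)
  · simpa using hK (Ideal.mem_map_of_mem f h2)

theorem idp_bot {R : Type u} [CommRing R] {I K : Ideal R} {n : ℕ} (hn : 1 ≤ n) (hK : K ≤ I ^ n)
    {y : R} (h : Idp I K n y) : Idp I ⊥ n y := by
  obtain ⟨c, h1, h2⟩ := h
  obtain ⟨m, rfl⟩ : ∃ m, n = m + 1 := ⟨n - 1, by omega⟩
  refine ⟨fun i => c i + if i = 0 then y ^ (m + 1) - ∑ i ∈ range (m + 1), c i * y ^ i else 0,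
    fun i hi => add_mem (h1 i hi) ?_, ?_⟩
  · split_ifs with h0
    · subst h0; exact hK h2
    · exact zero_mem _
  · simp [add_mul, sum_add_distrib]

variable (p : ℕ) [Fact p.Prime] {P P' : Type u} [CommRing P] [CommRing P']

/-- functoriality of `OO` -/
noncomputable def oi (i : P →+* P') (t : P) : OO p t →+* OO p (i t) :=
  Ideal.quotientMap _ (WittVector.map i) (by
    rw [Ideal.span_le, Set.singleton_subset_iff]
    refine Ideal.subset_span ?_
    simp [WittVector.map_teichmuller])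

theorem oi_mk (i : P →+* P') (t : P) (y : WittVector p P) :
    oi p i t (Ideal.Quotient.mk _ y) = Ideal.Quotient.mk _ (WittVector.map i y) := rfl

theorem oi_tm (i : P →+* P') (t a : P) : oi p i t (tm p t a) = tm p (i t) (i a) := by
  rw [tm, oi_mk, WittVector.map_teichmuller, tm]

theorem tm_mul (t a b : P) : tm p t (a * b) = tm p t a * tm p t b := by simp [tm]

theorem tm_pow (t a : P) (n : ℕ) : tm p t (a ^ n) = tm p t a ^ n := by simp [tm]

variable [CharP P p] [PerfectRing P p]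

theorem rt_pow (j : ℕ) (a : P) : rt p j a ^ p ^ j = a := by
  rw [← iterateFrobeniusEquiv_def, rt, RingEquiv.apply_symm_apply]

theorem rt_pow' (j : ℕ) (a : P) : rt p j (a ^ p ^ j) = a := by
  rw [← iterateFrobeniusEquiv_def, rt, RingEquiv.symm_apply_apply]

end Orm

open Orm

theorem orStmt (hA : AiStmt.{u}) (hR : ReStmt.{u}) : OrStmt.{u} := by
  intro p _ P _ _ _ t r ξ k0 n ht hk hI j
  obtain ⟨P', _, _, _, i, v, hv, hit, hξ, hRe⟩ := hR p P t r ξ ht
  have h1 : (Ideal.span (Set.range ξ)).map i ≤ Ideal.span {v} := by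
    rw [Ideal.map_span, Ideal.span_le]
    rintro _ ⟨_, ⟨l, rfl⟩, rfl⟩
    exact Ideal.mem_span_singleton.2 (hξ l)
  have h2 : rt p k0 v ∣ i t := by
    have := map_dvd (iterateFrobeniusEquiv P' p k0).symm
      (Ideal.mem_span_singleton.1 (h1 (Ideal.mem_map_of_mem i hk)))
    rw [map_pow] at this
    exact (rt_pow' p k0 (i t)) ▸ this
  obtain ⟨hA1, hA2⟩ := (hA p P' (i t) hit).2 v k0 hv h2
  have h3 : (Ideal.span (Set.range fun l => tm p t (ξ l))).map (oi p i t) ≤
      Ideal.span {tm p (i t) v ^ 1} := by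
    rw [Ideal.map_span, Ideal.span_le]
    rintro _ ⟨_, ⟨l, rfl⟩, rfl⟩
    obtain ⟨c, hc⟩ := hξ l
    rw [oi_tm, hc, tm_mul, pow_one]
    exact Ideal.mem_span_singleton.2 (dvd_mul_right _ _)
  have h4 : ∀ j, tm p (i t) (rt p j v) ^ (p ^ j - 1) ∣ (p : OO p (i t)) := fun j => by
    have := hA1 1 n _ (idp_map (oi p i t) h3 (by simp : _ ≤ ⊥) hI) j
    rwa [one_mul, map_natCast] at this
  have h5 := hA2 j _ (h4 j)
  refine ⟨hRe t j _ h5, fun n' k y hn hk' hy => hRe _ j _ ?_⟩
  have h6 : (Ideal.span {(p : OO p t) ^ k}).map (oi p i t) ≤ Ideal.span {tm p (i t) v ^ 1} ^ n' := by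
    rw [Ideal.map_span, Set.image_singleton, Ideal.span_singleton_pow,
      Ideal.span_singleton_le_span_singleton, map_pow, map_natCast, pow_one]
    refine dvd_trans ?_ (pow_dvd_pow_of_dvd (h4 1) k)
    rw [← rt_pow p 1 v, tm_pow, rt_pow', ← pow_mul, ← pow_mul, pow_one]
    refine pow_dvd_pow _ ?_
    have := (Fact.out : p.Prime).two_le
    obtain ⟨q, rfl⟩ : ∃ q, p = q + 2 := ⟨p - 2, by omega⟩
    simp only [show q + 2 - 1 = q + 1 from rfl]
    nlinarith
  obtain ⟨z, hz⟩ := hA1 1 n' _ (idp_bot hn h6 (idp_map (oi p i t) h3 le_rfl hy)) j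
  obtain ⟨z, rfl⟩ := Ideal.Quotient.mk_surjective z
  rw [one_mul, ← tm_pow, oi_mk, tm, ← map_mul, Ideal.Quotient.eq, Ideal.mem_span_singleton] at hz
  obtain ⟨w, hw⟩ := hz
  have h7 := congrArg WittVector.constantCoeff hw
  simp only [map_sub, map_mul, map_natCast, CharP.cast_eq_zero, WittVector.constantCoeff_apply,
    WittVector.teichmuller_coeff_zero, WittVector.map_coeff] at h7
  rw [eq_add_of_sub_eq h7]
  exact dvd_add (Dvd.dvd.mul_right (by simpa using h5) _) (dvd_mul_right _ _)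

end Vale.Agent.P202.Mx
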