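import Vale.Agent.P202.M.Ai

/-! Module PH: the almost multiplicative map into the untilt. -/

open Finset

namespace Vale.Agent.P202.Mx

universe u

namespace Phm

open WittVector Aim

/-- the purely algebraic part: dividing by `π` -/
theorem alg {T' T O : Type u} [CommRing T'] [CommRing T] [Algebra T' T] [Algebra.IsIntegral T' T]
    [CommRing O] (ψ : T' →+* O) (ε : T') (d π ρ : O) (hinj : Function.Injective (algebraMap T' T))
    (hε : ∀ b, ∃ b', algebraMap T' T b' = algebraMap T' T ε * b) (hd : ψ ε * d = π) (hπ : Nzd π)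
    (hρ : ∀ n y, Idp (Ideal.span {π}) ⊥ n y → π ∣ ρ * y) :
    ∃ z : T → O, (∀ b b', z (b + b') = z b + z b') ∧ (∀ b b', z b * z b' = ρ * z (b * b')) ∧
      z 1 = ρ ∧ ∀ c b, z (algebraMap T' T c * b) = ψ c * z b := by
  choose β hβ using hε
  let y : T → O := fun b => ψ (β b) * d
  have y0 : ∀ b b', y (b + b') = y b + y b' := fun b b' => by
    have : β (b + b') = β b + β b' := hinj (by rw [map_add, hβ, hβ, hβ, mul_add])
    simp only [y, this, map_add, add_mul]
  have y1 : ∀ b b', y b * y b' = π * y (b * b') := fun b b' => by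
    have : β b * β b' = ε * β (b * b') := hinj (by rw [map_mul, map_mul, hβ, hβ, hβ]; ring)
    have h := congrArg ψ this
    rw [map_mul, map_mul] at h
    simp only [y, ← hd]
    linear_combination d * d * h
  have y2 : y 1 = π := by
    have : β 1 = ε := hinj (by rw [hβ, mul_one])
    simp only [y, this, hd]
  have y3 : ∀ c b, y (algebraMap T' T c * b) = ψ c * y b := fun c b => by
    have : β (algebraMap T' T c * b) = c * β b := hinj (by rw [map_mul, hβ, hβ]; ring)
    simp only [y, this, map_mul, mul_assoc]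
  let Y : T →+ O := AddMonoidHom.mk' y y0
  have y4 : ∀ b m, π ^ m * y (b ^ m) = π * y b ^ m := fun b m => by
    induction m with
    | zero => simp [y2]
    | succ m ih => rw [pow_succ, pow_succ, mul_assoc, ← y1, ← mul_assoc, ih]; ring
  have key : ∀ b, π ∣ ρ * y b := fun b => by
    obtain ⟨f, hf, h0⟩ := Algebra.IsIntegral.isIntegral (R := T') b
    rw [← Polynomial.aeval_def, Polynomial.aeval_eq_sum_range, sum_range_succ, hf.coeff_natDegree,
      one_smul] at h0
    refine hρ f.natDegree _ ⟨fun i => -(ψ (f.coeff i) * π ^ (f.natDegree - i)), fun i _ => ?_, ?_⟩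
    · rw [Ideal.span_singleton_pow]
      exact neg_mem (Ideal.mem_span_singleton.2 (Dvd.intro_left _ rfl))
    · rw [Ideal.mem_bot]
      refine hπ _ ?_
      have h1 := congrArg Y h0
      rw [map_add, map_sum, map_zero] at h1
      have h2 : ∀ i ∈ range f.natDegree, π ^ f.natDegree * Y (f.coeff i • b ^ i) =
          -(π * (-(ψ (f.coeff i) * π ^ (f.natDegree - i)) * y b ^ i)) := fun i hi => by
        obtain ⟨k, hk⟩ := Nat.exists_eq_add_of_le (mem_range.1 hi).le
        change _ * y _ = _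
        rw [Algebra.smul_def, y3, hk, Nat.add_sub_cancel_left, pow_add]
        linear_combination ψ (f.coeff i) * π ^ k * y4 b i
      have h3 := congrArg (π ^ f.natDegree * ·) h1
      simp only [mul_add, mul_sum, mul_zero] at h3
      rw [sum_congr rfl h2, sum_neg_distrib, ← mul_sum] at h3
      have h4 : π ^ f.natDegree * Y (b ^ f.natDegree) = π * y b ^ f.natDegree := y4 b _
      linear_combination h3 - h4
  choose z hz using key
  refine ⟨z, fun b b' => nzd_cancel hπ ?_, fun b b' => nzd_cancel hπ (nzd_cancel hπ ?_),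
    nzd_cancel hπ ?_, fun c b => nzd_cancel hπ ?_⟩
  · rw [mul_add, ← hz, ← hz, ← hz, y0, mul_add]
  · have a1 := hz b
    have a2 := hz b'
    have a3 := hz (b * b')
    have a4 := y1 b b'
    linear_combination (-(π * z b')) * a1 - ρ * y b * a2 + ρ * ρ * a4 + π * ρ * a3
  · rw [← hz, y2, mul_comm]
  · rw [← hz, y3, mul_left_comm, hz]
    ring

/-- descent along an injective map of quotients -/
theorem desc {T' T O O' : Type u} [CommRing T'] [CommRing T] [Algebra T' T] [CommRing O]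
    [CommRing O'] (ι : O →+* O') (hι : Function.Injective ι) (ψ : T' → O) (γ : O) (Z : T → O')
    (h0 : ∀ b b', Z (b + b') = Z b + Z b') (h1 : ∀ b b', Z b * Z b' = ι γ * Z (b * b'))
    (h2 : Z 1 = ι γ) (h3 : ∀ c b, Z (algebraMap T' T c * b) = ι (ψ c) * Z b)
    (h4 : ∀ b, ∃ o, ι o = Z b) : ∃ Φ : T →+ O, (∀ b b', Φ b * Φ b' = γ * Φ (b * b')) ∧ Φ 1 = γ ∧
      ∀ c b, Φ (algebraMap T' T c * b) = ψ c * Φ b := by
  choose Φ hΦ using h4
  refine ⟨AddMonoidHom.mk' Φ fun b b' => hι ?_, fun b b' => hι ?_, hι ?_, fun c b => hι ?_⟩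
  · rw [map_add, hΦ, hΦ, hΦ, h0]
  · change ι (Φ b * Φ b') = ι (γ * Φ (b * b'))
    rw [map_mul, map_mul, hΦ, hΦ, hΦ, h1]
  · change ι (Φ 1) = _
    rw [hΦ, h2]
  · change ι (Φ _) = ι (ψ c * Φ b)
    rw [map_mul, hΦ, hΦ, h3]

variable {p : ℕ} [hp : Fact p.Prime] {P P' : Type u} [CommRing P] [CommRing P']

/-- functoriality of the untilt -/
noncomputable def iot (p : ℕ) [Fact p.Prime] (i : P →+* P') (t : P) : OO p t →+* OO p (i t) :=
  Ideal.Quotient.lift _ ((Ideal.Quotient.mk _).comp (WittVector.map i)) fun a ha => by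
    obtain ⟨b, rfl⟩ := Ideal.mem_span_singleton.1 ha
    rw [RingHom.comp_apply, Ideal.Quotient.eq_zero_iff_mem, map_mul, map_sub, map_natCast,
      map_teichmuller]
    exact Ideal.mul_mem_right _ _ (Ideal.mem_span_singleton_self _)

theorem io_mk (i : P →+* P') (t : P) (w : WittVector p P) :
    iot p i t (Ideal.Quotient.mk _ w) = Ideal.Quotient.mk _ (WittVector.map i w) := rfl

theorem io_tm (i : P →+* P') (t a : P) : iot p i t (tm p t a) = tm p (i t) (i a) := by
  rw [tm, io_mk, map_teichmuller, tm]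

variable [CharP P p] [PerfectRing P p] [CharP P' p] [PerfectRing P' p]

theorem map_rt (i : P →+* P') (j : ℕ) (a : P) : i (rt p j a) = rt p j (i a) :=
  pow_inj (p := p) j (by rw [← map_pow, rt_pow, rt_pow])

theorem io_dvd {i : P →+* P'} {t : P} (ht : Nzd (i t)) (h : ∀ a, i t ∣ i a → t ∣ a) (k : ℕ) :
    ∀ o : OO p t, (p : OO p (i t)) ^ k ∣ iot p i t o → (p : OO p t) ^ k ∣ o := by
  induction k with
  | zero => simp
  | succ k ih =>
    intro o ho
    have h1 : (p : OO p t) ∣ o := by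
      obtain ⟨w, rfl⟩ := Ideal.Quotient.mk_surjective o
      exact dvd_mk.2 (h _ (dvd_mk.1 ((dvd_pow_self _ k.succ_ne_zero).trans ho)))
    obtain ⟨o1, rfl⟩ := h1
    obtain ⟨e, he⟩ := ho
    rw [map_mul, map_natCast, pow_succ', mul_assoc] at he
    rw [pow_succ']
    exact mul_dvd_mul_left _ (ih o1 ⟨e, nzd_cancel (p_nzd_O ht) he⟩)

theorem tm_cong {t x y : P} (k : ℕ) (h : t ^ p ^ k ∣ x - y) :
    (p : OO p t) ^ k ∣ tm p t x - tm p t y := by
  have h1 : t ∣ rt p k x - rt p k y := dvd_of_pow (p := p) k (by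
    rwa [sub_pow_expChar_pow, rt_pow, rt_pow])
  have h2 : (p : OO p t) ∣ tm p t (rt p k x) - tm p t (rt p k y) := by
    rw [tm, tm, ← map_sub, dvd_mk, map_sub]
    exact h1
  have h3 := dvd_sub_pow_of_dvd_sub h2 k
  rw [← tm_pow, ← tm_pow, rt_pow, rt_pow] at h3
  exact (pow_dvd_pow _ k.le_succ).trans h3

omit [CharP P p] [PerfectRing P p] in
theorem heb {i : P →+* P'} {t : P} {η : P'} {k : ℕ}
    (h : ∀ y, ∃ a y', η * y = i a + i t ^ p ^ k * y') (l : ℕ) (hl : l ≤ k) :
    ∀ x : OO p (i t), ∃ o, (p : OO p (i t)) ^ l ∣ tm p (i t) η * x - iot p i t o := by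
  induction l with
  | zero => exact fun x => ⟨0, by simp⟩
  | succ l ih =>
    intro x
    obtain ⟨w, rfl⟩ := Ideal.Quotient.mk_surjective x
    obtain ⟨w', hw⟩ := p_dvd (x := w - teichmuller p (constantCoeff w))
      (by rw [map_sub, c0_tei, sub_self])
    obtain ⟨o', ho⟩ := ih (by omega) (Ideal.Quotient.mk _ w')
    obtain ⟨a, y', ha⟩ := h (constantCoeff w)
    have h1 := (pow_dvd_pow _ hl).trans
      (tm_cong (t := i t) (x := η * constantCoeff w) (y := i a) k ⟨y', by rw [ha]; ring⟩)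
    have h2 : (Ideal.Quotient.mk _ w : OO p (i t)) =
        tm p (i t) (constantCoeff w) + (p : OO p (i t)) * Ideal.Quotient.mk _ w' := by
      rw [tm, ← map_natCast (Ideal.Quotient.mk _), ← map_mul, ← map_add, ← hw, add_sub_cancel]
    refine ⟨tm p t a + p * o', ?_⟩
    rw [h2, map_add, map_mul, map_natCast, io_tm]
    rw [tm_mul] at h1
    have h3 := mul_dvd_mul_left (p : OO p (i t)) ho
    rw [← pow_succ'] at h3
    convert dvd_add h1 h3 using 1
    ring

end Phm

open Phm Aim in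
theorem phiStmt (hA : AiStmt.{u}) (hH : HbStmt.{u}) : PhiStmt.{u} := by
  intro p hp P T' T _ _ _ _ _ _ _ t D ψ δ a ht hD hinj hδ hden k j
  by_cases hu : IsUnit t
  · have h1 : IsUnit ((p : OO p t) ^ k) := by
      obtain ⟨s, hs⟩ := hu.exists_right_inv
      refine IsUnit.pow _ (IsUnit.of_mul_eq_one (tm p t s) ?_)
      rw [← tm_self, ← tm_mul, hs]
      simp [tm]
    have : Subsingleton (OO p t ⧸ Ideal.span {(p : OO p t) ^ k}) :=
      Ideal.Quotient.subsingleton_iff.2 (Ideal.span_singleton_eq_top.2 h1)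
    exact ⟨0, fun _ _ => Subsingleton.elim _ _, Subsingleton.elim _ _,
      fun _ _ => Subsingleton.elim _ _⟩
  obtain ⟨P', _, _, _, i, hit, ⟨d0, hd0⟩, hi, hh⟩ := hH p P t D (p ^ (k + j)) ht hu hD
  obtain ⟨hpO, hA'⟩ := hA p P' (i t) hit
  have hrt : rt p 0 (i t) ∣ i t := by
    conv_rhs => rw [← rt_pow (p := p) 0 (i t)]
    simp
  have hN : 1 ≤ (a + p ^ (k + j)) * p ^ j :=
    Nat.mul_pos (Nat.add_pos_right _ (pow_pos hp.out.pos _)) (pow_pos hp.out.pos _)
  obtain ⟨z, z0, z1, z2, z3⟩ := alg ((iot p i t).comp ψ) ((p : T') ^ a * δ) (tm p (i t) d0)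
    ((p : OO p (i t)) ^ (a + p ^ (k + j))) (tm p (i t) (rt p j (i t))) hinj
    (fun b => by simpa using hden b)
    (by
      rw [map_mul, map_pow, map_natCast, RingHom.comp_apply, hδ, io_tm, mul_assoc, ← tm_mul, ← hd0,
        tm_pow, tm_self, ← pow_add])
    (nzd_pow hpO _)
    (fun n y hy => by
      have h1 := (hA' (i t) 0 hit hrt).1 (a + p ^ (k + j)) n y (by rwa [tm_self]) j
      have h2 : (p : OO p (i t)) ^ (a + p ^ (k + j)) =
          tm p (i t) (rt p j (i t)) * tm p (i t) (rt p j (i t)) ^ ((a + p ^ (k + j)) * p ^ j - 1) := by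
        rw [← pow_succ', Nat.sub_add_cancel hN, mul_comm, pow_mul, ← tm_pow, rt_pow, tm_self]
      rw [h2]
      exact mul_dvd_mul_left _ h1)
  have hle : Ideal.span {(p : OO p t) ^ k} ≤
      (Ideal.span {(p : OO p (i t)) ^ k}).comap (iot p i t) := by
    rw [Ideal.span_singleton_le_iff_mem, Ideal.mem_comap, map_pow, map_natCast]
    exact Ideal.mem_span_singleton_self _
  have hγ : iot p i t (tm p t (rt p j (t * D))) =
      tm p (i t) (rt p j (i D)) * tm p (i t) (rt p j (i t)) := by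
    rw [io_tm, map_rt, map_mul, rt_mul, tm_mul, mul_comm]
  refine desc (Ideal.quotientMap _ (iot p i t) hle) (Ideal.quotientMap_injective' fun o ho => ?_)
    (fun c => Ideal.Quotient.mk _ (ψ c)) _
    (fun b => Ideal.Quotient.mk _ (tm p (i t) (rt p j (i D)) * z b)) (fun b b' => ?_)
    (fun b b' => ?_) ?_ (fun c b => ?_) fun b => ?_
  · exact Ideal.mem_span_singleton.2 (io_dvd hit hi k o (Ideal.mem_span_singleton.1 ho))
  · rw [z0, mul_add, map_add]
  · rw [Ideal.quotientMap_mk, ← map_mul, ← map_mul, hγ]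
    congr 1
    linear_combination tm p (i t) (rt p j (i D)) * tm p (i t) (rt p j (i D)) * z1 b b'
  · rw [Ideal.quotientMap_mk, hγ, z2]
  · rw [Ideal.quotientMap_mk, ← map_mul, z3, RingHom.comp_apply, mul_left_comm]
  · obtain ⟨o, ho⟩ := heb (i := i) (t := t) (η := rt p j (i D)) (k := k) (fun y => by
      obtain ⟨a, y', h⟩ := hh j y
      refine ⟨a, y', ?_⟩
      rw [h, pow_add, mul_comm (p ^ k), pow_mul, rt_pow]) k le_rfl (z b)
    refine ⟨Ideal.Quotient.mk _ o, ?_⟩
    rw [Ideal.quotientMap_mk, eq_comm, Ideal.Quotient.eq]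
    exact Ideal.mem_span_singleton.2 ho

end Vale.Agent.P202.Mx
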