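import Vale.Agent.P202.M.SpecT

/-! Module PO: the almost-multiplicative maps into the truncated envelopes. -/

open Finset Filter

namespace Vale.Agent.P202.Mx

universe u

namespace Po

theorem gh_map {p : ℕ} [Fact p.Prime] {R S : Type u} [CommRing R] [CommRing S] (f : R →+* S)
    (w : WittVector p R) (n : ℕ) :
    WittVector.ghostComponent n (WittVector.map f w) = f (WittVector.ghostComponent n w) := by
  simp [WittVector.ghostComponent_apply, aeval_wittPolynomial, WittVector.map_coeff, map_sum]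

theorem ex_lift {B T O : Type u} [CommRing B] [CommRing T] [CommRing O] (ϖ : B →+* T)
    (hs : Function.Surjective ϖ) (σ : B →+* O) (h : RingHom.ker ϖ ≤ RingHom.ker σ) :
    ∃ ψ : T →+* O, ∀ b, ψ (ϖ b) = σ b :=
  ⟨ϖ.liftOfSurjective hs ⟨σ, h⟩, fun b => ϖ.liftOfRightInverse_comp_apply _ _ ⟨σ, h⟩ b⟩

theorem ex_up {A N : ℕ → Type u} [∀ m, CommRing (A m)] [∀ m, CommRing (N m)]
    (f : ∀ m, A m →+* N m) : ∃ ρ : Upr A →+* Upr N,
      ∀ x : ∀ m, A m, ρ (Ideal.Quotient.mk _ x) = Ideal.Quotient.mk _ fun m => f m (x m) := by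
  obtain ⟨ρ, h⟩ := ex_lift (Ideal.Quotient.mk (Ifin A)) Ideal.Quotient.mk_surjective
    ((Ideal.Quotient.mk (Ifin N)).comp (RingHom.pi fun m => (f m).comp (Pi.evalRingHom A m))) (by
      intro x hx
      rw [Ideal.mk_ker] at hx
      rw [RingHom.mem_ker, RingHom.comp_apply, Ideal.Quotient.eq_zero_iff_mem]
      have hx' : ∀ᶠ m in atTop, x m = 0 := hx
      show ∀ᶠ m in atTop, _
      filter_upwards [hx'] with m hm
      simp [hm])
  exact ⟨ρ, h⟩

theorem pw1 {T O : Type u} [CommRing T] [CommRing O] (Φ : T →+ O) (γ : O)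
    (hm : ∀ b b', Φ b * Φ b' = γ * Φ (b * b')) (h1 : Φ 1 = γ) (b : T) (i : ℕ) :
    γ ^ i * Φ (b ^ i) = γ * Φ b ^ i := by
  induction i with
  | zero => simp [h1]
  | succ i ih =>
    calc γ ^ (i + 1) * Φ (b ^ (i + 1)) = γ ^ i * (γ * Φ (b ^ i * b)) := by rw [← pow_succ]; ring
      _ = γ ^ i * Φ (b ^ i) * Φ b := by rw [← hm]; ring
      _ = _ := by rw [ih]; ring

theorem pw2 {T O : Type u} [CommRing T] [CommRing O] (Φ : T →+ O) (γ : O)
    (hm : ∀ b b', Φ b * Φ b' = γ * Φ (b * b')) (b : T) (i : ℕ) :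
    Φ b ^ (i + 1) = γ ^ i * Φ (b ^ (i + 1)) := by
  induction i with
  | zero => simp
  | succ i ih =>
    calc Φ b ^ (i + 1 + 1) = γ ^ i * (Φ (b ^ (i + 1)) * Φ b) := by rw [pow_succ, ih]; ring
      _ = _ := by rw [hm, ← pow_succ]; ring

theorem pw3 {T' T O : Type u} [CommRing T'] [CommRing T] [Algebra T' T] [CommRing O] (Φ : T →+ O)
    (γ : O) (χ : T' → O) (hm : ∀ b b', Φ b * Φ b' = γ * Φ (b * b')) (h1 : Φ 1 = γ)
    (hl : ∀ c b, Φ (algebraMap T' T c * b) = χ c * Φ b) (b : T) (n : ℕ) (hn : 1 ≤ n) (c : ℕ → T')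
    (hb : b ^ n = ∑ i ∈ range n, algebraMap T' T (c i) * b ^ i) :
    Φ b ^ n = ∑ i ∈ range n, χ (c i) * γ ^ (n - i) * Φ b ^ i := by
  obtain ⟨n, rfl⟩ : ∃ n', n = n' + 1 := ⟨n - 1, by omega⟩
  rw [pw2 Φ γ hm, hb, map_sum, mul_sum]
  refine sum_congr rfl fun i hi => ?_
  obtain ⟨d, rfl⟩ := Nat.exists_eq_add_of_le (Nat.lt_succ_iff.mp (mem_range.mp hi))
  rw [hl, show i + d + 1 - i = d + 1 by omega]
  linear_combination χ (c i) * γ ^ d * pw1 Φ γ hm h1 b i

theorem map_pow_mem {R S : Type u} [CommRing R] [CommRing S] (f : R →+* S) {r : ℕ} (x : Fin r → R)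
    (y : Fin r → S) (h : ∀ l, f (x l) = y l) (N : ℕ) (a : R)
    (ha : a ∈ Ideal.span (Set.range x) ^ N) : f a ∈ Ideal.span (Set.range y) ^ N := by
  have := Ideal.mem_map_of_mem f ha
  rw [Ideal.map_pow, Ideal.map_span, ← Set.range_comp] at this
  rwa [show y = f ∘ x from funext fun l => (h l).symm]

theorem expo {p j j' m : ℕ} (h : j ≤ j') (h' : j' ≤ m) :
    (p ^ j - 1) * p ^ (j' - j) * p ^ (m - j') = (p ^ j - 1) * p ^ (m - j) := by
  rw [mul_assoc, ← pow_add]; congr 2; omega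

theorem up_pow {G : Type u} [CommRing G] (p : ℕ) (I : Ideal G) (N : ℕ) (x : G)
    (h : x ∈ I ^ N ⊔ Ideal.span {(p : G)}) : x ^ p ∈ I ^ (N * p) ⊔ Ideal.span {(p : G) ^ 2} := by
  obtain ⟨a, ha, b, hb, rfl⟩ := Submodule.mem_sup.mp h
  have h1 : (p : G) ∣ a + b - a := by simpa using Ideal.mem_span_singleton.mp hb
  have h2 := dvd_sub_pow_of_dvd_sub h1 1
  rw [pow_one] at h2
  rw [show (a + b) ^ p = a ^ p + ((a + b) ^ p - a ^ p) by ring]
  refine Submodule.add_mem_sup ?_ (Ideal.mem_span_singleton.mpr h2)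
  rw [pow_mul]; exact Ideal.pow_mem_pow ha p

section
variable {p : ℕ} [Fact p.Prime] {G : ℕ → Type u} [∀ m, CommRing (G m)] {P : Type u}
  [CommRing P] [CharP P p] [PerfectRing P p] {fl : (∀ m, G m) →+* P}
  {θ : ∀ k, WittVector p P →+* Upr fun m => G m ⧸ Ideal.span {(p : G m) ^ (k + 1)}}

theorem first (hU : Ul p G fl θ) (τ : ∀ m, G m) {r : ℕ} (ξ : Fin r → ∀ m, G m) (j j' : ℕ)
    (hj : j ≤ j') (h : fl τ ∈ Ideal.span (Set.range fun l => rt p j' (fl (ξ l))) ^
      ((p ^ j - 1) * p ^ (j' - j))) : ∀ᶠ m in atTop, τ m ^ p ^ m ∈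
    Ideal.span (Set.range fun l => ξ l m) ^ ((p ^ j - 1) * p ^ (m - j)) ⊔
      Ideal.span {(p : G m) ^ 2} := by
  have h1 := map_pow_mem (iterateFrobeniusEquiv P p 1).symm.toRingHom _
    (fun l => rt p (1 + j') (fl (ξ l)))
    (fun l => (iterateFrobeniusEquiv_symm_add_apply P p 1 j' _).symm) _ _ h
  have h2 := hU.ord 0 _ (fun m => τ m ^ p ^ (m - 1)) r ξ (1 + j') _ (hU.tei 0 1 τ) h1
  filter_upwards [h2, eventually_ge_atTop (1 + j')] with m hm hm'
  have h3 := up_pow p _ _ _ hm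
  rwa [← pow_mul, ← pow_succ, mul_assoc, ← pow_succ, show m - 1 + 1 = m by omega,
    show m - (1 + j') + 1 = m - j' by omega, expo hj (by omega)] at h3

theorem mem_fl (hU : Ul p G fl θ) (x : ∀ m, G m) {r : ℕ} (ξ : Fin r → ∀ m, G m)
    (h : ∀ᶠ m in atTop, x m ∈ Ideal.span (Set.range fun l => ξ l m) ⊔ Ideal.span {(p : G m)}) :
    fl x ∈ Ideal.span (Set.range fun l => fl (ξ l)) := by
  have h1 : ∀ m, ∃ c : Fin r → G m, x m ∈ Ideal.span (Set.range fun l => ξ l m) ⊔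
      Ideal.span {(p : G m)} → (p : G m) ∣ x m - ∑ l, c l * ξ l m := by
    intro m
    by_cases hm : x m ∈ Ideal.span (Set.range fun l => ξ l m) ⊔ Ideal.span {(p : G m)}
    · obtain ⟨a, ha, b, hb, e⟩ := Submodule.mem_sup.mp hm
      obtain ⟨c, rfl⟩ := Ideal.mem_span_range_iff_exists_fun.mp ha
      exact ⟨c, fun _ => by rw [← e]; simpa using Ideal.mem_span_singleton.mp hb⟩
    · exact ⟨0, fun h => absurd h hm⟩
  choose c hc using h1
  have h2 := hU.zero (x - ∑ l, (fun m => c m l) * ξ l) (by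
    filter_upwards [h] with m hm
    simpa [Finset.sum_apply] using hc m hm)
  rw [map_sub, sub_eq_zero, map_sum] at h2
  rw [h2]
  refine Ideal.sum_mem _ fun l _ => ?_
  rw [map_mul]
  exact Ideal.mul_mem_left _ _ (Ideal.subset_span ⟨l, rfl⟩)

theorem kill (hU : Ul p G fl θ) (τ : ∀ m, G m) (w : WittVector p (∀ m, G m))
    (Z : ∀ m, WittVector p (G m)) (h : ∀ m, ∀ j ≤ m, (WittVector.map (Pi.evalRingHom G m) w -
      ((p : WittVector p (G m)) - WittVector.teichmuller p (τ m)) * Z m).coeff j = 0) :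
    WittVector.map fl w ∈
      Ideal.span {(p : WittVector p P) - WittVector.teichmuller p (fl τ)} := by
  set Y : WittVector p (∀ m, G m) := WittVector.mk p fun j m => (Z m).coeff j with hY
  have hZ : ∀ m, WittVector.map (Pi.evalRingHom G m) Y = Z m := fun m => by
    ext j; rfl
  have h0 : WittVector.map fl
      (w - ((p : WittVector p (∀ m, G m)) - WittVector.teichmuller p τ) * Y) = 0 := by
    ext j
    rw [WittVector.map_coeff, WittVector.zero_coeff]
    refine hU.zero _ ?_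
    filter_upwards [eventually_ge_atTop j] with m hm
    have := h m j hm
    rw [← hZ m, show WittVector.teichmuller p (τ m) =
      WittVector.map (Pi.evalRingHom G m) (WittVector.teichmuller p τ) from
      (WittVector.map_teichmuller p (Pi.evalRingHom G m) τ).symm, ← map_natCast (WittVector.map (Pi.evalRingHom G m)),
      ← map_sub, ← map_mul, ← map_sub, WittVector.map_coeff] at this
    exact (dvd_zero (p : G m)).trans (dvd_of_eq this.symm)
  rw [map_sub, map_mul, map_sub, map_natCast, WittVector.map_teichmuller, sub_eq_zero] at h0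
  rw [h0]
  exact Ideal.mul_mem_right _ _ (Ideal.subset_span rfl)

theorem ex_kappa (hU : Ul p G fl θ) (τ : ∀ m, G m) (k : ℕ) :
    ∃ κ : (OO p (fl τ) ⧸ Ideal.span {(p : OO p (fl τ)) ^ (k + 1)}) →+*
      Upr fun m => G m ⧸ Ideal.span {(p : G m) ^ (k + 1), (p : G m) - τ m ^ p ^ m},
      ∀ (w : WittVector p P) (f : ∀ m, G m),
        θ k w = (Ideal.Quotient.mk _ fun m => Ideal.Quotient.mk _ (f m)) →
        κ (Ideal.Quotient.mk _ (Ideal.Quotient.mk _ w)) =
          Ideal.Quotient.mk _ fun m => Ideal.Quotient.mk _ (f m) := by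
  obtain ⟨ρ, hρ⟩ := ex_up (A := fun m => G m ⧸ Ideal.span {(p : G m) ^ (k + 1)})
    (N := fun m => G m ⧸ Ideal.span {(p : G m) ^ (k + 1), (p : G m) - τ m ^ p ^ m})
    fun m => Ideal.Quotient.factor (Ideal.span_mono (by simp))
  have hp : ∀ x : ∀ m, G m, (∀ m, x m ∈ Ideal.span {(p : G m) ^ (k + 1), (p : G m) - τ m ^ p ^ m}) →
      (Ideal.Quotient.mk _ fun m => Ideal.Quotient.mk _ (x m) : Upr fun m =>
        G m ⧸ Ideal.span {(p : G m) ^ (k + 1), (p : G m) - τ m ^ p ^ m}) = 0 := fun x hx =>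
    Ideal.Quotient.eq_zero_iff_mem.mpr
      (Eventually.of_forall fun m => Ideal.Quotient.eq_zero_iff_mem.mpr (hx m))
  obtain ⟨κ1, h1⟩ := ex_lift (Ideal.Quotient.mk (Ideal.span
    {(p : WittVector p P) - WittVector.teichmuller p (fl τ)})) Ideal.Quotient.mk_surjective
    (ρ.comp (θ k)) (by
      rw [Ideal.mk_ker, Ideal.span_le, Set.singleton_subset_iff, SetLike.mem_coe, RingHom.mem_ker,
        map_sub, map_natCast, RingHom.comp_apply]
      have e := hU.tei k 0 τ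
      rw [show rt p 0 (fl τ) = fl τ by simp [rt]] at e
      rw [e, hρ, ← hp (fun m => (p : G m) - τ m ^ p ^ m) fun m => Ideal.subset_span (by simp),
        ← map_natCast (Ideal.Quotient.mk _), ← map_sub]
      congr 1)
  obtain ⟨κ, h2⟩ := ex_lift (Ideal.Quotient.mk (Ideal.span {(p : OO p (fl τ)) ^ (k + 1)}))
    Ideal.Quotient.mk_surjective κ1 (by
      rw [Ideal.mk_ker, Ideal.span_le, Set.singleton_subset_iff, SetLike.mem_coe, RingHom.mem_ker,
        map_pow, map_natCast, ← hp (fun m => (p : G m) ^ (k + 1)) fun m =>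
          Ideal.subset_span (by simp), ← map_natCast (Ideal.Quotient.mk _), ← map_pow]
      congr 1)
  exact ⟨κ, fun w f hw => by rw [h2, h1, RingHom.comp_apply, hw, hρ]; rfl⟩

end

end Po

open Po in
theorem poStmt (hU : UpStmt.{u}) (hP : PhiStmt.{u}) (hO : OrStmt.{u}) (hD : DsStmt.{u})
    (hI : IeStmt.{u}) : PoStmt.{u} := by
  intro p _ B T' T _ _ _ _ _ ph s h r F τ D ξ ϖ 𝔪 G _ g Z ψ hdw hsur hker hτ hDD hξ hov hZ hnu hn1
    hn2 ⟨a, ha⟩ hψ
  obtain ⟨P, _, _, _, fl, θ, hU⟩ := hU p G hnu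
  set gg : B →+* ∀ m, G m := RingHom.pi g with hgg
  set σ : B →+* WittVector p P := (WittVector.map fl).comp ((WittVector.map gg).comp s) with hσ
  have hst : ∀ b, ph b = b ^ p → σ b = WittVector.teichmuller p (fl (gg b)) := fun b hb => by
    simp only [hσ, RingHom.comp_apply, hdw.tei b hb, WittVector.map_teichmuller]
  obtain ⟨ψO, hψO⟩ := ex_lift ϖ hsur ((Ideal.Quotient.mk (Ideal.span
    {(p : WittVector p P) - WittVector.teichmuller p (fl (gg τ))})).comp σ) (by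
      rw [hker, Ideal.span_le]
      rintro x (rfl | ⟨i, rfl⟩) <;>
        rw [SetLike.mem_coe, RingHom.mem_ker, RingHom.comp_apply, Ideal.Quotient.eq_zero_iff_mem]
      · rw [map_sub, map_natCast, hst τ hτ]; exact Ideal.subset_span rfl
      · exact kill hU (gg τ) (WittVector.map gg (s (F i))) (fun m => Z m i) fun m => hZ m i)
  have hψt : ∀ b, ph b = b ^ p → ψO (ϖ b) = tm p (fl (gg τ)) (fl (gg b)) := fun b hb => by
    rw [hψO, RingHom.comp_apply, hst b hb]; rfl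
  have ht : Nzd (fl (gg τ)) := hU.nzd _ hn1
  have hta : fl (gg τ) ^ p ^ a ∈ Ideal.span (Set.range fun l => fl (gg (ξ l))) := by
    have h1 := mem_fl hU (gg τ ^ a) (fun l => gg (ξ l)) ha
    rw [map_pow] at h1
    exact Ideal.mem_of_dvd _ (pow_dvd_pow _ (Nat.lt_pow_self (Fact.out : p.Prime).one_lt).le) h1
  obtain ⟨⟨n0, hn0⟩, -⟩ := hI p T' T r _ _ _ hov
  have hc : ∀ (N : ℕ) (c : T'), c ∈ Ideal.span (Set.range fun l => ϖ (ξ l)) ^ N →
      ψO c ∈ Ideal.span (Set.range fun l => tm p (fl (gg τ)) (fl (gg (ξ l)))) ^ N :=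
    map_pow_mem ψO _ _ fun l => hψt _ (hξ l)
  obtain ⟨n, c, -, -, hc1, hc2⟩ := hn0 _ hov.pm
  have hOr := hO p P (fl (gg τ)) r (fun l => fl (gg (ξ l))) a n ht hta
    ⟨fun i => ψO (c i), fun i hi => hc _ _ (hc1 i hi), by
      have e : (p : T') ^ n = ∑ i ∈ range n, c i * (p : T') ^ i := hov.inj (by simpa using hc2)
      have e' := congrArg ψO e
      rw [Ideal.mem_bot, sub_eq_zero]
      simpa using e'⟩
  refine ⟨2 * n0 + 1, fun k hk j => ?_⟩
  obtain ⟨k, rfl⟩ : ∃ k', k = k' + 1 := ⟨k - 1, by omega⟩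
  obtain ⟨⟨j', hj', h1⟩, h2⟩ := hOr j
  obtain ⟨a', ha'⟩ := hov.den
  haveI := hov.fin
  obtain ⟨Φ, m1, m2, m3⟩ := hP p P T' T (fl (gg τ)) (fl (gg D)) ψO (ϖ D) a' ht
    (hU.nzm _ _ hn1 hn2) hov.inj (hψt D hDD) ha' (k + 1) j
  obtain ⟨κ, hκ⟩ := ex_kappa hU (gg τ) k
  have hγ := hκ _ _ (hU.tei k j (gg (τ * D)))
  rw [map_mul gg, map_mul fl] at hγ
  have h3 := hD T' T (fun m => G m ⧸ Ideal.span {(p : G m) ^ (k + 1), (p : G m) - g m τ ^ p ^ m})
    (fun m => (Ideal.Quotient.factor (Ideal.span_mono (by simp))).comp (ψ m))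
    (fun m => Ideal.Quotient.mk _ (g m (τ * D) ^ p ^ (m - j)))
    (fun m => (Ideal.span (Set.range fun l => g m (ξ l)) ^ ((p ^ j - 1) * p ^ (m - j)) ⊔
        Ideal.span {(p : G m)}).map (Ideal.Quotient.mk _)) 𝔪 (κ.toAddMonoidHom.comp Φ)
    (fun b b' => by
      have := congrArg κ (m1 b b')
      rw [map_mul, map_mul] at this
      simp only [map_mul]
      exact this.trans (congrArg (· * _) hγ))
    (by
      simp only [map_mul]
      exact (congrArg κ m2).trans hγ)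
    (fun c b => by
      obtain ⟨b', rfl⟩ := hsur c
      have := congrArg κ (m3 (ϖ b') b)
      rw [map_mul κ, hψO] at this
      refine this.trans (congrArg (· * κ (Φ b)) ?_)
      refine (hκ _ _ (hU.gh k (WittVector.map gg (s b')))).trans ?_
      congr 1
      funext m
      rw [gh_map, hdw.gh, RingHom.comp_apply, hψ]
      rfl)
    (fun b hb => by
      obtain ⟨n, c, hn1, hn2, hc1, hc2⟩ := hn0 b hb
      obtain ⟨y', hy'⟩ := Ideal.Quotient.mk_surjective (Φ b)
      obtain ⟨y, rfl⟩ := Ideal.Quotient.mk_surjective y'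
      obtain ⟨j', hj', h4⟩ := h2 n (k + 1) y hn1 (by omega)
        ⟨fun i => ψO (c i) * tm p _ (rt p j (fl (gg τ) * fl (gg D))) ^ (n - i),
          fun i hi => Ideal.mul_mem_right _ _ (hc _ _ (hc1 i hi)), by
            rw [← Ideal.Quotient.eq_zero_iff_mem, map_sub, sub_eq_zero, map_pow, map_sum, hy',
              pw3 Φ _ _ m1 m2 m3 b n hn1 c hc2]
            simp only [map_mul, map_pow, hy']⟩
      obtain ⟨f0, hf0⟩ := Ideal.Quotient.mk_surjective (θ k y)
      choose f hf using fun m => Ideal.Quotient.mk_surjective (f0 m)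
      have hf1 : θ k y = Ideal.Quotient.mk _ fun m => Ideal.Quotient.mk _ (f m) := by
        rw [← hf0]; congr 1; exact funext fun m => (hf m).symm
      refine ⟨fun m => Ideal.Quotient.mk _ (f m), (congrArg κ hy'.symm).trans (hκ _ _ hf1), ?_⟩
      filter_upwards [hU.ord k y f r (fun l => gg (ξ l)) j' _ hf1 h4, eventually_ge_atTop j']
        with m hm hm'
      rw [expo hj' hm'] at hm
      exact Ideal.mem_map_of_mem _ hm)
  filter_upwards [first hU (gg τ) (fun l => gg (ξ l)) j j' hj' h1, h3] with m e1 ⟨Φ', e2, e3, e4, e5⟩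
  exact ⟨e1, Φ', e2, e3, fun c z hz b => by rw [e4, RingHom.comp_apply, hz]; rfl, e5⟩

end Vale.Agent.P202.Mx
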