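import Vale.Agent.P202.M.SpecT

/-! Module PR: a complete intersection presentation. -/

open Finset Matrix MvPowerSeries Filter Topology IsLocalRing
open scoped Kronecker Nat

namespace Vale.Agent.P202.Mx

universe u

namespace Pres

theorem pdvd {p : ℕ} {W : Type u} [CommRing W] [IsLocalRing W] {σ : Type}
    (hm : maximalIdeal W = Ideal.span {(p : W)}) (a : MvPowerSeries σ W) :
    (p : MvPowerSeries σ W) ∣ a ↔ MvPowerSeries.map (residue W) a = 0 := by
  have h : ∀ c : W, residue W c = 0 ↔ (p : W) ∣ c := fun c => by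
    rw [residue_eq_zero_iff, hm, Ideal.mem_span_singleton]
  constructor
  · rintro ⟨b, rfl⟩
    rw [map_mul, ← map_natCast (C : W →+* MvPowerSeries σ W), map_C, (h _).2 dvd_rfl, map_zero,
      zero_mul]
  · intro e
    choose c hc using fun d => (h (coeff d a)).1 (by rw [← coeff_map, e, map_zero])
    refine ⟨(c : MvPowerSeries σ W), MvPowerSeries.ext fun d => ?_⟩
    rw [← map_natCast (C : W →+* MvPowerSeries σ W), hc]
    exact (coeff_C_mul d (c : MvPowerSeries σ W) _).symm

theorem nzm {A T : Type u} [CommRing A] [CommRing T] [Algebra A T] [Module.Free A T]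
    [Module.Finite A T] (p : ℕ) (δ : A) (h : ∀ a, (p : A) ∣ δ * a → (p : A) ∣ a) :
    Nzm (Ideal.span {(p : T)}) (algebraMap A T δ) := by
  intro b hb
  rw [Ideal.mem_span_singleton] at hb ⊢
  obtain ⟨c, hc⟩ := hb
  let e := Module.Free.chooseBasis A T
  rw [← Algebra.smul_def, ← map_natCast (algebraMap A T), ← Algebra.smul_def] at hc
  choose z hz using fun k => h (e.repr b k) ⟨e.repr c k, by
    simpa using congrArg (fun x => e.repr x k) hc⟩
  refine ⟨∑ k, z k • e k, ?_⟩
  rw [← map_natCast (algebraMap A T), ← Algebra.smul_def, smul_sum, ← e.sum_repr b]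
  simp only [hz, mul_smul]

end Pres

open Pres in
theorem presStmt (hV : EvWStmt.{u}) (hM : MfStmt.{u}) : PresStmt.{u} := by
  intro p _ W T' _ _ _ n h _ _ _ _ _ _ u F δ hW hfr hu hsur hker hδ hpδ
  have hA := hV p W (Fin n) hW
  have hB := hV p W (Bv n (h + 1)) hW
  set I := (mv p W (Fin n)).map (algebraMap (PS W n) T') with hI
  have hc : IsAdicComplete I T' := (IsAdicComplete.map_algebraMap_iff _ _).2 (hA.cpl T')
  have hrad : maximalIdeal T' ≤ I.radical := by
    rw [Ideal.radical_eq_sInf]
    refine le_sInf fun P ⟨hP, hP'⟩ => ?_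
    have : (P.comap (algebraMap (PS W n) T')).IsMaximal := by
      have h1 : maximalIdeal (PS W n) ≤ P.comap (algebraMap (PS W n) T') := by
        rw [hA.max]; exact Ideal.map_le_iff_le_comap.1 hP
      rw [← (maximalIdeal.isMaximal _).eq_of_le (Ideal.IsPrime.ne_top inferInstance) h1]
      infer_instance
    exact (eq_maximalIdeal (Ideal.isMaximal_of_isIntegral_of_isMaximal_comap P this)).ge
  have hXI : ∀ a ∈ Ideal.span (Set.range (X : Fin n → PS W n)), algebraMap _ T' a ∈ I :=
    fun a ha => Ideal.mem_map_of_mem _ (Ideal.span_mono (Set.subset_insert _ _) ha)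
  let y : Bv n (h + 1) → T' := fun o => o.elim (p : T') (Sum.elim
    (fun i => algebraMap (PS W n) T' (X i)) (Fin.cons (algebraMap (PS W n) T' δ) u))
  have hy : ∀ o, y o ∈ I.radical := by
    rintro (_ | i | i)
    · refine Ideal.le_radical ?_
      change (p : T') ∈ I
      rw [← map_natCast (algebraMap (PS W n) T')]
      exact Ideal.mem_map_of_mem _ (Ideal.subset_span (Set.mem_insert _ _))
    · exact Ideal.le_radical (hXI _ (Ideal.subset_span ⟨i, rfl⟩))
    · exact Fin.cases (Ideal.le_radical (hXI _ hδ)) (fun i => hrad (hu i)) i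
  obtain ⟨ϖ, hϖ⟩ := hB.ev T' I hc y hy
  let ι : PS W n →ₐ[W] BB W n (h + 1) := rename fun i => (some (.inl i) : Bv n (h + 1))
  have halg : ∀ a, algebraMap (PS W n) T' a = ϖ (ι a) := fun a =>
    DFunLike.congr_fun (hA.ext T' I hc.toIsHausdorff (algebraMap _ _)
      ((ϖ.comp ι : PS W n →ₐ[W] T') : PS W n →+* T') (fun c => by
        rw [RingHom.coe_coe, c_eq_algebraMap, AlgHom.commutes,
          ← IsScalarTower.algebraMap_apply]) (fun i => by simp [ι, hϖ, y]) fun i => hy (some (.inl i))) a
  let ψ : MvPolynomial (Fin h) (PS W n) →+* BB W n (h + 1) :=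
    MvPolynomial.eval₂Hom ι fun i => X (some (.inr i.succ))
  have hψ : ∀ g, ϖ (ψ g) = MvPolynomial.aeval u g := fun g => by
    induction g using MvPolynomial.induction_on with
    | C a => simp [ψ, halg]
    | add a b ha hb => rw [map_add, map_add, map_add, ha, hb]
    | mul_X a i ha => rw [map_mul, map_mul, map_mul, ha]; simp [ψ, hϖ, y]
  have hF : ∀ i, MvPolynomial.aeval u (F i) = 0 := fun i => by
    rw [← RingHom.mem_ker, hker]
    exact Ideal.subset_span ⟨i, rfl⟩
  have hb : ∀ i, ∃ b : BB W n (h + 1), ψ (F i) - b * p ∈ Ideal.span (Set.range X) := by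
    intro i
    have : ψ (F i) ∈ mv p W (Bv n (h + 1)) := by
      rw [← hB.max, mem_maximalIdeal, mem_nonunits_iff]
      intro hh
      have := hh.map ϖ
      rw [hψ, hF] at this
      exact not_isUnit_zero this
    obtain ⟨b, z, hz, e⟩ := Ideal.mem_span_insert.1 this
    exact ⟨b, by rwa [e, add_sub_cancel_left]⟩
  choose b hb using hb
  let F' : Fin (h + 1) → BB W n (h + 1) := Fin.cons (X (some (.inr 0)) - ι δ)
    fun i => ψ (F i) - b i * ((p : BB W n (h + 1)) - X none)
  have hs : Function.Surjective ϖ := fun z => by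
    obtain ⟨g, rfl⟩ := hsur z
    exact ⟨ψ g, hψ g⟩
  have hk : RingHom.ker ϖ = Ideal.span (insert ((p : BB W n (h + 1)) - X none) (Set.range F')) := by
    set K := Ideal.span (insert ((p : BB W n (h + 1)) - X none) (Set.range F'))
    have h0 : (p : BB W n (h + 1)) - X none ∈ K := Ideal.subset_span (Set.mem_insert _ _)
    have h1 : ∀ i, F' i ∈ K := fun i => Ideal.subset_span (Set.mem_insert_of_mem _ ⟨i, rfl⟩)
    have hp0 : ϖ ((p : BB W n (h + 1)) - X none) = 0 := by
      rw [map_sub, map_natCast, hϖ]; exact sub_self _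
    refine le_antisymm (fun z hz => ?_) (Ideal.span_le.2 ?_)
    · let ev : MvPolynomial (Fin h) (PS W n) →+* T' :=
        (MvPolynomial.aeval u : MvPolynomial (Fin h) (PS W n) →ₐ[PS W n] T')
      have hg : RingHom.ker ev ≤ RingHom.ker ((Ideal.Quotient.mk K).comp ψ) := by
        change RingHom.ker (MvPolynomial.aeval u : _ →ₐ[PS W n] T') ≤ _
        rw [hker, Ideal.span_le]
        rintro _ ⟨i, rfl⟩
        have := add_mem (h1 i.succ) (K.mul_mem_left (b i) h0)
        exact Ideal.Quotient.eq_zero_iff_mem.2 (by simpa [F'] using this)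
      let χ := ev.liftOfSurjective hsur ⟨_, hg⟩
      have hχ : ∀ g, χ (ϖ (ψ g)) = Ideal.Quotient.mk K (ψ g) := fun g => by
        rw [hψ]; exact ev.liftOfSurjective_comp_apply hsur ⟨_, hg⟩ g
      have hχ' : ∀ a, χ (ϖ (ι a)) = Ideal.Quotient.mk K (ι a) := fun a => by
        simpa [ψ] using hχ (MvPolynomial.C a)
      have hh : IsHausdorff ((mv p W (Bv n (h + 1))).map (algebraMap _ (BB W n (h + 1) ⧸ K)))
          (BB W n (h + 1) ⧸ K) := IsHausdorff.map_algebraMap_iff.2 (hB.cpl _).toIsHausdorff
      have := hB.ext _ _ hh (Ideal.Quotient.mk K) (χ.comp (ϖ : BB W n (h + 1) →+* T'))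
        (fun c => by simpa [ι] using (hχ' (C c)).symm) (by
          rintro (_ | i | i)
          · rw [← Ideal.Quotient.eq.2 h0, RingHom.comp_apply, RingHom.coe_coe, hϖ, map_natCast]
            exact (map_natCast χ p).symm
          · simpa [ι] using (hχ' (X i)).symm
          · refine Fin.cases ?_ (fun i => ?_) i
            · rw [Ideal.Quotient.eq.2 (h1 0), ← hχ', ← halg, RingHom.comp_apply, RingHom.coe_coe,
                hϖ]
              rfl
            · simpa [ψ] using (hχ (MvPolynomial.X i)).symm)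
        fun i => Ideal.le_radical (Ideal.mem_map_of_mem _
          (Ideal.subset_span (Set.mem_insert_of_mem _ ⟨i, rfl⟩)))
      rw [← Ideal.Quotient.eq_zero_iff_mem, this, RingHom.comp_apply, RingHom.coe_coe,
        (RingHom.mem_ker).1 hz, map_zero]
    · rintro _ (rfl | ⟨i, rfl⟩)
      · exact hp0
      · refine Fin.cases ?_ (fun i => ?_) i
        · change ϖ (_ - _) = 0
          rw [map_sub, ← halg, hϖ]
          exact sub_self _
        · change ϖ (_ - _) = 0
          rw [map_sub, map_mul, hp0, hψ, hF, mul_zero, sub_zero]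
  have := hM p W T' (Bv n (h + 1)) (Fin n) (Option (Fin (h + 1))) ϖ
    (fun o => o.elim ((p : BB W n (h + 1)) - X none) F') hW hfr hs (by
      rw [hk, Option.range_eq]; rfl) (by simp; omega) (fun j => by
      rw [halg]
      refine Ideal.mem_map_of_mem _ (Ideal.subset_span (Set.mem_insert_of_mem _ ⟨some (.inl j), ?_⟩))
      simp [ι]) (by
      choose N hN using hy
      refine ⟨univ.sup N, fun i => ?_⟩
      rw [hϖ]
      exact Ideal.pow_mem_of_pow_mem _ (hN i) (le_sup (mem_univ i)))
  obtain ⟨hfree, hfin⟩ := this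
  refine ⟨ϖ, F', ⟨hs, hk, fun i => ?_, halg, hfin, inferInstance, ?_⟩, hϖ _, fun i => hϖ _⟩
  · refine Fin.cases (sub_mem (Ideal.subset_span ⟨_, rfl⟩) ?_) (fun i => ?_) i
    · have : Ideal.span (Set.range (X : Fin n → PS W n)) ≤
          (Ideal.span (Set.range X)).comap ι := by
        rw [Ideal.span_le]
        rintro _ ⟨l, rfl⟩
        exact Ideal.subset_span ⟨some (.inl l), by simp [ι]⟩
      exact this hδ
    · have := add_mem (hb i) (Ideal.mul_mem_left _ (b i) (Ideal.subset_span ⟨none, rfl⟩))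
      convert this using 1
      simp only [F', Fin.cons_succ]
      ring
  · rw [hϖ]
    refine nzm p δ fun a ha => ?_
    rw [pdvd hW.max] at ha hpδ ⊢
    rw [map_mul] at ha
    exact (mul_eq_zero.1 ha).resolve_left hpδ

end Vale.Agent.P202.Mx
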