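import Vale.Agent.P202.M.Or

/-! The perfected extended Rees algebra. -/

open Finset

namespace Vale.Agent.P202.Mx

universe u

namespace Rem

open Orm

section pc
variable (p : ℕ) [Fact p.Prime] {K : Type u} [CommRing K] [CharP K p]

theorem of_eq {a b : K} (h : PerfectClosure.of K p a = PerfectClosure.of K p b) :
    ∃ z, a ^ p ^ z = b ^ p ^ z := by
  rw [PerfectClosure.of_apply, PerfectClosure.of_apply, PerfectClosure.mk_eq_iff] at h
  simpa only [zero_add, iterate_frobenius] using h

theorem ex_pow (y : PerfectClosure K p) (j : ℕ) :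
    ∃ m x, y ^ p ^ (j + m) = PerfectClosure.of K p x := by
  obtain ⟨⟨n, x⟩, rfl⟩ := PerfectClosure.mk_surjective K p y
  refine ⟨n, x ^ p ^ j, ?_⟩
  rw [add_comm, pow_add, pow_mul, ← iterate_frobenius _ _ (PerfectClosure.mk K p (n, x)),
    PerfectClosure.iterate_frobenius_mk, map_pow]

theorem nzd_pow {R : Type u} [CommRing R] {a : R} (h : Nzd a) (n : ℕ) : Nzd (a ^ n) := by
  induction n with
  | zero => intro b; simp
  | succ n ih => exact fun b hb => h b (ih _ (by rw [← mul_assoc, ← pow_succ, hb]))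

theorem nzd_of {a : K} (h : Nzd a) : Nzd (PerfectClosure.of K p a) := by
  intro y hy
  obtain ⟨m, x, hx⟩ := ex_pow p y 0
  have hp : ∀ n, p ^ n ≠ 0 := fun n => pow_ne_zero n (Fact.out : p.Prime).ne_zero
  have h1 : PerfectClosure.of K p (a ^ p ^ (0 + m) * x) = PerfectClosure.of K p 0 := by
    rw [map_mul, map_pow, ← hx, ← mul_pow, hy, zero_pow (hp _), map_zero]
  obtain ⟨z, hz⟩ := of_eq p h1
  rw [zero_pow (hp _), mul_pow, ← pow_mul] at hz
  refine IsNilpotent.eq_zero ⟨p ^ (0 + m) * p ^ z, ?_⟩
  rw [pow_mul, hx, ← map_pow, nzd_pow h _ _ hz, map_zero]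

theorem rt_pow_add {P : Type u} [CommRing P] [CharP P p] [PerfectRing P p] (j m : ℕ) (a : P) :
    rt p j a ^ p ^ (j + m) = a ^ p ^ m := by rw [pow_add, pow_mul, rt_pow]

end pc

open LaurentPolynomial

variable {P : Type u} [CommRing P]

/-- the extended Rees algebra -/
def ree (I : Ideal P) : Subring (LaurentPolynomial P) where
  carrier := {f | ∀ n : ℤ, f.coeff n ∈ I ^ (-n).toNat}
  mul_mem' {f g} hf hg n := by
    rw [AddMonoidAlgebra.coeff_mul]
    refine Ideal.sum_mem _ fun a _ => Ideal.sum_mem _ fun b _ => ?_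
    dsimp only
    split_ifs with h
    · refine Ideal.pow_le_pow_right (by omega : (-n).toNat ≤ (-a).toNat + (-b).toNat) ?_
      rw [pow_add]
      exact Ideal.mul_mem_mul (hf a) (hg b)
    · exact zero_mem _
  one_mem' n := by
    rw [← T_zero, T_apply]
    split_ifs with h
    · simp [← h]
    · exact zero_mem _
  add_mem' {f g} hf hg n := by simpa using add_mem (hf n) (hg n)
  zero_mem' n := by simp
  neg_mem' {f} hf n := by simpa using hf n

theorem single_mem {I : Ideal P} (m : ℤ) {a : P} (h : a ∈ I ^ (-m).toNat) :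
    C a * T m ∈ ree I := fun n => by
  rw [← single_eq_C_mul_T, AddMonoidAlgebra.coeff_single, Finsupp.single_apply]
  split_ifs with e
  · exact e ▸ h
  · exact zero_mem _

/-- the structure map -/
noncomputable def rc (I : Ideal P) : P →+* ree I :=
  (C : P →+* LaurentPolynomial P).codRestrict _ fun a => by
    simpa using single_mem (I := I) 0 (a := a) (by simp)

theorem rc_inj (I : Ideal P) : Function.Injective (rc I) := fun a b h => by
  simpa [rc] using congrArg (fun f : ree I => f.1.coeff 0) h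

end Rem

open Rem Orm LaurentPolynomial

theorem reStmt : ReStmt.{u} := by
  intro p _ P _ _ _ t r ξ ht
  let I := Ideal.span (Set.range ξ)
  have : CharP (ree I) p := charP_of_injective_ringHom (rc_inj I) p
  let v : ree I := ⟨T 1, by simpa using single_mem (I := I) 1 (a := 1) (by simp)⟩
  refine ⟨PerfectClosure (ree I) p, inferInstance, inferInstance, inferInstance,
    (PerfectClosure.of _ p).comp (rc I), PerfectClosure.of _ p v, nzd_of p fun b hb => ?_,
    nzd_of p fun b hb => ?_, fun l => map_dvd (PerfectClosure.of _ p) ⟨⟨C (ξ l) * T (-1),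
      single_mem (I := I) _ (by
        simpa using (Ideal.subset_span ⟨l, rfl⟩ : ξ l ∈ I))⟩, Subtype.ext ?_⟩, ?_⟩
  · exact Subtype.ext ((isUnit_T 1).mul_right_eq_zero.1 (congrArg Subtype.val hb))
  · ext n
    have := congrArg (fun f : ree I => f.1.coeff n) hb
    exact ht _ (by simpa [rc, ← smul_eq_C_mul] using this)
  · simp [rc, v, mul_left_comm, ← T_add]
  rintro a j N ⟨y, hy⟩
  obtain ⟨m, x, hx⟩ := ex_pow p y j
  have h1 : PerfectClosure.of _ p (rc I a ^ p ^ (j + m)) =
      PerfectClosure.of _ p (v ^ (p ^ m * N) * x) := by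
    rw [map_pow, map_mul, ← hx, map_pow, pow_mul, ← rt_pow_add p j m (PerfectClosure.of _ p v),
      ← pow_mul, mul_comm _ N, pow_mul, ← mul_pow, ← hy]
    rfl
  obtain ⟨z, hz⟩ := of_eq p h1
  refine ⟨j + m + z, by omega, ?_⟩
  have h2 := (x ^ p ^ z).2 (-(N * p ^ (m + z) : ℕ))
  have h3 : C (a ^ p ^ (j + m + z)) = T (N * p ^ (m + z) : ℕ) * (x ^ p ^ z).1 := by
    have := congrArg Subtype.val hz
    simp only [rc, v, SubmonoidClass.coe_pow, Subring.coe_mul, RingHom.codRestrict_apply, mul_pow,
      ← pow_mul, ← pow_add, T_pow] at this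
    rw [map_pow, this, SubmonoidClass.coe_pow]
    congr 2
    push_cast
    ring
  have h4 := congrArg (fun f : LaurentPolynomial P => f.coeff 0) h3
  simp only [C_apply, if_true, T, AddMonoidAlgebra.coeff_single_mul_apply, add_zero, one_mul] at h4
  rw [← h4, neg_neg, Int.toNat_natCast] at h2
  have h5 := Ideal.mem_map_of_mem (iterateFrobeniusEquiv P p (j + m + z)).symm h2
  rw [Ideal.map_pow, Ideal.map_span, ← Set.range_comp] at h5
  rw [show j + m + z - j = m + z by omega, ← rt_pow' p (j + m + z) a]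
  exact h5

end Vale.Agent.P202.Mx
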