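import Vale.Agent.P202.M.Sit1

/-! Module SI: the situation after the Cohen factorisation. -/

open Finset Matrix MvPowerSeries Filter Topology IsLocalRing
open scoped Kronecker Nat

namespace Vale.Agent.P202.Mx

universe u

namespace Si

theorem span_cons {T : Type u} [CommRing T] {n m : ℕ} (a0 : T) (a : Fin (n + m) → T) :
    Ideal.span (Set.range (Fin.cons a0 a : Fin (n + m + 1) → T)) =
      Ideal.span (Set.range (Fin.cons a0 fun i => a (Fin.castAdd m i) : Fin (n + 1) → T)) ⊔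
        Ideal.span (Set.range fun i => a (Fin.natAdd n i)) := by
  rw [← Ideal.span_union, Fin.range_cons, Fin.range_cons, Set.insert_union]
  congr 2
  ext z
  constructor
  · rintro ⟨i, rfl⟩
    refine Fin.addCases (fun j => ?_) (fun j => ?_) i
    exacts [Or.inl ⟨j, rfl⟩, Or.inr ⟨j, rfl⟩]
  · rintro (⟨j, rfl⟩ | ⟨j, rfl⟩) <;> exact ⟨_, rfl⟩

theorem xv_eq {p : ℕ} {W T' : Type u} [CommRing W] {n h : ℕ} [CommRing T'] [Algebra W T']
    [Algebra (PS W n) T'] {ϖ : BB W n h →ₐ[W] T'} {F : Fin h → BB W n h} {j2 : Fin h}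
    (H : Pr p ϖ F j2) (j1 : Fin h) : (fun l => ϖ (X (xv j1 l))) =
      Fin.cons (ϖ (X (some (.inr j1)))) fun i => algebraMap (PS W n) T' (X i) := by
  funext l
  cases l using Fin.cases with
  | zero => rfl
  | succ i => rw [Fin.cons_succ, H.alg, rename_X]; rfl

theorem red {R T : Type u} [CommRing R] [CommRing T] (j : R →+* T) {m q : Ideal R}
    {𝔶 : Ideal T} {c : ℕ} (h : m ^ (c + 1) ≤ q * m ^ c) :
    (m.map j ⊔ 𝔶) ^ (c + 1) ≤ (q.map j ⊔ 𝔶) * (m.map j ⊔ 𝔶) ^ c := by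
  refine (sup_pow_le _ _ c).trans (sup_le ?_ (Ideal.mul_mono_left le_sup_right))
  rw [← Ideal.map_pow]
  refine (Ideal.map_mono h).trans ?_
  rw [Ideal.map_mul, Ideal.map_pow]
  exact Ideal.mul_mono le_sup_left (Ideal.pow_right_mono le_sup_left _)

theorem core (hE : EpsStmt.{u}) (hR : RaStmt.{u}) (h2 : Hs2Stmt.{u}) (hL : LenStmt.{u}) {p : ℕ}
    {C W R S T T' : Type u} [CommRing C] [CommRing W] [IsLocalRing W] [CommRing R] [IsDomain R]
    [IsLocalRing R] [IsNoetherianRing R] [CommRing S] [IsLocalRing S] [Algebra W S] [CommRing T]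
    [IsLocalRing T] [CommRing T'] [IsLocalRing T'] {n c c' : ℕ}
    [Algebra (PS C n) (PS W (n + (c' + 1)))] [Algebra (PS W (n + (c' + 1))) T] [Algebra R T]
    [Algebra (PS W (n + (c' + 1))) T'] [Algebra T' T] [IsScalarTower (PS W (n + (c' + 1))) T' T]
    [Algebra W T'] [IsLocalHom (algebraMap T' T)] {f : R →+* S}
    {π : PS W (n + (c' + 1)) →ₐ[W] S} {ρ : T →+* S} (H : Ten (C := C) p n c' f π ρ)
    {σ : W ≃+* W} (hσ : Frb p σ) (hS : CW W S) (hf : f.Flat) {x : Fin (n + 1) → R} {eR eS : ℝ}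
    (hx : ∀ i, x i ∈ maximalIdeal R)
    (hc : maximalIdeal R ^ (c + 1) ≤ Ideal.span (Set.range x) * maximalIdeal R ^ c)
    (hg : Grow S (n + 1)) (mR : Mult R (n + 1) eR) (mS : Mult S (n + 1) eS) (hp : (p : R) ≠ 0)
    (hpm : (p : R) ∈ maximalIdeal R)
    (hX : ∀ i, algebraMap (PS W (n + (c' + 1))) T (X (Fin.castAdd (c' + 1) i)) =
      algebraMap R T (x i.succ))
    (hi : Function.Injective (algebraMap T' T)) (hfin : Module.Finite T' T) {h h' : ℕ}
    {v : Fin h → T'} {F : Fin h → MvPolynomial (Fin h) (PS W (n + (c' + 1)))}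
    (hs : Function.Surjective (MvPolynomial.aeval v :
      MvPolynomial (Fin h) (PS W (n + (c' + 1))) →ₐ[PS W (n + (c' + 1))] T'))
    (hF : ∀ i, MvPolynomial.aeval v (F i) = 0) {z δ : R} (hz : z ≠ 0) (hδ : δ ≠ 0)
    (hj : (jac F fun i => algebraMap T' T (v i)) = algebraMap R T z) {π1 π2 w : T'} {a : ℕ}
    (h1 : algebraMap T' T π1 = algebraMap R T δ)
    (hb : ∀ b, ∃ b', algebraMap T' T b' = algebraMap T' T π1 * b) (h3 : π1 = (p : T') ^ a * π2)
    {ϖ : BB W (n + (c' + 1)) h' →ₐ[W] T'} {F' : Fin h' → BB W (n + (c' + 1)) h'} {j1 j2 : Fin h'}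
    (hP : Pr p ϖ F' j2) (e1 : algebraMap T' T (ϖ (X (some (.inr j1)))) = algebraMap R T (x 0))
    (e2 : ϖ (X (some (.inr j2))) = π2 * w) :
    ∃ y : Fin (n + 1) → PS W (n + (c' + 1)),
      Sit p ϖ F' j1 j2 (maximalIdeal T) (RingHom.ker ρ) y eR eS := by
  have := hS.noeth
  have am := IsScalarTower.algebraMap_apply (PS W (n + (c' + 1))) T' T
  have r1 : ∀ a, ρ (algebraMap T' T (algebraMap (PS W (n + (c' + 1))) T' a)) = π a := fun a => by
    rw [← am, H.r1]
  have hρ : Function.Surjective ρ := fun s => (H.sur s).elim fun a ha => ⟨_, (r1 a).trans ha⟩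
  have jm : RingHom.ker ρ ≤ maximalIdeal T := le_maximalIdeal (RingHom.ker_ne_top ρ)
  have sur : ∀ b, ∃ a, b - algebraMap T' T (algebraMap (PS W (n + (c' + 1))) T' a) ∈
      RingHom.ker ρ := fun b => (H.sur (ρ b)).imp fun a ha => by
    rw [RingHom.mem_ker, map_sub, r1, ha, sub_self]
  have kk : ((RingHom.ker ρ).comap (algebraMap T' T)).comap (algebraMap (PS W (n + (c' + 1))) T') =
      RingHom.ker (π : PS W (n + (c' + 1)) →+* S) := by
    ext a; simp only [Ideal.mem_comap, RingHom.mem_ker, r1]; rfl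
  obtain ⟨y, y1, ⟨N, y2⟩, y3, y4, y5⟩ := sside hR h2 (π : PS W (n + (c' + 1)) →+* S) H.sur
    (Nat.le_add_left 1 n) (inf_res hσ hS) hg mS
  have mm : (maximalIdeal R).map (algebraMap R T) ≤ maximalIdeal T := H.max ▸ le_sup_left
  let x' : Fin (n + 1) → T' := Fin.cons (ϖ (X (some (.inr j1)))) fun i =>
    algebraMap (PS W (n + (c' + 1))) T' (X (Fin.castAdd (c' + 1) i))
  have hx' : ∀ l, algebraMap T' T (x' l) = algebraMap R T (x l) := fun l => by
    cases l using Fin.cases with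
    | zero => exact e1
    | succ i => exact (am _).symm.trans (hX i)
  let 𝔶 : Ideal T' := Ideal.span (Set.range fun i =>
    algebraMap (PS W (n + (c' + 1))) T' (X (Fin.natAdd n i)))
  have hy : 𝔶.map (algebraMap T' T) = Ideal.span (Set.range fun i =>
      algebraMap (PS W (n + (c' + 1))) T (X (Fin.natAdd n i))) := by
    simp only [𝔶, span_map, am]
  have s1 : Ideal.span (Set.range fun l => ϖ (X (xv j1 l))) = Ideal.span (Set.range x') ⊔ 𝔶 := by
    rw [xv_eq hP, span_cons]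
  have s2 : Ideal.span (Set.range fun l => algebraMap T' T (ϖ (X (xv j1 l)))) =
      (Ideal.span (Set.range x)).map (algebraMap R T) ⊔ 𝔶.map (algebraMap T' T) := by
    rw [← span_map, s1, Ideal.map_sup, span_map, span_map (algebraMap R T)]
    simp only [hx']
  have := H.flat
  refine ⟨y, hP, ⟨hi, hfin, ⟨a, fun b => ?_⟩, ?_, ?_, c, ?_⟩, Nat.le_add_left 1 n,
    (maximalIdeal.isMaximal T).ne_top, fun b hb => not_not.1 hb, ?_, jm, fun l => ?_, fun l => ?_,
    ⟨N, ?_⟩, sur, eps hE hf ρ hs hF sur hz hp (by rw [hj, H.r2]), kk ▸ y3, kk ▸ y4, kk ▸ y5,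
    x', 𝔶, π1, ?_, hb, rside h2 hL (algebraMap R T) (fun b => (sur b).elim fun a ha => ⟨_, jm ha⟩)
      (Nat.le_add_left 1 n) hx' (hy ▸ H.len) hx hc mR hδ hp h1⟩
  · obtain ⟨b', e⟩ := hb b
    refine ⟨w * b', ?_⟩
    rw [map_mul, e, e2, h3]
    simp only [map_mul, map_pow, map_natCast]
    ring
  · have := nzd_flat (f := algebraMap R T) (RingHom.flat_algebraMap_iff.2 this) hp
    rwa [map_natCast] at this
  · have := mm (Ideal.mem_map_of_mem _ hpm)
    rwa [map_natCast] at this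
  · rw [s2, H.max, hy]
    exact red _ hc
  · obtain ⟨ι, _, _, deg, dF, i0, r⟩ := H.rs
    exact ⟨c' + 1, ι, _, _, deg, dF, i0, by omega, r⟩
  · have : Ideal.span (Set.range fun l => algebraMap T' T (ϖ (X (xv j1 l)))) ≤ maximalIdeal T := by
      rw [s2, H.max, hy]
      refine sup_le_sup_right (Ideal.map_mono (Ideal.span_le.2 ?_)) _
      rintro _ ⟨i, rfl⟩
      exact hx i
    exact this (Ideal.subset_span ⟨l, rfl⟩)
  · exact fun e => y1 l (by have := e.map ρ; rwa [r1] at this)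
  · have e : (maximalIdeal T ^ N).map ρ ≤ (Ideal.span (Set.range fun l =>
        algebraMap T' T (algebraMap (PS W (n + (c' + 1))) T' (y l)))).map ρ := by
      rw [Ideal.map_pow, map_maximalIdeal_of_surjective ρ hρ, span_map]
      simp only [r1]
      exact y2
    rw [Ideal.map_le_iff_le_comap, Ideal.comap_map_of_surjective ρ hρ, sup_comm] at e
    exact e
  · rw [s1, bx]
    simp only [pow_one]
    exact le_rfl

end Si

open Si in
theorem sitStmt (hT : TenStmt.{u}) (hN : NrmStmt.{u}) (hW : TwMStmt.{u}) (hB : BtMStmt.{u})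
    (hP : PresStmt.{u}) (hE : EpsStmt.{u}) (hR : RaStmt.{u}) (h2 : Hs2Stmt.{u}) (hL : LenStmt.{u})
    (hV : EvWStmt.{u}) : SitStmt.{u} := by
  intro p _ C W R S _ _ _ _ _ _ σ _ _ _ _ _ _ _ f _ n _ _ _ x c eR eS hC hW' hσ cR cS hf hi hX hx
    hc hg mR mS
  have := char0 hC
  have : CharZero (PS C n) := charZero_of_injective_algebraMap (R := C) C_injective
  have := hN C n
  have : IsDomain (PS C n) := NoZeroDivisors.to_isDomain _
  have := cR.noeth
  have := (hV p C (Fin n) hC).cw.noeth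
  have p0 : (p : PS C n) ≠ 0 := Nat.cast_ne_zero.2 (Fact.out : p.Prime).ne_zero
  have pR : (p : R) ≠ 0 := by
    rw [← map_natCast (algebraMap (PS C n) R)]
    exact (map_ne_zero_iff _ hi).2 p0
  have pm := p_mem hC cR
  obtain ⟨θ, F, δ, hδ, hθ, hk, hj, hd⟩ := hW (PS C n) R (x 0) p hi p0
  obtain ⟨a, δ1, hδ1, e1⟩ := WfDvdMonoid.max_power_factor' hδ (p_mem hC (hV p C (Fin n) hC).cw)
  obtain ⟨c', T, _, _, _, _, _, _, _, _, _, π, ρ, H⟩ := hT p C W R S f n hC hW' cR cS hf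
    fun i => hX i ▸ hx _
  have := H.flat'
  obtain ⟨k1, k2, k3⟩ := hB (PS C n) (PS W (n + (c' + 1))) R T 2 ![x 0, θ] F δ hk hd
  have := (hV p W (Fin (n + (c' + 1))) hW').cw.noeth
  have := H.fin
  obtain ⟨T', _, _, _, _, _, v, f1, f2, f3, f4, f5, f6⟩ := ex_sub (PS W (n + (c' + 1))) T
    fun i => algebraMap R T (![x 0, θ] i)
  let : Algebra W T' := ((algebraMap (PS W (n + (c' + 1))) T').comp (algebraMap W _)).toAlgebra
  have : IsScalarTower W (PS W (n + (c' + 1))) T' := IsScalarTower.of_algebraMap_eq fun _ => rfl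
  have ev : ∀ g : MvPolynomial (Fin 2) (PS W (n + (c' + 1))), algebraMap T' T
      (MvPolynomial.aeval v g) = MvPolynomial.aeval (fun i => algebraMap R T (![x 0, θ] i)) g :=
    fun g => by rw [← MvPolynomial.aeval_algebraMap_apply, ← funext f5]; rfl
  have k4 : RingHom.ker (MvPolynomial.aeval v : MvPolynomial (Fin 2) (PS W (n + (c' + 1))) →ₐ[PS W
      (n + (c' + 1))] T') = Ideal.span (Set.range fun i =>
        MvPolynomial.map (algebraMap (PS C n) (PS W (n + (c' + 1)))) (F i)) := by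
    rw [← k1]
    ext g
    rw [RingHom.mem_ker, RingHom.mem_ker, ← ev, map_eq_zero_iff _ f3]
  have am := IsScalarTower.algebraMap_apply (PS W (n + (c' + 1))) T' T
  have am' : ∀ a, algebraMap (PS W (n + (c' + 1))) T (algebraMap (PS C n) _ a) =
      algebraMap R T (algebraMap (PS C n) R a) := fun a => by
    rw [← IsScalarTower.algebraMap_apply, ← IsScalarTower.algebraMap_apply]
  obtain ⟨ϖ, F', g1, g2, g3⟩ := hP p W T' (n + (c' + 1)) 2 v _
    (algebraMap (PS C n) _ δ1 * X (Fin.natAdd n 0)) hW'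
    (fun b => ⟨σ.symm b, by simpa using hσ.frob (σ.symm b)⟩) (fun i e => by
      have h1 : ![x 0, θ] i ∈ maximalIdeal R := by
        fin_cases i
        · exact hx 0
        · rw [map_natCast] at hθ
          exact Ideal.mem_of_dvd _ hθ pm
      have h2 : algebraMap R T (![x 0, θ] i) ∈ maximalIdeal T :=
        H.max ▸ Ideal.mem_sup_left (Ideal.mem_map_of_mem _ h1)
      exact h2 (f5 i ▸ e.map _)) f6 k4
    (Ideal.mul_mem_left _ _ (Ideal.subset_span ⟨_, rfl⟩))
    fun e => hδ1 (H.gp _ (dvd_of_mul_X e))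
  obtain ⟨y, hy⟩ := core hE hR h2 hL H hσ cS hf hx hc hg mR mS pR pm
    (fun i => by rw [← H.gx, am', hX]) f3 f2 f6
    (fun i => RingHom.mem_ker.1 (k4.ge (Ideal.subset_span ⟨i, rfl⟩))) hj
    ((map_ne_zero_iff _ hi).2 hδ) (by rw [← k2, funext f5])
    (π1 := algebraMap (PS W (n + (c' + 1))) T' (algebraMap (PS C n) _ δ)) (a := a)
    (by rw [← am, am']) (fun b => (k3 b).elim fun g e => ⟨_, by
      rw [ev, e, ← am, ← IsScalarTower.algebraMap_apply]⟩)
    (by rw [e1, map_mul, map_mul, map_pow, map_pow, map_natCast, map_natCast]) g1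
    (j1 := Fin.succ 0) (by rw [g3, f5]; rfl) (by rw [g2, map_mul])
  exact ⟨T', T, _, _, _, _, _, _, _, ϖ, F', _, _, _, _, y, hy⟩

end Vale.Agent.P202.Mx
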