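import Vale.Agent.P202.M.SpecT
import Vale.Agent.P202.Rs
import Vale.Agent.P202.Unr

/-! Module TE: the tensor product of the Cohen factorisation. -/

open Finset Matrix MvPowerSeries Filter Topology IsLocalRing
open scoped Kronecker Nat TensorProduct

namespace Vale.Agent.P202.Mx

universe u

namespace Te

theorem ln_map {T T' : Type u} [CommRing T] [CommRing T'] (g : T →+* T')
    (hg : Function.Surjective g) (K : Ideal T) : ln (K ⊔ RingHom.ker g) = ln (K.map g) := by
  let := g.toAlgebra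
  have hs : Function.Surjective (Algebra.ofId T (T' ⧸ K.map g)) :=
    Ideal.Quotient.mk_surjective.comp hg
  have hk : K ⊔ RingHom.ker g = RingHom.ker (Algebra.ofId T (T' ⧸ K.map g)) := by
    rw [RingHom.ker_eq_comap_bot g, ← Ideal.comap_map_of_surjective g hg]
    ext a
    exact (Ideal.Quotient.eq_zero_iff_mem (I := K.map g) (a := g a)).symm
  unfold ln
  rw [← Module.length_eq_of_surjective (S := T) (R := T') hg]
  exact ((Ideal.quotientEquivAlgOfEq T hk).trans
    (Ideal.quotientKerAlgEquivOfSurjective hs)).toLinearEquiv.length_eq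

variable {A A' R : Type u} [CommRing A] [CommRing A'] [CommRing R] [Algebra A A'] [Algebra A R]

/-- the second inclusion -/
noncomputable abbrev iR (A A' R : Type u) [CommRing A] [CommRing A'] [CommRing R] [Algebra A A']
    [Algebra A R] : R →+* A' ⊗[A] R :=
  (Algebra.TensorProduct.includeRight (R := A) (A := A')).toRingHom

theorem flat_iR [Module.Flat A A'] : (iR A A' R).Flat := by
  let : Algebra R (A' ⊗[A] R) := Algebra.TensorProduct.rightAlgebra
  have : IsScalarTower A R (A' ⊗[A] R) := Algebra.TensorProduct.right_isScalarTower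
  have h : Algebra.IsPushout A R A' (A' ⊗[A] R) := TensorProduct.isPushout.symm
  exact Module.Flat.isBaseChange A R A' (A' ⊗[A] R) h.out

theorem tmul_mem {m : Ideal R} (a : A') {b : R} (hb : b ∈ m) : a ⊗ₜ[A] b ∈ m.map (iR A A' R) := by
  have := Ideal.mul_mem_left (m.map (iR A A' R)) (a ⊗ₜ 1) (Ideal.mem_map_of_mem _ hb)
  simpa using this

theorem fib1 {m : Ideal R} (hres : ∀ b, ∃ a, b - algebraMap A R a ∈ m) (t : A' ⊗[A] R) :
    ∃ a : A', t - a ⊗ₜ 1 ∈ m.map (iR A A' R) := by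
  induction t using TensorProduct.induction_on with
  | zero => exact ⟨0, by simp⟩
  | add x y hx hy =>
    obtain ⟨a, ha⟩ := hx
    obtain ⟨b, hb⟩ := hy
    exact ⟨a + b, by rw [TensorProduct.add_tmul, add_sub_add_comm]; exact add_mem ha hb⟩
  | tmul a b =>
    obtain ⟨k, hk⟩ := hres b
    refine ⟨k • a, ?_⟩
    rw [TensorProduct.smul_tmul, ← Algebra.algebraMap_eq_smul_one, ← TensorProduct.tmul_sub]
    exact tmul_mem _ hk

theorem alg_mem {m : Ideal R} {a : A} (ha : algebraMap A R a ∈ m) :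
    algebraMap A A' a ⊗ₜ[A] (1 : R) ∈ m.map (iR A A' R) := by
  rw [Algebra.algebraMap_eq_smul_one, TensorProduct.smul_tmul, ← Algebra.algebraMap_eq_smul_one]
  exact tmul_mem _ ha

theorem fib2 {m : Ideal R} (hres : ∀ b, ∃ a, b - algebraMap A R a ∈ m) :
    Nonempty ((A' ⧸ (m.comap (algebraMap A R)).map (algebraMap A A')) ≃+*
      (A' ⊗[A] R) ⧸ m.map (iR A A' R)) := by
  set I := (m.comap (algebraMap A R)).map (algebraMap A A')
  set J := m.map (iR A A' R)
  have hs : Function.Surjective (Algebra.ofId A (R ⧸ m)) := fun q => by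
    obtain ⟨b, rfl⟩ := Ideal.Quotient.mk_surjective q
    obtain ⟨k, hk⟩ := hres b
    exact ⟨k, (Ideal.Quotient.eq.2 hk).symm⟩
  let e := Ideal.quotientKerAlgEquivOfSurjective hs
  let ν1 : (A ⧸ RingHom.ker (Algebra.ofId A (R ⧸ m))) →ₐ[A] A' ⧸ I :=
    Ideal.Quotient.liftₐ _ (Algebra.ofId A (A' ⧸ I)) fun a ha =>
      Ideal.Quotient.eq_zero_iff_mem.2
        (Ideal.mem_map_of_mem _ (Ideal.mem_comap.2
          ((Ideal.Quotient.eq_zero_iff_mem (I := m) (a := algebraMap A R a)).1 ha)))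
  let ν2 : R →ₐ[A] A' ⧸ I := ν1.comp ((e.symm : _ →ₐ[A] _).comp (Ideal.Quotient.mkₐ A m))
  let ν : A' ⊗[A] R →ₐ[A] A' ⧸ I :=
    Algebra.TensorProduct.lift (Ideal.Quotient.mkₐ _ I) ν2 fun _ _ => Commute.all _ _
  have hν : ∀ t ∈ J, ν t = 0 := fun t ht => by
    refine (Ideal.map_le_iff_le_comap (K := RingHom.ker ν.toRingHom)).2 (fun b hb => ?_) ht
    change ν (1 ⊗ₜ b) = 0
    rw [Algebra.TensorProduct.lift_tmul, map_one, one_mul]
    change ν1 (e.symm (Ideal.Quotient.mk m b)) = 0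
    rw [Ideal.Quotient.eq_zero_iff_mem.2 hb, map_zero, map_zero]
  let ψ : A' →+* (A' ⊗[A] R) ⧸ J := (Ideal.Quotient.mk J).comp (algebraMap _ _)
  have hψ : Function.Surjective ψ := fun q => by
    obtain ⟨t, rfl⟩ := Ideal.Quotient.mk_surjective q
    obtain ⟨a, ha⟩ := fib1 hres t
    exact ⟨a, (Ideal.Quotient.eq.2 ha).symm⟩
  refine ⟨(Ideal.quotEquivOfEq (le_antisymm ?_ fun a ha => ?_)).trans
    (RingHom.quotientKerEquivOfSurjective hψ)⟩
  · exact Ideal.map_le_iff_le_comap.2 fun a ha => Ideal.Quotient.eq_zero_iff_mem.2 (alg_mem ha)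
  · have := hν (a ⊗ₜ 1) (Ideal.Quotient.eq_zero_iff_mem.1 ha)
    rw [Algebra.TensorProduct.lift_tmul, map_one, mul_one] at this
    exact Ideal.Quotient.eq_zero_iff_mem.1 this

theorem loc [IsLocalRing A] [IsLocalRing A'] [IsLocalRing R] [Module.Finite A R]
    [Nontrivial (A' ⊗[A] R)] (hg : ∀ a ∈ maximalIdeal A, algebraMap A A' a ∈ maximalIdeal A')
    (hres : ∀ b, ∃ a, b - algebraMap A R a ∈ maximalIdeal R) :
    ∃ _ : IsLocalRing (A' ⊗[A] R), maximalIdeal (A' ⊗[A] R) = (maximalIdeal R).map (iR A A' R) ⊔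
      (maximalIdeal A').map (algebraMap A' (A' ⊗[A] R)) := by
  have key : ∀ 𝔫 : Ideal (A' ⊗[A] R), 𝔫.IsMaximal → 𝔫 = (maximalIdeal R).map (iR A A' R) ⊔
      (maximalIdeal A').map (algebraMap A' (A' ⊗[A] R)) := by
    intro 𝔫 h𝔫
    have h1 : 𝔫.comap (algebraMap A' (A' ⊗[A] R)) = maximalIdeal A' :=
      eq_maximalIdeal (Ideal.isMaximal_comap_of_isIntegral_of_isMaximal 𝔫)
    have h2 : 𝔫.comap (iR A A' R) = maximalIdeal R := by
      refine eq_maximalIdeal (Ideal.isMaximal_of_isIntegral_of_isMaximal_comap (R := A) _ ?_)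
      have h3 : maximalIdeal A ≤ (𝔫.comap (iR A A' R)).comap (algebraMap A R) := fun a ha => by
        have h4 : algebraMap A A' a ∈ 𝔫.comap (algebraMap A' (A' ⊗[A] R)) := h1 ▸ hg a ha
        change (1 : A') ⊗ₜ[A] algebraMap A R a ∈ 𝔫
        rw [Algebra.algebraMap_eq_smul_one, ← TensorProduct.smul_tmul,
          ← Algebra.algebraMap_eq_smul_one]
        exact h4
      rw [← (maximalIdeal.isMaximal A).eq_of_le (Ideal.IsPrime.ne_top inferInstance) h3]
      infer_instance
    have h5 : (maximalIdeal R).map (iR A A' R) ≤ 𝔫 := Ideal.map_le_iff_le_comap.2 h2.ge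
    refine le_antisymm (fun t ht => ?_) (sup_le h5 (Ideal.map_le_iff_le_comap.2 h1.ge))
    obtain ⟨a, ha⟩ := fib1 hres t
    have h6 : a ∈ maximalIdeal A' := by
      have := sub_mem ht (h5 ha)
      rw [sub_sub_cancel] at this
      exact h1 ▸ this
    have := Submodule.add_mem_sup ha (Ideal.mem_map_of_mem (algebraMap A' (A' ⊗[A] R)) h6)
    rwa [show algebraMap _ _ a = a ⊗ₜ[A] (1 : R) from rfl, sub_add_cancel] at this
  obtain ⟨𝔫, h𝔫⟩ := Ideal.exists_maximal (A' ⊗[A] R)
  have := IsLocalRing.of_unique_max_ideal ⟨𝔫, h𝔫, fun 𝔫' h' => (key _ h').trans (key _ h𝔫).symm⟩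
  exact ⟨this, key _ inferInstance⟩

theorem len [IsLocalRing R] [IsLocalRing (A' ⊗[A] R)] (Y : Ideal A') [Module.Flat A (A' ⧸ Y)]
    (hm : maximalIdeal (A' ⊗[A] R) = (maximalIdeal R).map (iR A A' R) ⊔
      Y.map (algebraMap A' (A' ⊗[A] R))) (I : Ideal R) :
    ln (I.map (iR A A' R) ⊔ Y.map (algebraMap A' (A' ⊗[A] R))) = ln I := by
  let g := Algebra.TensorProduct.map (Ideal.Quotient.mkₐ A Y) (AlgHom.id A R)
  have hg : Function.Surjective g :=
    Algebra.TensorProduct.map_surjective _ _ Ideal.Quotient.mk_surjective Function.surjective_id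
  have hk : RingHom.ker g.toRingHom = Y.map (algebraMap A' (A' ⊗[A] R)) := by
    have : RingHom.ker g = _ := Algebra.TensorProduct.rTensor_ker (C := R)
      (Ideal.Quotient.mkₐ A Y) Ideal.Quotient.mk_surjective
    rw [show RingHom.ker (Ideal.Quotient.mkₐ A Y) = Y from Ideal.mk_ker] at this
    exact this
  have hn : Nontrivial ((A' ⧸ Y) ⊗[A] R) := by
    by_contra hc
    rw [not_nontrivial_iff_subsingleton] at hc
    have h1 : (1 : A' ⊗[A] R) ∈ RingHom.ker g.toRingHom := Subsingleton.elim _ _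
    rw [hk] at h1
    exact (maximalIdeal.isMaximal (A' ⊗[A] R)).ne_top
      ((Ideal.eq_top_iff_one _).2 (hm ▸ Ideal.mem_sup_right h1))
  have : IsLocalRing ((A' ⧸ Y) ⊗[A] R) := IsLocalRing.of_surjective' g.toRingHom hg
  have e : g.toRingHom.comp (iR A A' R) = iR A (A' ⧸ Y) R := by
    ext b
    simp [g]
  have hU : Unr (iR A (A' ⧸ Y) R) := ⟨flat_iR, by
    rw [← map_maximalIdeal_of_surjective g.toRingHom hg, hm, Ideal.map_sup, Ideal.map_map, e, ← hk,
      Ideal.map_eq_bot_iff_le_ker _ |>.2 le_rfl, sup_bot_eq]⟩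
  rw [← hk, ln_map _ hg, Ideal.map_map, e]
  exact (unrStmt.2.1 _ _ _ hU).2.2 I

end Te

open Te in
theorem tenStmt (hC : CoMStmt.{u}) (hV : EvWStmt.{u}) : TenStmt.{u} := by
  intro p _ V W R S _ _ _ _ _ _ _ _ _ _ _ _ f _ n _ _ _ hV0 hW hR hS hf hx
  obtain ⟨c, g, π, hπ, hπg, hgX, hπX, hg, hgY, ⟨q⟩⟩ :=
    hC p V W S n (f.comp (algebraMap (PS V n) R)) hV0 hW hS fun i => map_nonunit f _ (hx i)
  let := g.toAlgebra
  have : Module.Flat (PS V n) (PS W (n + (c + 1))) := hg
  have hA := hV p V (Fin n) hV0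
  have hA' := hV p W (Fin (n + (c + 1))) hW
  have := hA'.cw.noeth
  let : Algebra R (PS W (n + (c + 1)) ⊗[PS V n] R) := Algebra.TensorProduct.rightAlgebra
  let : Algebra (PS V n) S := (f.comp (algebraMap (PS V n) R)).toAlgebra
  let π' : PS W (n + (c + 1)) →ₐ[PS V n] S := { π.toRingHom with commutes' := hπg }
  let f' : R →ₐ[PS V n] S := { f with commutes' := fun _ => rfl }
  let μ := Algebra.TensorProduct.lift π' f' fun _ _ => Commute.all _ _
  have hμ : ∀ a b, μ (a ⊗ₜ b) = π a * f b := fun a b => Algebra.TensorProduct.lift_tmul _ _ _ a b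
  have m1 : ∀ a, μ.toRingHom (algebraMap (PS W (n + (c + 1))) _ a) = π a := fun a => by
    change μ (a ⊗ₜ 1) = _
    rw [hμ, map_one, mul_one]
  have m2 : ∀ b, μ.toRingHom (algebraMap R _ b) = f b := fun b => by
    change μ (1 ⊗ₜ b) = _
    rw [hμ, map_one, one_mul]
  have : Nontrivial (PS W (n + (c + 1)) ⊗[PS V n] R) := μ.toRingHom.domain_nontrivial
  have hres : ∀ b, ∃ a, b - algebraMap (PS V n) R a ∈ maximalIdeal R := fun b => by
    obtain ⟨k, hk⟩ := hR.res b
    exact ⟨algebraMap V _ k, by rwa [← IsScalarTower.algebraMap_apply]⟩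
  have hpR : (p : R) ∈ maximalIdeal R := by
    have := hR.loc p (by rw [hV0.max]; exact Ideal.subset_span rfl)
    rwa [map_natCast] at this
  have hloc : ∀ a ∈ maximalIdeal (PS V n), g a ∈ maximalIdeal (PS W (n + (c + 1))) := by
    rw [hA.max, hA'.max]
    refine (Ideal.span_le (I := (mv p W _).comap g)).2 ?_
    rintro _ (rfl | ⟨i, rfl⟩)
    · change g p ∈ mv p W _
      rw [map_natCast]
      exact Ideal.subset_span (Set.mem_insert _ _)
    · change g (X i) ∈ mv p W _
      rw [hgX]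
      exact Ideal.subset_span (Set.mem_insert_of_mem _ ⟨_, rfl⟩)
  have hcm : (maximalIdeal R).comap (algebraMap (PS V n) R) = mv p V (Fin n) := by
    rw [← hA.max]
    exact eq_maximalIdeal (Ideal.isMaximal_comap_of_isIntegral_of_isMaximal _)
  obtain ⟨hT, hm⟩ := loc (A' := PS W (n + (c + 1))) hloc hres
  set Y : Ideal (PS W (n + (c + 1))) := Ideal.span (Set.range fun i : Fin (c + 1) =>
    (X (Fin.natAdd n i) : PS W (n + (c + 1)))) with hY
  have hYm : Y.map (algebraMap (PS W (n + (c + 1))) (PS W (n + (c + 1)) ⊗[PS V n] R)) =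
      Ideal.span (Set.range fun i : Fin (c + 1) =>
        algebraMap (PS W (n + (c + 1))) (PS W (n + (c + 1)) ⊗[PS V n] R) (X (Fin.natAdd n i))) := by
    rw [hY, Ideal.map_span, ← Set.range_comp]
    rfl
  have hm' : maximalIdeal (PS W (n + (c + 1)) ⊗[PS V n] R) =
      (maximalIdeal R).map (iR (PS V n) (PS W (n + (c + 1))) R) ⊔
      Y.map (algebraMap (PS W (n + (c + 1))) _) := by
    rw [hm, hA'.max]
    refine le_antisymm (sup_le le_sup_left (Ideal.map_le_iff_le_comap.2 (Ideal.span_le.2 ?_)))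
      (sup_le_sup_left (Ideal.map_mono (Ideal.span_mono ?_)) _)
    · rintro _ (rfl | ⟨i, rfl⟩)
      · refine Ideal.mem_comap.2 (Ideal.mem_sup_left ?_)
        have := Ideal.mem_map_of_mem (iR (PS V n) (PS W (n + (c + 1))) R) hpR
        rwa [map_natCast, ← map_natCast (algebraMap (PS W (n + (c + 1))) _)] at this
      · refine Fin.addCases (fun i => ?_) (fun i => ?_) i
        · refine Ideal.mem_comap.2 (Ideal.mem_sup_left ?_)
          rw [← hgX]
          exact alg_mem (hx i)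
        · exact Ideal.mem_comap.2 (Ideal.mem_sup_right
            (Ideal.mem_map_of_mem _ (Ideal.subset_span ⟨i, rfl⟩)))
    · rintro _ ⟨i, rfl⟩
      exact Set.mem_insert_of_mem _ ⟨_, rfl⟩
  have hfl : Module.Flat R (PS W (n + (c + 1)) ⊗[PS V n] R) := flat_iR
  refine ⟨c, PS W (n + (c + 1)) ⊗[PS V n] R, inferInstance, hT, _, inferInstance, _,
    inferInstance, inferInstance, Algebra.TensorProduct.right_isScalarTower,
    TensorProduct.isPushout, π, μ.toRingHom, inferInstance, hfl, hg, hgX, fun a ha => ?_, hπ, m1,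
    m2, hYm ▸ hm', fun I => ?_, ?_⟩
  · have : IsLocalHom (algebraMap (PS V n) (PS W (n + (c + 1)))) :=
      ⟨fun a ha => by
        by_contra hc
        exact hloc a hc ha⟩
    have := Module.FaithfullyFlat.of_flat_of_isLocalHom (A := PS V n) (B := PS W (n + (c + 1)))
    rw [← Ideal.mem_span_singleton, ← Ideal.comap_map_eq_self_of_faithfullyFlat
      (B := PS W (n + (c + 1))) (Ideal.span {(p : PS V n)}), Ideal.mem_comap, Ideal.map_span,
      Set.image_singleton, map_natCast]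
    exact Ideal.mem_span_singleton.2 ha
  · have : Module.Flat (PS V n) (PS W (n + (c + 1)) ⧸ Y) := hgY
    rw [← hYm]
    exact len Y hm' I
  · have := IsNoetherianRing.of_finite (PS W (n + (c + 1))) (PS W (n + (c + 1)) ⊗[PS V n] R)
    obtain ⟨q'⟩ := fib2 (A' := PS W (n + (c + 1))) hres
    rw [hcm] at q'
    refine rsStmt (ResidueField W) R _ (maximalIdeal R) _ c ?_ ?_ ⟨q.trans q'⟩
    · let := f.toAlgebra
      have : Module.Flat R S := hf
      let μ' : PS W (n + (c + 1)) ⊗[PS V n] R →ₐ[R] S := { μ.toRingHom with commutes' := m2 }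
      have hs : Function.Surjective μ' := fun s => (hπ s).elim fun a ha => ⟨_, (m1 a).trans ha⟩
      exact Module.Flat.of_linearEquiv (Ideal.quotientKerAlgEquivOfSurjective hs).toLinearEquiv
    · rw [jacobson_eq_maximalIdeal ⊥ bot_ne_top, hm']
      exact le_sup_left

end Vale.Agent.P202.Mx
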