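import Vale.Agent.P202.M.SpecT

open Finset Matrix MvPowerSeries Filter Topology IsLocalRing

namespace Vale.Agent.P202.Mx

universe u

namespace Tlm

theorem nzm_pow {R : Type u} [CommRing R] {K : Ideal R} {a : R} (h : Nzm K a) (n : ℕ) :
    Nzm K (a ^ n) := by
  induction n with
  | zero => intro b hb; simpa using hb
  | succ n ih => intro b hb; exact h _ (ih _ (by rwa [pow_succ, mul_assoc] at hb))

theorem order_pow {L : Type u} [Field L] {ν : Type} (f : MvPowerSeries ν L) (n : ℕ) :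
    (f ^ n).order = n * f.order := by
  rw [← Fin.prod_const, order_prod]; simp

theorem exists_psi {G M T : Type u} [CommRing G] [CommRing M] [CommRing T] (ϱ : G →+* M)
    (I : Ideal G) (f : T →+* M) (hs : Function.Surjective ϱ) (hk : RingHom.ker ϱ = I) :
    ∃ ψ : T →+* G ⧸ I, ∀ c z, ϱ z = f c → ψ c = Ideal.Quotient.mk I z := by
  subst hk
  refine ⟨(RingHom.quotientKerEquivOfSurjective hs).symm.toRingHom.comp f, fun c z hz => ?_⟩
  apply (RingHom.quotientKerEquivOfSurjective hs).injective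
  simp [hz]

theorem det_le {W G : Type u} [CommRing W] [IsLocalRing W] {r : ℕ} [CommRing G]
    [Algebra (PS W r) G] {κ : Type} [Fintype κ] [DecidableEq κ] (b : Module.Basis κ (PS W r) G)
    (g : G) (o a : ℕ)
    (h : (MvPowerSeries.map (residue W) (Algebra.leftMulMatrix b g).det).order ≤ o) :
    (MvPowerSeries.map (residue W) (Algebra.leftMulMatrix b (g ^ a)).det).order ≤ (o * a : ℕ) := by
  rw [map_pow, det_pow, map_pow, order_pow, Nat.cast_mul, mul_comm]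
  exact mul_le_mul_left h _

theorem map_pow_span {A G : Type u} [CommRing A] [CommRing G] [Algebra A G] {ι : Type} (x : ι → A)
    (y : ι → G) (h : ∀ l, algebraMap A G (x l) = y l) (a : ℕ) :
    (Ideal.span (Set.range x) ^ a).map (algebraMap A G) = Ideal.span (Set.range y) ^ a := by
  rw [Ideal.map_pow, Ideal.map_span, ← Set.range_comp]
  congr 3
  funext l
  exact h l

variable {p : ℕ} [Fact p.Prime] {W T' T : Type u} [CommRing W] [IsDomain W]
  [IsDiscreteValuationRing W] {σ : W ≃+* W} {n h : ℕ} [CommRing T'] [Algebra W T']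
  [Algebra (PS W n) T'] [CommRing T] [Algebra T' T] {ϖ : BB W n h →ₐ[W] T'}
  {F : Fin h → BB W n h} {j1 j2 : Fin h} {m : Ideal T} {s : BB W n h →+* WittVector p (BB W n h)}

theorem nunit {e : ℕ} (h1 : Env1 p F s e) : ¬ IsUnit (p : GG p s F e) := by
  obtain ⟨_, -, -, -, hm, -⟩ := h1
  rw [← mem_nonunits_iff, ← mem_maximalIdeal, hm, ← map_natCast (Ideal.Quotient.mk (GI p s F e))]
  exact Ideal.mem_map_of_mem _ (Ideal.subset_span (Set.mem_insert _ _))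

theorem tfin (hF : PhlStmt.{u}) (hy : Hy p σ ϖ F j2 s) {K k j e : ℕ} [IsLocalRing (GG p s F e)]
    [Algebra (PS W (n + 1)) (GG p s F e)] {κ : Type} [Fintype κ] [DecidableEq κ]
    {b : Module.Basis κ (PS W (n + 1)) (GG p s F e)} (hb : Env5 p F j2 s e j1 K b) {M : Type u}
    [CommRing M] [Algebra T' M] [Algebra (PS W n) M] {ϱ : GG p s F e →+* M}
    (hϱ : Env3 p σ ϖ F s e ϱ) (cw : CW W (GG p s F e))
    (hz : Nzm (Ideal.span {(p : GG p s F e)}) (gm p s F e (X none)))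
    (hm : Mo (PS W n) T' M p ((p ^ e) ^ (n + h + 1)))
    (ho : gm p s F e (X none) ^ p ^ e ∈ Ideal.span (Set.range fun l => gm p s F e (X (xv j1 l))) ^
      ((p ^ j - 1) * p ^ (e - j)) ⊔ Ideal.span {(p : GG p s F e) ^ 2})
    (Φ : T →+ GG p s F e ⧸ Ideal.span {(p : GG p s F e) ^ k, p - gm p s F e (X none) ^ p ^ e})
    (f1 : ∀ a a', Φ a * Φ a' = Ideal.Quotient.mk _
      (gm p s F e (X none * X (some (.inr j2))) ^ p ^ (e - j)) * Φ (a * a'))
    (f2 : Φ 1 = Ideal.Quotient.mk _ (gm p s F e (X none * X (some (.inr j2))) ^ p ^ (e - j)))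
    (f3 : ∀ c z, ϱ z = algebraMap T' M c →
      ∀ a, Φ (algebraMap T' T c * a) = Ideal.Quotient.mk _ z * Φ a)
    (f4 : ∀ a ∈ m, Φ a ∈ (Ideal.span (Set.range fun l => gm p s F e (X (xv j1 l))) ^
      ((p ^ j - 1) * p ^ (e - j)) ⊔ Ideal.span {(p : GG p s F e)}).map (Ideal.Quotient.mk _)) :
    Tl p ϖ j1 m K k j e (sig σ e) b (gm p s F e (X none) ^ p ^ e)
      (gm p s F e (X none * X (some (.inr j2))) ^ p ^ (e - j)) ϱ Φ := by
  obtain ⟨-, -, -, -, -, a6, -⟩ := hF p W σ (Bv n h) hy.coh hy.frb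
  obtain ⟨-, -, -, -, b5, -, -⟩ := hF p W σ (Fin (n + 1)) hy.coh hy.frb
  have hX : ∀ l, algebraMap (PS W (n + 1)) (GG p s F e) (X l) = gm p s F e (X (xv j1 l)) :=
    fun l => by rw [hb.alg, rename_X]
  refine ⟨cw, ?_, nzm_pow hz _, det_le b _ _ _ hb.det, f1, f2, f3, ?_, hϱ.sur, hϱ.ker,
    fun a => ?_, hm, hϱ.len, ?_⟩
  · rw [map_pow_span _ _ hX]; exact ho
  · rw [map_pow_span _ _ hX]; exact f4
  · rw [hϱ.psi, a6, b5, hb.alg]
  · simp only [hX]; exact hb.lb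

end Tlm

open Tlm in
theorem tlStmt (hW : DwStmt.{u}) (hF : PhlStmt.{u}) (hE : EkStmt.{u}) (h1 : V1Stmt.{u})
    (h2 : V2Stmt.{u}) (h3 : V3Stmt.{u}) (h4 : V4Stmt.{u}) (h5 : V5Stmt.{u}) (hI : IeStmt.{u})
    (hP : PoStmt.{u}) (hV : EvWStmt.{u}) : TlStmt.{u} := by
  intro p _ W T' T _ _ _ σ n h _ _ _ _ _ ϖ F j1 j2 m hc hf hpr hov
  obtain ⟨a1, a2, a3, -⟩ := hF p W σ (Bv n h) hc hf
  obtain ⟨s, hs⟩ := hW p (BB W n h) (phi p σ _) a1 a2
  have hy : Hy p σ ϖ F j2 s := ⟨hc, hf, hpr, hs⟩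
  haveI : IsNoetherianRing (BB W n h) := (hV p W (Bv n h) hc).cw.noeth
  haveI : IsNoetherianRing T' :=
    isNoetherianRing_of_surjective (BB W n h) T' ϖ.toRingHom hpr.sur
  obtain ⟨-, N, hN⟩ := hI p T' T _ _ _ m hov
  obtain ⟨K, hK⟩ := h5 p W T' σ n h ϖ F j2 s hy j1 ⟨N, hN⟩
  choose M iM aM aM' tM ϱ hϱ using h3 p W T' σ n h ϖ F j2 s hy
  have e1 := h1 p W T' σ n h ϖ F j2 s hy
  choose ψ hψ using fun e => exists_psi (ϱ e) _ (algebraMap T' (M e)) (hϱ e).sur (hϱ e).ker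
  obtain ⟨k0, hk0⟩ := hP p (BB W n h) T' T (phi p σ _) s h (n + 1) F (X none)
    (X (some (.inr j2))) (fun l => X (xv j1 l)) ϖ.toRingHom m (fun e => GG p s F e)
    (fun e => (gm p s F e).toRingHom)
    (fun e i => WittVector.map (Ideal.Quotient.mk (GI p s F e)) (zz p W n e i)) ψ hs hpr.sur
    hpr.ker (a3 _) (a3 _) (fun l => a3 _) hov
    (fun e => (hE p W T' σ n h ϖ F j2 s hy e).wit) (fun e => nunit (e1 e))
    (fun e => (e1 e).2.2.2.1) (fun e => (h2 p W T' σ n h ϖ F j2 s hy e).1)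
    ⟨K, by filter_upwards [hK] with e ⟨_, _, _, _, _, b, hb⟩ using hb.nil⟩
    (fun e b => hψ e _ _ ((hϱ e).psi b).symm)
  refine ⟨K, k0, fun k hk j => ?_⟩
  filter_upwards [hK, hk0 k hk j] with e ⟨_, _, κ, _, _, b, hb⟩ ⟨ho, Φ, f1, f2, f3, f4⟩
  obtain ⟨_, cw, -, hz, -⟩ := e1 e
  exact ⟨sig σ e, GG p s F e, _, _, _, _, inferInstance, κ, _, _, b, _, _, M e, _,
    aM e, aM' e, tM e, ϱ e, Φ, tfin hF hy hb (hϱ e) cw hz
      (h4 p W T' σ n h ϖ F j2 s hy e (M e) (ϱ e) (hϱ e)) ho Φ f1 f2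
      (fun c z hcz => f3 c z (hψ e c z hcz)) f4⟩

end Vale.Agent.P202.Mx
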