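import Vale.Agent.P202.M.SpecT

/-! Module UP: the tilt of an ultraproduct-like ring. -/

open Finset Matrix MvPowerSeries Filter Topology IsLocalRing
open scoped Kronecker Nat

namespace Vale.Agent.P202.Mx

universe u

namespace Up

theorem nzm_pow {R : Type u} [CommRing R] {K : Ideal R} {g : R} (h : Nzm K g) (a : ℕ) :
    Nzm K (g ^ a) := by
  induction a with
  | zero => intro b hb; simpa using hb
  | succ a ih => intro b hb; exact h _ (ih _ (by rwa [← mul_assoc, ← pow_succ]))

theorem nzm_pair {R : Type u} [CommRing R] {q f g : R} (hf : Nzm (Ideal.span {q}) f)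
    (hg : Nzm (Ideal.span {q, f}) g) (b : ℕ) : Nzm (Ideal.span {q, f ^ b}) g := by
  induction b with
  | zero => intro y _; exact Ideal.mem_span_pair.2 ⟨0, y, by simp⟩
  | succ b ih =>
    intro y hy
    obtain ⟨u, v, h1⟩ := Ideal.mem_span_pair.1 hy
    obtain ⟨u', v', h2⟩ := Ideal.mem_span_pair.1
      (hg y (Ideal.mem_span_pair.2 ⟨u, v * f ^ b, by rw [← h1]; ring⟩))
    obtain ⟨c, h3⟩ := Ideal.mem_span_singleton'.1 (hf (g * v' - v * f ^ b)
      (Ideal.mem_span_singleton'.2 ⟨u - g * u', by
        linear_combination h1 - g * h2⟩))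
    obtain ⟨u2, v2, h4⟩ := Ideal.mem_span_pair.1
      (ih v' (Ideal.mem_span_pair.2 ⟨c, v, by linear_combination h3⟩))
    exact Ideal.mem_span_pair.2 ⟨u' + u2 * f, v2, by linear_combination h2 + f * h4⟩

variable (p : ℕ) [hp : Fact p.Prime]

theorem ghost {R : Type u} [CommRing R] (n : ℕ) (x : WittVector p R) :
    WittVector.ghostComponent n x = ∑ i ∈ range (n + 1), (p : R) ^ i * x.coeff i ^ p ^ (n - i) := by
  rw [WittVector.ghostComponent_apply, aeval_wittPolynomial]

variable (G : ℕ → Type u) [∀ m, CommRing (G m)]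

/-- sequences that lie eventually in given ideals -/
def Ev (I : ∀ m, Ideal (G m)) : Ideal (∀ m, G m) where
  carrier := {f | ∀ᶠ m in atTop, f m ∈ I m}
  add_mem' {f g} hf hg := by filter_upwards [hf, hg] with m a b using add_mem a b
  zero_mem' := Eventually.of_forall fun _ => zero_mem _
  smul_mem' c f hf := by filter_upwards [hf] with m a using Ideal.mul_mem_left _ _ a

/-- the ring modulo `p` -/
abbrev VV : Type u := (∀ m, G m) ⧸ Ev G fun m => Ideal.span {(p : G m)}

/-- the reduction modulo `p ^ (k + 1)` -/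
def pk (k : ℕ) : (∀ m, G m) →+* Upr fun m => G m ⧸ Ideal.span {(p : G m) ^ (k + 1)} :=
  (Ideal.Quotient.mk _).comp (RingHom.pi fun m => (Ideal.Quotient.mk _).comp (Pi.evalRingHom G m))

variable {p G}

omit hp in
theorem pk_eq {k : ℕ} {f g : ∀ m, G m} :
    pk p G k f = pk p G k g ↔ ∀ᶠ m in atTop, (p : G m) ^ (k + 1) ∣ f m - g m := by
  refine Ideal.Quotient.eq.trans (eventually_congr (Eventually.of_forall fun m => ?_))
  exact (sub_eq_zero (a := Ideal.Quotient.mk (Ideal.span {(p : G m) ^ (k + 1)}) (f m))).trans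
    (Ideal.Quotient.eq.trans Ideal.mem_span_singleton)

omit hp in
theorem mk_eq {f g : ∀ m, G m} :
    (Ideal.Quotient.mk _ f : VV p G) = Ideal.Quotient.mk _ g ↔
      ∀ᶠ m in atTop, (p : G m) ∣ f m - g m :=
  Ideal.Quotient.eq.trans (eventually_congr (Eventually.of_forall fun _ => Ideal.mem_span_singleton))

omit hp in
theorem p_zero : (p : VV p G) = 0 := by
  rw [← map_natCast (Ideal.Quotient.mk _), ← map_zero (Ideal.Quotient.mk _), mk_eq]
  exact Eventually.of_forall fun m => by simp

theorem charP (h : ∀ m, ¬ IsUnit (p : G m)) : CharP (VV p G) p := by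
  have : Nontrivial (VV p G) := ⟨1, 0, fun e => by
    rw [← map_one (Ideal.Quotient.mk _), ← map_zero (Ideal.Quotient.mk _), mk_eq] at e
    obtain ⟨m, hm⟩ := e.exists
    exact h m (isUnit_of_dvd_one (by simpa using hm))⟩
  exact (CharP.charP_iff_prime_eq_zero hp.out).2 p_zero

variable (p G)

/-- the `i`-th coordinate of the tilt -/
def cc (i : ℕ) : (∀ m, G m) →+* VV p G where
  toFun f := Ideal.Quotient.mk _ fun m => f m ^ p ^ (m - i)
  map_one' := by simp only [Pi.one_apply, one_pow]; rfl
  map_mul' f g := by simp only [Pi.mul_apply, mul_pow]; rfl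
  map_zero' := by
    simp only [Pi.zero_apply, zero_pow (pow_ne_zero _ hp.out.ne_zero)]; rfl
  map_add' f g := by
    rw [← map_add, mk_eq]
    refine Eventually.of_forall fun m => ?_
    obtain ⟨r, hr⟩ := exists_add_pow_prime_pow_eq hp.out (f m) (g m) (m - i)
    exact ⟨f m * g m * r, by simp only [Pi.add_apply]; linear_combination hr⟩

theorem cc_pow (i : ℕ) (f : ∀ m, G m) : cc p G (i + 1) f ^ p = cc p G i f := by
  change Ideal.Quotient.mk _ _ ^ p = Ideal.Quotient.mk _ _
  rw [← map_pow, mk_eq]
  filter_upwards [eventually_ge_atTop (i + 1)] with m hm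
  rw [Pi.pow_apply, ← pow_mul, ← pow_succ, show m - (i + 1) + 1 = m - i by omega, sub_self]
  exact dvd_zero _

/-- ghost components modulo `p ^ (k + 1)` -/
noncomputable def gL (k : ℕ) :
    WittVector p (VV p G) →+* Upr fun m => G m ⧸ Ideal.span {(p : G m) ^ (k + 1)} :=
  RingHom.liftOfSurjective (WittVector.map (Ideal.Quotient.mk _))
    (WittVector.map_surjective _ Ideal.Quotient.mk_surjective)
    ⟨(pk p G k).comp (WittVector.ghostComponent k), fun x hx => by
      rw [RingHom.mem_ker, WittVector.map_eq_zero_iff] at hx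
      rw [RingHom.mem_ker, RingHom.comp_apply, ← map_zero (pk p G k), pk_eq]
      have h1 : ∀ i, ∀ᶠ m in atTop, (p : G m) ∣ x.coeff i m := fun i => by
        have := hx i
        rw [← map_zero (Ideal.Quotient.mk _), mk_eq] at this
        simpa using this
      filter_upwards [(eventually_all_finset (range (k + 1))).2 fun i _ => h1 i] with m hm
      have h2 := WittVector.pow_dvd_ghostComponent_of_dvd_coeff
        (x := WittVector.map (Pi.evalRingHom G m) x) (n := k)
        fun i hi => hm i (mem_range.2 (by omega))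
      rw [ghost] at h2
      rw [ghost]
      simpa using h2⟩

theorem gL_map (k : ℕ) (x : WittVector p (∀ m, G m)) :
    gL p G k (WittVector.map (Ideal.Quotient.mk _) x) = pk p G k (WittVector.ghostComponent k x) :=
  RingHom.liftOfSurjective_comp_apply ..

variable [CharP (VV p G) p]

/-- the map to the tilt -/
def fl : (∀ m, G m) →+* Perfection (VV p G) p where
  toFun f := ⟨fun i => cc p G i f, fun i => cc_pow p G i f⟩
  map_one' := Perfection.ext fun i => (cc p G i).map_one
  map_mul' f g := Perfection.ext fun i => (cc p G i).map_mul f g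
  map_zero' := Perfection.ext fun i => (cc p G i).map_zero
  map_add' f g := Perfection.ext fun i => (cc p G i).map_add f g

theorem coeff_fl (i : ℕ) (f : ∀ m, G m) : Perfection.coeff _ p i (fl p G f) = cc p G i f := rfl

theorem coeff_rt (i j : ℕ) (x : Perfection (VV p G) p) :
    Perfection.coeff _ p i (rt p j x) = Perfection.coeff _ p (i + j) x := by
  have h : rt p j x ^ p ^ j = x := (iterateFrobeniusEquiv _ p j).apply_symm_apply x
  conv_rhs => rw [← h]
  exact (Perfection.coeffMonoidHom_pow_p_pow _ i j).symm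

/-- the truncated theta maps -/
noncomputable def th (k : ℕ) : WittVector p (Perfection (VV p G) p) →+*
    Upr fun m => G m ⧸ Ideal.span {(p : G m) ^ (k + 1)} :=
  (gL p G k).comp (WittVector.map (Perfection.coeff _ p k))

omit [CharP (VV p G) p] in
theorem cc_nzd (i : ℕ) (f : ∀ m, G m) (h : ∀ m, Nzm (Ideal.span {(p : G m)}) (f m)) :
    Nzd (cc p G i f) := by
  intro y hy
  obtain ⟨g, rfl⟩ := Ideal.Quotient.mk_surjective y
  have h1 : (fun m => f m ^ p ^ (m - i)) * g ∈ Ev G fun m => Ideal.span {(p : G m)} :=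
    Ideal.Quotient.eq_zero_iff_mem.1 hy
  refine Ideal.Quotient.eq_zero_iff_mem.2 ?_
  filter_upwards [h1] with m hm using nzm_pow (h m) _ _ hm

theorem ul : Ul p G (fl p G) (th p G) where
  gh k w := by
    let w' : WittVector p (∀ m, G m) := WittVector.mk p fun i m => w.coeff i m ^ p ^ (m - k)
    have e : WittVector.map (R := Perfection (VV p G) p) (S := VV p G) (Perfection.coeff _ p k)
        (WittVector.map (R := ∀ m, G m) (S := Perfection (VV p G) p) (fl p G) w) =
        WittVector.map (Ideal.Quotient.mk (Ev G fun m => Ideal.span {(p : G m)})) w' := by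
      ext i; rfl
    change gL p G k _ = pk p G k fun m => WittVector.ghostComponent m w m
    rw [e, gL_map, pk_eq]
    filter_upwards [eventually_ge_atTop k] with m hm
    rw [ghost, ghost, dvd_sub_comm]
    simp only [Finset.sum_apply, Pi.mul_apply, Pi.pow_apply, Pi.natCast_apply]
    rw [← sum_range_add_sum_Ico _ (show k + 1 ≤ m + 1 by omega)]
    rw [sum_congr rfl (g := fun i => (p : G m) ^ i * w.coeff i m ^ p ^ (m - i)) (f := fun i =>
      (p : G m) ^ i * w'.coeff i m ^ p ^ (k - i)) fun i hi => by
        have := mem_range.1 hi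
        change _ * (w.coeff i m ^ p ^ (m - k)) ^ p ^ (k - i) = _
        rw [← pow_mul, ← pow_add, show m - k + (k - i) = m - i by omega], add_sub_cancel_left]
    exact dvd_sum fun i hi => (pow_dvd_pow _ (mem_Ico.1 hi).1).mul_right _
  zero f hf := Perfection.ext fun i => by
    refine Ideal.Quotient.eq_zero_iff_mem.2 ?_
    filter_upwards [hf] with m hm
    exact Ideal.mem_span_singleton.2 (dvd_pow hm (pow_ne_zero _ hp.out.ne_zero))
  nzd f hf y hy := Perfection.ext fun i => by
    have := congrArg (Perfection.coeff _ p i) hy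
    rw [map_mul, map_zero] at this
    exact cc_nzd p G i f hf _ this
  nzm f g hf hg b hb := by
    obtain ⟨a, ha⟩ := Ideal.mem_span_singleton'.1 hb
    have h1 : ∀ i, ∃ z, z * cc p G i f = Perfection.coeff _ p i b := fun i => by
      have h2 := congrArg (Perfection.coeff _ p i) ha
      rw [map_mul, map_mul] at h2
      obtain ⟨α, hα⟩ := Ideal.Quotient.mk_surjective (Perfection.coeff _ p i a)
      obtain ⟨β, hβ⟩ := Ideal.Quotient.mk_surjective (Perfection.coeff _ p i b)
      rw [← hα, ← hβ] at h2
      have h3 : ∀ᶠ m in atTop, (p : G m) ∣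
          α m * f m ^ p ^ (m - i) - g m ^ p ^ (m - i) * β m :=
        mk_eq.1 (h2 : (Ideal.Quotient.mk _ (α * fun m => f m ^ p ^ (m - i)) : VV p G) =
          Ideal.Quotient.mk _ ((fun m => g m ^ p ^ (m - i)) * β))
      have h4 : ∀ᶠ m in atTop, ∃ z, (p : G m) ∣ z * f m ^ p ^ (m - i) - β m := by
        filter_upwards [h3] with m ⟨c, hc⟩
        obtain ⟨u, v, h5⟩ := Ideal.mem_span_pair.1 (nzm_pow (nzm_pair (hf m) (hg m) (p ^ (m - i)))
          (p ^ (m - i)) (β m) (Ideal.mem_span_pair.2 ⟨-c, α m, by linear_combination hc⟩))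
        exact ⟨v, -u, by linear_combination h5⟩
      have h6 : ∀ m, ∃ z : G m, (∃ z, (p : G m) ∣ z * f m ^ p ^ (m - i) - β m) →
          (p : G m) ∣ z * f m ^ p ^ (m - i) - β m := fun m => by
        by_cases hc : ∃ z, (p : G m) ∣ z * f m ^ p ^ (m - i) - β m
        · exact ⟨hc.choose, fun _ => hc.choose_spec⟩
        · exact ⟨0, fun h => absurd h hc⟩
      choose z hz' using h6
      have hz := h4.mono hz'
      exact ⟨Ideal.Quotient.mk _ z, hβ ▸ (mk_eq.2 hz :
        (Ideal.Quotient.mk _ (z * fun m => f m ^ p ^ (m - i)) : VV p G) = Ideal.Quotient.mk _ β)⟩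
    choose z hz using h1
    refine Ideal.mem_span_singleton'.2 ⟨⟨z, fun i => ?_⟩, Perfection.ext fun i => hz i⟩
    refine sub_eq_zero.1 (cc_nzd p G i f hf _ ?_)
    rw [mul_sub, mul_comm _ (z i), hz, ← cc_pow, ← mul_pow, mul_comm, hz, Perfection.coeff_pow_p',
      sub_self]
  tei k j f := by
    change gL p G k _ = pk p G k fun m => f m ^ p ^ (m - j)
    rw [WittVector.map_teichmuller, coeff_rt, coeff_fl]
    change gL p G k (WittVector.teichmuller p (Ideal.Quotient.mk _ _)) = _
    rw [← WittVector.map_teichmuller, gL_map, WittVector.ghostComponent_teichmuller, pk_eq]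
    filter_upwards [eventually_ge_atTop (k + j)] with m hm
    rw [Pi.pow_apply, ← pow_mul, ← pow_add, show m - (k + j) + k = m - j by omega, sub_self]
    exact dvd_zero _
  ord k x f r ξ j N h hx := by
    obtain ⟨w, hw⟩ := WittVector.map_surjective (p := p) _
      (Ideal.Quotient.mk_surjective (I := Ev G fun m => Ideal.span {(p : G m)}))
      (WittVector.map (Perfection.coeff _ p k) x)
    change gL p G k _ = pk p G k f at h
    rw [← hw, gL_map, pk_eq] at h
    have h1 : (Ideal.Quotient.mk _ f : VV p G) = Perfection.coeff _ p 0 (x.coeff 0) := by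
      have h2 : (Ideal.Quotient.mk _ (WittVector.ghostComponent k w) : VV p G) =
          Ideal.Quotient.mk _ f := mk_eq.2 (by
        filter_upwards [h] with m hm using (dvd_pow_self _ (Nat.succ_ne_zero k)).trans hm)
      have h3 : (Ideal.Quotient.mk _ (w.coeff 0) : VV p G) = Perfection.coeff _ p k (x.coeff 0) :=
        congrArg (fun v => v.coeff 0) hw
      rw [← h2, ghost, map_sum, sum_eq_single 0 (fun i _ hi => by
        rw [map_mul, map_pow, map_natCast, p_zero, zero_pow hi, zero_mul]) (by simp),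
        pow_zero, one_mul, map_pow, h3]
      exact Perfection.coeffMonoidHom_pow_p_pow_self _ k
    let D : ℕ → Ideal (∀ m, G m) := fun n => Ev G fun m =>
      Ideal.span (Set.range fun l => ξ l m) ^ (n * p ^ (m - j)) ⊔ Ideal.span {(p : G m)}
    have hD : ∀ n, D 1 ^ n ≤ D n := fun n => by
      induction n with
      | zero => exact fun g _ => Eventually.of_forall fun m => by simp
      | succ n ih =>
        rw [pow_succ]
        refine Ideal.mul_le.2 fun a ha b hb => ?_
        filter_upwards [ih ha, hb] with m h1 h2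
        obtain ⟨a1, ha1, a2, ha2, e1⟩ := Submodule.mem_sup.1 h1
        obtain ⟨b1, hb1, b2, hb2, e2⟩ := Submodule.mem_sup.1 h2
        rw [Pi.mul_apply, ← e1, ← e2, add_mul n, pow_add, add_mul, mul_add, add_assoc]
        exact Submodule.add_mem_sup (Ideal.mul_mem_mul ha1 hb1)
          (add_mem (Ideal.mul_mem_left _ _ hb2) (Ideal.mul_mem_right _ _ ha2))
    have h4 : (Ideal.span (Set.range fun l => rt p j (fl p G (ξ l)))).map
        (Perfection.coeff _ p 0) ≤ (D 1).map (Ideal.Quotient.mk _ : _ →+* VV p G) := by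
      refine Ideal.map_le_iff_le_comap.2 (Ideal.span_le.2 ?_)
      rintro _ ⟨l, rfl⟩
      change Perfection.coeff (VV p G) p 0 (rt p j (fl p G (ξ l))) ∈
        (D 1).map (Ideal.Quotient.mk _ : _ →+* VV p G)
      rw [coeff_rt, zero_add, coeff_fl]
      refine Ideal.mem_map_of_mem _ (Eventually.of_forall fun m => Ideal.mem_sup_left ?_)
      rw [one_mul]
      exact Ideal.pow_mem_pow (Ideal.subset_span (Set.mem_range_self (f := fun l => ξ l m) l)) _
    have h5 := Ideal.mem_map_of_mem (Perfection.coeff _ p 0) hx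
    rw [Ideal.map_pow, ← h1] at h5
    have h6 := Ideal.pow_right_mono h4 N h5
    rw [← Ideal.map_pow] at h6
    obtain ⟨g, hg, e⟩ := (Ideal.mem_map_iff_of_surjective _ Ideal.Quotient.mk_surjective).1 h6
    filter_upwards [hD N hg, mk_eq.1 e.symm] with m a b
    have := add_mem a (Ideal.mem_sup_right (Ideal.mem_span_singleton.2 b))
    rwa [add_sub_cancel] at this

end Up

theorem upStmt : UpStmt.{u} := fun p _ G _ h =>
  have := Up.charP h
  ⟨Perfection (Up.VV p G) p, inferInstance, inferInstance, inferInstance, Up.fl p G, Up.th p G,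
    Up.ul p G⟩

end Vale.Agent.P202.Mx
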