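import Vale.Agent.P202.M.Vc

/-! Module V1: the envelope is free over `W[[T, X]]`. -/

open Finset Matrix MvPowerSeries Filter Topology IsLocalRing
open scoped Kronecker Nat

namespace Vale.Agent.P202.Mx

universe u

open Vc

theorem v1Stmt (hV : EvWStmt.{u}) (hM : MfStmt.{u}) (hL : LenStmt.{u}) (hE : EkStmt.{u}) :
    V1Stmt.{u} := by
  intro p _ W T' _ _ _ σ n h _ _ _ ϖ F j2 s H e
  have K := hE p W T' σ n h ϖ F j2 s H e
  have E := hV p W (Gv n h e) H.coh
  have E1 := hV p W (Option (Fin n)) H.coh
  have hXle : ∀ ν : Type, Ideal.span (Set.range (X : ν → MvPowerSeries ν W)) ≤ mv p W ν :=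
    fun _ => Ideal.span_mono (Set.subset_insert _ _)
  have : Nontrivial (GG p s F e) := Ideal.Quotient.nontrivial_iff.2 fun c =>
    (maximalIdeal.isMaximal _).ne_top (top_le_iff.1 (E.max ▸ c ▸ K.le.trans (hXle _)))
  have loc : IsLocalRing (GG p s F e) := .of_surjective' _ Ideal.Quotient.mk_surjective
  have hm : maximalIdeal (GG p s F e) = (mv p W _).map (Ideal.Quotient.mk (GI p s F e)) := by
    rw [← E.max, max_map _ Ideal.Quotient.mk_surjective]
  have cw : CW W (GG p s F e) := by
    refine ⟨inferInstance, ?_, fun b => ?_, fun a ha => ?_⟩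
    · rw [hm, ← Ideal.Quotient.algebraMap_eq, IsAdicComplete.map_algebraMap_iff]
      exact E.cpl _
    · obtain ⟨b, rfl⟩ := Ideal.Quotient.mk_surjective b
      obtain ⟨a, ha⟩ := E.cw.res b
      exact ⟨a, hm ▸ Ideal.mem_map_of_mem _ (E.max ▸ ha)⟩
    · exact hm ▸ Ideal.mem_map_of_mem _ (E.max ▸ E.cw.loc a ha)
  let f := (gm p s F e).comp (rename (Option.map Sum.inl : Option (Fin n) → Bv n h))
  let := f.toRingHom.toAlgebra
  have hX : ∀ l, algebraMap (MvPowerSeries (Option (Fin n)) W) (GG p s F e) (X l) =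
      gm p s F e (X (l.map Sum.inl)) := fun l => congrArg (gm p s F e) (rename_X _ l)
  have tw : IsScalarTower W (MvPowerSeries (Option (Fin n)) W) (GG p s F e) :=
    .of_algebraMap_eq fun c => (f.commutes c).symm
  have hJ : ∀ q, Ideal.span {(p : GG p s F e), gm p s F e (X none) ^ q} ⊔
      Ideal.span (Set.range fun i => gm p s F e (X (some (.inl i))) ^ q) =
      (Ideal.span (insert (p : MvPowerSeries (Option (Fin n)) W)
        (Set.range fun i => X i ^ q))).map (algebraMap _ (GG p s F e)) := fun q => by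
    rw [Ideal.map_span, Set.image_insert_eq, ← Set.range_comp, Option.range_eq, map_natCast,
      ← Ideal.span_union]
    simp only [Function.comp_def, map_pow, hX, Set.insert_union, Set.singleton_union]
    rfl
  have hJ1 := hJ 1
  simp only [pow_one] at hJ1
  set J := Ideal.span {(p : GG p s F e), gm p s F e (X none)} ⊔
    Ideal.span (Set.range fun i => gm p s F e (X (some (.inl i)))) with hJd
  have hp : (p : GG p s F e) ∈ J := Ideal.mem_sup_left (Ideal.subset_span (by simp))
  have := tloc H
  have hB : ∀ a ∈ mv p W (Bv n h), gm p s F e a ∈ J.radical := fun a ha => by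
    obtain ⟨m, hm⟩ := brad hV H (I := J.comap (gm p s F e)) (by simpa using hp)
      (Ideal.mem_sup_left (Ideal.subset_span (by simp)))
      (fun i => Ideal.mem_sup_left (gF H e i)) (trad hV H
        (Ideal.le_radical (by
          rw [← map_natCast ϖ]; exact Ideal.mem_map_of_mem _ (by simpa using hp)))
        fun i => Ideal.le_radical (Ideal.mem_map_of_mem _
          (Ideal.mem_sup_right (Ideal.subset_span (Set.mem_range_self i))))) ha
    exact ⟨m, by simpa using hm⟩
  obtain ⟨N, hN⟩ := pow_le (I := maximalIdeal (GG p s F e)) (J := J) (by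
    rw [hm]
    refine mv_le _ (Ideal.le_radical hp) ?_
    rintro (v | x)
    · rw [← gm_X]; exact hB _ (X_mem p v)
    · have h1 : Ideal.span {(p : MvPowerSeries (Gv n h e) W), X (.inl none)} ⊔ GI p s F e ≤
          J.comap (Ideal.Quotient.mk _) := by
        refine sup_le (Ideal.span_le.2 ?_) fun a ha => ?_
        · rintro _ (rfl | rfl)
          · simpa using hp
          · rw [SetLike.mem_coe, Ideal.mem_comap, ← gm_X]
            exact Ideal.mem_sup_left (Ideal.subset_span (by simp))
        · rw [Ideal.mem_comap, Ideal.Quotient.eq_zero_iff_mem.2 ha]; exact zero_mem _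
      rw [K.key] at h1
      have h2 := Ideal.mem_comap.1 (h1 (Ideal.mem_sup_right (Ideal.subset_span ⟨x, rfl⟩)))
      have h3 := add_mem (Ideal.le_radical h2) (hB _ (hXle _ (K.cf x.1 (x.2 + 1))))
      rw [map_sub, map_pow] at h3
      exact Ideal.mem_radical_of_pow_mem (m := p) (by simpa [gm] using h3))
  have hJm : J = (mv p W (Option (Fin n))).map (algebraMap _ (GG p s F e)) := hJ1
  obtain ⟨_, -⟩ := hM p W (GG p s F e) (Gv n h e) (Option (Fin n)) (Fin h × Fin (e + 1))
    (Ideal.Quotient.mkₐ W _) (fun x => (rho p s F e x.1).coeff x.2) H.coh (perf H.frb)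
    Ideal.Quotient.mk_surjective Ideal.mk_ker (card_G e (by simp))
    (fun j => by rw [hX, gm_X]; exact Ideal.mem_map_of_mem _ (X_mem p _))
    ⟨N, fun i => hJm ▸ hN (Ideal.pow_mem_pow (hm ▸ Ideal.mem_map_of_mem _ (X_mem p i)) _)⟩
  refine ⟨loc, cw, ?_, ?_, hm, ⟨N, hN⟩, fun q => ?_⟩
  · have hp0 : (p : MvPowerSeries (Option (Fin n)) W) ≠ 0 := fun c =>
      ((IsDiscreteValuationRing.irreducible_iff_uniformizer _).2 H.coh.max).ne_zero
        (by simpa using congrArg constantCoeff c)
    simpa using nzd_free (B := GG p s F e) fun b hb => (mul_eq_zero.1 hb).resolve_left hp0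
  · have := nzm_free (B := GG p s F e) (nzm_X (W := W) p (none : Option (Fin n)))
    rwa [Ideal.map_span, Set.image_singleton, map_natCast, hX] at this
  · have := cw.noeth
    rw [hJ, ln_map, ln_box hL H.coh E1 fun _ => q, E1.max, ← hJm]
    · simp [hJd]
    · rw [E1.max]
      exact mv_le _ (by simpa using cw.loc p (H.coh.max ▸ Ideal.mem_span_singleton_self _))
        fun l => by rw [hX, gm_X, hm]; exact Ideal.mem_map_of_mem _ (X_mem p _)

end Vale.Agent.P202.Mx
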