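import Vale.Agent.P202.M.Vc

/-! Module V2: the envelope modulo `(p, T)` is free over `B / (p, T, F)`. -/

open Finset Matrix MvPowerSeries Filter Topology IsLocalRing
open scoped Kronecker Nat

namespace Vale.Agent.P202.Mx

universe u

namespace V2

/-- killing the left variables -/
theorem comap_kill {W : Type u} [CommRing W] {α β : Type} [Fintype α] [Fintype β]
    (I : Ideal (MvPowerSeries β W)) :
    I.comap (killCompl (R := W) (Function.Embedding.inr : β ↪ α ⊕ β)) =
      I.map (rename (R := W) (Function.Embedding.inr : β ↪ α ⊕ β)) ⊔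
        Ideal.span (Set.range fun x => X (.inl x)) := by
  classical
  refine le_antisymm (fun a ha => ?_) (sup_le (Ideal.map_le_iff_le_comap.2 fun a ha => ?_)
    (Ideal.span_le.2 ?_))
  · rw [← add_sub_cancel (rename (Function.Embedding.inr : β ↪ α ⊕ β)
      (killCompl Function.Embedding.inr a)) a]
    refine Submodule.add_mem_sup (Ideal.mem_map_of_mem _ ha) (EvL.mem_span_mon _
      (univ.image fun x => Finsupp.single (.inl x) 1) (fun t ht => ?_) _ fun m hm => ?_)
    · obtain ⟨x, -, rfl⟩ := mem_image.1 ht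
      exact Ideal.subset_span ⟨x, rfl⟩
    · obtain ⟨m', rfl⟩ : m ∈ Set.range (Finsupp.embDomain (Function.Embedding.inr : β ↪ α ⊕ β)) := by
        rw [Finsupp.mem_range_embDomain_iff]
        rintro (x | y) hx
        · have := hm _ (mem_image_of_mem _ (mem_univ x))
          simp only [Finsupp.single_le_iff, not_le, Nat.lt_one_iff] at this
          simp [this] at hx
        · exact ⟨y, rfl⟩
      rw [map_sub, coeff_embDomain_rename, coeff_killCompl, sub_self]
  · rwa [Ideal.mem_comap, Ideal.mem_comap, killCompl_rename_app]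
  · rintro _ ⟨x, rfl⟩
    rw [SetLike.mem_coe, Ideal.mem_comap, killCompl_X_eq_zero (by simp)]
    exact zero_mem _

end V2

open Vc

theorem v2Stmt (hV : EvWStmt.{u}) (hM : MfStmt.{u}) (hL : LenStmt.{u}) (hE : EkStmt.{u}) :
    V2Stmt.{u} := by
  intro p _ W T' _ _ _ σ n h _ _ _ ϖ F j2 s H e
  have K := hE p W T' σ n h ϖ F j2 s H e
  have E := hV p W (Gv n h e) H.coh
  have E2 := hV p W ((Fin h × Fin e) ⊕ Bv n h) H.coh
  have hp0 : p ≠ 0 := (Fact.out : p.Prime).ne_zero
  have hcf : ∀ (J : Ideal (MvPowerSeries (Gv n h e) W)), (∀ v, X (.inl v) ∈ J) → ∀ i j,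
      rename Sum.inl ((s (F i)).coeff j) ∈ J := fun J hJ i j =>
    (Ideal.span_le (I := J.comap (rename (R := W) (Sum.inl : Bv n h → Gv n h e)))).2
      (by rintro _ ⟨v, rfl⟩; simpa using hJ v) (K.cf i j)
  obtain ⟨f, hf⟩ := E2.ev _ (mv p W (Gv n h e)) (E.cpl _) (Sum.elim (fun x => X (.inr x) ^ p -
    rename Sum.inl ((s (F x.1)).coeff (x.2 + 1))) fun v => X (.inl v)) (by
      rintro (x | v)
      · exact Ideal.le_radical (sub_mem (Ideal.pow_mem_of_mem _ (X_mem p _) _ (Nat.pos_of_ne_zero hp0))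
          (hcf _ (fun v => X_mem p _) _ _))
      · exact Ideal.le_radical (X_mem p _))
  let := f.toRingHom.toAlgebra
  have hX : ∀ i, algebraMap _ (MvPowerSeries (Gv n h e) W)
    (X i : MvPowerSeries ((Fin h × Fin e) ⊕ Bv n h) W) = _ := hf
  have tw : IsScalarTower W (MvPowerSeries ((Fin h × Fin e) ⊕ Bv n h) W)
    (MvPowerSeries (Gv n h e) W) := .of_algebraMap_eq fun c => (f.commutes c).symm
  have hJ : (mv p W ((Fin h × Fin e) ⊕ Bv n h)).map (algebraMap _ (MvPowerSeries (Gv n h e) W)) =
      Ideal.span (insert (p : MvPowerSeries (Gv n h e) W)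
        (Set.range fun i => X i ^ Sum.elim (fun _ => 1) (fun _ => p) i)) := by
    have a1 : ∀ v, X (.inl v) ∈ (mv p W ((Fin h × Fin e) ⊕ Bv n h)).map
        (algebraMap _ (MvPowerSeries (Gv n h e) W)) := fun v => by
      simpa [hX] using Ideal.mem_map_of_mem (algebraMap _ (MvPowerSeries (Gv n h e) W))
        (X_mem (W := W) p (Sum.inr v : (Fin h × Fin e) ⊕ Bv n h))
    refine le_antisymm (mv_le _ (Ideal.subset_span (Set.mem_insert _ _)) ?_) (Ideal.span_le.2 ?_)
    · have a2 : ∀ v, X (.inl v) ∈ Ideal.span (insert (p : MvPowerSeries (Gv n h e) W)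
          (Set.range fun i => X i ^ Sum.elim (fun _ => 1) (fun _ => p) i)) := fun v =>
        Ideal.subset_span (Set.mem_insert_of_mem _ ⟨.inl v, by simp⟩)
      rintro (x | v)
      · rw [hX]
        exact sub_mem (Ideal.subset_span (Set.mem_insert_of_mem _ ⟨.inr x, rfl⟩)) (hcf _ a2 _ _)
      · rw [hX]; exact a2 v
    · rintro _ (rfl | ⟨v | x, rfl⟩)
      · simpa using Ideal.mem_map_of_mem (algebraMap _ (MvPowerSeries (Gv n h e) W))
          (p_mem (W := W) (σ := (Fin h × Fin e) ⊕ Bv n h) p)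
      · simpa using a1 v
      · simpa [hX] using add_mem (Ideal.mem_map_of_mem (algebraMap _ (MvPowerSeries (Gv n h e) W))
          (X_mem (W := W) p (Sum.inl x : (Fin h × Fin e) ⊕ Bv n h))) (hcf _ a1 x.1 (x.2 + 1))
  have hle : (mv p W ((Fin h × Fin e) ⊕ Bv n h)).map (algebraMap _ (MvPowerSeries (Gv n h e) W)) ≤
      mv p W _ := by
    rw [hJ, Ideal.span_le]
    rintro _ (rfl | ⟨v | x, rfl⟩)
    · exact p_mem p
    · simpa using X_mem p _
    · exact Ideal.pow_mem_of_mem _ (X_mem p _) _ (Nat.pos_of_ne_zero hp0)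
  obtain ⟨_, -⟩ := hM p W (MvPowerSeries (Gv n h e) W) (Gv n h e) ((Fin h × Fin e) ⊕ Bv n h) Empty
    (AlgHom.id W _) Empty.elim H.coh (perf H.frb) Function.surjective_id
    (by rw [Set.range_eq_empty, Ideal.span_empty]; exact eq_bot_iff.2 fun _ h => h)
    (by simp [add_comm]) (fun j => Ideal.mem_map_of_mem _ (hle (Ideal.mem_map_of_mem _ (X_mem p j))))
    ⟨p, by
      rw [hJ]
      rintro (v | x)
      · refine Ideal.pow_mem_of_mem _ (Ideal.subset_span (Set.mem_insert_of_mem _ ?_)) _
          (Nat.pos_of_ne_zero hp0)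
        exact ⟨.inl v, by simp⟩
      · exact Ideal.subset_span (Set.mem_insert_of_mem _ ⟨.inr x, rfl⟩)⟩
  have hr : (algebraMap _ (MvPowerSeries (Gv n h e) W)).comp (rename (R := W)
      (Function.Embedding.inr : Bv n h ↪ (Fin h × Fin e) ⊕ Bv n h)).toRingHom =
      (rename (R := W) (Sum.inl : Bv n h → Gv n h e)).toRingHom :=
    (hV p W (Bv n h) H.coh).ext _ (mv p W _) (E.cpl _).toIsHausdorff _ _
      (fun c => by
        simp only [RingHom.comp_apply, AlgHom.toRingHom_eq_coe, RingHom.coe_coe, rename_C]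
        exact f.commutes c) (fun i => by simp [hX])
      fun i => Ideal.le_radical (by simpa [hX] using X_mem p _)
  have key : ∀ I : Ideal (BB W n h), (p : BB W n h) ∈ I → X none ∈ I → (∀ i, F i ∈ I) →
      (I.comap (killCompl (R := W) (Function.Embedding.inr : Bv n h ↪ (Fin h × Fin e) ⊕ Bv n h))).map
        (algebraMap _ (MvPowerSeries (Gv n h e) W)) =
      (I.map (gm p s F e)).comap (Ideal.Quotient.mk (GI p s F e)) := fun I h1 h2 h3 => by
    have a1 : Ideal.span {(p : MvPowerSeries (Gv n h e) W), X (.inl none)} ≤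
        I.map (rename (R := W) (Sum.inl : Bv n h → Gv n h e)) := by
      rw [Ideal.span_le]
      rintro _ (rfl | rfl)
      · simpa using Ideal.mem_map_of_mem (rename (R := W) (Sum.inl : Bv n h → Gv n h e)) h1
      · simpa using Ideal.mem_map_of_mem (rename (R := W) (Sum.inl : Bv n h → Gv n h e)) h2
    have a2 : Ideal.span (Set.range fun i => rename Sum.inl (F i)) ≤
        I.map (rename (R := W) (Sum.inl : Bv n h → Gv n h e)) :=
      Ideal.span_le.2 (by rintro _ ⟨i, rfl⟩; exact Ideal.mem_map_of_mem _ (h3 i))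
    have a3 : I.map (gm p s F e) = (I.map (rename (R := W) (Sum.inl : Bv n h → Gv n h e))).map
        (Ideal.Quotient.mk (GI p s F e)) :=
      (Ideal.map_map (rename (R := W) (Sum.inl : Bv n h → Gv n h e)).toRingHom _).symm
    rw [V2.comap_kill, Ideal.map_sup, a3, Ideal.comap_map_of_surjective _
      Ideal.Quotient.mk_surjective, ← RingHom.ker_eq_comap_bot, Ideal.mk_ker,
      ← sup_eq_left.2 a1, sup_assoc, K.key, ← sup_assoc, ← sup_assoc, sup_eq_left.2 a1,
      sup_eq_left.2 a2, Ideal.map_span, ← Set.range_comp]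
    congr 1
    · exact (Ideal.map_map (rename (R := W) (Function.Embedding.inr : Bv n h ↪
        (Fin h × Fin e) ⊕ Bv n h)).toRingHom _).trans (by rw [hr]; rfl)
    · exact congrArg (fun x => Ideal.span (Set.range x)) (funext fun x => hX (.inl x))
  have hs : Function.Surjective (killCompl (R := W)
      (Function.Embedding.inr : Bv n h ↪ (Fin h × Fin e) ⊕ Bv n h)) :=
    fun a => ⟨_, killCompl_rename_app a⟩
  refine ⟨?_, fun I h1 h2 h3 => ?_⟩
  · have hF : ∀ i, ϖ (F i) = 0 := fun i =>
      RingHom.mem_ker.1 (H.pr.ker ▸ Ideal.subset_span (Set.mem_insert_of_mem _ ⟨i, rfl⟩))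
    have a1 := nzm_free (B := MvPowerSeries (Gv n h e) W) (nzm_comap (killCompl (R := W)
      (Function.Embedding.inr : Bv n h ↪ (Fin h × Fin e) ⊕ Bv n h)).toRingHom
      (I := (Ideal.span {(p : T')}).comap ϖ) (a := X (.inr (some (.inr j2))))
      (by
        rw [show (killCompl (R := W) (Function.Embedding.inr : Bv n h ↪ (Fin h × Fin e) ⊕
          Bv n h)).toRingHom (X (.inr (some (.inr j2)))) = _ from killCompl_X (some (Sum.inr j2))]
        exact nzm_comap ϖ.toRingHom H.pr.dl))
    rw [hX] at a1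
    have a2 : ((Ideal.span {(p : T')}).comap ϖ).map (gm p s F e) =
        Ideal.span {(p : GG p s F e), gm p s F e (X none)} := by
      refine le_antisymm (Ideal.map_le_iff_le_comap.2 ?_) (Ideal.span_le.2 ?_)
      · rw [← map_natCast ϖ, ← Set.image_singleton, ← Ideal.map_span,
          Ideal.comap_map_of_surjective _ H.pr.sur, ← RingHom.ker_eq_comap_bot, H.pr.ker]
        refine sup_le (Ideal.span_le.2 ?_) (Ideal.span_le.2 ?_)
        · rintro _ rfl
          exact Ideal.subset_span (by simp)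
        · rintro _ (rfl | ⟨i, rfl⟩)
          · exact sub_mem (Ideal.subset_span (by simp)) (Ideal.subset_span (by simp))
          · exact gF H e i
      · rintro _ (rfl | rfl)
        · rw [← map_natCast (gm p s F e)]
          exact Ideal.mem_map_of_mem _ (by simp)
        · exact Ideal.mem_map_of_mem _ (by simp [tT H])
    rw [← a2, gm_X]
    refine nzm_of_comap _ Ideal.Quotient.mk_surjective ?_
    rw [← key _ (by simp) (by simp [tT H]) fun i => by simp [hF]]
    exact a1
  · rw [← ln_comap _ Ideal.Quotient.mk_surjective, ← key I h1 h2 h3, ln_map (by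
      rwa [E.max, E2.max]), E2.max, hJ, ln_box hL H.coh E, mul_comm]
    congr 1
    · simp [mul_comm]
    · exact ln_comap _ hs I

end Vale.Agent.P202.Mx
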