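import Vale.Agent.P202.M.V3a

/-! Module V3 of part T: the Frobenius twisted quotient of the envelope. -/

open Finset MvPowerSeries IsLocalRing

namespace Vale.Agent.P202.Mx

universe u

namespace V3

open Mf

variable {p : ℕ} [Fact p.Prime] {W T' : Type u} [CommRing W] [IsDomain W]
  [IsDiscreteValuationRing W] {σ : W ≃+* W} {n h : ℕ} [CommRing T'] [Algebra W T']
  [Algebra (PS W n) T'] {ϖ : BB W n h →ₐ[W] T'} {F : Fin h → BB W n h} {j2 : Fin h}
  {s : BB W n h →+* WittVector p (BB W n h)}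

theorem quo {G : Type u} [CommRing G] (I : Ideal G) : ∃ (M : Type u) (_ : CommRing M)
    (ϱ : G →+* M), Function.Surjective ϱ ∧ RingHom.ker ϱ = I :=
  ⟨_, _, Ideal.Quotient.mk I, Ideal.Quotient.mk_surjective, Ideal.mk_ker⟩

theorem perf (hy : Hy p σ ϖ F j2 s) (a : W) : ∃ b, (p : W) ∣ a - b ^ p :=
  ⟨σ.symm a, by simpa using hy.frb.frob (σ.symm a)⟩

/-- the ideal `(p, T, F, X)` -/
noncomputable def II (p : ℕ) (ϖ : BB W n h →ₐ[W] T') : Ideal (BB W n h) :=
  RingHom.ker ϖ.toRingHom ⊔ Ideal.span (insert (p : BB W n h)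
    (Set.range fun i => X (some (.inl i))))

theorem tfree (hV : EvWStmt.{u}) (hM : MfStmt.{u}) (hL : LenStmt.{u}) (hy : Hy p σ ϖ F j2 s) :
    Module.Free (PS W n) T' ∧ ln (II p ϖ) = Module.finrank (PS W n) T' := by
  have hA := hV p W (Fin n) hy.coh
  have hB := hV p W (Bv n h) hy.coh
  have := hy.pr.nt
  have := hy.pr.fin
  have : IsLocalRing T' := IsLocalRing.of_surjective' ϖ.toRingHom hy.pr.sur
  have hmT := map_maximalIdeal_of_surjective ϖ.toRingHom hy.pr.sur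
  have : IsScalarTower W (PS W n) T' := IsScalarTower.of_algebraMap_eq fun c =>
    (ϖ.commutes c).symm.trans (algC hy c).symm
  have hϖX : ∀ v, ϖ (X v) ∈ maximalIdeal T' := fun v =>
    hmT ▸ Ideal.mem_map_of_mem ϖ.toRingHom (hB.max ▸ X_mem p W v)
  obtain ⟨hfr, -⟩ := hM p W T' (Bv n h) (Fin n) (Option (Fin h)) ϖ
    (fun o => o.elim ((p : BB W n h) - X none) F) hy.coh (perf hy) hy.pr.sur
    (by rw [hy.pr.ker, Option.range_eq]; rfl) (by simp; ring)
    (fun j => algX hy j ▸ Ideal.mem_map_of_mem _ (X_mem p W _))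
    (unif _ _ fun v => hA.max ▸ rad_fin (hϖX v))
  refine ⟨hfr, ?_⟩
  rw [← len_free, hL _ T' _ (fun a ha => ?_) fun b => ?_, II, ← ln_map ϖ.toRingHom hy.pr.sur
    le_sup_left, hA.max, mv_map]
  · rw [Ideal.map_sup, (Ideal.map_eq_bot_iff_le_ker _).2 le_rfl, bot_sup_eq, Ideal.map_span,
      Set.image_insert_eq, map_natCast, ← Set.range_comp, funext (algX hy)]
    rfl
  · refine mv_le (algebraMap (PS W n) T') ?_ (fun i => algX hy i ▸ hϖX _)
      (Ideal.mem_map_of_mem _ (hA.max ▸ ha))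
    exact hmT ▸ map_natCast ϖ.toRingHom p ▸ Ideal.mem_map_of_mem _ (hB.max ▸ p_mem p W _)
  · obtain ⟨b, rfl⟩ := hy.pr.sur b
    obtain ⟨c, hc⟩ := hB.cw.res b
    refine ⟨C c, ?_⟩
    rw [algC hy, ← map_sub, ← hmT]
    exact Ideal.mem_map_of_mem ϖ.toRingHom hc

theorem lnG (hy : Hy p σ ϖ F j2 s) {e : ℕ} (hK : EnvK p σ s F e) (h2 : Env2 p F j2 s e) :
    ln (Ideal.span {(p : GG p s F e), gm p s F e (X none)} ⊔
      Ideal.span (Set.range fun i => gm p s F e (X (some (.inl i))))) =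
    (p ^ (e * h) : ℕ) * ln (II p ϖ) := by
  have hpI : (p : BB W n h) ∈ II p ϖ := Ideal.mem_sup_right (Ideal.subset_span (Set.mem_insert _ _))
  have hkm : ∀ a ∈ insert ((p : BB W n h) - X none) (Set.range F), a ∈ II p ϖ := fun a ha =>
    Ideal.mem_sup_left (hy.pr.ker.ge (Ideal.subset_span ha))
  have hTI : X none ∈ II p ϖ := by simpa using sub_mem hpI (hkm _ (Set.mem_insert _ _))
  rw [← h2.2 _ hpI hTI fun i => hkm _ (Set.mem_insert_of_mem _ ⟨i, rfl⟩)]
  congr 1
  have hp1 : (p : GG p s F e) ∈ Ideal.span {(p : GG p s F e), gm p s F e (X none)} :=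
    Ideal.subset_span (Set.mem_insert _ _)
  have hp2 := sub_mem hp1 (Ideal.subset_span (Set.mem_insert_of_mem _ rfl))
  refine le_antisymm (sup_le ?_ ?_)
    (Ideal.map_le_iff_le_comap.2 (sup_le (hy.pr.ker.le.trans ?_) ?_)) <;> rw [Ideal.span_le]
  · rintro _ (rfl | rfl)
    · exact map_natCast (gm p s F e) p ▸ Ideal.mem_map_of_mem _ hpI
    · exact Ideal.mem_map_of_mem _ hTI
  · rintro _ ⟨i, rfl⟩
    exact Ideal.mem_map_of_mem _
      (Ideal.mem_sup_right (Ideal.subset_span (Set.mem_insert_of_mem _ ⟨i, rfl⟩)))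
  · rintro _ (rfl | ⟨i, rfl⟩)
    · exact Ideal.mem_sup_left (by simpa using hp2)
    · have := hK.gh i 0 (Nat.zero_le _)
      rw [Function.iterate_zero_apply, pow_zero, pow_one] at this
      exact Ideal.mem_sup_left (this ▸ Ideal.mul_mem_right _ _ hp2)
  · rintro _ (rfl | ⟨i, rfl⟩)
    · exact Ideal.mem_sup_left (by simpa using hp1)
    · exact Ideal.mem_sup_right (Ideal.subset_span ⟨i, rfl⟩)

theorem gmX (e : ℕ) (v : Bv n h) :
    gm p s F e (X v) = Ideal.Quotient.mk (GI p s F e) (X (.inl v)) :=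
  congrArg (Ideal.Quotient.mk (GI p s F e)) (rename_X _ v)

theorem htau {e : ℕ} {M : Type u} [CommRing M] {ϱ : GG p s F e →+* M}
    (hker : RingHom.ker ϱ = Ideal.span {(p : GG p s F e) - gm p s F e (X none) ^ p ^ e}) :
    ϱ (gm p s F e (X none)) ^ p ^ e = p := by
  have : (p : GG p s F e) - gm p s F e (X none) ^ p ^ e ∈ RingHom.ker ϱ :=
    hker ▸ Ideal.mem_span_singleton_self _
  rw [RingHom.mem_ker, map_sub, map_natCast, map_pow, sub_eq_zero] at this
  exact this.symm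

theorem psi (hF : PhlStmt.{u}) (hy : Hy p σ ϖ F j2 s) {e : ℕ} (hK : EnvK p σ s F e) {M : Type u}
    [CommRing M] {ϱ : GG p s F e →+* M} (hτ : ϱ (gm p s F e (X none)) ^ p ^ e = p) :
    ∃ ψ : T' →+* M, ∀ b, ψ (ϖ b) = ϱ (gm p s F e ((phi p σ (Bv n h))^[e] b)) := by
  let ψ0 : BB W n h →+* M := ϱ.comp ((gm p s F e).toRingHom.comp (phi p σ (Bv n h) ^ e))
  have hψ0 : ∀ b, ψ0 b = ϱ (gm p s F e ((phi p σ (Bv n h))^[e] b)) := fun b => by
    rw [← RingHom.coe_pow]; rfl
  have hk : RingHom.ker ϖ.toRingHom ≤ RingHom.ker ψ0 := by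
    refine hy.pr.ker.le.trans (Ideal.span_le.2 ?_)
    rintro _ (rfl | ⟨i, rfl⟩)
    · rw [SetLike.mem_coe, RingHom.mem_ker, map_sub, map_natCast, hψ0, phX hF hy, map_pow, map_pow,
        hτ, sub_self]
    · rw [SetLike.mem_coe, RingHom.mem_ker, hψ0, hK.gh i e le_rfl, map_mul, map_sub, map_natCast,
        map_pow, hτ, sub_self, zero_mul]
  exact ⟨ϖ.toRingHom.liftOfSurjective hy.pr.sur ⟨ψ0, hk⟩, fun b =>
    (ϖ.toRingHom.liftOfSurjective_comp_apply hy.pr.sur _ b).trans (hψ0 b)⟩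

theorem mfree (hM : MfStmt.{u}) (hy : Hy p σ ϖ F j2 s) {e : ℕ} {M : Type u} [CommRing M]
    [Nontrivial M] [Algebra (PS W n) M] {ϱ : GG p s F e →+* M} (hsur : Function.Surjective ϱ)
    (hker : RingHom.ker ϱ = Ideal.span {(p : GG p s F e) - gm p s F e (X none) ^ p ^ e})
    (haX : ∀ i, algebraMap (PS W n) M (X i) = ϱ (gm p s F e (X (some (.inl i)))) ^ p ^ e)
    (haC : ∀ c, algebraMap (PS W n) M (C c) = ϱ (algebraMap W _ (sig σ e c)))
    (hrad : ∀ v, ϱ (Ideal.Quotient.mk (GI p s F e) (X v)) ∈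
      ((mv p W (Fin n)).map (algebraMap (PS W n) M)).radical) :
    Module.Free (PS W n) M ∧ Module.Finite (PS W n) M := by
  let : Algebra W M := ((algebraMap (PS W n) M).comp (algebraMap W (PS W n))).toAlgebra
  have : IsScalarTower W (PS W n) M := IsScalarTower.of_algebraMap_eq fun _ => rfl
  let π' : MvPowerSeries (Gv n h e) W →ₐ[W] M :=
    { (ϱ.comp (Ideal.Quotient.mk (GI p s F e))).comp (mapE (sig σ e) (Gv n h e)).toRingHom with
      commutes' := fun c => (congrArg (fun z => ϱ (Ideal.Quotient.mk (GI p s F e) z))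
        (map_C (sig σ e).toRingHom c)).trans (haC c).symm }
  have hπX : ∀ v, π' (X v) = ϱ (Ideal.Quotient.mk (GI p s F e) (X v)) := fun v =>
    congrArg (fun z => ϱ (Ideal.Quotient.mk (GI p s F e) z)) (map_X (sig σ e).toRingHom v)
  have hk : RingHom.ker ϱ = Ideal.span {Ideal.Quotient.mk (GI p s F e)
      ((p : MvPowerSeries (Gv n h e) W) - X (Sum.inl none) ^ p ^ e)} := by
    rw [hker, map_sub, map_natCast, map_pow, gmX]
  exact hM p W M (Gv n h e) (Fin n) (Option (Fin h × Fin (e + 1))) π' _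
    hy.coh (perf hy) ((hsur.comp Ideal.Quotient.mk_surjective).comp (mapE _ _).surjective)
    (twist (mapE (sig σ e) (Gv n h e)) _ _ (ker_opt _
      ((p : MvPowerSeries (Gv n h e) W) - X (Sum.inl none) ^ p ^ e) ϱ hk)) (by simp; ring)
    (fun j => by
      rw [haX, gmX, ← hπX]
      exact Ideal.pow_mem_of_mem _ (Ideal.mem_map_of_mem _ (X_mem p W _)) _
        (Nat.pos_of_ne_zero (pow_ne p e)))
    (unif _ _ fun v => hπX v ▸ hrad v)

end V3

open V3 Mf in
theorem v3Stmt (hV : EvWStmt.{u}) (hM : MfStmt.{u}) (hL : LenStmt.{u}) (hF : PhlStmt.{u})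
    (hE : EkStmt.{u}) (h1 : V1Stmt.{u}) (h2 : V2Stmt.{u}) : V3Stmt.{u} := by
  intro p _ W T' _ _ _ σ n h _ _ _ ϖ F j2 s hy e
  obtain ⟨M, _, ϱ, hsur, hker⟩ :=
    quo (Ideal.span {(p : GG p s F e) - gm p s F e (X none) ^ p ^ e})
  have hK := hE p W T' σ n h ϖ F j2 s hy e
  obtain ⟨_, hcw, -, -, hmax, ⟨N, hN⟩, hlen⟩ := h1 p W T' σ n h ϖ F j2 s hy e
  have hl2 := lnG hy hK (h2 p W T' σ n h ϖ F j2 s hy e)
  obtain ⟨hfr, e1⟩ := tfree hV hM hL hy
  have hA := hV p W (Fin n) hy.coh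
  have hB := hV p W (Bv n h) hy.coh
  have hq := Nat.pos_of_ne_zero (pow_ne p e)
  have hmX : ∀ v, Ideal.Quotient.mk (GI p s F e) (X v) ∈ maximalIdeal (GG p s F e) := fun v =>
    hmax.ge (Ideal.mem_map_of_mem _ (X_mem p W v))
  have hmp : (p : GG p s F e) ∈ maximalIdeal (GG p s F e) := by
    rw [← map_natCast (Ideal.Quotient.mk (GI p s F e)) p]
    exact hmax.ge (Ideal.mem_map_of_mem _ (p_mem p W _))
  have hτ := htau hker
  have : Nontrivial M := by
    by_contra hc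
    rw [not_nontrivial_iff_subsingleton] at hc
    have h3 : RingHom.ker ϱ ≤ maximalIdeal _ := by
      rw [hker, Ideal.span_singleton_le_iff_mem, gmX]
      exact sub_mem hmp (Ideal.pow_mem_of_mem _ (hmX _) _ hq)
    exact (maximalIdeal.isMaximal (GG p s F e)).ne_top
      ((Ideal.eq_top_iff_one _).2 (h3 (Subsingleton.elim _ _)))
  have : IsLocalRing M := IsLocalRing.of_surjective' ϱ hsur
  have := hy.pr.nt
  have : IsLocalRing T' := IsLocalRing.of_surjective' ϖ.toRingHom hy.pr.sur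
  have hmM := map_maximalIdeal_of_surjective ϱ hsur
  have hmT := map_maximalIdeal_of_surjective ϖ.toRingHom hy.pr.sur
  obtain ⟨ψ, hψ⟩ := psi hF hy hK hτ
  have hψX : ∀ v, ψ (ϖ (X v)) = ϱ (gm p s F e (X v)) ^ p ^ e := fun v => by
    rw [hψ, phX hF hy, map_pow, map_pow]
  let : Algebra T' M := ψ.toAlgebra
  let : Algebra (PS W n) M := (ψ.comp (algebraMap (PS W n) T')).toAlgebra
  have : IsScalarTower (PS W n) T' M := IsScalarTower.of_algebraMap_eq fun _ => rfl
  have haX : ∀ i, algebraMap (PS W n) M (X i) = ϱ (gm p s F e (X (some (.inl i)))) ^ p ^ e :=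
    fun i => (congrArg ψ (algX hy i)).trans (hψX _)
  have haC : ∀ c, algebraMap (PS W n) M (C c) = ϱ (algebraMap W _ (sig σ e c)) := fun c => by
    refine (congrArg ψ (algC hy c)).trans ?_
    rw [hψ, phC hF hy]
    exact congrArg ϱ ((gm p s F e).commutes _)
  have hϱm : ∀ v, ϱ (gm p s F e (X v)) ^ p ^ e ∈ maximalIdeal M := fun v =>
    Ideal.pow_mem_of_mem _ (hmM.le (Ideal.mem_map_of_mem _ (by rw [gmX]; exact hmX _))) _ hq
  have hpM : (p : M) ∈ maximalIdeal M := hτ ▸ hϱm none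
  have hres : ∀ b : M, ∃ a : PS W n, b - algebraMap _ M a ∈ maximalIdeal M := fun b => by
    obtain ⟨b, rfl⟩ := hsur b
    obtain ⟨c, hc⟩ := hcw.res b
    refine ⟨C ((sig σ e).symm c), ?_⟩
    rw [haC, RingEquiv.apply_symm_apply, ← map_sub, ← hmM]
    exact Ideal.mem_map_of_mem _ hc
  have hlocA : (maximalIdeal (PS W n)).map (algebraMap _ M) ≤ maximalIdeal M := by
    rw [hA.max]
    exact mv_le _ hpM fun i => by rw [haX]; exact hϱm _
  have hlocT : (maximalIdeal T').map (algebraMap _ M) ≤ maximalIdeal M := by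
    rw [← hmT, hB.max, Ideal.map_map]
    exact mv_le _ hpM fun v => (congrArg (· ∈ maximalIdeal M) (hψX v)).mpr (hϱm v)
  have hlenM : ∀ I : Ideal M, Module.length (PS W n) (M ⧸ I) = ln (I.comap ϱ) ∧
      Module.length T' (M ⧸ I) = ln (I.comap ϱ) := fun I => by
    rw [ln_comap ϱ hsur]
    exact ⟨hL _ M _ (fun a ha => hlocA (Ideal.mem_map_of_mem _ ha)) hres,
      hL _ M _ (fun a ha => hlocT (Ideal.mem_map_of_mem _ ha)) fun b =>
        (hres b).imp' (algebraMap (PS W n) T') fun a ha => ha⟩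
  have hJp : (p : M) ∈ (mv p W (Fin n)).map (algebraMap (PS W n) M) :=
    map_natCast (algebraMap (PS W n) M) p ▸ Ideal.mem_map_of_mem _ (p_mem p W _)
  have hrad := rad ϱ _ hτ _ hJp (fun i => by
    rw [← haX]; exact Ideal.mem_map_of_mem _ (X_mem p W i)) hN
  obtain ⟨hfree, hfin⟩ := mfree hM hy hsur hker haX haC fun v =>
    hrad (Ideal.mem_map_of_mem _ (hmX v))
  refine ⟨M, inferInstance, inferInstance, inferInstance, inferInstance, ϱ, hsur, hker,
    hψ, hfr, hfree, hfin, ?_, hlenM⟩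
  have e3 : (maximalIdeal (PS W n)).map (algebraMap _ M) =
      (Ideal.span {(p : GG p s F e), gm p s F e (X none) ^ p ^ e} ⊔
        Ideal.span (Set.range fun i => gm p s F e (X (some (.inl i))) ^ p ^ e)).map ϱ := by
    rw [hA.max, mv_map, Ideal.map_sup, Ideal.map_span, Ideal.map_span, Set.image_pair,
      map_natCast, map_pow, hτ, Set.pair_eq_singleton, ← Set.range_comp, Ideal.span_insert]
    simp only [haX, ← map_pow]
    rfl
  have e4 := (hlenM ((maximalIdeal (PS W n)).map (algebraMap _ M))).1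
  rw [len_free, ln_comap ϱ hsur, e3, ln_map ϱ hsur (by
    rw [hker, Ideal.span_singleton_le_iff_mem]
    exact Ideal.mem_sup_left (sub_mem (Ideal.subset_span (Set.mem_insert _ _))
      (Ideal.subset_span (Set.mem_insert_of_mem _ rfl)))), hlen, hl2, e1] at e4
  have e5 : Module.finrank (PS W n) M =
    (p ^ e) ^ (n + 1) * (p ^ (e * h) * Module.finrank (PS W n) T') := by exact_mod_cast e4
  rw [e5, pow_mul]
  ring

end Vale.Agent.P202.Mx
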