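import Vale.Agent.P202.M.V3

/-! Module V4 of part T: the twisted quotient looks like a power of `T'` after inverting `p`. -/

open Finset MvPowerSeries IsLocalRing

namespace Vale.Agent.P202.Mx

universe u

namespace V4

theorem approx {M : Type*} [CommRing M] (S : Subring M) (t : Set M) (ht : t ⊆ S)
    (h0 : ∀ w, ∃ s ∈ S, w - s ∈ Ideal.span t) (k : ℕ) (w : M) :
    ∃ s ∈ S, w - s ∈ Ideal.span t ^ k := by
  have h1 : ∀ k, ∀ w ∈ Ideal.span t ^ k, ∃ s ∈ S, w - s ∈ Ideal.span t ^ (k + 1) := by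
    intro k
    induction k with
    | zero => intro w _; simpa using h0 w
    | succ k ih =>
      intro w hw
      rw [pow_succ] at hw
      refine Submodule.mul_induction_on hw (fun a ha y hy => ?_) ?_
      · induction hy using Submodule.span_induction generalizing a with
        | mem y hy =>
          obtain ⟨s, hs, h2⟩ := ih a ha
          refine ⟨s * y, mul_mem hs (ht hy), ?_⟩
          rw [← sub_mul, pow_succ]
          exact Ideal.mul_mem_mul h2 (Ideal.subset_span hy)
        | zero => exact ⟨0, zero_mem _, by simp⟩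
        | add y z _ _ h2 h3 =>
          obtain ⟨s, hs, h2⟩ := h2 a ha
          obtain ⟨s', hs', h3⟩ := h3 a ha
          exact ⟨s + s', add_mem hs hs', by convert add_mem h2 h3 using 1; ring⟩
        | smul c y _ h2 =>
          obtain ⟨s, hs, h2⟩ := h2 (a * c) (Ideal.mul_mem_right _ _ ha)
          exact ⟨s, hs, by rwa [smul_eq_mul, ← mul_assoc]⟩
      · rintro y z ⟨s, hs, h2⟩ ⟨s', hs', h3⟩
        exact ⟨s + s', add_mem hs hs', by convert add_mem h2 h3 using 1; ring⟩
  induction k with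
  | zero => exact ⟨0, zero_mem _, by simp⟩
  | succ k ih =>
    obtain ⟨s, hs, h2⟩ := ih
    obtain ⟨s', hs', h3⟩ := h1 k _ h2
    exact ⟨s + s', add_mem hs hs', by convert h3 using 1; ring⟩

theorem last {A T' M : Type u} [CommRing A] [IsDomain A] [CommRing T'] [Algebra A T']
    [AddCommGroup M] [Module T' M] [Module A M] [IsScalarTower A T' M] [Module.Free A T']
    [Module.Finite A T'] [Module.Free A M] [Module.Finite A M] (x : A) (hx : x ≠ 0) (μ : ℕ)
    (f : (Fin μ → T') →ₗ[T'] M) (hrk : Module.finrank A T' * μ ≤ Module.finrank A M)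
    (hS : ∀ w, ∃ a : ℕ, x ^ a • w ∈ LinearMap.range f) :
    ∃ (g : M →ₗ[T'] (Fin μ → T')) (a : ℕ), ∀ z, ∃ w, g w = algebraMap A T' x ^ a • z := by
  obtain ⟨t, ht⟩ := Module.Finite.fg_top (R := A) (M := M)
  choose a ha using hS
  have h1 : ∀ w, algebraMap A T' x ^ t.sup a • w ∈ LinearMap.range f := fun w => by
    have hw : w ∈ Submodule.span A (t : Set M) := ht ▸ trivial
    induction hw using Submodule.span_induction with
    | mem y hy =>
      obtain ⟨c, hc⟩ := Nat.exists_eq_add_of_le' (le_sup (f := a) hy)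
      rw [hc, pow_add, mul_smul, ← map_pow _ x (a y), algebraMap_smul]
      exact Submodule.smul_mem _ _ (ha y)
    | zero => simp
    | add y z _ _ h2 h3 => rw [smul_add]; exact add_mem h2 h3
    | smul c y _ h2 =>
      rw [← algebraMap_smul T' c y, smul_comm]
      exact Submodule.smul_mem _ _ h2
  let j : M →ₗ[T'] LinearMap.range f :=
    (algebraMap A T' x ^ t.sup a • LinearMap.id).codRestrict _ h1
  have hinj : Function.Injective f := by
    have h2 := Submodule.disjoint_ker_of_finrank_le (L := ⊤) (f.restrictScalars A) (by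
      rw [finrank_top, Module.finrank_pi_fintype, sum_const, card_univ, Fintype.card_fin,
        smul_eq_mul, mul_comm]
      refine hrk.trans (LinearMap.finrank_le_finrank_of_injective
        (f := (x ^ t.sup a • LinearMap.id).codRestrict _ fun w => ?_) fun w w' h => ?_)
      · obtain ⟨z, hz⟩ := h1 w
        rw [← map_pow, algebraMap_smul] at hz
        exact ⟨z, trivial, hz⟩
      · exact smul_right_injective M (pow_ne_zero _ hx) (congrArg Subtype.val h))
    rw [top_disjoint, LinearMap.ker_eq_bot] at h2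
    exact h2
  refine ⟨(LinearEquiv.ofInjective f hinj).symm.toLinearMap.comp j, t.sup a, fun z => ⟨f z, ?_⟩⟩
  refine (LinearEquiv.symm_apply_eq _).2 (Subtype.ext ?_)
  exact (f.map_smul _ z).symm

/-- elements with a `p`-power multiple in the image -/
def SS (p : ℕ) {B M : Type*} [CommRing B] [CommRing M] (f : B →+* M) : Subring M where
  carrier := {w | ∃ (a : ℕ) (b : B), (p : M) ^ a * w = f b}
  mul_mem' := by
    rintro w w' ⟨a, b, h⟩ ⟨a', b', h'⟩
    exact ⟨a + a', b * b', by rw [map_mul, ← h, ← h']; ring⟩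
  one_mem' := ⟨0, 1, by simp⟩
  add_mem' := by
    rintro w w' ⟨a, b, h⟩ ⟨a', b', h'⟩
    refine ⟨a + a', p ^ a' * b + p ^ a * b', ?_⟩
    simp only [map_add, map_mul, map_pow, map_natCast, ← h, ← h']
    ring
  zero_mem' := ⟨0, 0, by simp⟩
  neg_mem' := by
    rintro w ⟨a, b, h⟩
    exact ⟨a, -b, by rw [map_neg, ← h, mul_neg]⟩

theorem img {p : ℕ} {B M : Type*} [CommRing B] [CommRing M] (f : B →+* M) (b : B) :
    f b ∈ SS p f := ⟨0, b, by simp⟩

theorem sat {p : ℕ} {B M : Type*} [CommRing B] [CommRing M] {f : B →+* M} {j : ℕ} {w : M}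
    (h : (p : M) ^ j * w ∈ SS p f) : w ∈ SS p f := by
  obtain ⟨a, b, h⟩ := h
  exact ⟨a + j, b, by rw [← h]; ring⟩

theorem zmem {p : ℕ} (hp : 1 < p) {B M : Type*} [CommRing B] [IsLocalRing B] [CommRing M]
    (f : B →+* M) (T : B) (hT : T ∈ maximalIdeal B) (e : ℕ) (hτ : f T ^ p ^ e = p) (z : ℕ → M)
    (h : ∀ j < e, ∃ b, f b = (p - f T ^ p ^ j) * ∑ l ∈ range (j + 1), p ^ l * z l ^ p ^ (j - l))
    (j : ℕ) (hj : j < e) : z j ∈ SS p f := by
  induction j using Nat.strong_induction_on with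
  | _ j ih =>
  obtain ⟨b, hb⟩ := h j hj
  obtain ⟨k, hk⟩ := Nat.exists_eq_add_of_lt (Nat.pow_lt_pow_right hp hj)
  obtain ⟨v, hv⟩ := (isUnit_one_sub_self_of_mem_nonunits (T ^ (k + 1))
    (Ideal.pow_mem_of_mem _ hT _ k.succ_pos)).exists_right_inv
  have hv' := congrArg f hv
  rw [map_mul, map_sub, map_pow, map_one] at hv'
  rw [hk, add_assoc, pow_add] at hτ
  have h1 : ∑ l ∈ range (j + 1), p ^ l * z l ^ p ^ (j - l) ∈ SS p f := by
    refine ⟨1, -(T ^ (k + 1) * v * b), ?_⟩
    rw [map_neg, map_mul, map_mul, map_pow, hb, pow_one]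
    generalize ∑ l ∈ range (j + 1), (p : M) ^ l * z l ^ p ^ (j - l) = y
    linear_combination (-(p : M) * y) * hv' - f v * y * hτ
  rw [sum_range_succ, Nat.sub_self, pow_zero, pow_one] at h1
  refine sat (j := j) ((add_mem_cancel_left (sum_mem fun l hl => ?_)).1 h1)
  exact mul_mem (pow_mem (natCast_mem _ p) _)
    (pow_mem (ih l (mem_range.1 hl) ((mem_range.1 hl).trans hj)) _)

end V4

open V4 V3 Mf in
theorem v4Stmt (hV : EvWStmt.{u}) (hF : PhlStmt.{u}) (hE : EkStmt.{u}) (h1 : V1Stmt.{u}) :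
    V4Stmt.{u} := by
  intro p _ W T' _ _ _ σ n h _ _ _ ϖ F j2 s hy e M _ _ _ _ ϱ h3
  have hK := hE p W T' σ n h ϖ F j2 s hy e
  obtain ⟨_, hcw, -, -, hmax, ⟨N, hN⟩, -⟩ := h1 p W T' σ n h ϖ F j2 s hy e
  have hA := hV p W (Fin n) hy.coh
  have hB := hV p W (Bv n h) hy.coh
  have := h3.fr
  have := h3.free
  have := h3.fin
  have := hy.pr.fin
  refine ⟨h3.fr, hy.pr.fin, h3.free, h3.fin, h3.rk.le, ?_⟩
  have hτ := htau h3.ker
  let f : BB W n h →+* M := ϱ.comp (gm p s F e).toRingHom
  have hal : ∀ a, algebraMap (PS W n) M a = f ((phi p σ (Bv n h))^[e]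
      (rename (fun i => (some (.inl i) : Bv n h)) a)) := fun a => by
    rw [IsScalarTower.algebraMap_apply _ T' M, hy.pr.alg, h3.psi]
    rfl
  have haX : ∀ i, algebraMap (PS W n) M (X i) = ϱ (gm p s F e (X (some (.inl i)))) ^ p ^ e :=
    fun i => by rw [hal, rename_X, phX hF hy, map_pow]; rfl
  have hJp : (p : M) ∈ (mv p W (Fin n)).map (algebraMap (PS W n) M) :=
    map_natCast (algebraMap (PS W n) M) p ▸ Ideal.mem_map_of_mem _ (p_mem p W _)
  have hrad := rad ϱ _ hτ _ hJp (fun i => by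
    rw [← haX]; exact Ideal.mem_map_of_mem _ (X_mem p W i)) hN
  have hm : (maximalIdeal (GG p s F e)).map ϱ = Ideal.span (insert (p : M)
      (Set.range fun v => ϱ (Ideal.Quotient.mk (GI p s F e) (X v)))) := by
    rw [hmax, Ideal.map_map, mv_map]
    rfl
  rw [hm] at hrad
  obtain ⟨k, hk⟩ := Ideal.exists_pow_le_of_le_radical_of_fg hrad
    (Submodule.fg_span ((Set.finite_range _).insert _))
  have hz : ∀ i, ∀ j < e, ϱ (Ideal.Quotient.mk (GI p s F e) ((zz p W n e i).coeff j)) ∈ SS p f :=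
    fun i => zmem (Fact.out : p.Prime).one_lt f (X none) (hB.max ▸ X_mem p W _) e hτ _
      fun j hj => ⟨(phi p σ (Bv n h))^[j] (F i), by
        refine (congrArg ϱ (hK.gh i j hj.le)).trans ?_
        simp only [map_mul, map_sub, map_pow, map_sum, map_natCast]
        rfl⟩
  have hap := approx (SS p f) (insert (p : M)
      (Set.range fun v => ϱ (Ideal.Quotient.mk (GI p s F e) (X v)))) (by
    rintro _ (rfl | ⟨v | ⟨i, j⟩, rfl⟩)
    · exact natCast_mem _ p
    · exact (congrArg (fun z => ϱ z ∈ SS p f) (gmX e v)).mp (img f _)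
    · simpa [zz] using hz i j j.2) (fun w => by
    obtain ⟨w, rfl⟩ := h3.sur w
    obtain ⟨c, hc⟩ := hcw.res w
    refine ⟨_, img f (C c), hm.le ?_⟩
    have := Ideal.mem_map_of_mem ϱ hc
    rwa [map_sub, ← (gm p s F e).commutes] at this) k
  let S' : Submodule (PS W n) M :=
    { (SS p f).toAddSubgroup with
      smul_mem' := fun c w hw => by
        rw [Algebra.smul_def, hal]
        exact mul_mem (img f _) hw }
  have htop : ⊤ ≤ S' := by
    refine Submodule.le_of_le_smul_of_le_jacobson_bot Module.Finite.fg_top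
      (maximalIdeal_le_jacobson _) fun w _ => ?_
    obtain ⟨y, hy1, hy2⟩ := hap w
    rw [← add_sub_cancel y w, hA.max, Ideal.smul_top_eq_map]
    exact Submodule.add_mem_sup hy1 (hk hy2)
  classical
  let e0 : (Bv n h → Fin (p ^ e)) ≃ Fin ((p ^ e) ^ (n + h + 1)) :=
    Fintype.equivFinOfCardEq (by simp)
  have hp : (p : PS W n) ≠ 0 := fun h0 => by
    have := (hF p W σ (Fin n) hy.coh hy.frb).1 1 (by rw [h0, zero_mul])
    exact one_ne_zero this
  have : IsDomain (PS W n) := NoZeroDivisors.to_isDomain _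
  refine last (p : PS W n) hp _ (Fintype.linearCombination T' fun k =>
    f (∏ i, X i ^ (e0.symm k i : ℕ))) h3.rk.ge fun w => ?_
  obtain ⟨a, b, hb⟩ := htop (Submodule.mem_top (x := w))
  obtain ⟨c, hc⟩ := (hF p W σ (Bv n h) hy.coh hy.frb).2.2.2.2.2.2 e b
  refine ⟨a, fun k => ϖ (c (e0.symm k)), ?_⟩
  rw [Algebra.smul_def, map_pow, map_natCast, hb, hc, Fintype.linearCombination_apply, map_sum,
    ← e0.symm.sum_comp]
  refine sum_congr rfl fun k _ => ?_
  rw [Algebra.smul_def, h3.psi, map_mul]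
  rfl

end Vale.Agent.P202.Mx
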