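import Vale.Agent.P202.M.Vc

/-! Module V5: the envelope as a free module over the reduction. -/

open Finset Matrix MvPowerSeries Filter Topology IsLocalRing
open scoped Kronecker Nat

namespace Vale.Agent.P202.Mx

universe u

namespace V5

open Vc

theorem card_free (hL : LenStmt.{u}) {A G : Type u} [CommRing A] [IsLocalRing A] [CommRing G]
    [IsLocalRing G] [Algebra A G] {κ : Type} [Fintype κ] (b : Module.Basis κ A G)
    (h : (maximalIdeal A).map (algebraMap A G) ≤ maximalIdeal G)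
    (h' : ∀ x : G, ∃ a : A, x - algebraMap A G a ∈ maximalIdeal G) :
    ln ((maximalIdeal A).map (algebraMap A G)) = Fintype.card κ := by
  let F : G →ₗ[A] (κ → A ⧸ maximalIdeal A) :=
    LinearMap.pi fun k => (maximalIdeal A).mkQ ∘ₗ b.coord k
  have hF : Function.Surjective F := fun y => by
    choose c hc using fun k => Submodule.mkQ_surjective _ (y k)
    refine ⟨b.equivFun.symm c, funext fun k => ?_⟩
    have := congrFun (b.equivFun.apply_symm_apply c) k
    rw [Module.Basis.equivFun_apply] at this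
    rw [← hc, ← this]; rfl
  have hk : ((maximalIdeal A).map (algebraMap A G)).restrictScalars A = LinearMap.ker F := by
    ext f
    simp [mem_map_iff b, F, funext_iff, Ideal.Quotient.eq_zero_iff_mem]
  rw [ln, ← hL A G _ (fun a ha => h (Ideal.mem_map_of_mem _ ha)) h', cl_eq, hk, rl_top,
    (F.quotKerEquivOfSurjective hF).length_eq, Module.length_pi_of_fintype]
  have := ln_max (A := A)
  simp [ln] at this
  simp [this]

theorem p_mem_sup {G : Type u} [CommRing G] [IsLocalRing G] {I : Ideal G} {π τ : G} {N q : ℕ}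
    (hπ : π ∈ maximalIdeal G) (h : τ ^ N ∈ I ⊔ Ideal.span {π}) (hq : 2 * N ≤ q) :
    π ∈ I ⊔ Ideal.span {π - τ ^ q} := by
  obtain ⟨a, ha, z, hz, e⟩ := Submodule.mem_sup.1 h
  obtain ⟨c, rfl⟩ := Ideal.mem_span_singleton'.1 hz
  obtain ⟨d, rfl⟩ := Nat.exists_eq_add_of_le hq
  have hu : IsUnit (1 - π * (c ^ 2 * τ ^ d)) :=
    isUnit_one_sub_self_of_mem_nonunits _ (Ideal.mul_mem_right _ _ hπ)
  rw [← Ideal.mul_unit_mem_iff_mem _ hu, show π * (1 - π * (c ^ 2 * τ ^ d)) =
    a * ((a + 2 * c * π) * τ ^ d) + (π - τ ^ (2 * N + d)) by rw [pow_add, pow_mul', ← e]; ring]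
  exact Submodule.add_mem_sup (I.mul_mem_right _ ha) (Ideal.mem_span_singleton_self _)

theorem ln_pow (hs1 : Hs1Stmt.{u}) {G : Type u} [CommRing G] (L : Ideal G) (τ : G) (K : ℕ) :
    ln (Ideal.span {τ ^ K} ⊔ L) ≤ K * ln (Ideal.span {τ} ⊔ L) := by
  simpa [lm_quot, bx] using (hs1 G (G ⧸ L) 1 fun _ => τ).1 1 K

variable {p : ℕ} [Fact p.Prime] {W T' : Type u} [CommRing W] [IsDomain W]
  [IsDiscreteValuationRing W] {σ : W ≃+* W} {n h : ℕ} [CommRing T'] [Algebra W T']
  [Algebra (PS W n) T'] {ϖ : BB W n h →ₐ[W] T'} {F : Fin h → BB W n h} {j2 : Fin h}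
  {s : BB W n h →+* WittVector p (BB W n h)}

theorem tnzd (hV : EvWStmt.{u}) (hM : MfStmt.{u}) (hF : PhlStmt.{u}) (H : Hy p σ ϖ F j2 s) :
    Nzd ((p : T') * ϖ (X (some (.inr j2)))) := by
  have := tloc H
  have := tower H
  have := H.pr.nt
  have : IsNoetherianRing T' := isNoetherianRing_of_surjective _ _ ϖ.toRingHom H.pr.sur
  have hm : (mv p W (Bv n h)).map ϖ = maximalIdeal T' := by
    rw [← (hV p W _ H.coh).max]; exact max_map ϖ.toRingHom H.pr.sur
  have := H.pr.fin
  obtain ⟨N, hN⟩ := pow_le (rad_max (A := PS W n) (B := T'))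
  rw [(hV p W _ H.coh).max] at hN
  obtain ⟨_, -⟩ := hM p W T' (Bv n h) (Fin n) (Option (Fin h)) ϖ
    (fun o => o.elim ((p : BB W n h) - X none) F) H.coh (perf H.frb) H.pr.sur
    (by rw [H.pr.ker, Option.range_eq]; rfl) (by simp; ring)
    (fun j => by rw [H.pr.alg, rename_X]; exact Ideal.mem_map_of_mem _ (X_mem p _))
    ⟨N, fun i => hN (Ideal.pow_mem_pow (hm ▸ Ideal.mem_map_of_mem _ (X_mem p i)) N)⟩
  have h1 : Nzd (p : T') := by
    simpa using nzd_free (B := T') (hF p W σ (Fin n) H.coh H.frb).1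
  have h2 : ∀ k a, ϖ (X (some (.inr j2))) * a = 0 → a ∈ Ideal.span {(p : T')} ^ k := by
    intro k
    induction k with
    | zero => simp
    | succ k ih =>
      intro a ha
      obtain ⟨c, rfl⟩ := Ideal.mem_span_singleton'.1 (H.pr.dl a (by rw [ha]; exact zero_mem _))
      rw [pow_succ]
      exact Ideal.mul_mem_mul (ih c (h1 _ (by rw [← ha]; ring))) (Ideal.mem_span_singleton_self _)
  intro a ha
  have hp : Ideal.span {(p : T')} ≠ ⊤ := fun e => (maximalIdeal.isMaximal T').ne_top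
    (top_le_iff.1 (e ▸ (Ideal.span_singleton_le_iff_mem _).2
      (by rw [← hm, ← map_natCast ϖ]; exact Ideal.mem_map_of_mem ϖ (p_mem p))))
  have := Ideal.mem_iInf.2 fun k => h2 k a (h1 _ (by rw [← ha]; ring))
  rwa [Ideal.iInf_pow_eq_bot_of_isLocalRing _ hp] at this

/-- the generic line -/
noncomputable def lin (j1 : Fin h) (c : Fin n → W) (i : Fin n) : BB W n h :=
  X (xv j1 i.succ) - C (c i) * X (xv j1 0)

theorem line (hV : EvWStmt.{u}) (hM : MfStmt.{u}) (hF : PhlStmt.{u}) (hs2 : Hs2Stmt.{u})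
    (hr : RiStmt.{u}) (H : Hy p σ ϖ F j2 s) (j1 : Fin h) {N : ℕ}
    (hN : (p : T') ^ N ∈ Ideal.span (Set.range fun l => ϖ (X (xv j1 l)))) :
    ∃ (c : Fin n → W) (N' : ℕ), (∀ i, σ (c i) = c i ^ p) ∧
      (p : T') ^ N' ∈ Ideal.span {(p : T') * ϖ (X (some (.inr j2)))} ⊔
        Ideal.span (Set.range fun i => ϖ (lin j1 c i)) ∧
      ln (Ideal.span {(p : BB W n h), X none} ⊔ Ideal.span (Set.range F) ⊔
        Ideal.span (Set.range (lin j1 c))) ≠ ⊤ := by
  have := tloc H
  have : IsNoetherianRing T' := isNoetherianRing_of_surjective _ _ ϖ.toRingHom H.pr.sur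
  have hm : (mv p W (Bv n h)).map ϖ = maximalIdeal T' := by
    rw [← (hV p W _ H.coh).max]; exact max_map ϖ.toRingHom H.pr.sur
  have hp : (p : T') ∈ maximalIdeal T' := by
    rw [← hm, ← map_natCast ϖ]; exact Ideal.mem_map_of_mem ϖ (p_mem p)
  have : IsLocalHom (algebraMap W T') := ⟨fun a ha => by_contra fun h' => by
    obtain ⟨d, rfl⟩ := Ideal.mem_span_singleton.1 (H.coh.max ▸ (show a ∈ maximalIdeal W from h'))
    rw [map_mul, map_natCast] at ha
    exact hp (isUnit_of_mul_isUnit_left ha)⟩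
  have h1 : maximalIdeal T' ≤ (Ideal.span (Set.range fun l => ϖ (X (xv j1 l)))).radical :=
    trad hV H ⟨N, hN⟩ fun i => Ideal.le_radical (Ideal.subset_span ⟨i.succ, rfl⟩)
  have h2 := ((hs2 T' (n + 1) _ (by omega) (finlen h1)).nzd _ (tnzd hV hM hF H)).2.2
  have h3 : (residue T' '' (algebraMap W T' '' {c | σ c = c ^ p})).Infinite := by
    have := H.frb.inf.image (ResidueField.map (algebraMap W T')).injective.injOn
    rw [Set.image_image] at this ⊢
    exact this
  obtain ⟨c', j, hc', hj⟩ := hr T' _ n _ _ h3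
    (fun l => hm ▸ Ideal.mem_map_of_mem _ (X_mem p _)) h2
  choose c hc hc'' using hc'
  have e : (fun i => ϖ (X (xv j1 i.succ)) - c' i * ϖ (X (xv j1 0))) = fun i => ϖ (lin j1 c i) :=
    funext fun i => by
      rw [lin, map_sub, map_mul, ← hc'', ← ϖ.commutes]; rfl
  rw [e] at hj
  have h4 := hj.trans (sup_le_sup_right Ideal.mul_le_left _)
  rw [sup_comm] at h4
  refine ⟨c, N * (j + 1), hc, h4 (by rw [pow_mul]; exact Ideal.pow_mem_pow hN _), finlen ?_⟩
  rw [(hV p W _ H.coh).max]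
  refine brad hV H (Ideal.mem_sup_left (Ideal.mem_sup_left (Ideal.subset_span (by simp))))
    (Ideal.mem_sup_left (Ideal.mem_sup_left (Ideal.subset_span (by simp))))
    (fun i => Ideal.mem_sup_left (Ideal.mem_sup_right (Ideal.subset_span ⟨i, rfl⟩)))
    (h1.trans (Ideal.radical_le_radical_iff.2 fun x hx =>
      ⟨j + 1, (h4.trans (sup_le ?_ ?_)) (Ideal.pow_mem_pow hx _)⟩))
  · rw [Ideal.span_singleton_le_iff_mem, ← map_natCast ϖ]
    exact Ideal.mul_mem_right _ _ (Ideal.mem_map_of_mem _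
      (Ideal.mem_sup_left (Ideal.mem_sup_left (Ideal.subset_span (by simp)))))
  · rw [Ideal.span_le]
    rintro _ ⟨i, rfl⟩
    exact Ideal.mem_map_of_mem _ (Ideal.mem_sup_right (Ideal.subset_span ⟨i, rfl⟩))

end V5

open Vc V5

theorem v5Stmt (hV : EvWStmt.{u}) (hM : MfStmt.{u}) (hL : LenStmt.{u}) (hF : PhlStmt.{u})
    (hs1 : Hs1Stmt.{u}) (hs2 : Hs2Stmt.{u}) (hr : RiStmt.{u}) (hD : DetStmt.{u})
    (h1 : V1Stmt.{u}) (h2 : V2Stmt.{u}) (hG : NgStmt.{u}) : V5Stmt.{u} := by
  rintro p _ W T' _ _ _ σ n h _ _ _ ϖ F j2 s H j1 ⟨N, hN⟩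
  obtain ⟨c, N', hc, hN', hl⟩ := line hV hM hF hs2 hr H j1 hN
  obtain ⟨lB, hlB⟩ := ENat.ne_top_iff_exists.1 hl
  obtain ⟨-, -, f1, f2, -⟩ := hF p W σ (Bv n h) H.coh H.frb
  have hp0 : p ≠ 0 := (Fact.out : p.Prime).ne_zero
  refine ⟨N * p ^ N + N' * p ^ N' * lB, ?_⟩
  filter_upwards [eventually_ge_atTop (N + N' + 2 * (N * p ^ N))] with e he
  obtain ⟨_, cw, -, -, hm, ⟨N1, hN1⟩, -⟩ := h1 p W T' σ n h ϖ F j2 s H e
  have := cw.noeth
  let f := (gm p s F e).comp (rename (xv j1))
  let := f.toRingHom.toAlgebra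
  have hf : ∀ a, algebraMap (PS W (n + 1)) (GG p s F e) a = gm p s F e (rename (xv j1) a) :=
    fun _ => rfl
  have hX : ∀ l, algebraMap (PS W (n + 1)) (GG p s F e) (X l) = gm p s F e (X (xv j1 l)) :=
    fun l => by rw [hf, rename_X]
  have tw : IsScalarTower W (PS W (n + 1)) (GG p s F e) :=
    .of_algebraMap_eq fun c => (f.commutes c).symm
  have nil := hG p W T' σ n h ϖ F j2 s H e (n + 1) N (fun l => X (xv j1 l)) (fun _ => 0)
    (fun l => f1 _) (fun _ => by simp [hp0]) (by omega) (by simpa using hN)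
  simp only [sub_zero] at nil
  have hp : (p : GG p s F e) ∈ maximalIdeal _ := by
    simpa using cw.loc p (H.coh.max ▸ Ideal.mem_span_singleton_self _)
  have hJ : Ideal.span (Set.range fun l => gm p s F e (X (xv j1 l))) ⊔ Ideal.span {(p : GG p s F e)}
      = (mv p W (Fin (n + 1))).map (algebraMap _ (GG p s F e)) := by
    rw [mv, Ideal.map_span, Set.image_insert_eq, Ideal.span_insert, sup_comm, map_natCast,
      ← Set.range_comp]
    exact congrArg (fun x => _ ⊔ Ideal.span (Set.range x)) (funext hX).symm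
  have hle : (mv p W (Fin (n + 1))).map (algebraMap _ (GG p s F e)) ≤ maximalIdeal _ :=
    mv_le _ hp fun l => by rw [hX, gm_X, hm]; exact Ideal.mem_map_of_mem _ (X_mem p _)
  obtain ⟨N2, hN2⟩ := pow_le (I := maximalIdeal (GG p s F e))
    (J := (mv p W (Fin (n + 1))).map (algebraMap _ (GG p s F e))) fun x hx => by
      rw [← Ideal.radical_idem, ← hJ]
      refine ⟨N1, (hN1.trans (sup_le ?_ ?_)) (Ideal.pow_mem_pow hx _)⟩
      · rw [Ideal.span_le]
        rintro _ (rfl | rfl)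
        · exact Ideal.le_radical (Ideal.mem_sup_right (Ideal.mem_span_singleton_self _))
        · exact ⟨_, nil⟩
      · rw [Ideal.span_le]
        rintro _ ⟨i, rfl⟩
        exact Ideal.le_radical (Ideal.mem_sup_left (Ideal.subset_span ⟨i.succ, rfl⟩))
  obtain ⟨_, _⟩ := hM p W (GG p s F e) (Gv n h e) (Fin (n + 1)) (Fin h × Fin (e + 1))
    (Ideal.Quotient.mkₐ W _) (fun x => (rho p s F e x.1).coeff x.2) H.coh (perf H.frb)
    Ideal.Quotient.mk_surjective Ideal.mk_ker (card_G e (by simp))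
    (fun j => by rw [hX, gm_X]; exact Ideal.mem_map_of_mem _ (X_mem p _))
    ⟨N2, fun i => hN2 (Ideal.pow_mem_pow (hm ▸ Ideal.mem_map_of_mem _ (X_mem p i)) _)⟩
  let b := Module.finBasis (PS W (n + 1)) (GG p s F e)
  refine ⟨this, tw, _, _, inferInstance, b, hf, ?_, ?_, ?_⟩
  · rw [pow_add]; exact Ideal.mul_mem_right _ _ nil
  · have a := (hs1 _ (GG p s F e ⧸ Ideal.span {(p : GG p s F e) - gm p s F e (X none) ^ p ^ e})
      (n + 1) fun l => gm p s F e (X (xv j1 l))).1 1 (p ^ e)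
    simp only [lm_quot, bx, one_mul, pow_one] at a
    refine a.trans ?_
    rw [Nat.cast_mul, ← card_free hL b (by rwa [(hV p W _ H.coh).max]) fun x => by
      obtain ⟨a, ha⟩ := cw.res x
      exact ⟨algebraMap W _ a, by rwa [← IsScalarTower.algebraMap_apply]⟩,
      (hV p W _ H.coh).max, ← hJ]
    refine mul_le_mul_right (ln_anti (sup_le le_sup_left ?_)) _
    rw [Ideal.span_singleton_le_iff_mem]
    exact p_mem_sup hp nil (le_trans (by omega) (Nat.lt_pow_self (Fact.out : p.Prime).one_lt).le)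
  · refine (hD p W _ n _ b _ c (N' * p ^ N' * (p ^ (e * h) * lB)) H.coh cw ?_).trans
      (Nat.cast_le.2 (by nlinarith [Nat.zero_le (N * p ^ N * p ^ (e * h))]))
    have hl : ∀ i, algebraMap (PS W (n + 1)) (GG p s F e) (X i.succ - C (c i) * X 0) =
        gm p s F e (lin j1 c i) := fun i => by simp [hf, lin]
    simp only [hl]
    have nil' := hG p W T' σ n h ϖ F j2 s H e (n + 1) N'
      (Fin.cons (X none * X (some (.inr j2))) fun i => X (xv j1 i.succ))
      (Fin.cons 0 fun i => C (c i) * X (xv j1 0))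
      (fun l => Fin.cases (by simp [f1, mul_pow]) (fun i => f1 _) l)
      (fun l => Fin.cases (by simp [hp0]) (fun i => by simp [f1, f2, hc, mul_pow]) l) (by omega)
      (by
        refine SetLike.le_def.1 (sup_le ((Ideal.span_singleton_le_iff_mem _).2 ?_)
          (Ideal.span_le.2 ?_)) hN'
        · exact Ideal.subset_span ⟨0, by simp [tT H]⟩
        · rintro _ ⟨i, rfl⟩
          exact Ideal.subset_span ⟨i.succ, rfl⟩)
    have a := (h2 p W T' σ n h ϖ F j2 s H e).2 _
      (Ideal.mem_sup_left (Ideal.mem_sup_left (Ideal.subset_span (Set.mem_insert _ {X none}))))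
      (Ideal.mem_sup_left (Ideal.mem_sup_left (Ideal.subset_span (by simp))))
      (fun i => Ideal.mem_sup_left (T := Ideal.span (Set.range (lin j1 c)))
        (Ideal.mem_sup_right (Ideal.subset_span (Set.mem_range_self i))))
    rw [← hlB] at a
    refine le_trans (ln_anti ?_) ((ln_pow hs1 (Ideal.span {(p : GG p s F e)} ⊔ Ideal.span
      (Set.range fun i => gm p s F e (lin j1 c i))) (gm p s F e (X none)) (N' * p ^ N')).trans ?_)
    · refine sup_le ((Ideal.span_singleton_le_iff_mem _).2 (SetLike.le_def.1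
        (sup_le (Ideal.span_le.2 ?_) (le_sup_of_le_left (Ideal.span_mono ?_))) nil'))
        (sup_le_sup_right (Ideal.span_mono (by simp)) _)
      swap
      · simp
      rintro _ ⟨l, rfl⟩
      refine Fin.cases (Ideal.mem_sup_left (Ideal.subset_span (by simp))) (fun i => ?_) l
      exact Ideal.mem_sup_right (Ideal.subset_span ⟨i, rfl⟩)
    · rw [Nat.cast_mul (N' * p ^ N'), Nat.cast_mul (p ^ (e * h)), ← a]
      refine mul_le_mul_right (ln_anti ?_) _
      have a2 : Ideal.span {(p : GG p s F e), gm p s F e (X none)} ≤ Ideal.span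
          {gm p s F e (X none)} ⊔ (Ideal.span {(p : GG p s F e)} ⊔ Ideal.span
            (Set.range fun i => gm p s F e (lin j1 c i))) := by
        rw [Ideal.span_insert]
        exact sup_le (le_sup_of_le_right le_sup_left) le_sup_left
      rw [Ideal.map_le_iff_le_comap]
      refine sup_le (sup_le (Ideal.span_le.2 ?_) (Ideal.span_le.2 ?_)) (Ideal.span_le.2 ?_)
      · rintro _ (rfl | rfl)
        · exact a2 (Ideal.subset_span (by simp))
        · exact a2 (Ideal.subset_span (by simp))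
      · rintro _ ⟨i, rfl⟩
        exact a2 (gF H e i)
      · rintro _ ⟨i, rfl⟩
        exact Ideal.mem_sup_right (Ideal.mem_sup_right (Ideal.subset_span ⟨i, rfl⟩))

end Vale.Agent.P202.Mx
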