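import Vale.Agent.P202.M.SpecT

/-! Adjoining a root of the uniformizer and truncating. -/

open IsLocalRing Polynomial

namespace Vale.Agent.P202.Mx

universe u

theorem vtStmt : VtStmt.{u} := by
  intro p W _ _ _ s k hm hs hk
  have hp0 : (p : W) ≠ 0 := fun h => IsDiscreteValuationRing.not_a_field W (by
    rw [hm, h, Ideal.span_singleton_zero])
  have hpm : (p : W) ∈ maximalIdeal W := hm ▸ Ideal.mem_span_singleton_self _
  let g : W[X] := X ^ s - C (p : W)
  have hg : g.Monic := monic_X_pow_sub_C _ (by omega)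
  have hd : g.natDegree = s := natDegree_X_pow_sub_C
  have hirr : Irreducible g := by
    refine IsEisensteinAt.irreducible (𝓟 := maximalIdeal W) ⟨?_, fun {n} hn => ?_, ?_⟩
      inferInstance hg.isPrimitive (by omega)
    · rw [hg.leadingCoeff]
      exact (Ideal.ne_top_iff_one _).1 (maximalIdeal.isMaximal W).ne_top
    · rw [coeff_sub, coeff_X_pow, if_neg (by omega), zero_sub, coeff_C]
      split_ifs
      · exact neg_mem hpm
      · simp
    · rw [coeff_sub, coeff_X_pow, if_neg (by omega), zero_sub, coeff_C_zero, neg_mem_iff, hm,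
        Ideal.span_singleton_pow, Ideal.mem_span_singleton]
      rintro ⟨c, hc⟩
      have : (p : W) * c = 1 := mul_left_cancel₀ hp0 (by rw [← mul_assoc, ← pow_two, ← hc, mul_one])
      exact hpm (IsUnit.of_mul_eq_one c this)
  let U := AdjoinRoot g
  have : IsDomain U := AdjoinRoot.isDomain_of_prime hirr.prime
  let w : U := AdjoinRoot.root g
  let j : W →+* U := AdjoinRoot.of g
  have hw : w ^ s = p := by
    have := AdjoinRoot.eval₂_root g
    rw [eval₂_sub, eval₂_X_pow, eval₂_C, map_natCast, sub_eq_zero] at this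
    exact this
  let ρ : U →+* ResidueField W := AdjoinRoot.lift (residue W) 0 (by
    rw [eval₂_sub, eval₂_X_pow, eval₂_C, zero_pow (by omega), (residue_eq_zero_iff _).2 hpm,
      sub_zero])
  have hρj : ∀ a, ρ (j a) = residue W a := fun a => AdjoinRoot.lift_of _
  have hρw : ρ w = 0 := AdjoinRoot.lift_root _
  have hρs : Function.Surjective ρ := fun y => by
    obtain ⟨a, rfl⟩ := residue_surjective y
    exact ⟨j a, hρj a⟩
  have hker : RingHom.ker ρ = Ideal.span {w} := by
    refine le_antisymm (fun z hz => ?_) ((Ideal.span_singleton_le_iff_mem _).2 hρw)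
    obtain ⟨q, rfl⟩ := AdjoinRoot.mk_surjective z
    rw [← divX_mul_X_add q, map_add, map_mul, AdjoinRoot.mk_X, AdjoinRoot.mk_C] at hz ⊢
    rw [RingHom.mem_ker, map_add, map_mul, hρw, mul_zero, zero_add, hρj, residue_eq_zero_iff, hm,
      Ideal.mem_span_singleton] at hz
    refine Ideal.mem_span_singleton.2 (dvd_add (dvd_mul_left _ _) ?_)
    refine (dvd_pow_self w (by omega : s ≠ 0)).trans ?_
    rw [hw, ← map_natCast j]
    exact map_dvd j hz
  have hmax : (Ideal.span {w}).IsMaximal := hker ▸ RingHom.ker_isMaximal_of_surjective ρ hρs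
  have : Module.Finite W U := hg.finite_adjoinRoot
  have : IsLocalRing U := IsLocalRing.of_unique_max_ideal ⟨_, hmax, fun M hM => by
    have h1 : M.comap (algebraMap W U) = maximalIdeal W :=
      eq_maximalIdeal (Ideal.isMaximal_comap_of_isIntegral_of_isMaximal M)
    have h2 : w ^ s ∈ M := by
      rw [hw, ← map_natCast (algebraMap W U), ← Ideal.mem_comap, h1]; exact hpm
    exact (hmax.eq_of_le hM.ne_top ((Ideal.span_singleton_le_iff_mem _).2
      (hM.isPrime.mem_of_pow_mem s h2))).symm⟩
  have hmU : maximalIdeal U = Ideal.span {w} := (eq_maximalIdeal hmax).symm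
  have hw0 : w ≠ 0 := fun h => hp0 (AdjoinRoot.of.injective_of_degree_ne_zero (f := g)
    (fun e => by have := natDegree_eq_zero_iff_degree_le_zero.2 e.le; omega)
    (by rw [map_natCast, ← hw, h, zero_pow (by omega), map_zero]))
  have hnf : ¬ IsField U := fun h => hw0 (by
    have := (isField_iff_maximalIdeal_eq).1 h
    rwa [hmU, Ideal.span_singleton_eq_bot] at this)
  have : IsDiscreteValuationRing U := ((IsDiscreteValuationRing.TFAE U hnf).out 0 4).2
    (show (maximalIdeal U).IsPrincipal from ⟨w, hmU⟩)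
  have hle : Ideal.span {w ^ (s * k)} ≤ RingHom.ker ρ := by
    rw [Ideal.span_singleton_le_iff_mem, RingHom.mem_ker, map_pow, hρw, zero_pow (by positivity)]
  let V := U ⧸ Ideal.span {w ^ (s * k)}
  let f : U →+* V := Ideal.Quotient.mk _
  let ρ' : V →+* ResidueField W := Ideal.Quotient.lift _ ρ fun a ha => hle ha
  have : Nontrivial V := ρ'.domain_nontrivial
  have : IsLocalRing V := IsLocalRing.of_surjective' f Ideal.Quotient.mk_surjective
  have hρ's : Function.Surjective ρ' := fun y => by
    obtain ⟨a, rfl⟩ := hρs y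
    exact ⟨f a, rfl⟩
  have hk' : RingHom.ker ρ' = maximalIdeal V :=
    eq_maximalIdeal (RingHom.ker_isMaximal_of_surjective ρ' hρ's)
  refine ⟨U, V, inferInstance, inferInstance, inferInstance, inferInstance, inferInstance, j, w, f,
    (IsDiscreteValuationRing.irreducible_iff_uniformizer w).2 hmU, hw,
    Ideal.Quotient.mk_surjective, Ideal.mk_ker, ⟨?_, ?_, fun a c h => ?_⟩,
    ⟨(Ideal.quotEquivOfEq hk'.symm).trans (RingHom.quotientKerEquivOfSurjective hρ's)⟩,
    fun a h => ?_, fun z => ?_⟩
  · rw [← map_maximalIdeal_of_surjective f Ideal.Quotient.mk_surjective, hmU, Ideal.map_span,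
      Set.image_singleton]
  · rw [← map_pow]
    exact Ideal.Quotient.eq_zero_iff_mem.2 (Ideal.mem_span_singleton_self _)
  · obtain ⟨c, rfl⟩ := Ideal.Quotient.mk_surjective c
    rcases le_total a (s * k) with ha | ha
    · have h1 : w ^ (s * k) ∣ w ^ a * c :=
        Ideal.mem_span_singleton.1 (Ideal.Quotient.eq_zero_iff_mem.1 (by rw [← h]; rfl))
      rw [← Nat.add_sub_cancel' ha, pow_add, mul_dvd_mul_iff_left (pow_ne_zero _ hw0)] at h1
      rw [← map_pow]
      exact map_dvd f h1
    · rw [Nat.sub_eq_zero_of_le ha, pow_zero]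
      exact one_dvd _
  · rw [← Ideal.mem_span_singleton, ← hker, RingHom.mem_ker, hρj, residue_eq_zero_iff, hm] at h
    exact Ideal.mem_span_singleton.1 h
  · obtain ⟨q, h1, h2⟩ := (AdjoinRoot.powerBasis' hg).exists_eq_aeval z
    rw [AdjoinRoot.powerBasis'_dim, hd] at h1
    refine ⟨fun i => q.coeff i, ?_⟩
    rw [h2, aeval_eq_sum_range' h1, Finset.sum_range]
    exact Finset.sum_congr rfl fun i _ => Algebra.smul_def _ _

end Vale.Agent.P202.Mx
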