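import Vale.Agent.P202.M.All1
import Vale.Agent.P202.M.Dw
import Vale.Agent.P202.M.Nil
import Vale.Agent.P202.M.Ai
import Vale.Agent.P202.M.Hb
import Vale.Agent.P202.M.Re
import Vale.Agent.P202.M.Phi
import Vale.Agent.P202.M.Or
import Vale.Agent.P202.M.Up
import Vale.Agent.P202.M.Ds
import Vale.Agent.P202.M.Ie
import Vale.Agent.P202.M.Po
import Vale.Agent.P202.M.Mf0
import Vale.Agent.P202.M.Mf
import Vale.Agent.P202.M.Pres
import Vale.Agent.P202.M.Det
import Vale.Agent.P202.M.Phl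
import Vale.Agent.P202.M.Ek
import Vale.Agent.P202.M.V1
import Vale.Agent.P202.M.V2
import Vale.Agent.P202.M.V3
import Vale.Agent.P202.M.V4
import Vale.Agent.P202.M.Ng
import Vale.Agent.P202.M.V5
import Vale.Agent.P202.M.Tl
import Vale.Agent.P202.M.Vt
import Vale.Agent.P202.M.BcV
import Vale.Agent.P202.M.Eng
import Vale.Agent.P202.M.Lam
import Vale.Agent.P202.M.NumF
import Vale.Agent.P202.M.FinM
import Vale.Agent.P202.M.Ten
import Vale.Agent.P202.M.Sit
import Vale.Agent.P202.M.Mc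

/-! Assembly of the mixed characteristic case. -/

namespace Vale.Agent.P202.Mx

universe u

theorem mf' : MfStmt.{u} := mfStmt mf0Stmt evWStmt

theorem tl' : TlStmt.{u} :=
  have hE := ekStmt phlStmt
  have h1 := v1Stmt evWStmt mf' lenStmt hE
  have h2 := v2Stmt evWStmt mf' lenStmt hE
  tlStmt dwStmt phlStmt hE h1 h2 (v3Stmt evWStmt mf' lenStmt phlStmt hE h1 h2)
    (v4Stmt evWStmt phlStmt hE h1)
    (v5Stmt evWStmt mf' lenStmt phlStmt hs1Stmt hs2' riStmt (detStmt evWStmt lenStmt) h1 h2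
      (ngStmt nilStmt hE)) ieStmt
    (poStmt upStmt (phiStmt aiStmt hbStmt) (orStmt aiStmt reStmt) dsStmt ieStmt) evWStmt

theorem fin' : FinStmt.{u} :=
  finStmt tl' (engStmt vtStmt (bcVStmt evWStmt lenStmt segStmt) tauStmt segStmt eu' shmStmt
    (dmStmt kcStmt)) (ubStmt hs1Stmt hs2') (lbStmt hs1Stmt) hs2' (lamStmt lenStmt) numFStmt evWStmt

theorem sit' : SitStmt.{u} :=
  sitStmt (tenStmt (coMStmt evWStmt liftStmt) evWStmt) nrmStmt twMStmt btMStmt
    (presStmt evWStmt mf') epsStmt raStmt hs2' lenStmt evWStmt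

theorem lech : MainStmt.{u} := main_of (mcStmt sit' fin' raStmt riStmt hs2' lenStmt evWStmt)

end Vale.Agent.P202.Mx
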