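import Vale.Agent.P202.M.SpecI
import Vale.Agent.P202.Co1

/-! Module CO of part I: the Cohen factorisation in mixed characteristic. -/

open Finset Matrix MvPowerSeries Filter Topology IsLocalRing
open scoped Kronecker Nat TensorProduct

namespace Vale.Agent.P202.Mx

universe u

namespace CoM

open CoL

theorem xi_Y (σ τ K : Type*) [CommRing K] (i : τ) :
    CoL.xi σ τ K (X (.inr i)) = C (X i) := by
  have := xi_mon σ τ K 0 (Finsupp.single i 1) 1
  rwa [Finsupp.sumElim_zero_single] at this

theorem split' (K : Type u) [CommRing K] (n m : ℕ) :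
    ∃ Ξ : PS K (n + m) ≃+* MvPowerSeries (Fin n) (PS K m),
      (∀ i, Ξ (X (Fin.castAdd m i)) = X i) ∧ (∀ i, Ξ (X (Fin.natAdd n i)) = C (X i)) ∧
        ∀ a, Ξ (C a) = C (C a) := by
  let e : Fin (n + m) ≃ Fin n ⊕ Fin m := finSumFinEquiv.symm
  refine ⟨(renameEquiv K e).toRingEquiv.trans (CoL.xi _ _ K), fun i => ?_, fun i => ?_, fun a => ?_⟩
  · change CoL.xi _ _ K (rename e (X _)) = _
    rw [rename_X, show e _ = .inl i from finSumFinEquiv_symm_apply_castAdd i, xi_X]
  · change CoL.xi _ _ K (rename e (X _)) = _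
    rw [rename_X, show e _ = .inr i from finSumFinEquiv_symm_apply_natAdd i, xi_Y]
  · change CoL.xi _ _ K (rename e (C a)) = _
    rw [rename_C, xi_C]

theorem map_surj {σ K K' : Type*} [CommRing K] [CommRing K'] (τ : K →+* K')
    (h : Function.Surjective τ) : Function.Surjective (MvPowerSeries.map (σ := σ) τ) := fun f => by
  choose g hg using fun e => h (coeff e f)
  exact ⟨g, MvPowerSeries.ext fun e => hg e⟩

theorem ker_map {σ K K' ι : Type*} [CommRing K] [CommRing K'] [Fintype ι] (τ : K →+* K')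
    (y : ι → K) (h : RingHom.ker τ = Ideal.span (Set.range y)) :
    RingHom.ker (MvPowerSeries.map (σ := σ) τ) = Ideal.span (Set.range fun i => C (y i)) := by
  refine le_antisymm (fun f hf => ?_) (Ideal.span_le.2 ?_)
  · have h1 : ∀ e, ∃ a : ι → K, ∑ i, a i * y i = coeff e f := fun e => by
      rw [← Ideal.mem_span_range_iff_exists_fun, ← h, RingHom.mem_ker, ← coeff_map,
        RingHom.mem_ker.1 hf, map_zero]
    choose a ha using h1
    rw [Ideal.mem_span_range_iff_exists_fun]
    refine ⟨fun i e => a e i, MvPowerSeries.ext fun e => ?_⟩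
    rw [map_sum, ← ha e]
    exact sum_congr rfl fun i _ => coeff_mul_C _ _ _
  · rintro _ ⟨i, rfl⟩
    have : τ (y i) = 0 := by
      rw [← RingHom.mem_ker, h]
      exact Ideal.subset_span ⟨i, rfl⟩
    change MvPowerSeries.map τ (C (y i)) = 0
    rw [map_C, this, map_zero]

/-- flat change of coefficients is flat -/
theorem flat' {κ B : Type u} [CommRing κ] [IsNoetherianRing κ] [CommRing B] [IsNoetherianRing B]
    [IsLocalRing B] (n : ℕ) (σ : κ →+* B) (hσ : σ.Flat) :
    (MvPowerSeries.map (σ := Fin n) σ).Flat := by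
  classical
  let := σ.toAlgebra
  have : Module.Flat κ B := hσ
  let g2 : B →ₐ[κ] MvPowerSeries (Fin n) B :=
    { C with commutes' := fun _ => (MvPowerSeries.algebraMap_apply).symm }
  let j : PS κ n ⊗[κ] B →ₐ[κ] MvPowerSeries (Fin n) B :=
    Algebra.TensorProduct.lift (mapAlgHom (Algebra.ofId κ B)) g2 fun _ _ => Commute.all _ _
  have hj : ∀ a b, j (a ⊗ₜ b) = MvPowerSeries.map σ a * C b := fun a b =>
    Algebra.TensorProduct.lift_tmul _ _ _ a b
  have e : j.toRingHom.comp (algebraMap (PS κ n) (PS κ n ⊗[κ] B)) = MvPowerSeries.map σ := by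
    ext1 a
    change j (a ⊗ₜ 1) = _
    rw [hj, map_one, mul_one]
  have hm : ∀ (e : Fin n →₀ ℕ) (b : B), j (monomial e 1 ⊗ₜ b) = monomial e b := fun e b => by
    rw [hj, map_monomial, map_one, mul_comm, ← smul_eq_C_mul, ← map_smul, smul_eq_mul, mul_one]
  rw [← e]
  refine lcStmt (PS κ n) (PS κ n ⊗[κ] B) _ (vx κ n) j.toRingHom ?_ (fun N b => ?_) fun N t ht => ?_
  · rw [e, map_vx, Ideal.ne_top_iff_one, mem_vx]
    simp
  · refine ⟨∑ e ∈ lo n N, monomial e 1 ⊗ₜ coeff e b, ?_⟩
    rw [e, Ideal.map_pow, map_vx]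
    change b - j _ ∈ _
    simpa only [map_sum, hm] using trunc_mem b N
  · rw [e, Ideal.map_pow, map_vx, ord] at ht
    have key : ∀ t : PS κ n ⊗[κ] B, t - ∑ e ∈ lo n N, monomial e 1 ⊗ₜ coeff e (j t) ∈
        (vx κ n ^ N).map (algebraMap (PS κ n) (PS κ n ⊗[κ] B)) := fun t => by
      induction t using TensorProduct.induction_on with
      | zero => simp
      | add x y hx hy =>
        simpa only [map_add, TensorProduct.tmul_add, sum_add_distrib, add_sub_add_comm] using
          add_mem hx hy
      | tmul a b =>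
        have h1 := Ideal.mul_mem_right ((1 : PS κ n) ⊗ₜ[κ] b) _
          (Ideal.mem_map_of_mem (algebraMap (PS κ n) (PS κ n ⊗[κ] B)) (trunc_mem a N))
        rw [Algebra.TensorProduct.algebraMap_apply, Algebra.TensorProduct.tmul_mul_tmul, mul_one,
          one_mul, Algebra.algebraMap_self_apply, TensorProduct.sub_tmul,
          TensorProduct.sum_tmul] at h1
        convert h1 using 3 with e
        rw [hj, coeff_mul_C, coeff_map, show σ (coeff e a) * b = coeff e a • b from rfl,
          ← TensorProduct.smul_tmul, ← map_smul, smul_eq_mul, mul_one]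
    have h2 := key t
    rwa [sum_eq_zero fun e he => by
      rw [show coeff e (j t) = 0 from ht e (mem_lo.1 he), TensorProduct.tmul_zero], sub_zero] at h2

theorem p_ne {p : ℕ} {W : Type u} [CommRing W] [IsDomain W] [IsDiscreteValuationRing W]
    (h : maximalIdeal W = Ideal.span {(p : W)}) : (p : W) ≠ 0 := fun h0 =>
  IsDiscreteValuationRing.not_a_field W (by rw [h, h0, Ideal.span_singleton_eq_bot])

theorem flat_dvr {p : ℕ} {V B : Type u} [CommRing V] [IsDomain V] [IsDiscreteValuationRing V]
    [CommRing B] [IsDomain B] (h : maximalIdeal V = Ideal.span {(p : V)}) (hp : (p : B) ≠ 0)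
    (σ : V →+* B) : σ.Flat := by
  let := σ.toAlgebra
  have hi : Irreducible (p : V) := (IsDiscreteValuationRing.irreducible_iff_uniformizer _).2 h
  have hinj : Function.Injective (algebraMap V B) := by
    rw [injective_iff_map_eq_zero]
    intro a ha
    by_contra h0
    obtain ⟨k, w, rfl⟩ := IsDiscreteValuationRing.eq_unit_mul_pow_irreducible h0 hi
    rw [map_mul, map_pow, map_natCast] at ha
    exact mul_ne_zero (w.isUnit.map _).ne_zero (pow_ne_zero _ hp) ha
  have : FaithfulSMul V B := (faithfulSMul_iff_algebraMap_injective V B).2 hinj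
  change Module.Flat V B
  infer_instance

theorem pres {p : ℕ} {W S : Type u} [CommRing W] [IsDomain W] [IsDiscreteValuationRing W]
    [CommRing S] [IsLocalRing S] [Algebra W S] (hV : EvWStmt.{u}) (hW : Coh p W) (h : CW W S) :
    ∃ (c : ℕ) (q : PS W (c + 1) →ₐ[W] S), Function.Surjective q ∧
      ∀ i, q (X i) ∈ maximalIdeal S := by
  have := h.noeth
  have := h.cpl
  obtain ⟨n, y, hy⟩ := Submodule.fg_iff_exists_fin_generating_family.1
    (maximalIdeal S).fg_of_isNoetherianRing
  have hy1 : ∀ i, (Fin.cons 0 y : Fin (n + 1) → S) i ∈ maximalIdeal S := fun i => by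
    refine Fin.cases (zero_mem _) (fun i => ?_) i
    exact hy ▸ Submodule.subset_span ⟨i, rfl⟩
  obtain ⟨q, hq⟩ := ev (K := W) S (maximalIdeal S) h.cpl _ hy1
  have hmap : (vx W (n + 1)).map (q : PS W (n + 1) →+* S) = maximalIdeal S := by
    refine le_antisymm (Ideal.map_le_iff_le_comap.2 (Ideal.span_le.2 ?_)) ?_
    · rintro _ ⟨i, rfl⟩
      change q (X i) ∈ maximalIdeal S
      rw [hq]; exact hy1 i
    · rw [← hy, Submodule.span_le]
      rintro _ ⟨i, rfl⟩
      have e : y i = q (X i.succ) := by rw [hq]; rfl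
      rw [e]
      exact Ideal.mem_map_of_mem (q : PS W (n + 1) →+* S) (Ideal.subset_span ⟨_, rfl⟩)
  have h2 : IsHausdorff ((vx W (n + 1)).map (q : PS W (n + 1) →+* S)) S := by
    rw [hmap]; infer_instance
  have h3 : IsAdicComplete (vx W (n + 1)) (PS W (n + 1)) :=
    cplLe (hV p W (Fin (n + 1)) hW).cw.cpl _ (by
      rw [Ideal.ne_top_iff_one, mem_vx]; simp)
  refine ⟨n, q, surjective_of_mk_map_comp_surjective (I := vx W (n + 1))
    (q : PS W (n + 1) →+* S) fun r => ?_, fun i => by rw [hq]; exact hy1 i⟩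
  obtain ⟨b, rfl⟩ := Ideal.Quotient.mk_surjective r
  obtain ⟨a, ha⟩ := h.res b
  refine ⟨algebraMap W _ a, ?_⟩
  rw [RingHom.comp_apply, eq_comm, Ideal.Quotient.eq, hmap]
  simpa using ha

end CoM

open CoM CoL in
theorem coMStmt (hV : EvWStmt.{u}) (hL : LiftStmt.{u}) : CoMStmt.{u} := by
  intro p _ V W S _ _ _ _ _ _ _ _ _ n f hC hW h hf
  have := h.cpl
  obtain ⟨c, q, hq, hqX⟩ := pres hV hW h
  have hE := hV p W (Fin (c + 1)) hW
  have hloc := IsLocalHom.of_surjective (q : PS W (c + 1) →+* S) hq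
  obtain ⟨σ, hσ⟩ := hL p V (PS W (c + 1)) S (q : PS W (c + 1) →+* S) (f.comp C) hC.max hE.cw.cpl
    (by rw [hE.max]; exact Ideal.subset_span (Set.mem_insert _ _)) hq
    (le_maximalIdeal (RingHom.ker_ne_top _)) (fun s hs => by
      refine IsHausdorff.haus (I := maximalIdeal S) inferInstance _ fun N => ?_
      rw [SModEq.zero, smul_eq_mul, Ideal.mul_top]
      have h1 := hs N
      rw [Ideal.map_pow] at h1
      have h2 : (maximalIdeal (PS W (c + 1))).map (q : PS W (c + 1) →+* S) ≤ maximalIdeal S :=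
        Ideal.map_le_iff_le_comap.2 fun a ha => map_nonunit (q : PS W (c + 1) →+* S) a ha
      exact Ideal.pow_right_mono h2 N h1)
  obtain ⟨Ξ, h1, h1', h2⟩ := split' W n (c + 1)
  let : Algebra (PS W (c + 1)) S := (q : PS W (c + 1) →+* S).toAlgebra
  obtain ⟨π', hπ⟩ := ev (K := PS W (c + 1)) S (maximalIdeal S) h.cpl _ hf
  have hC' : ∀ b, π' (C b) = q b := π'.commutes
  let π : PS W (n + (c + 1)) →ₐ[W] S :=
    { π'.toRingHom.comp Ξ.toRingHom with
      commutes' := fun a => by
        change π' (Ξ (C a)) = _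
        rw [h2, hC']
        exact q.commutes a }
  have hs : Function.Surjective π := fun s => by
    obtain ⟨b, rfl⟩ := hq s
    exact ⟨Ξ.symm (C b), by
      change π' (Ξ (Ξ.symm _)) = _
      rw [Ξ.apply_symm_apply, hC']⟩
  have e : π'.toRingHom.comp (MvPowerSeries.map σ) = f := by
    refine hom_ext (maximalIdeal S) _ _ (fun a => ?_) (fun i => ?_) fun i => ?_
    · change π' (MvPowerSeries.map σ (C a)) = _
      rw [map_C, hC']; exact hσ a
    · change π' (MvPowerSeries.map σ (X i)) = _
      rw [map_X, hπ]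
    · change π' (MvPowerSeries.map σ (X i)) ∈ _
      rw [map_X, hπ]; exact hf i
  have hpW := p_ne hW.max
  have : IsDomain (PS W (c + 1)) := NoZeroDivisors.to_isDomain _
  have hpB : (p : PS W (c + 1)) ≠ 0 := fun h0 => hpW (by
    simpa using congrArg (constantCoeff (σ := Fin (c + 1)) (R := W)) h0)
  have hg : ∀ i, (Ξ.symm.toRingHom.comp (MvPowerSeries.map σ)) (X i) =
      X (Fin.castAdd (c + 1) i) := fun i => by
    change Ξ.symm (MvPowerSeries.map σ (X i)) = _
    rw [map_X, ← h1, Ξ.symm_apply_apply]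
  refine ⟨c, Ξ.symm.toRingHom.comp (MvPowerSeries.map σ), π, hs, fun a => ?_, hg, fun i => ?_,
    (flat' _ σ (flat_dvr hC.max hpB σ)).comp (RingHom.Flat.of_bijective Ξ.symm.bijective), ?_, ?_⟩
  · change π' (Ξ (Ξ.symm _)) = _
    rw [Ξ.apply_symm_apply, ← e]; rfl
  · refine Fin.addCases (fun i => ?_) (fun i => ?_) i
    · change π' (Ξ _) ∈ _
      rw [h1, hπ]; exact hf i
    · change π' (Ξ _) ∈ _
      rw [h1', hC']; exact hqX i
  · let cc : PS W (c + 1) →+* W := constantCoeff
    let ψ : PS W (n + (c + 1)) →+* PS W n := (MvPowerSeries.map cc).comp Ξ.toRingHom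
    have hψ : Function.Surjective ψ :=
      (map_surj cc fun a => ⟨C a, rfl⟩).comp Ξ.surjective
    have hk : RingHom.ker ψ = Ideal.span (Set.range fun i : Fin (c + 1) =>
        (X (Fin.natAdd n i) : PS W (n + (c + 1)))) := by
      rw [← RingHom.comap_ker, ker_map cc X (Ideal.ext fun a => (mem_vx a).symm)]
      change Ideal.comap Ξ _ = _
      rw [← Ideal.map_symm, Ideal.map_span, ← Set.range_comp]
      congr 2
      funext i
      change Ξ.symm (C (X i)) = _
      rw [← h1', Ξ.symm_apply_apply]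
    let E := (RingHom.quotientKerEquivOfSurjective hψ).symm.trans (Ideal.quotEquivOfEq hk)
    have hE' : ∀ x, E (ψ x) = Ideal.Quotient.mk _ x := fun x => by
      have : (RingHom.quotientKerEquivOfSurjective hψ).symm (ψ x) = Ideal.Quotient.mk _ x :=
        (RingEquiv.symm_apply_eq _).2 rfl
      change Ideal.quotEquivOfEq hk ((RingHom.quotientKerEquivOfSurjective hψ).symm (ψ x)) = _
      rw [this]; rfl
    have e2 : (Ideal.Quotient.mk (Ideal.span (Set.range fun i : Fin (c + 1) =>
        (X (Fin.natAdd n i) : PS W (n + (c + 1)))))).comp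
          (Ξ.symm.toRingHom.comp (MvPowerSeries.map σ)) =
        E.toRingHom.comp (MvPowerSeries.map (cc.comp σ)) := by
      ext1 a
      change Ideal.Quotient.mk _ (Ξ.symm (MvPowerSeries.map σ a)) = E _
      rw [← hE', MvPowerSeries.map_comp]
      change E (MvPowerSeries.map cc (Ξ (Ξ.symm _))) = _
      rw [Ξ.apply_symm_apply]; rfl
    rw [e2]
    exact (flat' _ _ (flat_dvr hC.max hpW _)).comp (RingHom.Flat.of_bijective E.bijective)
  · let ψ : PS W (n + (c + 1)) →+* PS (ResidueField W) (c + 1) :=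
      (MvPowerSeries.map (residue W)).comp (constantCoeff.comp Ξ.toRingHom)
    have hψ : Function.Surjective ψ :=
      (map_surj _ residue_surjective).comp
        (Function.Surjective.comp (g := constantCoeff (σ := Fin n) (R := PS W (c + 1)))
          (fun a => ⟨C a, rfl⟩) Ξ.surjective)
    have hr : RingHom.ker (MvPowerSeries.map (σ := Fin (c + 1)) (residue W)) =
        Ideal.span (Set.range fun _ : Unit => C (p : W)) :=
      ker_map _ (fun _ : Unit => (p : W)) (by rw [ker_residue, hW.max, Set.range_const])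
    rw [Set.range_const, map_natCast] at hr
    set J := (mv p V (Fin n)).map (Ξ.symm.toRingHom.comp (MvPowerSeries.map σ)) with hJ
    have hk : RingHom.ker ψ = J := by
      refine le_antisymm (fun x hx => ?_) (Ideal.map_le_iff_le_comap.2 (Ideal.span_le.2 ?_))
      · have hx1 : constantCoeff (Ξ x) ∈ Ideal.span {(p : PS W (c + 1))} := hr ▸ hx
        obtain ⟨b, hb⟩ := Ideal.mem_span_singleton'.1 hx1
        have hx2 : Ξ x - C (constantCoeff (Ξ x)) ∈ vx (PS W (c + 1)) n := by
          rw [mem_vx]; simp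
        have hv : vx (PS W (c + 1)) n ≤ J.comap Ξ.symm.toRingHom := by
          refine Ideal.span_le.2 ?_
          rintro _ ⟨i, rfl⟩
          have := Ideal.mem_map_of_mem (Ξ.symm.toRingHom.comp (MvPowerSeries.map σ))
            (Ideal.subset_span (Set.mem_insert_of_mem _ ⟨i, rfl⟩) : X i ∈ mv p V (Fin n))
          change Ξ.symm (MvPowerSeries.map σ (X i)) ∈ J at this
          rwa [map_X] at this
        have hp : (p : PS W (n + (c + 1))) ∈ J := by
          have := Ideal.mem_map_of_mem (Ξ.symm.toRingHom.comp (MvPowerSeries.map σ))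
            (Ideal.subset_span (Set.mem_insert _ _) : (p : PS V n) ∈ mv p V (Fin n))
          rwa [map_natCast] at this
        have h3 : Ξ.symm (Ξ x - C (constantCoeff (Ξ x))) ∈ J := hv hx2
        rw [map_sub, Ξ.symm_apply_apply, ← hb, map_mul, map_mul, map_natCast, map_natCast] at h3
        have := add_mem h3 (J.mul_mem_left (Ξ.symm (C b)) hp)
        rwa [sub_add_cancel] at this
      · rintro _ (rfl | ⟨i, rfl⟩)
        · change ψ ((Ξ.symm.toRingHom.comp (MvPowerSeries.map σ)) p) = 0
          rw [map_natCast, map_natCast, ← map_natCast (MvPowerSeries.map (residue W)),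
            ← RingHom.mem_ker, hr]
          exact Ideal.subset_span rfl
        · change ψ ((Ξ.symm.toRingHom.comp (MvPowerSeries.map σ)) (X i)) = 0
          rw [hg]
          change MvPowerSeries.map (residue W) (constantCoeff (Ξ _)) = 0
          rw [h1, constantCoeff_X, map_zero]
    exact ⟨(RingHom.quotientKerEquivOfSurjective hψ).symm.trans (Ideal.quotEquivOfEq hk)⟩

end Vale.Agent.P202.Mx
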