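import Vale.Agent.P202.M.SpecE
import Vale.Agent.P202.DomB

/-! The inequality for a quotient of finite projective dimension, generic layer. -/

open Finset Matrix MvPowerSeries Filter Topology IsLocalRing
open scoped Kronecker Nat

namespace Vale.Agent.P202.Mx

universe u

namespace Dmm

open Db

section mp
variable {Λ T : Type u} [CommRing Λ] [CommRing T] {ι ι' ι'' : Type} (Φ : T →+ Λ)

theorem mp_add (M N : Matrix ι' ι T) : (M + N).map Φ = M.map Φ + N.map Φ := by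
  ext x y; simp

theorem mp_zero : (0 : Matrix ι' ι T).map Φ = 0 := by
  ext x y; simp

theorem mp_sum {γ : Type*} (s : Finset γ) (M : γ → Matrix ι' ι T) :
    (∑ j ∈ s, M j).map Φ = ∑ j ∈ s, (M j).map Φ := by
  ext x y; simp [Matrix.sum_apply]

theorem mp_gr {d : ι → ℕ} {d' : ι' → ℕ} {j : ℤ} {M : Matrix ι' ι T} (h : Gr d d' j M) :
    Gr d d' j (M.map Φ) := h.map _ (map_zero Φ)

theorem mp_kos {β : Type} [Fintype β] [DecidableEq β] (Y : β → Matrix ι ι T) (d : Matrix ι ι T) :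
    (KosC Y d).map Φ = KosC (fun l => (Y l).map Φ) (d.map Φ) := by
  ext ⟨I, i⟩ ⟨J, j⟩
  have : ∀ (R : Type u) [CommRing R], sgn R β I J = (sgn ℤ β I J : ℤ) := fun R _ => by
    simp [sgn, diagonal_apply]
  simp only [KosC, Kos, Matrix.sum_apply, Matrix.add_apply, kroneckerMap_apply, map_apply,
    map_sum, map_add, this]
  simp only [← zsmul_eq_mul, map_zsmul]

theorem mp_sc [DecidableEq ι] (b : T) :
    (b • (1 : Matrix ι ι T)).map Φ = Φ b • (1 : Matrix ι ι Λ) := by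
  ext x y
  by_cases c : x = y <;> simp [c]

variable {Φ} {γ : Λ} (h : ∀ b b', Φ b * Φ b' = γ * Φ (b * b'))
include h

theorem mp_mul [Fintype ι'] (M : Matrix ι'' ι' T) (N : Matrix ι' ι T) :
    M.map Φ * N.map Φ = γ • (M * N).map Φ := by
  ext x y
  simp only [mul_apply, Matrix.smul_apply, map_apply, map_sum, smul_eq_mul, mul_sum, h]

variable [Fintype ι] [DecidableEq ι]

theorem mp_pow (M : Matrix ι ι T) (t : ℕ) :
    M.map Φ ^ (t + 1) = γ ^ t • (M ^ (t + 1)).map Φ := by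
  induction t with
  | zero => simp
  | succ t ih => rw [pow_succ, ih, smul_mul_assoc, mp_mul h, smul_smul, ← pow_succ, ← pow_succ]

theorem mp_dom (h1 : Φ 1 = γ) [Fintype ι'] [DecidableEq ι'] {d : ι → ℕ}
    {d' : ι' → ℕ} {D : Matrix ι ι T} {D' : Matrix ι' ι' T} (H : Dom 1 d D d' D') (t : ℕ) :
    Dom (γ ^ (t + 2)) d (D.map Φ) d' (D'.map Φ) := by
  obtain ⟨P, Q, H, h1', h2, h3, h4, h5, h6⟩ := H
  refine ⟨P.map Φ, γ ^ t • Q.map Φ, γ ^ t • H.map Φ, mp_gr _ h1',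
    (mp_gr _ h2).smul _, (mp_gr _ h3).smul _, ?_, ?_, ?_⟩
  · rw [mp_mul h, mp_mul h, h4]
  · rw [Matrix.mul_smul, Matrix.smul_mul, mp_mul h, mp_mul h, h5]
  · simp only [Matrix.mul_smul, Matrix.smul_mul, mp_mul h, ← smul_add, ← mp_add]
    rw [h6, mp_sc, h1, smul_smul, smul_smul, ← pow_succ, ← pow_succ]

omit [DecidableEq ι] in
theorem mp_comm {M N : Matrix ι ι T} (c : Commute M N) : Commute (M.map Φ) (N.map Φ) := by
  rw [Commute, SemiconjBy, mp_mul h, mp_mul h, c.eq]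

end mp

variable {Λ T : Type u} [CommRing Λ] [CommRing T] {d c : ℕ}
  {J : Ideal T} {ι : Type} [Fintype ι] [DecidableEq ι] {deg : ι → ℕ} {dF : Matrix ι ι T} {i0 : ι}
  (R : Rs J c deg dF i0) (y : Fin d → T) {t M ℓ : ℕ} {Φ : T →+ Λ} {γ : Λ}
  (h : ∀ b b', Φ b * Φ b' = γ * Φ (b * b')) {β : Type} {ξ : β → Λ}

/-- the transported Koszul matrices -/
noncomputable abbrev Yt (Φ : T →+ Λ) (ι : Type) [DecidableEq ι] (y : Fin d → T)
    (l : Fin d) : Matrix ι ι Λ := (y l • (1 : Matrix ι ι T)).map Φ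

include R h

theorem key {b : T} (hb : b ∈ J ⊔ Ideal.span (Set.range fun l => y l ^ (t + 1))) :
    ∃ (a : Fin d → T) (H : Matrix ι ι T), Gr deg deg 1 H ∧
      ∑ l, (a l • (1 : Matrix ι ι T)).map Φ * Yt Φ ι y l ^ (t + 1) +
        (dF.map Φ * γ ^ t • H.map Φ + γ ^ t • H.map Φ * dF.map Φ) =
      (γ ^ (t + 1) * Φ b) • (1 : Matrix ι ι Λ) := by
  obtain ⟨a, H, h1, h2⟩ := dec R _ hb
  refine ⟨a, H, h1, ?_⟩
  rw [← smul_smul, ← mp_sc, ← h2, mp_add, mp_add, mp_sum, smul_add, smul_add, smul_sum,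
    Matrix.mul_smul, Matrix.smul_mul, mp_mul h, mp_mul h, smul_smul, smul_smul, ← pow_succ]
  congr 1
  refine sum_congr rfl fun l _ => ?_
  rw [mp_pow h, Matrix.mul_smul, mp_mul h, smul_smul, ← pow_succ, smul_pow, one_pow]

theorem com (hd : d + c ≤ ℓ) (hX : ∀ j, ∃ b ∈ J ⊔ Ideal.span (Set.range fun l => y l ^ (t + 1)),
    ∃ z, z * Φ b = γ * ξ j ^ M) :
    ComG ξ (γ ^ (t + 3)) M ℓ (t + 1) deg (Yt Φ ι y) (dF.map Φ) := by
  have g0 : ∀ a : T, Gr deg deg 0 ((a • (1 : Matrix ι ι T)).map Φ) :=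
    fun a => mp_gr _ (Gr.one.smul a)
  refine ⟨fun a => by have := R.le a; omega, fun l => g0 _, mp_gr _ R.gr,
    by rw [mp_mul h, R.dd, mp_zero, smul_zero],
    fun i j => mp_comm h (sc_comm _ _), fun i => mp_comm h (sc_comm _ _), fun j => ?_⟩
  obtain ⟨b, hb, z, hz⟩ := hX j
  obtain ⟨a, H, h1, h2⟩ := key R y h hb
  refine ⟨fun l => (γ * z) • (a l • (1 : Matrix ι ι T)).map Φ,
    (γ * z) • γ ^ t • H.map Φ, fun l => (g0 _).smul _,
    ((mp_gr _ h1).smul _).smul _, fun l l' => (mp_comm h (sc_comm _ _)).smul_left _,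
    fun l => (mp_comm h (sc_comm _ _)).smul_left _,
    fun l => ((mp_comm h (sc_comm _ _).symm).smul_left _).smul_left _, ?_⟩
  rw [show γ ^ (t + 3) * ξ j ^ M = γ * z * (γ ^ (t + 1) * Φ b) by
    linear_combination (-γ ^ (t + 2)) * hz, ← smul_smul (γ * z), ← h2]
  simp only [Matrix.smul_mul, Matrix.mul_smul, smul_add, smul_sum]

theorem gd (hd : d + c ≤ ℓ) (hX : ∀ j, ∃ b ∈ J ⊔ Ideal.span (Set.range fun l => y l ^ (t + 1)),
    ∃ z, z * Φ b = γ * ξ j ^ M) {ι' : Type} [Fintype ι'] [DecidableEq ι']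
    {deg' : ι' → ℕ} {D : Matrix ι' ι' T} {P : Matrix (Finset (Fin d) × ι) ι' T}
    {Q : Matrix ι' (Finset (Fin d) × ι) T} (h1 : Gr deg' deg' (-1) D) (h2 : D * D = 0)
    (h3 : ∀ i', ∃ i : Finset (Fin d) × ι, deg' i' = kc deg i) (hP : Gr deg' (kc deg) 0 P)
    (hQ : Gr (kc deg) deg' 0 Q) (h4 : KosC (fun l => y l • 1) dF * P = P * D)
    (h5 : D * Q = Q * KosC (fun l => y l • 1) dF) (h6 : Q * P = 1) :
    GdG ξ (γ ^ (t + 3)) M ℓ deg' (D.map Φ) := by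
  refine ⟨mp_gr _ h1, by rw [mp_mul h, h2, mp_zero, smul_zero], fun x => ?_, fun j => ?_⟩
  · obtain ⟨i, hi⟩ := h3 x
    have := R.le i.2
    have := card_le_univ i.1
    simp only [kc, Fintype.card_fin] at *
    omega
  obtain ⟨b, hb, z, hz⟩ := hX j
  obtain ⟨a, H, g1, g2⟩ := dec R _ hb
  have g3 := kosC_nul (fun l => y l • (1 : Matrix ι ι T)) (fun l => (a l * y l ^ t) • 1) dF H
    (fun _ _ => sc_comm _ _) (fun _ => sc_comm _ _) fun _ => (sc_comm _ _).symm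
  have g4 : Gr (kc deg) (kc deg) 1 (∑ l, ep T l ⊗ₖ ((a l * y l ^ t) • (1 : Matrix ι ι T)) +
      sgn T (Fin d) ⊗ₖ H) := (Gr.sum univ fun l _ => (gr_ep' l).kron (Gr.one.smul _) (by simp)).add
    (gr_sgn.kron g1 (by simp))
  rw [show ∑ l, (a l * y l ^ t) • (1 : Matrix ι ι T) * y l • 1 = ∑ l, a l • 1 * y l ^ (t + 1) • 1 by
    simp [smul_smul, pow_succ, mul_comm, mul_left_comm], g2, kronecker_smul, one_kronecker_one] at g3
  generalize ∑ l, ep T l ⊗ₖ ((a l * y l ^ t) • (1 : Matrix ι ι T)) + sgn T (Fin d) ⊗ₖ H = H' at *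
  refine ⟨(γ ^ (t + 1) * z) • (Q * H' * P).map Φ,
    (mp_gr _ ((hQ.mul g4 (c := 1) (by simp)).mul hP (by simp))).smul _, ?_⟩
  have : D * (Q * H' * P) + Q * H' * P * D = b • 1 := by
    rw [← h6, ← Matrix.smul_mul, ← Matrix.mul_one Q, ← Matrix.mul_smul, ← g3, Matrix.mul_one,
      Matrix.mul_add, Matrix.add_mul, ← Matrix.mul_assoc, ← Matrix.mul_assoc, h5]
    simp only [Matrix.mul_assoc, h4]
  rw [Matrix.mul_smul, Matrix.smul_mul, mp_mul h, mp_mul h, ← smul_add, ← smul_add,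
    ← mp_add, this, mp_sc, smul_smul, smul_smul]
  congr 1
  linear_combination γ ^ (t + 2) * hz

omit R h in
/-- boundaries in degree zero -/
noncomputable def VV (K : Matrix (Finset (Fin d) × ι) (Finset (Fin d) × ι) Λ) (i0 : ι) : Ideal Λ :=
  (LinearMap.range K.mulVecLin).map (LinearMap.proj (∅, i0))

omit h in
theorem toBd {K : Matrix (Finset (Fin d) × ι) (Finset (Fin d) × ι) Λ}
    {v : Λ} (hv : v ∈ VV K i0) :
    ∃ w, ∀ i, kc deg i = 0 → i = (∅, i0) ∧ v = (K *ᵥ w) i := by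
  obtain ⟨_, ⟨w, rfl⟩, rfl⟩ := hv
  refine ⟨w, fun ⟨I, i⟩ hi => ?_⟩
  simp only [kc, Nat.add_eq_zero_iff, card_eq_zero, R.zero] at hi
  obtain ⟨rfl, rfl⟩ := hi
  exact ⟨rfl, rfl⟩

theorem bnd {b : T} (hb : b ∈ J ⊔ Ideal.span (Set.range fun l => y l ^ (t + 1))) :
    γ ^ (t + 1) * Φ b ∈ VV (KosC (fun l => Yt Φ ι y l ^ (t + 1)) (dF.map Φ)) i0 := by
  obtain ⟨a, H, h1, h2⟩ := key R y h hb
  let w' : ι → Λ := Pi.single i0 1
  have h0 : (H * dF) i0 i0 = 0 := sum_eq_zero fun i _ => by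
    by_cases e : H i0 i = 0
    · simp [e]
    · have := h1 _ _ e
      rw [(R.zero i0).2 rfl] at this
      omega
  refine ⟨_, ⟨_, rfl⟩, (kosC_zero _ _ (fun l => (a l • (1 : Matrix ι ι T)).map Φ *ᵥ w')
    ((γ ^ t • H.map Φ) *ᵥ w') i0).trans ?_⟩
  have e : ∀ l, Yt Φ ι y l ^ (t + 1) * (a l • (1 : Matrix ι ι T)).map Φ =
      (a l • (1 : Matrix ι ι T)).map Φ * Yt Φ ι y l ^ (t + 1) := fun l =>
    ((mp_comm h (sc_comm (a l) (y l • 1))).pow_right _).eq.symm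
  have := congrFun (congrFun h2 i0) i0
  rw [Matrix.smul_mul, mp_mul h H] at this
  simp only [Matrix.add_apply, Matrix.sum_apply, Matrix.smul_apply, map_apply, h0, map_zero,
    add_zero, one_apply_eq, smul_eq_mul, mul_one, mul_zero] at this
  simp only [mulVec_mulVec, e]
  simp only [w', mulVec_single_one, col_apply, ← this]

theorem bz {z : Λ} (hz : z ∈ Ideal.span {z | ∃ b ∈ J ⊔ Ideal.span (Set.range fun l => y l ^ (t + 1)),
    γ * z = Φ b}) : γ ^ (t + 3) * z ∈ VV (KosC (fun l => Yt Φ ι y l ^ (t + 1)) (dF.map Φ)) i0 := by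
  refine Submodule.mem_comap.1 ((show _ ≤ Submodule.comap (LinearMap.mul Λ Λ (γ ^ (t + 3))) _ from
    Ideal.span_le.2 ?_) hz)
  rintro z ⟨b, hb, e⟩
  have := Ideal.mul_mem_left _ γ (bnd R y h hb)
  rwa [← e, show γ * (γ ^ (t + 1) * (γ * z)) = γ ^ (t + 3) * z by ring] at this

theorem ba {A : Type u} [CommRing A] (ε : A →+* Λ) {a : A} (ha : a ∈ Ideal.span
    {a | ∃ b ∈ J ⊔ Ideal.span (Set.range fun l => y l ^ (t + 1)), γ * ε a = Φ b}) :
    γ ^ (t + 3) * ε a ∈ VV (KosC (fun l => Yt Φ ι y l ^ (t + 1)) (dF.map Φ)) i0 := by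
  refine bz R y h (Ideal.mem_comap.1 ((show _ ≤ Ideal.comap ε _ from Ideal.span_le.2 ?_) ha))
  exact fun a ha => Ideal.subset_span ha

omit R h in
/-- the preimage of an ideal under a coordinate -/
def cp {σ : Type} (i : σ) (N : Ideal Λ) : Submodule Λ (σ → Λ) :=
  Submodule.comap (LinearMap.proj i : (σ → Λ) →ₗ[Λ] Λ) N

omit R h in
theorem len {V : Type u} [CommRing V] [Algebra V Λ] {σ : Type} (i : σ) (N : Ideal Λ) :
    Module.length V ((σ → Λ) ⧸ cp i N) ≤ Module.length V (Λ ⧸ N) := by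
  let f := (cp i N).mapQ N (LinearMap.proj i) le_rfl
  refine Module.length_le_of_injective (f.restrictScalars V) ?_
  have : LinearMap.ker f = ⊥ :=
    (Submodule.ker_mapQ (cp i N) N _ _).trans (Submodule.mkQ_map_self _)
  exact LinearMap.ker_eq_bot (f := f).1 this

end Dmm

open Dmm in
theorem dmStmt (hK : KcStmt.{u}) : DmStmt.{u} := by
  intro T _ m J c d N ι _ _ deg dF i0 y β xT hd hm hu R hJ hy hN
  have : Nonempty (Fin d) := ⟨⟨0, hd⟩⟩
  have gk : Gr (kc deg) (kc deg) (-1) (KosC (fun l => y l • 1) dF) :=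
    kosC_gr (fun l => Gr.one.smul _) R.gr
  obtain ⟨ι', _, _, deg', D, P, Q, H, m1, m2, m3, m4, m5, m6, m7, m8, m9, m10, m11, m12⟩ :=
    minStmt T m hu _ _ _ gk
      (kosC_sq (fun _ _ => Db.sc_comm _ _) (fun _ => Db.sc_comm _ _) R.dd)
  obtain ⟨j0, hj⟩ := Db.exz R y hm hJ hy m6 m8 ((add_assoc _ _ _).symm.trans m12)
  refine ⟨6 * (2 ^ d * Fintype.card ι) + 2 * Fintype.card ι', ?_⟩
  intro t q V A Λ _ _ _ _ _ ε z0 𝔬 ξ γ ℓ f x F η η' y' Φ ht hdc E h h1 hξ ho 𝔑 lam I0 lam' n1 n2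
    n3 n4
  obtain ⟨t, rfl⟩ : ∃ t', t = t' + 1 := ⟨t - 1, by omega⟩
  have hX : ∀ j, ∃ b ∈ J ⊔ Ideal.span (Set.range fun l => y l ^ (t + 1)),
      ∃ z, z * Φ b = γ * ξ j ^ (N * d * (t + 1) * q) := fun j => by
    obtain ⟨a, ha, e⟩ := hξ j
    have e' : ∀ n : ℕ, Φ (xT j ^ n) = ξ j ^ (a * n) * γ := fun n => by
      induction n with
      | zero => simp [h1]
      | succ n ih => rw [pow_succ', e, ih]; ring
    have hle : a * (N * (d * t + 1)) ≤ N * d * (t + 1) * q := by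
      have : d * t + 1 ≤ d * (t + 1) := by nlinarith
      rw [mul_comm a, mul_assoc N d]
      exact Nat.mul_le_mul (Nat.mul_le_mul_left _ this) ha
    refine ⟨_, Db.powX y (hN j), ξ j ^ (N * d * (t + 1) * q - a * (N * (d * t + 1))), ?_⟩
    rw [e', ← mul_assoc, ← pow_add, Nat.sub_add_cancel hle, mul_comm]
  obtain ⟨k1, k2, k3⟩ := hK Λ β ξ _ _ ℓ (t + 1) d ι deg _ _ ht (com R y h hdc hX)
  have k3 := k3 f η E.toEu12
  have g := gd R y h hdc hX m1 m2 m4 m6 m7 m9 m10 m11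
  have d1 := mp_dom h h1
    (⟨Q, P, H, m7, m6, m8, m10, m9, by rw [m12, one_smul]⟩ : Dom 1 (kc deg) _ deg' D) (t + 1)
  have d2 := mp_dom h h1
    (⟨P, Q, 0, m6, m7, Gr.zero, m9, m10, by simp [m11]⟩ : Dom 1 deg' D (kc deg) _) (t + 1)
  rw [mp_kos] at d1 d2
  have a1 := E.e1 _ _ _ _ _ _ g k1 d2 d1
  have a4 := E.e4 _ _ _ g (fun i j => ho _ (m3 i j)) (by rw [m5, kc_sum])
  have a5 := E.e5 _ _ _ k2 (cp (∅, i0) 𝔑) lam (fun a ha => by
      obtain ⟨w, hw⟩ := toBd R (bz R y h (n1 ha))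
      exact ⟨w, fun i hi => by rw [← (hw i hi).2, (hw i hi).1]; rfl⟩)
    ((len _ _).trans n2) I0 lam' (fun a ha i1 h1 => by
      obtain ⟨w, hw⟩ := toBd R (ba R y h ε (n3 ha))
      exact ⟨w, fun i hi => by rw [← (hw i hi).2, (hw i hi).1, (hw i1 h1).1, if_pos rfl]⟩) n4
  have h5 : (1 : ℤ) ≤ #{i : ι' | deg' i = 0} := by
    exact_mod_cast card_pos.2 ⟨j0, by simpa using hj⟩
  simp only [Fintype.card_prod, Fintype.card_finset, Fintype.card_fin] at a1 a5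
  have a1 := (abs_le.1 a1).2
  have k3 := (abs_le.1 k3).1
  zify
  push_cast at a1 a4 a5 k3 ⊢
  have p1 : (0 : ℤ) ≤ ((t : ℤ) + 1) ^ d := by positivity
  have p2 : (x : ℤ) ≤ #{i : ι' | deg' i = 0} * x := le_mul_of_one_le_left (by positivity) h5
  have p3 := mul_le_mul_of_nonneg_left (p2.trans a4) p1
  have p4 := mul_le_mul_of_nonneg_left a1 p1
  have p5 : (0 : ℤ) ≤ (5 * (2 ^ d * Fintype.card ι) + 2 * Fintype.card ι') * (η' + y' * lam') := by
    positivity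
  linarith

end Vale.Agent.P202.Mx
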