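import Vale.Agent.P202.M.SpecE
import Vale.Agent.P202.E5

/-! Shared lemmas for the modules E5 and G. -/

open Finset Matrix MvPowerSeries Filter Topology IsLocalRing
open scoped Kronecker Nat

namespace Vale.Agent.P202.Mx.E5x

universe u

section rl
variable {k : Type*} [CommRing k] {E E' : Type*} [AddCommGroup E] [Module k E] [AddCommGroup E']
  [Module k E']

theorem rl_eq_zero {P Q : Submodule k E} : rl P Q = 0 ↔ Q ≤ P := by
  rw [rl, Module.length_eq_zero_iff, Submodule.subsingleton_iff_eq_bot, eq_bot_iff,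
    Submodule.map_le_iff_le_comap, Submodule.comap_bot, Submodule.ker_mkQ]

theorem rl_le_of_map (f : E →ₗ[k] E') {P Q : Submodule k E} {P' Q' : Submodule k E'}
    (h : ∀ x ∈ P, f x ∈ P') (h' : Q' ≤ P' ⊔ Q.map f) : rl P' Q' ≤ rl P Q := by
  let F := P.mapQ P' f h
  have : Q'.map P'.mkQ ≤ (Q.map P.mkQ).map F := by
    rintro _ ⟨y, hy, rfl⟩
    obtain ⟨a, ha, _, ⟨x, hx, rfl⟩, rfl⟩ := Submodule.mem_sup.1 (h' hy)
    refine ⟨P.mkQ x, ⟨x, hx, rfl⟩, ?_⟩
    simp [F, (Submodule.Quotient.mk_eq_zero _).2 ha]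
  refine (Module.length_le_of_injective _ (Submodule.inclusion_injective this)).trans ?_
  exact Module.length_le_of_surjective _ (F.submoduleMap_surjective _)

theorem rl_mono {P Q P' Q' : Submodule k E} (h : P ≤ P') (h' : Q' ≤ P' ⊔ Q) :
    rl P' Q' ≤ rl P Q :=
  rl_le_of_map LinearMap.id h (by simpa using h')

theorem rl_add {P Q R : Submodule k E} (h : P ≤ Q) (h' : Q ≤ R) : rl P R = rl P Q + rl Q R := by
  let F := P.mapQ Q LinearMap.id h
  have hm : (R.map P.mkQ).map F = R.map Q.mkQ := by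
    rw [← Submodule.map_comp]; congr 1
  unfold rl
  rw [← hm]
  refine Module.length_eq_add_of_exact (Submodule.inclusion (Submodule.map_mono h'))
    (F.submoduleMap _) (Submodule.inclusion_injective _) (F.submoduleMap_surjective _) ?_
  rintro ⟨_, x, hx, rfl⟩
  constructor
  · intro e
    have : x ∈ Q := by simpa [F, Subtype.ext_iff] using e
    exact ⟨⟨_, x, this, rfl⟩, rfl⟩
  · rintro ⟨⟨_, y, hy, rfl⟩, e⟩
    rw [← e]
    simpa [F, Subtype.ext_iff] using hy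

theorem rl_le_add (P Q R : Submodule k E) : rl P R ≤ rl P Q + rl Q R := by
  calc rl P R ≤ rl P (P ⊔ Q ⊔ R) := rl_mono le_rfl (le_sup_right.trans le_sup_right)
    _ = rl P (P ⊔ Q) + rl (P ⊔ Q) (P ⊔ Q ⊔ R) := rl_add le_sup_left le_sup_left
    _ ≤ _ := add_le_add (rl_mono le_rfl le_rfl) (rl_mono le_sup_right le_rfl)

theorem rl_sup_le (P Q R : Submodule k E) : rl P (Q ⊔ R) ≤ rl P Q + rl P R :=
  (rl_le_add P (P ⊔ Q) _).trans (add_le_add (rl_mono le_rfl le_rfl)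
    (rl_mono le_sup_left (sup_le_sup_right le_sup_right _)))

theorem rl_iSup_le {γ : Type*} [Fintype γ] (P : Submodule k E) (Q : γ → Submodule k E) :
    rl P (⨆ i, Q i) ≤ ∑ i, rl P (Q i) := by
  classical
  have : ∀ s : Finset γ, rl P (s.sup Q) ≤ ∑ i ∈ s, rl P (Q i) := fun s => by
    induction s using Finset.induction_on with
    | empty => simp [rl_eq_zero]
    | insert a s ha ih =>
      rw [sup_insert, sum_insert ha]
      exact (rl_sup_le _ _ _).trans (add_le_add le_rfl ih)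
  simpa [Finset.sup_eq_iSup] using this univ

theorem rl_top (P : Submodule k E) : rl P ⊤ = Module.length k (E ⧸ P) := by
  rw [rl, Submodule.map_top, Submodule.range_mkQ, Module.length_top]

theorem cl_eq {A M : Type*} [CommRing A] [Algebra k A] [AddCommGroup M] [Module A M] [Module k M]
    [IsScalarTower k A M] (N : Submodule A M) :
    Module.length k (M ⧸ N) = rl (N.restrictScalars k) ⊤ := by
  rw [rl_top, (Submodule.Quotient.restrictScalarsEquiv k N).length_eq]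

theorem hh0 (D g : Module.End k E) (X X' : ℤ → Submodule k E) (n : ℤ) :
    hh D g 0 X X' n = rl (Bc D X X' n) (Zc D X X' n) := by
  simp [hh, Module.End.one_eq_id]

theorem chi_le (D g : Module.End k E) (c R : ℕ)
    (X X' : ℤ → Submodule k E) (H K : ℕ) (h0 : hh D g c X X' 0 ≤ H)
    (h1 : ∀ n, n ≠ 0 → hh D g c X X' n ≤ K) : chi D g c R X X' ≤ H + (2 * R + 1) * K := by
  unfold chi
  refine (sum_le_sum (g := fun n => (if n = 0 then (H : ℤ) else 0) + K) fun n _ => ?_).trans ?_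
  · have h2 : ((n.negOnePow : ℤˣ) : ℤ) * (hh D g c X X' n).toNat ≤ (hh D g c X X' n).toNat := by
      rcases Int.units_eq_one_or n.negOnePow with e | e <;> rw [e] <;> simp
    refine h2.trans ?_
    split_ifs with e
    · have := ENat.toNat_le_of_le_natCast (e ▸ h0)
      omega
    · have := ENat.toNat_le_of_le_natCast (h1 n e)
      omega
  · rw [sum_add_distrib, sum_ite_eq', if_pos (by simp), sum_const, Int.card_Icc, nsmul_eq_mul]
    have : (((R : ℤ) + 1 - -R).toNat : ℤ) = 2 * R + 1 := by omega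
    rw [this]

end rl

section pv
variable {V : Type u} [CommRing V] {r : ℕ} {v : V}

theorem mem_Pv {S : Set (Mon r)} {f : LL V r} : f ∈ Pv v S ↔
    ∀ e', coeff e' f = 0 ∨ ∃ e ∈ S, e.some = e' ∧ v ^ e none ∣ coeff e' f := by
  classical
  simp only [Pv, Submodule.mem_iInf, Submodule.mem_comap]
  refine forall_congr' fun e' => ⟨fun h => ?_, fun h => ?_⟩
  · by_cases c : ∃ m, ∃ e ∈ S, e.some = e' ∧ e none = m
    · obtain ⟨e, he, h1, h2⟩ := Nat.find_spec c
      refine Or.inr ⟨e, he, h1, Ideal.mem_span_singleton.1 (Ideal.span_le.2 ?_ h)⟩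
      rintro _ ⟨e1, ⟨a1, a2⟩, rfl⟩
      exact Ideal.mem_span_singleton.2
        (pow_dvd_pow v (h2.le.trans (Nat.find_min' c ⟨e1, a1, a2, rfl⟩)))
    · left
      have : {e | e ∈ S ∧ e.some = e'} = ∅ :=
        Set.eq_empty_of_forall_notMem fun e he => c ⟨_, e, he.1, he.2, rfl⟩
      simpa [this] using h
  · rcases h with h | ⟨e, he, h1, t, h2⟩
    · rw [h]
      exact zero_mem _
    · rw [h2]
      exact Ideal.mul_mem_right _ _ (Ideal.subset_span ⟨e, ⟨he, h1⟩, rfl⟩)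

theorem coeff_mem {S : Set (Mon r)} {f : LL V r} : f ∈ Pv v S ↔ ∀ e', coeff e' f ∈
    (Ideal.span ((fun e : Mon r => v ^ e none) '' {e | e ∈ S ∧ e.some = e'}) : Ideal V) := by
  simp only [Pv, Submodule.mem_iInf, Submodule.mem_comap]

theorem Pv_mono {S T : Set (Mon r)} (h : S ⊆ T) : Pv v S ≤ Pv v T := fun _ hf =>
  mem_Pv.2 fun e' => (mem_Pv.1 hf e').imp_right fun ⟨e, h1, h2⟩ => ⟨e, h h1, h2⟩

theorem mul_mem_Pv {S T U : Set (Mon r)} {f g : LL V r} (hf : f ∈ Pv v S)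
    (hg : g ∈ Pv v T) (h : ∀ a ∈ S, ∀ b ∈ T, a + b ∈ U) : f * g ∈ Pv v U := by
  classical
  refine coeff_mem.2 fun e' => ?_
  rw [coeff_mul]
  refine sum_mem fun p hp => ?_
  rcases mem_Pv.1 hf p.1 with c | ⟨a, ha, a1, x, a2⟩
  · simp [c]
  rcases mem_Pv.1 hg p.2 with c | ⟨b, hb, b1, y, b2⟩
  · simp [c]
  have : coeff p.1 f * coeff p.2 g = v ^ (a + b) none * (x * y) := by
    rw [a2, b2, Finsupp.add_apply, pow_add]
    ring
  rw [this]
  refine Ideal.mul_mem_right _ _ (Ideal.subset_span ⟨a + b, ⟨h a ha b hb, ?_⟩, rfl⟩)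
  rw [Finsupp.some_add, a1, b1, mem_antidiagonal.1 hp]

theorem intCast_mul_mem_Pv {S : Set (Mon r)} {f : LL V r} (hf : f ∈ Pv v S) (z : ℤ) :
    (z : LL V r) * f ∈ Pv v S := by
  rw [← zsmul_eq_mul]; exact zsmul_mem hf z

theorem Pv_empty {f : LL V r} (hf : f ∈ Pv v ∅) : f = 0 := by
  ext e'
  rcases mem_Pv.1 hf e' with c | ⟨e, he, -⟩
  · simpa using c
  · exact he.elim

theorem Pv_union (S T : Set (Mon r)) : Pv v (S ∪ T) ≤ Pv v S ⊔ Pv v T := by
  classical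
  intro f hf
  let g : LL V r := fun e' =>
    if ∃ e ∈ S, e.some = e' ∧ v ^ e none ∣ coeff e' f then coeff e' f else 0
  have hg : ∀ e', coeff e' g =
      if ∃ e ∈ S, e.some = e' ∧ v ^ e none ∣ coeff e' f then coeff e' f else 0 := fun _ => rfl
  refine Submodule.mem_sup.2 ⟨g, mem_Pv.2 fun e' => ?_, f - g, mem_Pv.2 fun e' => ?_, by abel⟩
  · rw [hg]
    split_ifs with c
    exacts [Or.inr c, Or.inl rfl]
  · rw [map_sub, hg]
    split_ifs with c
    · exact Or.inl (sub_self _)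
    · rw [sub_zero]
      refine (mem_Pv.1 hf e').imp_right fun ⟨e, h1, h2⟩ => ⟨e, h1.resolve_left fun d => ?_, h2⟩
      exact c ⟨e, d, h2⟩

theorem Pv_cover {γ : Type*} (s : Finset γ) (A : γ → Set (Mon r)) (Z : Submodule V (LL V r))
    (hA : ∀ i ∈ s, Pv v (A i) ≤ Z) (S : Set (Mon r)) (h : ∀ e ∈ S, ∃ i ∈ s, e ∈ A i) :
    Pv v S ≤ Z := by
  classical
  induction s using Finset.induction_on generalizing S with
  | empty =>
    intro f hf
    rw [Pv_empty (Pv_mono (fun e he => by simpa using h e he) hf)]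
    exact zero_mem _
  | insert a s ha ih =>
    refine (Pv_mono (T := A a ∪ {e | ∃ i ∈ s, e ∈ A i}) fun e he => ?_).trans
      ((Pv_union _ _).trans (sup_le (hA a (mem_insert_self _ _))
        (ih (fun i hi => hA i (mem_insert_of_mem hi)) _ fun e he => he)))
    obtain ⟨i, hi, h1⟩ := h e he
    rcases mem_insert.1 hi with rfl | hi
    exacts [Or.inl h1, Or.inr ⟨i, hi, h1⟩]

/-- the monomial `v ^ m z ^ e'` -/
noncomputable def mn (v : V) (e : Mon r) : LL V r := monomial e.some (v ^ e none)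

theorem mn_mul (e e' : Mon r) : mn v e * mn v e' = mn v (e + e') := by
  rw [mn, mn, mn, monomial_mul_monomial, Finsupp.some_add, Finsupp.add_apply, pow_add]

theorem mn_zero : mn v (0 : Mon r) = 1 := by
  simp [mn]

theorem mn_pow (e : Mon r) (n : ℕ) : mn v e ^ n = mn v (n • e) := by
  induction n with
  | zero => simp [mn_zero]
  | succ n ih => rw [pow_succ, ih, mn_mul, succ_nsmul]

theorem mn_none (n : ℕ) : mn v (Finsupp.single none n : Mon r) = C v ^ n := by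
  simp [mn]

theorem mn_some (a : Fin r) : mn v (Finsupp.single (some a) 1 : Mon r) = X a := by
  simp [mn, X_def]

theorem mn_mem {S : Set (Mon r)} {e : Mon r} (he : e ∈ S) : mn v e ∈ Pv v S := by
  refine mem_Pv.2 fun e' => ?_
  by_cases c : e' = e.some
  · subst c
    exact Or.inr ⟨e, he, rfl, by simp [mn]⟩
  · exact Or.inl (coeff_monomial_ne c _)

theorem mu_pow (I : Finset (Fin r)) (n : ℕ) : mu v I ^ n = mn v (n • Gh.mI I) := by
  classical
  have h : ∀ s : Finset (Fin r), ∏ a ∈ s, (X a : LL V r) =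
      mn v (∑ a ∈ s, Finsupp.single (some a) 1) := fun s => by
    induction s using Finset.induction_on with
    | empty => simp [mn_zero]
    | insert a s ha ih => rw [prod_insert ha, sum_insert ha, ← mn_mul, ih, mn_some]
  rw [← mn_pow, mu, Gh.mI, ← mn_mul, mn_none, pow_one, h]

theorem coeff_mn_mul (d : Mon r) (g : LL V r) (e' : Fin r →₀ ℕ) :
    coeff (e' + d.some) (mn v d * g) = v ^ d none * coeff e' g := by
  rw [mn, add_comm, coeff_add_monomial_mul]

/-- division by a monomial -/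
theorem exists_div {S T : Set (Mon r)} {f : LL V r} (d : Mon r) (hf : f ∈ Pv v S)
    (h : ∀ e ∈ S, d ≤ e ∧ e - d ∈ T) : ∃ g ∈ Pv v T, f = mn v d * g := by
  classical
  have key : ∀ e' : Fin r →₀ ℕ, ∃ x : V, coeff (e' + d.some) f = v ^ d none * x ∧
      (x = 0 ∨ ∃ e ∈ T, e.some = e' ∧ v ^ e none ∣ x) := fun e' => by
    rcases mem_Pv.1 hf (e' + d.some) with c | ⟨e, he, h1, t, h2⟩
    · exact ⟨0, by simp [c], Or.inl rfl⟩
    · obtain ⟨a1, a2⟩ := h e he
      refine ⟨v ^ (e none - d none) * t, ?_, Or.inr ⟨e - d, a2, ?_, Dvd.intro _ rfl⟩⟩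
      · rw [h2, ← mul_assoc, ← pow_add, Nat.add_sub_cancel' (a1 none)]
      · ext a
        have := DFunLike.congr_fun h1 a
        simp only [Finsupp.some_apply, Finsupp.add_apply, Finsupp.coe_tsub, Pi.sub_apply] at this ⊢
        omega
  choose g0 hg1 hg2 using key
  obtain ⟨g, hg⟩ : ∃ g : LL V r, ∀ e', coeff e' g = g0 e' := ⟨g0, fun _ => rfl⟩
  refine ⟨g, mem_Pv.2 fun e' => hg e' ▸ hg2 e', ?_⟩
  ext e'
  rw [mn, coeff_monomial_mul]
  split_ifs with c
  · have := hg1 (e' - d.some)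
    rwa [tsub_add_cancel_of_le c, ← hg] at this
  · rcases mem_Pv.1 hf e' with c' | ⟨e, he, rfl, -⟩
    · exact c'
    · exact absurd (fun a => (h e he).1 (some a)) c

theorem Pv_single (e : Mon r) {f : LL V r} (hf : f ∈ Pv v {e}) : ∃ c : V, f = c • mn v e := by
  rcases mem_Pv.1 hf e.some with c | ⟨_, rfl, -, t, ht⟩
  · refine ⟨0, ?_⟩
    ext e'
    rcases mem_Pv.1 hf e' with c' | ⟨_, rfl, rfl, -⟩
    · simpa using c'
    · simpa using c
  · rename_i e
    refine ⟨t, ?_⟩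
    ext e'
    by_cases c : e' = e.some
    · subst c
      simp [mn, ht, mul_comm]
    · rcases mem_Pv.1 hf e' with c' | ⟨_, rfl, h, -⟩
      · rw [c', map_smul, mn, coeff_monomial_ne c, smul_zero]
      · exact absurd h.symm c

theorem add_mem_SB {s t : ℕ} {a b : Mon r} (ha : a ∈ SB r s) (hb : b ∈ SB r t) :
    a + b ∈ SB r (s + t) :=
  ⟨add_le_add ha.1 hb.1, fun j => add_le_add (ha.2 j) (hb.2 j)⟩

theorem up_Om (N0 : ℕ) (ν : Fin r → ℤ) (N l : ℕ) : Up (Om N0 ν N l) := fun e he => by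
  have h0 := he.1
  refine ⟨by simp; omega, fun a => ?_⟩
  have := he.2 a
  simp only [Finsupp.add_apply, Finsupp.single_eq_same]
  rw [Finsupp.single_eq_of_ne (by simp)]
  push_cast
  omega

end pv

section cech
variable {V : Type u} [CommRing V] {r : ℕ} {v : V} {ι ι' ι'' : Type}

theorem mem_XX {deg : ι → ℕ} {Ω : ℕ → FJ r → Set (Mon r)} {n : ℤ} {x : ι × FJ r → LL V r} :
    x ∈ XX v deg Ω n ↔ ∀ i J, x (i, J) ∈
      Pv v {e | (deg i : ℤ) + r - J.card = n ∧ e ∈ Ω (deg i) J} :=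
  ⟨fun h i J => h (i, J) trivial, fun h p _ => h p.1 p.2⟩

theorem XX_mono {deg : ι → ℕ} {Ω Ω' : ℕ → FJ r → Set (Mon r)} (h : ∀ p J, Ω p J ⊆ Ω' p J) (n : ℤ) :
    XX v deg Ω n ≤ XX v deg Ω' n := fun _ hx =>
  mem_XX.2 fun i J => Pv_mono (fun _ he => And.intro he.1 (h _ _ he.2)) (mem_XX.1 hx i J)

theorem XS_mono {N0 : ℕ} {ν : Fin r → ℤ} {deg : ι → ℕ} {Ω Ω' : ℕ → Set (Mon r)}
    (h : ∀ p, Ω p ⊆ Ω' p) : XS v N0 ν deg Ω ≤ XS v N0 ν deg Ω' := fun n =>
  XX_mono (fun p _ => Set.inter_subset_inter_left _ (h p)) n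

theorem XF_mono {N0 : ℕ} {ν : Fin r → ℤ} {deg : ι → ℕ} {N N' : ℕ} {l l' : ℕ → ℕ} (h : N ≤ N')
    (h' : ∀ p, l' p ≤ l p) : XF v N0 ν N l deg ≤ XF v N0 ν N' l' deg :=
  XS_mono fun p => Om_mono h (h' p)

theorem XS_union {N0 : ℕ} {ν : Fin r → ℤ} {deg : ι → ℕ} {Ω Ω' : ℕ → Set (Mon r)} (n : ℤ) :
    XS v N0 ν deg (fun p => Ω p ∪ Ω' p) n ≤ XS v N0 ν deg Ω n ⊔ XS v N0 ν deg Ω' n := by
  intro x hx
  have key : ∀ p : ι × FJ r, ∃ y ∈ Pv v {e | (deg p.1 : ℤ) + r - p.2.card = n ∧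
      e ∈ Ω (deg p.1) ∩ cond N0 ν p.2}, ∃ z ∈ Pv v {e | (deg p.1 : ℤ) + r - p.2.card = n ∧
      e ∈ Ω' (deg p.1) ∩ cond N0 ν p.2}, y + z = x p := fun p => by
    refine Submodule.mem_sup.1 (Pv_union _ _ (Pv_mono ?_ (hx p trivial)))
    rintro e ⟨h1, h2 | h2, h3⟩
    exacts [Or.inl ⟨h1, h2, h3⟩, Or.inr ⟨h1, h2, h3⟩]
  choose y hy z hz e using key
  exact Submodule.mem_sup.2 ⟨y, fun p _ => hy p, z, fun p _ => hz p, funext e⟩

variable [Fintype ι] [DecidableEq ι]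

omit [DecidableEq ι] in
theorem LM_apply (P : Matrix ι' ι (LL V r)) (T : Matrix (FJ r) (FJ r) (LL V r))
    (x : ι × FJ r → LL V r) (i : ι') (J : FJ r) :
    LM P T x (i, J) = ∑ j, ∑ J', P i j * T J J' * x (j, J') := by
  simp [LM, mulVec, dotProduct, Fintype.sum_prod_type]

omit [DecidableEq ι] in
theorem LM_one_apply (P : Matrix ι' ι (LL V r)) (x : ι × FJ r → LL V r) (i : ι') (J : FJ r) :
    LM P 1 x (i, J) = ∑ j, P i j * x (j, J) := by
  simp [LM_apply, one_apply]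

omit [DecidableEq ι] in
theorem LM_sg_apply (P : Matrix ι' ι (LL V r)) (x : ι × FJ r → LL V r) (i : ι') (J : FJ r) :
    LM P (sg V r) x (i, J) = (-1) ^ J.card * ∑ j, P i j * x (j, J) := by
  simp [LM_apply, sg, diagonal_apply, mul_sum, mul_assoc, mul_left_comm]

theorem LM_cb_apply (x : ι × FJ r → LL V r) (i : ι) (J : FJ r) :
    LM 1 (cb V r) x (i, J) = ∑ b, ∑ J', (ct b J' J : LL V r) * x (i, J') := by
  rw [sum_comm]
  simp [LM_apply, one_apply, cb, Matrix.sum_apply, sum_mul]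

theorem cb_zero (x : ι × FJ r → LL V r) (i : ι) (J : FJ r)
    (h : ∀ J' ⊆ J, J.card = J'.card + 1 → x (i, J') = 0) : LM 1 (cb V r) x (i, J) = 0 := by
  rw [LM_cb_apply]
  refine sum_eq_zero fun b _ => sum_eq_zero fun J' _ => ?_
  by_cases c : ct b J' J = 0
  · simp [c]
  · rw [h J' (by rw [(ct_ne' c).2]; exact subset_insert _ _) (ct_card c), mul_zero]

theorem DD_eq (D : Matrix ι ι (LL V r)) (x : ι × FJ r → LL V r) :
    DD D x = LM D (sg V r) x + LM 1 (cb V r) x := rfl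

variable {N0 : ℕ} {ν : Fin r → ℤ} {deg : ι → ℕ} {deg' : ι' → ℕ}

omit [DecidableEq ι] in
theorem LM_one_mem {P : Matrix ι' ι (LL V r)} {j : ℤ} (hP : Gr deg deg' j P)
    {σ N : ℕ} (hσ : Ent v σ P) {l l' : ℕ → ℕ}
    (hl : ∀ p p' : ℕ, (p' : ℤ) = p + j → l' p' ≤ l p + σ) {n : ℤ} {x : ι × FJ r → LL V r}
    (hx : x ∈ XF v N0 ν N l deg n) : LM P 1 x ∈ XF v N0 ν N l' deg' (n + j) := by
  rintro ⟨i, J⟩ -
  rw [LM_one_apply]
  refine sum_mem fun b _ => ?_
  by_cases h : P i b = 0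
  · simp [h]
  have h1 := hP _ _ h
  refine mul_mem_Pv (hσ i b) (hx (b, J) trivial) fun a ha c hc => ?_
  exact ⟨by have := hc.1; simp only at this ⊢; omega, add_mem_Om ha hc.2.1 (hl _ _ h1),
    add_mem_cond ha hc.2.2⟩

omit [DecidableEq ι] in
theorem LM_sg_mem {P : Matrix ι' ι (LL V r)} {j : ℤ} (hP : Gr deg deg' j P)
    {σ N : ℕ} (hσ : Ent v σ P) {l l' : ℕ → ℕ}
    (hl : ∀ p p' : ℕ, (p' : ℤ) = p + j → l' p' ≤ l p + σ) {n : ℤ} {x : ι × FJ r → LL V r}
    (hx : x ∈ XF v N0 ν N l deg n) : LM P (sg V r) x ∈ XF v N0 ν N l' deg' (n + j) := by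
  rintro ⟨i, J⟩ -
  have := intCast_mul_mem_Pv (LM_one_mem hP hσ hl hx (i, J) trivial) ((-1) ^ J.card)
  rw [LM_sg_apply, ← LM_one_apply]
  simpa using this

theorem LM_cb_mem {Ω : ℕ → Set (Mon r)} {n : ℤ} {x : ι × FJ r → LL V r}
    (hx : x ∈ XS v N0 ν deg Ω n) : LM 1 (cb V r) x ∈ XS v N0 ν deg Ω (n - 1) := by
  rintro ⟨i, J⟩ -
  rw [LM_cb_apply]
  refine sum_mem fun b _ => sum_mem fun J' _ => ?_
  by_cases h : ct b J' J = 0
  · simp [h]
  refine intCast_mul_mem_Pv (Pv_mono ?_ (hx (i, J') trivial)) _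
  rintro e ⟨h1, h2, h3⟩
  have := ct_card h
  exact ⟨by simp only at h1 ⊢; omega, h2, cond_mono (by rw [(ct_ne' h).2]; exact subset_insert _ _) h3⟩

theorem XF_cxd {D : Matrix ι ι (LL V r)} (hD : Gr deg deg (-1) D) (hE : Ent v 0 D) (N l : ℕ) :
    CxD (DD D) (XF v N0 ν N (fun _ => l) deg) := fun _ _ hx =>
  add_mem (LM_sg_mem hD hE (fun _ _ _ => le_rfl) hx) (LM_cb_mem hx)

omit [Fintype ι] [DecidableEq ι] in
theorem slope_const {D : Matrix ι ι (LL V r)} (hE : Ent v 0 D) (c : ℕ) : Slope v D fun _ => c :=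
  ⟨antitone_const, 0, hE, by simp⟩

end cech

end Vale.Agent.P202.Mx.E5x
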