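import Vale.Agent.P202.M.E5a

open Finset Matrix MvPowerSeries Filter Topology IsLocalRing
open scoped Kronecker Nat

namespace Vale.Agent.P202.Mx.E5x

universe u

open E3m (cnt_le mon_ext typ_high typ_low JT JT_card mem_JT sub_JT sgm sgm_none sgm_some O2)

variable {V : Type u} [CommRing V] {r : ℕ} {v : V} {ι : Type} {deg : ι → ℕ}
  {Γ D : Matrix ι ι (LL V r)} {N0 O L u : ℕ} {ν : Fin r → ℤ}

/-- placing a vector in the chart set `JT` -/
noncomputable def pm (deg : ι → ℕ) (q : ℕ) : (ι → LL V r) →ₗ[V] (ι × FJ r → LL V r) where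
  toFun F p := if deg p.1 = q ∧ p.2 = JT r then F p.1 else 0
  map_add' F G := by
    ext1 p
    simp only [Pi.add_apply]
    split_ifs <;> simp
  map_smul' c F := by
    ext1 p
    simp only [Pi.smul_apply, RingHom.id_apply]
    split_ifs <;> simp

theorem pm_apply (q : ℕ) (F : ι → LL V r) (i : ι) (J : FJ r) : pm deg q F (i, J) =
    if deg i = q ∧ J = JT r then F i else 0 := rfl

theorem pm_congr {q : ℕ} {F G : ι → LL V r} (h : ∀ i, deg i = q → F i = G i) :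
    pm deg q F = pm deg q G := by
  ext1 ⟨i, J⟩
  rw [pm_apply, pm_apply]
  split_ifs with c
  exacts [h i c.1, rfl]

theorem mem_XF {N : ℕ} {l : ℕ → ℕ} {n : ℤ} {x : ι × FJ r → LL V r} :
    x ∈ XF v N0 ν N l deg n ↔ ∀ i J, x (i, J) ∈
      Pv v {e | (deg i : ℤ) + r - J.card = n ∧ e ∈ Om N0 ν N (l (deg i)) ∩ cond N0 ν J} :=
  mem_XX (Ω := fun p J => Om N0 ν N (l p) ∩ cond N0 ν J)

theorem pm_mem (q b : ℕ) {F : ι → LL V r} (hF : ∀ i, F i ∈ Pv v (Om N0 ν 0 b)) :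
    pm deg q F ∈ XF v N0 ν 0 (fun _ => b) deg q := by
  refine mem_XF.2 fun i J => ?_
  rw [pm_apply]
  split_ifs with c
  · refine Pv_mono (fun e h1 => ?_) (hF i)
    refine ⟨by rw [c.1, c.2, JT_card]; ring, h1, fun a => ⟨Or.inr (c.2 ▸ mem_JT.2 rfl),
      fun _ => ?_, fun _ => ?_⟩⟩
    · simpa using (h1.2 a).1
    · simpa using (h1.2 a).2
  · exact zero_mem _

theorem single_mem [DecidableEq ι] {S : Set (Mon r)} {f : LL V r} (hf : f ∈ Pv v S) (i i' : ι) :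
    (Pi.single i f : ι → LL V r) i' ∈ Pv v S := by
  by_cases c : i' = i
  · subst c
    simpa using hf
  · simp [c]

theorem sgm_mem (hN : N0 = O + L) (hν : ∀ a, (L : ℤ) ≤ ν a) : sgm r N0 O ∈ Om N0 ν 0 O := by
  refine ⟨le_rfl, fun a => ?_⟩
  have := hν a
  simp only [sgm_some, sgm_none]
  omega

theorem up_O2 (p : ℕ) : Up (O2 N0 O L ν p) := fun e he =>
  he.imp (up_Om _ _ _ _ e) (up_Om _ _ _ _ e)

/-- the flat subcomplex -/
noncomputable def Xb (v : V) (deg : ι → ℕ) (N0 O L : ℕ) (ν : Fin r → ℤ) :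
    ℤ → Submodule V (ι × FJ r → LL V r) :=
  XX v deg fun p J => (Om N0 ν O (O + L) ∪ {e | e ∈ O2 N0 O L ν p ∧ ∃ a, (a, false) ∈ J}) ∩
    cond N0 ν J

theorem XF_le_Xb : XF v N0 ν O (fun _ => O + L) deg ≤ Xb v deg N0 O L ν := fun n =>
  XX_mono (Ω := fun _ J => Om N0 ν O (O + L) ∩ cond N0 ν J)
    (fun _ _ _ he => Set.mem_inter (Or.inl he.1) he.2) n

theorem Xb_le : Xb v deg N0 O L ν ≤ XS v N0 ν deg (O2 N0 O L ν) :=
  XX_mono fun _ _ _ he => Set.mem_inter (he.1.elim Or.inl fun c => c.1) he.2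

variable [Fintype ι] [DecidableEq ι]

omit [DecidableEq ι] in
theorem LM_pm {P : Matrix ι ι (LL V r)} {j : ℤ} (hP : Gr deg deg j P) {q q' : ℕ}
    (hq : (q' : ℤ) = q + j) (F : ι → LL V r) : LM P 1 (pm deg q F) = pm deg q' (P *ᵥ F) := by
  ext1 ⟨i, J⟩
  rw [LM_one_apply, pm_apply]
  split_ifs with c
  · refine sum_congr rfl fun b _ => ?_
    by_cases h : P i b = 0
    · simp [h]
    · have := hP _ _ h
      rw [pm_apply, if_pos ⟨by omega, c.2⟩]
  · refine sum_eq_zero fun b _ => ?_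
    by_cases h : P i b = 0
    · simp [h]
    · have := hP _ _ h
      rw [pm_apply, if_neg fun d => c ⟨by omega, d.2⟩, mul_zero]

omit [DecidableEq ι] in
theorem LM_sg_pm {P : Matrix ι ι (LL V r)} {j : ℤ} (hP : Gr deg deg j P) {q q' : ℕ}
    (hq : (q' : ℤ) = q + j) (F : ι → LL V r) :
    LM P (sg V r) (pm deg q F) = pm deg q' fun i => (-1) ^ r * (P *ᵥ F) i := by
  ext1 ⟨i, J⟩
  rw [LM_sg_apply, ← LM_one_apply, LM_pm hP hq, pm_apply, pm_apply]
  split_ifs with c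
  · rw [c.2, JT_card]
  · rw [mul_zero]

theorem flat_cx {Ω Ω' : ℕ → Set (Mon r)} (hΩ : ∀ p, Ω' p ⊆ Ω p)
    (h1 : CxD (DD D) (XS v N0 ν deg Ω)) (h2 : CxD (DD D) (XS v N0 ν deg Ω')) : CxD (DD D)
      (XX v deg fun p J => (Ω' p ∪ {e | e ∈ Ω p ∧ ∃ a, (a, false) ∈ J}) ∩ cond N0 ν J) := by
  classical
  intro n x hx
  let x1 : ι × FJ r → LL V r := fun p => if ∃ a, (a, false) ∈ p.2 then x p else 0
  let x2 : ι × FJ r → LL V r := fun p => if ∃ a, (a, false) ∈ p.2 then 0 else x p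
  have e : x = x1 + x2 := by
    ext1 p
    simp only [x1, x2, Pi.add_apply]
    split_ifs <;> simp
  have a1 : x1 ∈ XS v N0 ν deg Ω n := mem_XX.2 fun i J => by
    simp only [x1]
    split_ifs with c
    · refine Pv_mono ?_ (mem_XX.1 hx i J)
      rintro e ⟨b1, b2, b3⟩
      exact ⟨b1, b2.elim (@hΩ _ e) fun c => c.1, b3⟩
    · exact zero_mem _
  have a2 : x2 ∈ XS v N0 ν deg Ω' n := mem_XX.2 fun i J => by
    simp only [x2]
    split_ifs with c
    · exact zero_mem _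
    · refine Pv_mono ?_ (mem_XX.1 hx i J)
      rintro e ⟨b1, b2, b3⟩
      exact ⟨b1, b2.resolve_right fun d => c d.2, b3⟩
  rw [e, map_add]
  refine add_mem ?_ (XX_mono (fun p J e he => Set.mem_inter (Or.inl he.1) he.2) _ (h2 n _ a2))
  refine mem_XX.2 fun i J => ?_
  by_cases c : ∃ a, (a, false) ∈ J
  · refine Pv_mono ?_ (mem_XX.1 (h1 n _ a1) i J)
    rintro e ⟨b1, b2, b3⟩
    exact ⟨b1, Or.inr ⟨b2, c⟩, b3⟩
  · have d1 : ∀ j, x1 (j, J) = 0 := fun j => if_neg c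
    rw [DD_eq, Pi.add_apply, LM_sg_apply,
      cb_zero x1 i J fun J' h _ => if_neg fun ⟨a, ha⟩ => c ⟨a, h ha⟩]
    simp [d1]

theorem O2_cx (hD : Gr deg deg (-1) D) (hE : Ent v 0 D) :
    CxD (DD D) (XS v N0 ν deg (O2 N0 O L ν)) := by
  intro n x hx
  obtain ⟨y, hy, z, hz, rfl⟩ := Submodule.mem_sup.1 (XS_union n hx)
  rw [map_add]
  exact add_mem
    (XS_mono (fun _ => Set.subset_union_left) _ (XF_cxd hD hE O (O + L) n y hy))
    (XS_mono (fun _ => Set.subset_union_right) _ (XF_cxd hD hE 0 O n z hz))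

omit [DecidableEq ι] in
theorem Xb_g (hΓ : Gr deg deg 0 Γ) (hE : Ent v 0 Γ) {n : ℤ} {x : ι × FJ r → LL V r}
    (hx : x ∈ Xb v deg N0 O L ν n) : gg Γ x ∈ Xb v deg N0 O L ν n := by
  refine mem_XX.2 fun i J => ?_
  rw [gg, LM_one_apply]
  refine sum_mem fun b _ => ?_
  by_cases h : Γ i b = 0
  · simp [h]
  have h1 := hΓ _ _ h
  refine mul_mem_Pv (hE i b) (mem_XX.1 hx b J) fun a ha c hc => ?_
  obtain ⟨c1, c2, c3⟩ := hc
  refine ⟨by omega, ?_, add_mem_cond ha c3⟩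
  rcases c2 with c2 | ⟨c2 | c2, c4⟩
  · exact Or.inl (add_mem_Om ha c2 le_rfl)
  · exact Or.inl (add_mem_Om ha c2 le_rfl)
  · exact Or.inr ⟨Or.inr (add_mem_Om ha c2 le_rfl), c4⟩

theorem part1 (hD : Gr deg deg (-1) D) (hΓ : Gr deg deg 0 Γ) {c : LL V r}
    (hc : c ∈ Pv v (Om N0 ν 0 O)) {y w : ι → LL V r} (hw : ∀ i, w i ∈ Pv v (SB r 0))
    (h : ∀ i, deg i = 0 → (Γ *ᵥ y) i = (D *ᵥ w) i) :
    gg Γ (pm deg 0 fun i => y i * c) ∈
      Bc (DD D) (XS v N0 ν deg (O2 N0 O L ν)) (Xb v deg N0 O L ν) 0 := by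
  set w' := pm deg 1 fun i => (-1) ^ r * (w i * c) with hw'
  have h1 : w' ∈ XS v N0 ν deg (O2 N0 O L ν) (0 + 1) :=
    XS_mono (fun _ => Set.subset_union_right) _ (pm_mem 1 O fun i => by
      simpa using intCast_mul_mem_Pv
        (mul_mem_Pv (hw i) hc fun a ha b hb => add_mem_Om ha hb le_rfl) ((-1) ^ r))
  have h2 : LM 1 (cb V r) w' ∈ Xb v deg N0 O L ν 0 := by
    refine mem_XX.2 fun i J => ?_
    by_cases d : ∃ a, (a, false) ∈ J
    · refine Pv_mono ?_ (mem_XX.1 (LM_cb_mem h1) i J)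
      rintro e ⟨a1, a2, a3⟩
      exact ⟨by simpa using a1, Or.inr ⟨a2, d⟩, a3⟩
    · rw [cb_zero w' i J fun J' _ b3 => ?_]
      · exact zero_mem _
      · have b5 := card_le_card (sub_JT d)
        rw [hw', pm_apply, if_neg fun d' => ?_]
        rw [d'.2] at b3
        omega
  have h3 : LM D (sg V r) w' = gg Γ (pm deg 0 fun i => y i * c) := by
    rw [hw', LM_sg_pm hD (q' := 0) (by simp), gg, LM_pm hΓ (q' := 0) (by simp)]
    refine pm_congr fun i hi => ?_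
    have e1 : (Γ *ᵥ fun i => y i * c) i = (Γ *ᵥ y) i * c := by
      simp [mulVec, dotProduct, sum_mul, mul_assoc]
    have e2 : (D *ᵥ fun i => (-1) ^ r * (w i * c)) i = (-1) ^ r * ((D *ᵥ w) i * c) := by
      simp only [mulVec, dotProduct, sum_mul, mul_sum]
      exact sum_congr rfl fun _ _ => by ring
    rw [e1, e2, h i hi, ← mul_assoc, ← mul_pow]
    simp
  refine Submodule.mem_sup.2 ⟨-LM 1 (cb V r) w', neg_mem h2, _, ⟨w', h1, rfl⟩, ?_⟩
  rw [DD_eq, h3]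
  abel

omit [DecidableEq ι] [Fintype ι] in
theorem split0 {x : ι × FJ r → LL V r} (hx : x ∈ XS v N0 ν deg (O2 N0 O L ν) 0) :
    ∃ F : ι → LL V r, (∀ i, F i ∈ Pv v (Om N0 ν 0 O)) ∧ x - pm deg 0 F ∈ Xb v deg N0 O L ν 0 := by
  obtain ⟨y, hy, z, hz, rfl⟩ := Submodule.mem_sup.1 (XS_union 0 hx)
  refine ⟨fun i => z (i, JT r), fun i => Pv_mono (fun e he => he.2.1) (mem_XX.1 hz i _), ?_⟩
  rw [add_sub_assoc]
  refine add_mem (XF_le_Xb 0 hy) (mem_XX.2 fun i J => ?_)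
  rw [Pi.sub_apply, pm_apply]
  split_ifs with c
  · rw [c.2, sub_self]
    exact zero_mem _
  · rw [sub_zero]
    refine Pv_mono ?_ (mem_XX.1 hz i J)
    rintro e ⟨a1, a2, a3⟩
    refine ⟨a1, Or.inr ⟨Or.inr a2, ?_⟩, a3⟩
    by_contra d
    have a4 : J = JT r := eq_of_subset_of_card_le (sub_JT d) (JT_card.le.trans (cond_card a3))
    refine c ⟨?_, a4⟩
    rw [a4, JT_card] at a1
    omega

end Vale.Agent.P202.Mx.E5x
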