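import Vale.Agent.P202.M.E5b

open Finset Matrix MvPowerSeries Filter Topology IsLocalRing
open scoped Kronecker Nat

namespace Vale.Agent.P202.Mx.E5x

universe u

open E3m (cnt_le mon_ext typ_high typ_low JT JT_card mem_JT sub_JT sgm sgm_none sgm_some O2)
open E5m (UU UU_le)

variable {V : Type u} [CommRing V] {r : ℕ} {v : V} {ι : Type} {deg : ι → ℕ}
  {Γ D : Matrix ι ι (LL V r)} {N0 O L u : ℕ} {ν : Fin r → ℤ}

theorem thA_C (a : V) : thA v r (C a) = C a := (thA v r).commutes a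

theorem th_zero : th v r 0 = C v := by
  simp [th]

theorem thA_mem (hS : Seg.{u} r) (a : PS V r) : thA v r a ∈ Pv v (SB r 0) :=
  hS.ord V v a 0 (by simp)

theorem th_pow_mem (hS : Seg.{u} r) (j : Fin (r + 1)) {q : ℕ} (hq : q ≠ 0) :
    th v r j ^ q ∈ Pv v (SB r 1) := by
  have key : ∀ x ∈ mw v r, thA v r x ^ q ∈ Pv v (SB r 1) := fun x hx => by
    rw [← map_pow]
    refine hS.ord V v _ 1 ?_
    rw [pow_one]
    exact Ideal.pow_mem_of_mem _ hx _ (Nat.pos_of_ne_zero hq)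
  refine Fin.cases ?_ (fun j => ?_) j
  · rw [th_zero, ← thA_C (v := v)]
    exact key _ (Ideal.subset_span (Set.mem_insert _ _))
  · rw [← hS.x]
    exact key _ (Ideal.subset_span (Set.mem_insert_of_mem _ ⟨j, rfl⟩))

theorem th_pow_eq (hS : Seg.{u} r) (j : Fin (r + 1)) {q : ℕ} (hq : q ≠ 0) :
    ∃ b, thA v r (expand q hq b) = th v r j ^ q := by
  refine Fin.cases ⟨C v ^ q, ?_⟩ (fun j => ⟨X j, ?_⟩) j
  · rw [map_pow, map_pow, expand_C, thA_C, th_zero]
  · rw [expand_X, map_pow, hS.x]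

theorem decomp (hS : Seg.{u} r) (hN : N0 = O + L) (hν : ∀ a, (L : ℤ) ≤ ν a) {n q : ℕ}
    (hq : q ≠ 0) (hg : ∀ I : Finset (Fin r), ∃ g : Fin (r + 1) → LL V r,
      (∀ j, g j ∈ Pv v (SB r 0)) ∧ mu v I ^ n = ∑ j, g j * th v r j ^ q)
    (Z : Submodule V (LL V r)) (hU : Pv v (UU N0 O n ν) ≤ Z)
    (hZ : ∀ j, ∀ z ∈ Z, th v r j ^ q * z ∈ Z) (t : ℕ) :
    Pv v (Om N0 ν 0 O) ≤ Z ⊔ Pv v (Om N0 ν 0 (O + t)) := by
  classical
  induction t with
  | zero => exact le_sup_right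
  | succ t ih =>
    let A : Finset (Fin r) → Set (Mon r) := fun I =>
      {e | e ∈ Om N0 ν 0 O ∧ O + 2 * n ≤ e none ∧ univ.filter (fun a => N0 + n ≤ e (some a)) = I}
    refine (Pv_mono (T := UU N0 O n ν ∪ {e | e ∈ Om N0 ν 0 O ∧ O + 2 * n ≤ e none})
      fun e he => ?_).trans ((Pv_union _ _).trans (sup_le (hU.trans le_sup_left)
        (Pv_cover univ A _ (fun I _ f hf => ?_) _ fun e he => ⟨_, mem_univ _, he.1, he.2, rfl⟩)))
    · by_cases c : e none < O + 2 * n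
      exacts [Or.inl ⟨he, c⟩, Or.inr ⟨he, not_lt.1 c⟩]
    obtain ⟨g, hg1, hg2⟩ := hg I
    obtain ⟨f', hf', rfl⟩ := exists_div (T := Om N0 ν 0 O) (n • Gh.mI I) hf fun e he => by
      obtain ⟨a4, a1, a2⟩ := he
      have a6 : ∀ a, a ∈ I ↔ N0 + n ≤ e (some a) := fun a => by
        conv_lhs => rw [← a2]
        simp
      refine ⟨fun b => ?_, ?_, fun a => ?_⟩
      · cases b with
        | none =>
          simp only [Finsupp.smul_apply, Gh.mI_none, smul_eq_mul]
          omega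
        | some b =>
          simp only [Finsupp.smul_apply, Gh.mI_some, smul_eq_mul]
          split_ifs with c
          · have := (a6 b).1 c
            omega
          · omega
      · simp only [Finsupp.coe_tsub, Pi.sub_apply, Finsupp.smul_apply, Gh.mI_none, smul_eq_mul]
        omega
      · have a5 := a4.2 a
        have a7 := hν a
        have a8 := a6 a
        simp only [Finsupp.coe_tsub, Pi.sub_apply, Finsupp.smul_apply, Gh.mI_none, Gh.mI_some,
          smul_eq_mul]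
        by_cases c : a ∈ I
        · simp only [c, if_true, true_iff] at a8 ⊢
          omega
        · simp only [c, if_false, false_iff] at a8 ⊢
          omega
    rw [← mu_pow, hg2, sum_mul]
    refine sum_mem fun j _ => ?_
    obtain ⟨z, hz, w, hw, e2⟩ := Submodule.mem_sup.1 (ih (mul_mem_Pv (hg1 j) hf'
      fun a ha b hb => add_mem_Om ha hb le_rfl))
    rw [mul_comm (g j), mul_assoc, ← e2, mul_add]
    exact Submodule.add_mem_sup (hZ j z hz) (mul_mem_Pv (th_pow_mem hS j hq) hw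
      fun a ha b hb => add_mem_Om ha hb le_rfl)

/-- monomials of low level that are minimal in their column -/
def UM (N0 O n : ℕ) (ν : Fin r → ℤ) : Set (Mon r) :=
  {e | e ∈ UU N0 O n ν ∧ ∀ e1 ∈ UU N0 O n ν, e1.some = e.some → e none ≤ e1 none}

theorem UM_le (hN : N0 = O + L) (hO : O = L + u) (hν : ∀ a, ν a ≤ O) (n : ℕ) :
    (UM N0 O n ν).encard ≤ (1 * (u + 2 * n) ^ r : ℕ) := by
  refine cnt_le _ _ _ (fun _ => 0) (fun e a => e (some a) - N0) ?_ ?_
  · rintro e ⟨⟨⟨h1, h2⟩, h3⟩, -⟩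
    refine ⟨by omega, fun a => ?_⟩
    have := h2 a
    have := hν a
    omega
  · rintro e ⟨h, hm⟩ e' ⟨h', hm'⟩ - c'
    have h4 : ∀ a, e (some a) = e' (some a) := fun a => by
      have := h.1.2 a
      have := h'.1.2 a
      have := c' a
      omega
    have h5 : e.some = e'.some := Finsupp.ext h4
    exact mon_ext (le_antisymm (hm e' h' h5.symm) (hm' e h h5)) h4

theorem UM_ex {n : ℕ} {e : Mon r} (he : e ∈ UU N0 O n ν) :
    ∃ e0 ∈ UM N0 O n ν, ∃ m, e = Finsupp.single none m + e0 := by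
  classical
  have c : ∃ m, ∃ e1 ∈ UU N0 O n ν, e1.some = e.some ∧ e1 none = m := ⟨_, e, he, rfl, rfl⟩
  obtain ⟨e0, h0, h1, h2⟩ := Nat.find_spec c
  have h3 : ∀ e1 ∈ UU N0 O n ν, e1.some = e.some → e0 none ≤ e1 none := fun e1 a1 a2 =>
    h2.le.trans (Nat.find_min' c ⟨e1, a1, a2, rfl⟩)
  refine ⟨e0, ⟨h0, fun e1 a1 a2 => h3 e1 a1 (a2.trans h1)⟩, e none - e0 none, mon_ext ?_ fun a => ?_⟩
  · have := h3 e he rfl
    simp
    omega
  · have := DFunLike.congr_fun h1 a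
    simp only [Finsupp.some_apply] at this
    simp [this]

theorem C_pow_mul (a : V) (m : ℕ) (f : LL V r) : (C a ^ m : LL V r) * f = a ^ m • f := by
  rw [← map_pow, smul_eq_C_mul]

theorem span_UM (hS : Seg.{u} r) (hN : N0 = O + L) (hO : O = L + u)
    (hν : ∀ a, (L : ℤ) ≤ ν a ∧ ν a ≤ O) {n q : ℕ} (hq : q ≠ 0)
    (hg : ∀ I : Finset (Fin r), ∃ g : Fin (r + 1) → LL V r,
      (∀ j, g j ∈ Pv v (SB r 0)) ∧ mu v I ^ n = ∑ j, g j * th v r j ^ q)
    (U : Finset (Mon r)) (hU : ∀ e ∈ UM N0 O n ν, e ∈ U) :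
    Pv v (Om N0 ν 0 O) ≤ (⨆ e : U, LinearMap.range (LinearMap.mulRight V (mn v e.1) ∘ₗ
      (thA v r).toLinearMap ∘ₗ (expand q hq).toLinearMap)) ⊔ Pv v (Om N0 ν 0 (O + L)) := by
  have hUf := Set.finite_of_encard_le_coe (UU_le hN hO (fun a => (hν a).2) n)
  refine decomp hS hN (fun a => (hν a).1) hq hg _ ?_ ?_ L
  · refine Pv_cover hUf.toFinset (fun e => {e}) _ (fun e he f hf => ?_) _
      fun e he => ⟨e, hUf.mem_toFinset.2 he, rfl⟩
    obtain ⟨c, rfl⟩ := Pv_single e hf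
    obtain ⟨e0, h0, m, rfl⟩ := UM_ex (hUf.mem_toFinset.1 he)
    rw [← mn_mul, mn_none, C_pow_mul]
    refine Submodule.smul_mem _ _ (Submodule.smul_mem _ _
      (Submodule.mem_iSup_of_mem ⟨e0, hU _ h0⟩ ⟨1, ?_⟩))
    simp
  · intro j z hz
    obtain ⟨b, hb⟩ := th_pow_eq (v := v) hS j hq
    refine Submodule.iSup_induction _ (motive := fun z => th v r j ^ q * z ∈ _) hz ?_ (by simp)
      fun x y hx hy => ?_
    · rintro e _ ⟨a, rfl⟩
      refine Submodule.mem_iSup_of_mem e ⟨b * a, ?_⟩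
      simp [hb, mul_assoc]
    · rw [mul_add]
      exact add_mem hx hy

theorem part3 [Fintype ι] [DecidableEq ι] (hS : Seg.{u} r) (hN : N0 = O + L) (hO : O = L + u)
    (hν : ∀ a, (L : ℤ) ≤ ν a ∧ ν a ≤ O) {n q : ℕ} (hq : q ≠ 0)
    (hg : ∀ I : Finset (Fin r), ∃ g : Fin (r + 1) → LL V r,
      (∀ j, g j ∈ Pv v (SB r 0)) ∧ mu v I ^ n = ∑ j, g j * th v r j ^ q)
    (I0 : Ideal (PS V r)) (lam' : ℕ)
    (hl : Module.length V (PS V r ⧸ (I0 ⊔ Ideal.span {MvPowerSeries.C v ^ u})) ≤ lam')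
    (P : Submodule V (ι × FJ r → LL V r)) (h1 : Xb v deg N0 O L ν 0 ≤ P)
    (h2 : ∀ i, ∀ f ∈ Pv v (SB r 0), pm deg 0 (Pi.single i (f * mn v (sgm r N0 O))) ∈ P)
    (h3 : ∀ i, ∀ a ∈ I0, ∀ c ∈ Pv v (Om N0 ν 0 O),
      pm deg 0 (Pi.single i (thA v r (expand q hq a) * c)) ∈ P) :
    rl P (XS v N0 ν deg (O2 N0 O L ν) 0) ≤ (Fintype.card ι * ((u + 2 * n) ^ r * lam') : ℕ) := by
  classical
  have hUc := UM_le hN hO (fun a => (hν a).2) n
  have hUf := Set.finite_of_encard_le_coe hUc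
  let U := hUf.toFinset
  have hUn : U.card ≤ (u + 2 * n) ^ r := by
    rw [hUf.encard_eq_coe_toFinset_card, one_mul] at hUc
    exact_mod_cast hUc
  let m : U → PS V r →ₗ[V] LL V r := fun e => LinearMap.mulRight V (mn v e.1) ∘ₗ
    (thA v r).toLinearMap ∘ₗ (expand q hq).toLinearMap
  let S : ι → LL V r →ₗ[V] (ι × FJ r → LL V r) := fun i =>
    pm deg 0 ∘ₗ LinearMap.single V (fun _ => LL V r) i
  have hW := span_UM hS hN hO hν hq hg U fun e he => hUf.mem_toFinset.2 he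
  have l1 : XF v N0 ν 0 (fun _ => O + L) deg 0 ≤ P :=
    ((XF_mono (Nat.zero_le O) (fun _ => le_rfl) 0).trans (XF_le_Xb 0)).trans h1
  refine (rl_mono le_rfl (Q := ⨆ p : ι × U, LinearMap.range (S p.1 ∘ₗ m p.2)) ?_).trans
    ((rl_iSup_le _ _).trans ?_)
  · intro x hx
    obtain ⟨F, hF, h4⟩ := split0 hx
    have h5 : pm deg 0 F ∈ P ⊔ ⨆ p : ι × U, LinearMap.range (S p.1 ∘ₗ m p.2) := by
      rw [← univ_sum_single F, map_sum]
      refine sum_mem fun i _ => ?_
      obtain ⟨z, hz, w, hw, e2⟩ := Submodule.mem_sup.1 (hW (hF i))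
      rw [← e2, add_comm z, Pi.single_add, map_add]
      refine Submodule.add_mem_sup (l1 (pm_mem 0 _ (single_mem hw i))) ?_
      refine (?_ : _ ≤ Submodule.comap (S i) (⨆ p : ι × U, LinearMap.range (S p.1 ∘ₗ m p.2))) hz
      refine iSup_le fun e => ?_
      rintro _ ⟨a, rfl⟩
      exact Submodule.mem_iSup_of_mem (i, e) ⟨a, rfl⟩
    simpa using add_mem (Submodule.mem_sup_left (h1 h4)) h5
  · refine (sum_le_sum (g := fun _ => (lam' : ℕ∞)) fun p _ => ?_).trans ?_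
    · refine le_trans (rl_le_of_map (S p.1 ∘ₗ m p.2) (Q := ⊤) (P := Submodule.restrictScalars V
        (I0 ⊔ Ideal.span {MvPowerSeries.C v ^ u})) (fun x hx => ?_) (by simp))
        ((cl_eq _).symm.le.trans hl)
      obtain ⟨i, e, he⟩ := p
      obtain ⟨⟨he1, he2⟩, -⟩ := hUf.mem_toFinset.1 he
      obtain ⟨a, ha, b, hb, rfl⟩ := Submodule.mem_sup.1 hx
      rw [map_add]
      refine add_mem (h3 i a ha _ (mn_mem he1)) ?_
      obtain ⟨b, rfl⟩ := Ideal.mem_span_singleton'.1 hb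
      let e0 : Mon r := Finsupp.equivFunOnFinite.symm fun a =>
        a.elim (u + e none - O) fun a => e (some a) - N0
      have e1 : e0 + sgm r N0 O = Finsupp.single none u + e := by
        refine mon_ext ?_ fun a => ?_
        · have := he1.1
          simp [e0]
          omega
        · have := (he1.2 a).1
          simp [e0]
          omega
      have e2 : thA v r (expand q hq b) * mn v e0 ∈ Pv v (SB r 0) := by
        refine mul_mem_Pv (thA_mem hS _) (T := SB r 0) (mn_mem ⟨Nat.zero_le _, fun a => ?_⟩)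
          fun a ha b hb => add_mem_SB ha hb
        have := he1.2 a
        have := hν a
        have := he1.1
        simp [e0]
        omega
      have e3 : m ⟨e, he⟩ (b * C v ^ u) = thA v r (expand q hq b) * mn v e0 * mn v (sgm r N0 O) := by
        simp only [m, LinearMap.comp_apply, LinearMap.mulRight_apply, AlgHom.toLinearMap_apply,
          map_mul, map_pow, expand_C, thA_C]
        rw [mul_assoc, mul_assoc, mn_mul, e1, ← mn_mul, mn_none]
      have e4 := h2 i _ e2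
      rw [← e3] at e4
      exact e4
    · rw [sum_const, card_univ, Fintype.card_prod, Fintype.card_coe, nsmul_eq_mul, ← Nat.cast_mul,
        mul_assoc]
      exact Nat.cast_le.2 (Nat.mul_le_mul_left _ (Nat.mul_le_mul_right _ hUn))

end Vale.Agent.P202.Mx.E5x
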