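import Vale.Agent.P202.M.SpecT
import Vale.Agent.P202.Norm

open Finset Matrix MvPowerSeries Filter Topology IsLocalRing
open scoped Nat

namespace Vale.Agent.P202.Mx

universe u

namespace Mcm

theorem len_le {A R : Type u} [CommRing A] [CommRing R] [Algebra A R] [Module.Finite A R] :
    ∃ μ : ℕ, ∀ (I : Ideal A) (J : Ideal R), I.map (algebraMap A R) ≤ J →
      Module.length A (R ⧸ J) ≤ μ * ln I := by
  obtain ⟨μ, g, hg⟩ := Module.Finite.exists_fin (R := A) (M := R)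
  refine ⟨μ, fun I J h => ?_⟩
  let q : (A ⧸ I) →ₐ[A] R ⧸ J :=
    Ideal.quotientMapₐ J (Algebra.ofId A R) (Ideal.map_le_iff_le_comap.1 h)
  let ψ : (Fin μ → A ⧸ I) →ₗ[A] R ⧸ J := ∑ k : Fin μ,
    (LinearMap.mulLeft A (Ideal.Quotient.mk J (g k))) ∘ₗ q.toLinearMap ∘ₗ LinearMap.proj k
  have hψ : Function.Surjective ψ := fun z => by
    obtain ⟨z, rfl⟩ := Ideal.Quotient.mk_surjective z
    obtain ⟨c, rfl⟩ := (Submodule.mem_span_range_iff_exists_fun A).1 (hg ▸ Submodule.mem_top : z ∈ _)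
    refine ⟨fun k => Ideal.Quotient.mk I (c k), ?_⟩
    simp only [ψ, LinearMap.sum_apply, map_sum, Algebra.smul_def, map_mul, mul_comm (algebraMap A R _)]
    rfl
  refine (Module.length_le_of_surjective ψ hψ).trans ?_
  rw [Module.length_pi_of_fintype]
  simp [ln]

theorem span_eq {R : Type u} [CommRing R] {n : ℕ} (x : Fin (n + 1) → R) (c : Fin n → R) :
    Ideal.span (Set.range (Fin.cons (x 0) fun i => x i.succ - c i * x 0 : Fin (n + 1) → R)) =
      Ideal.span (Set.range x) := by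
  have h0 : ∀ (y : Fin (n + 1) → R) i, y i ∈ Ideal.span (Set.range y) := fun y i =>
    Ideal.subset_span ⟨i, rfl⟩
  refine le_antisymm (Ideal.span_le.2 ?_) (Ideal.span_le.2 ?_) <;> rintro _ ⟨i, rfl⟩ <;>
    refine Fin.cases ?_ (fun i => ?_) i
  · exact h0 x 0
  · exact sub_mem (h0 x _) (Ideal.mul_mem_left _ _ (h0 x 0))
  · exact h0 (Fin.cons (x 0) fun i => x i.succ - c i * x 0) 0
  · simpa using add_mem (h0 (Fin.cons (x 0) fun i => x i.succ - c i * x 0) i.succ)
      (Ideal.mul_mem_left _ (c i) (h0 (Fin.cons (x 0) fun i => x i.succ - c i * x 0) 0))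

end Mcm

open Mcm in
theorem mcStmt (hS : SitStmt.{u}) (hF : FinStmt.{u}) (hR : RaStmt.{u}) (hI : RiStmt.{u})
    (h2 : Hs2Stmt.{u}) (hL : LenStmt.{u}) (hV : EvWStmt.{u}) : McStmt.{u} := by
  intro p _ C W R S _ _ _ _ _ _ σ _ _ _ _ _ _ _ f _ n hC hW hσ cR cS hinf hp hf gR gS e e' he he'
  have := cR.noeth
  obtain ⟨x, c, hx, hc⟩ := hR R (n + 1) hinf gR
  have hx1 : maximalIdeal R ^ (c + 1) ≤ Ideal.span (Set.range x) := hc.trans Ideal.mul_le_left
  obtain ⟨-, -, N, hN⟩ := (h2 R (n + 1) x (by omega) (No.finlen (No.le_rad hx1))).nzd p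
    fun a ha => (mul_eq_zero.1 ha).resolve_left hp
  obtain ⟨a, j, -, hj⟩ := hI R Set.univ n x _
    (by rw [Set.image_univ, residue_surjective.range_eq]; exact Set.infinite_univ) hx ⟨N, hN⟩
  have ev := hV p C (Fin n) hC
  have hm : ∀ i, x i.succ - a i * x 0 ∈ maximalIdeal R := fun i =>
    sub_mem (hx _) (Ideal.mul_mem_left _ _ (hx 0))
  obtain ⟨g, hg⟩ := ev.ev R _ cR.cpl _ fun i => Ideal.le_radical (hm i)
  let _ := g.toRingHom.toAlgebra
  have : IsScalarTower C (PS C n) R := IsScalarTower.of_algebraMap_eq fun r => (g.commutes r).symm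
  have hg' : ∀ i, algebraMap (PS C n) R (X i) = x i.succ - a i * x 0 := hg
  have hp' : (p : R) ∈ maximalIdeal R := by
    simpa using cR.loc p (hC.max ▸ Ideal.mem_span_singleton_self _)
  have : Module.Finite (PS C n) R := ev.alg R cR (fun i => hg' i ▸ hm i) ⟨(c + 1) * (j + 1), by
    rw [pow_mul]
    refine (Ideal.pow_right_mono hx1 _).trans (hj.trans (sup_le (Ideal.mul_le_left.trans ?_) ?_))
    · rw [Ideal.span_le]
      rintro _ ⟨i, rfl⟩
      simp only [← hg']
      exact Ideal.mem_map_of_mem _ (Ideal.subset_span (Set.mem_insert_of_mem _ ⟨i, rfl⟩))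
    · rw [Ideal.span_singleton_le_iff_mem, ← map_natCast (algebraMap (PS C n) R)]
      exact Ideal.mem_map_of_mem _ (Ideal.subset_span (Set.mem_insert _ _))⟩
  by_cases hi : Function.Injective (algebraMap (PS C n) R)
  · obtain ⟨T', T, n', h, _, _, _, _, _, ϖ, F, j1, j2, m, J, y, hs⟩ := hS p C W R S σ f n
      (Fin.cons (x 0) fun i => x i.succ - a i * x 0) c e e' hC hW hσ cR cS hf hi hg'
      (Fin.cases (hx 0) hm) (by rw [span_eq]; exact hc) gS he he'
    exact hF p W T' T σ n' h (n + 1) ϖ F j1 j2 m J y e e' hW hσ hs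
  rw [injective_iff_map_eq_zero] at hi
  push Not at hi
  obtain ⟨b, hb, hb0⟩ := hi
  have := ev.cw.noeth
  have hy : Ideal.span (Set.range (Fin.cons (p : PS C n) X : Fin (n + 1) → PS C n)) =
      maximalIdeal (PS C n) := by rw [Fin.range_cons, ev.max, mv]
  have hloc : (maximalIdeal (PS C n)).map (algebraMap (PS C n) R) ≤ maximalIdeal R := by
    rw [ev.max, mv, Ideal.map_span, Ideal.span_le]
    rintro _ ⟨_, rfl | ⟨i, rfl⟩, rfl⟩
    · simpa using hp'
    · exact hg' i ▸ hm i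
  obtain ⟨-, ht, -⟩ := (h2 (PS C n) (n + 1) _ (by omega)
    (No.finlen (hy.ge.trans Ideal.le_radical))).nzd b fun a ha => (mul_eq_zero.1 ha).resolve_left hb0
  rw [hy] at ht
  obtain ⟨μ, hμ⟩ := len_le (A := PS C n) (R := R)
  refine le_trans ?_ (ge_of_tendsto' he' fun N => by positivity : (0 : ℝ) ≤ e')
  have ht' := ht.const_mul (((n + 1)! : ℝ) * μ)
  rw [mul_zero] at ht'
  refine le_of_tendsto_of_tendsto' he ht' fun N => ?_
  have h1 := hμ (maximalIdeal (PS C n) ^ N ⊔ Ideal.span {b}) (maximalIdeal R ^ N) (by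
    rw [Ideal.map_sup, Ideal.map_pow, Ideal.map_span, Set.image_singleton, hb]
    simpa using Ideal.pow_right_mono hloc N)
  rw [hL (PS C n) R _ (fun a ha => hloc (Ideal.mem_map_of_mem _ ha)) fun z => by
    obtain ⟨r, hr⟩ := cR.res z
    exact ⟨algebraMap C _ r, by rwa [← IsScalarTower.algebraMap_apply]⟩] at h1
  have h3 : ln (maximalIdeal (PS C n) ^ N ⊔ Ideal.span {b}) ≠ ⊤ :=
    No.finlen (No.le_rad (c := N) le_sup_left)
  have h4 : hs R N ≤ μ * (ln (maximalIdeal (PS C n) ^ N ⊔ Ideal.span {b})).toNat := by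
    simpa [hs] using ENat.toNat_le_toNat h1 (WithTop.mul_ne_top (ENat.natCast_ne_top μ) h3)
  have h5 : (hs R N : ℝ) ≤ μ * (ln (maximalIdeal (PS C n) ^ N ⊔ Ideal.span {b})).toNat := by
    exact_mod_cast h4
  rw [← mul_div_assoc, mul_assoc]
  gcongr

end Vale.Agent.P202.Mx
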