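import Vale.Agent.P202.M.SpecE
import Vale.Agent.P202.Num

/-! Mixed characteristic: lengths of subquotients and monomial modules. -/

open Finset Matrix MvPowerSeries Filter Topology IsLocalRing
open scoped Kronecker Nat

namespace Vale.Agent.P202.Mx

universe u

namespace Nz

section rl
variable {k : Type*} [CommRing k] {E E' : Type*} [AddCommGroup E] [Module k E] [AddCommGroup E']
  [Module k E']

theorem rl_eq_zero {P Q : Submodule k E} : rl P Q = 0 ↔ Q ≤ P := by
  rw [rl, Module.length_eq_zero_iff, Submodule.subsingleton_iff_eq_bot, eq_bot_iff,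
    Submodule.map_le_iff_le_comap, Submodule.comap_bot, Submodule.ker_mkQ]

/-- comparison through a linear map -/
theorem rl_le_of_map (f : E →ₗ[k] E') {P Q : Submodule k E} {P' Q' : Submodule k E'}
    (h : ∀ x ∈ P, f x ∈ P') (h' : Q' ≤ P' ⊔ Q.map f) : rl P' Q' ≤ rl P Q := by
  let F := P.mapQ P' f h
  have : Q'.map P'.mkQ ≤ (Q.map P.mkQ).map F := by
    rintro _ ⟨y, hy, rfl⟩
    obtain ⟨a, ha, _, ⟨x, hx, rfl⟩, rfl⟩ := Submodule.mem_sup.1 (h' hy)
    refine ⟨P.mkQ x, ⟨x, hx, rfl⟩, ?_⟩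
    simp [F, (Submodule.Quotient.mk_eq_zero _).2 ha]
  refine (Module.length_le_of_injective _ (Submodule.inclusion_injective this)).trans ?_
  exact Module.length_le_of_surjective _ (F.submoduleMap_surjective _)

theorem rl_mono {P Q P' Q' : Submodule k E} (h : P ≤ P') (h' : Q' ≤ P' ⊔ Q) :
    rl P' Q' ≤ rl P Q :=
  rl_le_of_map LinearMap.id h (by simpa using h')

/-- comparison through a linear map that detects `P` on `Q` -/
theorem rl_le_of_comap (f : E →ₗ[k] E') {P Q : Submodule k E} {P' Q' : Submodule k E'}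
    (h : ∀ x ∈ Q, f x ∈ P' → x ∈ P) (h' : ∀ x ∈ Q, f x ∈ P' ⊔ Q') : rl P Q ≤ rl P' Q' := by
  let a : Q →ₗ[k] Q.map P.mkQ := P.mkQ.submoduleMap Q
  have hb : ∀ x : Q, (P'.mkQ ∘ₗ f ∘ₗ Q.subtype) x ∈ Q'.map P'.mkQ := fun x => by
    obtain ⟨y, hy, z, hz, e⟩ := Submodule.mem_sup.1 (h' x x.2)
    refine ⟨z, hz, ?_⟩
    simp [← e, (Submodule.Quotient.mk_eq_zero _).2 hy]
  let b : Q →ₗ[k] Q'.map P'.mkQ := LinearMap.codRestrict _ _ hb
  have hk : LinearMap.ker b ≤ LinearMap.ker a := fun x hx => by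
    have h1 : f x ∈ P' := by simpa [b, Subtype.ext_iff] using hx
    simpa [a, Subtype.ext_iff] using h x x.2 h1
  have h1 := Module.length_le_of_surjective ((LinearMap.ker b).liftQ a hk) fun y => by
    obtain ⟨x, rfl⟩ := P.mkQ.submoduleMap_surjective Q y
    exact ⟨Submodule.Quotient.mk x, rfl⟩
  refine h1.trans ?_
  exact Module.length_le_of_injective ((LinearMap.ker b).liftQ b le_rfl)
    (LinearMap.ker_eq_bot.1 (Submodule.ker_liftQ_eq_bot _ _ _ le_rfl))

theorem rl_add {P Q R : Submodule k E} (h : P ≤ Q) (h' : Q ≤ R) : rl P R = rl P Q + rl Q R := by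
  let F := P.mapQ Q LinearMap.id h
  have hm : (R.map P.mkQ).map F = R.map Q.mkQ := by
    rw [← Submodule.map_comp]; congr 1
  unfold rl
  rw [← hm]
  refine Module.length_eq_add_of_exact (Submodule.inclusion (Submodule.map_mono h'))
    (F.submoduleMap _) (Submodule.inclusion_injective _) (F.submoduleMap_surjective _) ?_
  rintro ⟨_, x, hx, rfl⟩
  constructor
  · intro e
    have : x ∈ Q := by simpa [F, Subtype.ext_iff] using e
    exact ⟨⟨_, x, this, rfl⟩, rfl⟩
  · rintro ⟨⟨_, y, hy, rfl⟩, e⟩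
    rw [← e]
    simpa [F, Subtype.ext_iff] using hy

theorem rl_le_add (P Q R : Submodule k E) : rl P R ≤ rl P Q + rl Q R := by
  calc rl P R ≤ rl P (P ⊔ Q ⊔ R) := rl_mono le_rfl (le_sup_right.trans le_sup_right)
    _ = rl P (P ⊔ Q) + rl (P ⊔ Q) (P ⊔ Q ⊔ R) := rl_add le_sup_left le_sup_left
    _ ≤ _ := add_le_add (rl_mono le_rfl le_rfl) (rl_mono le_sup_right le_rfl)

theorem rl_top (P : Submodule k E) : rl P ⊤ = Module.length k (E ⧸ P) := by
  rw [rl, Submodule.map_top, Submodule.range_mkQ, Module.length_top]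

theorem rl_pi {π : Type*} [Fintype π] (P' P : π → Submodule k E) :
    rl (Submodule.pi Set.univ P') (Submodule.pi Set.univ P) = ∑ p, rl (P' p) (P p) := by
  let G : (∀ p, P p) →ₗ[k] (π → E) := LinearMap.pi fun p => (P p).subtype ∘ₗ LinearMap.proj p
  let H : (∀ p, P p) →ₗ[k] (∀ p, (P p).map (P' p).mkQ) :=
    LinearMap.pi fun p => (P' p).mkQ.submoduleMap (P p) ∘ₗ LinearMap.proj p
  have hH : Function.Surjective H := fun y => by
    choose x hx using fun p => (P' p).mkQ.submoduleMap_surjective (P p) (y p)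
    exact ⟨x, funext hx⟩
  have hk : ∀ x, x ∈ LinearMap.ker H ↔ G x ∈ Submodule.pi Set.univ P' := fun x => by
    simp [G, H, funext_iff, Subtype.ext_iff, Submodule.mem_pi]
  have h1 : rl (Submodule.pi Set.univ P') (Submodule.pi Set.univ P) = rl (LinearMap.ker H) ⊤ := by
    refine le_antisymm (rl_le_of_map G (fun x hx => (hk x).1 hx) fun y hy => ?_)
      (rl_le_of_comap G (fun x _ hx => (hk x).2 hx) fun x _ => ?_)
    · exact Submodule.mem_sup_right ⟨fun p => ⟨y p, hy p trivial⟩, trivial, rfl⟩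
    · exact Submodule.mem_sup_right fun p _ => (x p).2
  rw [h1, rl_top, (H.quotKerEquivOfSurjective hH).length_eq, Module.length_pi_of_fintype]
  rfl

/-- the cokernel of an endomorphism of a subquotient of finite length is at most the kernel -/
theorem coker_le (g : Module.End k E)
    {P Q R : Submodule k E} (h : P ≤ Q) (hg : ∀ x ∈ Q, g x ∈ Q) (hf : rl P Q ≠ ⊤)
    (hR : ∀ x ∈ Q, g x ∈ P → x ∈ R) : rl (P ⊔ Q.map g) Q ≤ rl P R := by
  have h1 : P ⊔ Q.map g ≤ Q := sup_le h (Submodule.map_le_iff_le_comap.2 hg)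
  have h2 := rl_add (le_sup_left : P ≤ P ⊔ Q.map g) h1
  have h3 : rl R Q ≤ rl P (P ⊔ Q.map g) :=
    rl_le_of_comap g hR fun x hx => Submodule.mem_sup_right
      (Submodule.mem_sup_right (Submodule.mem_map_of_mem hx))
  have h4 := (rl_le_add P R Q).trans (add_le_add le_rfl h3)
  have h5 : rl P (P ⊔ Q.map g) ≠ ⊤ := fun e => hf (by rw [h2, e, top_add])
  rw [h2, add_comm] at h4
  exact (ENat.add_le_add_iff_right h5).1 h4

theorem rl_span_le [IsLocalRing k] {v : k} (hv : maximalIdeal k = Ideal.span {v})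
    {P : Submodule k E} {x : E} (hx : v • x ∈ P) : rl P (Submodule.span k {x}) ≤ 1 := by
  have h1 : rl (maximalIdeal k : Submodule k k) ⊤ = 1 := by
    rw [rl_top, Module.length_eq_one_iff, isSimpleModule_iff_isCoatom]
    exact (maximalIdeal.isMaximal k).out
  rw [← h1]
  refine rl_le_of_map (LinearMap.toSpanSingleton k E x) (fun a ha => ?_) ?_
  · rw [hv] at ha
    obtain ⟨c, rfl⟩ := Ideal.mem_span_singleton'.1 ha
    rw [LinearMap.toSpanSingleton_apply, mul_smul]
    exact P.smul_mem _ hx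
  · rw [Submodule.map_top, ← LinearMap.span_singleton_eq_range]
    exact le_sup_right

end rl

section pv
variable {V : Type u} [CommRing V] {r : ℕ} {v : V}

theorem mem_Pv {S : Set (Mon r)} {f : LL V r} : f ∈ Pv v S ↔
    ∀ e', coeff e' f = 0 ∨ ∃ e ∈ S, e.some = e' ∧ v ^ e none ∣ coeff e' f := by
  unfold Pv
  simp only [Submodule.mem_iInf, Submodule.mem_comap]
  refine forall_congr' fun e' => ⟨fun h => ?_, fun h => ?_⟩
  · generalize coeff e' f = a at h
    induction h using Submodule.span_induction with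
    | mem x hx =>
      obtain ⟨e, ⟨h1, h2⟩, rfl⟩ := hx
      exact Or.inr ⟨e, h1, h2, dvd_rfl⟩
    | zero => exact Or.inl rfl
    | add x y _ _ hx hy =>
      rcases hx with rfl | ⟨e, h1, h2, h3⟩
      · simpa using hy
      rcases hy with rfl | ⟨d, g1, g2, g3⟩
      · exact Or.inr ⟨e, h1, h2, by simpa using h3⟩
      rcases le_total (e none) (d none) with c | c
      · exact Or.inr ⟨e, h1, h2, dvd_add h3 ((pow_dvd_pow v c).trans g3)⟩
      · exact Or.inr ⟨d, g1, g2, dvd_add ((pow_dvd_pow v c).trans h3) g3⟩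
    | smul c x _ hx =>
      rcases hx with rfl | ⟨e, h1, h2, h3⟩
      · exact Or.inl (by simp)
      · exact Or.inr ⟨e, h1, h2, h3.mul_left c⟩
  · rcases h with h | ⟨e, h1, h2, c, h3⟩
    · rw [h]; exact zero_mem _
    · rw [h3]
      exact Ideal.mul_mem_right _ _ (Ideal.subset_span ⟨e, ⟨h1, h2⟩, rfl⟩)

theorem Pv_mono {S T : Set (Mon r)} (h : S ⊆ T) : Pv v S ≤ Pv v T := fun _ hf =>
  mem_Pv.2 fun e' => (mem_Pv.1 hf e').imp_right fun ⟨e, h1, h2⟩ => ⟨e, h h1, h2⟩

theorem mul_mem_Pv {S T U : Set (Mon r)} {f g : LL V r} (hf : f ∈ Pv v S) (hg : g ∈ Pv v T)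
    (h : ∀ a ∈ S, ∀ b ∈ T, a + b ∈ U) : f * g ∈ Pv v U := by
  classical
  unfold Pv
  simp only [Submodule.mem_iInf, Submodule.mem_comap]
  intro e'
  rw [coeff_mul]
  refine sum_mem fun p hp => ?_
  rcases mem_Pv.1 hf p.1 with h1 | ⟨a, a1, a2, c, a3⟩
  · rw [h1, zero_mul]; exact zero_mem _
  rcases mem_Pv.1 hg p.2 with h1 | ⟨b, b1, b2, d, b3⟩
  · rw [h1, mul_zero]; exact zero_mem _
  rw [a3, b3, mul_mul_mul_comm, ← pow_add]
  refine Ideal.mul_mem_right _ _ (Ideal.subset_span ⟨a + b, ⟨h a a1 b b1, ?_⟩, rfl⟩)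
  rw [Finsupp.some_add, a2, b2, mem_antidiagonal.1 hp]

theorem up_le {S : Set (Mon r)} (hS : Up S) {e d : Mon r} (he : e ∈ S) (h1 : e.some = d.some)
    (h2 : e none ≤ d none) : d ∈ S := by
  obtain ⟨c, hc⟩ := Nat.exists_eq_add_of_le h2
  have key : ∀ c : ℕ, e + Finsupp.single none c ∈ S := fun c => by
    induction c with
    | zero => simpa using he
    | succ c ih => rw [Finsupp.single_add, ← add_assoc]; exact hS _ ih
  have : d = e + Finsupp.single none c := by
    ext o
    cases o with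
    | none => simp [hc]
    | some a => simpa using (DFunLike.congr_fun h1 a).symm
  rw [this]; exact key c

end pv

end Nz

end Vale.Agent.P202.Mx
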