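import Vale.Agent.P202.M.SpecT

open Finset Matrix MvPowerSeries Filter Topology IsLocalRing
open scoped Kronecker Nat

namespace Vale.Agent.P202.Mx

universe u

namespace Phl

variable {W : Type u} [CommRing W]

theorem expand_rename (q : ℕ) (hq : q ≠ 0) {ν ν' : Type} [Fintype ν'] (f : ν' → ν)
    (a : MvPowerSeries ν' W) : expand q hq (rename f a) = rename f (expand q hq a) := by
  have e : expand q hq a = subst (fun s => (X s : MvPowerSeries ν' W) ^ q) a :=
    substAlgHom_apply (HasSubst.X_pow hq) a
  rw [rename_eq_subst, rename_eq_subst, expand_subst q hq (HasSubst.X_comp f), e,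
    subst_comp_subst_apply (HasSubst.X_pow hq) (HasSubst.X_comp f)]
  congr 1
  funext i
  rw [subst_pow (HasSubst.X_comp f), subst_X (HasSubst.X_comp f)]
  exact expand_X q hq (f i)

theorem dvd_of_coeff {ν : Type} (c : W) (a : MvPowerSeries ν W) (h : ∀ m, c ∣ coeff m a) :
    C c ∣ a := by
  choose b hb using h
  let b' : MvPowerSeries ν W := b
  refine ⟨b', ?_⟩
  ext m
  rw [coeff_C_mul, hb]
  rfl

variable (p : ℕ) [Fact p.Prime] (σ : W ≃+* W)

theorem phi_apply (ν : Type) (a : MvPowerSeries ν W) : phi p σ ν a =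
    MvPowerSeries.map σ.toRingHom (expand p (Fact.out : p.Prime).ne_zero a) := rfl

theorem iter (ν : Type) (e : ℕ) (a : MvPowerSeries ν W) : (phi p σ ν)^[e] a =
    expand (p ^ e) (pow_ne p e) (MvPowerSeries.map (sig σ e).toRingHom a) := by
  induction e with
  | zero =>
    have : (sig σ 0).toRingHom = RingHom.id W := rfl
    simp only [Function.iterate_zero, id, this, pow_zero, MvPowerSeries.map_id]
    exact (expand_one_apply a).symm
  | succ e ih =>
    have h1 : (sig σ (e + 1)).toRingHom = σ.toRingHom.comp (sig σ e).toRingHom := by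
      ext x
      simp only [sig, pow_succ']
      rfl
    rw [Function.iterate_succ_apply', ih, phi_apply, ← expand_mul, map_expand, h1,
      MvPowerSeries.map_comp]
    simp only [pow_succ']
    rfl

/-- exponent vector -/
noncomputable def al {ν : Type} [Fintype ν] {q : ℕ} (α : ν → Fin q) : ν →₀ ℕ :=
  Finsupp.equivFunOnFinite.symm fun i => (α i : ℕ)

theorem prod_X {ν : Type} [Fintype ν] {q : ℕ} (α : ν → Fin q) :
    ∏ i, (X i : MvPowerSeries ν W) ^ (α i : ℕ) = monomial (al α) 1 := by
  rw [monomial_one_eq, Finsupp.prod_fintype _ _ (fun _ => pow_zero _)]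
  rfl

theorem decomp {ν : Type} [Fintype ν] [DecidableEq ν] (q : ℕ) (h0 : q ≠ 0) (τ : W ≃+* W)
    (a : MvPowerSeries ν W) : ∃ c : (ν → Fin q) → MvPowerSeries ν W,
      a = ∑ α, expand q h0 (MvPowerSeries.map τ.toRingHom (c α)) * ∏ i, X i ^ (α i : ℕ) := by
  have hpos : 0 < q := Nat.pos_of_ne_zero h0
  let c : (ν → Fin q) → MvPowerSeries ν W := fun α β => τ.symm (coeff (q • β + al α) a)
  have hc : ∀ α β, coeff β (c α) = τ.symm (coeff (q • β + al α) a) := fun _ _ => rfl
  refine ⟨c, ?_⟩
  ext m
  let α0 : ν → Fin q := fun i => ⟨m i % q, Nat.mod_lt _ hpos⟩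
  let β0 : ν →₀ ℕ := Finsupp.equivFunOnFinite.symm fun i => m i / q
  have hm : m = q • β0 + al α0 := by
    ext i
    simp [β0, α0, al, Nat.div_add_mod]
  simp only [prod_X]
  rw [map_sum, sum_eq_single α0]
  · conv_rhs => rw [hm]
    rw [coeff_add_mul_monomial, mul_one, coeff_expand_smul, coeff_map, hc, ← hm]
    exact (τ.apply_symm_apply _).symm
  · intro α _ hα
    rw [coeff_mul_monomial]
    split_ifs with hle
    · obtain ⟨i, hi⟩ := Function.ne_iff.1 hα
      have h1 : (α i : ℕ) ≤ m i := by simpa [al] using hle i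
      have h2 : ¬ q ∣ (m - al α) i := by
        intro hd
        apply hi
        have h3 : q ∣ m i - α i := by simpa [al] using hd
        have h4 := ((Nat.modEq_iff_dvd' h1).2 h3)
        ext
        change (α i : ℕ) = m i % q
        rw [← h4, Nat.mod_eq_of_lt (α i).2]
      rw [coeff_expand_of_not_dvd q h0 _ h2, zero_mul]
    · rfl
  · intro h
    exact absurd (mem_univ _) h

end Phl

open Phl in
theorem phlStmt : PhlStmt.{u} := by
  intro p hp W _ _ _ σ ν _ _ hW hσ
  have h0 : (p : W) ≠ 0 := fun h => IsDiscreteValuationRing.not_a_field W (by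
    rw [hW.max, h]
    simp)
  refine ⟨fun b hb => ?_, fun b => ?_, fun i => ?_, fun c => ?_, iter p σ ν, fun e ν' _ f a => ?_,
    fun e a => ?_⟩
  · refine (mul_eq_zero.1 hb).resolve_left fun h => h0 ?_
    simpa using congrArg constantCoeff h
  · let π := Ideal.Quotient.mk (Ideal.span {(p : W)})
    have : Nontrivial (W ⧸ Ideal.span {(p : W)}) :=
      Ideal.Quotient.nontrivial_iff.2 (hW.max ▸ (maximalIdeal.isMaximal W).ne_top)
    have : CharP (W ⧸ Ideal.span {(p : W)}) p := (CharP.charP_iff_prime_eq_zero hp.out).2 (by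
      rw [← map_natCast π]
      exact Ideal.Quotient.eq_zero_iff_mem.2 (Ideal.mem_span_singleton_self _))
    have e : π.comp σ.toRingHom = (frobenius _ p).comp π := by
      ext x
      simp only [RingHom.comp_apply, frobenius_def, ← map_pow]
      exact Ideal.Quotient.eq.2 (Ideal.mem_span_singleton.2 (hσ.frob x))
    have h1 : MvPowerSeries.map π (phi p σ ν b - b ^ p) = 0 := by
      rw [map_sub, map_pow, phi_apply, ← RingHom.comp_apply, ← MvPowerSeries.map_comp, e,
        MvPowerSeries.map_comp, RingHom.comp_apply, map_expand, map_frobenius_expand, sub_self]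
    rw [← map_natCast (C : W →+* MvPowerSeries ν W)]
    refine dvd_of_coeff _ _ fun m => Ideal.mem_span_singleton.1
      (Ideal.Quotient.eq_zero_iff_mem.1 ?_)
    have := congrArg (coeff m) h1
    rwa [coeff_map] at this
  · rw [phi_apply, expand_X, map_pow, MvPowerSeries.map_X]
  · rw [phi_apply, expand_C, MvPowerSeries.map_C]
    rfl
  · rw [iter, iter, ← rename_map, expand_rename]
  · simp only [iter]
    exact decomp _ _ _ a

end Vale.Agent.P202.Mx
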