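import Vale.Agent.P202.M.SpecT
import Vale.Agent.P202.M.Base
import Vale.Agent.P202.Red

/-! Module SI, general lemmas. -/

open Finset Matrix MvPowerSeries Filter Topology IsLocalRing
open scoped Kronecker Nat

namespace Vale.Agent.P202.Mx.Si

universe u

theorem p_ne {p : ℕ} {C : Type u} [CommRing C] [IsDomain C] [IsDiscreteValuationRing C]
    (h : Coh p C) : (p : C) ≠ 0 := fun e =>
  IsDiscreteValuationRing.not_a_field C (by rw [h.max, e]; simp)

theorem p_mem {p : ℕ} {C R : Type u} [CommRing C] [IsDomain C] [IsDiscreteValuationRing C]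
    [CommRing R] [IsLocalRing R] [Algebra C R] (h : Coh p C) (h' : CW C R) :
    (p : R) ∈ maximalIdeal R := by
  have := h'.loc p (h.max ▸ Ideal.mem_span_singleton_self _)
  rwa [map_natCast] at this

theorem char0 {p : ℕ} [Fact p.Prime] {C : Type u} [CommRing C] [IsDomain C]
    [IsDiscreteValuationRing C] (h : Coh p C) : CharZero C := by
  obtain ⟨l, hl⟩ := CharP.exists C
  rcases CharP.char_is_prime_or_zero C l with c | rfl
  · exfalso
    have h0 : (l : C) = 0 := CharP.cast_eq_zero C l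
    by_cases e : l = p
    · exact p_ne h (e ▸ h0)
    have := (Nat.Coprime.cast (R := C) ((Nat.coprime_primes c Fact.out).2 e))
    rw [h0, isCoprime_zero_left] at this
    exact (h.max ▸ Ideal.mem_span_singleton_self _ : (p : C) ∈ maximalIdeal C) this
  · exact CharP.charP_to_charZero C

theorem nzd_flat {R S : Type u} [CommRing R] [IsDomain R] [CommRing S] {f : R →+* S}
    (hf : f.Flat) {r : R} (hr : r ≠ 0) : Nzd (f r) := fun b hb => by
  algebraize [f]
  refine Module.Flat.isSMulRegular_of_nonZeroDivisors (M := S)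
    (mem_nonZeroDivisors_of_ne_zero hr) ?_
  simp only [Algebra.smul_def, mul_zero]
  exact hb

theorem ex_sub (A T : Type u) [CommRing A] [IsNoetherianRing A] [CommRing T] [IsLocalRing T]
    [Algebra A T] [Module.Finite A T] {h : ℕ} (v : Fin h → T) :
    ∃ (T' : Type u) (_ : CommRing T') (_ : IsLocalRing T') (_ : Algebra A T') (_ : Algebra T' T)
      (_ : IsScalarTower A T' T) (v' : Fin h → T'), Module.Finite A T' ∧ Module.Finite T' T ∧
      Function.Injective (algebraMap T' T) ∧ IsLocalHom (algebraMap T' T) ∧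
      (∀ i, algebraMap T' T (v' i) = v i) ∧
      Function.Surjective (MvPolynomial.aeval v' : MvPolynomial (Fin h) A →ₐ[A] T') := by
  let e : MvPolynomial (Fin h) A →ₐ[A] T := MvPolynomial.aeval v
  have h1 : Module.Finite e.range T := Module.Finite.of_restrictScalars_finite A _ _
  have h2 : IsLocalHom (algebraMap e.range T) := inferInstance
  refine ⟨e.range, inferInstance, (algebraMap e.range T).domain_isLocalRing, inferInstance,
    inferInstance, inferInstance, fun i => ⟨v i, MvPolynomial.X i, by simp [e]⟩,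
    Module.Finite.of_injective e.range.val.toLinearMap Subtype.val_injective, h1,
    Subtype.val_injective, h2, fun _ => rfl, ?_⟩
  rintro ⟨_, g, rfl⟩
  refine ⟨g, Subtype.ext ?_⟩
  exact (MvPolynomial.aeval_algebraMap_apply (A := e.range) T
    (fun i => ⟨v i, MvPolynomial.X i, by simp [e]⟩) g).symm

theorem sup_pow_le {T : Type u} [CommRing T] (I J : Ideal T) (c : ℕ) :
    (I ⊔ J) ^ (c + 1) ≤ I ^ (c + 1) ⊔ J * (I ⊔ J) ^ c := by
  induction c with
  | zero => simp
  | succ c ih =>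
    rw [pow_succ]
    refine (Ideal.mul_mono_left ih).trans ?_
    rw [Ideal.sup_mul, Ideal.mul_sup (I ^ (c + 1)), ← pow_succ, mul_assoc, ← pow_succ]
    refine sup_le (sup_le le_sup_left (le_sup_of_le_right ?_)) le_sup_right
    rw [mul_comm]
    exact Ideal.mul_mono_right (Ideal.pow_right_mono le_sup_left _)

theorem ln_comap {A S : Type u} [CommRing A] [CommRing S] (π : A →+* S)
    (h : Function.Surjective π) (I : Ideal A) : ln (RingHom.ker π ⊔ I) = ln (I.map π) := by
  rw [ln, ln, Module.length_quotient, Module.length_quotient,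
    ← Ideal.coheight_comap_of_surjective π h, Ideal.comap_map_of_surjective π h, sup_comm]
  rfl

theorem lm_eq (hL : LenStmt.{u}) {T' T : Type u} [CommRing T'] [IsLocalRing T'] [CommRing T]
    [IsLocalRing T] [Algebra T' T] [IsLocalHom (algebraMap T' T)]
    (h : ∀ b : T, ∃ a : T', b - algebraMap T' T a ∈ maximalIdeal T) (I : Ideal T') :
    lm T I = ln (I.map (algebraMap T' T)) := by
  rw [lm, ln, Ideal.smul_top_eq_map, (Submodule.Quotient.restrictScalarsEquiv T' _).length_eq]
  exact hL T' T _ (fun a ha => map_nonunit _ a ha) h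

theorem ln_fin {R : Type u} [CommRing R] [IsLocalRing R] [IsNoetherianRing R] {I : Ideal R}
    {N : ℕ} (h : maximalIdeal R ^ N ≤ I) : ln I ≠ ⊤ :=
  ne_top_of_le_ne_top (Rd.finlen R N)
    (Module.length_le_of_surjective _ (Submodule.factor_surjective h))

theorem dvd_of_mul_X {W : Type u} [CommRing W] {p n : ℕ} {a : PS W n} {j : Fin n}
    (h : (p : PS W n) ∣ a * X j) : (p : PS W n) ∣ a := by
  rw [← map_natCast (C (σ := Fin n) (R := W)), C_dvd_iff] at h ⊢
  intro e
  have := h (e + Finsupp.single j 1)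
  rwa [X_def, coeff_add_mul_monomial, mul_one] at this

theorem bx_map {R S : Type u} [CommRing R] [CommRing S] (f : R →+* S) {d : ℕ} (y : Fin d → R)
    (t : ℕ) : (bx y t).map f = bx (fun l => f (y l)) t := by
  rw [bx, bx, Ideal.map_span, ← Set.range_comp]
  simp only [Function.comp_def, map_pow]

theorem span_map {R S : Type u} [CommRing R] [CommRing S] (f : R →+* S) {β : Type} (y : β → R) :
    (Ideal.span (Set.range y)).map f = Ideal.span (Set.range fun l => f (y l)) := by
  rw [Ideal.map_span, ← Set.range_comp]; rfl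

theorem jac_map {A T' T : Type u} [CommRing A] [CommRing T'] [CommRing T] [Algebra A T']
    [Algebra A T] [Algebra T' T] [IsScalarTower A T' T] {h : ℕ}
    (F : Fin h → MvPolynomial (Fin h) A) (v : Fin h → T') :
    algebraMap T' T (jac F v) = jac F fun i => algebraMap T' T (v i) := by
  rw [jac, jac, RingHom.map_det]
  congr 1
  ext i j
  exact (MvPolynomial.aeval_algebraMap_apply T v _).symm

theorem inf_res {p : ℕ} {W S : Type u} [CommRing W] [IsLocalRing W] [CommRing S] [IsLocalRing S]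
    [Algebra W S] {σ : W ≃+* W} (h : Frb p σ) (h' : CW W S) : Infinite (ResidueField S) := by
  have : IsLocalHom (algebraMap W S) := ⟨fun a ha => by
    by_contra c
    exact h'.loc a c ha⟩
  have : Infinite (ResidueField W) := Set.infinite_univ_iff.1 (h.inf.mono (Set.subset_univ _))
  exact Infinite.of_injective _ (ResidueField.map (algebraMap W S)).injective

/-- the data on the side of `S` -/
theorem sside (hR : RaStmt.{u}) (h2 : Hs2Stmt.{u}) {A S : Type u} [CommRing A] [CommRing S]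
    [IsLocalRing S] [IsNoetherianRing S] (π : A →+* S) (hπ : Function.Surjective π) {d : ℕ}
    (hd : 1 ≤ d) (hi : Infinite (ResidueField S)) (hg : Grow S d) {e : ℝ} (he : Mult S d e) :
    ∃ y : Fin d → A, (∀ l, π (y l) ∈ maximalIdeal S) ∧
      (∃ N, maximalIdeal S ^ N ≤ Ideal.span (Set.range fun l => π (y l))) ∧
      ln (RingHom.ker π ⊔ bx y 1) ≠ ⊤ ∧
      (∀ t : ℕ, 1 ≤ t → e * (t : ℝ) ^ d ≤ (ln (RingHom.ker π ⊔ bx y t)).toNat) ∧
      Tendsto (fun t : ℕ => ((ln (RingHom.ker π ⊔ bx y t)).toNat : ℝ) / (t : ℝ) ^ d) atTop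
        (𝓝 e) := by
  obtain ⟨x, c, hx, hc⟩ := hR S d hi hg
  choose y hy using fun l => hπ (x l)
  have hc' := hc.trans Ideal.mul_le_left
  have H := h2 S d x hd (ln_fin hc')
  obtain ⟨e', m1, m2, m3⟩ := H.mult c hx hc
  obtain rfl : e = e' := tendsto_nhds_unique he m1
  refine ⟨y, ?_⟩
  simp only [ln_comap π hπ, bx_map, hy]
  exact ⟨hx, ⟨_, hc'⟩, H.fin 1, m2, m3⟩

/-- the data on the side of `R` -/
theorem rside (h2 : Hs2Stmt.{u}) (hL : LenStmt.{u}) {R T' T : Type u} [CommRing R] [IsDomain R]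
    [IsLocalRing R] [IsNoetherianRing R] [CommRing T'] [IsLocalRing T'] [CommRing T]
    [IsLocalRing T] [Algebra T' T] [IsLocalHom (algebraMap T' T)] (j : R →+* T)
    (h : ∀ b : T, ∃ a : T', b - algebraMap T' T a ∈ maximalIdeal T) {d c p : ℕ} (hd : 1 ≤ d)
    {x : Fin d → R} {x' : Fin d → T'} (hx' : ∀ l, algebraMap T' T (x' l) = j (x l))
    {𝔶 : Ideal T'} (hl : ∀ I : Ideal R, ln (I.map j ⊔ 𝔶.map (algebraMap T' T)) = ln I)
    (hx : ∀ l, x l ∈ maximalIdeal R)
    (hc : maximalIdeal R ^ (c + 1) ≤ Ideal.span (Set.range x) * maximalIdeal R ^ c) {e : ℝ}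
    (he : Mult R d e) {δ : R} {π1 : T'} (hδ : δ ≠ 0) (hp : (p : R) ≠ 0)
    (h1 : algebraMap T' T π1 = j δ) : (∀ s, lm T (bx x' s ⊔ 𝔶) ≠ ⊤) ∧
      (∀ s : ℕ, 1 ≤ s → e * (s : ℝ) ^ d ≤ (lm T (bx x' s ⊔ 𝔶)).toNat) ∧ ∀ a : ℕ,
      Tendsto (fun s : ℕ => ((lm T (bx x' s ⊔ 𝔶 ⊔ Ideal.span {(p : T') ^ a * π1})).toNat : ℝ) /
        (s : ℝ) ^ d) atTop (𝓝 0) := by
  have H := h2 R d x hd (ln_fin (hc.trans Ideal.mul_le_left))
  obtain ⟨e', m1, m2, -⟩ := H.mult c hx hc
  obtain rfl : e = e' := tendsto_nhds_unique he m1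
  have k1 : ∀ s, (bx x' s).map (algebraMap T' T) = (bx x s).map j := fun s => by
    simp only [bx_map, hx']
  have k2 : ∀ s, lm T (bx x' s ⊔ 𝔶) = ln (bx x s) := fun s => by
    rw [lm_eq hL h, Ideal.map_sup, k1, hl]
  have k3 : ∀ s a, lm T (bx x' s ⊔ 𝔶 ⊔ Ideal.span {(p : T') ^ a * π1}) =
      ln (bx x s ⊔ Ideal.span {(p : R) ^ a * δ}) := fun s a => by
    rw [lm_eq hL h, ← hl, Ideal.map_sup, Ideal.map_sup, Ideal.map_sup, k1, sup_right_comm,
      Ideal.map_span, Ideal.map_span, Set.image_singleton, Set.image_singleton]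
    simp only [map_mul, map_pow, map_natCast, h1]
  simp only [k2, k3]
  exact ⟨H.fin, m2, fun a => (H.nzd _ fun b hb =>
    (mul_eq_zero.1 hb).resolve_left (mul_ne_zero (pow_ne_zero _ hp) hδ)).1⟩

/-- the conductor-type element -/
theorem eps (hE : EpsStmt.{u}) {A R S T' T : Type u} [CommRing A] [CommRing R] [IsDomain R]
    [CommRing S] [CommRing T'] [CommRing T] [Algebra A T'] [Algebra A T] [Algebra T' T]
    [IsScalarTower A T' T] {f : R →+* S} (hf : f.Flat) (ρ : T →+* S) {h p : ℕ} {v : Fin h → T'}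
    {F : Fin h → MvPolynomial (Fin h) A}
    (hs : Function.Surjective (MvPolynomial.aeval v : MvPolynomial (Fin h) A →ₐ[A] T'))
    (hF : ∀ i, MvPolynomial.aeval v (F i) = 0)
    (hr : ∀ b, ∃ a, b - algebraMap T' T (algebraMap A T' a) ∈ RingHom.ker ρ) {z : R} (hz : z ≠ 0)
    (hp : (p : R) ≠ 0) (hj : ρ (jac F fun i => algebraMap T' T (v i)) = f z) :
    ∃ (ε : T') (Δ : A), (∀ z ∈ (RingHom.ker ρ).comap (algebraMap T' T), ε * z ∈
      (((RingHom.ker ρ).comap (algebraMap T' T)).comap (algebraMap A T')).map (algebraMap A T')) ∧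
    ε - algebraMap A T' Δ ∈ (RingHom.ker ρ).comap (algebraMap T' T) ∧
    Nzm ((RingHom.ker ρ).comap (algebraMap T' T)) (algebraMap A T' (p * Δ)) := by
  obtain ⟨ε, Δ, a1, a2, a3⟩ := hE A T' h v F ((RingHom.ker ρ).comap (algebraMap T' T)) hs hF
    fun b => (hr (algebraMap T' T b)).imp fun a ha => by rwa [Ideal.mem_comap, map_sub]
  refine ⟨ε, Δ, a1, a2, fun b hb => ?_⟩
  rw [Ideal.mem_comap, RingHom.mem_ker, map_sub, map_sub, jac_map, hj, sub_eq_zero] at a3
  rw [Ideal.mem_comap, RingHom.mem_ker] at hb ⊢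
  refine nzd_flat hf (mul_ne_zero hp hz) _ ?_
  simpa only [map_mul, map_natCast, a3] using hb

end Vale.Agent.P202.Mx.Si
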