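import Vale.Agent.P202.Car2

/-! Mixed characteristic, part E: the Euler characteristic over a chain ring.
See `notes/P202c.md`. -/

open Finset Matrix MvPowerSeries Filter Topology IsLocalRing
open scoped Kronecker Nat

namespace Vale.Agent.P202.Mx

universe u

section lat
variable {k : Type*} [CommRing k] {E : Type*} [AddCommGroup E] [Module k E]

/-- length of `(P + Q) / P` -/
noncomputable def rl (P Q : Submodule k E) : ℕ∞ := Module.length k (Q.map P.mkQ)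

def Zc (D : Module.End k E) (X X' : ℤ → Submodule k E) (n : ℤ) : Submodule k E :=
  X n ⊓ (X' (n - 1)).comap D

def Bc (D : Module.End k E) (X X' : ℤ → Submodule k E) (n : ℤ) : Submodule k E :=
  X' n ⊔ (X (n + 1)).map D

noncomputable def hh (D g : Module.End k E) (c : ℕ) (X X' : ℤ → Submodule k E) (n : ℤ) : ℕ∞ :=
  rl (Bc D X X' n) ((Zc D X X' n).map (g ^ c))

def CxD (D : Module.End k E) (X : ℤ → Submodule k E) : Prop := ∀ n, ∀ x ∈ X n, D x ∈ X (n - 1)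

structure Cx (D g : Module.End k E) (X : ℤ → Submodule k E) : Prop where
  d : CxD D X
  g : ∀ n, ∀ x ∈ X n, g x ∈ X n

def Tame (D g : Module.End k E) (c τ : ℕ) (X X' : ℤ → Submodule k E) : Prop :=
  ∀ n, hh D g c X X' n ≠ ⊤ ∧ hh D g c X X' n ≤ hh D g (c + 1) X X' n + τ

noncomputable def chi (D g : Module.End k E) (c L : ℕ) (X X' : ℤ → Submodule k E) : ℤ :=
  ∑ n ∈ Icc (-L : ℤ) L, (n.negOnePow : ℤ) * (hh D g c X X' n).toNat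

def Fn (g : Module.End k E) (τ : ℕ) (X X' : ℤ → Submodule k E) : Prop :=
  ∀ n, rl (X' n) (X n) ≠ ⊤ ∧ rl (X' n ⊔ (X n).map g) (X n) ≤ τ

end lat

structure Lat {k E : Type u} [CommRing k] [AddCommGroup E] [Module k E] (D g : Module.End k E) :
    Prop where
  sub : ∀ X X' X'', CxD D X → CxD D X' → CxD D X'' → X'' ≤ X' → X' ≤ X →
    ∀ n, hh D g 0 X X'' n ≤ hh D g 0 X' X'' n + hh D g 0 X X' n
  anti : ∀ c X X', Cx D g X → Cx D g X' → ∀ n, hh D g c X X' n ≤ hh D g 0 X X' n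
  add : ∀ (c τ L : ℕ) X X' X'', Cx D g X → Cx D g X' → Cx D g X'' → X'' ≤ X' → X' ≤ X →
    (∀ n, (L : ℤ) < |n| → X n = ⊥) → Tame D g c τ X X'' → Tame D g c τ X' X'' →
    Tame D g c τ X X' →
    |chi D g c L X X'' - chi D g c L X' X'' - chi D g c L X X'| ≤ 3 * (2 * L + 1) * c * τ
  fin : ∀ (c τ L : ℕ) X X', Cx D g X → Cx D g X' → X' ≤ X → (∀ n, (L : ℤ) < |n| → X n = ⊥) →
    Fn g τ X X' → Tame D g c τ X X' ∧
      |chi D g c L X X' - ∑ n ∈ Icc (-L : ℤ) L, (n.negOnePow : ℤ) * (rl (X' n) (X n)).toNat| ≤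
        (2 * L + 1) * c * τ
  up : ∀ (c τ : ℕ) X X₁ B, Cx D g X → Cx D g X₁ → Cx D g B → B ≤ X₁ → X₁ ≤ X → Fn g τ X X₁ →
    (∀ n, ∀ z ∈ Zc D X₁ B n, (g ^ c) z ∈ Bc D X B n) →
    Tame D g c τ X B ∧ ∀ n, hh D g c X B n ≤ hh D g 0 X X₁ n
  down : ∀ (c : ℕ) X X₂ B n, Cx D g X → Cx D g X₂ → Cx D g B → B ≤ X → X ≤ X₂ →
    (∀ z ∈ Zc D X B n, (g ^ c) z ∈ Bc D X₂ B n) → hh D g c X B n ≤ hh D g 0 X₂ X (n + 1)
  red : ∀ X X' n, hh D g 0 X X' (n + 1) = 0 → ∀ w ∈ X (n + 1), D w ∈ X' n →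
    ∃ w' ∈ X' (n + 1), D w' = D w
  eqv : ∀ (E' : Type u) [AddCommGroup E'] [Module k E'] (D' g' : Module.End k E') X X' Y Y'
    (P : E →ₗ[k] E') (Q : E' →ₗ[k] E) (c j : ℕ) (n : ℤ), Cx D g X → Cx D g X' →
    (∀ y, g (Q y) = Q (g' y)) → (∀ z ∈ Zc D X X' n, P z ∈ Zc D' Y Y' n) →
    (∀ y ∈ Bc D' Y Y' n, Q y ∈ Bc D X X' n) →
    (∀ z ∈ Zc D X X' n, Q (P z) - (g ^ j) z ∈ Bc D X X' n) →
    hh D g (c + j) X X' n ≤ hh D' g' c Y Y' n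
  inj : ∀ (E' : Type u) [AddCommGroup E'] [Module k E'] (D' g' : Module.End k E') X X' Y Y'
    (P : E →ₗ[k] E') (c j : ℕ) (n : ℤ), Cx D g X → Cx D g X' → (∀ x, P (g x) = g' (P x)) →
    (∀ z ∈ Zc D X X' n, P z ∈ Zc D' Y Y' n) →
    (∀ z ∈ Zc D X X' n, P z ∈ Bc D' Y Y' n → (g ^ j) z ∈ Bc D X X' n) →
    hh D g (c + j) X X' n ≤ hh D' g' c Y Y' n
  sur : ∀ (E' : Type u) [AddCommGroup E'] [Module k E'] (D' g' : Module.End k E') X X' Y Y'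
    (P : E →ₗ[k] E') (c j : ℕ) (n : ℤ), Commute D' g' → Cx D' g' Y → Cx D' g' Y' →
    (∀ x, P (g x) = g' (P x)) →
    (∀ x ∈ Bc D X X' n, P x ∈ Bc D' Y Y' n) →
    (∀ y ∈ Zc D' Y Y' n, ∃ z ∈ Zc D X X' n, (g' ^ j) y - P z ∈ Bc D' Y Y' n) →
    hh D' g' (c + j) Y Y' n ≤ hh D g c X X' n

def LatStmt : Prop := ∀ (k E : Type u) [CommRing k] [AddCommGroup E] [Module k E]
  (D g : Module.End k E), D * D = 0 → Commute D g → Lat D g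

abbrev LL (V : Type u) (r : ℕ) := MvPowerSeries (Fin r) V

/-- a chain ring with uniformizer `v`, `v ^ n0 = 0` -/
structure Ch {V : Type u} [CommRing V] [IsLocalRing V] (v : V) (n0 : ℕ) : Prop where
  max : maximalIdeal V = Ideal.span {v}
  nil : v ^ n0 = 0
  ann : ∀ a c, v ^ a * c = 0 → v ^ (n0 - a) ∣ c

/-- upward closed in the level -/
def Up {r : ℕ} (S : Set (Mon r)) : Prop := ∀ e ∈ S, e + Finsupp.single none 1 ∈ S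

section cech
variable {V : Type u} [CommRing V] {r : ℕ} {ι ι' : Type} [Fintype ι] [DecidableEq ι]

/-- the ideal `(v, X_1, .., X_r)` -/
noncomputable def mw (v : V) (r : ℕ) : Ideal (PS V r) := Ideal.span (insert (C v) (Set.range X))

/-- series whose coefficient at `z ^ e'` lies in the ideal of the `v ^ m`, `(m, e') ∈ S` -/
noncomputable def Pv (v : V) (S : Set (Mon r)) : Submodule V (LL V r) :=
  ⨅ e' : Fin r →₀ ℕ, Submodule.comap (coeff e')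
    (Ideal.span ((fun e : Mon r => v ^ e none) '' {e | e ∈ S ∧ e.some = e'}) : Ideal V)

noncomputable def mu (v : V) (I : Finset (Fin r)) : LL V r := C v * ∏ a ∈ I, X a

/-- `v e_j (z)` -/
noncomputable def th (v : V) (r : ℕ) (j : Fin (r + 1)) : LL V r :=
  C v * ((MvPolynomial.esymm (Fin r) V j : MvPolynomial (Fin r) V) : LL V r)

theorem th_subst (v : V) (r : ℕ) : HasSubst fun j : Fin r => th v r j.succ := by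
  refine hasSubst_of_constantCoeff_zero fun j => ?_
  have : MvPolynomial.constantCoeff (MvPolynomial.esymm (Fin r) V (j + 1)) = 0 := by
    rw [MvPolynomial.esymm, map_sum]
    refine sum_eq_zero fun t ht => ?_
    obtain ⟨a, ha⟩ := card_pos.1 (by rw [(mem_powersetCard.1 ht).2]; omega : 0 < #t)
    rw [map_prod]
    exact prod_eq_zero ha (by simp)
  rw [th, map_mul, ← coeff_zero_eq_constantCoeff_apply (R := V) (MvPolynomial.toMvPowerSeries _),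
    MvPolynomial.coeff_coe, Fin.val_succ, ← MvPolynomial.constantCoeff_eq, this, mul_zero]

/-- the map `X_j ↦ v e_(j+1) (z)` -/
noncomputable def thA (v : V) (r : ℕ) : PS V r →ₐ[V] LL V r := substAlgHom (th_subst v r)

def Bpf (r c : ℕ) : Prop := ∀ (V : Type u) [CommRing V] (v : V) (M : ℕ) (I : Finset (Fin r)),
  ∃ g : Fin (r + 1) → LL V r, (∀ j, g j ∈ Pv v (SB r 0)) ∧
    mu v I ^ (c * M) = ∑ j, g j * th v r j ^ M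

def Spn (v : V) (r C : ℕ) : Prop := ∃ w : Fin r ! → LL V r, (∀ j, w j ∈ Pv v (SB r 0)) ∧ ∀ b : ℕ,
  rl ((⨆ j, LinearMap.range (LinearMap.mulRight V (w j) ∘ₗ (thA v r).toLinearMap)) ⊔
    Pv v (SB r b)) (Pv v (SB r 0)) ≤ (C * (b + 1) ^ r : ℕ)

noncomputable def XX (v : V) (deg : ι → ℕ) (Ω : ℕ → FJ r → Set (Mon r)) (n : ℤ) :
    Submodule V (ι × FJ r → LL V r) :=
  Submodule.pi Set.univ fun p => Pv v {e | (deg p.1 : ℤ) + r - p.2.card = n ∧ e ∈ Ω (deg p.1) p.2}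

noncomputable def XS (v : V) (N0 : ℕ) (ν : Fin r → ℤ) (deg : ι → ℕ) (Ω : ℕ → Set (Mon r)) :
    ℤ → Submodule V (ι × FJ r → LL V r) := XX v deg fun p J => Ω p ∩ cond N0 ν J

noncomputable def XF (v : V) (N0 : ℕ) (ν : Fin r → ℤ) (N : ℕ) (l : ℕ → ℕ) (deg : ι → ℕ) :
    ℤ → Submodule V (ι × FJ r → LL V r) := XS v N0 ν deg fun p => Om N0 ν N (l p)

noncomputable def sg (V : Type u) [CommRing V] (r : ℕ) : Matrix (FJ r) (FJ r) (LL V r) :=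
  diagonal fun J => (-1) ^ J.card

noncomputable def cb (V : Type u) [CommRing V] (r : ℕ) : Matrix (FJ r) (FJ r) (LL V r) :=
  ∑ b, (ct b)ᵀ.map (Int.cast : ℤ → LL V r)

noncomputable def LM (P : Matrix ι' ι (LL V r)) (T : Matrix (FJ r) (FJ r) (LL V r)) :
    (ι × FJ r → LL V r) →ₗ[V] (ι' × FJ r → LL V r) := (P ⊗ₖ T).mulVecLin.restrictScalars V

noncomputable def DD (D : Matrix ι ι (LL V r)) : Module.End V (ι × FJ r → LL V r) :=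
  LM D (sg V r) + LM 1 (cb V r)

noncomputable def gg (Γ : Matrix ι ι (LL V r)) : Module.End V (ι × FJ r → LL V r) := LM Γ 1

/-- entries of level at least `σ` -/
def Ent (v : V) (σ : ℕ) (P : Matrix ι' ι (LL V r)) : Prop := ∀ i j, P i j ∈ Pv v (SB r σ)

def Slope (v : V) (D : Matrix ι ι (LL V r)) (l : ℕ → ℕ) : Prop :=
  Antitone l ∧ ∃ σ : ℕ, Ent v σ D ∧ ∀ p, l p ≤ l (p + 1) + σ

/-- the approximate ghost property -/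
def Gho (v : V) (n0 : ℕ) (Γ : Matrix ι ι (LL V r)) (L : ℕ) (deg : ι → ℕ)
    (D : Matrix ι ι (LL V r)) : Prop :=
  ∀ (N0 : ℕ) (ν : Fin r → ℤ) (N : ℕ) (l : ℕ → ℕ) (l'' : ℕ), Antitone l → (∀ p, L ≤ l p) →
    (∀ p, l p ≤ l'') → l'' ≤ n0 → N + L ≤ N0 → ∀ n, ∀ z ∈ XF v N0 ν N l deg n,
    DD D z ∈ XF v N0 ν N (fun _ => l'') deg (n - 1) →
      ∃ w ∈ XF v N0 ν (N + L) (fun p => l p - L) deg (n + 1),
        (gg Γ ^ (r + 1)) z - DD D w ∈ XF v N0 ν (N + L) (fun _ => l'' - L) deg n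

/-- `Γ` has small cokernel on windows -/
def Sm (v : V) (n0 : ℕ) (Γ : Matrix ι ι (LL V r)) (o : ℕ) (deg : ι → ℕ) : Prop :=
  ∀ (N0 : ℕ) (ν : Fin r → ℤ) (N : ℕ) (l l' : ℕ → ℕ) (w : ℕ), (∀ p, l p ≤ l' p) →
    (∀ p, l' p ≤ n0) → (∀ p a, ν a + l' p + 2 * N + 1 ≤ N0 + w) →
    Fn (gg Γ) (o * w ^ r) (XF v N0 ν N l deg) (XF v N0 ν N l' deg)

structure Cpx (v : V) (Γ : Matrix ι ι (LL V r)) (deg : ι → ℕ) (D : Matrix ι ι (LL V r)) :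
    Prop where
  gr : Gr deg deg (-1) D
  dd : D * D = 0
  le : ∀ i, deg i ≤ r + 1
  ent : Ent v 0 D
  g0 : Gr deg deg 0 Γ
  ge : Ent v 0 Γ
  com : D * Γ = Γ * D

structure Good (v : V) (n0 : ℕ) (Γ : Matrix ι ι (LL V r)) (o L : ℕ) (deg : ι → ℕ)
    (D : Matrix ι ι (LL V r)) : Prop extends Cpx v Γ deg D where
  gho : Gho v n0 Γ L deg D
  sm : Sm v n0 Γ o deg

noncomputable def XE (v : V) (s L : ℕ) (κ : Fin (r + 1)) (l : ℕ → ℕ) (deg : ι → ℕ) :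
    ℤ → Submodule V (ι × FJ r → LL V r) :=
  XF v (2 * L + s * (r + 1)) (nu s L κ) (L + s * (r + 1)) l deg

def jj (r : ℕ) (n : ℤ) : ℕ := (n + r + 6).toNat

/-- the bottom complex -/
noncomputable def BT (v : V) (n0 s L : ℕ) (κ : Fin (r + 1)) (deg : ι → ℕ)
    (D : Matrix ι ι (LL V r)) (n : ℤ) : Submodule V (ι × FJ r → LL V r) :=
  XE v s L κ (fun _ => n0 - jj r n * L) deg n ⊓
    (XE v s L κ (fun _ => n0 - jj r (n - 1) * L) deg (n - 1)).comap (DD D)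

noncomputable def eu (v : V) (n0 : ℕ) (Γ : Matrix ι ι (LL V r)) (s L : ℕ) (κ : Fin (r + 1))
    (deg : ι → ℕ) (D : Matrix ι ι (LL V r)) : ℤ :=
  chi (DD D) (gg Γ) (5 * (r + 1)) (r + 1) (XE v s L κ (fun _ => L + s * (r + 1)) deg)
    (BT v n0 s L κ deg D)

def tau (r o s L : ℕ) : ℕ := o * (4 * (r + 1) * (L + s + 1)) ^ r

/-- the truncation is far away -/
def Far (r n0 s L : ℕ) : Prop := 1 ≤ s ∧ (2 * r + 12) * L + s * (r + 1) ≤ n0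

structure Tm (v : V) (n0 : ℕ) (Γ : Matrix ι ι (LL V r)) (o s L : ℕ) (κ : Fin (r + 1))
    (deg : ι → ℕ) (D : Matrix ι ι (LL V r)) : Prop where
  lat : Lat (DD D) (gg Γ)
  cx : ∀ l, Slope v D l → Cx (DD D) (gg Γ) (XE v s L κ l deg)
  bd : ∀ l n, ((r + 1 : ℕ) : ℤ) < |n| → XE v s L κ l deg n = ⊥
  cb : Cx (DD D) (gg Γ) (BT v n0 s L κ deg D)
  bl : ∀ l : ℕ → ℕ, (∀ p, l p ≤ 2 * L + s * (r + 1)) → BT v n0 s L κ deg D ≤ XE v s L κ l deg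
  ag : ∀ (l : ℕ → ℕ) (l'' : ℕ), Slope v D l → (∀ p, L ≤ l p) → (∀ p, l p ≤ l'') → l'' ≤ n0 →
    ∀ n, ∀ z ∈ XE v s L κ l deg n, DD D z ∈ XE v s L κ (fun _ => l'') deg (n - 1) →
    ∃ w ∈ XE v s L κ (fun p => l p - L) deg (n + 1),
      (gg Γ ^ (r + 1)) z - DD D w ∈ XE v s L κ (fun _ => l'' - L) deg n
  gh : ∀ l, Slope v D l → (∀ p, L ≤ l p) → (∀ p, l p ≤ 2 * L + s * (r + 1)) → ∀ n,
    ∀ z ∈ Zc (DD D) (XE v s L κ l deg) (BT v n0 s L κ deg D) n, ∀ c, 2 * (r + 1) ≤ c →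
    (gg Γ ^ c) z ∈ Bc (DD D) (XE v s L κ (fun p => l p - L) deg) (BT v n0 s L κ deg D) n
  fn : ∀ l l' : ℕ → ℕ, (∀ p, l p ≤ l' p) → (∀ p, l' p ≤ 2 * L + s * (r + 1)) →
    Fn (gg Γ) (tau r o s L) (XE v s L κ l deg) (XE v s L κ l' deg)
  tame : ∀ l, Slope v D l → (∀ p, l p ≤ L + s * (r + 1)) → ∀ c, 2 * (r + 1) ≤ c →
    Tame (DD D) (gg Γ) c (tau r o s L) (XE v s L κ l deg) (BT v n0 s L κ deg D) ∧
      ∀ n, hh (DD D) (gg Γ) c (XE v s L κ l deg) (BT v n0 s L κ deg D) n ≤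
        hh (DD D) (gg Γ) 0 (XE v s L κ l deg) (XE v s L κ (fun p => l p + L) deg) n

def DomL [Fintype ι'] [DecidableEq ι'] (v : V) (Γ : Matrix ι ι (LL V r)) (deg : ι → ℕ)
    (D : Matrix ι ι (LL V r)) (Γ' : Matrix ι' ι' (LL V r)) (deg' : ι' → ℕ)
    (D' : Matrix ι' ι' (LL V r)) : Prop :=
  ∃ (P : Matrix ι' ι (LL V r)) (Q : Matrix ι ι' (LL V r)) (H : Matrix ι ι (LL V r)),
    Gr deg deg' 0 P ∧ Gr deg' deg 0 Q ∧ Gr deg deg 1 H ∧ Ent v 0 P ∧ Ent v 0 Q ∧ Ent v 0 H ∧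
    D' * P = P * D ∧ D * Q = Q * D' ∧ Γ * Q = Q * Γ' ∧ Q * P + D * H + H * D = Γ

end cech

/-! ### Modules Cb, Num, Tau, Seg, Sp, Gh, Tam, E1, E2, E4, E5 -/

def CbStmt : Prop := ∀ (V : Type u) [CommRing V] [IsLocalRing V] (v : V) (n0 r : ℕ), Ch v n0 →
  ∀ (ι : Type) [Fintype ι] [DecidableEq ι] (deg : ι → ℕ) (D : Matrix ι ι (LL V r))
  (g : Module.End V (ι × FJ r → LL V r)) (N0 : ℕ) (ν : Fin r → ℤ) (Ω Ω' : ℕ → Set (Mon r)),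
  Gr deg deg (-1) D → D * D = 0 → (∀ p, Ω' p ⊆ Ω p) → (∀ p, Up (Ω p)) → (∀ p, Up (Ω' p)) →
  CxD (DD D) (XS v N0 ν deg Ω) → CxD (DD D) (XS v N0 ν deg Ω') →
  (∀ n, hh (DD D) g 0 (XS v N0 ν deg Ω) (XS v N0 ν deg Ω') n ≤
    ∑ i, Set.encard {e | e ∈ Ω (deg i) ∧ e ∉ Ω' (deg i) ∧ typ N0 ν e (deg i - n)}) ∧
  ((∀ p, ∀ e ∈ Ω p, e ∉ Ω' p → typ N0 ν e 0) → ∀ n, hh (DD D) g 0
    (XX v deg fun p J => (Ω' p ∪ {e | e ∈ Ω p ∧ ∃ a, (a, false) ∈ J}) ∩ cond N0 ν J)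
    (XS v N0 ν deg Ω') n = 0)

def NumStmt : Prop := ∀ (V : Type u) [CommRing V] [IsLocalRing V] (v : V) (n0 r : ℕ), Ch v n0 →
  (∀ S S' : Set (Mon r), Up S → Up S' → S' ⊆ S →
    rl (Pv v S') (Pv v S) = Set.encard {e | e ∈ S ∧ e ∉ S' ∧ e none < n0}) ∧
  ∀ (ι : Type) [Fintype ι] [DecidableEq ι]
  (deg : ι → ℕ) (N0 : ℕ) (ν : Fin r → ℤ) (N : ℕ) (l l' : ℕ → ℕ), (∀ i, deg i ≤ r + 1) → N ≤ N0 →
  (∀ p, l p ≤ l' p) → (∀ p, l' p ≤ n0) → (∀ p a, (N0 : ℤ) ≤ ν a + l p + N + 1) →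
  ∑ n ∈ Icc (-(r + 1 : ℕ) : ℤ) (r + 1 : ℕ), (n.negOnePow : ℤ) *
      (rl (XF v N0 ν N l' deg n) (XF v N0 ν N l deg n)).toNat =
    ∑ i, (-1) ^ deg i * ∑ m ∈ Ico (l (deg i)) (l' (deg i)), ∏ a, (ν a + m - N0 + 1)

def TauStmt : Prop := ∀ (W V : Type u) [CommRing W] [IsDomain W] [IsDiscreteValuationRing W]
  [CommRing V] [IsLocalRing V] (w : W) (n0 r : ℕ) (f : W →+* V), Irreducible w →
  Function.Surjective f → RingHom.ker f = Ideal.span {w ^ n0} → Ch (f w) n0 →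
  ∀ (κ : Type) [Fintype κ] [DecidableEq κ] (Γ : Matrix κ κ (LL W r)) (o : ℕ),
  Ent (f w) 0 (Γ.map (MvPowerSeries.map f)) → ¬ C w ^ (o + 1) ∣ Γ.det →
  ∀ (ι : Type) [Fintype ι] [DecidableEq ι] (deg : ι → ℕ),
  Sm (f w) n0 ((1 : Matrix ι ι (LL V r)) ⊗ₖ Γ.map (MvPowerSeries.map f))
    (Fintype.card ι * 4 ^ r * o) fun p => deg p.1

structure Seg (r : ℕ) : Prop where
  mem : ∀ (V : Type u) [CommRing V] (v : V) (a : PS V r) (s : ℕ),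
    a ∈ mw v r ^ s ↔ ∀ e, v ^ (s - e.degree) ∣ coeff e a
  ord : ∀ (V : Type u) [CommRing V] (v : V) (a : PS V r) (s : ℕ), a ∈ mw v r ^ s →
    thA v r a ∈ Pv v (SB r s)
  x : ∀ (V : Type u) [CommRing V] (v : V) (j : Fin r), thA v r (X j) = th v r j.succ
  map : ∀ (W V : Type u) [CommRing W] [CommRing V] (f : W →+* V) (w : W) (a : PS W r),
    MvPowerSeries.map f (thA w r a) = thA (f w) r (MvPowerSeries.map f a)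
  low : ∀ (W : Type u) [CommRing W] [IsDomain W] [IsDiscreteValuationRing W] (w : W),
    Irreducible w → ∀ (a : PS W r) (o : ℕ), a ∉ mw w r ^ (o + 1) → ¬ C w ^ (o + 1) ∣ thA w r a

def SegStmt : Prop := ∀ r, Seg.{u} r

def BpfStmt : Prop := ∀ r, ∃ c, Bpf.{u} r c

def SpStmt : Prop := ∀ (k : Type u) [Field k] (r : ℕ), ∃ C : ℕ, ∀ (V : Type u) [CommRing V]
  [IsLocalRing V] (v : V) (n0 : ℕ), Ch v n0 → Nonempty (ResidueField V ≃+* k) → Spn v r C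

def GhStmt : Prop := ∀ (r c : ℕ), Bpf.{u} r c → ∀ (V : Type u) [CommRing V] [IsLocalRing V]
  (v : V) (n0 : ℕ), Ch v n0 → ∀ (M : ℕ) (ι : Type) [Fintype ι] [DecidableEq ι]
  (Γ : Matrix ι ι (LL V r)) (deg : ι → ℕ) (D : Matrix ι ι (LL V r)), Cpx v Γ deg D →
  (∀ j, ∃ h, Gr deg deg 1 h ∧ Ent v 0 h ∧ D * h + h * D = th v r j ^ M • Γ) →
  Gho v n0 Γ ((r + 1) * c * M) deg D

def TamStmt : Prop := ∀ (V : Type u) [CommRing V] [IsLocalRing V] (v : V) (n0 r : ℕ), Ch v n0 →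
  ∀ (o s L : ℕ) (κ : Fin (r + 1)) (ι : Type) [Fintype ι] [DecidableEq ι]
  (Γ : Matrix ι ι (LL V r)) (deg : ι → ℕ) (D : Matrix ι ι (LL V r)), Far r n0 s L →
  Good v n0 Γ o L deg D → Tm v n0 Γ o s L κ deg D

def E1Stmt : Prop := ∀ (V : Type u) [CommRing V] (v : V) (n0 r o o' s L : ℕ) (κ : Fin (r + 1))
  (ι ι' : Type) [Fintype ι] [DecidableEq ι] [Fintype ι'] [DecidableEq ι']
  (Γ : Matrix ι ι (LL V r)) (deg : ι → ℕ) (D : Matrix ι ι (LL V r)) (Γ' : Matrix ι' ι' (LL V r))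
  (deg' : ι' → ℕ) (D' : Matrix ι' ι' (LL V r)), Far r n0 s L → Cpx v Γ deg D → Cpx v Γ' deg' D' →
  Tm v n0 Γ o s L κ deg D → Tm v n0 Γ' o' s L κ deg' D' →
  DomL v Γ deg D Γ' deg' D' → DomL v Γ' deg' D' Γ deg D →
  |eu v n0 Γ s L κ deg D - eu v n0 Γ' s L κ deg' D'| ≤ (2 * r + 3) * tau r (o + o') s L

def E2Stmt : Prop := ∀ (V : Type u) [CommRing V] (v : V) (n0 r o s L : ℕ) (κ : Fin (r + 1))
  (ι ι₁ ι₂ : Type) [Fintype ι] [DecidableEq ι]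
  [Fintype ι₁] [DecidableEq ι₁] [Fintype ι₂] [DecidableEq ι₂] (e : ι₁ ⊕ ι₂ ≃ ι) (deg : ι → ℕ)
  (Γ D : Matrix ι ι (LL V r)) (deg₁ : ι₁ → ℕ) (Γ₁ D₁ : Matrix ι₁ ι₁ (LL V r))
  (deg₂ : ι₂ → ℕ) (Γ₂ D₂ : Matrix ι₂ ι₂ (LL V r)), Far r n0 s L → Tri e deg D deg₁ D₁ deg₂ D₂ →
  Tri e deg Γ deg₁ Γ₁ deg₂ Γ₂ → Cpx v Γ deg D → Cpx v Γ₁ deg₁ D₁ → Cpx v Γ₂ deg₂ D₂ →
  Tm v n0 Γ o s L κ deg D → Tm v n0 Γ₁ o s L κ deg₁ D₁ → Tm v n0 Γ₂ o s L κ deg₂ D₂ →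
  |eu v n0 Γ s L κ deg D - eu v n0 Γ₁ s L κ deg₁ D₁ - eu v n0 Γ₂ s L κ deg₂ D₂| ≤
    20 * (2 * r + 3) * (r + 1) * tau r o s L

def E4Stmt : Prop := ∀ (V : Type u) [CommRing V] [IsLocalRing V] (v : V) (n0 r : ℕ), Ch v n0 →
  ∀ (o s L : ℕ) (ι : Type) [Fintype ι] [DecidableEq ι] (Γ : Matrix ι ι (LL V r)) (deg : ι → ℕ)
  (D : Matrix ι ι (LL V r)), Far r n0 s L → Cpx v Γ deg D → (∀ κ, Tm v n0 Γ o s L κ deg D) →
  Ent v s D → ∑ i, (-1 : ℤ) ^ deg i = 0 →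
  (#{i | deg i = 0} * (r + 1)! * s ^ (r + 1) : ℤ) ≤ ∑ κ, eu v n0 Γ s L κ deg D +
    20 * (2 * r + 3) * (r + 1) ^ 2 * tau r o s L

def E5Stmt : Prop := ∀ (r c C0 : ℕ), Bpf.{u} r c → ∃ C : ℕ, ∀ (V : Type u) [CommRing V]
  [IsLocalRing V] (v : V) (n0 : ℕ), Ch v n0 → Spn v r C0 → ∀ (o s L : ℕ) (κ : Fin (r + 1))
  (ι : Type) [Fintype ι] [DecidableEq ι] (Γ : Matrix ι ι (LL V r)) (deg : ι → ℕ)
  (D : Matrix ι ι (LL V r)), Far r n0 s L → Good v n0 Γ o L deg D → Tm v n0 Γ o s L κ deg D →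
  ∀ (N : Submodule (PS V r) (ι → PS V r)) (lam : ℕ),
  (∀ a ∈ N, ∃ w : ι → LL V r, (∀ i, w i ∈ Pv v (SB r 0)) ∧
    ∀ i, deg i = 0 → (Γ *ᵥ fun j => thA v r (a j)) i = (D *ᵥ w) i) →
  Module.length V ((ι → PS V r) ⧸ N) ≤ lam →
  ∀ (q : ℕ) (hq : q ≠ 0) (I0 : Ideal (PS V r)) (lam' : ℕ),
  (∀ a ∈ I0, ∀ i0, deg i0 = 0 → ∃ w : ι → LL V r, (∀ i, w i ∈ Pv v (SB r 0)) ∧
    ∀ i, deg i = 0 → Γ i i0 * thA v r (expand q hq a) = (D *ᵥ w) i) →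
  Module.length V (PS V r ⧸ (I0 ⊔ Ideal.span {MvPowerSeries.C v ^ (s * (r + 1))})) ≤ lam' →
  eu v n0 Γ s L κ deg D ≤ r ! * lam + C * (o * (L + s + 1) ^ r + Fintype.card ι *
    ((L + s + 1) ^ r + (s + q) ^ r * (lam' + s + q)))

/-! ### Generic layer: modules Kc, Shm, Eu, Dm -/

section gen
variable {Λ : Type u} [CommRing Λ] {β ι : Type} [Fintype ι] [DecidableEq ι]

structure GdG (ξ : β → Λ) (γ : Λ) (M ℓ : ℕ) (deg : ι → ℕ) (D : Matrix ι ι Λ) : Prop where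
  gr : Gr deg deg (-1) D
  dd : D * D = 0
  le : ∀ i, deg i ≤ ℓ
  nul : ∀ j, ∃ h, Gr deg deg 1 h ∧ D * h + h * D = (γ * ξ j ^ M) • (1 : Matrix ι ι Λ)

structure ComG (ξ : β → Λ) (γ : Λ) (M ℓ t : ℕ) {d : ℕ} (dn : ι → ℕ) (Y : Fin d → Matrix ι ι Λ)
    (d0 : Matrix ι ι Λ) : Prop where
  le : ∀ a, d + dn a ≤ ℓ
  g0 : ∀ l, Gr dn dn 0 (Y l)
  g1 : Gr dn dn (-1) d0
  dd : d0 * d0 = 0
  com : ∀ i j, Commute (Y i) (Y j)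
  cd : ∀ i, Commute (Y i) d0
  gen : ∀ j, ∃ (Z : Fin d → Matrix ι ι Λ) (h : Matrix ι ι Λ), (∀ l, Gr dn dn 0 (Z l)) ∧
    Gr dn dn 1 h ∧ (∀ l l', Commute (Z l) (Y l')) ∧ (∀ l, Commute (Z l) d0) ∧
    (∀ l, Commute h (Y l)) ∧
    ∑ l, Z l * Y l ^ t + (d0 * h + h * d0) = (γ * ξ j ^ M) • (1 : Matrix ι ι Λ)

abbrev Fct (Λ : Type u) := ∀ (ι : Type) [Fintype ι] [DecidableEq ι], (ι → ℕ) → Matrix ι ι Λ → ℤ

structure Eu12 (ξ : β → Λ) (γ : Λ) (M ℓ : ℕ) (f : Fct Λ) (η : ℕ) : Prop where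
  e1 : ∀ (ι ι' : Type) [Fintype ι] [DecidableEq ι] [Fintype ι'] [DecidableEq ι'] deg D deg' D',
    GdG ξ γ M ℓ deg D → GdG ξ γ M ℓ deg' D' → Dom γ deg D deg' D' → Dom γ deg' D' deg D →
    |f ι deg D - f ι' deg' D'| ≤ (Fintype.card ι + Fintype.card ι') * η
  e2 : ∀ (ι ι₁ ι₂ : Type) [Fintype ι] [DecidableEq ι] [Fintype ι₁] [DecidableEq ι₁] [Fintype ι₂]
    [DecidableEq ι₂] (e : ι₁ ⊕ ι₂ ≃ ι) deg D deg₁ D₁ deg₂ D₂, Tri e deg D deg₁ D₁ deg₂ D₂ →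
    GdG ξ γ M ℓ deg D → GdG ξ γ M ℓ deg₁ D₁ → GdG ξ γ M ℓ deg₂ D₂ →
    |f ι deg D - f ι₁ deg₁ D₁ - f ι₂ deg₂ D₂| ≤ Fintype.card ι * η

structure EuG (V : Type u) {A : Type u} [CommRing V] [CommRing A] [Algebra V A] [Algebra V Λ]
    (ε : A →+* Λ) (z0 : A) (𝔬 : Ideal Λ) (ξ : β → Λ) (γ : Λ) (M ℓ : ℕ) (f : Fct Λ)
    (x F η η' y : ℕ) : Prop extends Eu12 ξ γ M ℓ f η where
  e4 : ∀ (ι : Type) [Fintype ι] [DecidableEq ι] deg D, GdG ξ γ M ℓ deg D → (∀ i j, D i j ∈ 𝔬) →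
    ∑ i, (-1 : ℤ) ^ deg i = 0 → (#{i | deg i = 0} * x : ℤ) ≤ f ι deg D + Fintype.card ι * η
  e5 : ∀ (ι : Type) [Fintype ι] [DecidableEq ι] deg D, GdG ξ γ M ℓ deg D →
    ∀ (N : Submodule Λ (ι → Λ)) (lam : ℕ),
    (∀ a ∈ N, ∃ w, ∀ i, deg i = 0 → γ * a i = (D *ᵥ w) i) →
    Module.length V ((ι → Λ) ⧸ N) ≤ lam → ∀ (I0 : Ideal A) (lam' : ℕ),
    (∀ a ∈ I0, ∀ i0, deg i0 = 0 → ∃ w, ∀ i, deg i = 0 →
      (if i = i0 then γ * ε a else 0) = (D *ᵥ w) i) →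
    Module.length V (A ⧸ (I0 ⊔ Ideal.span {z0})) ≤ lam' →
    f ι deg D ≤ F * lam + Fintype.card ι * (η' + y * lam')

end gen

def KcStmt : Prop := ∀ (Λ : Type u) [CommRing Λ] (β : Type) (ξ : β → Λ) (γ : Λ) (M ℓ t d : ℕ)
  (n : Type) [Fintype n] [DecidableEq n] (dn : n → ℕ) (Y : Fin d → Matrix n n Λ)
  (d0 : Matrix n n Λ), 1 ≤ t → ComG ξ γ M ℓ t dn Y d0 →
  GdG ξ γ M ℓ (kc dn) (KosC Y d0) ∧ GdG ξ γ M ℓ (kc dn) (KosC (fun l => Y l ^ t) d0) ∧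
  ∀ f η, Eu12 ξ γ M ℓ f η →
  |f _ (kc dn) (KosC (fun l => Y l ^ t) d0) - t ^ d * f _ (kc dn) (KosC Y d0)| ≤
    5 * t ^ d * (2 ^ d * Fintype.card n) * η

def ShmStmt : Prop := ∀ (V A Λ Λ' : Type u) [CommRing V] [CommRing A] [CommRing Λ] [CommRing Λ']
  [Algebra V A] [Algebra V Λ] [Algebra V Λ'] (π : Λ →ₐ[V] Λ') (ξ0 : Λ) (ε : A →+* Λ) (z0 : A)
  (𝔬 : Ideal Λ) (β : Type) (ξ : β → Λ) (γ : Λ) (M ℓ : ℕ) (f : Fct Λ) (x F η η' y : ℕ),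
  Function.Surjective π → RingHom.ker π = Ideal.span {ξ0} → (∀ h, ξ0 * h = 0 → h = 0) →
  ξ0 ∈ 𝔬 → (∀ h, ξ0 * h ∈ 𝔬 ^ 2 → h ∈ 𝔬) → EuG V ε z0 𝔬 ξ γ M (ℓ + 1) f x F η η' y →
  ∃ f', EuG V ((π : Λ →+* Λ').comp ε) z0 (𝔬.map π) (fun j => π (ξ j)) (π γ) M ℓ f' x F (2 * η)
    (2 * η') (2 * y)

/-- the family `v, X_1, .., X_r` -/
noncomputable def xi {V : Type u} [CommRing V] (v : V) (r : ℕ) : Fin (r + 1) → PS V r :=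
  Fin.cons (C v) X

def EuStmt : Prop := ∀ (k : Type u) [Field k] (r : ℕ), ∃ C : ℕ, ∀ (V : Type u) [CommRing V]
  [IsLocalRing V] (v : V) (n0 : ℕ), Ch v n0 → Nonempty (ResidueField V ≃+* k) →
  ∀ (Λ : Type u) [CommRing Λ] [Algebra (PS V r) Λ] [Algebra V Λ] [IsScalarTower V (PS V r) Λ]
  (κ : Type) [Fintype κ] [DecidableEq κ] (b : Module.Basis κ (PS V r) Λ) (γ : Λ)
  (o s M q : ℕ) (hq : q ≠ 0), 1 ≤ s → C * (M + s) ≤ n0 →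
  (∀ (ι : Type) [Fintype ι] [DecidableEq ι] (deg : ι → ℕ),
    Sm v n0 ((1 : Matrix ι ι (LL V r)) ⊗ₖ (Algebra.leftMulMatrix b γ).map (thA v r))
      (Fintype.card ι * o) fun p => deg p.1) →
  ∃ f, EuG V ((algebraMap (PS V r) Λ).comp (expand q hq).toRingHom) (MvPowerSeries.C v ^ (s * (r + 1)))
    ((mw v r ^ s).map (algebraMap (PS V r) Λ)) (fun j => algebraMap (PS V r) Λ (xi v r j)) γ M
    (r + 1) f (Fintype.card κ * (r + 1)! * s ^ (r + 1)) (r + 1)! (C * o * (M + s + 1) ^ r)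
    (C * ((o + Fintype.card κ) * (M + s + 1) ^ r + Fintype.card κ * (s + q) ^ (r + 1)))
    (C * Fintype.card κ * (s + q) ^ r)

def DmStmt : Prop := ∀ (T : Type u) [CommRing T] (m J : Ideal T) (c d N : ℕ) (ι : Type)
  [Fintype ι] [DecidableEq ι] (deg : ι → ℕ) (dF : Matrix ι ι T) (i0 : ι) (y : Fin d → T)
  (β : Type) (xT : β → T), 1 ≤ d → m ≠ ⊤ → (∀ b, b ∉ m → IsUnit b) → Rs J c deg dF i0 → J ≤ m →
  (∀ l, y l ∈ m) → (∀ j, xT j ^ N ∈ J ⊔ Ideal.span (Set.range y)) →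
  ∃ C : ℕ, ∀ (t q : ℕ) (V A Λ : Type u) [CommRing V] [CommRing A] [CommRing Λ] [Algebra V A]
  [Algebra V Λ] (ε : A →+* Λ) (z0 : A) (𝔬 : Ideal Λ) (ξ : β → Λ) (γ : Λ) (ℓ : ℕ) (f : Fct Λ)
  (x F η η' y' : ℕ) (Φ : T →+ Λ), 1 ≤ t → d + c ≤ ℓ →
  EuG V ε z0 𝔬 ξ (γ ^ (t + 2)) (N * d * t * q) ℓ f x F η η' y' →
  (∀ b b', Φ b * Φ b' = γ * Φ (b * b')) → Φ 1 = γ →
  (∀ j, ∃ a ≤ q, ∀ b, Φ (xT j * b) = ξ j ^ a * Φ b) → (∀ b ∈ m, Φ b ∈ 𝔬) →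
  ∀ (𝔑 : Ideal Λ) (lam : ℕ) (I0 : Ideal A) (lam' : ℕ),
  𝔑 ≤ Ideal.span {z | ∃ b ∈ J ⊔ Ideal.span (Set.range fun l => y l ^ t), γ * z = Φ b} →
  Module.length V (Λ ⧸ 𝔑) ≤ lam →
  I0 ≤ Ideal.span {a | ∃ b ∈ J ⊔ Ideal.span (Set.range fun l => y l ^ t), γ * ε a = Φ b} →
  Module.length V (A ⧸ (I0 ⊔ Ideal.span {z0})) ≤ lam' →
  t ^ d * x ≤ F * lam + C * (t ^ d * η + η' + y' * lam')

end Vale.Agent.P202.Mx
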