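import Vale.Agent.P202.M.SpecE

/-! Mixed characteristic, part I: commutative algebra. See `notes/P202d.md`. -/

open Finset Matrix MvPowerSeries Filter Topology IsLocalRing
open scoped Kronecker Nat

namespace Vale.Agent.P202.Mx

universe u

/-- length of `R / I` -/
noncomputable def ln {R : Type u} [CommRing R] (I : Ideal R) : ℕ∞ := Module.length R (R ⧸ I)

/-- length of `M / I M` -/
noncomputable def lm {R : Type u} [CommRing R] (M : Type u) [AddCommGroup M] [Module R M]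
    (I : Ideal R) : ℕ∞ := Module.length R (M ⧸ (I • ⊤ : Submodule R M))

/-- the ideal of `t`-th powers -/
def bx {R : Type u} [CommRing R] {d : ℕ} (y : Fin d → R) (t : ℕ) : Ideal R :=
  Ideal.span (Set.range fun l => y l ^ t)

def Grow (R : Type u) [CommRing R] [IsLocalRing R] (d : ℕ) : Prop :=
  ∃ C : ℕ, ∀ N, hs R N ≤ C * (N + 1) ^ d

def Le (R S : Type u) [CommRing R] [IsLocalRing R] [CommRing S] [IsLocalRing S] (d D : ℕ) : Prop :=
  ∀ e e' : ℝ, Mult R d e → Mult S D e' → e ≤ e'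

/-- a complete discrete valuation ring with uniformizer `p` -/
structure Coh (p : ℕ) (W : Type u) [CommRing W] [IsDomain W] [IsDiscreteValuationRing W] :
    Prop where
  max : maximalIdeal W = Ideal.span {(p : W)}
  cpl : IsAdicComplete (maximalIdeal W) W

/-- a Frobenius lift with many Teichmuller elements -/
structure Frb (p : ℕ) {W : Type u} [CommRing W] [IsLocalRing W] (σ : W ≃+* W) : Prop where
  frob : ∀ a, (p : W) ∣ σ a - a ^ p
  inf : (residue W '' {c | σ c = c ^ p}).Infinite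

/-- complete local with coefficient ring `W` -/
structure CW (W R : Type u) [CommRing W] [IsLocalRing W] [CommRing R] [IsLocalRing R]
    [Algebra W R] : Prop where
  noeth : IsNoetherianRing R
  cpl : IsAdicComplete (maximalIdeal R) R
  res : ∀ b : R, ∃ a : W, b - algebraMap W R a ∈ maximalIdeal R
  loc : ∀ a ∈ maximalIdeal W, algebraMap W R a ∈ maximalIdeal R

/-- the ideal `(p, X)` -/
noncomputable def mv (p : ℕ) (W : Type u) [CommRing W] (σ : Type) : Ideal (MvPowerSeries σ W) :=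
  Ideal.span (insert (p : MvPowerSeries σ W) (Set.range X))

/-! ### Modules LEN, HS1, HS2, RI, RA, RX, EX, UD -/

def LenStmt : Prop := ∀ (A R M : Type u) [CommRing A] [IsLocalRing A] [CommRing R] [IsLocalRing R]
  [Algebra A R] [AddCommGroup M] [Module R M] [Module A M] [IsScalarTower A R M],
  (∀ a ∈ maximalIdeal A, algebraMap A R a ∈ maximalIdeal R) →
  (∀ b : R, ∃ a : A, b - algebraMap A R a ∈ maximalIdeal R) →
  Module.length A M = Module.length R M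

def Hs1Stmt : Prop := ∀ (R M : Type u) [CommRing R] [AddCommGroup M] [Module R M] (d : ℕ)
  (y : Fin d → R), (∀ t u, lm M (bx y (t * u)) ≤ (u ^ d : ℕ) * lm M (bx y t)) ∧
  (∀ N, lm M (Ideal.span (Set.range y) ^ N) ≤ ((N + 1) ^ d : ℕ) * lm M (bx y 1)) ∧
  (lm M (bx y 1) ≠ ⊤ → ∃ E : ℝ, (∀ t : ℕ, 1 ≤ t → E * (t : ℝ) ^ d ≤ (lm M (bx y t)).toNat) ∧
    Tendsto (fun t : ℕ => ((lm M (bx y t)).toNat : ℝ) / (t : ℝ) ^ d) atTop (𝓝 E) ∧
    Tendsto (fun N : ℕ => (d ! : ℝ) * (lm M (Ideal.span (Set.range y) ^ N)).toNat / (N : ℝ) ^ d)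
      atTop (𝓝 E))

structure Hs2 (R : Type u) [CommRing R] {d : ℕ} (y : Fin d → R) : Prop where
  fin : ∀ t, ln (bx y t) ≠ ⊤
  nzd : ∀ g : R, (∀ a, g * a = 0 → a = 0) →
    Tendsto (fun t : ℕ => ((ln (bx y t ⊔ Ideal.span {g})).toNat : ℝ) / (t : ℝ) ^ d) atTop (𝓝 0) ∧
    Tendsto (fun N : ℕ => ((ln (Ideal.span (Set.range y) ^ N ⊔ Ideal.span {g})).toNat : ℝ) /
      (N : ℝ) ^ d) atTop (𝓝 0) ∧
    ∃ N, ln (Ideal.span (Set.range y) ^ N ⊔ Ideal.span {g}) < ((N + d - 1).choose d : ℕ)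
  mult : ∀ [IsLocalRing R] (c : ℕ), (∀ l, y l ∈ maximalIdeal R) →
    maximalIdeal R ^ (c + 1) ≤ Ideal.span (Set.range y) * maximalIdeal R ^ c →
    ∃ e : ℝ, Mult R d e ∧ (∀ t : ℕ, 1 ≤ t → e * (t : ℝ) ^ d ≤ (ln (bx y t)).toNat) ∧
      Tendsto (fun t : ℕ => ((ln (bx y t)).toNat : ℝ) / (t : ℝ) ^ d) atTop (𝓝 e)

def Hs2Stmt : Prop := ∀ (R : Type u) [CommRing R] [IsNoetherianRing R] (d : ℕ) (y : Fin d → R),
  1 ≤ d → ln (Ideal.span (Set.range y)) ≠ ⊤ → Hs2 R y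

def RiStmt : Prop := ∀ (R : Type u) [CommRing R] [IsLocalRing R] [IsNoetherianRing R] (𝒯 : Set R)
  (n : ℕ) (x : Fin (n + 1) → R) (K : Ideal R), (residue R '' 𝒯).Infinite →
  (∀ i, x i ∈ maximalIdeal R) →
  (∃ N, ln (Ideal.span (Set.range x) ^ N ⊔ K) < ((N + n).choose (n + 1) : ℕ)) →
  ∃ (c : Fin n → R) (j : ℕ), (∀ i, c i ∈ 𝒯) ∧ Ideal.span (Set.range x) ^ (j + 1) ≤
    Ideal.span (Set.range fun i => x i.succ - c i * x 0) * Ideal.span (Set.range x) ^ j ⊔ K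

def RaStmt : Prop := ∀ (R : Type u) [CommRing R] [IsLocalRing R] [IsNoetherianRing R] (d : ℕ),
  Infinite (ResidueField R) → Grow R d → ∃ (x : Fin d → R) (c : ℕ),
    (∀ i, x i ∈ maximalIdeal R) ∧
    maximalIdeal R ^ (c + 1) ≤ Ideal.span (Set.range x) * maximalIdeal R ^ c

def RxStmt : Prop := ∀ (R S : Type u) [CommRing R] [IsLocalRing R] [IsNoetherianRing R]
  [CommRing S] [IsLocalRing S] [IsNoetherianRing S] (f : R →+* S) [IsLocalHom f], f.Flat →
  ∃ (R' S' : Type u) (_ : CommRing R') (_ : IsLocalRing R') (_ : IsNoetherianRing R')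
    (_ : CommRing S') (_ : IsLocalRing S') (_ : IsNoetherianRing S') (a : R →+* R') (b : S →+* S')
    (f' : R' →+* S'), Unr a ∧ Unr b ∧ Infinite (ResidueField R') ∧ f'.Flat ∧ IsLocalHom f' ∧
    ∀ x, f' (a x) = b (f x)

def ExStmt : Prop := ∀ (R : Type u) [CommRing R] [IsLocalRing R] [IsNoetherianRing R] (d : ℕ),
  Grow R d → ∃ e, 0 ≤ e ∧ Mult R d e ∧ ∀ d', d < d' → Mult R d' 0

def UdStmt : Prop := ∀ (R S : Type u) [CommRing R] [IsLocalRing R] [IsNoetherianRing R]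
  [CommRing S] [IsLocalRing S] [IsNoetherianRing S] (f : R →+* S),
  (Unr f → ringKrullDim S = ringKrullDim R) ∧
  ∀ (d D : ℕ), IsLocalHom f → f.Flat → ringKrullDim R = d → ringKrullDim S = (D + 1 : ℕ) →
    d ≤ D → ∃ (P : Ideal S) (_ : P.IsPrime), (maximalIdeal R).map f ≤ P ∧
      ringKrullDim (S ⧸ P) = 1 ∧ ringKrullDim (Localization.AtPrime P) = D

/-! ### Modules CH, LI, WI, EV, BW, GW, NR -/

def CohStmt : Prop := ∀ (p : ℕ) [Fact p.Prime] (κ : Type u) [Field κ] [CharP κ p],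
  ∃ (C : Type u) (_ : CommRing C) (_ : IsDomain C) (_ : IsDiscreteValuationRing C),
    Coh p C ∧ Nonempty (ResidueField C ≃+* κ)

def LiftStmt : Prop := ∀ (p : ℕ) [Fact p.Prime] (C B S : Type u) [CommRing C] [IsDomain C]
  [IsDiscreteValuationRing C] [CommRing B] [IsLocalRing B] [CommRing S] (π : B →+* S)
  (f : C →+* S), maximalIdeal C = Ideal.span {(p : C)} → IsAdicComplete (maximalIdeal B) B →
  (p : B) ∈ maximalIdeal B → Function.Surjective π → RingHom.ker π ≤ maximalIdeal B →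
  (∀ s, (∀ n, s ∈ (maximalIdeal B ^ n).map π) → s = 0) → ∃ g : C →+* B, ∀ c, π (g c) = f c

def WitStmt : Prop := ∀ (p : ℕ) [Fact p.Prime] (L : Type u) [Field L] [CharP L p] [IsAlgClosed L],
  ∃ (W : Type u) (_ : CommRing W) (_ : IsDomain W) (_ : IsDiscreteValuationRing W) (σ : W ≃+* W),
    Coh p W ∧ Frb p σ ∧ Nonempty (ResidueField W ≃+* L)

structure EvW (p : ℕ) (W : Type u) [CommRing W] [IsDomain W] [IsDiscreteValuationRing W]
    (σ : Type) [Fintype σ] : Prop where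
  max : maximalIdeal (MvPowerSeries σ W) = mv p W σ
  cw : CW W (MvPowerSeries σ W)
  mem : ∀ (a : MvPowerSeries σ W) (s : ℕ), a ∈ mv p W σ ^ s ↔ ∀ e, (p : W) ^ (s - e.degree) ∣ coeff e a
  ev : ∀ (Λ : Type u) [CommRing Λ] [Algebra W Λ] (I : Ideal Λ), IsAdicComplete I Λ →
    ∀ y : σ → Λ, (∀ i, y i ∈ I.radical) → ∃ f : MvPowerSeries σ W →ₐ[W] Λ, ∀ i, f (X i) = y i
  ext : ∀ (Λ : Type u) [CommRing Λ] (I : Ideal Λ), IsHausdorff I Λ →
    ∀ f g : MvPowerSeries σ W →+* Λ, (∀ c, f (C c) = g (C c)) → (∀ i, f (X i) = g (X i)) →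
    (∀ i, f (X i) ∈ I.radical) → f = g
  fin : ∀ (M : Type u) [AddCommGroup M] [Module (MvPowerSeries σ W) M], IsHausdorff (mv p W σ) M →
    Module.Finite (MvPowerSeries σ W) (M ⧸ (mv p W σ • ⊤ : Submodule (MvPowerSeries σ W) M)) →
    Module.Finite (MvPowerSeries σ W) M
  cpl : ∀ (M : Type u) [AddCommGroup M] [Module (MvPowerSeries σ W) M]
    [Module.Finite (MvPowerSeries σ W) M], IsAdicComplete (mv p W σ) M
  alg : ∀ (R : Type u) [CommRing R] [IsLocalRing R] [Algebra W R]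
    [Algebra (MvPowerSeries σ W) R] [IsScalarTower W (MvPowerSeries σ W) R], CW W R →
    (∀ i, algebraMap (MvPowerSeries σ W) R (X i) ∈ maximalIdeal R) →
    (∃ N, maximalIdeal R ^ N ≤ (mv p W σ).map (algebraMap (MvPowerSeries σ W) R)) →
    Module.Finite (MvPowerSeries σ W) R

def EvWStmt : Prop := ∀ (p : ℕ) (W : Type u) [CommRing W] [IsDomain W] [IsDiscreteValuationRing W]
  (σ : Type) [Fintype σ], Coh p W → EvW p W σ

def BcWStmt : Prop := ∀ (p : ℕ) (C W R : Type u) [CommRing C] [IsDomain C]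
  [IsDiscreteValuationRing C] [CommRing W] [IsDomain W] [IsDiscreteValuationRing W] [Algebra C W]
  [CommRing R] [IsLocalRing R] [Algebra C R], Coh p C → Coh p W → CW C R →
  ∃ (R' : Type u) (_ : CommRing R') (_ : IsLocalRing R') (_ : Algebra W R') (a : R →+* R'),
    CW W R' ∧ Unr a

structure GonW (p : ℕ) (S : Type u) [CommRing S] [IsLocalRing S] : Prop where
  cpl : ∃ (C S' : Type u) (_ : CommRing C) (_ : IsDomain C) (_ : IsDiscreteValuationRing C)
    (_ : CommRing S') (_ : IsLocalRing S') (_ : Algebra C S') (a : S →+* S'),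
    Coh p C ∧ CW C S' ∧ Unr a ∧ (Infinite (ResidueField S) → Infinite (ResidueField S')) ∧
    ∀ (Z : Type u) [CommRing Z] [IsLocalRing Z] [IsNoetherianRing Z] (g : S →+* Z),
      IsAdicComplete (maximalIdeal Z) Z → IsLocalHom g → g.Flat →
      ∃ g' : S' →+* Z, IsLocalHom g' ∧ g'.Flat ∧ ∀ x, g' (a x) = g x
  gon : ∃ (W S' : Type u) (_ : CommRing W) (_ : IsDomain W) (_ : IsDiscreteValuationRing W)
    (σ : W ≃+* W) (_ : CommRing S') (_ : IsLocalRing S') (_ : Algebra W S') (a : S →+* S'),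
    Coh p W ∧ Frb p σ ∧ IsAlgClosed (ResidueField W) ∧ CW W S' ∧ Unr a

def GonWStmt : Prop := ∀ (p : ℕ) [Fact p.Prime] (S : Type u) [CommRing S] [IsLocalRing S]
  [IsNoetherianRing S], (p : S) ∈ maximalIdeal S → GonW p S

def NrmStmt : Prop := ∀ (C : Type u) [CommRing C] [IsDomain C] [IsDiscreteValuationRing C] (n : ℕ),
  IsIntegrallyClosed (PS C n)

/-! ### Modules TW, BT, EP, CO, UB, LB -/

/-- the Jacobian determinant -/
noncomputable def jac {A R : Type u} [CommRing A] [CommRing R] [Algebra A R] {h : ℕ}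
    (F : Fin h → MvPolynomial (Fin h) A) (u : Fin h → R) : R :=
  (Matrix.of fun i j => MvPolynomial.aeval u (MvPolynomial.pderiv j (F i))).det

def TwMStmt : Prop := ∀ (A R : Type u) [CommRing A] [IsDomain A] [IsIntegrallyClosed A] [CharZero A]
  [CommRing R] [IsDomain R] [Algebra A R] [Module.Finite A R] (x : R) (π0 : A),
  Function.Injective (algebraMap A R) → π0 ≠ 0 →
  ∃ (θ : R) (F : Fin 2 → MvPolynomial (Fin 2) A) (δ : A), δ ≠ 0 ∧ algebraMap A R π0 ∣ θ ∧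
    RingHom.ker (MvPolynomial.aeval ![x, θ] : MvPolynomial (Fin 2) A →ₐ[A] R) =
      Ideal.span (Set.range F) ∧ jac F ![x, θ] ≠ 0 ∧
    ∀ b, ∃ g : MvPolynomial (Fin 2) A, MvPolynomial.aeval ![x, θ] g = algebraMap A R δ * b

def BtMStmt : Prop := ∀ (A A' R T : Type u) [CommRing A] [CommRing A'] [CommRing R] [CommRing T]
  [Algebra A A'] [Algebra A R] [Algebra A T] [Algebra A' T] [Algebra R T] [IsScalarTower A A' T]
  [IsScalarTower A R T] [Algebra.IsPushout A A' R T] [Module.Flat A A'] (h : ℕ) (u : Fin h → R)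
  (F : Fin h → MvPolynomial (Fin h) A) (δ : A),
  RingHom.ker (MvPolynomial.aeval u : MvPolynomial (Fin h) A →ₐ[A] R) = Ideal.span (Set.range F) →
  (∀ b, ∃ g : MvPolynomial (Fin h) A, MvPolynomial.aeval u g = algebraMap A R δ * b) →
  RingHom.ker (MvPolynomial.aeval (fun i => algebraMap R T (u i)) :
      MvPolynomial (Fin h) A' →ₐ[A'] T) =
    Ideal.span (Set.range fun i => MvPolynomial.map (algebraMap A A') (F i)) ∧
  jac (fun i => MvPolynomial.map (algebraMap A A') (F i)) (fun i => algebraMap R T (u i)) =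
    algebraMap R T (jac F u) ∧
  ∀ b, ∃ g : MvPolynomial (Fin h) A',
    MvPolynomial.aeval (fun i => algebraMap R T (u i)) g = algebraMap A T δ * b

def EpsStmt : Prop := ∀ (A T : Type u) [CommRing A] [CommRing T] [Algebra A T] (h : ℕ)
  (u : Fin h → T) (F : Fin h → MvPolynomial (Fin h) A) (J : Ideal T),
  Function.Surjective (MvPolynomial.aeval u : MvPolynomial (Fin h) A →ₐ[A] T) →
  (∀ i, MvPolynomial.aeval u (F i) = 0) → (∀ b, ∃ a, b - algebraMap A T a ∈ J) →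
  ∃ (ε : T) (Δ : A), (∀ z ∈ J, ε * z ∈ (J.comap (algebraMap A T)).map (algebraMap A T)) ∧
    ε - algebraMap A T Δ ∈ J ∧ algebraMap A T Δ - jac F u ∈ J

def CoMStmt : Prop := ∀ (p : ℕ) [Fact p.Prime] (C W S : Type u) [CommRing C] [IsDomain C]
  [IsDiscreteValuationRing C] [CommRing W] [IsDomain W] [IsDiscreteValuationRing W] [CommRing S]
  [IsLocalRing S] [Algebra W S] (n : ℕ) (f : PS C n →+* S), Coh p C → Coh p W → CW W S →
  (∀ i, f (X i) ∈ maximalIdeal S) →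
  ∃ (c : ℕ) (g : PS C n →+* PS W (n + (c + 1))) (π : PS W (n + (c + 1)) →ₐ[W] S),
    Function.Surjective π ∧ (∀ a, π (g a) = f a) ∧ (∀ i, g (X i) = X (Fin.castAdd (c + 1) i)) ∧
    (∀ i, π (X i) ∈ maximalIdeal S) ∧ g.Flat ∧
    ((Ideal.Quotient.mk (Ideal.span (Set.range fun i : Fin (c + 1) =>
      (X (Fin.natAdd n i) : PS W (n + (c + 1)))))).comp g).Flat ∧
    Nonempty (PS (ResidueField W) (c + 1) ≃+* PS W (n + (c + 1)) ⧸ (mv p C (Fin n)).map g)

/-- `M` is a free `A`-module that looks like `T' ^ μ` after inverting `π0` -/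
structure Mo (A T' M : Type u) [CommRing A] [CommRing T'] [Algebra A T'] [AddCommGroup M]
    [Module T' M] [Module A M] (π0 : A) (μ : ℕ) : Prop where
  fr : Module.Free A T'
  fi : Module.Finite A T'
  free : Module.Free A M
  fin : Module.Finite A M
  rk : Module.finrank A M ≤ Module.finrank A T' * μ
  map : ∃ (g : M →ₗ[T'] (Fin μ → T')) (a : ℕ), ∀ z, ∃ w, g w = algebraMap A T' π0 ^ a • z

def UbStmt : Prop := ∀ (A T' M : Type u) [CommRing A] [IsLocalRing A] [IsNoetherianRing A]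
  [CommRing T'] [Algebra A T'] [AddCommGroup M] [Module T' M] [Module A M] [IsScalarTower A T' M]
  (π0 : A) (μ : ℕ) (J : Ideal T') (ε : T') (Δ : A) (d : ℕ) (y : Fin d → A) (E : ℝ),
  Mo A T' M π0 μ → 1 ≤ d → J ≠ ⊤ → (∀ b, ∃ a, b - algebraMap A T' a ∈ J) →
  (∀ z ∈ J, ε * z ∈ (J.comap (algebraMap A T')).map (algebraMap A T')) →
  ε - algebraMap A T' Δ ∈ J → (∀ b, algebraMap A T' (π0 * Δ) * b ∈ J → b ∈ J) →
  ln (J.comap (algebraMap A T') ⊔ bx y 1) ≠ ⊤ →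
  (∀ t : ℕ, 1 ≤ t → E * (t : ℝ) ^ d ≤ (ln (J.comap (algebraMap A T') ⊔ bx y t)).toNat) →
  ∀ t : ℕ, 1 ≤ t → ∃ lam : ℕ, Module.length A
      (M ⧸ ((J ⊔ (bx y t).map (algebraMap A T')) • ⊤ : Submodule T' M)) ≤ lam ∧
    (lam : ℝ) ≤ μ * (E * (t : ℝ) ^ d + Module.finrank A T' *
      ((ln (J.comap (algebraMap A T') ⊔ bx y t)).toNat - E * (t : ℝ) ^ d +
        (ln (J.comap (algebraMap A T') ⊔ bx y t ⊔ Ideal.span {Δ})).toNat))

def LbStmt : Prop := ∀ (T' T M : Type u) [CommRing T'] [CommRing T] [Algebra T' T] [AddCommGroup M]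
  [Module T' M] (μ d : ℕ) (g : M →ₗ[T'] (Fin μ → T')) (π0 π1 : T') (x : Fin d → T')
  (𝔶 : Ideal T') (E : ℝ) (lam : ℕ), (∀ z, ∃ w, g w = π0 • z) →
  (∀ b, ∃ b', algebraMap T' T b' = algebraMap T' T π1 * b) → (∀ s, lm T (bx x s ⊔ 𝔶) ≠ ⊤) →
  (∀ s : ℕ, 1 ≤ s → E * (s : ℝ) ^ d ≤ (lm T (bx x s ⊔ 𝔶)).toNat) →
  Tendsto (fun s : ℕ => ((lm T (bx x s ⊔ 𝔶 ⊔ Ideal.span {π0 * π1})).toNat : ℝ) / (s : ℝ) ^ d)
    atTop (𝓝 0) → lm M (bx x 1 ⊔ 𝔶) ≤ lam → μ * E ≤ lam

/-! ### Modules N1, BN, PO, SU, BE -/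

def Nrm1Stmt : Prop := ∀ (k Γ : Type u) [Field k] [IsAlgClosed k] [CommRing Γ] [IsDomain Γ]
  [IsLocalRing Γ] [Algebra k Γ], CL k Γ → ringKrullDim Γ = 1 →
  ∃ (V : Type u) (_ : CommRing V) (_ : IsDomain V) (_ : IsDiscreteValuationRing V) (j : Γ →+* V)
    (τ : V), Function.Injective j ∧ IsLocalHom j ∧ Irreducible τ ∧
    (∃ a b, b ≠ 0 ∧ j b * τ = j a) ∧ ∀ z, ∃ g : Polynomial Γ, Polynomial.eval₂ j τ g = z

def BnStmt : Prop := ∀ (Q : Type u) [CommRing Q] [IsLocalRing Q] [IsNoetherianRing Q] (P : Ideal Q)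
  [P.IsPrime] (x : Q), maximalIdeal Q = P ⊔ Ideal.span {x} → x ∉ P →
  ∀ N, ∑ i ∈ range (N + 1), hs (Localization.AtPrime P) i ≤ hs Q N

def PolStmt : Prop := ∀ (Q Q' : Type u) [CommRing Q] [IsLocalRing Q] [IsNoetherianRing Q]
  [CommRing Q'] [IsLocalRing Q'] [Algebra (Polynomial Q) Q'] (a : Q) (𝔓 : Ideal (Polynomial Q))
  [𝔓.IsPrime] [IsLocalization.AtPrime Q' 𝔓],
  𝔓 = (maximalIdeal Q).map Polynomial.C ⊔ Ideal.span {Polynomial.X - Polynomial.C a} →
  ∀ N, hs Q' N = ∑ i ∈ range (N + 1), hs Q i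

def SumStmt : Prop := ∀ (a : ℕ → ℝ) (d : ℕ) (e : ℝ),
  Tendsto (fun N : ℕ => (d ! : ℝ) * a N / (N : ℝ) ^ d) atTop (𝓝 e) →
  Tendsto (fun N : ℕ => ((d + 1)! : ℝ) * (∑ i ∈ range (N + 1), a i) / (N : ℝ) ^ (d + 1)) atTop
    (𝓝 e)

def BenStmt : Prop := ∀ (p : ℕ) (W S : Type u) [CommRing W] [IsDomain W]
  [IsDiscreteValuationRing W] [CommRing S] [IsLocalRing S] [Algebra W S] (P : Ideal S) [P.IsPrime]
  (D : ℕ), Coh p W → IsAlgClosed (ResidueField W) → CW W S → (p : S) ∈ P →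
  ringKrullDim (S ⧸ P) = 1 → Le (Localization.AtPrime P) S D (D + 1)

/-! ### Modules DV, MA -/

/-- the case of a complete domain of mixed characteristic -/
def McStmt : Prop := ∀ (p : ℕ) [Fact p.Prime] (C W R S : Type u) [CommRing C] [IsDomain C]
  [IsDiscreteValuationRing C] [CommRing W] [IsDomain W] [IsDiscreteValuationRing W] (σ : W ≃+* W)
  [CommRing R] [IsDomain R] [IsLocalRing R] [Algebra C R] [CommRing S] [IsLocalRing S]
  [Algebra W S] (f : R →+* S) [IsLocalHom f] (n : ℕ), Coh p C → Coh p W → Frb p σ → CW C R →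
  CW W S → Infinite (ResidueField R) → (p : R) ≠ 0 → f.Flat → Grow R (n + 1) → Grow S (n + 1) →
  Le R S (n + 1) (n + 1)

def EqStmt : Prop := ∀ (R S : Type u) [CommRing R] [IsLocalRing R] [IsNoetherianRing R]
  [CommRing S] [IsLocalRing S] [IsNoetherianRing S] (f : R →+* S) [IsLocalHom f], f.Flat →
  HasPF R → ∀ d D : ℕ, ringKrullDim R = d → ringKrullDim S = D → Le R S d D

def SameStmt : Prop := ∀ (p : ℕ) [Fact p.Prime] (R S : Type u) [CommRing R] [IsLocalRing R]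
  [IsNoetherianRing R] [CommRing S] [IsLocalRing S] [IsNoetherianRing S] (f : R →+* S)
  [IsLocalHom f], f.Flat → (p : R) ∈ maximalIdeal R → ∀ d : ℕ, ringKrullDim R = d →
  ringKrullDim S = d → Le R S d d

def MainStmt : Prop := ∀ (R S : Type u) [CommRing R] [IsLocalRing R] [IsNoetherianRing R]
  [CommRing S] [IsLocalRing S] [IsNoetherianRing S] (f : R →+* S) [IsLocalHom f], f.Flat →
  ∀ d D : ℕ, ringKrullDim R = d → ringKrullDim S = D →
  ∃ eR eS : ℝ, Mult R d eR ∧ Mult S D eS ∧ eR ≤ eS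

end Vale.Agent.P202.Mx
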