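import Vale.Agent.P202.M.SpecI

/-! Mixed characteristic, part T: tilting. See `notes/P202e.md`. -/

open Finset Matrix MvPowerSeries Filter Topology IsLocalRing
open scoped Kronecker Nat

namespace Vale.Agent.P202.Mx

universe u

def Nzd {R : Type u} [CommRing R] (a : R) : Prop := ∀ b, a * b = 0 → b = 0

/-- `a` is a nonzero divisor modulo `K` -/
def Nzm {R : Type u} [CommRing R] (K : Ideal R) (a : R) : Prop := ∀ b, a * b ∈ K → b ∈ K

/-- integral dependence on `I` modulo `K` -/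
def Idp {R : Type u} [CommRing R] (I K : Ideal R) (n : ℕ) (y : R) : Prop :=
  ∃ c : ℕ → R, (∀ i < n, c i ∈ I ^ (n - i)) ∧ y ^ n - ∑ i ∈ range n, c i * y ^ i ∈ K

section witt
variable (p : ℕ) [Fact p.Prime]

abbrev OO {P : Type u} [CommRing P] (t : P) : Type u :=
  WittVector p P ⧸ Ideal.span {(p : WittVector p P) - WittVector.teichmuller p t}

noncomputable def tm {P : Type u} [CommRing P] (t a : P) : OO p t :=
  Ideal.Quotient.mk _ (WittVector.teichmuller p a)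

/-- the `p ^ j`-th root -/
noncomputable def rt {P : Type u} [CommRing P] [CharP P p] [PerfectRing P p] (j : ℕ) (a : P) : P :=
  (iterateFrobeniusEquiv P p j).symm a

structure Dw {B : Type u} [CommRing B] (ph : B →+* B) (s : B →+* WittVector p B) : Prop where
  gh : ∀ b j, WittVector.ghostComponent j (s b) = ph^[j] b
  tei : ∀ b, ph b = b ^ p → s b = WittVector.teichmuller p b
  idl : ∀ 𝔞 : Ideal B, (∀ a ∈ 𝔞, ph a ∈ 𝔞) → Nzm 𝔞 (p : B) → ∀ a ∈ 𝔞, ∀ j, (s a).coeff j ∈ 𝔞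

end witt

/-- sequences that vanish eventually -/
def Ifin (G : ℕ → Type u) [∀ m, CommRing (G m)] : Ideal (∀ m, G m) where
  carrier := {f | ∀ᶠ m in atTop, f m = 0}
  add_mem' {f g} hf hg := by filter_upwards [hf, hg] with m a b; simp [a, b]
  zero_mem' := Eventually.of_forall fun _ => rfl
  smul_mem' c f hf := by filter_upwards [hf] with m a; simp [a]

abbrev Upr (G : ℕ → Type u) [∀ m, CommRing (G m)] : Type u := (∀ m, G m) ⧸ Ifin G

/-! ### Modules DW, NI, AI, HB, RE, PH, OR, UP, DS, IE, PO -/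

def DwStmt : Prop := ∀ (p : ℕ) [Fact p.Prime] (B : Type u) [CommRing B] (ph : B →+* B),
  Nzd (p : B) → (∀ b, (p : B) ∣ ph b - b ^ p) → ∃ s, Dw p ph s

def NilStmt : Prop := ∀ (p : ℕ) [Fact p.Prime] (Q : Type u) [CommRing Q] (t : Q)
  (w : WittVector p Q) (n : ℕ), (p : Q) = 0 →
  (∀ j ≤ n, ((p : WittVector p Q) ^ n - (p - WittVector.teichmuller p t) * w).coeff j = 0) →
  ∃ c, t ^ (n * p ^ n) * (1 + t * c) = 0

def AiStmt : Prop := ∀ (p : ℕ) [Fact p.Prime] (P : Type u) [CommRing P] [CharP P p]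
  [PerfectRing P p] (t : P), Nzd t → Nzd (p : OO p t) ∧ ∀ (v : P) (k0 : ℕ), Nzd v →
  rt p k0 v ∣ t → (∀ (a n : ℕ) (y : OO p t), Idp (Ideal.span {tm p t v ^ a}) ⊥ n y →
    ∀ j, tm p t (rt p j v) ^ (a * p ^ j - 1) ∣ y) ∧
  ∀ j N, tm p t (rt p j v) ^ N ∣ (p : OO p t) → rt p j v ^ N ∣ t

def HbStmt : Prop := ∀ (p : ℕ) [Fact p.Prime] (P : Type u) [CommRing P] [CharP P p]
  [PerfectRing P p] (t D : P) (N : ℕ), Nzd t → ¬ IsUnit t → Nzm (Ideal.span {t}) D →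
  ∃ (P' : Type u) (_ : CommRing P') (_ : CharP P' p) (_ : PerfectRing P' p) (i : P →+* P'),
    Nzd (i t) ∧ i D ∣ i t ^ N ∧ (∀ a, i t ∣ i a → t ∣ a) ∧
    ∀ j y, ∃ a y', rt p j (i D) * y = i a + rt p j (i t) ^ N * y'

def ReStmt : Prop := ∀ (p : ℕ) [Fact p.Prime] (P : Type u) [CommRing P] [CharP P p]
  [PerfectRing P p] (t : P) (r : ℕ) (ξ : Fin r → P), Nzd t →
  ∃ (P' : Type u) (_ : CommRing P') (_ : CharP P' p) (_ : PerfectRing P' p) (i : P →+* P')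
    (v : P'), Nzd v ∧ Nzd (i t) ∧ (∀ l, v ∣ i (ξ l)) ∧ ∀ a j N, rt p j v ^ N ∣ i a →
      ∃ j', j ≤ j' ∧ a ∈ Ideal.span (Set.range fun l => rt p j' (ξ l)) ^ (N * p ^ (j' - j))

def PhiStmt : Prop := ∀ (p : ℕ) [Fact p.Prime] (P T' T : Type u) [CommRing P] [CharP P p]
  [PerfectRing P p] [CommRing T'] [CommRing T] [Algebra T' T] [Algebra.IsIntegral T' T] (t D : P)
  (ψ : T' →+* OO p t) (δ : T') (a : ℕ), Nzd t → Nzm (Ideal.span {t}) D →
  Function.Injective (algebraMap T' T) → ψ δ = tm p t D →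
  (∀ b, ∃ b', algebraMap T' T b' = (p : T) ^ a * algebraMap T' T δ * b) → ∀ k j : ℕ,
  ∃ Φ : T →+ OO p t ⧸ Ideal.span {(p : OO p t) ^ k},
    (∀ b b', Φ b * Φ b' = Ideal.Quotient.mk _ (tm p t (rt p j (t * D))) * Φ (b * b')) ∧
    Φ 1 = Ideal.Quotient.mk _ (tm p t (rt p j (t * D))) ∧
    ∀ c b, Φ (algebraMap T' T c * b) = Ideal.Quotient.mk _ (ψ c) * Φ b

def OrStmt : Prop := ∀ (p : ℕ) [Fact p.Prime] (P : Type u) [CommRing P] [CharP P p]
  [PerfectRing P p] (t : P) (r : ℕ) (ξ : Fin r → P) (k0 n : ℕ), Nzd t →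
  t ^ p ^ k0 ∈ Ideal.span (Set.range ξ) →
  Idp (Ideal.span (Set.range fun l => tm p t (ξ l))) ⊥ n (p : OO p t) → ∀ j,
  (∃ j', j ≤ j' ∧
    t ∈ Ideal.span (Set.range fun l => rt p j' (ξ l)) ^ ((p ^ j - 1) * p ^ (j' - j))) ∧
  ∀ (n' k : ℕ) (y : WittVector p P), 1 ≤ n' → 2 * n' ≤ k →
    Idp (Ideal.span (Set.range fun l => tm p t (ξ l))) (Ideal.span {(p : OO p t) ^ k}) n'
      (Ideal.Quotient.mk _ y) → ∃ j', j ≤ j' ∧ y.coeff 0 ∈
      Ideal.span (Set.range fun l => rt p j' (ξ l)) ^ ((p ^ j - 1) * p ^ (j' - j))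

structure Ul (p : ℕ) [Fact p.Prime] (G : ℕ → Type u) [∀ m, CommRing (G m)] {P : Type u}
    [CommRing P] [CharP P p] [PerfectRing P p] (fl : (∀ m, G m) →+* P)
    (θ : ∀ k, WittVector p P →+* Upr fun m => G m ⧸ Ideal.span {(p : G m) ^ (k + 1)}) : Prop where
  gh : ∀ k (w : WittVector p (∀ m, G m)), θ k (WittVector.map fl w) = Ideal.Quotient.mk _ fun m =>
    Ideal.Quotient.mk _ (WittVector.ghostComponent m w m)
  zero : ∀ f, (∀ᶠ m in atTop, (p : G m) ∣ f m) → fl f = 0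
  nzd : ∀ f, (∀ m, Nzm (Ideal.span {(p : G m)}) (f m)) → Nzd (fl f)
  nzm : ∀ f g, (∀ m, Nzm (Ideal.span {(p : G m)}) (f m)) →
    (∀ m, Nzm (Ideal.span {(p : G m), f m}) (g m)) → Nzm (Ideal.span {fl f}) (fl g)
  tei : ∀ k j f, θ k (WittVector.teichmuller p (rt p j (fl f))) = Ideal.Quotient.mk _ fun m =>
    Ideal.Quotient.mk _ (f m ^ p ^ (m - j))
  ord : ∀ k (x : WittVector p P) (f : ∀ m, G m) (r : ℕ) (ξ : Fin r → ∀ m, G m) (j N : ℕ),
    θ k x = (Ideal.Quotient.mk _ fun m => Ideal.Quotient.mk _ (f m)) →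
    x.coeff 0 ∈ Ideal.span (Set.range fun l => rt p j (fl (ξ l))) ^ N → ∀ᶠ m in atTop,
    f m ∈ Ideal.span (Set.range fun l => ξ l m) ^ (N * p ^ (m - j)) ⊔ Ideal.span {(p : G m)}

def UpStmt : Prop := ∀ (p : ℕ) [Fact p.Prime] (G : ℕ → Type u) [∀ m, CommRing (G m)],
  (∀ m, ¬ IsUnit (p : G m)) → ∃ (P : Type u) (_ : CommRing P) (_ : CharP P p)
    (_ : PerfectRing P p) (fl : (∀ m, G m) →+* P) (θ : _), Ul p G fl θ

def DsStmt : Prop := ∀ (T' T : Type u) [CommRing T'] [IsNoetherianRing T'] [CommRing T]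
  [Algebra T' T] [Module.Finite T' T] (N : ℕ → Type u) [∀ m, CommRing (N m)]
  (ψ : ∀ m, T' →+* N m) (γ : ∀ m, N m) (𝔬 : ∀ m, Ideal (N m)) (𝔪 : Ideal T) (Φ : T →+ Upr N),
  (∀ b b', Φ b * Φ b' = Ideal.Quotient.mk _ γ * Φ (b * b')) → Φ 1 = Ideal.Quotient.mk _ γ →
  (∀ c b, Φ (algebraMap T' T c * b) = Ideal.Quotient.mk _ (fun m => ψ m c) * Φ b) →
  (∀ b ∈ 𝔪, ∃ f, Φ b = Ideal.Quotient.mk _ f ∧ ∀ᶠ m in atTop, f m ∈ 𝔬 m) →
  ∀ᶠ m in atTop, ∃ Φ' : T →+ N m, (∀ b b', Φ' b * Φ' b' = γ m * Φ' (b * b')) ∧ Φ' 1 = γ m ∧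
    (∀ c b, Φ' (algebraMap T' T c * b) = ψ m c * Φ' b) ∧ ∀ b ∈ 𝔪, Φ' b ∈ 𝔬 m

/-- `T` is a finite birational extension of `T'`, `x` generates a reduction of `m` -/
structure Ov (p : ℕ) {T' T : Type u} [CommRing T'] [CommRing T] [Algebra T' T] {r : ℕ}
    (x : Fin r → T') (δ : T') (m : Ideal T) : Prop where
  inj : Function.Injective (algebraMap T' T)
  fin : Module.Finite T' T
  den : ∃ a, ∀ b, ∃ b', algebraMap T' T b' = (p : T) ^ a * algebraMap T' T δ * b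
  nzd : Nzd (p : T)
  pm : (p : T) ∈ m
  red : ∃ c, m ^ (c + 1) ≤ Ideal.span (Set.range fun l => algebraMap T' T (x l)) * m ^ c

def IeStmt : Prop := ∀ (p : ℕ) (T' T : Type u) [CommRing T'] [IsNoetherianRing T'] [CommRing T]
  [Algebra T' T] (r : ℕ) (x : Fin r → T') (δ : T') (m : Ideal T), Ov p x δ m →
  (∃ n0, ∀ b ∈ m, ∃ (n : ℕ) (c : ℕ → T'), 1 ≤ n ∧ n ≤ n0 ∧
    (∀ i < n, c i ∈ Ideal.span (Set.range x) ^ (n - i)) ∧
    b ^ n = ∑ i ∈ range n, algebraMap T' T (c i) * b ^ i) ∧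
  ∃ N, (p : T') ^ N ∈ Ideal.span (Set.range x)

def PoStmt : Prop := ∀ (p : ℕ) [Fact p.Prime] (B T' T : Type u) [CommRing B] [CommRing T']
  [IsNoetherianRing T'] [CommRing T] [Algebra T' T] (ph : B →+* B) (s : B →+* WittVector p B)
  (h r : ℕ) (F : Fin h → B) (τ D : B) (ξ : Fin r → B) (ϖ : B →+* T') (𝔪 : Ideal T)
  (G : ℕ → Type u) [∀ m, CommRing (G m)] (g : ∀ m, B →+* G m)
  (Z : ∀ m, Fin h → WittVector p (G m))
  (ψ : ∀ m, T' →+* G m ⧸ Ideal.span {(p : G m) - g m τ ^ p ^ m}), Dw p ph s →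
  Function.Surjective ϖ → RingHom.ker ϖ = Ideal.span (insert ((p : B) - τ) (Set.range F)) →
  ph τ = τ ^ p → ph D = D ^ p → (∀ l, ph (ξ l) = ξ l ^ p) →
  Ov p (fun l => ϖ (ξ l)) (ϖ D) 𝔪 →
  (∀ m i, ∀ j ≤ m, (WittVector.map (g m) (s (F i)) -
    (p - WittVector.teichmuller p (g m τ)) * Z m i).coeff j = 0) →
  (∀ m, ¬ IsUnit (p : G m)) → (∀ m, Nzm (Ideal.span {(p : G m)}) (g m τ)) →
  (∀ m, Nzm (Ideal.span {(p : G m), g m τ}) (g m D)) →
  (∃ a, ∀ᶠ m in atTop, g m τ ^ a ∈ Ideal.span (Set.range fun l => g m (ξ l)) ⊔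
    Ideal.span {(p : G m)}) →
  (∀ m b, ψ m (ϖ b) = Ideal.Quotient.mk _ (g m (ph^[m] b))) →
  ∃ k0, ∀ k, k0 ≤ k → ∀ j, ∀ᶠ m in atTop,
    g m τ ^ p ^ m ∈ Ideal.span (Set.range fun l => g m (ξ l)) ^ ((p ^ j - 1) * p ^ (m - j)) ⊔
      Ideal.span {(p : G m) ^ 2} ∧
    ∃ Φ : T →+ G m ⧸ Ideal.span {(p : G m) ^ k, (p : G m) - g m τ ^ p ^ m},
      (∀ b b', Φ b * Φ b' = Ideal.Quotient.mk _ (g m (τ * D) ^ p ^ (m - j)) * Φ (b * b')) ∧
      Φ 1 = Ideal.Quotient.mk _ (g m (τ * D) ^ p ^ (m - j)) ∧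
      (∀ c z, ψ m c = Ideal.Quotient.mk _ z →
        ∀ b, Φ (algebraMap T' T c * b) = Ideal.Quotient.mk _ z * Φ b) ∧
      ∀ b ∈ 𝔪, Φ b ∈ (Ideal.span (Set.range fun l => g m (ξ l)) ^ ((p ^ j - 1) * p ^ (m - j)) ⊔
        Ideal.span {(p : G m)}).map (Ideal.Quotient.mk _)

/-! ### Modules M0, MF, PR, DE -/

def Mf0Stmt : Prop := ∀ (p : ℕ) [Fact p.Prime] (L : Type u) [Field L] [CharP L p] [PerfectField L]
  (n : ℕ) (f : PS L n →ₐ[L] PS L n), (∀ i, f (X i) ∈ mx L n) →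
  (∃ N, mx L n ^ N ≤ Ideal.span (Set.range fun i => f (X i))) →
  f.toRingHom.Finite ∧ @Module.Free (PS L n) (PS L n) _ _ f.toRingHom.toAlgebra.toModule

def MfStmt : Prop := ∀ (p : ℕ) [Fact p.Prime] (W G : Type u) [CommRing W] [IsDomain W]
  [IsDiscreteValuationRing W] (σ τ ι : Type) [Fintype σ] [Fintype τ] [Fintype ι] [CommRing G]
  [Nontrivial G] [Algebra W G] [Algebra (MvPowerSeries τ W) G]
  [IsScalarTower W (MvPowerSeries τ W) G] (π : MvPowerSeries σ W →ₐ[W] G)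
  (ρ : ι → MvPowerSeries σ W), Coh p W → (∀ a : W, ∃ b, (p : W) ∣ a - b ^ p) →
  Function.Surjective π → RingHom.ker π = Ideal.span (Set.range ρ) →
  Fintype.card σ = Fintype.card ι + Fintype.card τ →
  (∀ j, algebraMap (MvPowerSeries τ W) G (X j) ∈ (mv p W σ).map π) →
  (∃ N, ∀ i, π (X i) ^ N ∈ (mv p W τ).map (algebraMap (MvPowerSeries τ W) G)) →
  Module.Free (MvPowerSeries τ W) G ∧ Module.Finite (MvPowerSeries τ W) G

abbrev Bv (n h : ℕ) := Option (Fin n ⊕ Fin h)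
abbrev BB (W : Type u) (n h : ℕ) := MvPowerSeries (Bv n h) W
abbrev Gv (n h e : ℕ) := Bv n h ⊕ (Fin h × Fin e)

/-- the variables that map to the reduction -/
def xv {n h : ℕ} (j1 : Fin h) : Fin (n + 1) → Bv n h :=
  Fin.cons (some (.inr j1)) fun i => some (.inl i)

/-- a complete intersection presentation -/
structure Pr (p : ℕ) {W T' : Type u} [CommRing W] {n h : ℕ} [CommRing T'] [Algebra W T']
    [Algebra (PS W n) T'] (ϖ : BB W n h →ₐ[W] T') (F : Fin h → BB W n h) (j2 : Fin h) : Prop where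
  sur : Function.Surjective ϖ
  ker : RingHom.ker ϖ = Ideal.span (insert ((p : BB W n h) - X none) (Set.range F))
  mem : ∀ i, F i ∈ Ideal.span (Set.range (X : Bv n h → BB W n h))
  alg : ∀ a, algebraMap (PS W n) T' a = ϖ (rename (fun i => (some (.inl i) : Bv n h)) a)
  fin : Module.Finite (PS W n) T'
  nt : Nontrivial T'
  dl : Nzm (Ideal.span {(p : T')}) (ϖ (X (some (.inr j2))))

def PresStmt : Prop := ∀ (p : ℕ) [Fact p.Prime] (W T' : Type u) [CommRing W] [IsDomain W]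
  [IsDiscreteValuationRing W] (n h : ℕ) [CommRing T'] [IsLocalRing T'] [Algebra W T']
  [Algebra (PS W n) T'] [IsScalarTower W (PS W n) T'] [Module.Finite (PS W n) T']
  (u : Fin h → T') (F : Fin h → MvPolynomial (Fin h) (PS W n)) (δ : PS W n), Coh p W →
  (∀ a : W, ∃ b, (p : W) ∣ a - b ^ p) → (∀ i, u i ∈ maximalIdeal T') →
  Function.Surjective (MvPolynomial.aeval u : MvPolynomial (Fin h) (PS W n) →ₐ[PS W n] T') →
  RingHom.ker (MvPolynomial.aeval u : MvPolynomial (Fin h) (PS W n) →ₐ[PS W n] T') =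
    Ideal.span (Set.range F) → δ ∈ Ideal.span (Set.range (X : Fin n → PS W n)) →
  ¬ (p : PS W n) ∣ δ → ∃ (ϖ : BB W n (h + 1) →ₐ[W] T') (F' : Fin (h + 1) → BB W n (h + 1)),
    Pr p ϖ F' 0 ∧ ϖ (X (some (.inr 0))) = algebraMap (PS W n) T' δ ∧
    ∀ i, ϖ (X (some (.inr i.succ))) = u i

def DetStmt : Prop := ∀ (p : ℕ) (W G : Type u) [CommRing W] [IsDomain W]
  [IsDiscreteValuationRing W] (r : ℕ) [CommRing G] [IsLocalRing G] [Algebra W G]
  [Algebra (PS W (r + 1)) G] [IsScalarTower W (PS W (r + 1)) G] (κ : Type) [Fintype κ]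
  [DecidableEq κ] (b : Module.Basis κ (PS W (r + 1)) G) (g : G) (c : Fin r → W) (o : ℕ),
  Coh p W → CW W G → ln (Ideal.span {(p : G), g} ⊔ Ideal.span (Set.range fun i =>
    algebraMap (PS W (r + 1)) G (X i.succ - C (c i) * X 0))) ≤ o →
  (MvPowerSeries.map (residue W) (Algebra.leftMulMatrix b g).det).order ≤ o

section env
variable (p : ℕ) [Fact p.Prime] {W : Type u} [CommRing W]

/-- the Frobenius lift -/
noncomputable def phi (σ : W ≃+* W) (ν : Type) : MvPowerSeries ν W →+* MvPowerSeries ν W :=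
  (MvPowerSeries.map σ.toRingHom).comp (expand p (Fact.out : p.Prime).ne_zero).toRingHom

def sig (σ : W ≃+* W) (e : ℕ) : W ≃+* W := ((σ : RingAut W) ^ e : RingAut W)

theorem pow_ne (e : ℕ) : p ^ e ≠ 0 := pow_ne_zero _ (Fact.out : p.Prime).ne_zero

variable {n h : ℕ}

noncomputable def zz (W : Type u) [CommRing W] (n e : ℕ) (i : Fin h) :
    WittVector p (MvPowerSeries (Gv n h e) W) :=
  WittVector.mk p fun j => if hj : j < e then X (.inr (i, ⟨j, hj⟩)) else 0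

noncomputable def rho (s : BB W n h →+* WittVector p (BB W n h)) (F : Fin h → BB W n h) (e : ℕ)
    (i : Fin h) : WittVector p (MvPowerSeries (Gv n h e) W) :=
  WittVector.map (rename (R := W) (Sum.inl : Bv n h → Gv n h e)).toRingHom (s (F i)) -
    ((p : WittVector p (MvPowerSeries (Gv n h e) W)) -
      WittVector.teichmuller p (X (Sum.inl none) : MvPowerSeries (Gv n h e) W)) * zz p W n e i

noncomputable def GI (s : BB W n h →+* WittVector p (BB W n h)) (F : Fin h → BB W n h) (e : ℕ) :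
    Ideal (MvPowerSeries (Gv n h e) W) :=
  Ideal.span (Set.range fun x : Fin h × Fin (e + 1) => (rho p s F e x.1).coeff x.2)

/-- the truncated prismatic envelope -/
abbrev GG (s : BB W n h →+* WittVector p (BB W n h)) (F : Fin h → BB W n h) (e : ℕ) : Type u :=
  MvPowerSeries (Gv n h e) W ⧸ GI p s F e

noncomputable def gm (s : BB W n h →+* WittVector p (BB W n h)) (F : Fin h → BB W n h) (e : ℕ) :
    BB W n h →ₐ[W] GG p s F e := (Ideal.Quotient.mkₐ W _).comp (rename Sum.inl)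

structure EnvK (σ : W ≃+* W) (s : BB W n h →+* WittVector p (BB W n h)) (F : Fin h → BB W n h)
    (e : ℕ) : Prop where
  cf : ∀ i j, (s (F i)).coeff j ∈ Ideal.span (Set.range (X : Bv n h → BB W n h))
  le : GI p s F e ≤ Ideal.span (Set.range X)
  key : Ideal.span {(p : MvPowerSeries (Gv n h e) W), X (.inl none)} ⊔ GI p s F e =
    Ideal.span {(p : MvPowerSeries (Gv n h e) W), X (.inl none)} ⊔
    Ideal.span (Set.range fun i => rename Sum.inl (F i)) ⊔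
    Ideal.span (Set.range fun x : Fin h × Fin e =>
      X (.inr x) ^ p - rename Sum.inl ((s (F x.1)).coeff (x.2 + 1)))
  wit : ∀ i, ∀ j ≤ e, (WittVector.map (gm p s F e).toRingHom (s (F i)) -
    ((p : WittVector p (GG p s F e)) - WittVector.teichmuller p (gm p s F e (X none))) *
      WittVector.map (Ideal.Quotient.mk (GI p s F e)) (zz p W n e i)).coeff j = 0
  gh : ∀ i, ∀ j ≤ e, gm p s F e ((phi p σ _)^[j] (F i)) =
    ((p : GG p s F e) - gm p s F e (X none) ^ p ^ j) * ∑ l ∈ range (j + 1), (p : GG p s F e) ^ l *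
      Ideal.Quotient.mk (GI p s F e) ((zz p W n e i).coeff l) ^ p ^ (j - l)

end env

/-- the standing hypotheses -/
structure Hy (p : ℕ) [Fact p.Prime] {W T' : Type u} [CommRing W] [IsDomain W]
    [IsDiscreteValuationRing W] (σ : W ≃+* W) {n h : ℕ} [CommRing T'] [Algebra W T']
    [Algebra (PS W n) T'] (ϖ : BB W n h →ₐ[W] T') (F : Fin h → BB W n h) (j2 : Fin h)
    (s : BB W n h →+* WittVector p (BB W n h)) : Prop where
  coh : Coh p W
  frb : Frb p σ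
  pr : Pr p ϖ F j2
  dw : Dw p (phi p σ _) s

/-! ### Modules FL, EK, V1, V2, V3, V4, NG, V5, TL -/

def PhlStmt : Prop := ∀ (p : ℕ) [Fact p.Prime] (W : Type u) [CommRing W] [IsDomain W]
  [IsDiscreteValuationRing W] (σ : W ≃+* W) (ν : Type) [Fintype ν] [DecidableEq ν],
  Coh p W → Frb p σ → Nzd (p : MvPowerSeries ν W) ∧ (∀ b, (p : MvPowerSeries ν W) ∣ phi p σ ν b - b ^ p) ∧
  (∀ i, phi p σ ν (X i) = X i ^ p) ∧ (∀ c, phi p σ ν (C c) = C (σ c)) ∧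
  (∀ e a, (phi p σ ν)^[e] a =
    expand (p ^ e) (pow_ne p e) (MvPowerSeries.map (sig σ e).toRingHom a)) ∧
  (∀ (e : ℕ) (ν' : Type) [Fintype ν'] (f : ν' → ν) (a : MvPowerSeries ν' W),
    (phi p σ ν)^[e] (rename f a) = rename f ((phi p σ ν')^[e] a)) ∧
  ∀ (e : ℕ) (a : MvPowerSeries ν W), ∃ c : (ν → Fin (p ^ e)) → MvPowerSeries ν W,
    a = ∑ α, (phi p σ ν)^[e] (c α) * ∏ i, X i ^ (α i : ℕ)

section hy
variable (p : ℕ) [Fact p.Prime] {W T' : Type u} [CommRing W] [IsDomain W]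
  [IsDiscreteValuationRing W] (σ : W ≃+* W) {n h : ℕ} [CommRing T'] [Algebra W T']
  [Algebra (PS W n) T'] (ϖ : BB W n h →ₐ[W] T') (F : Fin h → BB W n h) (j2 : Fin h)
  (s : BB W n h →+* WittVector p (BB W n h)) (e : ℕ)

def Env1 : Prop := ∃ _ : IsLocalRing (GG p s F e), CW W (GG p s F e) ∧ Nzd (p : GG p s F e) ∧
  Nzm (Ideal.span {(p : GG p s F e)}) (gm p s F e (X none)) ∧
  maximalIdeal (GG p s F e) = (mv p W _).map (Ideal.Quotient.mk (GI p s F e)) ∧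
  (∃ N, maximalIdeal (GG p s F e) ^ N ≤ Ideal.span {(p : GG p s F e), gm p s F e (X none)} ⊔
    Ideal.span (Set.range fun i => gm p s F e (X (some (.inl i))))) ∧
  ∀ q : ℕ, ln (Ideal.span {(p : GG p s F e), gm p s F e (X none) ^ q} ⊔
    Ideal.span (Set.range fun i => gm p s F e (X (some (.inl i))) ^ q)) =
    (q ^ (n + 1) : ℕ) * ln (Ideal.span {(p : GG p s F e), gm p s F e (X none)} ⊔
      Ideal.span (Set.range fun i => gm p s F e (X (some (.inl i)))))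

def Env2 : Prop := Nzm (Ideal.span {(p : GG p s F e), gm p s F e (X none)})
    (gm p s F e (X (some (.inr j2)))) ∧
  ∀ I : Ideal (BB W n h), (p : BB W n h) ∈ I → X none ∈ I → (∀ i, F i ∈ I) →
    ln (I.map (gm p s F e)) = (p ^ (e * h) : ℕ) * ln I

structure Env3 (p : ℕ) [Fact p.Prime] {W T' : Type u} [CommRing W] (σ : W ≃+* W) {n h : ℕ}
    [CommRing T'] [Algebra W T'] [Algebra (PS W n) T'] (ϖ : BB W n h →ₐ[W] T')
    (F : Fin h → BB W n h) (s : BB W n h →+* WittVector p (BB W n h)) (e : ℕ) {M : Type u}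
    [CommRing M] [Algebra T' M] [Algebra (PS W n) M] (ϱ : GG p s F e →+* M) : Prop where
  sur : Function.Surjective ϱ
  ker : RingHom.ker ϱ = Ideal.span {(p : GG p s F e) - gm p s F e (X none) ^ p ^ e}
  psi : ∀ b, algebraMap T' M (ϖ b) = ϱ (gm p s F e ((phi p σ (Bv n h))^[e] b))
  fr : Module.Free (PS W n) T'
  free : Module.Free (PS W n) M
  fin : Module.Finite (PS W n) M
  rk : Module.finrank (PS W n) M = Module.finrank (PS W n) T' * (p ^ e) ^ (n + h + 1)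
  len : ∀ I : Ideal M, Module.length (PS W n) (M ⧸ I) = ln (I.comap ϱ) ∧
    Module.length T' (M ⧸ I) = ln (I.comap ϱ)

def NilG : Prop := ∀ (r N : ℕ) (u u' : Fin r → BB W n h), (∀ l, phi p σ _ (u l) = u l ^ p) →
  (∀ l, phi p σ _ (u' l) = u' l ^ p) → N ≤ e →
  (p : T') ^ N ∈ Ideal.span (Set.range fun l => ϖ (u l - u' l)) →
  gm p s F e (X none) ^ (N * p ^ N) ∈ Ideal.span (Set.range fun l => gm p s F e (u l - u' l)) ⊔
    Ideal.span {(p : GG p s F e)}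

structure Env5 (p : ℕ) [Fact p.Prime] {W : Type u} [CommRing W] [IsLocalRing W] {n h : ℕ}
    (F : Fin h → BB W n h) (j2 : Fin h) (s : BB W n h →+* WittVector p (BB W n h)) (e : ℕ)
    (j1 : Fin h) (K : ℕ) [Algebra (PS W (n + 1)) (GG p s F e)] {κ : Type} [Fintype κ]
    [DecidableEq κ] (b : Module.Basis κ (PS W (n + 1)) (GG p s F e)) : Prop where
  alg : ∀ a, algebraMap (PS W (n + 1)) (GG p s F e) a = gm p s F e (rename (xv j1) a)
  nil : gm p s F e (X none) ^ K ∈ Ideal.span (Set.range fun l => gm p s F e (X (xv j1 l))) ⊔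
    Ideal.span {(p : GG p s F e)}
  lb : ln (Ideal.span (Set.range fun l => gm p s F e (X (xv j1 l)) ^ p ^ e) ⊔
    Ideal.span {(p : GG p s F e) - gm p s F e (X none) ^ p ^ e}) ≤
    ((p ^ e) ^ (n + 1) * Fintype.card κ : ℕ)
  det : (MvPowerSeries.map (residue W) (Algebra.leftMulMatrix b
    (gm p s F e (X none * X (some (.inr j2))))).det).order ≤ (K * p ^ (e * h) : ℕ)

end hy

/-- quantification over the standing hypotheses -/
def AllHy (Q : ∀ (p : ℕ) [Fact p.Prime] (W T' : Type u) [CommRing W] [IsDomain W]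
    [IsDiscreteValuationRing W] (_ : W ≃+* W) (n h : ℕ) [CommRing T'] [Algebra W T']
    [Algebra (PS W n) T'] (_ : BB W n h →ₐ[W] T') (_ : Fin h → BB W n h) (_ : Fin h)
    (_ : BB W n h →+* WittVector p (BB W n h)), Prop) : Prop :=
  ∀ (p : ℕ) [Fact p.Prime] (W T' : Type u) [CommRing W] [IsDomain W] [IsDiscreteValuationRing W]
    (σ : W ≃+* W) (n h : ℕ) [CommRing T'] [Algebra W T'] [Algebra (PS W n) T']
    (ϖ : BB W n h →ₐ[W] T') (F : Fin h → BB W n h) (j2 : Fin h)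
    (s : BB W n h →+* WittVector p (BB W n h)), Hy p σ ϖ F j2 s → Q p W T' σ n h ϖ F j2 s

def EkStmt : Prop := AllHy.{u} fun p _ _ _ _ _ _ σ _ _ _ _ _ _ F _ s => ∀ e, EnvK p σ s F e

def V1Stmt : Prop := AllHy.{u} fun p _ _ _ _ _ _ _ _ _ _ _ _ _ F _ s => ∀ e, Env1 p F s e

def V2Stmt : Prop := AllHy.{u} fun p _ _ _ _ _ _ _ _ _ _ _ _ _ F j2 s => ∀ e, Env2 p F j2 s e

def V3Stmt : Prop := AllHy.{u} fun p _ W T' _ _ _ σ n _ _ _ _ ϖ F _ s => ∀ e,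
  ∃ (M : Type u) (_ : CommRing M) (_ : Algebra T' M) (_ : Algebra (PS W n) M)
    (_ : IsScalarTower (PS W n) T' M) (ϱ : GG p s F e →+* M), Env3 p σ ϖ F s e ϱ

def V4Stmt : Prop := AllHy.{u} fun p _ W T' _ _ _ σ n h _ _ _ ϖ F _ s => ∀ (e : ℕ) (M : Type u)
  [CommRing M] [Algebra T' M] [Algebra (PS W n) M] [IsScalarTower (PS W n) T' M]
  (ϱ : GG p s F e →+* M), Env3 p σ ϖ F s e ϱ → Mo (PS W n) T' M p ((p ^ e) ^ (n + h + 1))

def NgStmt : Prop := AllHy.{u} fun p _ _ _ _ _ _ σ _ _ _ _ _ ϖ F _ s => ∀ e, NilG p σ ϖ F s e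

def V5Stmt : Prop := AllHy.{u} fun p _ W T' _ _ _ _ n _ _ _ _ ϖ F j2 s => ∀ j1,
  (∃ N, (p : T') ^ N ∈ Ideal.span (Set.range fun l => ϖ (X (xv j1 l)))) →
  ∃ K, ∀ᶠ e in atTop, ∃ (_ : Algebra (PS W (n + 1)) (GG p s F e))
    (_ : IsScalarTower W (PS W (n + 1)) (GG p s F e)) (κ : Type) (_ : Fintype κ)
    (_ : DecidableEq κ) (b : Module.Basis κ (PS W (n + 1)) (GG p s F e)), Env5 p F j2 s e j1 K b

/-- the output of the tilting construction -/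
structure Tl (p : ℕ) [Fact p.Prime] {W T' T : Type u} [CommRing W] [IsLocalRing W] {n h : ℕ}
    [CommRing T'] [Algebra W T'] [Algebra (PS W n) T'] [CommRing T] [Algebra T' T]
    (ϖ : BB W n h →ₐ[W] T') (j1 : Fin h) (m : Ideal T) (K k j e : ℕ) (σ : W ≃+* W) {G : Type u}
    [CommRing G] [IsLocalRing G] [Algebra W G] [Algebra (PS W (n + 1)) G] {κ : Type} [Fintype κ]
    [DecidableEq κ] (b : Module.Basis κ (PS W (n + 1)) G) (τ γ : G) {M : Type u} [CommRing M]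
    [Algebra T' M] [Algebra (PS W n) M] (ϱ : G →+* M)
    (Φ : T →+ G ⧸ Ideal.span {(p : G) ^ k, (p : G) - τ}) : Prop where
  cw : CW W G
  ord : τ ∈ (Ideal.span (Set.range X) ^ ((p ^ j - 1) * p ^ (e - j))).map
    (algebraMap (PS W (n + 1)) G) ⊔ Ideal.span {(p : G) ^ 2}
  nzm : Nzm (Ideal.span {(p : G)}) τ
  det : (MvPowerSeries.map (residue W) (Algebra.leftMulMatrix b γ).det).order ≤
    (K * p ^ (e * h) * p ^ (e - j) : ℕ)
  mul : ∀ a a', Φ a * Φ a' = Ideal.Quotient.mk _ γ * Φ (a * a')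
  one : Φ 1 = Ideal.Quotient.mk _ γ
  lin : ∀ c z, ϱ z = algebraMap T' M c →
    ∀ a, Φ (algebraMap T' T c * a) = Ideal.Quotient.mk _ z * Φ a
  om : ∀ a ∈ m, Φ a ∈ ((Ideal.span (Set.range X) ^ ((p ^ j - 1) * p ^ (e - j))).map
    (algebraMap (PS W (n + 1)) G) ⊔ Ideal.span {(p : G)}).map (Ideal.Quotient.mk _)
  sur : Function.Surjective ϱ
  ker : RingHom.ker ϱ = Ideal.span {(p : G) - τ}
  xx : ∀ a, algebraMap T' M (ϖ (rename (xv j1) a)) = ϱ (algebraMap (PS W (n + 1)) G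
    (expand (p ^ e) (pow_ne p e) (MvPowerSeries.map σ.toRingHom a)))
  mo : Mo (PS W n) T' M p ((p ^ e) ^ (n + h + 1))
  len : ∀ I : Ideal M, Module.length (PS W n) (M ⧸ I) = ln (I.comap ϱ) ∧
    Module.length T' (M ⧸ I) = ln (I.comap ϱ)
  lb : ln (Ideal.span (Set.range fun l => algebraMap (PS W (n + 1)) G (X l) ^ p ^ e) ⊔
    Ideal.span {(p : G) - τ}) ≤ ((p ^ e) ^ (n + 1) * Fintype.card κ : ℕ)

def TlStmt : Prop := ∀ (p : ℕ) [Fact p.Prime] (W T' T : Type u) [CommRing W] [IsDomain W]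
  [IsDiscreteValuationRing W] (σ : W ≃+* W) (n h : ℕ) [CommRing T'] [Algebra W T']
  [Algebra (PS W n) T'] [CommRing T] [Algebra T' T] (ϖ : BB W n h →ₐ[W] T')
  (F : Fin h → BB W n h) (j1 j2 : Fin h) (m : Ideal T), Coh p W → Frb p σ → Pr p ϖ F j2 →
  Ov p (fun l => ϖ (X (xv j1 l))) (ϖ (X (some (.inr j2)))) m →
  ∃ K k0 : ℕ, ∀ k, k0 ≤ k → ∀ j, ∀ᶠ e in atTop, ∃ (σ' : W ≃+* W) (G : Type u) (_ : CommRing G)
    (_ : IsLocalRing G) (_ : Algebra W G) (_ : Algebra (PS W (n + 1)) G)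
    (_ : IsScalarTower W (PS W (n + 1)) G) (κ : Type) (_ : Fintype κ) (_ : DecidableEq κ)
    (b : Module.Basis κ (PS W (n + 1)) G) (τ γ : G) (M : Type u) (_ : CommRing M)
    (_ : Algebra T' M) (_ : Algebra (PS W n) M) (_ : IsScalarTower (PS W n) T' M) (ϱ : G →+* M)
    (Φ : T →+ G ⧸ Ideal.span {(p : G) ^ k, (p : G) - τ}), Tl p ϖ j1 m K k j e σ' b τ γ ϱ Φ

/-! ### Modules VT, BV, EN, LA, NF, FI, TE, SI, MC -/

def VtStmt : Prop := ∀ (p : ℕ) (W : Type u) [CommRing W] [IsDomain W] [IsDiscreteValuationRing W]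
  (s k : ℕ), maximalIdeal W = Ideal.span {(p : W)} → 1 ≤ s → 1 ≤ k →
  ∃ (U V : Type u) (_ : CommRing U) (_ : IsDomain U) (_ : IsDiscreteValuationRing U)
    (_ : CommRing V) (_ : IsLocalRing V) (j : W →+* U) (w : U) (f : U →+* V), Irreducible w ∧
    w ^ s = p ∧ Function.Surjective f ∧ RingHom.ker f = Ideal.span {w ^ (s * k)} ∧
    Ch (f w) (s * k) ∧ Nonempty (ResidueField V ≃+* ResidueField W) ∧
    (∀ a, w ∣ j a → (p : W) ∣ a) ∧ ∀ z, ∃ a : Fin s → W, z = ∑ i, j (a i) * w ^ (i : ℕ)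

structure BcV (p : ℕ) {W G V Λ : Type u} [CommRing W] {r : ℕ} [CommRing G] [Algebra (PS W r) G]
    [CommRing V] [CommRing Λ] [Algebra (PS V r) Λ] [Algebra V Λ] {κ : Type} [Fintype κ]
    [DecidableEq κ] (b : Module.Basis κ (PS W r) G) (b' : Module.Basis κ (PS V r) Λ)
    (j : W →+* V) (v : V) (s : ℕ) (i : G →+* Λ) : Prop where
  alg : ∀ a, i (algebraMap (PS W r) G a) = algebraMap (PS V r) Λ (MvPowerSeries.map j a)
  mat : ∀ g, Algebra.leftMulMatrix b' (i g) = (Algebra.leftMulMatrix b g).map (MvPowerSeries.map j)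
  nzd : ∀ g, Nzm (Ideal.span {(p : G)}) g → Nzd ((p : Λ) - i g)
  can : ∀ g ∈ (Ideal.span (Set.range X) ^ (s + 1)).map (algebraMap (PS W r) G) ⊔
    Ideal.span {(p : G) ^ 2}, ∀ z, ((p : Λ) - i g) * z ∈
      (mw v r ^ s).map (algebraMap (PS V r) Λ) ^ 2 → z ∈ (mw v r ^ s).map (algebraMap (PS V r) Λ)
  len : ∀ 𝔫 : Ideal G, Module.length V (Λ ⧸ 𝔫.map i) ≤ s * ln 𝔫
  len' : ∀ I : Ideal (PS W r),
    Module.length V (PS V r ⧸ I.map (MvPowerSeries.map (σ := Fin r) j)) ≤ s * ln I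

def BcVStmt : Prop := ∀ (p : ℕ) (W G V : Type u) [CommRing W] [IsDomain W]
  [IsDiscreteValuationRing W] (r : ℕ) [CommRing G] [IsLocalRing G] [Algebra W G]
  [Algebra (PS W r) G] [IsScalarTower W (PS W r) G] [CommRing V] [IsLocalRing V] (κ : Type)
  [Fintype κ] [DecidableEq κ] (b : Module.Basis κ (PS W r) G) (j : W →+* V) (v : V) (s n0 : ℕ),
  Coh p W → CW W G → Ch v n0 → 1 ≤ s → 2 * s ≤ n0 → v ^ s = p → (∀ a, v ∣ j a → (p : W) ∣ a) →
  (∀ z, ∃ a : Fin s → W, z = ∑ i, j (a i) * v ^ (i : ℕ)) →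
  ∃ (Λ : Type u) (_ : CommRing Λ) (_ : Algebra (PS V r) Λ) (_ : Algebra V Λ)
    (_ : IsScalarTower V (PS V r) Λ) (b' : Module.Basis κ (PS V r) Λ) (i : G →+* Λ),
    BcV p b b' j v s i

def EngStmt : Prop := ∀ (p : ℕ) (W T : Type u) [CommRing W] [IsDomain W]
  [IsDiscreteValuationRing W] [CommRing T] (m J : Ideal T) (c d N r : ℕ) (ι : Type) [Fintype ι]
  [DecidableEq ι] (deg : ι → ℕ) (dF : Matrix ι ι T) (i0 : ι) (y : Fin d → T) (xT : Fin r → T),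
  Coh p W → 1 ≤ d → d + c ≤ r → m ≠ ⊤ → (∀ b, b ∉ m → IsUnit b) → Rs J c deg dF i0 → J ≤ m →
  (∀ l, y l ∈ m) → (∀ j, xT j ^ N ∈ J ⊔ Ideal.span (Set.range y)) →
  (p : T) ^ N ∈ J ⊔ Ideal.span (Set.range y) →
  ∃ C : ℕ, ∀ (t s k q o : ℕ) (hq : q ≠ 0) (G : Type u) [CommRing G] [IsLocalRing G] [Algebra W G]
  [Algebra (PS W r) G] [IsScalarTower W (PS W r) G] (κ : Type) [Fintype κ] [DecidableEq κ]
  (b : Module.Basis κ (PS W r) G) (τ γ : G) (Φ : T →+ G ⧸ Ideal.span {(p : G) ^ k, (p : G) - τ}),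
  1 ≤ t → 1 ≤ s → s ≤ q → C * (N * d * t * q + s) ≤ s * k → CW W G →
  τ ∈ (Ideal.span (Set.range X) ^ (s + 1)).map (algebraMap (PS W r) G) ⊔
    Ideal.span {(p : G) ^ 2} → Nzm (Ideal.span {(p : G)}) τ →
  (MvPowerSeries.map (residue W) (Algebra.leftMulMatrix b γ).det).order ≤ o →
  (∀ a a', Φ a * Φ a' = Ideal.Quotient.mk _ γ * Φ (a * a')) → Φ 1 = Ideal.Quotient.mk _ γ →
  (∀ j a, Φ (xT j * a) = Ideal.Quotient.mk _ (algebraMap (PS W r) G (X j)) ^ q * Φ a) →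
  (∀ a ∈ m, Φ a ∈ ((Ideal.span (Set.range X) ^ s).map (algebraMap (PS W r) G) ⊔
    Ideal.span {(p : G)}).map (Ideal.Quotient.mk _)) →
  ∀ (𝔫 : Ideal G) (lam : ℕ) (I0 : Ideal (PS W r)) (lam' : ℕ),
  𝔫 ≤ Ideal.span {z | ∃ a ∈ J ⊔ bx y t, Ideal.Quotient.mk _ (γ * z) = Φ a} → ln 𝔫 ≤ lam →
  I0 ≤ Ideal.span {z | ∃ a ∈ J ⊔ bx y t,
    Ideal.Quotient.mk _ (γ * algebraMap (PS W r) G (expand q hq z)) = Φ a} →
  ln (I0 ⊔ Ideal.span {(p : PS W r) ^ (r + 1)}) ≤ lam' →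
  t ^ d * Fintype.card κ * s ^ (r + 1) ≤ s * lam + C * ((o * (t + 2) * t ^ d + Fintype.card κ * t ^ d) *
    (N * d * t * q + s + 1) ^ r + Fintype.card κ * (s + q) ^ (r + 1) * (lam' + 1))

def LamStmt : Prop := ∀ (W A0 A T : Type u) [CommRing W] [IsLocalRing W] [CommRing A0]
  [IsLocalRing A0] [Algebra W A0] [CommRing A] [IsLocalRing A] [Algebra W A] [CommRing T]
  (f0 : A0 →+* T) (f : A →+* T) (I : Ideal T) (g0 : A0) (g : A), CW W A0 → CW W A →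
  (∀ c, f0 (algebraMap W A0 c) = f (algebraMap W A c)) → (∀ b, ∃ a, b - f a ∈ I) →
  ln (I.comap f) ≠ ⊤ → f0 g0 = f g →
  ln (I.comap f0 ⊔ Ideal.span {g0}) ≤ ln (I.comap f ⊔ Ideal.span {g})

def NumFStmt : Prop := ∀ (p C K N d r h : ℕ) (U lam' : ℕ → ℝ) (ER ES : ℝ), 2 ≤ p →
  (∀ t, 0 ≤ U t) → (∀ t, 0 ≤ lam' t) → Tendsto (fun t : ℕ => U t / (t : ℝ) ^ d) atTop (𝓝 ES) →
  Tendsto (fun t : ℕ => (lam' t + 1) / (t : ℝ) ^ d) atTop (𝓝 0) →
  (∀ t : ℕ, 1 ≤ t → ∀ j : ℕ, 1 ≤ j → ∀ᶠ e : ℕ in atTop, ∃ κ s q o : ℕ, q = p ^ e ∧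
    s + 1 = (p ^ j - 1) * p ^ (e - j) ∧ o = K * p ^ (e * h) * p ^ (e - j) ∧
    (q : ℝ) ^ h * ER ≤ κ ∧ (t : ℝ) ^ d * κ * s ^ (r + 1) ≤ s * ((q : ℝ) ^ (r + h) * U t) +
      C * (((o : ℝ) * (t + 2) * t ^ d + κ * t ^ d) * (N * d * t * q + s + 1) ^ r +
        κ * ((s : ℝ) + q) ^ (r + 1) * (lam' t + 1))) → ER ≤ ES

/-- the situation after the Cohen factorisation -/
structure Sit (p : ℕ) {W T' T : Type u} [CommRing W] {n h d : ℕ} [CommRing T'] [Algebra W T']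
    [Algebra (PS W n) T'] [CommRing T] [Algebra T' T] (ϖ : BB W n h →ₐ[W] T')
    (F : Fin h → BB W n h) (j1 j2 : Fin h) (m J : Ideal T) (y : Fin d → PS W n) (ER ES : ℝ) :
    Prop where
  pr : Pr p ϖ F j2
  ov : Ov p (fun l => ϖ (X (xv j1 l))) (ϖ (X (some (.inr j2)))) m
  d1 : 1 ≤ d
  ne : m ≠ ⊤
  unit : ∀ b, b ∉ m → IsUnit b
  rs : ∃ (c : ℕ) (ι : Type) (_ : Fintype ι) (_ : DecidableEq ι) (deg : ι → ℕ) (dF : Matrix ι ι T)
    (i0 : ι), d + c ≤ n + 1 ∧ Rs J c deg dF i0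
  jm : J ≤ m
  xm : ∀ l, algebraMap T' T (ϖ (X (xv j1 l))) ∈ m
  ym : ∀ l, algebraMap T' T (algebraMap (PS W n) T' (y l)) ∈ m
  prim : ∃ N, m ^ N ≤ J ⊔
    Ideal.span (Set.range fun l => algebraMap T' T (algebraMap (PS W n) T' (y l)))
  sur : ∀ b, ∃ a, b - algebraMap T' T (algebraMap (PS W n) T' a) ∈ J
  eps : ∃ (ε : T') (Δ : PS W n), (∀ z ∈ J.comap (algebraMap T' T), ε * z ∈
      ((J.comap (algebraMap T' T)).comap (algebraMap (PS W n) T')).map (algebraMap (PS W n) T')) ∧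
    ε - algebraMap (PS W n) T' Δ ∈ J.comap (algebraMap T' T) ∧
    Nzm (J.comap (algebraMap T' T)) (algebraMap (PS W n) T' (p * Δ))
  fin : ln ((J.comap (algebraMap T' T)).comap (algebraMap (PS W n) T') ⊔ bx y 1) ≠ ⊤
  es : ∀ t : ℕ, 1 ≤ t → ES * (t : ℝ) ^ d ≤
    (ln ((J.comap (algebraMap T' T)).comap (algebraMap (PS W n) T') ⊔ bx y t)).toNat
  es' : Tendsto (fun t : ℕ => ((ln ((J.comap (algebraMap T' T)).comap (algebraMap (PS W n) T') ⊔
    bx y t)).toNat : ℝ) / (t : ℝ) ^ d) atTop (𝓝 ES)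
  er : ∃ (x : Fin d → T') (𝔶 : Ideal T') (π1 : T'),
    Ideal.span (Set.range fun l => ϖ (X (xv j1 l))) ≤ bx x 1 ⊔ 𝔶 ∧
    (∀ b, ∃ b', algebraMap T' T b' = algebraMap T' T π1 * b) ∧ (∀ s, lm T (bx x s ⊔ 𝔶) ≠ ⊤) ∧
    (∀ s : ℕ, 1 ≤ s → ER * (s : ℝ) ^ d ≤ (lm T (bx x s ⊔ 𝔶)).toNat) ∧ ∀ a : ℕ,
    Tendsto (fun s : ℕ => ((lm T (bx x s ⊔ 𝔶 ⊔ Ideal.span {(p : T') ^ a * π1})).toNat : ℝ) /
      (s : ℝ) ^ d) atTop (𝓝 0)

def FinStmt : Prop := ∀ (p : ℕ) [Fact p.Prime] (W T' T : Type u) [CommRing W] [IsDomain W]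
  [IsDiscreteValuationRing W] (σ : W ≃+* W) (n h d : ℕ) [CommRing T'] [Algebra W T']
  [Algebra (PS W n) T'] [CommRing T] [Algebra T' T] (ϖ : BB W n h →ₐ[W] T')
  (F : Fin h → BB W n h) (j1 j2 : Fin h) (m J : Ideal T) (y : Fin d → PS W n) (ER ES : ℝ),
  Coh p W → Frb p σ → Sit p ϖ F j1 j2 m J y ER ES → ER ≤ ES

/-- the tensor product `T = A_T ⊗[A] R` of the Cohen factorisation -/
structure Ten (p : ℕ) {C W R S T : Type u} [CommRing C] [CommRing W] [CommRing R] [IsLocalRing R]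
    [CommRing S] [Algebra W S] [CommRing T] [IsLocalRing T] (n c : ℕ)
    [Algebra (PS C n) (PS W (n + (c + 1)))] [Algebra (PS W (n + (c + 1))) T] [Algebra R T]
    (f : R →+* S) (π : PS W (n + (c + 1)) →ₐ[W] S) (ρ : T →+* S) : Prop where
  fin : Module.Finite (PS W (n + (c + 1))) T
  flat : Module.Flat R T
  flat' : Module.Flat (PS C n) (PS W (n + (c + 1)))
  gx : ∀ i, algebraMap (PS C n) (PS W (n + (c + 1))) (X i) = X (Fin.castAdd (c + 1) i)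
  gp : ∀ a, (p : PS W (n + (c + 1))) ∣ algebraMap (PS C n) _ a → (p : PS C n) ∣ a
  sur : Function.Surjective π
  r1 : ∀ a, ρ (algebraMap _ T a) = π a
  r2 : ∀ a, ρ (algebraMap R T a) = f a
  max : maximalIdeal T = (maximalIdeal R).map (algebraMap R T) ⊔ Ideal.span (Set.range
    fun i : Fin (c + 1) => algebraMap (PS W (n + (c + 1))) T (X (Fin.natAdd n i)))
  len : ∀ I : Ideal R, ln (I.map (algebraMap R T) ⊔ Ideal.span (Set.range
    fun i : Fin (c + 1) => algebraMap (PS W (n + (c + 1))) T (X (Fin.natAdd n i)))) = ln I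
  rs : ∃ (ι : Type) (_ : Fintype ι) (_ : DecidableEq ι) (deg : ι → ℕ) (dF : Matrix ι ι T) (i0 : ι),
    Rs (RingHom.ker ρ) (c + 1) deg dF i0

def TenStmt : Prop := ∀ (p : ℕ) [Fact p.Prime] (C W R S : Type u) [CommRing C] [IsDomain C]
  [IsDiscreteValuationRing C] [CommRing W] [IsDomain W] [IsDiscreteValuationRing W] [CommRing R]
  [IsLocalRing R] [Algebra C R] [CommRing S] [IsLocalRing S] [Algebra W S] (f : R →+* S)
  [IsLocalHom f] (n : ℕ) [Algebra (PS C n) R] [IsScalarTower C (PS C n) R]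
  [Module.Finite (PS C n) R], Coh p C → Coh p W → CW C R → CW W S → f.Flat →
  (∀ i, algebraMap (PS C n) R (X i) ∈ maximalIdeal R) →
  ∃ (c : ℕ) (T : Type u) (_ : CommRing T) (_ : IsLocalRing T)
    (_ : Algebra (PS C n) (PS W (n + (c + 1)))) (_ : Algebra (PS W (n + (c + 1))) T)
    (_ : Algebra R T) (_ : Algebra (PS C n) T) (_ : IsScalarTower (PS C n) (PS W (n + (c + 1))) T)
    (_ : IsScalarTower (PS C n) R T) (_ : Algebra.IsPushout (PS C n) (PS W (n + (c + 1))) R T)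
    (π : PS W (n + (c + 1)) →ₐ[W] S) (ρ : T →+* S), Ten (C := C) p n c f π ρ

def SitStmt : Prop := ∀ (p : ℕ) [Fact p.Prime] (C W R S : Type u) [CommRing C] [IsDomain C]
  [IsDiscreteValuationRing C] [CommRing W] [IsDomain W] [IsDiscreteValuationRing W] (σ : W ≃+* W)
  [CommRing R] [IsDomain R] [IsLocalRing R] [Algebra C R] [CommRing S] [IsLocalRing S]
  [Algebra W S] (f : R →+* S) [IsLocalHom f] (n : ℕ) [Algebra (PS C n) R]
  [IsScalarTower C (PS C n) R] [Module.Finite (PS C n) R] (x : Fin (n + 1) → R) (c : ℕ)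
  (eR eS : ℝ), Coh p C → Coh p W → Frb p σ → CW C R → CW W S → f.Flat →
  Function.Injective (algebraMap (PS C n) R) → (∀ i, algebraMap (PS C n) R (X i) = x i.succ) →
  (∀ i, x i ∈ maximalIdeal R) →
  maximalIdeal R ^ (c + 1) ≤ Ideal.span (Set.range x) * maximalIdeal R ^ c → Grow S (n + 1) →
  Mult R (n + 1) eR → Mult S (n + 1) eS →
  ∃ (T' T : Type u) (n' h : ℕ) (_ : CommRing T') (_ : Algebra W T') (_ : Algebra (PS W n') T')
    (_ : CommRing T) (_ : Algebra T' T) (ϖ : BB W n' h →ₐ[W] T') (F : Fin h → BB W n' h)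
    (j1 j2 : Fin h) (m J : Ideal T) (y : Fin (n + 1) → PS W n'), Sit p ϖ F j1 j2 m J y eR eS

end Vale.Agent.P202.Mx
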