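import Vale.Agent.P202.M.Mf
import Vale.Agent.P202.M.Ub

/-! Shared lemmas for the modules V3 and V4 of part T. -/

open Finset MvPowerSeries IsLocalRing

namespace Vale.Agent.P202.Mx

universe u

namespace V3

theorem ln_comap {G M : Type u} [CommRing G] [CommRing M] (f : G →+* M)
    (hf : Function.Surjective f) (I : Ideal M) : ln (I.comap f) = ln I := by
  letI := f.toAlgebra
  rw [ln, ln, ← Module.length_eq_of_surjective (R := M) (S := G) hf]
  let g : G →ₐ[G] M ⧸ I := (Ideal.Quotient.mkₐ G I).comp (Algebra.ofId G M)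
  have hg : Function.Surjective g := Ideal.Quotient.mk_surjective.comp hf
  have hk : I.comap f = RingHom.ker g := by
    ext a
    rw [RingHom.mem_ker, Ideal.mem_comap, ← Ideal.Quotient.eq_zero_iff_mem]
    rfl
  exact ((Ideal.quotientEquivAlgOfEq G hk).trans
    (Ideal.quotientKerAlgEquivOfSurjective hg)).toLinearEquiv.length_eq

theorem ln_map {G M : Type u} [CommRing G] [CommRing M] (f : G →+* M)
    (hf : Function.Surjective f) {K : Ideal G} (hK : RingHom.ker f ≤ K) : ln (K.map f) = ln K := by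
  rw [← ln_comap f hf, Ideal.comap_map_of_surjective f hf, ← RingHom.ker_eq_comap_bot,
    sup_eq_left.2 hK]

theorem len_free {A R : Type u} [CommRing A] [IsLocalRing A] [CommRing R] [Algebra A R]
    [Module.Free A R] [Module.Finite A R] :
    Module.length A (R ⧸ (maximalIdeal A).map (algebraMap A R)) = Module.finrank A R := by
  have h1 : ln (maximalIdeal A) = 1 := Module.length_eq_one_iff.2
    (isSimpleModule_iff_isCoatom.2 (Ideal.isMaximal_def.1 (maximalIdeal.isMaximal A)))
  rw [cl_eq (k := A), ← Ideal.smul_top_eq_map, Ubm.rl_free, h1, mul_one]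

theorem twist {P M ι : Type*} [CommRing P] [CommRing M] (Θ : P ≃+* P) (π0 : P →+* M) (ρ : ι → P)
    (h : RingHom.ker π0 = Ideal.span (Set.range ρ)) :
    RingHom.ker (π0.comp Θ.toRingHom) = Ideal.span (Set.range fun i => Θ.symm (ρ i)) := by
  rw [← RingHom.comap_ker, h]
  refine (Ideal.map_symm Θ).symm.trans ?_
  rw [Ideal.map_span, ← Set.range_comp]
  rfl

theorem ker_opt {P M ι : Type*} [CommRing P] [CommRing M] (ρ : ι → P) (a : P)
    (ϱ : P ⧸ Ideal.span (Set.range ρ) →+* M)
    (h : RingHom.ker ϱ = Ideal.span {Ideal.Quotient.mk _ a}) :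
    RingHom.ker (ϱ.comp (Ideal.Quotient.mk _)) =
      Ideal.span (Set.range fun o : Option ι => o.elim a ρ) := by
  rw [← RingHom.comap_ker, h, ← Set.image_singleton, ← Ideal.map_span,
    Ideal.comap_map_of_surjective _ Ideal.Quotient.mk_surjective, ← RingHom.ker_eq_comap_bot,
    Ideal.mk_ker, Option.range_eq, Ideal.span_insert]
  rfl

/-- coefficientwise automorphism -/
noncomputable def mapE {W : Type u} [CommRing W] (θ : W ≃+* W) (ν : Type) :
    MvPowerSeries ν W ≃+* MvPowerSeries ν W :=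
  RingEquiv.ofRingHom (MvPowerSeries.map θ.toRingHom) (MvPowerSeries.map θ.symm.toRingHom)
    (RingHom.ext fun a => MvPowerSeries.ext fun d => θ.apply_symm_apply _)
    (RingHom.ext fun a => MvPowerSeries.ext fun d => θ.symm_apply_apply _)

theorem unif {R ι : Type*} [CommRing R] [Fintype ι] (y : ι → R) (J : Ideal R)
    (h : ∀ i, y i ∈ J.radical) : ∃ N, ∀ i, y i ^ N ∈ J := by
  choose N hN using h
  exact ⟨univ.sup N, fun i => Ideal.pow_mem_of_pow_mem J (hN i) (le_sup (mem_univ i))⟩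

theorem rad_fin {A R : Type*} [CommRing A] [IsLocalRing A] [CommRing R] [IsLocalRing R]
    [Algebra A R] [Module.Finite A R] :
    maximalIdeal R ≤ ((maximalIdeal A).map (algebraMap A R)).radical := by
  rw [Ideal.radical_eq_sInf, le_sInf_iff]
  rintro P ⟨h1, h2⟩
  have h3 : (P.comap (algebraMap A R)).IsMaximal := by
    rw [← (maximalIdeal.isMaximal A).eq_of_le (Ideal.comap_ne_top _ h2.ne_top)
      (Ideal.map_le_iff_le_comap.1 h1)]
    infer_instance
  exact (eq_maximalIdeal (Ideal.isMaximal_of_isIntegral_of_isMaximal_comap P h3)).ge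

theorem mv_map {p : ℕ} {W R : Type u} [CommRing W] [CommRing R] {ν : Type}
    (f : MvPowerSeries ν W →+* R) :
    (mv p W ν).map f = Ideal.span (insert (p : R) (Set.range fun i => f (X i))) := by
  rw [mv, Ideal.map_span, Set.image_insert_eq, map_natCast, ← Set.range_comp]
  rfl

section
variable {p : ℕ} [Fact p.Prime] {W T' : Type u} [CommRing W] [IsDomain W]
  [IsDiscreteValuationRing W] {σ : W ≃+* W} {n h : ℕ} [CommRing T'] [Algebra W T']
  [Algebra (PS W n) T'] {ϖ : BB W n h →ₐ[W] T'} {F : Fin h → BB W n h} {j2 : Fin h}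
  {s : BB W n h →+* WittVector p (BB W n h)}

theorem phX (hF : PhlStmt.{u}) (hy : Hy p σ ϖ F j2 s) (e : ℕ) (v : Bv n h) :
    (phi p σ (Bv n h))^[e] (X v) = X v ^ p ^ e := by
  rw [(hF p W σ (Bv n h) hy.coh hy.frb).2.2.2.2.1, map_X, expand_X]

theorem phC (hF : PhlStmt.{u}) (hy : Hy p σ ϖ F j2 s) (e : ℕ) (c : W) :
    (phi p σ (Bv n h))^[e] (C c) = C (sig σ e c) := by
  rw [(hF p W σ (Bv n h) hy.coh hy.frb).2.2.2.2.1, map_C, expand_C]
  rfl

theorem algX (hy : Hy p σ ϖ F j2 s) (i : Fin n) :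
    algebraMap (PS W n) T' (X i) = ϖ (X (some (.inl i))) := by rw [hy.pr.alg, rename_X]

theorem algC (hy : Hy p σ ϖ F j2 s) (c : W) : algebraMap (PS W n) T' (C c) = ϖ (C c) := by
  rw [hy.pr.alg, rename_C]

/-- the maximal ideal of the envelope is nilpotent modulo `p`, `X ^ q` in the quotient -/
theorem rad {e : ℕ} {M : Type u} [CommRing M] (ϱ : GG p s F e →+* M) (q : ℕ)
    (hτ : ϱ (gm p s F e (X none)) ^ q = p) (J : Ideal M) (hp : (p : M) ∈ J)
    (hX : ∀ i, ϱ (gm p s F e (X (some (.inl i)))) ^ q ∈ J) {𝔪 : Ideal (GG p s F e)} {N : ℕ}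
    (hN : 𝔪 ^ N ≤ Ideal.span {(p : GG p s F e), gm p s F e (X none)} ⊔
      Ideal.span (Set.range fun i => gm p s F e (X (some (.inl i))))) :
    𝔪.map ϱ ≤ J.radical := by
  have h1 : Ideal.span {(p : GG p s F e), gm p s F e (X none)} ⊔
      Ideal.span (Set.range fun i => gm p s F e (X (some (.inl i)))) ≤ J.radical.comap ϱ := by
    refine sup_le (Ideal.span_le.2 ?_) (Ideal.span_le.2 ?_)
    · rintro _ (rfl | rfl)
      · exact Ideal.le_radical (show ϱ _ ∈ J from (map_natCast ϱ p).symm ▸ hp)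
      · exact ⟨q, hτ ▸ hp⟩
    · rintro _ ⟨i, rfl⟩
      exact ⟨q, hX i⟩
  rw [Ideal.map_le_iff_le_comap]
  intro a ha
  have h2 := h1 (hN (Ideal.pow_mem_pow ha N))
  rw [Ideal.mem_comap, map_pow] at h2
  exact Ideal.mem_radical_of_pow_mem h2

end

end V3

end Vale.Agent.P202.Mx
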