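import Vale.Agent.P202.M.SpecT
import Vale.Agent.P202.M.Base
import Vale.Agent.P202.Ev
import Vale.Agent.P202.Unr

/-! Shared lemmas for the modules V1, V2, V5. -/

open Finset Matrix MvPowerSeries Filter Topology IsLocalRing
open scoped Kronecker Nat

namespace Vale.Agent.P202.Mx.Vc

universe u

section gen
variable {A B : Type u} [CommRing A] [CommRing B]

theorem ln_eq (I : Ideal A) : ln I = rl I ⊤ := (rl_top I).symm

theorem ln_anti {I J : Ideal A} (h : I ≤ J) : ln J ≤ ln I := by
  rw [ln_eq, ln_eq]; exact rl_mono h le_sup_right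

theorem ln_comap (f : A →+* B) (hf : Function.Surjective f) (I : Ideal B) :
    ln (I.comap f) = ln I := by
  let := f.toAlgebra
  rw [ln, ln, ← Module.length_eq_of_surjective (S := A) (R := B) hf, cl_eq (k := A) I, ← rl_top]
  refine le_antisymm (rl_le_of_comap (Algebra.linearMap A B) (fun _ _ h => h) fun _ _ => by simp)
    (rl_le_of_map (Algebra.linearMap A B) (fun _ h => h) fun x _ => ?_)
  obtain ⟨a, rfl⟩ := hf x
  exact Submodule.mem_sup_right ⟨a, trivial, rfl⟩

theorem lm_quot (I K : Ideal A) : lm (A ⧸ K) I = ln (I ⊔ K) := by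
  rw [lm, ← rl_top, ln_eq]
  have e : (I • ⊤ : Submodule A (A ⧸ K)).comap K.mkQ = I ⊔ K := by
    rw [Submodule.comap_smul_top_of_surjective _ _ K.mkQ_surjective, K.ker_mkQ]; simp
  refine le_antisymm (rl_le_of_map K.mkQ (fun x hx => (e ▸ hx : x ∈ Submodule.comap _ _))
    (by simp)) (rl_le_of_comap K.mkQ (fun x _ hx => e ▸ hx) fun _ _ => by simp)

theorem finlen [IsLocalRing A] [IsNoetherianRing A] {I : Ideal A}
    (h : maximalIdeal A ≤ I.radical) : ln I ≠ ⊤ := by
  by_cases hI : I = ⊤
  · have : Subsingleton (A ⧸ I) := Ideal.Quotient.subsingleton_iff.2 hI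
    simp [ln]
  have : IsArtinianRing (A ⧸ I) := IsLocalRing.quotient_artinian_of_mem_minimalPrimes_of_isLocalRing
    I ⟨⟨inferInstance, le_maximalIdeal hI⟩, fun J hJ _ => h.trans (hJ.1.radical_le_iff.2 hJ.2)⟩
  have : IsArtinian A (A ⧸ I) :=
    isArtinian_of_surjective_algebraMap (Ideal.Quotient.mk_surjective (I := I))
  exact Module.length_ne_top

theorem rad_max [IsLocalRing A] [IsLocalRing B] [Algebra A B] [Algebra.IsIntegral A B] :
    maximalIdeal B ≤ ((maximalIdeal A).map (algebraMap A B)).radical := by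
  rw [Ideal.radical_eq_sInf]
  refine le_sInf fun P ⟨h, hP⟩ => ?_
  have : P.comap (algebraMap A B) = maximalIdeal A :=
    ((maximalIdeal.isMaximal A).eq_of_le (Ideal.comap_ne_top _ hP.ne_top)
      (Ideal.map_le_iff_le_comap.1 h)).symm
  exact (eq_maximalIdeal (Ideal.isMaximal_of_isIntegral_of_isMaximal_comap (R := A) P
    (this ▸ inferInstance))).ge

theorem max_map [IsLocalRing A] [IsLocalRing B] (f : A →+* B) (hf : Function.Surjective f) :
    (maximalIdeal A).map f = maximalIdeal B := by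
  have := IsLocalHom.of_surjective f hf
  rw [← maximalIdeal_comap f, Ideal.map_comap_of_surjective _ hf]

theorem pow_le [IsNoetherianRing A] {I J : Ideal A} (h : I ≤ J.radical) : ∃ N, I ^ N ≤ J :=
  Ideal.exists_pow_le_of_le_radical_of_fg h I.fg_of_isNoetherianRing

theorem mem_map_iff [Algebra A B] {κ : Type*} (b : Module.Basis κ A B) (I : Ideal A) (x : B) :
    x ∈ I.map (algebraMap A B) ↔ ∀ k, b.repr x k ∈ I := by
  constructor
  · intro hx k
    suffices ∀ y, b.repr (x * y) k ∈ I by simpa using this 1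
    induction hx using Submodule.span_induction with
    | mem x hx =>
      obtain ⟨z, hz, rfl⟩ := hx
      intro y
      rw [← Algebra.smul_def]
      simpa using I.mul_mem_right _ hz
    | zero => simp
    | add x z _ _ hx hz => exact fun y => by simpa [add_mul] using add_mem (hx y) (hz y)
    | smul c x _ hx => exact fun y => by rw [smul_eq_mul, mul_comm c, mul_assoc]; exact hx _
  · intro h
    rw [← b.linearCombination_repr x, Finsupp.linearCombination_apply]
    exact sum_mem fun k _ => by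
      simp only [Algebra.smul_def]; exact Ideal.mul_mem_right _ _ (Ideal.mem_map_of_mem _ (h k))

theorem nzm_free [Algebra A B] [Module.Free A B] {I : Ideal A} {a : A} (h : Nzm I a) :
    Nzm (I.map (algebraMap A B)) (algebraMap A B a) := fun x hx => by
  rw [mem_map_iff (Module.Free.chooseBasis A B)] at hx ⊢
  exact fun k => h _ (by simpa [← Algebra.smul_def] using hx k)

theorem nzd_free [Algebra A B] [Module.Free A B] {a : A} (h : Nzd a) : Nzd (algebraMap A B a) :=
  fun x hx => by
    have := nzm_free (B := B) (I := ⊥) (a := a) h x (by simpa using hx)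
    simpa using this

theorem nzm_comap (f : A →+* B) {I : Ideal B} {a : A} (h : Nzm I (f a)) : Nzm (I.comap f) a :=
  fun x hx => h (f x) (by simpa using hx)

theorem nzm_of_comap (f : A →+* B) (hf : Function.Surjective f) {I : Ideal B} {a : A}
    (h : Nzm (I.comap f) a) : Nzm I (f a) := fun x hx => by
  obtain ⟨x, rfl⟩ := hf x
  exact h x (by simpa using hx)

theorem ln_max [IsLocalRing A] : ln (maximalIdeal A) = 1 := by
  have : IsSimpleModule A (A ⧸ maximalIdeal A) :=
    isSimpleModule_iff_isCoatom.2 (maximalIdeal.isMaximal A).1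
  exact Module.length_eq_one A _

/-- lengths under a free local extension -/
theorem ln_map [IsLocalRing A] [IsNoetherianRing A] [IsLocalRing B] [IsNoetherianRing B]
    [Algebra A B] [Module.Free A B] (h : (maximalIdeal A).map (algebraMap A B) ≤ maximalIdeal B)
    (I : Ideal A) :
    ln (I.map (algebraMap A B)) = ln I * ln ((maximalIdeal A).map (algebraMap A B)) := by
  have : IsLocalHom (algebraMap A B) :=
    ⟨fun a ha => by_contra fun h' => h (Ideal.mem_map_of_mem _ h') ha⟩
  exact (unrStmt.1 A B (algebraMap A B) (RingHom.flat_algebraMap_iff.2 inferInstance)).2.2 I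

end gen

section ps
variable {W : Type u} [CommRing W] {σ : Type}

theorem C_dvd {p : ℕ} {f : MvPowerSeries σ W} : (p : MvPowerSeries σ W) ∣ f ↔
    ∀ e, (p : W) ∣ coeff e f := by
  rw [← map_natCast (C : W →+* MvPowerSeries σ W), C_dvd_iff]

theorem nzm_X (p : ℕ) (i : σ) : Nzm (Ideal.span {(p : MvPowerSeries σ W)}) (X i) := fun f hf => by
  rw [Ideal.mem_span_singleton, C_dvd] at hf ⊢
  intro e
  have := hf (Finsupp.single i 1 + e)
  rwa [X, coeff_add_monomial_mul, one_mul] at this

theorem p_mem (p : ℕ) : (p : MvPowerSeries σ W) ∈ mv p W σ := Ideal.subset_span (Set.mem_insert _ _)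

theorem X_mem (p : ℕ) (i : σ) : X i ∈ mv p W σ :=
  Ideal.subset_span (Set.mem_insert_of_mem _ ⟨i, rfl⟩)

theorem mv_le {p : ℕ} {S : Type*} [CommRing S] (f : MvPowerSeries σ W →+* S) {J : Ideal S}
    (hp : (p : S) ∈ J) (hX : ∀ i, f (X i) ∈ J) : (mv p W σ).map f ≤ J := by
  rw [mv, Ideal.map_span, Ideal.span_le]
  rintro _ ⟨_, rfl | ⟨i, rfl⟩, rfl⟩
  · simpa using hp
  · exact hX i

variable [Fintype σ]

theorem mem_box (p : ℕ) (a : σ → ℕ) (f : MvPowerSeries σ W) :
    f ∈ Ideal.span (insert (p : MvPowerSeries σ W) (Set.range fun i => X i ^ a i)) ↔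
      ∀ m : σ →₀ ℕ, (∀ i, m i < a i) → (p : W) ∣ coeff m f := by
  classical
  constructor
  · intro hf m hm
    obtain ⟨c, z, hz, rfl⟩ := Ideal.mem_span_insert.1 hf
    obtain ⟨d, rfl⟩ := Ideal.mem_span_range_iff_exists_fun.1 hz
    rw [map_add, map_sum]
    refine dvd_add (C_dvd.1 (dvd_mul_left _ _) m) (dvd_sum fun i _ => ?_)
    rw [X_pow_dvd_iff.1 (dvd_mul_left _ _) m (hm i)]
    exact dvd_zero _
  · intro h
    let g : MvPowerSeries σ W := fun m => if ∀ i, m i < a i then coeff m f else 0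
    have hg : ∀ m, coeff m g = if ∀ i, m i < a i then coeff m f else 0 := fun _ => rfl
    obtain ⟨g', h1⟩ : (p : MvPowerSeries σ W) ∣ g := C_dvd.2 fun m => by
      rw [hg]
      split_ifs with c
      · exact h m c
      · exact dvd_zero _
    rw [← add_sub_cancel g f]
    refine add_mem (h1 ▸ Ideal.mul_mem_right _ _ (Ideal.subset_span (Set.mem_insert _ _)))
      (EvL.mem_span_mon _ (univ.image fun i => Finsupp.single i (a i)) (fun t ht => ?_) _
        fun m hm => ?_)
    · obtain ⟨i, -, rfl⟩ := mem_image.1 ht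
      exact Ideal.subset_span (Set.mem_insert_of_mem _ ⟨i, X_pow_eq _ _⟩)
    · rw [map_sub, hg, if_pos, sub_self]
      intro i
      simpa using hm _ (mem_image_of_mem _ (mem_univ i))

theorem ln_box (hL : LenStmt.{u}) {p : ℕ} [IsDomain W] [IsDiscreteValuationRing W]
    (hW : Coh p W) (hE : EvW p W σ) (a : σ → ℕ) :
    ln (Ideal.span (insert (p : MvPowerSeries σ W) (Set.range fun i => X i ^ a i))) =
      (∏ i, a i : ℕ) := by
  classical
  let F : MvPowerSeries σ W →ₗ[W] ((∀ i, Fin (a i)) → W ⧸ maximalIdeal W) :=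
    LinearMap.pi fun α => (maximalIdeal W).mkQ ∘ₗ
      coeff (Finsupp.equivFunOnFinite.symm fun i => (α i : ℕ))
  have hF : Function.Surjective F := fun y => by
    choose c hc using fun α => Submodule.mkQ_surjective _ (y α)
    let g : MvPowerSeries σ W := fun m => if h : ∀ i, m i < a i then c fun i => ⟨m i, h i⟩ else 0
    have hg : ∀ m, coeff m g = if h : ∀ i, m i < a i then c fun i => ⟨m i, h i⟩ else 0 :=
      fun _ => rfl
    exact ⟨g, funext fun α => by simp [F, hg, ← hc]⟩
  have hk : (Ideal.span (insert (p : MvPowerSeries σ W)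
      (Set.range fun i => X i ^ a i))).restrictScalars W = LinearMap.ker F := by
    ext f
    simp only [Submodule.restrictScalars_mem, mem_box, LinearMap.mem_ker, funext_iff, F,
      LinearMap.pi_apply, LinearMap.comp_apply, Submodule.mkQ_apply, Pi.zero_apply,
      Submodule.Quotient.mk_eq_zero, hW.max, Ideal.mem_span_singleton]
    exact ⟨fun h α => h _ fun i => (α i).2, fun h m hm => by simpa using h fun i => ⟨m i, hm i⟩⟩
  rw [ln, ← hL W _ _ hE.cw.loc hE.cw.res, cl_eq, hk, rl_top,
    (F.quotKerEquivOfSurjective hF).length_eq, Module.length_pi_of_fintype]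
  have := ln_max (A := W)
  simp [ln] at this
  simp [this]

end ps

section hy
variable {p : ℕ} [Fact p.Prime] {W T' : Type u} [CommRing W] [IsDomain W]
  [IsDiscreteValuationRing W] {σ : W ≃+* W} {n h : ℕ} [CommRing T'] [Algebra W T']
  [Algebra (PS W n) T'] {ϖ : BB W n h →ₐ[W] T'} {F : Fin h → BB W n h} {j2 : Fin h}
  {s : BB W n h →+* WittVector p (BB W n h)}

omit [Fact p.Prime] [IsDomain W] [IsDiscreteValuationRing W] in
theorem perf [IsLocalRing W] (H : Frb p σ) (a : W) : ∃ b, (p : W) ∣ a - b ^ p :=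
  ⟨σ.symm a, by simpa using H.frob (σ.symm a)⟩

omit [IsDomain W] [IsDiscreteValuationRing W] in
theorem gm_X (e : ℕ) (v : Bv n h) :
    gm p s F e (X v) = Ideal.Quotient.mk (GI p s F e) (X (.inl v)) := by simp [gm]

theorem gF (H : Hy p σ ϖ F j2 s) (e : ℕ) (i : Fin h) :
    gm p s F e (F i) ∈ Ideal.span {(p : GG p s F e), gm p s F e (X none)} := by
  have h0 : (s (F i)).coeff 0 = F i := by
    simpa [WittVector.ghostComponent_apply] using H.dw.gh (F i) 0
  have h1 : (rho p s F e i).coeff 0 ∈ GI p s F e := Ideal.subset_span ⟨(i, 0), rfl⟩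
  rw [← WittVector.constantCoeff_apply, rho, map_sub, map_mul, map_sub, map_natCast] at h1
  simp only [WittVector.constantCoeff_apply, WittVector.map_coeff, h0,
    WittVector.teichmuller_coeff_zero] at h1
  have h2 := Ideal.Quotient.eq.2 h1
  rw [map_mul, map_sub, map_natCast, ← gm_X] at h2
  rw [show gm p s F e (F i) = _ from h2]
  exact Ideal.mul_mem_right _ _ (sub_mem (Ideal.subset_span (by simp)) (Ideal.subset_span (by simp)))

theorem tloc (H : Hy p σ ϖ F j2 s) : IsLocalRing T' :=
  have := H.pr.nt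
  IsLocalRing.of_surjective' ϖ.toRingHom H.pr.sur

theorem tower (H : Hy p σ ϖ F j2 s) : IsScalarTower W (PS W n) T' :=
  .of_algebraMap_eq fun c => by rw [H.pr.alg, AlgHom.commutes, AlgHom.commutes]

theorem tT (H : Hy p σ ϖ F j2 s) : ϖ (X none) = p := by
  have : (p : BB W n h) - X none ∈ RingHom.ker ϖ :=
    H.pr.ker ▸ Ideal.subset_span (Set.mem_insert _ _)
  rw [RingHom.mem_ker, map_sub, map_natCast, sub_eq_zero] at this
  exact this.symm

theorem trad (hV : EvWStmt.{u}) (H : Hy p σ ϖ F j2 s) [IsLocalRing T'] {J : Ideal T'}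
    (hp : (p : T') ∈ J.radical) (hX : ∀ i, ϖ (X (some (.inl i))) ∈ J.radical) :
    maximalIdeal T' ≤ J.radical := by
  have := H.pr.fin
  refine (rad_max (A := PS W n)).trans (Ideal.radical_le_radical_iff.2 ?_)
  rw [(hV p W (Fin n) H.coh).max]
  exact mv_le _ hp fun i => by rw [H.pr.alg, rename_X]; exact hX i

theorem brad (hV : EvWStmt.{u}) (H : Hy p σ ϖ F j2 s) [IsLocalRing T'] {I : Ideal (BB W n h)}
    (h1 : (p : BB W n h) ∈ I) (h2 : X none ∈ I) (h3 : ∀ i, F i ∈ I)
    (h4 : maximalIdeal T' ≤ (I.map ϖ).radical) : mv p W (Bv n h) ≤ I.radical := fun a ha => by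
  rw [← (hV p W _ H.coh).max] at ha
  obtain ⟨m, hm⟩ := h4 (max_map ϖ.toRingHom H.pr.sur ▸ Ideal.mem_map_of_mem _ ha)
  have hk : RingHom.ker ϖ ≤ I := by
    rw [H.pr.ker, Ideal.span_le]
    rintro _ (rfl | ⟨i, rfl⟩)
    · exact sub_mem h1 h2
    · exact h3 i
  have h5 : a ^ m ∈ (I.map ϖ).comap ϖ := by simpa using hm
  rw [Ideal.comap_map_of_surjective _ H.pr.sur] at h5
  exact ⟨m, sup_le le_rfl hk h5⟩

omit [Fact p.Prime] [IsDomain W] [IsDiscreteValuationRing W] in
theorem card_G (e : ℕ) {τ : Type} [Fintype τ] (hτ : Fintype.card τ = n + 1) :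
    Fintype.card (Gv n h e) = Fintype.card (Fin h × Fin (e + 1)) + Fintype.card τ := by
  simp [hτ]; ring

end hy

end Vale.Agent.P202.Mx.Vc
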